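import Crest.Agent.Lib.TI.Geom

/-!
# Variance along a geodesic for invariant kernels on directed edges (S0241 project, module TI.BSV)

`K a b c d` is the covariance of the random variables attached to the directed edges `(a, b)`, `(c, d)`: symmetric, positive semidefinite,
invariant under automorphisms, vanishing at long distance. Then the variance of a sum along a geodesic is linear in its length.

Proof. Let `q ≥ 2`. By invariance (`exists_aut`), for a geodesic `x₀ x₁ … x_{d+2}` the numbers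
`C_F d = K x₀ x₁ x_{d+1} x_{d+2}` and `C_X d = K x₁ x₀ x_{d+1} x_{d+2}` depend only on `d`; write `V` for `K a b a b`.
For a directed edge `(a, b)` let `S_d` be the sum of `Z_e` over the `q^{d+1}` edges `e = (y_d, y_{d+1})`, `y_0 = b`, `y_{d+1}` in `level (d+1) a b`.
Recursion on children and invariance: `Var S_d = q^{d+1} [V + (q-1) ∑_{l ≤ d} q^l C_X (2 l)]` (two different children of the common ancestor at depth `d - l`
give edges of type `C_X (2 l)`). Positive semidefiniteness (Cauchy-Schwarz) with the edge `(b, a)` [resp. the edge (a,b)]: `q^{2d+2} (C_X d)² ≤ V Var S_d` [resp. `q^{2d+2} (C_F d)² ≤ V Var S_d`].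
With `a_d = q^{d/2} |C_X d| / V`: `q a_d² ≤ 1 + (q-1) ∑_{l≤d} a_{2l}`. `A = sup a_d/(d+1)` is finite since `C_X d = 0` for large `d`; `∑_{l≤d} (2l+1) = (d+1)²` gives
`q A² ≤ 1 + (q-1) A`, so `A ≤ 1`. Then `(C_F d)² ≤ V² (d+1)² q^{-d}`, so
`Var ∑_{j<k} Z_j = k V + 2 ∑_{d} (k-1-d) C_F d ≤ k V (1 + 2 ∑_d (d+1) 2^{-d/2}) ≤ 25 k V`.
-/

set_option autoImplicit false

namespace Crest.Agent.Lib.TI

open Classical

variable {V : Type*} {G : SimpleGraph V} [G.LocallyFinite] {q : ℕ}

/-- Hypotheses on the kernel. -/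
structure EdgeKernel (G : SimpleGraph V) (K : V → V → V → V → ℝ) : Prop where
  symm : ∀ a b c d, K a b c d = K c d a b
  psd : ∀ (s : Finset (V × V)) (c : V × V → ℝ), 0 ≤ ∑ e ∈ s, ∑ e' ∈ s, c e * c e' * K e.1 e.2 e'.1 e'.2
  inv : ∀ (g : G ≃g G) (a b c d : V), K (g a) (g b) (g c) (g d) = K a b c d
  fin : ∃ r : ℕ, ∀ a b c d : V, G.Adj a b → G.Adj c d → r ≤ G.dist a c → K a b c d = 0

namespace BSVAux

/-! ### The analytic part -/

/-- The recursive inequality forces the decay of `c`. -/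
theorem analytic {q V₀ : ℝ} (hq : 1 ≤ q) (hV : 0 ≤ V₀) {c : ℕ → ℝ} {r : ℕ} (hc : ∀ d, r ≤ d → c d = 0)
    (h : ∀ d, q ^ (d + 1) * c d ^ 2 ≤
      V₀ * (V₀ + (q - 1) * ∑ l ∈ Finset.range (d + 1), q ^ l * c (2 * l))) (d : ℕ) :
    q ^ d * c d ^ 2 ≤ (V₀ * (d + 1)) ^ 2 := by
  have hq0 : 0 < q := by linarith
  set s := Real.sqrt q with hs
  have hs0 : 0 < s := Real.sqrt_pos.2 hq0
  have hs2 : s ^ 2 = q := Real.sq_sqrt hq0.le
  set a : ℕ → ℝ := fun d => s ^ d * |c d| with ha
  have ha0 : ∀ d, 0 ≤ a d := fun d => by positivity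
  obtain ⟨m, -, hm⟩ := Finset.exists_max_image (Finset.range (r + 1))
    (fun d : ℕ => a d / ((d : ℝ) + 1)) ⟨0, by simp⟩
  set A := a m / ((m : ℝ) + 1) with hA
  have hm1 : (0 : ℝ) < (m : ℝ) + 1 := by positivity
  have hA0 : 0 ≤ A := div_nonneg (ha0 m) hm1.le
  have hAm : a m = A * ((m : ℝ) + 1) := by rw [hA]; field_simp
  have hall : ∀ d, a d ≤ A * ((d : ℝ) + 1) := by
    intro d
    by_cases hd : d < r + 1
    · have := hm d (Finset.mem_range.2 hd)
      have hd1 : (0 : ℝ) < (d : ℝ) + 1 := by positivity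
      rwa [div_le_iff₀ hd1] at this
    · have : c d = 0 := hc d (by omega)
      simp only [ha, this, abs_zero, mul_zero]
      positivity
  have hsum : ∀ n : ℕ, ∑ l ∈ Finset.range n, q ^ l * c (2 * l) ≤ A * (n : ℝ) ^ 2 := by
    intro n
    induction n with
    | zero => simp
    | succ n ih =>
      rw [Finset.sum_range_succ]
      have h1 : q ^ n * c (2 * n) ≤ A * (2 * (n : ℝ) + 1) := by
        have h2 := hall (2 * n)
        have h3 : a (2 * n) = q ^ n * |c (2 * n)| := by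
          simp only [ha]
          rw [pow_mul, hs2]
        have h4 : q ^ n * c (2 * n) ≤ q ^ n * |c (2 * n)| :=
          mul_le_mul_of_nonneg_left (le_abs_self _) (by positivity)
        rw [h3] at h2
        push_cast at h2
        linarith
      push_cast
      nlinarith
  have hA1 : A ≤ V₀ := by
    by_contra hcon
    push Not at hcon
    have h5 := h m
    have h6 := hsum (m + 1)
    have h7 : q ^ (m + 1) * c m ^ 2 = q * (A * ((m : ℝ) + 1)) ^ 2 := by
      rw [← hAm]
      simp only [ha]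
      rw [mul_pow, ← pow_mul, mul_comm m 2, pow_mul, hs2, sq_abs, pow_succ]
      ring
    rw [h7] at h5
    push_cast at h6
    set N := ((m : ℝ) + 1) ^ 2 with hN
    have hN1 : 1 ≤ N := by
      have : (1 : ℝ) ≤ (m : ℝ) + 1 := by
        have : (0 : ℝ) ≤ m := by positivity
        linarith
      nlinarith
    have h8 : V₀ * (V₀ + (q - 1) * ∑ l ∈ Finset.range (m + 1), q ^ l * c (2 * l)) ≤
        V₀ * (V₀ + (q - 1) * (A * N)) := by
      apply mul_le_mul_of_nonneg_left _ hV
      have : (q - 1) * ∑ l ∈ Finset.range (m + 1), q ^ l * c (2 * l) ≤ (q - 1) * (A * N) :=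
        mul_le_mul_of_nonneg_left h6 (by linarith)
      linarith
    have h9 : q * (A * ((m : ℝ) + 1)) ^ 2 = q * (A ^ 2 * N) := by rw [hN]; ring
    rw [h9] at h5
    have h10 : V₀ ^ 2 < A ^ 2 := by nlinarith
    have h11 : V₀ * A ≤ A ^ 2 := by nlinarith
    have h12 : (q - 1) * (V₀ * A * N) ≤ (q - 1) * (A ^ 2 * N) :=
      mul_le_mul_of_nonneg_left (mul_le_mul_of_nonneg_right h11 (by linarith)) (by linarith)
    have h13 : V₀ ^ 2 < A ^ 2 * N := by nlinarith
    nlinarith
  have h1 : a d ≤ V₀ * ((d : ℝ) + 1) := (hall d).trans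
    (mul_le_mul_of_nonneg_right hA1 (by positivity))
  have h2 : q ^ d * c d ^ 2 = a d ^ 2 := by
    simp only [ha]
    rw [mul_pow, ← pow_mul, mul_comm d 2, pow_mul, hs2, sq_abs]
  rw [h2]
  exact pow_le_pow_left₀ (ha0 d) h1 2

/-- Consequence of `analytic`: the partial sums are at most `V₀ (d + 1)²`. -/
theorem sum_le {q V₀ : ℝ} (hq : 1 ≤ q) (hV : 0 ≤ V₀) {c : ℕ → ℝ}
    (h : ∀ d, q ^ d * c d ^ 2 ≤ (V₀ * (d + 1)) ^ 2) (n : ℕ) :
    ∑ l ∈ Finset.range n, q ^ l * c (2 * l) ≤ V₀ * (n : ℝ) ^ 2 := by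
  induction n with
  | zero => simp
  | succ n ih =>
    rw [Finset.sum_range_succ]
    have h1 : q ^ n * c (2 * n) ≤ V₀ * (2 * (n : ℝ) + 1) := by
      have h2 := h (2 * n)
      have h3 : (q ^ n * c (2 * n)) ^ 2 ≤ (V₀ * (2 * (n : ℝ) + 1)) ^ 2 := by
        have : (q ^ n * c (2 * n)) ^ 2 = q ^ (2 * n) * c (2 * n) ^ 2 := by
          rw [mul_pow, ← pow_mul, mul_comm n 2]
        rw [this]
        push_cast at h2
        exact h2
      exact le_of_abs_le (abs_le_of_sq_le_sq h3 (by positivity))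
    push_cast
    nlinarith

/-- The bound for `C_F` from the bound for `C_X` and the geometric decay. -/
theorem cF_bound {q V₀ : ℝ} (hq : 2 ≤ q) (hV : 0 ≤ V₀) {b : ℝ} {d : ℕ}
    (h1 : q ^ (d + 1) * b ^ 2 ≤ V₀ * (V₀ + (q - 1) * (V₀ * ((d : ℝ) + 1) ^ 2))) :
    |b| ≤ V₀ * (((d : ℝ) + 1) * (17 / 24) ^ d) := by
  have hq0 : 0 < q := by linarith
  have hd : (1 : ℝ) ≤ ((d : ℝ) + 1) ^ 2 := by
    have : (1 : ℝ) ≤ (d : ℝ) + 1 := by
      have : (0 : ℝ) ≤ d := by positivity
      linarith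
    nlinarith
  have h2 : q ^ d * b ^ 2 ≤ (V₀ * ((d : ℝ) + 1)) ^ 2 := by
    have h3 : q * (q ^ d * b ^ 2) ≤ q * (V₀ * ((d : ℝ) + 1)) ^ 2 := by
      have e : q * (q ^ d * b ^ 2) = q ^ (d + 1) * b ^ 2 := by rw [pow_succ]; ring
      rw [e]
      refine h1.trans ?_
      have h4 : V₀ * V₀ ≤ V₀ * V₀ * ((d : ℝ) + 1) ^ 2 :=
        le_mul_of_one_le_right (by positivity) hd
      nlinarith
    exact le_of_mul_le_mul_left h3 hq0
  have h5 : b ^ 2 ≤ (V₀ * (((d : ℝ) + 1) * (17 / 24) ^ d)) ^ 2 := by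
    have h6 : ((24 / 17 : ℝ) ^ 2) ^ d ≤ q ^ d :=
      pow_le_pow_left₀ (by norm_num) (by norm_num; linarith) d
    have h7 : ((24 / 17 : ℝ) ^ 2) ^ d * ((17 / 24 : ℝ) ^ d) ^ 2 = 1 := by
      rw [← pow_mul, ← pow_mul, mul_comm 2 d, ← mul_pow, pow_mul]
      norm_num
    have h8 : 0 ≤ b ^ 2 := sq_nonneg b
    calc b ^ 2 = ((24 / 17 : ℝ) ^ 2) ^ d * ((17 / 24 : ℝ) ^ d) ^ 2 * b ^ 2 := by rw [h7, one_mul]
      _ = ((17 / 24 : ℝ) ^ d) ^ 2 * (((24 / 17 : ℝ) ^ 2) ^ d * b ^ 2) := by ring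
      _ ≤ ((17 / 24 : ℝ) ^ d) ^ 2 * (q ^ d * b ^ 2) := by
          apply mul_le_mul_of_nonneg_left _ (by positivity)
          exact mul_le_mul_of_nonneg_right h6 h8
      _ ≤ ((17 / 24 : ℝ) ^ d) ^ 2 * (V₀ * ((d : ℝ) + 1)) ^ 2 :=
          mul_le_mul_of_nonneg_left h2 (by positivity)
      _ = _ := by ring
  exact abs_le_of_sq_le_sq h5 (by positivity)

/-- The series `∑ (d + 1) r ^ d` for `r = 17 / 24`. -/
theorem geom_sum (n : ℕ) :
    ∑ d ∈ Finset.range n, ((d : ℝ) + 1) * (17 / 24 : ℝ) ^ d ≤ 576 / 49 := by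
  have h : ∀ n : ℕ, ∑ d ∈ Finset.range n, ((d : ℝ) + 1) * (17 / 24 : ℝ) ^ d =
      576 / 49 - (24 / 7 * (n : ℝ) + 576 / 49) * (17 / 24 : ℝ) ^ n := by
    intro n
    induction n with
    | zero => simp
    | succ n ih =>
      rw [Finset.sum_range_succ, ih, pow_succ]
      push_cast
      ring
  rw [h]
  have : 0 ≤ (24 / 7 * (n : ℝ) + 576 / 49) * (17 / 24 : ℝ) ^ n := by positivity
  linarith

/-! ### Cauchy–Schwarz for the kernel -/

section CS

variable {K : V → V → V → V → ℝ}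

theorem cs (hK : EdgeKernel G K) (e₀ : V × V) (T : Finset V) (f : V → V × V)
    (hf : Set.InjOn f T) (he : ∀ y ∈ T, f y ≠ e₀) :
    (∑ y ∈ T, K e₀.1 e₀.2 (f y).1 (f y).2) ^ 2 ≤
      K e₀.1 e₀.2 e₀.1 e₀.2 * ∑ y ∈ T, ∑ y' ∈ T, K (f y).1 (f y).2 (f y').1 (f y').2 := by
  set C := ∑ y ∈ T, K e₀.1 e₀.2 (f y).1 (f y).2 with hC
  set W := ∑ y ∈ T, ∑ y' ∈ T, K (f y).1 (f y).2 (f y').1 (f y').2 with hW
  set A := K e₀.1 e₀.2 e₀.1 e₀.2 with hA
  have hnot : e₀ ∉ T.image f := by
    intro h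
    obtain ⟨y, hy, e⟩ := Finset.mem_image.1 h
    exact he y hy e
  have key : ∀ t : ℝ, 0 ≤ A * (t * t) + (2 * C) * t + W := by
    intro t
    have h1 := hK.psd (insert e₀ (T.image f)) (fun e => if e = e₀ then t else 1)
    have h2 : ∀ e ∈ T.image f, (if e = e₀ then t else (1 : ℝ)) = 1 := by
      intro e he'
      rw [if_neg]
      rintro rfl
      exact hnot he'
    have h4 : ∀ a : ℝ, ∀ e : V × V, ∑ e' ∈ T.image f, a * (if e' = e₀ then t else 1) * K e.1 e.2 e'.1 e'.2
        = a * ∑ y ∈ T, K e.1 e.2 (f y).1 (f y).2 := by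
      intro a e
      rw [Finset.sum_image hf, Finset.mul_sum]
      refine Finset.sum_congr rfl fun y hy => ?_
      rw [h2 _ (Finset.mem_image_of_mem f hy), mul_one]
    rw [Finset.sum_insert hnot, Finset.sum_insert hnot, Finset.sum_congr rfl (fun e _ => Finset.sum_insert hnot),
      h4, Finset.sum_image hf] at h1
    simp only [if_true] at h1
    have h5 : ∀ y ∈ T, ((if f y = e₀ then t else 1) * t * K (f y).1 (f y).2 e₀.1 e₀.2 +
        ∑ e' ∈ T.image f, (if f y = e₀ then t else 1) * (if e' = e₀ then t else 1) * K (f y).1 (f y).2 e'.1 e'.2)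
        = t * K e₀.1 e₀.2 (f y).1 (f y).2 + ∑ y' ∈ T, K (f y).1 (f y).2 (f y').1 (f y').2 := by
      intro y hy
      rw [h4, h2 _ (Finset.mem_image_of_mem f hy), one_mul, one_mul, hK.symm (f y).1 (f y).2 e₀.1 e₀.2]
    rw [Finset.sum_congr rfl h5, Finset.sum_add_distrib, ← Finset.mul_sum] at h1
    have : A * (t * t) + (2 * C) * t + W = t * t * A + t * C + (t * C + W) := by ring
    rw [this]
    exact h1
  have := discrim_le_zero key
  unfold discrim at this
  nlinarith

end CS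

/-! ### The tree part -/

section Tree

variable {K : V → V → V → V → ℝ} {V₀ : ℝ}

/-- The value of the kernel on the two end edges of the geodesic from `x` to `y`, first edge reversed. -/
noncomputable def XV (G : SimpleGraph V) [G.LocallyFinite] (K : V → V → V → V → ℝ) (x y : V) : ℝ :=
  K (nxt G x y) x (nxt G y x) y

/-- The value of the kernel on the two end edges of the geodesic from `x` to `y`, same direction. -/
noncomputable def FV (G : SimpleGraph V) [G.LocallyFinite] (K : V → V → V → V → ℝ) (x y : V) : ℝ :=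
  K x (nxt G x y) (nxt G y x) y

/-- The common value of `XV` at distance `D + 2`. -/
noncomputable def cX (G : SimpleGraph V) [G.LocallyFinite] (K : V → V → V → V → ℝ) (D : ℕ) : ℝ :=
  if h : ∃ p : V × V, G.dist p.1 p.2 = D + 2 then XV G K h.choose.1 h.choose.2 else 0

/-- The common value of `FV` at distance `D + 2`. -/
noncomputable def cF (G : SimpleGraph V) [G.LocallyFinite] (K : V → V → V → V → ℝ) (D : ℕ) : ℝ :=
  if h : ∃ p : V × V, G.dist p.1 p.2 = D + 2 then FV G K h.choose.1 h.choose.2 else 0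

variable (hG : RegTree G q) (hK : EdgeKernel G K)
include hG hK

theorem XV_aut {x y x' y' : V} (h : G.dist x y = G.dist x' y') : XV G K x y = XV G K x' y' := by
  obtain ⟨g, rfl, rfl⟩ := exists_aut hG h
  unfold XV
  rw [nxt_aut g hG, nxt_aut g hG, hK.inv]

theorem FV_aut {x y x' y' : V} (h : G.dist x y = G.dist x' y') : FV G K x y = FV G K x' y' := by
  obtain ⟨g, rfl, rfl⟩ := exists_aut hG h
  unfold FV
  rw [nxt_aut g hG, nxt_aut g hG, hK.inv]

theorem XV_eq {D : ℕ} {x y : V} (h : G.dist x y = D + 2) : XV G K x y = cX G K D := by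
  have hex : ∃ p : V × V, G.dist p.1 p.2 = D + 2 := ⟨(x, y), h⟩
  unfold cX
  rw [dif_pos hex]
  exact XV_aut hG hK (h.trans hex.choose_spec.symm)

theorem FV_eq {D : ℕ} {x y : V} (h : G.dist x y = D + 2) : FV G K x y = cF G K D := by
  have hex : ∃ p : V × V, G.dist p.1 p.2 = D + 2 := ⟨(x, y), h⟩
  unfold cF
  rw [dif_pos hex]
  exact FV_aut hG hK (h.trans hex.choose_spec.symm)

omit hK in
theorem nxt_between {x z u : V} (hxz : x ≠ z) (h : G.dist x z + G.dist z u = G.dist x u) :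
    nxt G x z = nxt G x u := by
  have hadj := nxt_adj hG hxz
  have hd := dist_nxt hG hxz
  have h3 : G.dist (nxt G x z) u ≤ G.dist (nxt G x z) z + G.dist z u := hG.tree.connected.dist_triangle
  rcases dist_adj_cases hG hadj u with h4 | h4
  · exact eq_nxt_of hG hadj h4.symm
  · omega

theorem cX_zero {r : ℕ} (hr : ∀ a b c d : V, G.Adj a b → G.Adj c d → r ≤ G.dist a c → K a b c d = 0)
    {D : ℕ} (hD : r ≤ D) : cX G K D = 0 := by
  unfold cX
  split_ifs with h
  · have hp := h.choose_spec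
    set x := h.choose.1
    set y := h.choose.2
    have hxy : x ≠ y := by
      intro e
      rw [e] at hp
      simp at hp
    have hyx : y ≠ x := hxy.symm
    have h1 := dist_nxt hG hxy
    have h2 := dist_nxt hG hyx
    unfold XV
    apply hr _ _ _ _ (nxt_adj hG hxy).symm (nxt_adj hG hyx).symm
    have h3 : G.dist (nxt G x y) y ≤ G.dist (nxt G x y) (nxt G y x) + G.dist (nxt G y x) y :=
      hG.tree.connected.dist_triangle
    have h4 : G.dist (nxt G y x) y = 1 := SimpleGraph.dist_eq_one_iff_adj.2 (nxt_adj hG hyx).symm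
    have h5 : G.dist x y = G.dist y x := SimpleGraph.dist_comm
    omega
  · rfl

omit hK in
theorem level_disj {a b : V} (m : ℕ) (hk : ∀ d ∈ kids G a b, G.Adj b d) :
    (↑(kids G a b) : Set V).PairwiseDisjoint (fun d => level G m b d) := by
  intro d hd d' hd' hne
  rw [Function.onFun, Finset.disjoint_left]
  intro v hv hv'
  obtain ⟨h1, h2⟩ := (mem_level hG (hk d hd) m v).1 hv
  obtain ⟨h1', h2'⟩ := (mem_level hG (hk d' hd') m v).1 hv'
  exact hne (unique_step (u := v) hG (hk d hd) (by omega) (hk d' hd') (by omega))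

omit hK in
theorem nxt_level {a b y : V} (hab : G.Adj a b) {m : ℕ} (hy : y ∈ level G (m + 1) a b) :
    nxt G y b = nxt G y a := by
  obtain ⟨h1, h2⟩ := (mem_level hG hab (m + 1) y).1 hy
  have hyb : y ≠ b := by
    rintro rfl
    simp at h1
  apply nxt_between hG hyb
  rw [SimpleGraph.dist_comm (u := y), SimpleGraph.dist_comm (u := y), h1, h2,
    SimpleGraph.dist_eq_one_iff_adj.2 hab.symm]

omit hK in
theorem cross_geom {a b c₀ c y y' : V} (hab : G.Adj a b) (hc₀ : c₀ ∈ kids G a b) (hc : c ∈ kids G a b)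
    (hne : c₀ ≠ c) {m : ℕ} (hy : y ∈ level G m b c₀) (hy' : y' ∈ level G m b c) :
    G.dist y y' = 2 * m + 2 ∧ nxt G y y' = nxt G y a := by
  have hbc₀ : G.Adj b c₀ := by simpa [kids] using (Finset.mem_erase.1 hc₀).2
  have hbc : G.Adj b c := by simpa [kids] using (Finset.mem_erase.1 hc).2
  obtain ⟨h1, h2⟩ := (mem_level hG hbc₀ m y).1 hy
  obtain ⟨h3, h4⟩ := (mem_level hG hbc m y').1 hy'
  have h5 : c = nxt G b y' := eq_nxt_of hG hbc (by omega)
  have h6 : G.dist c₀ y' = G.dist b y' + 1 := dist_of_ne_nxt hG hbc₀ (by rw [← h5]; exact hne)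
  have h7 := dist_across hG hbc₀.symm (x := y) (y := y') (by omega) (by omega)
  have hd : G.dist y y' = 2 * m + 2 := by omega
  refine ⟨hd, ?_⟩
  have hyb : y ≠ b := by
    rintro rfl
    simp at h2
  have hyl : y ∈ level G (m + 1) a b := by
    simp only [level]
    exact Finset.mem_biUnion.2 ⟨c₀, hc₀, hy⟩
  rw [← nxt_level hG hab hyl]
  symm
  apply nxt_between hG hyb
  rw [SimpleGraph.dist_comm (u := y), h2, h4, hd]
  omega

theorem row_sum (hq : 1 ≤ q) (hV : ∀ a b, G.Adj a b → K a b a b = V₀) {a b : V} (hab : G.Adj a b) (m : ℕ)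
    {y : V} (hy : y ∈ level G m a b) :
    ∑ y' ∈ level G m a b, K (nxt G y a) y (nxt G y' a) y' =
      V₀ + ((q : ℝ) - 1) * ∑ l ∈ Finset.range m, (q : ℝ) ^ l * cX G K (2 * l) := by
  induction m generalizing a b y with
  | zero =>
    simp only [level, Finset.mem_singleton] at hy
    subst hy
    have h1 : a = nxt G y a := eq_nxt_of hG hab.symm (by
      rw [SimpleGraph.dist_comm (u := y), SimpleGraph.dist_eq_one_iff_adj.2 hab]
      simp)
    simp only [level, Finset.sum_singleton, Finset.range_zero, Finset.sum_empty, mul_zero, add_zero]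
    rw [← h1]
    exact hV a y hab
  | succ m ih =>
    have hk : ∀ d ∈ kids G a b, G.Adj b d := fun d hd => by
      simpa [kids] using (Finset.mem_erase.1 hd).2
    have hy0 := hy
    simp only [level] at hy0 ⊢
    obtain ⟨c₀, hc₀, hyc⟩ := Finset.mem_biUnion.1 hy0
    rw [Finset.sum_biUnion (level_disj hG m hk), ← Finset.add_sum_erase _ _ hc₀]
    have h1 : ∑ y' ∈ level G m b c₀, K (nxt G y a) y (nxt G y' a) y' =
        V₀ + ((q : ℝ) - 1) * ∑ l ∈ Finset.range m, (q : ℝ) ^ l * cX G K (2 * l) := by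
      rw [← ih (hk c₀ hc₀) hyc]
      refine Finset.sum_congr rfl fun y' hy' => ?_
      have hyl : y' ∈ level G (m + 1) a b := by
        simp only [level]
        exact Finset.mem_biUnion.2 ⟨c₀, hc₀, hy'⟩
      rw [nxt_level hG hab hyl, nxt_level hG hab hy]
    have h2 : ∑ c ∈ (kids G a b).erase c₀, ∑ y' ∈ level G m b c, K (nxt G y a) y (nxt G y' a) y' =
        ((q : ℝ) - 1) * ((q : ℝ) ^ m * cX G K (2 * m)) := by
      have h3 : ∀ c ∈ (kids G a b).erase c₀, ∑ y' ∈ level G m b c, K (nxt G y a) y (nxt G y' a) y' =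
          (q : ℝ) ^ m * cX G K (2 * m) := by
        intro c hc
        obtain ⟨hcne, hck⟩ := Finset.mem_erase.1 hc
        have h4 : ∀ y' ∈ level G m b c, K (nxt G y a) y (nxt G y' a) y' = cX G K (2 * m) := by
          intro y' hy'
          obtain ⟨h5, h6⟩ := cross_geom hG hab hc₀ hck hcne.symm hyc hy'
          obtain ⟨h7, h8⟩ := cross_geom hG hab hck hc₀ hcne hy' hyc
          rw [← XV_eq hG hK h5]
          unfold XV
          rw [h6, h8]
        rw [Finset.sum_congr rfl h4, Finset.sum_const, card_level hG (hk c hck), nsmul_eq_mul]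
        push_cast
        ring
      rw [Finset.sum_congr rfl h3, Finset.sum_const, Finset.card_erase_of_mem hc₀, card_kids hG hab,
        nsmul_eq_mul, Nat.cast_sub hq]
      push_cast
      ring
    rw [h1, h2, Finset.sum_range_succ]
    ring

theorem var_sum (hq : 1 ≤ q) (hV : ∀ a b, G.Adj a b → K a b a b = V₀) {a b : V} (hab : G.Adj a b) (m : ℕ) :
    ∑ y ∈ level G m a b, ∑ y' ∈ level G m a b, K (nxt G y a) y (nxt G y' a) y' =
      (q : ℝ) ^ m * (V₀ + ((q : ℝ) - 1) * ∑ l ∈ Finset.range m, (q : ℝ) ^ l * cX G K (2 * l)) := by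
  rw [Finset.sum_congr rfl (fun y hy => row_sum hG hK hq hV hab m hy), Finset.sum_const,
    card_level hG hab, nsmul_eq_mul]
  push_cast
  ring

omit hK in
private theorem level_facts {a b y : V} (hab : G.Adj a b) {m : ℕ} (hy : y ∈ level G (m + 1) a b) :
    G.dist a y = m + 2 ∧ nxt G a y = b ∧ y ≠ a ∧ y ≠ b := by
  obtain ⟨h1, h2⟩ := (mem_level hG hab (m + 1) y).1 hy
  refine ⟨by omega, (eq_nxt_of hG hab (by omega)).symm, ?_, ?_⟩
  · rintro rfl
    simp at h2
  · rintro rfl
    simp at h1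

omit hG hK in
private theorem inj_edge (T : Finset V) (a : V) : Set.InjOn (fun y : V => (nxt G y a, y)) T := by
  intro x _ y _ h
  exact congrArg Prod.snd h

theorem cX_ineq (hq : 1 ≤ q) (hV : ∀ a b, G.Adj a b → K a b a b = V₀) {a b : V} (hab : G.Adj a b) (m : ℕ) :
    (q : ℝ) ^ (m + 1) * cX G K m ^ 2 ≤
      V₀ * (V₀ + ((q : ℝ) - 1) * ∑ l ∈ Finset.range (m + 1), (q : ℝ) ^ l * cX G K (2 * l)) := by
  have h := cs hK (b, a) (level G (m + 1) a b) (fun y : V => (nxt G y a, y)) (inj_edge _ a)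
    (fun y hy e => (level_facts hG hab hy).2.2.1 (congrArg Prod.snd e))
  simp only at h
  rw [var_sum hG hK hq hV hab, hV b a hab.symm] at h
  have h1 : ∑ y ∈ level G (m + 1) a b, K b a (nxt G y a) y = (q : ℝ) ^ (m + 1) * cX G K m := by
    have h2 : ∀ y ∈ level G (m + 1) a b, K b a (nxt G y a) y = cX G K m := by
      intro y hy
      obtain ⟨h3, h4, -, -⟩ := level_facts hG hab hy
      rw [← XV_eq hG hK h3]
      unfold XV
      rw [h4]
    rw [Finset.sum_congr rfl h2, Finset.sum_const, card_level hG hab, nsmul_eq_mul]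
    push_cast
    ring
  rw [h1] at h
  have hq0 : (0 : ℝ) < (q : ℝ) ^ (m + 1) := by
    have : (0 : ℝ) < q := by exact_mod_cast hq
    positivity
  refine le_of_mul_le_mul_left ?_ hq0
  calc _ = ((q : ℝ) ^ (m + 1) * cX G K m) ^ 2 := by ring
    _ ≤ _ := h
    _ = _ := by ring

theorem cF_ineq (hq : 1 ≤ q) (hV : ∀ a b, G.Adj a b → K a b a b = V₀) {a b : V} (hab : G.Adj a b) (m : ℕ) :
    (q : ℝ) ^ (m + 1) * cF G K m ^ 2 ≤
      V₀ * (V₀ + ((q : ℝ) - 1) * ∑ l ∈ Finset.range (m + 1), (q : ℝ) ^ l * cX G K (2 * l)) := by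
  have h := cs hK (a, b) (level G (m + 1) a b) (fun y : V => (nxt G y a, y)) (inj_edge _ a)
    (fun y hy e => (level_facts hG hab hy).2.2.2 (congrArg Prod.snd e))
  simp only at h
  rw [var_sum hG hK hq hV hab, hV a b hab] at h
  have h1 : ∑ y ∈ level G (m + 1) a b, K a b (nxt G y a) y = (q : ℝ) ^ (m + 1) * cF G K m := by
    have h2 : ∀ y ∈ level G (m + 1) a b, K a b (nxt G y a) y = cF G K m := by
      intro y hy
      obtain ⟨h3, h4, -, -⟩ := level_facts hG hab hy
      rw [← FV_eq hG hK h3]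
      unfold FV
      rw [h4]
    rw [Finset.sum_congr rfl h2, Finset.sum_const, card_level hG hab, nsmul_eq_mul]
    push_cast
    ring
  rw [h1] at h
  have hq0 : (0 : ℝ) < (q : ℝ) ^ (m + 1) := by
    have : (0 : ℝ) < q := by exact_mod_cast hq
    positivity
  refine le_of_mul_le_mul_left ?_ hq0
  calc _ = ((q : ℝ) ^ (m + 1) * cF G K m) ^ 2 := by ring
    _ ≤ _ := h
    _ = _ := by ring

omit hK in
/-- Distances along a geodesic. -/
theorem dist_geo_geo (v u : V) {i j : ℕ} (hij : i ≤ j) (hj : j ≤ G.dist v u) :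
    G.dist (geo G v u i) (geo G v u j) = j - i := by
  have h1 := dist_geo_right hG v u (j := i) (by omega)
  have h2 := geo_suffix hG v u (j := i) (i := j - i) (by omega)
  have h3 := dist_geo_left hG (geo G v u i) u (j := j - i) (by omega)
  rw [h2, show i + (j - i) = j by omega] at h3
  exact h3

/-- The kernel on two edges of a geodesic. -/
theorem K_geo (v u : V) {i k : ℕ} (hik : i < k) (hk : k < G.dist v u) :
    K (geo G v u i) (geo G v u (i + 1)) (geo G v u k) (geo G v u (k + 1)) = cF G K (k - 1 - i) := by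
  have h1 := dist_geo_geo hG v u (i := i) (j := k + 1) (by omega) (by omega)
  have h2 := dist_geo_geo hG v u (i := i + 1) (j := k + 1) (by omega) (by omega)
  have h3 := dist_geo_geo hG v u (i := i) (j := k) (by omega) (by omega)
  have e1 : geo G v u (i + 1) = nxt G (geo G v u i) (geo G v u (k + 1)) :=
    eq_nxt_of hG (geo_adj hG v u (by omega)) (by omega)
  have e2 : geo G v u k = nxt G (geo G v u (k + 1)) (geo G v u i) := by
    apply eq_nxt_of hG (geo_adj hG v u hk).symm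
    rw [SimpleGraph.dist_comm, h3, SimpleGraph.dist_comm, h1]
    omega
  rw [← FV_eq hG hK (D := k - 1 - i) (x := geo G v u i) (y := geo G v u (k + 1)) (by omega)]
  unfold FV
  rw [← e1, ← e2]

end Tree

end BSVAux

/-- **Variance along a geodesic.** `V₀` is the common value of `K a b a b` on directed edges. -/
theorem bsv (hG : RegTree G q) (hq : 2 ≤ q) {K : V → V → V → V → ℝ} (hK : EdgeKernel G K) {V₀ : ℝ}
    (hV : ∀ a b, G.Adj a b → K a b a b = V₀) (v u : V) :
    ∑ i ∈ Finset.range (G.dist v u), ∑ j ∈ Finset.range (G.dist v u),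
        K (geo G v u i) (geo G v u (i + 1)) (geo G v u j) (geo G v u (j + 1)) ≤ 25 * G.dist v u * V₀ := by
  have hq1 : 1 ≤ q := by omega
  have hqR : (2 : ℝ) ≤ q := by exact_mod_cast hq
  -- an edge
  have hedge : ∃ w, G.Adj v w := by
    have h := hG.reg v
    have : 0 < (G.neighborFinset v).card := by omega
    obtain ⟨w, hw⟩ := Finset.card_pos.1 this
    exact ⟨w, by simpa using hw⟩
  obtain ⟨w, hvw⟩ := hedge
  have hV0 : 0 ≤ V₀ := by
    have h := hK.psd {(v, w)} (fun _ => 1)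
    simp only [Finset.sum_singleton, mul_one, one_mul] at h
    rw [hV v w hvw] at h
    exact h
  obtain ⟨r, hr⟩ := hK.fin
  -- the decay
  have h1 : ∀ d, (q : ℝ) ^ d * BSVAux.cX G K d ^ 2 ≤ (V₀ * (d + 1)) ^ 2 :=
    BSVAux.analytic (q := (q : ℝ)) (by linarith) hV0 (r := r)
      (fun d hd => BSVAux.cX_zero hG hK hr hd) (fun d => BSVAux.cX_ineq hG hK hq1 hV hvw d)
  have h2 : ∀ d, |BSVAux.cF G K d| ≤ V₀ * (((d : ℝ) + 1) * (17 / 24) ^ d) := by
    intro d
    apply BSVAux.cF_bound hqR hV0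
    refine (BSVAux.cF_ineq hG hK hq1 hV hvw d).trans ?_
    apply mul_le_mul_of_nonneg_left _ hV0
    have h3 := BSVAux.sum_le (q := (q : ℝ)) (by linarith) hV0 h1 (d + 1)
    push_cast at h3
    have h4 := mul_le_mul_of_nonneg_left h3 (show (0 : ℝ) ≤ (q : ℝ) - 1 by linarith)
    linarith
  have h3 : ∀ k : ℕ, ∑ d ∈ Finset.range k, BSVAux.cF G K d ≤ V₀ * (576 / 49) := by
    intro k
    calc ∑ d ∈ Finset.range k, BSVAux.cF G K d
        ≤ ∑ d ∈ Finset.range k, V₀ * (((d : ℝ) + 1) * (17 / 24) ^ d) :=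
          Finset.sum_le_sum fun d _ => (le_abs_self _).trans (h2 d)
      _ = V₀ * ∑ d ∈ Finset.range k, ((d : ℝ) + 1) * (17 / 24) ^ d := by rw [Finset.mul_sum]
      _ ≤ _ := mul_le_mul_of_nonneg_left (BSVAux.geom_sum k) hV0
  -- induction along the geodesic
  have main : ∀ k, k ≤ G.dist v u →
      ∑ i ∈ Finset.range k, ∑ j ∈ Finset.range k,
        K (geo G v u i) (geo G v u (i + 1)) (geo G v u j) (geo G v u (j + 1)) ≤ 25 * k * V₀ := by
    intro k
    induction k with
    | zero => simp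
    | succ k ih =>
      intro hk
      have ih' := ih (by omega)
      have hsym : ∀ i ∈ Finset.range k, K (geo G v u k) (geo G v u (k + 1)) (geo G v u i) (geo G v u (i + 1)) =
          BSVAux.cF G K (k - 1 - i) := by
        intro i hi
        rw [hK.symm]
        exact BSVAux.K_geo hG hK v u (Finset.mem_range.1 hi) (by omega)
      have hsum : ∑ i ∈ Finset.range k, BSVAux.cF G K (k - 1 - i) ≤ V₀ * (576 / 49) := by
        rw [Finset.sum_range_reflect (fun d => BSVAux.cF G K d) k]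
        exact h3 k
      rw [Finset.sum_range_succ]
      simp only [Finset.sum_range_succ]
      rw [Finset.sum_add_distrib, Finset.sum_congr rfl hsym,
        Finset.sum_congr rfl (fun i hi => BSVAux.K_geo hG hK v u (Finset.mem_range.1 hi) (by omega)),
        hV _ _ (geo_adj hG v u (by omega))]
      push_cast
      nlinarith
  exact main _ le_rfl

end Crest.Agent.Lib.TI
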