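import Crest.Agent.Lib.FiidPlanted

/-!
# Independence of blocks of coordinates (S0241 project, module TI.Block)

Everything is on the product space `J → I` with the uniform product measure `Lam J`.
`glue B ω ω'` takes the coordinates in `B` from `ω'`, the other ones from `ω`.
-/

set_option autoImplicit false

namespace Crest.Agent.Lib.TI

open MeasureTheory Set Classical
open scoped unitInterval
open Crest.Agent.Lib.FiidPlanted

variable {J : Type*}

/-- `φ` depends only on the coordinates in `B`. -/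
def DepS (φ : (J → I) → ℝ) (B : Set J) : Prop := ∀ ω ω', (∀ j ∈ B, ω j = ω' j) → φ ω = φ ω'

/-- Resampling the coordinates in `B`. -/
noncomputable def glue (B : Set J) (ω ω' : J → I) : J → I := fun j => if j ∈ B then ω' j else ω j

variable {B B' : Set J} {φ ψ : (J → I) → ℝ}

theorem DepS.mono (h : DepS φ B) (hB : B ⊆ B') : DepS φ B' := fun ω ω' hω => h ω ω' fun j hj => hω j (hB hj)

theorem DepS.glue_right (h : DepS φ B) (ω ω' : J → I) : φ (glue B ω ω') = φ ω' :=
  h _ _ fun j hj => by simp [glue, hj]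

theorem DepS.glue_left (h : DepS φ Bᶜ) (ω ω' : J → I) : φ (glue B ω ω') = φ ω :=
  h _ _ fun j hj => by
    have : j ∉ B := hj
    simp [glue, this]

theorem DepS.const (c : ℝ) (B : Set J) : DepS (fun _ => c) B := fun _ _ _ => rfl

theorem DepS.add (h : DepS φ B) (h' : DepS ψ B) : DepS (fun ω => φ ω + ψ ω) B := fun ω ω' hω => by
  simp only [h ω ω' hω, h' ω ω' hω]

theorem DepS.mul (h : DepS φ B) (h' : DepS ψ B) : DepS (fun ω => φ ω * ψ ω) B := fun ω ω' hω => by
  simp only [h ω ω' hω, h' ω ω' hω]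

theorem DepS.comp (h : DepS φ B) (f : ℝ → ℝ) : DepS (fun ω => f (φ ω)) B := fun ω ω' hω => by
  simp only [h ω ω' hω]

theorem measurable_glue (B : Set J) : Measurable (fun p : (J → I) × (J → I) => glue B p.1 p.2) := by
  rw [measurable_pi_iff]
  intro j
  by_cases h : j ∈ B
  · have : (fun p : (J → I) × (J → I) => glue B p.1 p.2 j) = fun p => p.2 j := by
      funext p; simp [glue, h]
    rw [this]; exact (measurable_pi_apply j).comp measurable_snd
  · have : (fun p : (J → I) × (J → I) => glue B p.1 p.2 j) = fun p => p.1 j := by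
      funext p; simp [glue, h]
    rw [this]; exact (measurable_pi_apply j).comp measurable_fst

theorem map_glue (B : Set J) :
    ((Lam J).prod (Lam J)).map (fun p => glue B p.1 p.2) = Lam J := by
  refine Measure.eq_infinitePi _ fun s t ht => ?_
  rw [Measure.map_apply (measurable_glue B) (.pi s.countable_toSet fun _ _ => ht _)]
  have hset : (fun p : (J → I) × (J → I) => glue B p.1 p.2) ⁻¹' (s : Set J).pi t =
      ((s.filter (fun j => j ∉ B) : Finset J) : Set J).pi t ×ˢ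
        ((s.filter (fun j => j ∈ B) : Finset J) : Set J).pi t := by
    ext ⟨y, r⟩
    simp only [mem_preimage, Set.mem_pi, Finset.mem_coe, Set.mem_prod, Finset.mem_filter]
    constructor
    · intro h
      refine ⟨fun i hi => ?_, fun i hi => ?_⟩
      · have := h i hi.1
        simpa [glue, hi.2] using this
      · have := h i hi.1
        simpa [glue, hi.2] using this
    · rintro ⟨h1, h2⟩ i hi
      by_cases hiB : i ∈ B
      · simpa [glue, hiB] using h2 i ⟨hi, hiB⟩
      · simpa [glue, hiB] using h1 i ⟨hi, hiB⟩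
  rw [hset, Measure.prod_prod]
  unfold Lam
  rw [Measure.infinitePi_pi _ (fun i _ => ht i), Measure.infinitePi_pi _ (fun i _ => ht i), mul_comm,
    Finset.prod_filter_mul_prod_filter_not]

/-- **Resampling a block.** -/
theorem integral_glue (B : Set J) {f : (J → I) → ℝ} (hf : BM f) :
    ∫ ω, ∫ ω', f (glue B ω ω') ∂Lam J ∂Lam J = ∫ ω, f ω ∂Lam J := by
  have hm := measurable_glue (J := J) B
  have h1 : ∫ ω, f ω ∂Lam J = ∫ p, f (glue B p.1 p.2) ∂((Lam J).prod (Lam J)) := by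
    conv_lhs => rw [← map_glue B]
    exact integral_map hm.aemeasurable hf.1.aestronglyMeasurable
  rw [h1, integral_prod]
  exact (hf.comp hm).integrable _

/-- **Independence of disjoint blocks.** -/
theorem integral_mul_indep (hφ : BM φ) (hψ : BM ψ) (hφB : DepS φ B) (hψB : DepS ψ B') (hd : Disjoint B B') :
    ∫ ω, φ ω * ψ ω ∂Lam J = (∫ ω, φ ω ∂Lam J) * ∫ ω, ψ ω ∂Lam J := by
  have hψB' : DepS ψ Bᶜ := hψB.mono (fun j hj hjB => Set.disjoint_left.mp hd hjB hj)
  rw [← integral_glue B (hφ.mul hψ)]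
  have : ∀ ω ω', φ (glue B ω ω') * ψ (glue B ω ω') = ψ ω * φ ω' := fun ω ω' => by
    rw [hφB.glue_right, hψB'.glue_left, mul_comm]
  simp_rw [this, integral_const_mul]
  rw [integral_mul_const, mul_comm]

/-- Independence of finitely many disjoint blocks. -/
theorem integral_prod_indep {ι : Type*} (s : Finset ι) {f : ι → (J → I) → ℝ} {b : ι → Set J}
    (hf : ∀ i ∈ s, BM (f i)) (hb : ∀ i ∈ s, DepS (f i) (b i))
    (hd : ∀ i ∈ s, ∀ j ∈ s, i ≠ j → Disjoint (b i) (b j)) :
    ∫ ω, ∏ i ∈ s, f i ω ∂Lam J = ∏ i ∈ s, ∫ ω, f i ω ∂Lam J := by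
  induction s using Finset.induction_on with
  | empty => simp
  | insert a s ha ih =>
    simp only [Finset.prod_insert ha]
    have hfa := hf a (Finset.mem_insert_self _ _)
    have hf' : ∀ i ∈ s, BM (f i) := fun i hi => hf i (Finset.mem_insert_of_mem hi)
    have hb' : ∀ i ∈ s, DepS (f i) (b i) := fun i hi => hb i (Finset.mem_insert_of_mem hi)
    have hd' : ∀ i ∈ s, ∀ j ∈ s, i ≠ j → Disjoint (b i) (b j) := fun i hi j hj =>
      hd i (Finset.mem_insert_of_mem hi) j (Finset.mem_insert_of_mem hj)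
    have hP : BM (fun ω => ∏ i ∈ s, f i ω) := BM.finset_prod s hf'
    have hPd : DepS (fun ω => ∏ i ∈ s, f i ω) (⋃ i ∈ s, b i) := fun ω ω' hω =>
      Finset.prod_congr rfl fun i hi => hb' i hi ω ω' fun j hj => hω j (Set.mem_biUnion hi hj)
    have hdisj : Disjoint (b a) (⋃ i ∈ s, b i) := by
      rw [Set.disjoint_iUnion₂_right]
      intro i hi
      exact hd a (Finset.mem_insert_self _ _) i (Finset.mem_insert_of_mem hi)
        (fun e => ha (e ▸ hi))
    rw [integral_mul_indep hfa hP (hb a (Finset.mem_insert_self _ _)) hPd hdisj, ih hf' hb' hd']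

/-- Partial integration when the integrand is bounded above for each frozen value of the other block. -/
theorem integral_le_of_partial (B : Set J) {F : (J → I) → ℝ} {c : ℝ} {ψ : (J → I) → ℝ} (hF : BM F) (hψ : BM ψ) (hψ0 : ∀ ω, 0 ≤ ψ ω)
    (hψB : DepS ψ Bᶜ) (h : ∀ ω, ∫ ω', F (glue B ω ω') ∂Lam J ≤ c) :
    ∫ ω, ψ ω * F ω ∂Lam J ≤ c * ∫ ω, ψ ω ∂Lam J := by
  rw [← integral_glue B (hψ.mul hF)]
  have h1 : ∀ ω ω', ψ (glue B ω ω') * F (glue B ω ω') = ψ ω * F (glue B ω ω') := fun ω ω' => by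
    rw [hψB.glue_left]
  simp_rw [h1, integral_const_mul]
  have hm := measurable_glue (J := J) B
  have hint : Integrable (fun ω => ψ ω * ∫ ω', F (glue B ω ω') ∂Lam J) (Lam J) := by
    have h2 : BM (fun ω => ∫ ω', F (glue B ω ω') ∂Lam J) :=
      BM.integral_right (Lam J) (f := fun p : (J → I) × (J → I) => F (glue B p.1 p.2)) (hF.comp hm)
    exact (hψ.mul h2).integrable _
  calc ∫ ω, ψ ω * ∫ ω', F (glue B ω ω') ∂Lam J ∂Lam J ≤ ∫ ω, c * ψ ω ∂Lam J := by
        refine integral_mono hint ((hψ.integrable _).const_mul c) fun ω => ?_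
        show ψ ω * ∫ ω', F (glue B ω ω') ∂Lam J ≤ c * ψ ω
        rw [mul_comm c]
        exact mul_le_mul_of_nonneg_left (h ω) (hψ0 ω)
    _ = c * ∫ ω, ψ ω ∂Lam J := integral_const_mul _ _

/-- Coordinatewise reflection on the coordinates in `B`. -/
noncomputable def flipS (B : Set J) (ω : J → I) : J → I := fun j => if j ∈ B then σ (ω j) else ω j

theorem measurable_flipS (B : Set J) : Measurable (flipS B) := by
  rw [measurable_pi_iff]
  intro j
  by_cases h : j ∈ B
  · have : (fun ω : J → I => flipS B ω j) = fun ω => σ (ω j) := by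
      funext ω; simp [flipS, h]
    rw [this]; exact unitInterval.continuous_symm.measurable.comp (measurable_pi_apply j)
  · have : (fun ω : J → I => flipS B ω j) = fun ω => ω j := by
      funext ω; simp [flipS, h]
    rw [this]; exact measurable_pi_apply j

theorem map_flipS (B : Set J) : (Lam J).map (flipS B) = Lam J := by
  have hm : ∀ j : J, Measurable (fun x : I => if j ∈ B then σ x else x) := by
    intro j
    by_cases h : j ∈ B
    · simpa [h] using unitInterval.continuous_symm.measurable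
    · simp only [h, if_false]; exact measurable_id'
  have key := Measure.infinitePi_map_pi (fun _ : J => (volume : Measure I)) hm
  have h1 : ∀ j : J, (volume : Measure I).map (fun x : I => if j ∈ B then σ x else x) = volume := by
    intro j
    by_cases h : j ∈ B
    · simpa [h] using unitInterval.measurePreserving_symm.map_eq
    · simp [h]
  simp only [h1] at key
  exact key

theorem integral_flipS (B : Set J) {f : (J → I) → ℝ} (hf : Measurable f) :
    ∫ ω, f (flipS B ω) ∂Lam J = ∫ ω, f ω ∂Lam J := by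
  conv_rhs => rw [← map_flipS B]
  exact (integral_map (measurable_flipS B).aemeasurable hf.aestronglyMeasurable).symm

/-- The probability measure with density `Z` against `Lam J`. -/
theorem exists_tilt {Z : (J → I) → ℝ} (hZ : BM Z) (hZ0 : ∀ ω, 0 ≤ Z ω) (hZ1 : ∫ ω, Z ω ∂Lam J = 1) :
    ∃ μ : Measure (J → I), IsProbabilityMeasure μ ∧ ∀ g : (J → I) → ℝ, ∫ ω, g ω ∂μ = ∫ ω, Z ω * g ω ∂Lam J := by
  let z : (J → I) → NNReal := fun ω => Real.toNNReal (Z ω)
  have hzm : Measurable z := hZ.1.real_toNNReal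
  have hzc : ∀ ω, (z ω : ℝ) = Z ω := fun ω => Real.coe_toNNReal _ (hZ0 ω)
  refine ⟨(Lam J).withDensity (fun ω => (z ω : ENNReal)), ?_, ?_⟩
  · constructor
    have hi : Integrable Z (Lam J) := hZ.integrable _
    rw [withDensity_apply _ MeasurableSet.univ, Measure.restrict_univ]
    have h2 : ∫⁻ ω, (z ω : ENNReal) ∂Lam J = ENNReal.ofReal (∫ ω, Z ω ∂Lam J) := by
      rw [ofReal_integral_eq_lintegral_ofReal hi (Filter.Eventually.of_forall hZ0)]
      rfl
    rw [h2, hZ1, ENNReal.ofReal_one]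
  · intro g
    rw [integral_withDensity_eq_integral_smul hzm g]
    refine integral_congr_ae (Filter.Eventually.of_forall fun ω => ?_)
    show z ω • g ω = Z ω * g ω
    rw [NNReal.smul_def, hzc, smul_eq_mul]

/-- Hoeffding's lemma for a random variable in `[0, 1]` under a probability density `Z`. -/
theorem hoeffding_density {Z W : (J → I) → ℝ} (hZ : BM Z) (hW : BM W) (hZ0 : ∀ ω, 0 ≤ Z ω) (hZ1 : ∫ ω, Z ω ∂Lam J = 1)
    (hW0 : ∀ ω, 0 ≤ W ω) (hW1 : ∀ ω, W ω ≤ 1) (lam : ℝ) :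
    ∫ ω, Z ω * Real.exp (lam * W ω) ∂Lam J ≤ Real.exp (lam * ∫ ω, Z ω * W ω ∂Lam J + lam ^ 2 / 8) := by
  obtain ⟨μ, hprob, hint⟩ := exists_tilt hZ hZ0 hZ1
  have hWm : AEMeasurable W μ := hW.1.aemeasurable
  have hb : ∀ᵐ ω ∂μ, W ω ∈ Set.Icc (0:ℝ) 1 :=
    Filter.Eventually.of_forall fun ω => ⟨hW0 ω, hW1 ω⟩
  have hsub := (ProbabilityTheory.hasSubgaussianMGF_of_mem_Icc hWm hb).mgf_le lam
  have hE : ∫ ω, W ω ∂μ = ∫ ω, Z ω * W ω ∂Lam J := hint W
  rw [hE] at hsub
  set p := ∫ ω, Z ω * W ω ∂Lam J with hp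
  have hmgf : ProbabilityTheory.mgf (fun ω => W ω - p) μ lam =
      Real.exp (-lam * p) * ∫ ω, Z ω * Real.exp (lam * W ω) ∂Lam J := by
    unfold ProbabilityTheory.mgf
    rw [hint]
    rw [← integral_const_mul]
    refine integral_congr_ae (Filter.Eventually.of_forall fun ω => ?_)
    show Z ω * Real.exp (lam * (W ω - p)) = Real.exp (-lam * p) * (Z ω * Real.exp (lam * W ω))
    have : lam * (W ω - p) = -lam * p + lam * W ω := by ring
    rw [this, Real.exp_add]; ring
  rw [hmgf] at hsub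
  have hc : (((‖(1:ℝ) - 0‖₊ / 2) ^ 2 : NNReal) : ℝ) = 1 / 4 := by
    simp; norm_num
  rw [hc] at hsub
  have h3 : ∫ ω, Z ω * Real.exp (lam * W ω) ∂Lam J ≤ Real.exp (lam * p) * Real.exp (1 / 4 * lam ^ 2 / 2) := by
    have hpos := Real.exp_pos (lam * p)
    have h4 := mul_le_mul_of_nonneg_left hsub hpos.le
    rw [← mul_assoc, ← Real.exp_add] at h4
    have h5 : lam * p + -lam * p = 0 := by ring
    rw [h5, Real.exp_zero, one_mul] at h4
    exact h4
  rw [← Real.exp_add] at h3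
  refine h3.trans (le_of_eq ?_)
  congr 1
  ring

/-- Jensen for the perspective of a convex function. -/
theorem perspective_jensen {ξ : ℝ → ℝ} (hξ : ConvexOn ℝ (Icc (-1) 1) ξ) (hξc : ContinuousOn ξ (Icc (-1) 1))
    {X Y : (J → I) → ℝ} (hX : BM X) (hY : BM Y) (hX0 : ∀ ω, 0 < X ω) (hY0 : ∀ ω, 0 < Y ω) :
    ((∫ ω, X ω ∂Lam J + ∫ ω, Y ω ∂Lam J) / 2) * ξ ((∫ ω, X ω ∂Lam J - ∫ ω, Y ω ∂Lam J) / (∫ ω, X ω ∂Lam J + ∫ ω, Y ω ∂Lam J)) ≤
      ∫ ω, ((X ω + Y ω) / 2) * ξ ((X ω - Y ω) / (X ω + Y ω)) ∂Lam J := by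
  have hXi := hX.integrable (Lam J)
  have hYi := hY.integrable (Lam J)
  have hXp : 0 < ∫ ω, X ω ∂Lam J := by
    rw [integral_pos_iff_support_of_nonneg (fun ω => (hX0 ω).le) hXi]
    have : Function.support X = Set.univ := by
      ext ω; simp [(hX0 ω).ne']
    rw [this]; simp
  have hYp : 0 < ∫ ω, Y ω ∂Lam J := by
    rw [integral_pos_iff_support_of_nonneg (fun ω => (hY0 ω).le) hYi]
    have : Function.support Y = Set.univ := by
      ext ω; simp [(hY0 ω).ne']
    rw [this]; simp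
  set A := ∫ ω, X ω ∂Lam J with hA
  set C := ∫ ω, Y ω ∂Lam J with hC
  have hAC : 0 < A + C := by positivity
  -- the density
  let Z : (J → I) → ℝ := fun ω => (X ω + Y ω) * (A + C)⁻¹
  have hZ : BM Z := (hX.add hY).mul (BM.const _)
  have hZ0 : ∀ ω, 0 ≤ Z ω := fun ω => by
    have := hX0 ω; have := hY0 ω; positivity
  have hsum : ∫ ω, (X ω + Y ω) ∂Lam J = A + C := integral_add hXi hYi
  have hZ1 : ∫ ω, Z ω ∂Lam J = 1 := by
    show ∫ ω, (X ω + Y ω) * (A + C)⁻¹ ∂Lam J = 1
    rw [integral_mul_const, hsum]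
    exact mul_inv_cancel₀ hAC.ne'
  obtain ⟨μ, hprob, hint⟩ := exists_tilt hZ hZ0 hZ1
  -- the ratio
  let f : (J → I) → ℝ := fun ω => (X ω - Y ω) / (X ω + Y ω)
  have hfm : Measurable f := (hX.1.sub hY.1).div (hX.1.add hY.1)
  have hfI : ∀ ω, f ω ∈ Set.Icc (-1 : ℝ) 1 := fun ω => by
    have h1 := hX0 ω
    have h2 := hY0 ω
    have h3 : 0 < X ω + Y ω := add_pos h1 h2
    constructor
    · show -1 ≤ (X ω - Y ω) / (X ω + Y ω)
      rw [le_div_iff₀ h3]; linarith
    · show (X ω - Y ω) / (X ω + Y ω) ≤ 1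
      rw [div_le_one h3]; linarith
  have hfb : BM f := ⟨hfm, 1, fun ω => abs_le.mpr (hfI ω)⟩
  -- the composition
  have hcont : Continuous ((Set.Icc (-1:ℝ) 1).domRestrict ξ) := continuousOn_iff_continuous_domRestrict.mp hξc
  have hext : Continuous (Set.IccExtend (by norm_num : (-1:ℝ) ≤ 1) ((Set.Icc (-1:ℝ) 1).domRestrict ξ)) :=
    hcont.Icc_extend'
  have hξf : ∀ ω, ξ (f ω) = Set.IccExtend (by norm_num : (-1:ℝ) ≤ 1) ((Set.Icc (-1:ℝ) 1).domRestrict ξ) (f ω) := by
    intro ω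
    rw [Set.IccExtend_of_mem _ _ (hfI ω)]
    rfl
  have hgm : Measurable (fun ω => ξ (f ω)) := by
    have h7 : (fun ω => ξ (f ω)) = (Set.IccExtend (by norm_num : (-1:ℝ) ≤ 1) ((Set.Icc (-1:ℝ) 1).domRestrict ξ)) ∘ f :=
      funext hξf
    rw [h7]
    exact hext.measurable.comp hfm
  obtain ⟨K, hK⟩ := isCompact_Icc.exists_bound_of_continuousOn hξc
  have hgb : BM (fun ω => ξ (f ω)) := ⟨hgm, K, fun ω => by simpa using hK _ (hfI ω)⟩
  have hJ := hξ.map_integral_le (μ := μ) (f := f) hξc isClosed_Icc (Filter.Eventually.of_forall hfI)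
    (hfb.integrable μ) (hgb.integrable μ)
  have e1 : ∫ ω, f ω ∂μ = (A - C) / (A + C) := by
    rw [hint]
    have : ∀ ω, Z ω * f ω = (X ω - Y ω) * (A + C)⁻¹ := fun ω => by
      have h3 : X ω + Y ω ≠ 0 := (add_pos (hX0 ω) (hY0 ω)).ne'
      show (X ω + Y ω) * (A + C)⁻¹ * ((X ω - Y ω) / (X ω + Y ω)) = _
      field_simp
    simp_rw [this]
    rw [integral_mul_const, integral_sub hXi hYi, div_eq_mul_inv]
  have e2 : ∫ ω, ξ (f ω) ∂μ = (A + C)⁻¹ * ∫ ω, (X ω + Y ω) * ξ (f ω) ∂Lam J := by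
    rw [hint, ← integral_const_mul]
    refine integral_congr_ae (Filter.Eventually.of_forall fun ω => ?_)
    show (X ω + Y ω) * (A + C)⁻¹ * ξ (f ω) = (A + C)⁻¹ * ((X ω + Y ω) * ξ (f ω))
    ring
  rw [e1, e2] at hJ
  have e3 : ∫ ω, ((X ω + Y ω) / 2) * ξ ((X ω - Y ω) / (X ω + Y ω)) ∂Lam J =
      (1 / 2) * ∫ ω, (X ω + Y ω) * ξ (f ω) ∂Lam J := by
    rw [← integral_const_mul]
    refine integral_congr_ae (Filter.Eventually.of_forall fun ω => ?_)
    show ((X ω + Y ω) / 2) * ξ (f ω) = (1 / 2) * ((X ω + Y ω) * ξ (f ω))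
    ring
  rw [e3]
  have h5 := mul_le_mul_of_nonneg_left hJ (by positivity : 0 ≤ (A + C) / 2)
  have h6 : (A + C) / 2 * ((A + C)⁻¹ * ∫ ω, (X ω + Y ω) * ξ (f ω) ∂Lam J) =
      (1 / 2) * ∫ ω, (X ω + Y ω) * ξ (f ω) ∂Lam J := by
    field_simp
  rw [h6] at h5
  exact h5

end Crest.Agent.Lib.TI
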