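import Mathlib

/-!
# Edge algebra of the Ising chain (S0241 project, module TI.Cavity)

For an edge `(a, b)` with interaction `θ` and cavity fields `ta`, `tb` (hyperbolic tangents of the fields coming
from the two sides) the means are `x = (ta + θ tb) / P`, `y = (tb + θ ta) / P`, `P = 1 + θ ta tb`.
`cav θ x y` is the inverse map `(x, y) ↦ tb`; `om`, `rr` are the attenuation factors.

Only real algebra: no probability, no graphs.
-/

set_option autoImplicit false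

namespace Crest.Agent.Lib.TI

/-- Admissible interactions: `0 ≤ θ`, `θ² ≤ 1/2` (this holds for `θ ≤ (d-1)^(-1/2)`, `d ≥ 3`). -/
structure Adm (θ : ℝ) : Prop where
  nonneg : 0 ≤ θ
  sq_le : θ ^ 2 ≤ 1 / 2

/-- Discriminant. -/
noncomputable def cavD (θ x y : ℝ) : ℝ := (1 - θ ^ 2) ^ 2 - 4 * θ * (x - θ * y) * (y - θ * x)

/-- The cavity field at the second vertex of an edge, from the two means `x`, `y`. -/
noncomputable def cav (θ x y : ℝ) : ℝ := 2 * (y - θ * x) / ((1 - θ ^ 2) + Real.sqrt (cavD θ x y))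

/-- Attenuation factor. -/
noncomputable def om (θ t : ℝ) : ℝ := (1 - t ^ 2) / (1 - θ ^ 2 * t ^ 2)

/-- Edge transmission: `Cov(σ_a, σ_b) = (1 - x²) * rr θ x y`. -/
noncomputable def rr (θ x y : ℝ) : ℝ := θ * om θ (cav θ x y)

variable {θ θ' x y x' y' t t' ta tb : ℝ}

theorem Adm.le (hθ : Adm θ) : θ ≤ 3 / 4 := by
  have h0 := hθ.nonneg
  have h1 := hθ.sq_le
  nlinarith

theorem Adm.lt_one (hθ : Adm θ) : θ < 1 := by
  have := hθ.le
  linarith

private theorem sq_le_one_of_abs {a : ℝ} (h : |a| ≤ 1) : a ^ 2 ≤ 1 := by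
  have := abs_le.mp h
  nlinarith [this.1, this.2]

theorem cavD_ge (hθ : Adm θ) (hx : |x| ≤ 1) (hy : |y| ≤ 1) : (1 - θ) ^ 4 ≤ cavD θ x y := by
  have h0 := hθ.nonneg
  have hlt := hθ.lt_one
  have hx2 := sq_le_one_of_abs hx
  have hy2 := sq_le_one_of_abs hy
  have key : (x - θ * y) * (y - θ * x) ≤ (1 - θ) ^ 2 := by
    have h1 : (x - θ * y) * (y - θ * x) = (1 + θ ^ 2) * (x * y) - θ * (x ^ 2 + y ^ 2) := by ring
    have h2 : x * y ≤ (x ^ 2 + y ^ 2) / 2 := by nlinarith [sq_nonneg (x - y)]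
    have h3 : (1 + θ ^ 2) * (x * y) ≤ (1 + θ ^ 2) * ((x ^ 2 + y ^ 2) / 2) :=
      mul_le_mul_of_nonneg_left h2 (by positivity)
    have h4 : (1 - θ) ^ 2 * ((x ^ 2 + y ^ 2) / 2) ≤ (1 - θ) ^ 2 * 1 :=
      mul_le_mul_of_nonneg_left (by linarith) (by positivity)
    nlinarith
  have h5 : θ * ((x - θ * y) * (y - θ * x)) ≤ θ * (1 - θ) ^ 2 :=
    mul_le_mul_of_nonneg_left key h0
  unfold cavD
  nlinarith

private theorem cavD_pos (hθ : Adm θ) (hx : |x| ≤ 1) (hy : |y| ≤ 1) : 0 < cavD θ x y := by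
  have hlt := hθ.lt_one
  have : 0 < (1 - θ) ^ 4 := by
    have : 0 < 1 - θ := by linarith
    positivity
  exact lt_of_lt_of_le this (cavD_ge hθ hx hy)

private theorem sqrt_cavD_ge (hθ : Adm θ) (hx : |x| ≤ 1) (hy : |y| ≤ 1) :
    (1 - θ) ^ 2 ≤ Real.sqrt (cavD θ x y) := by
  have hlt := hθ.lt_one
  apply Real.le_sqrt_of_sq_le
  have := cavD_ge hθ hx hy
  calc ((1 - θ) ^ 2) ^ 2 = (1 - θ) ^ 4 := by ring
    _ ≤ _ := this

theorem cav_den_ge (hθ : Adm θ) (hx : |x| ≤ 1) (hy : |y| ≤ 1) :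
    2 * (1 - θ) ≤ (1 - θ ^ 2) + Real.sqrt (cavD θ x y) := by
  have := sqrt_cavD_ge hθ hx hy
  nlinarith

private theorem cav_den_pos (hθ : Adm θ) (hx : |x| ≤ 1) (hy : |y| ≤ 1) :
    0 < (1 - θ ^ 2) + Real.sqrt (cavD θ x y) := by
  have := cav_den_ge hθ hx hy
  have hlt := hθ.lt_one
  linarith

private theorem sq_sqrt_cavD (hθ : Adm θ) (hx : |x| ≤ 1) (hy : |y| ≤ 1) :
    Real.sqrt (cavD θ x y) ^ 2 = cavD θ x y :=
  Real.sq_sqrt (cavD_pos hθ hx hy).le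

private theorem theta_sq_lt (hθ : Adm θ) : 0 < 1 - θ ^ 2 := by
  have := hθ.sq_le
  linarith

theorem abs_cav_le (hθ : Adm θ) (hx : |x| ≤ 1) (hy : |y| ≤ 1) : |cav θ x y| ≤ 1 := by
  have hden := cav_den_pos hθ hx hy
  have hS := sq_sqrt_cavD hθ hx hy
  have hS0 := Real.sqrt_nonneg (cavD θ x y)
  have hth := theta_sq_lt hθ
  have h0 := hθ.nonneg
  set S := Real.sqrt (cavD θ x y) with hSdef
  have hy' := abs_le.mp hy
  unfold cav
  rw [← hSdef, abs_div, abs_of_pos hden, div_le_one hden, abs_le]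
  have hD : cavD θ x y = (1 - θ ^ 2) ^ 2 - 4 * θ * (x - θ * y) * (y - θ * x) := rfl
  constructor
  · -- lower bound: -(den) ≤ 2 u
    by_contra hcon
    push Not at hcon
    -- 2u + (1-θ²) + S < 0, so u < 0 and S < -2u - (1-θ²)
    have hu : y - θ * x < 0 := by nlinarith
    have h1 : 0 ≤ (1 - θ ^ 2) * (1 + y) := mul_nonneg hth.le (by linarith [hy'.1])
    have h2 : S ^ 2 < (-(2 * (y - θ * x)) - (1 - θ ^ 2)) ^ 2 := by
      apply pow_lt_pow_left₀ (by linarith) hS0 (by norm_num)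
    have h3 : (-(2 * (y - θ * x)) - (1 - θ ^ 2)) ^ 2 - S ^ 2 =
        4 * (y - θ * x) * ((1 - θ ^ 2) * (1 + y)) := by
      rw [hS, hD]; ring
    nlinarith
  · by_contra hcon
    push Not at hcon
    have hu : 0 < y - θ * x := by nlinarith
    have h1 : 0 ≤ (1 - θ ^ 2) * (1 - y) := mul_nonneg hth.le (by linarith [hy'.2])
    have h2 : S ^ 2 < (2 * (y - θ * x) - (1 - θ ^ 2)) ^ 2 := by
      apply pow_lt_pow_left₀ (by linarith) hS0 (by norm_num)
    have h3 : (2 * (y - θ * x) - (1 - θ ^ 2)) ^ 2 - S ^ 2 =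
        - (4 * (y - θ * x) * ((1 - θ ^ 2) * (1 - y))) := by
      rw [hS, hD]; ring
    nlinarith

private theorem P_pos (hθ : Adm θ) (ha : |ta| ≤ 1) (hb : |tb| ≤ 1) : 0 < 1 + θ * ta * tb := by
  have h0 := hθ.nonneg
  have hlt := hθ.lt_one
  have h : |ta * tb| ≤ 1 := by
    rw [abs_mul]; exact mul_le_one₀ ha (abs_nonneg _) hb
  have h2 := abs_le.mp h
  nlinarith [h2.1, h2.2]

private theorem w_lt (hθ : Adm θ) (ha : |ta| ≤ 1) (hb : |tb| ≤ 1) : 0 < 1 - θ * ta * tb := by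
  have h0 := hθ.nonneg
  have hlt := hθ.lt_one
  have h : |ta * tb| ≤ 1 := by
    rw [abs_mul]; exact mul_le_one₀ ha (abs_nonneg _) hb
  have h2 := abs_le.mp h
  nlinarith [h2.1, h2.2]

/-- `cav` inverts the map from cavity fields to means. -/
theorem cav_forward (hθ : Adm θ) (ha : |ta| ≤ 1) (hb : |tb| ≤ 1) :
    cav θ ((ta + θ * tb) / (1 + θ * ta * tb)) ((tb + θ * ta) / (1 + θ * ta * tb)) = tb := by
  have hP := P_pos hθ ha hb
  have hW := w_lt hθ ha hb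
  have hth := theta_sq_lt hθ
  set P := 1 + θ * ta * tb with hPdef
  have hu : (tb + θ * ta) / P - θ * ((ta + θ * tb) / P) = tb * (1 - θ ^ 2) / P := by
    field_simp; ring
  have hv : (ta + θ * tb) / P - θ * ((tb + θ * ta) / P) = ta * (1 - θ ^ 2) / P := by
    field_simp; ring
  have hD : cavD θ ((ta + θ * tb) / P) ((tb + θ * ta) / P) =
      ((1 - θ ^ 2) * (1 - θ * ta * tb) / P) ^ 2 := by
    unfold cavD
    rw [mul_assoc (4 * θ), hu, hv]
    field_simp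
    rw [hPdef]; ring
  have hS : Real.sqrt (cavD θ ((ta + θ * tb) / P) ((tb + θ * ta) / P)) =
      (1 - θ ^ 2) * (1 - θ * ta * tb) / P := by
    rw [hD, Real.sqrt_sq (by positivity)]
  unfold cav
  rw [hS, hu]
  have hne : (1 - θ ^ 2) + (1 - θ ^ 2) * (1 - θ * ta * tb) / P = 2 * (1 - θ ^ 2) / P := by
    field_simp
    rw [hPdef]; ring
  rw [hne]
  field_simp

/-- Surjectivity: every pair of means on the closed square comes from cavity fields. -/
theorem cav_pair (hθ : Adm θ) (hx : |x| ≤ 1) (hy : |y| ≤ 1) :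
    0 < 1 + θ * cav θ y x * cav θ x y ∧
    x = (cav θ y x + θ * cav θ x y) / (1 + θ * cav θ y x * cav θ x y) ∧
    y = (cav θ x y + θ * cav θ y x) / (1 + θ * cav θ y x * cav θ x y) := by
  have hden := cav_den_pos hθ hx hy
  have hS := sq_sqrt_cavD hθ hx hy
  have hth := theta_sq_lt hθ
  have hsymm : cavD θ y x = cavD θ x y := by unfold cavD; ring
  have hD : cavD θ x y = (1 - θ ^ 2) ^ 2 - 4 * θ * (x - θ * y) * (y - θ * x) := rfl
  unfold cav
  rw [hsymm]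
  set S := Real.sqrt (cavD θ x y) with hSdef
  set d := (1 - θ ^ 2) + S with hd
  have hP : 1 + θ * (2 * (x - θ * y) / d) * (2 * (y - θ * x) / d) = 2 * (1 - θ ^ 2) / d := by
    have h4 : 4 * θ * (x - θ * y) * (y - θ * x) = (1 - θ ^ 2) ^ 2 - S ^ 2 := by
      rw [hS, hD]; ring
    have e : θ * (2 * (x - θ * y) / d) * (2 * (y - θ * x) / d) =
        (4 * θ * (x - θ * y) * (y - θ * x)) / d ^ 2 := by
      field_simp
      ring
    rw [e, h4]
    field_simp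
    rw [hd]; ring
  rw [hP]
  refine ⟨by positivity, ?_, ?_⟩
  · field_simp
    ring
  · field_simp
    ring

/-- Forward identities of the pair law. -/
theorem one_sub_sq_forward (hP : 1 + θ * ta * tb ≠ 0) :
    1 - ((ta + θ * tb) / (1 + θ * ta * tb)) ^ 2 =
      (1 - ta ^ 2) * (1 - θ ^ 2 * tb ^ 2) / (1 + θ * ta * tb) ^ 2 := by
  rw [div_pow, eq_div_iff (pow_ne_zero 2 hP), sub_mul, div_mul_cancel₀ _ (pow_ne_zero 2 hP)]
  ring

theorem cov_forward (hP : 1 + θ * ta * tb ≠ 0) :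
    (θ + ta * tb) / (1 + θ * ta * tb) -
        ((ta + θ * tb) / (1 + θ * ta * tb)) * ((tb + θ * ta) / (1 + θ * ta * tb)) =
      θ * (1 - ta ^ 2) * (1 - tb ^ 2) / (1 + θ * ta * tb) ^ 2 := by
  field_simp
  ring

private theorem om_den_pos (hθ : Adm θ) (ht : |t| ≤ 1) : 0 < 1 - θ ^ 2 * t ^ 2 := by
  have h1 := hθ.sq_le
  have h2 := sq_le_one_of_abs ht
  have h3 : θ ^ 2 * t ^ 2 ≤ 1 / 2 * 1 :=
    mul_le_mul h1 h2 (sq_nonneg t) (by norm_num)
  linarith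

/-- The covariance of an edge in terms of the means: here `ta`, `tb` are any cavity fields with means `x`, `y`. -/
theorem cov_eq_rr (hθ : Adm θ) (ha : |ta| ≤ 1) (hb : |tb| ≤ 1) :
    (θ + ta * tb) / (1 + θ * ta * tb) -
        ((ta + θ * tb) / (1 + θ * ta * tb)) * ((tb + θ * ta) / (1 + θ * ta * tb)) =
      (1 - ((ta + θ * tb) / (1 + θ * ta * tb)) ^ 2) *
        rr θ ((ta + θ * tb) / (1 + θ * ta * tb)) ((tb + θ * ta) / (1 + θ * ta * tb)) := by
  have hP := P_pos hθ ha hb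
  have hd := om_den_pos hθ hb
  rw [cov_forward hP.ne', one_sub_sq_forward hP.ne']
  unfold rr
  rw [cav_forward hθ ha hb]
  unfold om
  field_simp

/-- Reversibility of the transmission. -/
theorem rr_rev (hθ : Adm θ) (hx : |x| ≤ 1) (hy : |y| ≤ 1) :
    (1 - x ^ 2) * rr θ x y = (1 - y ^ 2) * rr θ y x := by
  obtain ⟨hP, h1, h2⟩ := cav_pair hθ hx hy
  have ha := abs_cav_le hθ hy hx
  have hb := abs_cav_le hθ hx hy
  set ta := cav θ y x with hta
  set tb := cav θ x y with htb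
  have hdb := om_den_pos hθ hb
  have hda := om_den_pos hθ ha
  have e1 : 1 - x ^ 2 = (1 - ta ^ 2) * (1 - θ ^ 2 * tb ^ 2) / (1 + θ * ta * tb) ^ 2 := by
    conv_lhs => rw [h1]
    exact one_sub_sq_forward hP.ne'
  have e2 : 1 - y ^ 2 = (1 - tb ^ 2) * (1 - θ ^ 2 * ta ^ 2) / (1 + θ * ta * tb) ^ 2 := by
    have hP' : 1 + θ * tb * ta = 1 + θ * ta * tb := by ring
    have := one_sub_sq_forward (θ := θ) (ta := tb) (tb := ta) (by rw [hP']; exact hP.ne')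
    rw [hP'] at this
    conv_lhs => rw [h2]
    exact this
  unfold rr
  rw [← hta, ← htb, e1, e2]
  unfold om
  have hda' : 1 - ta ^ 2 * θ ^ 2 ≠ 0 := by
    intro h; apply hda.ne'; linarith
  have hdb' : 1 - tb ^ 2 * θ ^ 2 ≠ 0 := by
    intro h; apply hdb.ne'; linarith
  rw [mul_comm (θ ^ 2) (tb ^ 2), mul_comm (θ ^ 2) (ta ^ 2)]
  field_simp

theorem om_nonneg (hθ : Adm θ) (ht : |t| ≤ 1) : 0 ≤ om θ t := by
  have h := om_den_pos hθ ht
  have h2 := sq_le_one_of_abs ht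
  exact div_nonneg (by linarith) h.le

theorem om_le_one (hθ : Adm θ) (ht : |t| ≤ 1) : om θ t ≤ 1 := by
  have h := om_den_pos hθ ht
  have h1 := hθ.sq_le
  unfold om
  rw [div_le_one h]
  nlinarith [sq_nonneg t]

theorem om_sq_le (hθ : Adm θ) (ht : |t| ≤ 1) : om θ t ^ 2 ≤ 1 - (1 - θ ^ 2) * t ^ 2 := by
  have h := om_den_pos hθ ht
  have h0 := om_nonneg hθ ht
  have h1 := om_le_one hθ ht
  have hth := theta_sq_lt hθ
  have h2 : om θ t ≤ 1 - (1 - θ ^ 2) * t ^ 2 := by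
    unfold om
    rw [div_le_iff₀ h]
    have : 0 ≤ (1 - θ ^ 2) * t ^ 2 * (θ ^ 2 * t ^ 2) := by positivity
    nlinarith
  nlinarith

theorem rr_nonneg (hθ : Adm θ) (hx : |x| ≤ 1) (hy : |y| ≤ 1) : 0 ≤ rr θ x y :=
  mul_nonneg hθ.nonneg (om_nonneg hθ (abs_cav_le hθ hx hy))

theorem rr_le (hθ : Adm θ) (hx : |x| ≤ 1) (hy : |y| ≤ 1) : rr θ x y ≤ θ := by
  have := om_le_one hθ (abs_cav_le hθ hx hy)
  unfold rr
  nlinarith [hθ.nonneg]

/-! ### Lipschitz estimates -/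

private theorem abs_theta_le (hθ : Adm θ) : |θ| ≤ 1 := by
  rw [abs_of_nonneg hθ.nonneg]; exact hθ.lt_one.le

private theorem sq_diff (hθ : |θ| ≤ 1) (hθ' : |θ'| ≤ 1) : |θ ^ 2 - θ' ^ 2| ≤ 2 * |θ - θ'| := by
  have e : θ ^ 2 - θ' ^ 2 = (θ - θ') * (θ + θ') := by ring
  rw [e, abs_mul]
  have : |θ + θ'| ≤ 2 := by
    calc |θ + θ'| ≤ |θ| + |θ'| := abs_add_le _ _
      _ ≤ 2 := by linarith
  nlinarith [abs_nonneg (θ - θ')]

private theorem mul_diff {a b a' b' A B : ℝ} (ha' : |a'| ≤ A) (hb : |b| ≤ B) :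
    |a * b - a' * b'| ≤ B * |a - a'| + A * |b - b'| := by
  have e : a * b - a' * b' = (a - a') * b + a' * (b - b') := by ring
  rw [e]
  calc |(a - a') * b + a' * (b - b')| ≤ |(a - a') * b| + |a' * (b - b')| := abs_add_le _ _
    _ = |a - a'| * |b| + |a'| * |b - b'| := by rw [abs_mul, abs_mul]
    _ ≤ |a - a'| * B + A * |b - b'| := by
      gcongr
    _ = _ := by ring

private theorem u_diff (hθ : |θ| ≤ 1) (hx' : |x'| ≤ 1) :
    |(y - θ * x) - (y' - θ' * x')| ≤ |y - y'| + |x - x'| + |θ - θ'| := by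
  have e : (y - θ * x) - (y' - θ' * x') = (y - y') - (θ * x - θ' * x') := by ring
  have h := mul_diff (a := x) (b := θ) (a' := x') (b' := θ') hx' hθ
  have e2 : θ * x - θ' * x' = x * θ - x' * θ' := by ring
  rw [e, e2]
  calc |(y - y') - (x * θ - x' * θ')| ≤ |y - y'| + |x * θ - x' * θ'| := abs_sub _ _
    _ ≤ _ := by linarith

private theorem u_bound (hθ : |θ| ≤ 1) (hx : |x| ≤ 1) (hy : |y| ≤ 1) : |y - θ * x| ≤ 2 := by
  calc |y - θ * x| ≤ |y| + |θ * x| := abs_sub _ _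
    _ = |y| + |θ| * |x| := by rw [abs_mul]
    _ ≤ 1 + 1 * 1 := by gcongr
    _ = 2 := by norm_num

private theorem cavD_diff (hθ : Adm θ) (hθ' : Adm θ') (hx : |x| ≤ 1) (hy : |y| ≤ 1)
    (hx' : |x'| ≤ 1) (hy' : |y'| ≤ 1) :
    |cavD θ x y - cavD θ' x' y'| ≤ 100 * (|x - x'| + |y - y'| + |θ - θ'|) := by
  have a1 := abs_theta_le hθ
  have a2 := abs_theta_le hθ'
  have hu := u_diff (θ' := θ') (y := y) (y' := y') (x := x) (x' := x') a1 hx'
  have hv := u_diff (θ' := θ') (y := x) (y' := x') (x := y) (x' := y') a1 hy'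
  have bu := u_bound a1 hx hy
  have bv := u_bound a1 hy hx
  have bu' := u_bound a2 hx' hy'
  have bv' := u_bound a2 hy' hx'
  have hq := sq_diff a1 a2
  -- first term
  have t1 : |(1 - θ ^ 2) ^ 2 - (1 - θ' ^ 2) ^ 2| ≤ 4 * |θ - θ'| := by
    have e : (1 - θ ^ 2) ^ 2 - (1 - θ' ^ 2) ^ 2 = (θ' ^ 2 - θ ^ 2) * (2 - θ ^ 2 - θ' ^ 2) := by ring
    rw [e, abs_mul, abs_sub_comm]
    have h1 : |2 - θ ^ 2 - θ' ^ 2| ≤ 2 := by
      rw [abs_le]
      have := hθ.sq_le; have := hθ'.sq_le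
      constructor <;> nlinarith [sq_nonneg θ, sq_nonneg θ']
    calc |θ ^ 2 - θ' ^ 2| * |2 - θ ^ 2 - θ' ^ 2| ≤ (2 * |θ - θ'|) * 2 := by gcongr
      _ = _ := by ring
  -- product of u v
  have t2 : |(x - θ * y) * (y - θ * x) - (x' - θ' * y') * (y' - θ' * x')| ≤
      2 * |(x - θ * y) - (x' - θ' * y')| + 2 * |(y - θ * x) - (y' - θ' * x')| :=
    mul_diff bv' bu
  have t3 : |θ * ((x - θ * y) * (y - θ * x)) - θ' * ((x' - θ' * y') * (y' - θ' * x'))| ≤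
      4 * |θ - θ'| + 1 * |(x - θ * y) * (y - θ * x) - (x' - θ' * y') * (y' - θ' * x')| := by
    apply mul_diff a2
    rw [abs_mul]
    calc |x - θ * y| * |y - θ * x| ≤ 2 * 2 := by gcongr
      _ = 4 := by norm_num
  have e : cavD θ x y - cavD θ' x' y' = ((1 - θ ^ 2) ^ 2 - (1 - θ' ^ 2) ^ 2)
      - 4 * (θ * ((x - θ * y) * (y - θ * x)) - θ' * ((x' - θ' * y') * (y' - θ' * x'))) := by
    unfold cavD; ring
  rw [e]
  have h5 : |((1 - θ ^ 2) ^ 2 - (1 - θ' ^ 2) ^ 2)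
      - 4 * (θ * ((x - θ * y) * (y - θ * x)) - θ' * ((x' - θ' * y') * (y' - θ' * x')))| ≤
      |(1 - θ ^ 2) ^ 2 - (1 - θ' ^ 2) ^ 2| +
      4 * |θ * ((x - θ * y) * (y - θ * x)) - θ' * ((x' - θ' * y') * (y' - θ' * x'))| := by
    refine (abs_sub _ _).trans ?_
    rw [abs_mul]; norm_num
  have nn1 := abs_nonneg (x - x')
  have nn2 := abs_nonneg (y - y')
  have nn3 := abs_nonneg (θ - θ')
  linarith

private theorem sqrt_diff {a b : ℝ} (ha : 1 / 256 ≤ a) (hb : 1 / 256 ≤ b) :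
    |Real.sqrt a - Real.sqrt b| ≤ 8 * |a - b| := by
  have hsa : 1 / 16 ≤ Real.sqrt a := by
    apply Real.le_sqrt_of_sq_le; norm_num; linarith
  have hsb : 1 / 16 ≤ Real.sqrt b := by
    apply Real.le_sqrt_of_sq_le; norm_num; linarith
  have e : a - b = (Real.sqrt a - Real.sqrt b) * (Real.sqrt a + Real.sqrt b) := by
    have h1 := Real.sq_sqrt (show 0 ≤ a by linarith)
    have h2 := Real.sq_sqrt (show 0 ≤ b by linarith)
    nlinarith
  rw [e, abs_mul, abs_of_pos (show 0 < Real.sqrt a + Real.sqrt b by linarith)]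
  nlinarith [abs_nonneg (Real.sqrt a - Real.sqrt b)]

private theorem quartic_ge (hθ : Adm θ) : (1 : ℝ) / 256 ≤ (1 - θ) ^ 4 := by
  have h := hθ.le
  have h1 : (1 : ℝ) / 4 ≤ 1 - θ := by linarith
  calc (1 : ℝ) / 256 = (1 / 4) ^ 4 := by norm_num
    _ ≤ (1 - θ) ^ 4 := by gcongr

private theorem div_diff {a b a' b' A : ℝ} (hb : 1 / 2 ≤ b) (hb' : 1 / 2 ≤ b') (ha' : |a'| ≤ A) :
    |a / b - a' / b'| ≤ 2 * |a - a'| + 4 * A * |b - b'| := by
  have hb0 : 0 < b := by linarith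
  have hb0' : 0 < b' := by linarith
  have e : a / b - a' / b' = (a - a') / b + a' * (b' - b) / (b * b') := by
    field_simp
    ring
  rw [e]
  have hA : 0 ≤ A := le_trans (abs_nonneg _) ha'
  have h1 : |(a - a') / b| ≤ 2 * |a - a'| := by
    rw [abs_div, abs_of_pos hb0, div_le_iff₀ hb0]
    nlinarith [abs_nonneg (a - a')]
  have h2 : |a' * (b' - b) / (b * b')| ≤ 4 * A * |b - b'| := by
    rw [abs_div, abs_mul, abs_of_pos (mul_pos hb0 hb0'), div_le_iff₀ (mul_pos hb0 hb0'),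
      abs_sub_comm b' b]
    have h3 : 1 / 4 ≤ b * b' := by nlinarith
    have h4 : |a'| * |b - b'| ≤ A * |b - b'| := by gcongr
    have h5 : 0 ≤ A * |b - b'| := by positivity
    nlinarith
  exact (abs_add_le _ _).trans (add_le_add h1 h2)

/-- Lipschitz dependence, jointly in the means and the interaction. -/
theorem cav_lip : ∃ c : ℝ, 0 < c ∧ ∀ θ θ' x y x' y' : ℝ, Adm θ → Adm θ' → |x| ≤ 1 → |y| ≤ 1 → |x'| ≤ 1 → |y'| ≤ 1 →
    |cav θ x y - cav θ' x' y'| ≤ c * (|x - x'| + |y - y'| + |θ - θ'|) := by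
  refine ⟨20000, by norm_num, ?_⟩
  intro θ θ' x y x' y' hθ hθ' hx hy hx' hy'
  have a1 := abs_theta_le hθ
  have a2 := abs_theta_le hθ'
  have hden : 1 / 2 ≤ (1 - θ ^ 2) + Real.sqrt (cavD θ x y) := by
    have := cav_den_ge hθ hx hy
    have := hθ.le
    linarith
  have hden' : 1 / 2 ≤ (1 - θ' ^ 2) + Real.sqrt (cavD θ' x' y') := by
    have := cav_den_ge hθ' hx' hy'
    have := hθ'.le
    linarith
  have hnum : |2 * (y' - θ' * x')| ≤ 4 := by
    rw [abs_mul]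
    have := u_bound a2 hx' hy'
    norm_num
    linarith
  have h := div_diff (a := 2 * (y - θ * x)) hden hden' hnum
  have hu := u_diff (θ' := θ') (y := y) (y' := y') (x := x) (x' := x') a1 hx'
  have hq := sq_diff a1 a2
  have hD := cavD_diff hθ hθ' hx hy hx' hy'
  have hS := sqrt_diff ((quartic_ge hθ).trans (cavD_ge hθ hx hy))
    ((quartic_ge hθ').trans (cavD_ge hθ' hx' hy'))
  have e1 : |2 * (y - θ * x) - 2 * (y' - θ' * x')| = 2 * |(y - θ * x) - (y' - θ' * x')| := by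
    rw [← mul_sub, abs_mul]; norm_num
  have e2 : |(1 - θ ^ 2) + Real.sqrt (cavD θ x y) - ((1 - θ' ^ 2) + Real.sqrt (cavD θ' x' y'))| ≤
      |θ ^ 2 - θ' ^ 2| + |Real.sqrt (cavD θ x y) - Real.sqrt (cavD θ' x' y')| := by
    have : (1 - θ ^ 2) + Real.sqrt (cavD θ x y) - ((1 - θ' ^ 2) + Real.sqrt (cavD θ' x' y')) =
        -(θ ^ 2 - θ' ^ 2) + (Real.sqrt (cavD θ x y) - Real.sqrt (cavD θ' x' y')) := by ring
    rw [this]
    refine (abs_add_le _ _).trans ?_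
    rw [abs_neg]
  unfold cav
  have nn1 := abs_nonneg (x - x')
  have nn2 := abs_nonneg (y - y')
  have nn3 := abs_nonneg (θ - θ')
  rw [e1] at h
  linarith

theorem om_lip : ∃ c : ℝ, 0 < c ∧ ∀ θ θ' t t' : ℝ, Adm θ → Adm θ' → |t| ≤ 1 → |t'| ≤ 1 →
    |om θ t - om θ' t'| ≤ c * (|t - t'| + |θ - θ'|) := by
  refine ⟨100, by norm_num, ?_⟩
  intro θ θ' t t' hθ hθ' ht ht'
  have a1 := abs_theta_le hθ
  have a2 := abs_theta_le hθ'
  have hden : 1 / 2 ≤ 1 - θ ^ 2 * t ^ 2 := by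
    have h1 := hθ.sq_le
    have h2 := sq_le_one_of_abs ht
    have h3 : θ ^ 2 * t ^ 2 ≤ 1 / 2 * 1 := mul_le_mul h1 h2 (sq_nonneg t) (by norm_num)
    linarith
  have hden' : 1 / 2 ≤ 1 - θ' ^ 2 * t' ^ 2 := by
    have h1 := hθ'.sq_le
    have h2 := sq_le_one_of_abs ht'
    have h3 : θ' ^ 2 * t' ^ 2 ≤ 1 / 2 * 1 := mul_le_mul h1 h2 (sq_nonneg t') (by norm_num)
    linarith
  have hnum : |1 - t' ^ 2| ≤ 1 := by
    rw [abs_le]
    have := sq_le_one_of_abs ht'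
    constructor <;> nlinarith [sq_nonneg t']
  have h := div_diff (a := 1 - t ^ 2) hden hden' hnum
  have ht2 := sq_diff ht ht'
  have hq := sq_diff a1 a2
  have e1 : |1 - t ^ 2 - (1 - t' ^ 2)| = |t ^ 2 - t' ^ 2| := by
    have : 1 - t ^ 2 - (1 - t' ^ 2) = -(t ^ 2 - t' ^ 2) := by ring
    rw [this, abs_neg]
  have hb1 : |t ^ 2| ≤ 1 := by
    rw [abs_of_nonneg (sq_nonneg t)]; exact sq_le_one_of_abs ht
  have hb2 : |θ' ^ 2| ≤ 1 := by
    rw [abs_of_nonneg (sq_nonneg θ')]; have := hθ'.sq_le; linarith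
  have e2 : |1 - θ ^ 2 * t ^ 2 - (1 - θ' ^ 2 * t' ^ 2)| ≤ 1 * |θ ^ 2 - θ' ^ 2| + 1 * |t ^ 2 - t' ^ 2| := by
    have : 1 - θ ^ 2 * t ^ 2 - (1 - θ' ^ 2 * t' ^ 2) = -(θ ^ 2 * t ^ 2 - θ' ^ 2 * t' ^ 2) := by ring
    rw [this, abs_neg]
    exact mul_diff hb2 hb1
  unfold om
  rw [e1] at h
  have nn1 := abs_nonneg (t - t')
  have nn3 := abs_nonneg (θ - θ')
  linarith

theorem rr_lip : ∃ c : ℝ, 0 < c ∧ ∀ θ θ' x y x' y' : ℝ, Adm θ → Adm θ' → |x| ≤ 1 → |y| ≤ 1 → |x'| ≤ 1 → |y'| ≤ 1 →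
    |rr θ x y - rr θ' x' y'| ≤ c * (|x - x'| + |y - y'| + |θ - θ'|) := by
  obtain ⟨c1, hc1, h1⟩ := cav_lip
  obtain ⟨c2, hc2, h2⟩ := om_lip
  refine ⟨1 + c2 * (c1 + 1), by positivity, ?_⟩
  intro θ θ' x y x' y' hθ hθ' hx hy hx' hy'
  have hcav := h1 θ θ' x y x' y' hθ hθ' hx hy hx' hy'
  have ht := abs_cav_le hθ hx hy
  have ht' := abs_cav_le hθ' hx' hy'
  have hom := h2 θ θ' _ _ hθ hθ' ht ht'
  have a2 := abs_theta_le hθ'
  have hb : |om θ (cav θ x y)| ≤ 1 := by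
    rw [abs_of_nonneg (om_nonneg hθ ht)]; exact om_le_one hθ ht
  have hm := mul_diff (a := θ) (b := om θ (cav θ x y)) (a' := θ') (b' := om θ' (cav θ' x' y')) a2 hb
  unfold rr
  have nn1 := abs_nonneg (x - x')
  have nn2 := abs_nonneg (y - y')
  have nn3 := abs_nonneg (θ - θ')
  set s := |x - x'| + |y - y'| + |θ - θ'| with hs
  have hs0 : 0 ≤ s := by positivity
  have h3 : c2 * (|cav θ x y - cav θ' x' y'| + |θ - θ'|) ≤ c2 * (c1 * s + s) := by
    apply mul_le_mul_of_nonneg_left _ hc2.le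
    have : |θ - θ'| ≤ s := by rw [hs]; linarith
    linarith
  have h4 : |θ - θ'| ≤ s := by rw [hs]; linarith
  calc |θ * om θ (cav θ x y) - θ' * om θ' (cav θ' x' y')|
      ≤ 1 * |θ - θ'| + 1 * |om θ (cav θ x y) - om θ' (cav θ' x' y')| := hm
    _ ≤ 1 * s + 1 * (c2 * (c1 * s + s)) := by
        gcongr
        exact hom.trans h3
    _ = (1 + c2 * (c1 + 1)) * s := by ring

theorem measurable_cav (θ : ℝ) : Measurable (fun p : ℝ × ℝ => cav θ p.1 p.2) := by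
  unfold cav cavD
  fun_prop

theorem measurable_om (θ : ℝ) : Measurable (om θ) := by
  unfold om
  fun_prop

theorem measurable_rr (θ : ℝ) : Measurable (fun p : ℝ × ℝ => rr θ p.1 p.2) := by
  unfold rr
  exact measurable_const.mul ((measurable_om θ).comp (measurable_cav θ))

end Crest.Agent.Lib.TI
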