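import Crest.Agent.Lib.TI.Law

/-!
# The increment of the tilt at one observation (S0241 project, module TI.Channel)
-/

set_option autoImplicit false

namespace Crest.Agent.Lib.TI

open MeasureTheory Set
open scoped unitInterval
open Crest.Agent.Lib.FiidChannel Crest.Agent.Lib.FiidPlanted

/-- The tilt strength from an observation `y`. -/
noncomputable def aY (κ : ℝ) (y : I) : ℝ := κ * (2 * (y : ℝ) - 1)

/-- The coefficient `s` of the covariance in the update of the means, when the current mean is `m`, the noise `t`. -/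
noncomputable def sS (κ m : ℝ) (t : I) : ℝ := aY κ (obs (κ * m) t) / (1 + aY κ (obs (κ * m) t) * m)

variable {κ m m' : ℝ}

lemma abs_two_mul_sub_one_le (y : I) : |2 * (y : ℝ) - 1| ≤ 1 := by
  have h0 := y.2.1
  have h1 := y.2.2
  rw [abs_le]; constructor <;> linarith

lemma abs_aY_le (hκ : 0 ≤ κ) (y : I) : |aY κ y| ≤ κ := by
  unfold aY
  rw [abs_mul, abs_of_nonneg hκ]
  calc κ * |2 * (y : ℝ) - 1| ≤ κ * 1 := mul_le_mul_of_nonneg_left (abs_two_mul_sub_one_le y) hκ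
    _ = κ := mul_one κ

lemma measurable_aY (κ : ℝ) : Measurable (aY κ) := by
  unfold aY
  fun_prop

lemma abs_par_le (hκ0 : 0 ≤ κ) (hκ : κ ≤ 1 / 3) (hm : |m| ≤ 1) : |κ * m| ≤ 1 / 3 := by
  rw [abs_mul, abs_of_nonneg hκ0]
  calc κ * |m| ≤ κ * 1 := mul_le_mul_of_nonneg_left hm hκ0
    _ ≤ 1 / 3 := by linarith

lemma one_add_aY_mul_ge (hκ0 : 0 ≤ κ) (hm : |m| ≤ 1) (y : I) : 1 - κ ≤ 1 + aY κ y * m := by
  have h := abs_aY_le hκ0 y
  have h2 : |aY κ y * m| ≤ κ := by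
    rw [abs_mul]
    calc |aY κ y| * |m| ≤ κ * 1 := mul_le_mul h hm (abs_nonneg _) hκ0
      _ = κ := mul_one κ
  have := (abs_le.mp h2).1
  linarith

lemma dens_eq (κ m : ℝ) (y : I) : dens (κ * m) y = 1 + aY κ y * m := by
  unfold dens aY
  ring

lemma integral_I_eq (f : ℝ → ℝ) : ∫ y : I, f y = ∫ y in (0:ℝ)..1, f y := by
  rw [intervalIntegral.integral_of_le zero_le_one, ← integral_Icc_eq_integral_Ioc]
  exact integral_subtype_comap measurableSet_Icc f

lemma integral_linear : ∫ y : I, (2 * (y : ℝ) - 1) = 0 := by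
  rw [integral_I_eq (fun y => 2 * y - 1)]
  have h : ∀ x ∈ uIcc (0:ℝ) 1, HasDerivAt (fun y : ℝ => y ^ 2 - y) (2 * x - 1) x := by
    intro x _
    have h1 : HasDerivAt (fun y : ℝ => y ^ 2) (2 * x) x := by simpa using hasDerivAt_pow 2 x
    have h2 : HasDerivAt (fun y : ℝ => y) 1 x := hasDerivAt_id x
    exact h1.sub h2
  rw [intervalIntegral.integral_eq_sub_of_hasDerivAt h
    (Continuous.intervalIntegrable (by fun_prop) _ _)]
  norm_num

lemma integral_sq : ∫ y : I, (2 * (y : ℝ) - 1) ^ 2 = 1 / 3 := by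
  rw [integral_I_eq (fun y => (2 * y - 1) ^ 2)]
  have h : ∀ x ∈ uIcc (0:ℝ) 1, HasDerivAt (fun y : ℝ => (2 * y - 1) ^ 3 / 6) ((2 * x - 1) ^ 2) x := by
    intro x _
    have h1 : HasDerivAt (fun y : ℝ => 2 * y - 1) 2 x := by
      simpa using ((hasDerivAt_id x).const_mul 2).sub_const 1
    have h2 : HasDerivAt (fun y : ℝ => (2 * y - 1) ^ 3) (3 * (2 * x - 1) ^ 2 * 2) x := by
      simpa using h1.fun_pow 3
    have h3 := h2.div_const 6
    have e : 3 * (2 * x - 1) ^ 2 * 2 / 6 = (2 * x - 1) ^ 2 := by ring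
    rwa [e] at h3
  rw [intervalIntegral.integral_eq_sub_of_hasDerivAt h
    (Continuous.intervalIntegrable (by fun_prop) _ _)]
  norm_num

lemma bm_aY (κ : ℝ) : BM (aY κ) :=
  ⟨measurable_aY κ, |κ|, fun y => by
    unfold aY
    rw [abs_mul]
    calc |κ| * |2 * (y : ℝ) - 1| ≤ |κ| * 1 := mul_le_mul_of_nonneg_left (abs_two_mul_sub_one_le y) (abs_nonneg _)
      _ = |κ| := mul_one _⟩

/-- **`s` has mean zero.** -/
theorem integral_sS (hκ0 : 0 ≤ κ) (hκ : κ ≤ 1 / 3) (hm : |m| ≤ 1) : ∫ t : I, sS κ m t = 0 := by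
  unfold sS
  rw [integral_comp_obs (abs_par_le hκ0 hκ hm) (fun y => aY κ y / (1 + aY κ y * m))]
  have : ∀ y : I, aY κ y / (1 + aY κ y * m) * dens (κ * m) y = κ * (2 * (y : ℝ) - 1) := by
    intro y
    rw [dens_eq]
    have h := one_add_aY_mul_ge hκ0 hm y
    have : 1 + aY κ y * m ≠ 0 := by linarith
    field_simp
    rfl
  simp_rw [this]
  rw [integral_const_mul, integral_linear, mul_zero]

/-- **The second moment of `s`.** -/
theorem integral_sS_sq (hκ0 : 0 ≤ κ) (hκ : κ ≤ 1 / 3) (hm : |m| ≤ 1) :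
    ∫ t : I, sS κ m t ^ 2 ≤ κ ^ 2 / (3 * (1 - κ)) := by
  unfold sS
  rw [integral_comp_obs (abs_par_le hκ0 hκ hm) (fun y => (aY κ y / (1 + aY κ y * m)) ^ 2)]
  have h1k : 0 < 1 - κ := by linarith
  have hle : ∀ y : I, (aY κ y / (1 + aY κ y * m)) ^ 2 * dens (κ * m) y ≤
      (κ ^ 2 / (1 - κ)) * (2 * (y : ℝ) - 1) ^ 2 := by
    intro y
    rw [dens_eq]
    have h := one_add_aY_mul_ge hκ0 hm y
    have hp : 0 < 1 + aY κ y * m := by linarith
    have e : (aY κ y / (1 + aY κ y * m)) ^ 2 * (1 + aY κ y * m) = aY κ y ^ 2 / (1 + aY κ y * m) := by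
      field_simp
    rw [e]
    have e2 : aY κ y ^ 2 = κ ^ 2 * (2 * (y : ℝ) - 1) ^ 2 := by unfold aY; ring
    rw [e2]
    have e3 : (κ ^ 2 / (1 - κ)) * (2 * (y : ℝ) - 1) ^ 2 = κ ^ 2 * (2 * (y : ℝ) - 1) ^ 2 / (1 - κ) := by ring
    rw [e3]
    exact div_le_div_of_nonneg_left (by positivity) h1k h
  have hbd : BM (fun y : I => (2 * (y : ℝ) - 1) ^ 2) := by
    refine ⟨by fun_prop, 1, fun y => ?_⟩
    rw [abs_pow, pow_two]
    have := abs_two_mul_sub_one_le y
    nlinarith [abs_nonneg (2 * (y : ℝ) - 1)]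
  have hmeas : Measurable (fun y : I => (aY κ y / (1 + aY κ y * m)) ^ 2 * dens (κ * m) y) := by
    have := measurable_aY κ
    unfold dens
    fun_prop
  have hbound : ∀ y : I, ‖(aY κ y / (1 + aY κ y * m)) ^ 2 * dens (κ * m) y‖ ≤ (κ ^ 2 / (1 - κ)) * 1 := by
    intro y
    have h0 : 0 ≤ (aY κ y / (1 + aY κ y * m)) ^ 2 * dens (κ * m) y := by
      have := dens_pos_I (abs_par_le hκ0 hκ hm) y
      positivity
    rw [Real.norm_of_nonneg h0]
    refine (hle y).trans ?_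
    apply mul_le_mul_of_nonneg_left _ (by positivity)
    have := abs_two_mul_sub_one_le y
    rw [pow_two]
    nlinarith [abs_nonneg (2 * (y : ℝ) - 1), abs_mul_abs_self (2 * (y : ℝ) - 1)]
  calc ∫ y : I, (aY κ y / (1 + aY κ y * m)) ^ 2 * dens (κ * m) y
      ≤ ∫ y : I, (κ ^ 2 / (1 - κ)) * (2 * (y : ℝ) - 1) ^ 2 := by
        apply integral_mono
        · exact Integrable.of_bound hmeas.aestronglyMeasurable _ (Filter.Eventually.of_forall hbound)
        · exact (hbd.integrable _).const_mul _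
        · exact hle
    _ = (κ ^ 2 / (1 - κ)) * (1 / 3) := by rw [integral_const_mul, integral_sq]
    _ = κ ^ 2 / (3 * (1 - κ)) := by
      field_simp

/-- **Lipschitz dependence of `s` on the mean.** -/
theorem abs_sS_sub_le (hκ0 : 0 ≤ κ) (hκ : κ ≤ 1 / 3) (hm : |m| ≤ 1) (hm' : |m'| ≤ 1) (t : I) :
    |sS κ m t - sS κ m' t| ≤ 4 * κ ^ 2 * |m - m'| := by
  unfold sS
  set y := obs (κ * m) t with hy
  set y' := obs (κ * m') t with hy'
  have hs := abs_par_le hκ0 hκ hm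
  have hs' := abs_par_le hκ0 hκ hm'
  have hyy : |(y : ℝ) - y'| ≤ (3 / 8) * (κ * |m - m'|) := by
    rw [hy, hy', obs_coe hs, obs_coe hs']
    have := invCdf_sub_abs_le hs hs' t.2.1 t.2.2
    have e : |κ * m - κ * m'| = κ * |m - m'| := by
      rw [← mul_sub, abs_mul, abs_of_nonneg hκ0]
    rwa [e] at this
  have h1 := one_add_aY_mul_ge hκ0 hm y
  have h2 := one_add_aY_mul_ge hκ0 hm' y'
  have h3 : (2 / 3 : ℝ) ≤ 1 - κ := by linarith
  have hp1 : 0 < 1 + aY κ y * m := by linarith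
  have hp2 : 0 < 1 + aY κ y' * m' := by linarith
  have ha1 := abs_aY_le hκ0 y
  have ha2 := abs_aY_le hκ0 y'
  have e : aY κ y / (1 + aY κ y * m) - aY κ y' / (1 + aY κ y' * m') =
      ((aY κ y - aY κ y') + aY κ y * aY κ y' * (m' - m)) / ((1 + aY κ y * m) * (1 + aY κ y' * m')) := by
    field_simp
    ring
  rw [e, abs_div, abs_of_pos (mul_pos hp1 hp2)]
  have hdenom : (4 / 9 : ℝ) ≤ (1 + aY κ y * m) * (1 + aY κ y' * m') := by
    have : (2 / 3 : ℝ) * (2 / 3) ≤ (1 + aY κ y * m) * (1 + aY κ y' * m') :=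
      mul_le_mul (by linarith) (by linarith) (by norm_num) hp1.le
    linarith
  have hnum : |(aY κ y - aY κ y') + aY κ y * aY κ y' * (m' - m)| ≤ (7 / 4) * κ ^ 2 * |m - m'| := by
    have h4 : |aY κ y - aY κ y'| ≤ (3 / 4) * κ ^ 2 * |m - m'| := by
      have : aY κ y - aY κ y' = κ * 2 * ((y : ℝ) - y') := by unfold aY; ring
      rw [this, abs_mul, abs_mul, abs_of_nonneg hκ0, abs_of_pos (by norm_num : (0:ℝ) < 2)]
      have := mul_le_mul_of_nonneg_left hyy (by positivity : 0 ≤ κ * 2)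
      calc κ * 2 * |(y : ℝ) - y'| ≤ κ * 2 * ((3 / 8) * (κ * |m - m'|)) := this
        _ = (3 / 4) * κ ^ 2 * |m - m'| := by ring
    have h5 : |aY κ y * aY κ y' * (m' - m)| ≤ κ ^ 2 * |m - m'| := by
      rw [abs_mul, abs_mul, abs_sub_comm m' m]
      have : |aY κ y| * |aY κ y'| ≤ κ * κ := mul_le_mul ha1 ha2 (abs_nonneg _) hκ0
      calc |aY κ y| * |aY κ y'| * |m - m'| ≤ κ * κ * |m - m'| :=
            mul_le_mul_of_nonneg_right this (abs_nonneg _)
        _ = κ ^ 2 * |m - m'| := by ring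
    calc _ ≤ |aY κ y - aY κ y'| + |aY κ y * aY κ y' * (m' - m)| := abs_add_le _ _
      _ ≤ (3 / 4) * κ ^ 2 * |m - m'| + κ ^ 2 * |m - m'| := add_le_add h4 h5
      _ = (7 / 4) * κ ^ 2 * |m - m'| := by ring
  rw [div_le_iff₀ (mul_pos hp1 hp2)]
  have h6 : 0 ≤ κ ^ 2 * |m - m'| := by positivity
  calc _ ≤ (7 / 4) * κ ^ 2 * |m - m'| := hnum
    _ ≤ 4 * κ ^ 2 * |m - m'| * (4 / 9) := by nlinarith
    _ ≤ 4 * κ ^ 2 * |m - m'| * ((1 + aY κ y * m) * (1 + aY κ y' * m')) :=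
        mul_le_mul_of_nonneg_left hdenom (by positivity)

theorem abs_sS_le (hκ0 : 0 ≤ κ) (hκ : κ ≤ 1 / 3) (hm : |m| ≤ 1) (t : I) : |sS κ m t| ≤ 3 / 2 * κ := by
  unfold sS
  set y := obs (κ * m) t
  have h1 := one_add_aY_mul_ge hκ0 hm y
  have hp1 : 0 < 1 + aY κ y * m := by linarith
  rw [abs_div, abs_of_pos hp1, div_le_iff₀ hp1]
  have := abs_aY_le hκ0 y
  nlinarith

theorem measurable_sS (κ : ℝ) : Measurable (fun p : ℝ × I => sS κ p.1 p.2) := by
  unfold sS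
  have h : Measurable (fun p : ℝ × I => obs (κ * p.1) p.2) :=
    measurable_obs.comp (Measurable.prodMk (by fun_prop) measurable_snd)
  have h2 : Measurable (fun p : ℝ × I => aY κ (obs (κ * p.1) p.2)) := (measurable_aY κ).comp h
  exact h2.div (measurable_const.add (h2.mul measurable_fst))

end Crest.Agent.Lib.TI
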