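import Crest.Agent.Lib.TI.Strict

/-!
# Comparison of two invariant processes of means (S0241 project, module TI.Compare)

`m₁ ξ v`, `m₂ ξ v` are equivariant measurable functions of the noise, with values in `[-1, 1]`, with interactions `θ₁`, `θ₂` (`q θ_i² ≤ 1`).
Write `Δ_v = m₁ ξ v - m₂ ξ v`, `δ = E Δ_o²` (it doesn't depend on `o`), `t¹_e = cav θ₁ (m₁ a) (m₁ b)`, `t²_e` for a directed edge `e = (a, b)`, `Z_e = lhat ϑ t¹_e - lhat ϑ t²_e`.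
The sum of `E incI` over the spheres around `o` is bounded by `C τ (Λ(p) δ + ν(p) + sources)`, with `Λ(p) = K + K² min(36 r p, 1) + 1 + √p`, where

* `K ≥ farK ε` separates the near range and the far range, `ε` is the decay rate of the shells, see `ShellHyp`,
* `r` controls the cavity fields, see `TailHyp`,
* the path variance hypothesis is `path_var`.

**Near range**, `k = dist o u ≤ K`. On the geodesic `x_0 = o, …, x_k = u`, with `t¹_j, t²_j` the fields of the edges `(x_j, x_{j+1})`: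
`xI₁ o u - xI₂ o u` is the sum of `(m₂_o² - m₁_o²) θ₁^k ∏ om θ₁ t¹_j`, `(1 - m₂_o²) (θ₁^k - θ₂^k) ∏ om θ₁ t¹_j`,
`(1 - m₂_o²) θ₂^k (∏ om θ₁ t¹_j - ∏ om ϑ t¹_j)`, `(1 - m₂_o²) θ₂^k (∏ om ϑ t¹_j - ∏ om ϑ t²_j)`, `(1 - m₂_o²) θ₂^k (∏ om ϑ t²_j - ∏ om θ₂ t²_j)`.
So with `near_ineq`, `om_prod_lip`, `θ_i² ≤ 1 / q`: `E (xI₁ o u - xI₂ o u)² ≤ C q^(-k) (δ + k² dθ² + E (∑_{j<k} Z_j)² + ∑_{j<k} E[(t¹_j - t²_j)²; max(|t¹_j|, |t²_j|) > 1/2])`.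
By invariance all terms of the last sum are equal to `E[Δt²; S]` for a fixed directed edge. `E (∑_{j<k} Z_j)² ≤ 2 E(∑_{j<k} (Z_j - ζ))² + 2 k² ζ²`, with `path_var`: `≤ 50 k E Z² + 2 k² ζ²`.
Let `Q = E[max(t¹², t²²) Δt²]`; `E[Δt²; S] ≤ 4 Q`, `E Z² ≤ 9 Q` by `lhat_lip`, and by `TailHyp`: `Q ≤ min(36 r p, 1) E Δt² + 16 e^{-p}` and `E Δt² ≤ C (δ + dθ²)` by `cav_lip`.
The sphere has `(q+1) q^(k-1)` points, all having the same expectations. Summing over `k ≤ K`.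

**Far range**, `k > K`. With `R₁`, `R₂` the path products of the transmissions: hybrid telescoping (`pathProd_sub`):
`xI₁ o u - xI₂ o u = (m₂_o² - m₁_o²) R₁(o,u) + ∑_{j<k} xI₂(o, x_j) (r¹_j - r²_j) R₁(x_{j+1}, u)`.
So `(xI₁ o u - xI₂ o u)² ≤ 8 Δ_o² R₁(o,u)² + 2 k ∑_j xI₂(o,x_j)² (r¹_j - r²_j)² R₁(x_{j+1},u)²`.
By two point homogeneity the expectation of the `j`-th term depends only on `(l₁, l₂) = (j, k-1-j)`, and is the same for all pairs `(y ∈ level l₁ b a, z ∈ level l₂ a b)`, for a fixed edge `(a, b)`: the geodesic from `y` to `z` goes through `a`, `b`.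
Averaging over these `q^(l₁+l₂)` pairs: `E[...] = q^(-l₁-l₂) E[(r¹_{ab} - r²_{ab})² (∑_y xI₂(y,a)²) (∑_z R₁(b,z)²)]`, where `xI₂(y,a) = xI₂(a,y)` (`xI_rev`), bounded by the product of shells `shellM θ₂ m₂ l₁ b a`, `shellM θ₁ m₁ l₂ a b`.
The factor `q^(-l₁-l₂)` cancels the size `(q+1) q^(k-1)` of the sphere up to the factor `q + 1`. Then `far_expect`.
Also `∑_{u ∈ sphere o k} R₁(o,u)² ≤ ∑_{d ~ o} shellM θ₁ m₁ (k-1) o d`. `far_expect` with the trivial `W₁ l = (if l = 0 then 1 else 0)`.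

**The second term of `incI`**: `32 κ⁴ xI₂(o,u)² Δ_u²`. Near: `xI₂² ≤ θ₂^(2k) ≤ q^(-k)`, `E Δ_u² = δ`. Far: by two point homogeneity (mapping `(o, u)` to `(u', o)`) the expectation `E[xI₂(o,u)² Δ_u²]` equals `E[xI₂(u',o)² Δ_o²]` for all `u' ∈ sphere o k`;
averaging, the sum over `u` is `E[Δ_o² ∑_{u'} xI₂(o,u')²]`, as for the first term of the far range.
-/

set_option autoImplicit false

namespace Crest.Agent.Lib.TI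

open MeasureTheory Set Classical Filter Topology
open scoped unitInterval
open Crest.Agent.Lib.FiidChannel Crest.Agent.Lib.FiidPlanted

variable {V : Type*} {G : SimpleGraph V} [G.LocallyFinite] {q : ℕ}

/-- Two equivariant processes of means. -/
structure PairP (G : SimpleGraph V) [G.LocallyFinite] (q : ℕ) (θ₁ θ₂ : ℝ) (m₁ m₂ : Nz V → V → ℝ) : Prop where
  adm₁ : Adm θ₁
  adm₂ : Adm θ₂
  qθ₁ : (q : ℝ) * θ₁ ^ 2 ≤ 1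
  qθ₂ : (q : ℝ) * θ₂ ^ 2 ≤ 1
  bd₁ : ∀ ξ v, |m₁ ξ v| ≤ 1
  bd₂ : ∀ ξ v, |m₂ ξ v| ≤ 1
  meas₁ : ∀ v, Measurable (fun ξ => m₁ ξ v)
  meas₂ : ∀ v, Measurable (fun ξ => m₂ ξ v)
  inv₁ : ∀ (g : G ≃g G) ξ v, m₁ (actN g ξ) (g v) = m₁ ξ v
  inv₂ : ∀ (g : G ≃g G) ξ v, m₂ (actN g ξ) (g v) = m₂ ξ v

/-- Tail hypothesis on the cavity fields of a process. -/
def TailHyp (G : SimpleGraph V) (θ r : ℝ) (m : Nz V → V → ℝ) : Prop :=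
  ∀ a b : V, G.Adj a b → ∀ p : ℝ, 1 ≤ p →
    ∫ ξ, (if 36 * r * p < cavM θ (m ξ) a b ^ 2 then (1:ℝ) else 0) ∂noiseP V ≤ 2 * Real.exp (-p)

/-- Tail hypothesis on the shells of a process. -/
def ShellHyp (G : SimpleGraph V) [G.LocallyFinite] (θ ε : ℝ) (m : Nz V → V → ℝ) : Prop :=
  ∀ a b : V, G.Adj a b → ∀ (l : ℕ) (s : ℝ), 1 ≤ s →
    ∫ ξ, (if wf ε s l < shellM G θ (m ξ) l a b then (1:ℝ) else 0) ∂noiseP V ≤ Real.exp (-(s + l))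

/-- The path variance hypothesis. -/
def PathVar (G : SimpleGraph V) [G.LocallyFinite] (θ₁ θ₂ ϑ : ℝ) (m₁ m₂ : Nz V → V → ℝ) : Prop :=
  ∀ a₀ b₀ : V, G.Adj a₀ b₀ → ∀ v u : V,
    ∫ ξ, (∑ j ∈ Finset.range (G.dist v u),
        ((lhat ϑ (cavM θ₁ (m₁ ξ) (geo G v u j) (geo G v u (j + 1))) - lhat ϑ (cavM θ₂ (m₂ ξ) (geo G v u j) (geo G v u (j + 1)))) -
          ∫ ξ', (lhat ϑ (cavM θ₁ (m₁ ξ') a₀ b₀) - lhat ϑ (cavM θ₂ (m₂ ξ') a₀ b₀)) ∂noiseP V)) ^ 2 ∂noiseP V ≤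
      25 * G.dist v u * ∫ ξ, ((lhat ϑ (cavM θ₁ (m₁ ξ) a₀ b₀) - lhat ϑ (cavM θ₂ (m₂ ξ) a₀ b₀)) -
          ∫ ξ', (lhat ϑ (cavM θ₁ (m₁ ξ') a₀ b₀) - lhat ϑ (cavM θ₂ (m₂ ξ') a₀ b₀)) ∂noiseP V) ^ 2 ∂noiseP V

variable {θ₁ θ₂ ϑ : ℝ} {m₁ m₂ : Nz V → V → ℝ}

section invariance

variable (hG : RegTree G q) (hP : PairP G q θ₁ θ₂ m₁ m₂)
include hG hP

/-- **Invariance**: a natural functional of the two processes has the same expectation at `(v, u)` and `(g v, g u)`. -/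
theorem integral_natural {Φ : (V → ℝ) → (V → ℝ) → V → V → ℝ} (g : G ≃g G)
    (hΦ : ∀ (m m' : V → ℝ) (v u : V), Φ (fun x => m (g x)) (fun x => m' (g x)) v u = Φ m m' (g v) (g u))
    (hm : ∀ v u, Measurable (fun ξ => Φ (m₁ ξ) (m₂ ξ) v u)) (v u : V) :
    ∫ ξ, Φ (m₁ ξ) (m₂ ξ) (g v) (g u) ∂noiseP V = ∫ ξ, Φ (m₁ ξ) (m₂ ξ) v u ∂noiseP V := by
  rw [← integral_actN hG (κ := fun _ => 1 / 3) ⟨fun _ => by norm_num, fun _ => le_rfl⟩ g (hm (g v) (g u))]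
  refine integral_congr_ae (Filter.Eventually.of_forall fun ξ => ?_)
  have e1 : (fun x => m₁ (actN g ξ) (g x)) = m₁ ξ := funext fun x => hP.inv₁ g ξ x
  have e2 : (fun x => m₂ (actN g ξ) (g x)) = m₂ ξ := funext fun x => hP.inv₂ g ξ x
  have := hΦ (m₁ (actN g ξ)) (m₂ (actN g ξ)) v u
  rw [e1, e2] at this
  exact this.symm

/-- Two point homogeneity of natural functionals. -/
theorem integral_natural_eq {Φ : (V → ℝ) → (V → ℝ) → V → V → ℝ}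
    (hΦ : ∀ (g : G ≃g G) (m m' : V → ℝ) (v u : V), Φ (fun x => m (g x)) (fun x => m' (g x)) v u = Φ m m' (g v) (g u))
    (hm : ∀ v u, Measurable (fun ξ => Φ (m₁ ξ) (m₂ ξ) v u)) {v u v' u' : V} (h : G.dist v u = G.dist v' u') :
    ∫ ξ, Φ (m₁ ξ) (m₂ ξ) v' u' ∂noiseP V = ∫ ξ, Φ (m₁ ξ) (m₂ ξ) v u ∂noiseP V := by
  obtain ⟨g, hgv, hgu⟩ := exists_aut hG h
  rw [← hgv, ← hgu]
  exact integral_natural hG hP g (hΦ g) hm v u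

/-- The squared difference of the means has the same expectation at all vertices. -/
theorem delta_const (v v' : V) :
    ∫ ξ, (m₁ ξ v - m₂ ξ v) ^ 2 ∂noiseP V = ∫ ξ, (m₁ ξ v' - m₂ ξ v') ^ 2 ∂noiseP V := by
  refine (integral_natural_eq (Φ := fun m m' x _ => (m x - m' x) ^ 2) hG hP (fun g m m' x u => rfl)
    (fun x _ => ((hP.meas₁ x).sub (hP.meas₂ x)).pow_const 2) (v := v') (u := v') (v' := v) (u' := v) ?_)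
  simp

end invariance

/-- `Q`: the expectation of the product of the largest field and the difference of the fields along an edge. -/
noncomputable def Qedge (θ₁ θ₂ : ℝ) (m₁ m₂ : Nz V → V → ℝ) (a b : V) : ℝ :=
  ∫ ξ, max (cavM θ₁ (m₁ ξ) a b ^ 2) (cavM θ₂ (m₂ ξ) a b ^ 2) * (cavM θ₁ (m₁ ξ) a b - cavM θ₂ (m₂ ξ) a b) ^ 2 ∂noiseP V

section near_aux

lemma nr_sq_sum5_le (a b c d e : ℝ) : (a + b + c + d + e) ^ 2 ≤ 5 * (a ^ 2 + b ^ 2 + c ^ 2 + d ^ 2 + e ^ 2) := by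
  nlinarith [sq_nonneg (a - b), sq_nonneg (a - c), sq_nonneg (a - d), sq_nonneg (a - e), sq_nonneg (b - c),
    sq_nonneg (b - d), sq_nonneg (b - e), sq_nonneg (c - d), sq_nonneg (c - e), sq_nonneg (d - e)]

lemma nr_pow_sq_le_inv {θ Q : ℝ} (hQ : 0 < Q) (h : Q * θ ^ 2 ≤ 1) (k : ℕ) : (θ ^ k) ^ 2 ≤ (1 / Q) ^ k := by
  have h1 : θ ^ 2 ≤ 1 / Q := by
    rw [le_div_iff₀ hQ]; linarith
  calc (θ ^ k) ^ 2 = (θ ^ 2) ^ k := by ring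
    _ ≤ (1 / Q) ^ k := pow_le_pow_left₀ (sq_nonneg θ) h1 k

lemma nr_pow_sub_sq_le {θ₁ θ₂ Q : ℝ} (hQ : 0 < Q) (h₁0 : 0 ≤ θ₁) (h₂0 : 0 ≤ θ₂) (h₁ : Q * θ₁ ^ 2 ≤ 1) (h₂ : Q * θ₂ ^ 2 ≤ 1)
    {k : ℕ} (hk : 1 ≤ k) : (θ₁ ^ k - θ₂ ^ k) ^ 2 ≤ (1 / Q) ^ k * (Q * k ^ 2 * (θ₁ - θ₂) ^ 2) := by
  have h0 := abs_pow_sub_pow_le θ₁ θ₂ k
  rw [abs_of_nonneg h₁0, abs_of_nonneg h₂0] at h0
  have hm : (max θ₁ θ₂) ^ 2 ≤ 1 / Q := by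
    rw [le_div_iff₀ hQ]
    rcases le_total θ₁ θ₂ with h | h
    · rw [max_eq_right h]; linarith
    · rw [max_eq_left h]; linarith
  have hm0 : 0 ≤ max θ₁ θ₂ := le_max_of_le_left h₁0
  obtain ⟨n, rfl⟩ : ∃ n, k = n + 1 := ⟨k - 1, by omega⟩
  simp only [Nat.add_sub_cancel] at h0
  have h1 : (θ₁ ^ (n + 1) - θ₂ ^ (n + 1)) ^ 2 ≤ (|θ₁ - θ₂| * ((n + 1 : ℕ) : ℝ) * max θ₁ θ₂ ^ n) ^ 2 := by
    rw [← sq_abs (θ₁ ^ (n + 1) - θ₂ ^ (n + 1))]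
    exact pow_le_pow_left₀ (abs_nonneg _) h0 2
  have h2 : ((max θ₁ θ₂) ^ n) ^ 2 ≤ (1 / Q) ^ n := by
    calc ((max θ₁ θ₂) ^ n) ^ 2 = ((max θ₁ θ₂) ^ 2) ^ n := by ring
      _ ≤ (1 / Q) ^ n := pow_le_pow_left₀ (sq_nonneg _) hm n
  have h3 : (1 / Q) ^ (n + 1) * Q = (1 / Q) ^ n := by
    rw [pow_succ]; field_simp
  calc (θ₁ ^ (n + 1) - θ₂ ^ (n + 1)) ^ 2 ≤ (|θ₁ - θ₂| * ((n + 1 : ℕ) : ℝ) * max θ₁ θ₂ ^ n) ^ 2 := h1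
    _ = ((max θ₁ θ₂) ^ n) ^ 2 * (((n + 1 : ℕ) : ℝ) ^ 2 * (θ₁ - θ₂) ^ 2) := by
        rw [mul_pow, mul_pow, sq_abs]; ring
    _ ≤ (1 / Q) ^ n * (((n + 1 : ℕ) : ℝ) ^ 2 * (θ₁ - θ₂) ^ 2) := by
        apply mul_le_mul_of_nonneg_right h2; positivity
    _ = (1 / Q) ^ (n + 1) * (Q * ((n + 1 : ℕ) : ℝ) ^ 2 * (θ₁ - θ₂) ^ 2) := by
        rw [← h3]; ring

lemma nr_prod_om_mem {θ : ℝ} (hθ : Adm θ) {t : ℕ → ℝ} (ht : ∀ j, |t j| ≤ 1) (k : ℕ) :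
    0 ≤ ∏ j ∈ Finset.range k, om θ (t j) ∧ ∏ j ∈ Finset.range k, om θ (t j) ≤ 1 :=
  ⟨Finset.prod_nonneg fun j _ => om_nonneg hθ (ht j),
    Finset.prod_le_one (fun j _ => om_nonneg hθ (ht j)) fun j _ => om_le_one hθ (ht j)⟩

/-- The pointwise inequality of the near range. -/
lemma nr_near_point {Q : ℝ} (hQ : 0 < Q) {θ₁ θ₂ ϑ : ℝ} (h₁ : Adm θ₁) (h₂ : Adm θ₂) (hϑ : Adm ϑ)
    (hQ₁ : Q * θ₁ ^ 2 ≤ 1) (hQ₂ : Q * θ₂ ^ 2 ≤ 1) {k : ℕ} (hk : 1 ≤ k) {t t' : ℕ → ℝ} (ht : ∀ j, |t j| ≤ 1) (ht' : ∀ j, |t' j| ≤ 1)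
    {x y : ℝ} (hx : |x| ≤ 1) (hy : |y| ≤ 1) {c N : ℝ}
    (hnear : (∏ j ∈ Finset.range k, om ϑ (t j) - ∏ j ∈ Finset.range k, om ϑ (t' j)) ^ 2 ≤ N)
    (hprod1 : |∏ j ∈ Finset.range k, om θ₁ (t j) - ∏ j ∈ Finset.range k, om ϑ (t j)| ≤ k * (c * |θ₁ - ϑ|))
    (hprod2 : |∏ j ∈ Finset.range k, om θ₂ (t' j) - ∏ j ∈ Finset.range k, om ϑ (t' j)| ≤ k * (c * |θ₂ - ϑ|)) :
    ((1 - x ^ 2) * (θ₁ ^ k * ∏ j ∈ Finset.range k, om θ₁ (t j)) - (1 - y ^ 2) * (θ₂ ^ k * ∏ j ∈ Finset.range k, om θ₂ (t' j))) ^ 2 ≤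
      (1 / Q) ^ k * (5 * (4 * (x - y) ^ 2 + (Q + c ^ 2) * (k ^ 2 * ((θ₁ - θ₂) ^ 2 + (θ₁ - ϑ) ^ 2 + (θ₂ - ϑ) ^ 2)) + N)) := by
  set P₁ := ∏ j ∈ Finset.range k, om θ₁ (t j) with hP₁
  set P₂ := ∏ j ∈ Finset.range k, om θ₂ (t' j) with hP₂
  set R₁ := ∏ j ∈ Finset.range k, om ϑ (t j) with hR₁
  set R₂ := ∏ j ∈ Finset.range k, om ϑ (t' j) with hR₂
  obtain ⟨hP₁0, hP₁1⟩ := nr_prod_om_mem h₁ ht k
  have hDk : 0 ≤ (1 / Q) ^ k := by positivity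
  set s := 1 - y ^ 2 with hs
  have hy2 : y ^ 2 ≤ 1 := by
    have := abs_le.1 hy; nlinarith [this.1, this.2]
  have hx2 : x ^ 2 ≤ 1 := by
    have := abs_le.1 hx; nlinarith [this.1, this.2]
  have hs0 : 0 ≤ s := by rw [hs]; linarith
  have hs1 : s ≤ 1 := by rw [hs]; nlinarith [sq_nonneg y]
  have hs2 : s ^ 2 ≤ 1 := by nlinarith
  have hPs : P₁ ^ 2 ≤ 1 := by nlinarith
  have e : (1 - x ^ 2) * (θ₁ ^ k * P₁) - s * (θ₂ ^ k * P₂) =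
      (y ^ 2 - x ^ 2) * (θ₁ ^ k * P₁) + s * ((θ₁ ^ k - θ₂ ^ k) * P₁) + s * (θ₂ ^ k * (P₁ - R₁)) + s * (θ₂ ^ k * (R₁ - R₂)) +
        s * (θ₂ ^ k * (R₂ - P₂)) := by
    rw [hs]; ring
  rw [e]
  refine (nr_sq_sum5_le _ _ _ _ _).trans ?_
  have hθ₁k := nr_pow_sq_le_inv hQ hQ₁ k
  have hθ₂k := nr_pow_sq_le_inv hQ hQ₂ k
  have hD1 : ((y ^ 2 - x ^ 2) * (θ₁ ^ k * P₁)) ^ 2 ≤ (1 / Q) ^ k * (4 * (x - y) ^ 2) := by
    have hxy : (y ^ 2 - x ^ 2) ^ 2 ≤ 4 * (x - y) ^ 2 := by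
      have h1 : (y ^ 2 - x ^ 2) ^ 2 = (x - y) ^ 2 * (x + y) ^ 2 := by ring
      have h2 : (x + y) ^ 2 ≤ 4 := by nlinarith [sq_nonneg (x - y)]
      rw [h1]; nlinarith [sq_nonneg (x - y)]
    have hQ1 : (θ₁ ^ k * P₁) ^ 2 ≤ (1 / Q) ^ k := by
      rw [mul_pow]
      calc (θ₁ ^ k) ^ 2 * P₁ ^ 2 ≤ (1 / Q) ^ k * 1 := mul_le_mul hθ₁k hPs (sq_nonneg _) hDk
        _ = _ := mul_one _
    rw [mul_pow]
    calc (y ^ 2 - x ^ 2) ^ 2 * (θ₁ ^ k * P₁) ^ 2 ≤ (4 * (x - y) ^ 2) * (1 / Q) ^ k :=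
          mul_le_mul hxy hQ1 (sq_nonneg _) (by positivity)
      _ = _ := mul_comm _ _
  have hsθ : ∀ z : ℝ, (s * (θ₂ ^ k * z)) ^ 2 ≤ (1 / Q) ^ k * z ^ 2 := by
    intro z
    have : (s * (θ₂ ^ k * z)) ^ 2 = s ^ 2 * ((θ₂ ^ k) ^ 2 * z ^ 2) := by ring
    rw [this]
    have h3 : (θ₂ ^ k) ^ 2 * z ^ 2 ≤ (1 / Q) ^ k * z ^ 2 := mul_le_mul_of_nonneg_right hθ₂k (sq_nonneg z)
    have h4 : 0 ≤ (θ₂ ^ k) ^ 2 * z ^ 2 := by positivity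
    nlinarith
  have hD2 : (s * ((θ₁ ^ k - θ₂ ^ k) * P₁)) ^ 2 ≤ (1 / Q) ^ k * (Q * (k ^ 2 * (θ₁ - θ₂) ^ 2)) := by
    have h5 := nr_pow_sub_sq_le hQ h₁.nonneg h₂.nonneg hQ₁ hQ₂ hk
    have : (s * ((θ₁ ^ k - θ₂ ^ k) * P₁)) ^ 2 = s ^ 2 * (P₁ ^ 2 * (θ₁ ^ k - θ₂ ^ k) ^ 2) := by ring
    rw [this]
    have h6 : 0 ≤ (θ₁ ^ k - θ₂ ^ k) ^ 2 := sq_nonneg _
    have h7 : P₁ ^ 2 * (θ₁ ^ k - θ₂ ^ k) ^ 2 ≤ (θ₁ ^ k - θ₂ ^ k) ^ 2 := by nlinarith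
    have h8 : s ^ 2 * (P₁ ^ 2 * (θ₁ ^ k - θ₂ ^ k) ^ 2) ≤ P₁ ^ 2 * (θ₁ ^ k - θ₂ ^ k) ^ 2 := by
      have : 0 ≤ P₁ ^ 2 * (θ₁ ^ k - θ₂ ^ k) ^ 2 := by positivity
      nlinarith
    calc _ ≤ (θ₁ ^ k - θ₂ ^ k) ^ 2 := h8.trans h7
      _ ≤ _ := h5
      _ = _ := by ring
  have hD3 : (s * (θ₂ ^ k * (P₁ - R₁))) ^ 2 ≤ (1 / Q) ^ k * (c ^ 2 * (k ^ 2 * (θ₁ - ϑ) ^ 2)) := by
    refine (hsθ _).trans (mul_le_mul_of_nonneg_left ?_ hDk)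
    have := sq_le_sq' (by linarith [abs_nonneg (P₁ - R₁), neg_abs_le (P₁ - R₁), (le_abs_self (P₁ - R₁)).trans hprod1]) ((le_abs_self (P₁ - R₁)).trans hprod1)
    have h9 : |P₁ - R₁| ^ 2 ≤ (k * (c * |θ₁ - ϑ|)) ^ 2 := pow_le_pow_left₀ (abs_nonneg _) hprod1 2
    rw [sq_abs] at h9
    calc (P₁ - R₁) ^ 2 ≤ (k * (c * |θ₁ - ϑ|)) ^ 2 := h9
      _ = c ^ 2 * (k ^ 2 * (θ₁ - ϑ) ^ 2) := by rw [mul_pow, mul_pow, sq_abs]; ring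
  have hD4 : (s * (θ₂ ^ k * (R₁ - R₂))) ^ 2 ≤ (1 / Q) ^ k * N :=
    (hsθ _).trans (mul_le_mul_of_nonneg_left hnear hDk)
  have hD5 : (s * (θ₂ ^ k * (R₂ - P₂))) ^ 2 ≤ (1 / Q) ^ k * (c ^ 2 * (k ^ 2 * (θ₂ - ϑ) ^ 2)) := by
    refine (hsθ _).trans (mul_le_mul_of_nonneg_left ?_ hDk)
    have h9 : |P₂ - R₂| ^ 2 ≤ (k * (c * |θ₂ - ϑ|)) ^ 2 := pow_le_pow_left₀ (abs_nonneg _) hprod2 2
    rw [sq_abs] at h9
    calc (R₂ - P₂) ^ 2 = (P₂ - R₂) ^ 2 := by ring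
      _ ≤ (k * (c * |θ₂ - ϑ|)) ^ 2 := h9
      _ = c ^ 2 * (k ^ 2 * (θ₂ - ϑ) ^ 2) := by rw [mul_pow, mul_pow, sq_abs]; ring
  have hex : (1 / Q) ^ k * (5 * (4 * (x - y) ^ 2 + (Q + c ^ 2) * (k ^ 2 * ((θ₁ - θ₂) ^ 2 + (θ₁ - ϑ) ^ 2 + (θ₂ - ϑ) ^ 2)) + N)) =
      5 * ((1 / Q) ^ k * (4 * (x - y) ^ 2) + (1 / Q) ^ k * (Q * (k ^ 2 * (θ₁ - θ₂) ^ 2)) + (1 / Q) ^ k * (c ^ 2 * (k ^ 2 * (θ₁ - ϑ) ^ 2)) +
        (1 / Q) ^ k * N + (1 / Q) ^ k * (c ^ 2 * (k ^ 2 * (θ₂ - ϑ) ^ 2)) + (1 / Q) ^ k * (c ^ 2 * (k ^ 2 * (θ₁ - θ₂) ^ 2)) +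
        (1 / Q) ^ k * (Q * (k ^ 2 * ((θ₁ - ϑ) ^ 2 + (θ₂ - ϑ) ^ 2)))) := by ring
  rw [hex]
  have hn1 : 0 ≤ (1 / Q) ^ k * (c ^ 2 * (k ^ 2 * (θ₁ - θ₂) ^ 2)) := by positivity
  have hn2 : 0 ≤ (1 / Q) ^ k * (Q * (k ^ 2 * ((θ₁ - ϑ) ^ 2 + (θ₂ - ϑ) ^ 2))) := by positivity
  linarith

theorem xI_eq_prod (hG : RegTree G q) (θ : ℝ) (m : V → ℝ) (v u : V) :
    xI G θ m v u = (1 - m v ^ 2) * (θ ^ G.dist v u * ∏ j ∈ Finset.range (G.dist v u), om θ (cavM θ m (geo G v u j) (geo G v u (j + 1)))) := by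
  unfold xI
  rw [pathProd_eq_prod hG]
  congr 1
  simp only [rr, cavM, Finset.prod_mul_distrib, Finset.prod_const, Finset.card_range]

lemma nr_integrable_of_bdd {f : Nz V → ℝ} (hf : Measurable f) (B : ℝ) (hB : ∀ ξ, |f ξ| ≤ B) : Integrable f (noiseP V) :=
  Integrable.of_bound hf.aestronglyMeasurable B (Eventually.of_forall hB)

lemma nr_max_abs_sq (a b : ℝ) : (max |a| |b|) ^ 2 = max (a ^ 2) (b ^ 2) := by
  rcases le_total |a| |b| with h | h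
  · have h2 : a ^ 2 ≤ b ^ 2 := by
      rw [← sq_abs a, ← sq_abs b]; exact pow_le_pow_left₀ (abs_nonneg _) h 2
    rw [max_eq_right h, max_eq_right h2, sq_abs]
  · have h2 : b ^ 2 ≤ a ^ 2 := by
      rw [← sq_abs a, ← sq_abs b]; exact pow_le_pow_left₀ (abs_nonneg _) h 2
    rw [max_eq_left h, max_eq_left h2, sq_abs]

end near_aux

section measur

variable (hP : PairP G q θ₁ θ₂ m₁ m₂) 
include hP

lemma nr_meas_cav₁ (v w : V) : Measurable (fun ξ => cavM θ₁ (m₁ ξ) v w) :=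
  (measurable_cav θ₁).comp ((hP.meas₁ v).prodMk (hP.meas₁ w))

lemma nr_meas_cav₂ (v w : V) : Measurable (fun ξ => cavM θ₂ (m₂ ξ) v w) :=
  (measurable_cav θ₂).comp ((hP.meas₂ v).prodMk (hP.meas₂ w))

lemma nr_bd_cav₁ (ξ : Nz V) (v w : V) : |cavM θ₁ (m₁ ξ) v w| ≤ 1 :=
  abs_cav_le hP.adm₁ (hP.bd₁ ξ v) (hP.bd₁ ξ w)

lemma nr_bd_cav₂ (ξ : Nz V) (v w : V) : |cavM θ₂ (m₂ ξ) v w| ≤ 1 :=
  abs_cav_le hP.adm₂ (hP.bd₂ ξ v) (hP.bd₂ ξ w)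

/-- Bound of the integrand of `Q`. -/
lemma nr_Qint_meas (v w : V) : Measurable (fun ξ => max (cavM θ₁ (m₁ ξ) v w ^ 2) (cavM θ₂ (m₂ ξ) v w ^ 2) * (cavM θ₁ (m₁ ξ) v w - cavM θ₂ (m₂ ξ) v w) ^ 2) :=
  (((nr_meas_cav₁ hP v w).pow_const 2).max ((nr_meas_cav₂ hP v w).pow_const 2)).mul (((nr_meas_cav₁ hP v w).sub (nr_meas_cav₂ hP v w)).pow_const 2)

lemma nr_sq_le_one_of {t : ℝ} (h : |t| ≤ 1) : t ^ 2 ≤ 1 := by
  have := abs_le.1 h; nlinarith [this.1, this.2]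

lemma nr_Qint_bd (ξ : Nz V) (v w : V) :
    |max (cavM θ₁ (m₁ ξ) v w ^ 2) (cavM θ₂ (m₂ ξ) v w ^ 2) * (cavM θ₁ (m₁ ξ) v w - cavM θ₂ (m₂ ξ) v w) ^ 2| ≤ 4 := by
  have h1 := nr_sq_le_one_of hP (nr_bd_cav₁ hP ξ v w)
  have h2 := nr_sq_le_one_of hP (nr_bd_cav₂ hP ξ v w)
  have h3 : max (cavM θ₁ (m₁ ξ) v w ^ 2) (cavM θ₂ (m₂ ξ) v w ^ 2) ≤ 1 := max_le h1 h2
  have h4 : 0 ≤ max (cavM θ₁ (m₁ ξ) v w ^ 2) (cavM θ₂ (m₂ ξ) v w ^ 2) := le_max_of_le_left (sq_nonneg _)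
  have h5 : (cavM θ₁ (m₁ ξ) v w - cavM θ₂ (m₂ ξ) v w) ^ 2 ≤ 4 := by
    nlinarith [sq_nonneg (cavM θ₁ (m₁ ξ) v w + cavM θ₂ (m₂ ξ) v w)]
  rw [abs_of_nonneg (by positivity)]
  nlinarith [sq_nonneg (cavM θ₁ (m₁ ξ) v w - cavM θ₂ (m₂ ξ) v w)]

lemma nr_Qint_integrable (v w : V) : Integrable (fun ξ => max (cavM θ₁ (m₁ ξ) v w ^ 2) (cavM θ₂ (m₂ ξ) v w ^ 2) * (cavM θ₁ (m₁ ξ) v w - cavM θ₂ (m₂ ξ) v w) ^ 2) (noiseP V) :=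
  nr_integrable_of_bdd (nr_Qint_meas hP v w) 4 (fun ξ => nr_Qint_bd hP ξ v w)

lemma nr_Qedge_nonneg (v w : V) : 0 ≤ Qedge θ₁ θ₂ m₁ m₂ v w := by
  unfold Qedge
  apply integral_nonneg
  intro ξ
  exact mul_nonneg (le_max_of_le_left (sq_nonneg _)) (sq_nonneg _)

end measur

section near

variable (hG : RegTree G q) (hq : 2 ≤ q)
include hG hq

/-- `Q` is the same on all directed edges. -/
lemma nr_Qedge_edge (hP : PairP G q θ₁ θ₂ m₁ m₂) {a b x y : V} (hab : G.Adj a b) (hxy : G.Adj x y) :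
    Qedge θ₁ θ₂ m₁ m₂ x y = Qedge θ₁ θ₂ m₁ m₂ a b := by
  have hd : G.dist a b = G.dist x y := by
    rw [SimpleGraph.dist_eq_one_iff_adj.2 hab, SimpleGraph.dist_eq_one_iff_adj.2 hxy]
  unfold Qedge
  exact integral_natural_eq hG hP (Φ := fun m m' v u => max (cavM θ₁ m v u ^ 2) (cavM θ₂ m' v u ^ 2) * (cavM θ₁ m v u - cavM θ₂ m' v u) ^ 2)
    (fun g m m' v u => rfl) (fun v u => nr_Qint_meas hP v u) hd

/-- **Near range, one sphere.** `C` depends only on `q`. -/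
theorem near_sphere : ∃ C : ℝ, 0 < C ∧ ∀ (θ₁ θ₂ ϑ : ℝ) (m₁ m₂ : Nz V → V → ℝ) (_ : PairP G q θ₁ θ₂ m₁ m₂) (_ : Adm ϑ)
    (_ : PathVar G θ₁ θ₂ ϑ m₁ m₂) (o a b : V) (k : ℕ), G.Adj a b → 1 ≤ k →
    ∑ u ∈ sphere G o k, ∫ ξ, (xI G θ₁ (m₁ ξ) o u - xI G θ₂ (m₂ ξ) o u) ^ 2 ∂noiseP V ≤
      C * ((∫ ξ, (m₁ ξ o - m₂ ξ o) ^ 2 ∂noiseP V) + k ^ 2 * ((θ₁ - θ₂) ^ 2 + (θ₁ - ϑ) ^ 2 + (θ₂ - ϑ) ^ 2) +
        k * Qedge θ₁ θ₂ m₁ m₂ a b +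
        k ^ 2 * (∫ ξ, (lhat ϑ (cavM θ₁ (m₁ ξ) a b) - lhat ϑ (cavM θ₂ (m₂ ξ) a b)) ∂noiseP V) ^ 2) := by
  obtain ⟨Cn, hCn, hnear⟩ := near_ineq
  obtain ⟨c, hc, hprod⟩ := om_prod_lip
  have hq0 : (0:ℝ) < q := by
    have : (2:ℝ) ≤ q := by exact_mod_cast hq
    linarith
  refine ⟨10 * (4 + (q + c ^ 2) + 454 * Cn), by positivity, ?_⟩
  intro θ₁ θ₂ ϑ m₁ m₂ hP hϑ hPV o a b k hab hk
  -- notation
  set δ := ∫ ξ, (m₁ ξ o - m₂ ξ o) ^ 2 ∂noiseP V with hδ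
  set Dθ := (θ₁ - θ₂) ^ 2 + (θ₁ - ϑ) ^ 2 + (θ₂ - ϑ) ^ 2 with hDθ
  set Qe := Qedge θ₁ θ₂ m₁ m₂ a b with hQe
  have hQe0 : 0 ≤ Qe := nr_Qedge_nonneg hP a b
  let Z : V → V → Nz V → ℝ := fun x y ξ => lhat ϑ (cavM θ₁ (m₁ ξ) x y) - lhat ϑ (cavM θ₂ (m₂ ξ) x y)
  have hZm : ∀ x y, Measurable (Z x y) := fun x y =>
    ((continuous_lhat hϑ).measurable.comp (nr_meas_cav₁ hP x y)).sub ((continuous_lhat hϑ).measurable.comp (nr_meas_cav₂ hP x y))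
  have hZl : ∀ x y ξ, Z x y ξ ^ 2 ≤ 9 * (max (cavM θ₁ (m₁ ξ) x y ^ 2) (cavM θ₂ (m₂ ξ) x y ^ 2) * (cavM θ₁ (m₁ ξ) x y - cavM θ₂ (m₂ ξ) x y) ^ 2) := by
    intro x y ξ
    have h1 := lhat_lip hϑ (cavM θ₁ (m₁ ξ) x y) (cavM θ₂ (m₂ ξ) x y)
    have h2 : (Z x y ξ) ^ 2 ≤ (3 * max |cavM θ₁ (m₁ ξ) x y| |cavM θ₂ (m₂ ξ) x y| * |cavM θ₁ (m₁ ξ) x y - cavM θ₂ (m₂ ξ) x y|) ^ 2 := by
      rw [← sq_abs (Z x y ξ)]
      exact pow_le_pow_left₀ (abs_nonneg _) h1 2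
    refine h2.trans (le_of_eq ?_)
    rw [mul_pow, mul_pow, nr_max_abs_sq, sq_abs]
    ring
  have hZb : ∀ x y ξ, |Z x y ξ| ≤ 6 := by
    intro x y ξ
    have h1 := lhat_lip hϑ (cavM θ₁ (m₁ ξ) x y) (cavM θ₂ (m₂ ξ) x y)
    have h2 : max |cavM θ₁ (m₁ ξ) x y| |cavM θ₂ (m₂ ξ) x y| ≤ 1 := max_le (nr_bd_cav₁ hP ξ x y) (nr_bd_cav₂ hP ξ x y)
    have h3 : |cavM θ₁ (m₁ ξ) x y - cavM θ₂ (m₂ ξ) x y| ≤ 2 :=
      (abs_sub _ _).trans (by linarith [nr_bd_cav₁ hP ξ x y, nr_bd_cav₂ hP ξ x y])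
    have h4 : 0 ≤ max |cavM θ₁ (m₁ ξ) x y| |cavM θ₂ (m₂ ξ) x y| := le_max_of_le_left (abs_nonneg _)
    refine h1.trans ?_
    nlinarith [abs_nonneg (cavM θ₁ (m₁ ξ) x y - cavM θ₂ (m₂ ξ) x y)]
  have hZi : ∀ x y, Integrable (Z x y) (noiseP V) := fun x y => nr_integrable_of_bdd (hZm x y) 6 (hZb x y)
  have hZ2i : ∀ x y, Integrable (fun ξ => Z x y ξ ^ 2) (noiseP V) := fun x y =>
    nr_integrable_of_bdd ((hZm x y).pow_const 2) 36 (fun ξ => by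
      rw [abs_of_nonneg (sq_nonneg _)]
      have := abs_le.1 (hZb x y ξ)
      nlinarith [this.1, this.2])
  set ζ := ∫ ξ, Z a b ξ ∂noiseP V with hζ
  -- second moment of Z
  have hZsq : ∫ ξ, Z a b ξ ^ 2 ∂noiseP V ≤ 9 * Qe := by
    have := integral_mono (hZ2i a b) ((nr_Qint_integrable hP a b).const_mul 9) (fun ξ => hZl a b ξ)
    simpa [integral_const_mul, hQe, Qedge] using this
  have hvar : ∫ ξ, (Z a b ξ - ζ) ^ 2 ∂noiseP V ≤ 9 * Qe := by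
    have e : (fun ξ => (Z a b ξ - ζ) ^ 2) = fun ξ => Z a b ξ ^ 2 - 2 * ζ * Z a b ξ + ζ ^ 2 := by
      funext ξ; ring
    have e2 : ∫ ξ, (Z a b ξ - ζ) ^ 2 ∂noiseP V = ∫ ξ, Z a b ξ ^ 2 ∂noiseP V - ζ ^ 2 := by
      have hi1 : Integrable (fun ξ => Z a b ξ ^ 2 - 2 * ζ * Z a b ξ) (noiseP V) := (hZ2i a b).sub ((hZi a b).const_mul _)
      rw [e, integral_add hi1 (integrable_const _),
        integral_sub (hZ2i a b) ((hZi a b).const_mul _), integral_const_mul, integral_const]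
      simp only [probReal_univ, one_smul, ← hζ]
      ring
    rw [e2]; nlinarith [sq_nonneg ζ]
  -- a bound for one point of the sphere
  have hone : ∀ u ∈ sphere G o k, ∫ ξ, (xI G θ₁ (m₁ ξ) o u - xI G θ₂ (m₂ ξ) o u) ^ 2 ∂noiseP V ≤
      (1 / (q : ℝ)) ^ k * (5 * (4 * δ + (q + c ^ 2) * (k ^ 2 * Dθ) + Cn * (450 * k * Qe + 2 * k ^ 2 * ζ ^ 2 + 4 * k * Qe))) := by
    intro u hu
    have hdist : G.dist o u = k := (mem_sphere hG o k u).1 hu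
    let g : ℕ → V := geo G o u
    let t₁ : Nz V → ℕ → ℝ := fun ξ j => cavM θ₁ (m₁ ξ) (g j) (g (j + 1))
    let t₂ : Nz V → ℕ → ℝ := fun ξ j => cavM θ₂ (m₂ ξ) (g j) (g (j + 1))
    have ht₁ : ∀ ξ j, |t₁ ξ j| ≤ 1 := fun ξ j => nr_bd_cav₁ hP ξ _ _
    have ht₂ : ∀ ξ j, |t₂ ξ j| ≤ 1 := fun ξ j => nr_bd_cav₂ hP ξ _ _
    let ifT : Nz V → ℕ → ℝ := fun ξ j => if 1 / 2 < max |t₁ ξ j| |t₂ ξ j| then (t₁ ξ j - t₂ ξ j) ^ 2 else 0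
    let Zs : Nz V → ℝ := fun ξ => ∑ j ∈ Finset.range k, Z (g j) (g (j + 1)) ξ
    let N : Nz V → ℝ := fun ξ => Cn * (Zs ξ ^ 2 + ∑ j ∈ Finset.range k, ifT ξ j)
    have hpt : ∀ ξ, (xI G θ₁ (m₁ ξ) o u - xI G θ₂ (m₂ ξ) o u) ^ 2 ≤
        (1 / (q : ℝ)) ^ k * (5 * (4 * (m₁ ξ o - m₂ ξ o) ^ 2 + (q + c ^ 2) * (k ^ 2 * Dθ) + N ξ)) := by
      intro ξ
      rw [xI_eq_prod hG, xI_eq_prod hG, hdist]
      refine nr_near_point hq0 hP.adm₁ hP.adm₂ hϑ hP.qθ₁ hP.qθ₂ hk (ht₁ ξ) (ht₂ ξ) (hP.bd₁ ξ o) (hP.bd₂ ξ o) (c := c) (N := N ξ) ?_ ?_ ?_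
      · exact hnear ϑ hϑ k (t₁ ξ) (t₂ ξ) (ht₁ ξ) (ht₂ ξ)
      · exact hprod θ₁ ϑ hP.adm₁ hϑ k (t₁ ξ) (ht₁ ξ)
      · exact hprod θ₂ ϑ hP.adm₂ hϑ k (t₂ ξ) (ht₂ ξ)
    -- measurability
    have ht₁m : ∀ j, Measurable (fun ξ => t₁ ξ j) := fun j => nr_meas_cav₁ hP _ _
    have ht₂m : ∀ j, Measurable (fun ξ => t₂ ξ j) := fun j => nr_meas_cav₂ hP _ _
    have hifm : ∀ j, Measurable (fun ξ => ifT ξ j) := by
      intro j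
      refine Measurable.ite (measurableSet_lt measurable_const ((ht₁m j).abs.max (ht₂m j).abs)) (((ht₁m j).sub (ht₂m j)).pow_const 2) measurable_const
    have hifb : ∀ ξ j, ifT ξ j ≤ 4 * (max (cavM θ₁ (m₁ ξ) (g j) (g (j + 1)) ^ 2) (cavM θ₂ (m₂ ξ) (g j) (g (j + 1)) ^ 2) * (cavM θ₁ (m₁ ξ) (g j) (g (j + 1)) - cavM θ₂ (m₂ ξ) (g j) (g (j + 1))) ^ 2) := by
      intro ξ j
      by_cases h : 1 / 2 < max |t₁ ξ j| |t₂ ξ j|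
      · have h1 : (1:ℝ) / 4 ≤ max (t₁ ξ j ^ 2) (t₂ ξ j ^ 2) := by
          rw [← nr_max_abs_sq]; nlinarith
        have e : ifT ξ j = (t₁ ξ j - t₂ ξ j) ^ 2 := if_pos h
        rw [e]
        change _ ≤ 4 * (max (t₁ ξ j ^ 2) (t₂ ξ j ^ 2) * (t₁ ξ j - t₂ ξ j) ^ 2)
        nlinarith [sq_nonneg (t₁ ξ j - t₂ ξ j)]
      · have e : ifT ξ j = 0 := if_neg h
        rw [e]
        exact mul_nonneg (by norm_num) (mul_nonneg (le_max_of_le_left (sq_nonneg _)) (sq_nonneg _))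
    have hif0 : ∀ ξ j, 0 ≤ ifT ξ j := by
      intro ξ j
      by_cases h : 1 / 2 < max |t₁ ξ j| |t₂ ξ j|
      · have e : ifT ξ j = (t₁ ξ j - t₂ ξ j) ^ 2 := if_pos h
        rw [e]; exact sq_nonneg _
      · have e : ifT ξ j = 0 := if_neg h
        rw [e]
    have hifi : ∀ j, Integrable (fun ξ => ifT ξ j) (noiseP V) := by
      intro j
      refine nr_integrable_of_bdd (hifm j) 16 (fun ξ => ?_)
      rw [abs_of_nonneg (hif0 ξ j)]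
      refine (hifb ξ j).trans ?_
      have := nr_Qint_bd hP ξ (g j) (g (j + 1))
      have := (le_abs_self _).trans this
      linarith
    have hifint : ∀ j ∈ Finset.range k, ∫ ξ, ifT ξ j ∂noiseP V ≤ 4 * Qe := by
      intro j hj
      have hadj : G.Adj (g j) (g (j + 1)) := geo_adj hG o u (by rw [hdist]; exact Finset.mem_range.1 hj)
      have h1 := integral_mono (hifi j) ((nr_Qint_integrable hP (g j) (g (j + 1))).const_mul 4) (fun ξ => hifb ξ j)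
      rw [integral_const_mul] at h1
      have h2 : ∫ ξ, max (cavM θ₁ (m₁ ξ) (g j) (g (j + 1)) ^ 2) (cavM θ₂ (m₂ ξ) (g j) (g (j + 1)) ^ 2) * (cavM θ₁ (m₁ ξ) (g j) (g (j + 1)) - cavM θ₂ (m₂ ξ) (g j) (g (j + 1))) ^ 2 ∂noiseP V = Qe :=
        nr_Qedge_edge hG hq hP hab hadj
      rw [h2] at h1
      exact h1
    have hifsum : ∫ ξ, ∑ j ∈ Finset.range k, ifT ξ j ∂noiseP V ≤ 4 * k * Qe := by
      rw [integral_finset_sum _ (fun j _ => hifi j)]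
      refine (Finset.sum_le_sum hifint).trans ?_
      simp only [Finset.sum_const, Finset.card_range, nsmul_eq_mul]
      exact le_of_eq (by ring)
    have hZsm : Measurable Zs := Finset.measurable_sum _ (fun j _ => hZm _ _)
    have hZsb : ∀ ξ, |Zs ξ| ≤ k * 6 := by
      intro ξ
      refine (Finset.abs_sum_le_sum_abs _ _).trans ?_
      refine (Finset.sum_le_sum (fun j _ => hZb _ _ ξ)).trans ?_
      simp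
    have hZs2i : Integrable (fun ξ => Zs ξ ^ 2) (noiseP V) := by
      refine nr_integrable_of_bdd (hZsm.pow_const 2) ((k * 6) ^ 2) (fun ξ => ?_)
      rw [abs_of_nonneg (sq_nonneg _)]
      have h1 := pow_le_pow_left₀ (abs_nonneg _) (hZsb ξ) 2
      rwa [sq_abs] at h1
    have hPVu := hPV a b hab o u
    rw [hdist] at hPVu
    -- the centred sum
    let Zc : Nz V → ℝ := fun ξ => ∑ j ∈ Finset.range k, (Z (g j) (g (j + 1)) ξ - ζ)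
    have hZcm : Measurable Zc := Finset.measurable_sum _ (fun j _ => (hZm _ _).sub measurable_const)
    have hZcb : ∀ ξ, |Zc ξ| ≤ k * (6 + |ζ|) := by
      intro ξ
      refine (Finset.abs_sum_le_sum_abs _ _).trans ?_
      refine (Finset.sum_le_sum (fun j _ => (abs_sub _ _).trans (add_le_add (hZb _ _ ξ) le_rfl))).trans ?_
      rw [Finset.sum_const, Finset.card_range, nsmul_eq_mul]
    have hZc2i : Integrable (fun ξ => Zc ξ ^ 2) (noiseP V) := by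
      refine nr_integrable_of_bdd (hZcm.pow_const 2) ((k * (6 + |ζ|)) ^ 2) (fun ξ => ?_)
      rw [abs_of_nonneg (sq_nonneg _)]
      have h1 := pow_le_pow_left₀ (abs_nonneg _) (hZcb ξ) 2
      rwa [sq_abs] at h1
    have hZse : ∀ ξ, Zs ξ = Zc ξ + k * ζ := by
      intro ξ
      simp only [Zs, Zc, Finset.sum_sub_distrib, Finset.sum_const, Finset.card_range, nsmul_eq_mul]
      ring
    have hZsint : ∫ ξ, Zs ξ ^ 2 ∂noiseP V ≤ 450 * k * Qe + 2 * k ^ 2 * ζ ^ 2 := by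
      have h1 : ∀ ξ, Zs ξ ^ 2 ≤ 2 * Zc ξ ^ 2 + 2 * (k * ζ) ^ 2 := by
        intro ξ
        rw [hZse]
        nlinarith [sq_nonneg (Zc ξ - k * ζ)]
      have h2 := integral_mono hZs2i ((hZc2i.const_mul 2).add (integrable_const (2 * ((k:ℝ) * ζ) ^ 2))) h1
      have h3 : ∫ ξ, (2 * Zc ξ ^ 2 + 2 * ((k:ℝ) * ζ) ^ 2) ∂noiseP V = 2 * ∫ ξ, Zc ξ ^ 2 ∂noiseP V + 2 * ((k:ℝ) * ζ) ^ 2 := by
        rw [integral_add (hZc2i.const_mul 2) (integrable_const _), integral_const_mul, integral_const]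
        simp
      have h2' : ∫ ξ, Zs ξ ^ 2 ∂noiseP V ≤ ∫ ξ, (2 * Zc ξ ^ 2 + 2 * ((k:ℝ) * ζ) ^ 2) ∂noiseP V := h2
      rw [h3] at h2'
      have h4 : ∫ ξ, Zc ξ ^ 2 ∂noiseP V ≤ 25 * k * ∫ ξ, (Z a b ξ - ζ) ^ 2 ∂noiseP V := hPVu
      have hk0 : (0:ℝ) ≤ k := Nat.cast_nonneg k
      have h5 : 25 * (k:ℝ) * ∫ ξ, (Z a b ξ - ζ) ^ 2 ∂noiseP V ≤ 25 * k * (9 * Qe) :=
        mul_le_mul_of_nonneg_left hvar (by positivity)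
      nlinarith
    have hNi : Integrable N (noiseP V) :=
      (hZs2i.add (integrable_finset_sum _ (fun j _ => hifi j))).const_mul Cn
    have hNint : ∫ ξ, N ξ ∂noiseP V ≤ Cn * (450 * k * Qe + 2 * k ^ 2 * ζ ^ 2 + 4 * k * Qe) := by
      change ∫ ξ, Cn * (Zs ξ ^ 2 + ∑ j ∈ Finset.range k, ifT ξ j) ∂noiseP V ≤ _
      rw [integral_const_mul, integral_add hZs2i (integrable_finset_sum _ (fun j _ => hifi j))]
      exact mul_le_mul_of_nonneg_left (add_le_add hZsint hifsum) hCn.le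
    -- integrate
    have hm2i : Integrable (fun ξ => (m₁ ξ o - m₂ ξ o) ^ 2) (noiseP V) := by
      refine nr_integrable_of_bdd (((hP.meas₁ o).sub (hP.meas₂ o)).pow_const 2) 4 (fun ξ => ?_)
      rw [abs_of_nonneg (sq_nonneg _)]
      have h1 := abs_le.1 (hP.bd₁ ξ o)
      have h2 := abs_le.1 (hP.bd₂ ξ o)
      nlinarith [h1.1, h1.2, h2.1, h2.2, sq_nonneg (m₁ ξ o + m₂ ξ o)]
    have hRi : Integrable (fun ξ => (1 / (q : ℝ)) ^ k * (5 * (4 * (m₁ ξ o - m₂ ξ o) ^ 2 + (q + c ^ 2) * (k ^ 2 * Dθ) + N ξ))) (noiseP V) :=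
      (((hm2i.const_mul 4).add (integrable_const _)).add hNi |>.const_mul 5).const_mul _
    have h1 := integral_mono_of_nonneg (Eventually.of_forall (fun ξ => sq_nonneg (xI G θ₁ (m₁ ξ) o u - xI G θ₂ (m₂ ξ) o u))) hRi (Eventually.of_forall hpt)
    refine h1.trans ?_
    have hi2 : Integrable (fun ξ => 4 * (m₁ ξ o - m₂ ξ o) ^ 2 + ((q:ℝ) + c ^ 2) * ((k:ℝ) ^ 2 * Dθ)) (noiseP V) :=
      (hm2i.const_mul 4).add (integrable_const _)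
    rw [integral_const_mul, integral_const_mul,
      integral_add hi2 hNi,
      integral_add (hm2i.const_mul 4) (integrable_const _), integral_const_mul, integral_const]
    simp only [probReal_univ, one_smul]
    have hpos : (0:ℝ) ≤ (1 / (q : ℝ)) ^ k := by positivity
    refine mul_le_mul_of_nonneg_left ?_ hpos
    linarith
  -- the sum over the sphere
  have hcard : ((sphere G o k).card : ℝ) * (1 / (q : ℝ)) ^ k ≤ 2 := by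
    obtain ⟨n, rfl⟩ : ∃ n, k = n + 1 := ⟨k - 1, by omega⟩
    rw [card_sphere hG o n]
    push_cast
    have h2q : (2:ℝ) ≤ q := by exact_mod_cast hq
    have : ((q : ℝ) + 1) * (q : ℝ) ^ n * (1 / (q : ℝ)) ^ (n + 1) = (q + 1) / q := by
      rw [one_div, inv_pow, pow_succ]; field_simp
    rw [this, div_le_iff₀ hq0]; linarith
  have hδ0 : 0 ≤ δ := integral_nonneg fun ξ => sq_nonneg _
  have hDθ0 : 0 ≤ Dθ := by positivity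
  set R := 5 * (4 * δ + (q + c ^ 2) * (k ^ 2 * Dθ) + Cn * (450 * k * Qe + 2 * k ^ 2 * ζ ^ 2 + 4 * k * Qe)) with hR
  have hR0 : 0 ≤ R := by positivity
  have hsum : ∑ u ∈ sphere G o k, ∫ ξ, (xI G θ₁ (m₁ ξ) o u - xI G θ₂ (m₂ ξ) o u) ^ 2 ∂noiseP V ≤ 2 * R := by
    refine (Finset.sum_le_sum hone).trans ?_
    rw [Finset.sum_const, nsmul_eq_mul, ← mul_assoc]
    exact mul_le_mul_of_nonneg_right hcard hR0
  refine hsum.trans ?_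
  have hk2 : (0:ℝ) ≤ (k:ℝ) ^ 2 := by positivity
  have hk1 : (0:ℝ) ≤ (k:ℝ) := by positivity
  have e1 : 0 ≤ (k:ℝ) * Qe := mul_nonneg hk1 hQe0
  have e2 : 0 ≤ (k:ℝ) ^ 2 * ζ ^ 2 := by positivity
  have e3 : 0 ≤ (k:ℝ) ^ 2 * Dθ := by positivity
  have hc2 : 0 ≤ c ^ 2 := sq_nonneg c
  rw [hR]
  have hcoef : 0 ≤ 4 + ((q:ℝ) + c ^ 2) + 454 * Cn := by positivity
  -- expand
  nlinarith [mul_nonneg hcoef hδ0, mul_nonneg hcoef e1, mul_nonneg hcoef e2, mul_nonneg hcoef e3,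
    mul_nonneg hCn.le e1, mul_nonneg hCn.le e2, mul_nonneg hCn.le hδ0, mul_nonneg hCn.le e3,
    mul_nonneg (add_nonneg hq0.le hc2) hδ0, mul_nonneg (add_nonneg hq0.le hc2) e1, mul_nonneg (add_nonneg hq0.le hc2) e2]

/-- The bound on `Q` from the tails. -/
theorem Qedge_le : ∃ C : ℝ, 0 < C ∧ ∀ (θ₁ θ₂ r : ℝ) (m₁ m₂ : Nz V → V → ℝ) (_ : PairP G q θ₁ θ₂ m₁ m₂) (_ : 0 ≤ r)
    (_ : TailHyp G θ₁ r m₁) (_ : TailHyp G θ₂ r m₂) (a b : V) (p : ℝ), G.Adj a b → 1 ≤ p →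
    Qedge θ₁ θ₂ m₁ m₂ a b ≤ C * (min (36 * r * p) 1 * ((∫ ξ, (m₁ ξ a - m₂ ξ a) ^ 2 ∂noiseP V) + (θ₁ - θ₂) ^ 2) + Real.exp (-p)) := by
  obtain ⟨c, hc, hlip⟩ := cav_lip
  refine ⟨6 * c ^ 2 + 16, by positivity, ?_⟩
  intro θ₁ θ₂ r m₁ m₂ hP hr hT₁ hT₂ a b p hab hp
  set μ := min (36 * r * p) 1 with hμ
  have hμ0 : 0 ≤ μ := le_min (by positivity) zero_le_one
  have hμ1 : μ ≤ 1 := min_le_right _ _
  have hμ2 : μ ≤ 36 * r * p := min_le_left _ _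
  have hm2i : ∀ v, Integrable (fun ξ => (m₁ ξ v - m₂ ξ v) ^ 2) (noiseP V) := by
    intro v
    refine nr_integrable_of_bdd (((hP.meas₁ v).sub (hP.meas₂ v)).pow_const 2) 4 (fun ξ => ?_)
    rw [abs_of_nonneg (sq_nonneg _)]
    have h1 := abs_le.1 (hP.bd₁ ξ v)
    have h2 := abs_le.1 (hP.bd₂ ξ v)
    nlinarith [h1.1, h1.2, h2.1, h2.2, sq_nonneg (m₁ ξ v + m₂ ξ v)]
  set δ := ∫ ξ, (m₁ ξ a - m₂ ξ a) ^ 2 ∂noiseP V with hδ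
  have hδ0 : 0 ≤ δ := integral_nonneg fun ξ => sq_nonneg _
  have hδb : ∫ ξ, (m₁ ξ b - m₂ ξ b) ^ 2 ∂noiseP V = δ := delta_const hG hP b a
  let t₁ : Nz V → ℝ := fun ξ => cavM θ₁ (m₁ ξ) a b
  let t₂ : Nz V → ℝ := fun ξ => cavM θ₂ (m₂ ξ) a b
  have ht₁m : Measurable t₁ := nr_meas_cav₁ hP a b
  have ht₂m : Measurable t₂ := nr_meas_cav₂ hP a b
  have hbd₁ : ∀ ξ, t₁ ξ ^ 2 ≤ 1 := fun ξ => nr_sq_le_one_of hP (nr_bd_cav₁ hP ξ a b)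
  have hbd₂ : ∀ ξ, t₂ ξ ^ 2 ≤ 1 := fun ξ => nr_sq_le_one_of hP (nr_bd_cav₂ hP ξ a b)
  have hdiff : ∀ ξ, (t₁ ξ - t₂ ξ) ^ 2 ≤ 4 := fun ξ => by
    nlinarith [sq_nonneg (t₁ ξ + t₂ ξ), hbd₁ ξ, hbd₂ ξ]
  let I₁ : Nz V → ℝ := fun ξ => if 36 * r * p < t₁ ξ ^ 2 then (1:ℝ) else 0
  let I₂ : Nz V → ℝ := fun ξ => if 36 * r * p < t₂ ξ ^ 2 then (1:ℝ) else 0
  have hI₁m : Measurable I₁ :=
    Measurable.ite (measurableSet_lt measurable_const (ht₁m.pow_const 2)) measurable_const measurable_const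
  have hI₂m : Measurable I₂ :=
    Measurable.ite (measurableSet_lt measurable_const (ht₂m.pow_const 2)) measurable_const measurable_const
  have hI₁0 : ∀ ξ, 0 ≤ I₁ ξ := fun ξ => by
    by_cases h : 36 * r * p < t₁ ξ ^ 2
    · have e : I₁ ξ = 1 := if_pos h
      rw [e]; exact zero_le_one
    · have e : I₁ ξ = 0 := if_neg h
      rw [e]
  have hI₂0 : ∀ ξ, 0 ≤ I₂ ξ := fun ξ => by
    by_cases h : 36 * r * p < t₂ ξ ^ 2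
    · have e : I₂ ξ = 1 := if_pos h
      rw [e]; exact zero_le_one
    · have e : I₂ ξ = 0 := if_neg h
      rw [e]
  have hI₁b : ∀ ξ, |I₁ ξ| ≤ 1 := fun ξ => by
    rw [abs_of_nonneg (hI₁0 ξ)]
    by_cases h : 36 * r * p < t₁ ξ ^ 2
    · have e : I₁ ξ = 1 := if_pos h
      rw [e]
    · have e : I₁ ξ = 0 := if_neg h
      rw [e]; exact zero_le_one
  have hI₂b : ∀ ξ, |I₂ ξ| ≤ 1 := fun ξ => by
    rw [abs_of_nonneg (hI₂0 ξ)]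
    by_cases h : 36 * r * p < t₂ ξ ^ 2
    · have e : I₂ ξ = 1 := if_pos h
      rw [e]
    · have e : I₂ ξ = 0 := if_neg h
      rw [e]; exact zero_le_one
  have hI₁i : Integrable I₁ (noiseP V) := nr_integrable_of_bdd hI₁m 1 hI₁b
  have hI₂i : Integrable I₂ (noiseP V) := nr_integrable_of_bdd hI₂m 1 hI₂b
  have hdi : Integrable (fun ξ => (t₁ ξ - t₂ ξ) ^ 2) (noiseP V) :=
    nr_integrable_of_bdd ((ht₁m.sub ht₂m).pow_const 2) 4 (fun ξ => by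
      rw [abs_of_nonneg (sq_nonneg _)]; exact hdiff ξ)
  -- the pointwise bound
  have hpt : ∀ ξ, max (t₁ ξ ^ 2) (t₂ ξ ^ 2) * (t₁ ξ - t₂ ξ) ^ 2 ≤ μ * (t₁ ξ - t₂ ξ) ^ 2 + (4 * I₁ ξ + 4 * I₂ ξ) := by
    intro ξ
    have h0 := sq_nonneg (t₁ ξ - t₂ ξ)
    by_cases h₁ : 36 * r * p < t₁ ξ ^ 2
    · have e : I₁ ξ = 1 := if_pos h₁
      have h3 : max (t₁ ξ ^ 2) (t₂ ξ ^ 2) ≤ 1 := max_le (hbd₁ ξ) (hbd₂ ξ)
      have h4 : 0 ≤ μ * (t₁ ξ - t₂ ξ) ^ 2 := mul_nonneg hμ0 h0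
      rw [e]
      have h5 := hI₂0 ξ
      nlinarith [hdiff ξ]
    · by_cases h₂ : 36 * r * p < t₂ ξ ^ 2
      · have e : I₂ ξ = 1 := if_pos h₂
        have h3 : max (t₁ ξ ^ 2) (t₂ ξ ^ 2) ≤ 1 := max_le (hbd₁ ξ) (hbd₂ ξ)
        have h4 : 0 ≤ μ * (t₁ ξ - t₂ ξ) ^ 2 := mul_nonneg hμ0 h0
        rw [e]
        have h5 := hI₁0 ξ
        nlinarith [hdiff ξ]
      · have h3 : max (t₁ ξ ^ 2) (t₂ ξ ^ 2) ≤ μ := by
          refine max_le (le_min (not_lt.1 h₁) (hbd₁ ξ)) (le_min (not_lt.1 h₂) (hbd₂ ξ))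
        have h5 := hI₁0 ξ
        have h6 := hI₂0 ξ
        nlinarith
  have hQ1 : Qedge θ₁ θ₂ m₁ m₂ a b ≤ μ * (∫ ξ, (t₁ ξ - t₂ ξ) ^ 2 ∂noiseP V) + 16 * Real.exp (-p) := by
    have hR : Integrable (fun ξ => μ * (t₁ ξ - t₂ ξ) ^ 2 + (4 * I₁ ξ + 4 * I₂ ξ)) (noiseP V) :=
      (hdi.const_mul μ).add ((hI₁i.const_mul 4).add (hI₂i.const_mul 4))
    have h1 := integral_mono (nr_Qint_integrable hP a b) hR hpt
    have e : ∫ ξ, (μ * (t₁ ξ - t₂ ξ) ^ 2 + (4 * I₁ ξ + 4 * I₂ ξ)) ∂noiseP V =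
        μ * (∫ ξ, (t₁ ξ - t₂ ξ) ^ 2 ∂noiseP V) + (4 * ∫ ξ, I₁ ξ ∂noiseP V + 4 * ∫ ξ, I₂ ξ ∂noiseP V) := by
      have hi5 : Integrable (fun ξ => 4 * I₁ ξ + 4 * I₂ ξ) (noiseP V) := (hI₁i.const_mul 4).add (hI₂i.const_mul 4)
      rw [integral_add (hdi.const_mul μ) hi5, integral_const_mul,
        integral_add (hI₁i.const_mul 4) (hI₂i.const_mul 4), integral_const_mul, integral_const_mul]
    have h2 : ∫ ξ, I₁ ξ ∂noiseP V ≤ 2 * Real.exp (-p) := hT₁ a b hab p hp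
    have h3 : ∫ ξ, I₂ ξ ∂noiseP V ≤ 2 * Real.exp (-p) := hT₂ a b hab p hp
    have h4 : Qedge θ₁ θ₂ m₁ m₂ a b ≤ ∫ ξ, (μ * (t₁ ξ - t₂ ξ) ^ 2 + (4 * I₁ ξ + 4 * I₂ ξ)) ∂noiseP V := h1
    rw [e] at h4
    linarith
  have hD : ∫ ξ, (t₁ ξ - t₂ ξ) ^ 2 ∂noiseP V ≤ 6 * c ^ 2 * (δ + (θ₁ - θ₂) ^ 2) := by
    have hpt2 : ∀ ξ, (t₁ ξ - t₂ ξ) ^ 2 ≤ 3 * c ^ 2 * ((m₁ ξ a - m₂ ξ a) ^ 2 + (m₁ ξ b - m₂ ξ b) ^ 2 + (θ₁ - θ₂) ^ 2) := by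
      intro ξ
      have h1 := hlip θ₁ θ₂ (m₁ ξ a) (m₁ ξ b) (m₂ ξ a) (m₂ ξ b) hP.adm₁ hP.adm₂ (hP.bd₁ ξ a) (hP.bd₁ ξ b) (hP.bd₂ ξ a) (hP.bd₂ ξ b)
      have h2 : (t₁ ξ - t₂ ξ) ^ 2 ≤ (c * (|m₁ ξ a - m₂ ξ a| + |m₁ ξ b - m₂ ξ b| + |θ₁ - θ₂|)) ^ 2 := by
        rw [← sq_abs (t₁ ξ - t₂ ξ)]
        exact pow_le_pow_left₀ (abs_nonneg _) h1 2
      refine h2.trans ?_
      rw [mul_pow]
      have h3 : (|m₁ ξ a - m₂ ξ a| + |m₁ ξ b - m₂ ξ b| + |θ₁ - θ₂|) ^ 2 ≤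
          3 * (|m₁ ξ a - m₂ ξ a| ^ 2 + |m₁ ξ b - m₂ ξ b| ^ 2 + |θ₁ - θ₂| ^ 2) := by
        nlinarith [sq_nonneg (|m₁ ξ a - m₂ ξ a| - |m₁ ξ b - m₂ ξ b|), sq_nonneg (|m₁ ξ a - m₂ ξ a| - |θ₁ - θ₂|), sq_nonneg (|m₁ ξ b - m₂ ξ b| - |θ₁ - θ₂|)]
      simp only [sq_abs] at h3
      have hc2 : 0 ≤ c ^ 2 := sq_nonneg c
      calc c ^ 2 * (|m₁ ξ a - m₂ ξ a| + |m₁ ξ b - m₂ ξ b| + |θ₁ - θ₂|) ^ 2 ≤
          c ^ 2 * (3 * ((m₁ ξ a - m₂ ξ a) ^ 2 + (m₁ ξ b - m₂ ξ b) ^ 2 + (θ₁ - θ₂) ^ 2)) := mul_le_mul_of_nonneg_left h3 hc2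
        _ = _ := by ring
    have hi3 : Integrable (fun ξ => (m₁ ξ a - m₂ ξ a) ^ 2 + (m₁ ξ b - m₂ ξ b) ^ 2) (noiseP V) := (hm2i a).add (hm2i b)
    have hi4 : Integrable (fun ξ => 3 * c ^ 2 * ((m₁ ξ a - m₂ ξ a) ^ 2 + (m₁ ξ b - m₂ ξ b) ^ 2 + (θ₁ - θ₂) ^ 2)) (noiseP V) :=
      (hi3.add (integrable_const _)).const_mul _
    have h1 := integral_mono hdi hi4 hpt2
    refine h1.trans ?_
    rw [integral_const_mul, integral_add hi3 (integrable_const _), integral_add (hm2i a) (hm2i b), integral_const, hδb]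
    simp only [probReal_univ, one_smul]
    have hc2 : 0 ≤ c ^ 2 := sq_nonneg c
    have : 0 ≤ c ^ 2 * (θ₁ - θ₂) ^ 2 := by positivity
    nlinarith
  have hE := Real.exp_pos (-p)
  have hD0 : 0 ≤ δ + (θ₁ - θ₂) ^ 2 := by positivity
  have h5 : μ * (∫ ξ, (t₁ ξ - t₂ ξ) ^ 2 ∂noiseP V) ≤ μ * (6 * c ^ 2 * (δ + (θ₁ - θ₂) ^ 2)) := mul_le_mul_of_nonneg_left hD hμ0
  refine hQ1.trans ?_
  have h6 : 0 ≤ c ^ 2 * Real.exp (-p) := by positivity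
  have h7 : 0 ≤ μ * (δ + (θ₁ - θ₂) ^ 2) := mul_nonneg hμ0 hD0
  nlinarith

end near

section far

private lemma far_sum_biUnion_le {α β : Type*} (s : Finset α) (t : α → Finset β) (f : β → ℝ) (hf : ∀ x, 0 ≤ f x) :
    ∑ x ∈ s.biUnion t, f x ≤ ∑ i ∈ s, ∑ x ∈ t i, f x := by
  induction s using Finset.induction_on with
  | empty => simp
  | insert a s ha ih =>
    rw [Finset.biUnion_insert, Finset.sum_insert ha]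
    have h1 := Finset.sum_union_inter (s₁ := t a) (s₂ := s.biUnion t) (f := f)
    have h2 : 0 ≤ ∑ x ∈ t a ∩ s.biUnion t, f x := Finset.sum_nonneg fun x _ => hf x
    linarith

private lemma far_bm_rr {Ω : Type*} [MeasurableSpace Ω] {θ : ℝ} (hθ : Adm θ) {m : Ω → V → ℝ} (hb : ∀ ξ v, |m ξ v| ≤ 1)
    (hm : ∀ v, Measurable (fun ξ => m ξ v)) (a b : V) : BM (fun ξ => rr θ (m ξ a) (m ξ b)) := by
  have h : Measurable (fun ξ => (m ξ a, m ξ b)) := (hm a).prodMk (hm b)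
  have h2 : Measurable (fun ξ => rr θ (m ξ a) (m ξ b)) := by
    have h3 := (measurable_rr θ).comp h
    simpa only [Function.comp_def] using h3
  refine ⟨h2, θ, fun ξ => ?_⟩
  rw [abs_of_nonneg (rr_nonneg hθ (hb ξ a) (hb ξ b))]
  exact rr_le hθ (hb ξ a) (hb ξ b)

private lemma far_bm_pathProd {Ω : Type*} [MeasurableSpace Ω] (hG : RegTree G q) {θ : ℝ} (hθ : Adm θ) {m : Ω → V → ℝ} (hb : ∀ ξ v, |m ξ v| ≤ 1)
    (hm : ∀ v, Measurable (fun ξ => m ξ v)) (v u : V) :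
    BM (fun ξ => pathProd G (fun x y => rr θ (m ξ x) (m ξ y)) v u) := by
  simp_rw [pathProd_eq_prod hG]
  exact BM.finset_prod _ fun j _ => far_bm_rr hθ hb hm _ _

private lemma far_bm_mean {Ω : Type*} [MeasurableSpace Ω] {m : Ω → V → ℝ} (hb : ∀ ξ v, |m ξ v| ≤ 1)
    (hm : ∀ v, Measurable (fun ξ => m ξ v)) (v : V) : BM (fun ξ => m ξ v) :=
  ⟨hm v, 1, fun ξ => hb ξ v⟩

private lemma far_bm_sq {Ω : Type*} [MeasurableSpace Ω] {f : Ω → ℝ} (h : BM f) : BM (fun ξ => f ξ ^ 2) := by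
  simpa [pow_two] using h.mul h

private lemma far_bm_xI {Ω : Type*} [MeasurableSpace Ω] (hG : RegTree G q) {θ : ℝ} (hθ : Adm θ) {m : Ω → V → ℝ} (hb : ∀ ξ v, |m ξ v| ≤ 1)
    (hm : ∀ v, Measurable (fun ξ => m ξ v)) (v u : V) : BM (fun ξ => xI G θ (m ξ) v u) := by
  unfold xI
  exact ((BM.const 1).sub (far_bm_sq (far_bm_mean hb hm v))).mul (far_bm_pathProd hG hθ hb hm v u)

private lemma far_bm_shell {Ω : Type*} [MeasurableSpace Ω] (hG : RegTree G q) {θ : ℝ} (hθ : Adm θ) {m : Ω → V → ℝ} (hb : ∀ ξ v, |m ξ v| ≤ 1)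
    (hm : ∀ v, Measurable (fun ξ => m ξ v)) (l : ℕ) (a b : V) : BM (fun ξ => shellM G θ (m ξ) l a b) := by
  unfold shellM
  exact BM.finset_sum _ fun u _ => far_bm_sq (far_bm_pathProd hG hθ hb hm b u)

private lemma far_shell_nonneg (θ : ℝ) (m : V → ℝ) (l : ℕ) (a b : V) : 0 ≤ shellM G θ m l a b :=
  Finset.sum_nonneg fun _ _ => sq_nonneg _

/-- `xI² ≤ R²`. -/
private lemma far_xI_sq_le {θ : ℝ} {m : V → ℝ} (hm : ∀ v, |m v| ≤ 1) (v u : V) :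
    xI G θ m v u ^ 2 ≤ pathProd G (fun a b => rr θ (m a) (m b)) v u ^ 2 := by
  unfold xI
  rw [mul_pow]
  have h1 : m v ^ 2 ≤ 1 := by
    have := hm v
    nlinarith [abs_le.1 this]
  have h2 : (1 - m v ^ 2) ^ 2 ≤ 1 := by nlinarith [sq_nonneg (m v)]
  nlinarith [sq_nonneg (pathProd G (fun a b => rr θ (m a) (m b)) v u)]

/-- The sum over a sphere of squares of path products is at most the sum of the shells. -/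
private lemma far_sum_sphere_le (hG : RegTree G q) {θ : ℝ} (hθ : Adm θ) {m : V → ℝ} (hm : ∀ v, |m v| ≤ 1) (o : V) (k : ℕ) :
    ∑ u ∈ sphere G o (k + 1), pathProd G (fun a b => rr θ (m a) (m b)) o u ^ 2 ≤
      ∑ d ∈ G.neighborFinset o, shellM G θ m k o d := by
  have e : sphere G o (k + 1) = (G.neighborFinset o).biUnion (fun d => level G k o d) := rfl
  rw [e]
  refine (far_sum_biUnion_le _ _ _ fun _ => sq_nonneg _).trans (Finset.sum_le_sum fun d hd => ?_)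
  unfold shellM
  refine Finset.sum_le_sum fun u hu => ?_
  have hadj : G.Adj o d := (G.mem_neighborFinset o d).1 hd
  obtain ⟨h1, h2⟩ := (mem_level hG hadj k u).1 hu
  have hne : o ≠ u := by
    rintro rfl
    simp at h2
  have hn : d = nxt G o u := eq_nxt_of hG hadj (by omega)
  rw [pathProd_cons hG _ hne, ← hn, mul_pow]
  have h3 := rr_nonneg hθ (hm o) (hm d)
  have h4 := rr_le hθ (hm o) (hm d)
  have h5 := hθ.lt_one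
  have h6 : rr θ (m o) (m d) ^ 2 ≤ 1 := by nlinarith
  nlinarith [sq_nonneg (pathProd G (fun a b => rr θ (m a) (m b)) d u)]

private lemma far_xI_rev (hG : RegTree G q) {θ : ℝ} (hθ : Adm θ) {m : V → ℝ} (hm : ∀ v, |m v| ≤ 1) (v u : V) :
    xI G θ m v u = xI G θ m u v :=
  xI_rev hG (κ := fun _ => 1 / 3) ⟨fun _ => by norm_num, fun _ => le_rfl⟩ hθ hm v u

/-- The hybrid decomposition, pointwise. -/
private lemma far_pointwise (hG : RegTree G q) {θ₁ θ₂ : ℝ} {m m' : V → ℝ} (hm : ∀ v, |m v| ≤ 1) (hm' : ∀ v, |m' v| ≤ 1) (o u : V) :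
    (xI G θ₁ m o u - xI G θ₂ m' o u) ^ 2 ≤
      8 * ((m o - m' o) ^ 2 * pathProd G (fun a b => rr θ₁ (m a) (m b)) o u ^ 2) +
      2 * (G.dist o u : ℝ) * ∑ j ∈ Finset.range (G.dist o u),
        xI G θ₂ m' o (geo G o u j) ^ 2 *
          (rr θ₁ (m (geo G o u j)) (m (geo G o u (j + 1))) - rr θ₂ (m' (geo G o u j)) (m' (geo G o u (j + 1)))) ^ 2 *
          pathProd G (fun a b => rr θ₁ (m a) (m b)) (geo G o u (j + 1)) u ^ 2 := by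
  have hsub := pathProd_sub hG (fun a b => rr θ₁ (m a) (m b)) (fun a b => rr θ₂ (m' a) (m' b)) o u
  set R₁ := pathProd G (fun a b => rr θ₁ (m a) (m b)) o u with hR₁
  set R₂ := pathProd G (fun a b => rr θ₂ (m' a) (m' b)) o u with hR₂
  set b : ℕ → ℝ := fun j => xI G θ₂ m' o (geo G o u j) *
      (rr θ₁ (m (geo G o u j)) (m (geo G o u (j + 1))) - rr θ₂ (m' (geo G o u j)) (m' (geo G o u (j + 1)))) *
      pathProd G (fun a b => rr θ₁ (m a) (m b)) (geo G o u (j + 1)) u with hb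
  have hsum : ∑ j ∈ Finset.range (G.dist o u), b j = (1 - m' o ^ 2) * (R₁ - R₂) := by
    rw [hsub, Finset.mul_sum]
    refine Finset.sum_congr rfl fun j _ => ?_
    simp only [hb, xI]
    ring
  have hdec : xI G θ₁ m o u - xI G θ₂ m' o u = (m' o ^ 2 - m o ^ 2) * R₁ + ∑ j ∈ Finset.range (G.dist o u), b j := by
    rw [hsum]
    simp only [xI, ← hR₁, ← hR₂]
    ring
  have hcs : (∑ j ∈ Finset.range (G.dist o u), b j) ^ 2 ≤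
      (G.dist o u : ℝ) * ∑ j ∈ Finset.range (G.dist o u), b j ^ 2 := by
    have := sq_sum_le_card_mul_sum_sq (s := Finset.range (G.dist o u)) (f := b)
    simpa using this
  have hA : ((m' o ^ 2 - m o ^ 2) * R₁) ^ 2 ≤ 4 * ((m o - m' o) ^ 2 * R₁ ^ 2) := by
    have h1 := abs_le.1 (hm o)
    have h2 := abs_le.1 (hm' o)
    have h3 : (m o + m' o) ^ 2 ≤ 4 := by nlinarith
    have e : ((m' o ^ 2 - m o ^ 2) * R₁) ^ 2 = (m o + m' o) ^ 2 * ((m o - m' o) ^ 2 * R₁ ^ 2) := by ring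
    rw [e]
    exact mul_le_mul_of_nonneg_right h3 (by positivity)
  rw [hdec]
  have hpar : ∀ x y : ℝ, (x + y) ^ 2 ≤ 2 * x ^ 2 + 2 * y ^ 2 := fun x y => by nlinarith [sq_nonneg (x - y)]
  have hb2 : ∑ j ∈ Finset.range (G.dist o u), b j ^ 2 = ∑ j ∈ Finset.range (G.dist o u),
        xI G θ₂ m' o (geo G o u j) ^ 2 *
          (rr θ₁ (m (geo G o u j)) (m (geo G o u (j + 1))) - rr θ₂ (m' (geo G o u j)) (m' (geo G o u (j + 1)))) ^ 2 *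
          pathProd G (fun a b => rr θ₁ (m a) (m b)) (geo G o u (j + 1)) u ^ 2 := by
    refine Finset.sum_congr rfl fun j _ => ?_
    simp only [hb]
    ring
  rw [← hb2]
  have := hpar ((m' o ^ 2 - m o ^ 2) * R₁) (∑ j ∈ Finset.range (G.dist o u), b j)
  nlinarith

/-- Geodesics are natural. -/
private lemma far_geo_aut (hG : RegTree G q) (g : G ≃g G) (v u : V) (j : ℕ) : geo G (g v) (g u) j = g (geo G v u j) := by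
  induction j with
  | zero => rfl
  | succ j ih => rw [geo_succ, ih, nxt_aut g hG, ← geo_succ]

/-- The functional of the `j`-th term of the hybrid decomposition. -/
private noncomputable def farΦ (G : SimpleGraph V) [G.LocallyFinite] (θ₁ θ₂ : ℝ) (j : ℕ) (m m' : V → ℝ) (v u : V) : ℝ :=
  xI G θ₂ m' v (geo G v u j) ^ 2 *
    (rr θ₁ (m (geo G v u j)) (m (geo G v u (j + 1))) - rr θ₂ (m' (geo G v u j)) (m' (geo G v u (j + 1)))) ^ 2 *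
    pathProd G (fun a b => rr θ₁ (m a) (m b)) (geo G v u (j + 1)) u ^ 2

private lemma farΦ_aut (hG : RegTree G q) (j : ℕ) (g : G ≃g G) (m m' : V → ℝ) (v u : V) :
    farΦ G θ₁ θ₂ j (fun x => m (g x)) (fun x => m' (g x)) v u = farΦ G θ₁ θ₂ j m m' (g v) (g u) := by
  unfold farΦ
  simp only [far_geo_aut hG g, xI_aut hG g]
  have := pathProd_aut hG g (fun a b => rr θ₁ (m a) (m b)) (geo G v u (j + 1)) u
  beta_reduce at this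
  rw [this]

variable (hG : RegTree G q) (hq : 2 ≤ q) (hP : PairP G q θ₁ θ₂ m₁ m₂)
include hG hq hP

/-- The far term for the fixed edge. -/
private lemma far_term {a b : V} (hab : G.Adj a b) {k j : ℕ} (hj : j < k) {o u : V} (hou : G.dist o u = k) :
    (q : ℝ) ^ (k - 1) * ∫ ξ, farΦ G θ₁ θ₂ j (m₁ ξ) (m₂ ξ) o u ∂noiseP V ≤
      ∫ ξ, (rr θ₁ (m₁ ξ a) (m₁ ξ b) - rr θ₂ (m₂ ξ a) (m₂ ξ b)) ^ 2 *
          (shellM G θ₂ (m₂ ξ) j b a * shellM G θ₁ (m₁ ξ) (k - 1 - j) a b) ∂noiseP V := by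
  have hbd₁ : ∀ v, BM (fun ξ => m₁ ξ v) := far_bm_mean hP.bd₁ hP.meas₁
  have hΦbm : ∀ v u, BM (fun ξ => farΦ G θ₁ θ₂ j (m₁ ξ) (m₂ ξ) v u) := fun v u => by
    unfold farΦ
    exact ((far_bm_sq (far_bm_xI hG hP.adm₂ hP.bd₂ hP.meas₂ _ _)).mul
      (far_bm_sq ((far_bm_rr hP.adm₁ hP.bd₁ hP.meas₁ _ _).sub (far_bm_rr hP.adm₂ hP.bd₂ hP.meas₂ _ _)))).mul
      (far_bm_sq (far_bm_pathProd hG hP.adm₁ hP.bd₁ hP.meas₁ _ _))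
  set l := k - 1 - j with hl
  have hkl : k = j + l + 1 := by omega
  have hconst : ∀ y ∈ level G j b a, ∀ z ∈ level G l a b,
      ∫ ξ, farΦ G θ₁ θ₂ j (m₁ ξ) (m₂ ξ) y z ∂noiseP V = ∫ ξ, farΦ G θ₁ θ₂ j (m₁ ξ) (m₂ ξ) o u ∂noiseP V := by
    intro y hy z hz
    refine integral_natural_eq hG hP (Φ := farΦ G θ₁ θ₂ j) (fun g m m' v u => farΦ_aut hG j g m m' v u) (fun v u => (hΦbm v u).1) ?_
    rw [dist_level_level hG hab hy hz, hou, hkl]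
  have hsum : ((q : ℝ) ^ (k - 1)) * ∫ ξ, farΦ G θ₁ θ₂ j (m₁ ξ) (m₂ ξ) o u ∂noiseP V =
      ∑ y ∈ level G j b a, ∑ z ∈ level G l a b, ∫ ξ, farΦ G θ₁ θ₂ j (m₁ ξ) (m₂ ξ) y z ∂noiseP V := by
    rw [Finset.sum_congr rfl fun y hy => Finset.sum_congr rfl fun z hz => hconst y hy z hz]
    simp only [Finset.sum_const, card_level hG hab.symm, card_level hG hab, nsmul_eq_mul]
    push_cast
    have : k - 1 = j + l := by omega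
    rw [this, pow_add]
    ring
  rw [hsum]
  have hint : ∀ y z, Integrable (fun ξ => farΦ G θ₁ θ₂ j (m₁ ξ) (m₂ ξ) y z) (noiseP V) :=
    fun y z => (hΦbm y z).integrable _
  simp_rw [← integral_finsetSum _ fun z _ => hint _ z]
  rw [← integral_finsetSum _ fun y _ => integrable_finsetSum _ fun z _ => hint y z]
  refine integral_mono ((BM.finset_sum _ fun y _ => BM.finset_sum _ fun z _ => hΦbm y z).integrable _) ?_ fun ξ => ?_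
  · exact (((far_bm_sq ((far_bm_rr hP.adm₁ hP.bd₁ hP.meas₁ _ _).sub (far_bm_rr hP.adm₂ hP.bd₂ hP.meas₂ _ _)))).mul
      ((far_bm_shell hG hP.adm₂ hP.bd₂ hP.meas₂ _ _ _).mul (far_bm_shell hG hP.adm₁ hP.bd₁ hP.meas₁ _ _ _))).integrable _
  · have hpt : ∀ y ∈ level G j b a, ∀ z ∈ level G l a b,
        farΦ G θ₁ θ₂ j (m₁ ξ) (m₂ ξ) y z ≤
          (rr θ₁ (m₁ ξ a) (m₁ ξ b) - rr θ₂ (m₂ ξ a) (m₂ ξ b)) ^ 2 *
            (pathProd G (fun x y => rr θ₂ (m₂ ξ x) (m₂ ξ y)) a y ^ 2 *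
              pathProd G (fun x y => rr θ₁ (m₁ ξ x) (m₁ ξ y)) b z ^ 2) := by
      intro y hy z hz
      obtain ⟨h1, h2⟩ := geo_level_level hG hab hy hz
      unfold farΦ
      rw [h2, h1, far_xI_rev hG hP.adm₂ (hP.bd₂ ξ)]
      have h3 := far_xI_sq_le (G := G) (θ := θ₂) (hP.bd₂ ξ) a y
      have h4 : 0 ≤ (rr θ₁ (m₁ ξ a) (m₁ ξ b) - rr θ₂ (m₂ ξ a) (m₂ ξ b)) ^ 2 *
          pathProd G (fun a b => rr θ₁ (m₁ ξ a) (m₁ ξ b)) b z ^ 2 := by positivity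
      nlinarith
    refine (Finset.sum_le_sum fun y hy => Finset.sum_le_sum fun z hz => hpt y hy z hz).trans (le_of_eq ?_)
    unfold shellM
    rw [Finset.sum_mul_sum, Finset.mul_sum]
    refine Finset.sum_congr rfl fun y _ => ?_
    rw [Finset.mul_sum]

/-- **Far range, one sphere.** `(a, b)` is any directed edge. -/
theorem far_sphere (o a b : V) (hab : G.Adj a b) (k : ℕ) (hk : 1 ≤ k) :
    ∑ u ∈ sphere G o k, ∫ ξ, (xI G θ₁ (m₁ ξ) o u - xI G θ₂ (m₂ ξ) o u) ^ 2 ∂noiseP V ≤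
      8 * (∑ d ∈ G.neighborFinset o, ∫ ξ, (m₁ ξ o - m₂ ξ o) ^ 2 * shellM G θ₁ (m₁ ξ) (k - 1) o d ∂noiseP V) +
      2 * k * (q + 1) * ∑ l ∈ Finset.range k,
        ∫ ξ, (rr θ₁ (m₁ ξ a) (m₁ ξ b) - rr θ₂ (m₂ ξ a) (m₂ ξ b)) ^ 2 *
          (shellM G θ₂ (m₂ ξ) l b a * shellM G θ₁ (m₁ ξ) (k - 1 - l) a b) ∂noiseP V := by
  have hΦbm : ∀ j v u, BM (fun ξ => farΦ G θ₁ θ₂ j (m₁ ξ) (m₂ ξ) v u) := fun j v u => by
    unfold farΦ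
    exact ((far_bm_sq (far_bm_xI hG hP.adm₂ hP.bd₂ hP.meas₂ _ _)).mul
      (far_bm_sq ((far_bm_rr hP.adm₁ hP.bd₁ hP.meas₁ _ _).sub (far_bm_rr hP.adm₂ hP.bd₂ hP.meas₂ _ _)))).mul
      (far_bm_sq (far_bm_pathProd hG hP.adm₁ hP.bd₁ hP.meas₁ _ _))
  have hΔ : BM (fun ξ => (m₁ ξ o - m₂ ξ o) ^ 2) :=
    far_bm_sq ((far_bm_mean hP.bd₁ hP.meas₁ o).sub (far_bm_mean hP.bd₂ hP.meas₂ o))
  obtain ⟨k', rfl⟩ : ∃ k', k = k' + 1 := ⟨k - 1, by omega⟩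
  simp only [Nat.add_sub_cancel]
  have hq0 : (0 : ℝ) < (q : ℝ) ^ k' := by
    have : (0 : ℝ) < q := by exact_mod_cast (by omega : 0 < q)
    positivity
  -- pointwise bound
  have hu : ∀ u ∈ sphere G o (k' + 1),
      ∫ ξ, (xI G θ₁ (m₁ ξ) o u - xI G θ₂ (m₂ ξ) o u) ^ 2 ∂noiseP V ≤
        8 * ∫ ξ, (m₁ ξ o - m₂ ξ o) ^ 2 * pathProd G (fun x y => rr θ₁ (m₁ ξ x) (m₁ ξ y)) o u ^ 2 ∂noiseP V +
        2 * ((k' + 1 : ℕ) : ℝ) * ∑ j ∈ Finset.range (k' + 1), ∫ ξ, farΦ G θ₁ θ₂ j (m₁ ξ) (m₂ ξ) o u ∂noiseP V := by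
    intro u hu
    have hd : G.dist o u = k' + 1 := (mem_sphere hG o (k' + 1) u).1 hu
    have hbm1 : BM (fun ξ => (m₁ ξ o - m₂ ξ o) ^ 2 * pathProd G (fun x y => rr θ₁ (m₁ ξ x) (m₁ ξ y)) o u ^ 2) :=
      hΔ.mul (far_bm_sq (far_bm_pathProd hG hP.adm₁ hP.bd₁ hP.meas₁ _ _))
    rw [← integral_const_mul, ← integral_finsetSum _ fun j _ => (hΦbm j o u).integrable _, ← integral_const_mul,
      ← integral_add ((hbm1.integrable _).const_mul _)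
        (((BM.finset_sum _ fun j _ => hΦbm j o u).integrable _).const_mul _)]
    refine integral_mono (far_bm_sq ((far_bm_xI hG hP.adm₁ hP.bd₁ hP.meas₁ o u).sub
      (far_bm_xI hG hP.adm₂ hP.bd₂ hP.meas₂ o u))|>.integrable _)
      (((hbm1.integrable _).const_mul _).add (((BM.finset_sum _ fun j _ => hΦbm j o u).integrable _).const_mul _)) fun ξ => ?_
    have := far_pointwise hG (θ₁ := θ₁) (θ₂ := θ₂) (hP.bd₁ ξ) (hP.bd₂ ξ) o u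
    rw [hd] at this
    simpa [farΦ] using this
  refine (Finset.sum_le_sum hu).trans ?_
  rw [Finset.sum_add_distrib, ← Finset.mul_sum, ← Finset.mul_sum]
  refine add_le_add ?_ ?_
  · refine mul_le_mul_of_nonneg_left ?_ (by norm_num)
    have hbm1 : ∀ u, BM (fun ξ => (m₁ ξ o - m₂ ξ o) ^ 2 * pathProd G (fun x y => rr θ₁ (m₁ ξ x) (m₁ ξ y)) o u ^ 2) :=
      fun u => hΔ.mul (far_bm_sq (far_bm_pathProd hG hP.adm₁ hP.bd₁ hP.meas₁ _ _))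
    have hbm2 : ∀ d, BM (fun ξ => (m₁ ξ o - m₂ ξ o) ^ 2 * shellM G θ₁ (m₁ ξ) k' o d) :=
      fun d => hΔ.mul (far_bm_shell hG hP.adm₁ hP.bd₁ hP.meas₁ _ _ _)
    rw [← integral_finsetSum _ fun u _ => (hbm1 u).integrable _, ← integral_finsetSum _ fun d _ => (hbm2 d).integrable _]
    refine integral_mono ((BM.finset_sum _ fun u _ => hbm1 u).integrable _) ((BM.finset_sum _ fun d _ => hbm2 d).integrable _) fun ξ => ?_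
    simp only [← Finset.mul_sum]
    exact mul_le_mul_of_nonneg_left (far_sum_sphere_le hG hP.adm₁ (hP.bd₁ ξ) o k') (sq_nonneg _)
  · have e : (2 : ℝ) * ((k' + 1 : ℕ) : ℝ) * (q + 1) = 2 * ((k' + 1 : ℕ) : ℝ) * (q + 1) := rfl
    rw [mul_assoc (2 * ((k' + 1 : ℕ) : ℝ))]
    refine mul_le_mul_of_nonneg_left ?_ (by positivity)
    rw [Finset.sum_comm, Finset.mul_sum]
    refine Finset.sum_le_sum fun j hj => ?_
    have hj' := Finset.mem_range.1 hj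
    -- each term of the sum over the sphere
    have hterm : ∀ u ∈ sphere G o (k' + 1), ∫ ξ, farΦ G θ₁ θ₂ j (m₁ ξ) (m₂ ξ) o u ∂noiseP V ≤
        ((q : ℝ) ^ k')⁻¹ * ∫ ξ, (rr θ₁ (m₁ ξ a) (m₁ ξ b) - rr θ₂ (m₂ ξ a) (m₂ ξ b)) ^ 2 *
          (shellM G θ₂ (m₂ ξ) j b a * shellM G θ₁ (m₁ ξ) (k' - j) a b) ∂noiseP V := by
      intro u hu
      have hd : G.dist o u = k' + 1 := (mem_sphere hG o (k' + 1) u).1 hu
      have := far_term hG hq hP hab hj' hd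
      simp only [Nat.add_sub_cancel] at this
      rw [← div_eq_inv_mul, le_div_iff₀ hq0, mul_comm]
      exact this
    refine (Finset.sum_le_sum hterm).trans (le_of_eq ?_)
    rw [Finset.sum_const, card_sphere hG, nsmul_eq_mul]
    push_cast
    field_simp

/-- The second term of `incI`, far range. -/
theorem far_second (o : V) (k : ℕ) (hk : 1 ≤ k) :
    ∑ u ∈ sphere G o k, ∫ ξ, xI G θ₂ (m₂ ξ) o u ^ 2 * (m₁ ξ u - m₂ ξ u) ^ 2 ∂noiseP V ≤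
      ∑ d ∈ G.neighborFinset o, ∫ ξ, (m₁ ξ o - m₂ ξ o) ^ 2 * shellM G θ₂ (m₂ ξ) (k - 1) o d ∂noiseP V := by
  have hΔ : ∀ o, BM (fun ξ => (m₁ ξ o - m₂ ξ o) ^ 2) := fun o =>
    far_bm_sq ((far_bm_mean hP.bd₁ hP.meas₁ o).sub (far_bm_mean hP.bd₂ hP.meas₂ o))
  obtain ⟨k', rfl⟩ : ∃ k', k = k' + 1 := ⟨k - 1, by omega⟩
  simp only [Nat.add_sub_cancel]
  have hΦ : ∀ v u, BM (fun ξ => xI G θ₂ (m₂ ξ) v u ^ 2 * (m₁ ξ u - m₂ ξ u) ^ 2) := fun v u =>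
    (far_bm_sq (far_bm_xI hG hP.adm₂ hP.bd₂ hP.meas₂ _ _)).mul (hΔ u)
  have hswap : ∀ u, ∫ ξ, xI G θ₂ (m₂ ξ) o u ^ 2 * (m₁ ξ u - m₂ ξ u) ^ 2 ∂noiseP V =
      ∫ ξ, xI G θ₂ (m₂ ξ) o u ^ 2 * (m₁ ξ o - m₂ ξ o) ^ 2 ∂noiseP V := by
    intro u
    have h := integral_natural_eq hG hP (Φ := fun m m' v u => xI G θ₂ m' v u ^ 2 * (m u - m' u) ^ 2)
      (fun g m m' v u => by
        simp only [xI_aut hG g])
      (fun v u => (hΦ v u).1) (v := o) (u := u) (v' := u) (u' := o) (SimpleGraph.dist_comm)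
    rw [← h]
    refine integral_congr_ae (Filter.Eventually.of_forall fun ξ => ?_)
    simp only
    rw [far_xI_rev hG hP.adm₂ (hP.bd₂ ξ)]
  simp_rw [hswap]
  have hbm1 : ∀ u, BM (fun ξ => xI G θ₂ (m₂ ξ) o u ^ 2 * (m₁ ξ o - m₂ ξ o) ^ 2) := fun u =>
    (far_bm_sq (far_bm_xI hG hP.adm₂ hP.bd₂ hP.meas₂ _ _)).mul (hΔ o)
  have hbm2 : ∀ d, BM (fun ξ => (m₁ ξ o - m₂ ξ o) ^ 2 * shellM G θ₂ (m₂ ξ) k' o d) :=
    fun d => (hΔ o).mul (far_bm_shell hG hP.adm₂ hP.bd₂ hP.meas₂ _ _ _)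
  rw [← integral_finsetSum _ fun u _ => (hbm1 u).integrable _, ← integral_finsetSum _ fun d _ => (hbm2 d).integrable _]
  refine integral_mono ((BM.finset_sum _ fun u _ => hbm1 u).integrable _) ((BM.finset_sum _ fun d _ => hbm2 d).integrable _) fun ξ => ?_
  simp only [← Finset.mul_sum, ← Finset.sum_mul]
  rw [mul_comm]
  refine mul_le_mul_of_nonneg_left ?_ (sq_nonneg _)
  exact (Finset.sum_le_sum fun u _ => far_xI_sq_le (hP.bd₂ ξ) o u).trans (far_sum_sphere_le hG hP.adm₂ (hP.bd₂ ξ) o k')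

end far

namespace CmpAux

/-! ### Abstract bookkeeping of the far range -/

section abstract

variable {Ω : Type*} [MeasurableSpace Ω] {P : Measure Ω} [IsProbabilityMeasure P]

/-- The double sum of `far_expect`. -/
noncomputable def dbl (K K' : ℕ) (W₁ W₂ : ℕ → Ω → ℝ) (ω : Ω) : ℝ :=
  ∑ l₁ ∈ Finset.range K', ∑ l₂ ∈ Finset.range K',
    (if K ≤ l₁ + l₂ then ((l₁ : ℝ) + l₂ + 3) * W₁ l₁ ω * W₂ l₂ ω else 0)

/-- Pointwise form of the reindexing for the pair sum. -/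
theorem pair_le (K K' : ℕ) {A B : ℕ → ℝ} (hA : ∀ l, 0 ≤ A l) (hB : ∀ l, 0 ≤ B l) :
    ∑ k ∈ Finset.range K', (if K < k then (k:ℝ) * ∑ l ∈ Finset.range k, A l * B (k - 1 - l) else 0) ≤
      ∑ l₁ ∈ Finset.range K', ∑ l₂ ∈ Finset.range K',
        (if K ≤ l₁ + l₂ then ((l₁ : ℝ) + l₂ + 3) * A l₁ * B l₂ else 0) := by
  set G₀ : ℕ × ℕ → ℝ := fun y => if K ≤ y.1 + y.2 then ((y.1 : ℝ) + y.2 + 3) * A y.1 * B y.2 else 0 with hG₀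
  have hG₀0 : ∀ y, 0 ≤ G₀ y := by
    intro y
    simp only [hG₀]
    split_ifs
    · exact mul_nonneg (mul_nonneg (by positivity) (hA _)) (hB _)
    · exact le_rfl
  -- the source index set
  set S : Finset (Σ _ : ℕ, ℕ) := (Finset.range K').sigma (fun k => Finset.range k) with hS
  set φ : (Σ _ : ℕ, ℕ) → ℕ × ℕ := fun x => (x.2, x.1 - 1 - x.2) with hφ
  have hinj : Set.InjOn φ (S.filter (fun x => K < x.1) : Finset _) := by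
    rintro ⟨k, l⟩ hx ⟨k', l'⟩ hy h
    simp only [hS, Finset.coe_filter, Finset.mem_sigma, Finset.mem_range, Set.mem_setOf_eq] at hx hy
    simp only [hφ, Prod.mk.injEq] at h
    obtain ⟨h1, h2⟩ := h
    subst h1
    have : k = k' := by omega
    subst this
    rfl
  have hLHS : ∑ k ∈ Finset.range K', (if K < k then (k:ℝ) * ∑ l ∈ Finset.range k, A l * B (k - 1 - l) else 0) =
      ∑ x ∈ S.filter (fun x => K < x.1), (x.1:ℝ) * (A x.2 * B (x.1 - 1 - x.2)) := by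
    rw [Finset.sum_filter, hS, Finset.sum_sigma]
    refine Finset.sum_congr rfl (fun k _ => ?_)
    by_cases h : K < k
    · simp only [h, if_true, Finset.mul_sum]
    · simp [h]
  rw [hLHS]
  have hterm : ∀ x ∈ S.filter (fun x => K < x.1), (x.1:ℝ) * (A x.2 * B (x.1 - 1 - x.2)) ≤ G₀ (φ x) := by
    rintro ⟨k, l⟩ hx
    simp only [hS, Finset.mem_filter, Finset.mem_sigma, Finset.mem_range] at hx
    obtain ⟨⟨hk, hl⟩, hKk⟩ := hx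
    simp only [hφ, hG₀]
    have hsum : l + (k - 1 - l) = k - 1 := by omega
    have hK : K ≤ l + (k - 1 - l) := by omega
    rw [if_pos hK]
    have hcast : ((l:ℝ) + ((k - 1 - l : ℕ):ℝ)) = ((k - 1 : ℕ) : ℝ) := by exact_mod_cast hsum
    have hk1 : ((k - 1 : ℕ) : ℝ) = (k:ℝ) - 1 := by
      have : 1 ≤ k := by omega
      push_cast [Nat.cast_sub this]; ring
    rw [hcast, hk1]
    have hAB : 0 ≤ A l * B (k - 1 - l) := mul_nonneg (hA _) (hB _)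
    calc (k:ℝ) * (A l * B (k - 1 - l)) ≤ ((k:ℝ) - 1 + 3) * (A l * B (k - 1 - l)) :=
          mul_le_mul_of_nonneg_right (by linarith) hAB
      _ = _ := by ring
  refine (Finset.sum_le_sum hterm).trans ?_
  rw [← Finset.sum_image (f := G₀) (g := φ) hinj]
  have hsub : (S.filter (fun x => K < x.1)).image φ ⊆ (Finset.range K') ×ˢ (Finset.range K') := by
    intro y hy
    obtain ⟨⟨k, l⟩, hx, rfl⟩ := Finset.mem_image.mp hy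
    simp only [hS, Finset.mem_filter, Finset.mem_sigma, Finset.mem_range] at hx
    simp only [hφ, Finset.mem_product, Finset.mem_range]
    omega
  refine (Finset.sum_le_sum_of_subset_of_nonneg hsub (fun y _ _ => hG₀0 y)).trans (le_of_eq ?_)
  rw [Finset.sum_product]

/-- Pointwise form of the reindexing for the single sum. -/
theorem single_le (K K' : ℕ) {B : ℕ → ℝ} (hB : ∀ l, 0 ≤ B l) :
    ∑ k ∈ Finset.range K', (if K < k then B (k - 1) else 0) ≤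
      ∑ l₁ ∈ Finset.range K', ∑ l₂ ∈ Finset.range K',
        (if K ≤ l₁ + l₂ then ((l₁ : ℝ) + l₂ + 3) * (if l₁ = 0 then 1 else 0) * B l₂ else 0) := by
  cases K' with
  | zero => simp
  | succ n =>
    have hnn : ∀ l₁ l₂ : ℕ, 0 ≤ (if K ≤ l₁ + l₂ then ((l₁ : ℝ) + l₂ + 3) * (if l₁ = 0 then 1 else 0) * B l₂ else 0) := by
      intro l₁ l₂
      split_ifs
      · exact mul_nonneg (mul_nonneg (by positivity) (by norm_num)) (hB _)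
      · simp
      · exact le_rfl
    have h0 : ∑ l₂ ∈ Finset.range (n + 1), (if K ≤ 0 + l₂ then (((0:ℕ) : ℝ) + l₂ + 3) * (if (0:ℕ) = 0 then 1 else 0) * B l₂ else 0) ≤
        ∑ l₁ ∈ Finset.range (n + 1), ∑ l₂ ∈ Finset.range (n + 1),
          (if K ≤ l₁ + l₂ then ((l₁ : ℝ) + l₂ + 3) * (if l₁ = 0 then 1 else 0) * B l₂ else 0) :=
      Finset.single_le_sum (f := fun l₁ => ∑ l₂ ∈ Finset.range (n + 1),
          (if K ≤ l₁ + l₂ then ((l₁ : ℝ) + l₂ + 3) * (if l₁ = 0 then 1 else 0) * B l₂ else 0))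
        (fun l₁ _ => Finset.sum_nonneg (fun l₂ _ => hnn l₁ l₂)) (Finset.mem_range.mpr (by omega))
    refine le_trans ?_ h0
    rw [Finset.sum_range_succ']
    simp only [Nat.not_lt_zero, if_false, add_zero, Nat.add_sub_cancel]
    have h1 : ∑ k ∈ Finset.range n, (if K < k + 1 then B k else 0) ≤
        ∑ k ∈ Finset.range (n + 1), (if K < k + 1 then B k else 0) := by
      rw [Finset.sum_range_succ]
      have : 0 ≤ (if K < n + 1 then B n else 0) := by split_ifs <;> simp [hB]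
      linarith
    refine h1.trans (Finset.sum_le_sum (fun k _ => ?_))
    by_cases h : K < k + 1
    · have h2 : K ≤ 0 + k := by omega
      rw [if_pos h, if_pos h2]
      have := hB k
      have hk : (0:ℝ) ≤ k := by positivity
      simp only [Nat.cast_zero, if_true, mul_one, zero_add]
      nlinarith
    · have h2 : ¬ K ≤ 0 + k := by omega
      rw [if_neg h, if_neg h2]

/-- Tail probabilities from indicator integrals. -/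
theorem tail_of_integral {W : Ω → ℝ} (hW : Measurable W) {c e : ℝ}
    (h : ∫ ω, (if c < W ω then (1:ℝ) else 0) ∂P ≤ e) : (P {ω | c < W ω}).toReal ≤ e := by
  have hS : MeasurableSet {ω | c < W ω} := measurableSet_lt measurable_const hW
  have h1 : ∫ ω, (if c < W ω then (1:ℝ) else 0) ∂P = (P {ω | c < W ω}).toReal := by
    have e1 : (fun ω => if c < W ω then (1:ℝ) else 0) = {ω | c < W ω}.indicator (fun _ => (1:ℝ)) := by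
      funext ω
      simp [Set.indicator_apply]
    rw [e1, integral_indicator_const _ hS]
    simp [Measure.real]
  rwa [h1] at h

/-- Integrated form of `single_le`. -/
theorem far_single (K K' : ℕ) {D : Ω → ℝ} {W : ℕ → Ω → ℝ} (hDm : Measurable D) (hD0 : ∀ ω, 0 ≤ D ω) (hD4 : ∀ ω, D ω ≤ 4)
    (hWm : ∀ l, Measurable (W l)) (hW : ∀ l ω, 0 ≤ W l ω ∧ W l ω ≤ 1) {X : ℝ}
    (hX : ∫ ω, D ω * ∑ l₁ ∈ Finset.range K', ∑ l₂ ∈ Finset.range K',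
        (if K ≤ l₁ + l₂ then ((l₁ : ℝ) + l₂ + 3) * (if l₁ = 0 then 1 else 0) * W l₂ ω else 0) ∂P ≤ X) :
    ∑ k ∈ Finset.range K', (if K < k then ∫ ω, D ω * W (k - 1) ω ∂P else 0) ≤ X := by
  have hbm : ∀ l, BM (fun ω => D ω * W l ω) := fun l =>
    ⟨hDm.mul (hWm l), 4, fun ω => by
      rw [abs_mul, abs_of_nonneg (hD0 ω), abs_of_nonneg (hW l ω).1]
      calc D ω * W l ω ≤ 4 * 1 := mul_le_mul (hD4 ω) (hW l ω).2 (hW l ω).1 (by norm_num)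
        _ = 4 := by norm_num⟩
  have hbm2 : ∀ k, BM (fun ω => if K < k then D ω * W (k - 1) ω else 0) := by
    intro k
    by_cases h : K < k
    · simpa [h] using hbm (k - 1)
    · simpa [h] using BM.const (Ω := Ω) 0
  have e : ∑ k ∈ Finset.range K', (if K < k then ∫ ω, D ω * W (k - 1) ω ∂P else 0) =
      ∫ ω, ∑ k ∈ Finset.range K', (if K < k then D ω * W (k - 1) ω else 0) ∂P := by
    rw [integral_finsetSum _ (fun k _ => (hbm2 k).integrable P)]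
    refine Finset.sum_congr rfl (fun k _ => ?_)
    by_cases h : K < k <;> simp [h]
  rw [e]
  refine le_trans (integral_mono_of_nonneg ?_ ?_ ?_) hX
  · exact Filter.Eventually.of_forall (fun ω => Finset.sum_nonneg (fun k _ => by
      split_ifs
      · exact mul_nonneg (hD0 ω) (hW _ ω).1
      · exact le_rfl))
  · -- integrability of the right side
    refine BM.integrable ?_ P
    have hbmD : BM D := ⟨hDm, 4, fun ω => by rw [abs_of_nonneg (hD0 ω)]; exact hD4 ω⟩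
    refine hbmD.mul ?_
    refine BM.finset_sum _ (fun l₁ _ => BM.finset_sum _ (fun l₂ _ => ?_))
    by_cases h : K ≤ l₁ + l₂
    · simp only [h, if_true]
      refine (BM.const _).mul ⟨hWm l₂, 1, fun ω => ?_⟩
      rw [abs_of_nonneg (hW l₂ ω).1]; exact (hW l₂ ω).2
    · simpa [h] using BM.const (Ω := Ω) 0
  · refine Filter.Eventually.of_forall (fun ω => ?_)
    have h1 := single_le K K' (B := fun l => W l ω) (fun l => (hW l ω).1)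
    have h2 := mul_le_mul_of_nonneg_left h1 (hD0 ω)
    refine le_trans (le_of_eq ?_) h2
    rw [Finset.mul_sum]
    refine Finset.sum_congr rfl (fun k _ => ?_)
    by_cases h : K < k <;> simp [h]

/-- Integrated form of `pair_le`. -/
theorem far_pair (K K' : ℕ) {D : Ω → ℝ} {W₁ W₂ : ℕ → Ω → ℝ} (hDm : Measurable D) (hD0 : ∀ ω, 0 ≤ D ω) (hD4 : ∀ ω, D ω ≤ 4)
    (hWm₁ : ∀ l, Measurable (W₁ l)) (hW₁ : ∀ l ω, 0 ≤ W₁ l ω ∧ W₁ l ω ≤ 1)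
    (hWm₂ : ∀ l, Measurable (W₂ l)) (hW₂ : ∀ l ω, 0 ≤ W₂ l ω ∧ W₂ l ω ≤ 1) {X : ℝ}
    (hX : ∫ ω, D ω * ∑ l₁ ∈ Finset.range K', ∑ l₂ ∈ Finset.range K',
        (if K ≤ l₁ + l₂ then ((l₁ : ℝ) + l₂ + 3) * W₁ l₁ ω * W₂ l₂ ω else 0) ∂P ≤ X) :
    ∑ k ∈ Finset.range K', (if K < k then (k:ℝ) * ∑ l ∈ Finset.range k, ∫ ω, D ω * (W₁ l ω * W₂ (k - 1 - l) ω) ∂P else 0) ≤ X := by
  have hbmD : BM D := ⟨hDm, 4, fun ω => by rw [abs_of_nonneg (hD0 ω)]; exact hD4 ω⟩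
  have hbmW₁ : ∀ l, BM (W₁ l) := fun l => ⟨hWm₁ l, 1, fun ω => by rw [abs_of_nonneg (hW₁ l ω).1]; exact (hW₁ l ω).2⟩
  have hbmW₂ : ∀ l, BM (W₂ l) := fun l => ⟨hWm₂ l, 1, fun ω => by rw [abs_of_nonneg (hW₂ l ω).1]; exact (hW₂ l ω).2⟩
  have hbm : ∀ l j, BM (fun ω => D ω * (W₁ l ω * W₂ j ω)) := fun l j => hbmD.mul ((hbmW₁ l).mul (hbmW₂ j))
  have hbm2 : ∀ k, BM (fun ω => if K < k then (k:ℝ) * ∑ l ∈ Finset.range k, D ω * (W₁ l ω * W₂ (k - 1 - l) ω) else 0) := by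
    intro k
    by_cases h : K < k
    · simp only [h, if_true]
      exact (BM.const _).mul (BM.finset_sum _ (fun l _ => hbm _ _))
    · simpa [h] using BM.const (Ω := Ω) 0
  have e : ∑ k ∈ Finset.range K', (if K < k then (k:ℝ) * ∑ l ∈ Finset.range k, ∫ ω, D ω * (W₁ l ω * W₂ (k - 1 - l) ω) ∂P else 0) =
      ∫ ω, ∑ k ∈ Finset.range K', (if K < k then (k:ℝ) * ∑ l ∈ Finset.range k, D ω * (W₁ l ω * W₂ (k - 1 - l) ω) else 0) ∂P := by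
    rw [integral_finsetSum _ (fun k _ => (hbm2 k).integrable P)]
    refine Finset.sum_congr rfl (fun k _ => ?_)
    by_cases h : K < k
    · simp only [h, if_true]
      rw [integral_const_mul, integral_finsetSum _ (fun l _ => (hbm _ _).integrable P)]
    · simp [h]
  rw [e]
  refine le_trans (integral_mono_of_nonneg ?_ ?_ ?_) hX
  · exact Filter.Eventually.of_forall (fun ω => Finset.sum_nonneg (fun k _ => by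
      split_ifs
      · refine mul_nonneg (by positivity) (Finset.sum_nonneg (fun l _ => ?_))
        exact mul_nonneg (hD0 ω) (mul_nonneg (hW₁ _ ω).1 (hW₂ _ ω).1)
      · exact le_rfl))
  · refine BM.integrable ?_ P
    refine hbmD.mul ?_
    refine BM.finset_sum _ (fun l₁ _ => BM.finset_sum _ (fun l₂ _ => ?_))
    by_cases h : K ≤ l₁ + l₂
    · simp only [h, if_true]
      exact ((BM.const _).mul (hbmW₁ l₁)).mul (hbmW₂ l₂)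
    · simpa [h] using BM.const (Ω := Ω) 0
  · refine Filter.Eventually.of_forall (fun ω => ?_)
    have h1 := pair_le K K' (A := fun l => W₁ l ω) (B := fun l => W₂ l ω) (fun l => (hW₁ l ω).1) (fun l => (hW₂ l ω).1)
    have h2 := mul_le_mul_of_nonneg_left h1 (hD0 ω)
    refine le_trans (le_of_eq ?_) h2
    rw [Finset.mul_sum]
    refine Finset.sum_congr rfl (fun k _ => ?_)
    by_cases h : K < k
    · simp only [h, if_true]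
      rw [Finset.mul_sum, Finset.mul_sum, Finset.mul_sum]
      refine Finset.sum_congr rfl (fun l _ => ?_)
      ring
    · simp [h]

end abstract


section concrete

variable {θ₁ θ₂ ϑ θ : ℝ} {m₁ m₂ m : Nz V → V → ℝ}

theorem measurable_rr' (θ : ℝ) {Ω : Type*} [MeasurableSpace Ω] {f g : Ω → ℝ} (hf : Measurable f) (hg : Measurable g) :
    Measurable (fun ξ => rr θ (f ξ) (g ξ)) := by
  unfold rr
  exact measurable_const.mul ((measurable_om θ).comp ((measurable_cav θ).comp (hf.prodMk hg)))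

theorem measurable_pathProd (hG : RegTree G q) (hm : ∀ v, Measurable (fun ξ => m ξ v)) (v u : V) :
    Measurable (fun ξ => pathProd G (fun a b => rr θ (m ξ a) (m ξ b)) v u) := by
  simp_rw [pathProd_eq_prod hG]
  exact Finset.measurable_prod _ (fun j _ => measurable_rr' θ (hm _) (hm _))

theorem measurable_xI (hG : RegTree G q) (hm : ∀ v, Measurable (fun ξ => m ξ v)) (v u : V) :
    Measurable (fun ξ => xI G θ (m ξ) v u) := by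
  unfold xI
  exact (measurable_const.sub ((hm v).pow_const 2)).mul (measurable_pathProd hG hm v u)

theorem measurable_shellM (hG : RegTree G q) (hm : ∀ v, Measurable (fun ξ => m ξ v)) (l : ℕ) (a b : V) :
    Measurable (fun ξ => shellM G θ (m ξ) l a b) := by
  unfold shellM
  exact Finset.measurable_sum _ (fun u _ => (measurable_pathProd hG hm b u).pow_const 2)

theorem abs_pathProd_le (hG : RegTree G q) (hθ : Adm θ) {f : V → ℝ} (hf : ∀ v, |f v| ≤ 1) (v u : V) :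
    |pathProd G (fun a b => rr θ (f a) (f b)) v u| ≤ θ ^ G.dist v u := by
  rw [pathProd_eq_prod hG, Finset.abs_prod]
  calc ∏ j ∈ Finset.range (G.dist v u), |rr θ (f (geo G v u j)) (f (geo G v u (j + 1)))|
      ≤ ∏ j ∈ Finset.range (G.dist v u), θ := by
        refine Finset.prod_le_prod (fun _ _ => abs_nonneg _) (fun j _ => ?_)
        rw [abs_of_nonneg (rr_nonneg hθ (hf _) (hf _))]
        exact rr_le hθ (hf _) (hf _)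
    _ = _ := by simp

theorem shellM_nonneg (f : V → ℝ) (l : ℕ) (a b : V) : 0 ≤ shellM G θ f l a b := by
  unfold shellM
  exact Finset.sum_nonneg (fun u _ => sq_nonneg _)

theorem shellM_le_one (hG : RegTree G q) (hθ : Adm θ) (hqθ : (q:ℝ) * θ ^ 2 ≤ 1) {f : V → ℝ} (hf : ∀ v, |f v| ≤ 1)
    (l : ℕ) {a b : V} (hab : G.Adj a b) : shellM G θ f l a b ≤ 1 := by
  unfold shellM
  have h1 : ∀ u ∈ level G l a b, pathProd G (fun x y => rr θ (f x) (f y)) b u ^ 2 ≤ (θ ^ 2) ^ l := by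
    intro u hu
    have hd := ((mem_level hG hab l u).mp hu).1
    have h2 := abs_pathProd_le hG hθ hf b u
    rw [hd] at h2
    rw [← sq_abs, ← pow_mul, mul_comm, pow_mul]
    exact pow_le_pow_left₀ (abs_nonneg _) h2 2
  refine (Finset.sum_le_sum h1).trans ?_
  rw [Finset.sum_const, card_level hG hab, nsmul_eq_mul]
  push_cast
  rw [← mul_pow]
  exact pow_le_one₀ (by have := hθ.nonneg; positivity) hqθ

end concrete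


/-! ### Pure algebra of the final estimate -/

theorem final_alg {δ Θ ζ μ s E Kr C₁ C₂ C₃ c Q Dri SA SB τ T κ4 : ℝ}
    (hδ0 : 0 ≤ δ) (hΘ0 : 0 ≤ Θ) (hμ0 : 0 ≤ μ) (hμ1 : μ ≤ 1) (hs0 : 0 ≤ s) (hE0 : 0 ≤ E) (hK1 : 1 ≤ Kr)
    (hC₁ : 0 < C₁) (hC₂ : 0 < C₂) (hC₃ : 0 < C₃) (hQ : 0 < Q) (hτ0 : 0 ≤ τ)
    (hκ4 : κ4 ≤ 11 * τ) (hSB0 : 0 ≤ SB)
    (hT : T ≤ 2 * τ * SA + κ4 * SB)
    (hSA : SA ≤ 4 * δ + Kr * (C₁ * (δ + Kr ^ 2 * Θ + Kr * (C₂ * (μ * (δ + Θ) + E)) + Kr ^ 2 * ζ ^ 2)) +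
      (8 * (Q * (C₃ * ((1 + s) * δ + E))) + 2 * Q * (C₃ * ((1 + s) * Dri + E))))
    (hSB : SB ≤ δ + Kr * (Q * δ) + Q * (C₃ * ((1 + s) * δ + E)))
    (hDr : Dri ≤ 6 * c ^ 2 * (δ + Θ)) :
    T ≤ (2 * (4 + 2 * C₁ * (1 + C₂) + Q * C₃ * (10 + 12 * c ^ 2)) + 11 * (Q + 1 + Q * C₃) + 1) * τ *
      ((Kr + Kr ^ 2 * μ + 1 + s) * δ + (Kr ^ 2 + 1) * E + (Kr ^ 3 + s + 1) * Θ + Kr ^ 3 * ζ ^ 2) := by
  have hK0 : 0 ≤ Kr := by linarith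
  have hc2 : 0 ≤ c ^ 2 := sq_nonneg _
  obtain ⟨X, hX⟩ : ∃ X, X = (Kr + Kr ^ 2 * μ + 1 + s) * δ := ⟨_, rfl⟩
  obtain ⟨Y, hY⟩ : ∃ Y, Y = (Kr ^ 2 + 1) * E := ⟨_, rfl⟩
  obtain ⟨Z, hZ⟩ : ∃ Z, Z = (Kr ^ 3 + s + 1) * Θ := ⟨_, rfl⟩
  obtain ⟨W, hW⟩ : ∃ W, W = Kr ^ 3 * ζ ^ 2 := ⟨_, rfl⟩
  have hX0 : 0 ≤ X := by rw [hX]; positivity
  have hY0 : 0 ≤ Y := by rw [hY]; positivity
  have hZ0 : 0 ≤ Z := by rw [hZ]; positivity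
  have hW0 : 0 ≤ W := by rw [hW]; positivity
  have hK2 : Kr ^ 2 ≤ Kr ^ 3 := by nlinarith [sq_nonneg Kr]
  have a1 : δ ≤ X := by
    rw [hX]
    have : 0 ≤ (Kr + Kr ^ 2 * μ + s) * δ := by positivity
    linarith
  have a2 : Kr * δ ≤ X := by
    rw [hX]
    have : 0 ≤ (Kr ^ 2 * μ + 1 + s) * δ := by positivity
    linarith
  have a3 : Kr ^ 2 * μ * δ ≤ X := by
    rw [hX]
    have : 0 ≤ (Kr + 1 + s) * δ := by positivity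
    linarith
  have a4 : (1 + s) * δ ≤ X := by
    rw [hX]
    have : 0 ≤ (Kr + Kr ^ 2 * μ) * δ := by positivity
    linarith
  have a5 : Kr ^ 3 * Θ ≤ Z := by
    rw [hZ]
    have : 0 ≤ (s + 1) * Θ := by positivity
    linarith
  have a6 : (1 + s) * Θ ≤ Z := by
    rw [hZ]
    have : 0 ≤ Kr ^ 3 * Θ := by positivity
    linarith
  have a7 : E ≤ Y := by
    rw [hY]
    have : 0 ≤ Kr ^ 2 * E := by positivity
    linarith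
  have a8 : Kr ^ 2 * E ≤ Y := by
    rw [hY]
    linarith
  have a9 : Kr ^ 2 * μ * Θ ≤ Z := by
    have h2 : Kr ^ 2 * μ ≤ Kr ^ 3 := by
      have h3 : 0 ≤ Kr ^ 2 := sq_nonneg _
      have h4 : Kr ^ 2 * μ ≤ Kr ^ 2 * 1 := mul_le_mul_of_nonneg_left hμ1 h3
      linarith
    have h3 : Kr ^ 2 * μ * Θ ≤ Kr ^ 3 * Θ := mul_le_mul_of_nonneg_right h2 hΘ0
    linarith
  obtain ⟨S, hS⟩ : ∃ S, S = X + Y + Z + W := ⟨_, rfl⟩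
  have hS0 : 0 ≤ S := by rw [hS]; positivity
  have hNear : Kr * (C₁ * (δ + Kr ^ 2 * Θ + Kr * (C₂ * (μ * (δ + Θ) + E)) + Kr ^ 2 * ζ ^ 2)) ≤ 2 * C₁ * (1 + C₂) * S := by
    have e : Kr * (C₁ * (δ + Kr ^ 2 * Θ + Kr * (C₂ * (μ * (δ + Θ) + E)) + Kr ^ 2 * ζ ^ 2)) =
        C₁ * (Kr * δ + Kr ^ 3 * Θ + C₂ * (Kr ^ 2 * μ * δ) + C₂ * (Kr ^ 2 * μ * Θ) + C₂ * (Kr ^ 2 * E) + Kr ^ 3 * ζ ^ 2) := by ring
    rw [e]
    have b1 : C₂ * (Kr ^ 2 * μ * δ) ≤ C₂ * X := mul_le_mul_of_nonneg_left a3 hC₂.le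
    have b2 : C₂ * (Kr ^ 2 * μ * Θ) ≤ C₂ * Z := mul_le_mul_of_nonneg_left a9 hC₂.le
    have b3 : C₂ * (Kr ^ 2 * E) ≤ C₂ * Y := mul_le_mul_of_nonneg_left a8 hC₂.le
    have b4 : 0 ≤ C₂ * X := mul_nonneg hC₂.le hX0
    have b5 : 0 ≤ C₂ * Y := mul_nonneg hC₂.le hY0
    have b6 : 0 ≤ C₂ * Z := mul_nonneg hC₂.le hZ0
    have b7 : 0 ≤ C₂ * W := mul_nonneg hC₂.le hW0
    have h4 : Kr * δ + Kr ^ 3 * Θ + C₂ * (Kr ^ 2 * μ * δ) + C₂ * (Kr ^ 2 * μ * Θ) + C₂ * (Kr ^ 2 * E) + Kr ^ 3 * ζ ^ 2 ≤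
        2 * (1 + C₂) * S := by
      have e2 : 2 * (1 + C₂) * S = 2 * (X + Y + Z + W) + 2 * (C₂ * X + C₂ * Y + C₂ * Z + C₂ * W) := by rw [hS]; ring
      rw [e2, ← hW]
      linarith
    calc _ ≤ C₁ * (2 * (1 + C₂) * S) := mul_le_mul_of_nonneg_left h4 hC₁.le
      _ = _ := by ring
  have hF : (1 + s) * δ + E ≤ S := by rw [hS]; linarith
  have hDrF : (1 + s) * Dri + E ≤ (1 + 6 * c ^ 2) * S := by
    have h1 : (1 + s) * Dri ≤ (1 + s) * (6 * c ^ 2 * (δ + Θ)) :=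
      mul_le_mul_of_nonneg_left hDr (by positivity)
    have h2 : (1 + s) * (6 * c ^ 2 * (δ + Θ)) = 6 * c ^ 2 * ((1 + s) * δ + (1 + s) * Θ) := by ring
    have h3 : 6 * c ^ 2 * ((1 + s) * δ + (1 + s) * Θ) ≤ 6 * c ^ 2 * S :=
      mul_le_mul_of_nonneg_left (by rw [hS]; linarith) (by positivity)
    have e3 : (1 + 6 * c ^ 2) * S = S + 6 * c ^ 2 * S := by ring
    rw [e3]
    have h6 : E ≤ S := by rw [hS]; linarith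
    linarith
  have hQC : 0 ≤ Q * C₃ := (mul_pos hQ hC₃).le
  have hfar1 : Q * (C₃ * ((1 + s) * δ + E)) ≤ Q * C₃ * S := by
    have : Q * C₃ * ((1 + s) * δ + E) ≤ Q * C₃ * S := mul_le_mul_of_nonneg_left hF hQC
    calc _ = Q * C₃ * ((1 + s) * δ + E) := by ring
      _ ≤ _ := this
  have hfar2 : Q * (C₃ * ((1 + s) * Dri + E)) ≤ Q * C₃ * ((1 + 6 * c ^ 2) * S) := by
    have : Q * C₃ * ((1 + s) * Dri + E) ≤ Q * C₃ * ((1 + 6 * c ^ 2) * S) := mul_le_mul_of_nonneg_left hDrF hQC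
    calc _ = Q * C₃ * ((1 + s) * Dri + E) := by ring
      _ ≤ _ := this
  have hδS : δ ≤ S := by rw [hS]; linarith
  have hSA' : SA ≤ (4 + 2 * C₁ * (1 + C₂) + Q * C₃ * (10 + 12 * c ^ 2)) * S := by
    have e : (4 + 2 * C₁ * (1 + C₂) + Q * C₃ * (10 + 12 * c ^ 2)) * S =
        4 * S + 2 * C₁ * (1 + C₂) * S + (8 * (Q * C₃ * S) + 2 * (Q * C₃ * ((1 + 6 * c ^ 2) * S))) := by ring
    rw [e]
    have e2 : 2 * Q * (C₃ * ((1 + s) * Dri + E)) = 2 * (Q * (C₃ * ((1 + s) * Dri + E))) := by ring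
    rw [e2] at hSA
    linarith
  have hSB' : SB ≤ (Q + 1 + Q * C₃) * S := by
    have h0 : Kr * (Q * δ) ≤ Q * S := by
      have : Kr * δ ≤ S := by rw [hS]; linarith
      calc Kr * (Q * δ) = Q * (Kr * δ) := by ring
        _ ≤ _ := mul_le_mul_of_nonneg_left this hQ.le
    have e : (Q + 1 + Q * C₃) * S = S + Q * S + Q * C₃ * S := by ring
    rw [e]
    linarith
  have hg1 : κ4 * SB ≤ 11 * τ * SB := mul_le_mul_of_nonneg_right hκ4 hSB0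
  have hg2 : 2 * τ * SA ≤ 2 * τ * ((4 + 2 * C₁ * (1 + C₂) + Q * C₃ * (10 + 12 * c ^ 2)) * S) :=
    mul_le_mul_of_nonneg_left hSA' (by positivity)
  have hg3 : 11 * τ * SB ≤ 11 * τ * ((Q + 1 + Q * C₃) * S) :=
    mul_le_mul_of_nonneg_left hSB' (by positivity)
  have hg4 : 0 ≤ τ * S := mul_nonneg hτ0 hS0
  have e : (2 * (4 + 2 * C₁ * (1 + C₂) + Q * C₃ * (10 + 12 * c ^ 2)) + 11 * (Q + 1 + Q * C₃) + 1) * τ *
      ((Kr + Kr ^ 2 * μ + 1 + s) * δ + (Kr ^ 2 + 1) * E + (Kr ^ 3 + s + 1) * Θ + Kr ^ 3 * ζ ^ 2) =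
      2 * τ * ((4 + 2 * C₁ * (1 + C₂) + Q * C₃ * (10 + 12 * c ^ 2)) * S) +
        11 * τ * ((Q + 1 + Q * C₃) * S) + τ * S := by
    rw [hS, hX, hY, hZ, hW]; ring
  rw [e]
  linarith

/-- Sum decomposition over `k`: the term `0`, the near range and the far range. -/
theorem sum_split (K K' : ℕ) (A F : ℕ → ℝ) {a₀ N : ℝ} (ha₀ : 0 ≤ a₀) (hN : 0 ≤ N)
    (h0 : A 0 ≤ a₀) (hnear : ∀ k, 1 ≤ k → k ≤ K → A k ≤ N) (hfar : ∀ k, 1 ≤ k → K < k → A k ≤ F k) :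
    ∑ k ∈ Finset.range K', A k ≤ a₀ + (K:ℝ) * N + ∑ k ∈ Finset.range K', (if K < k then F k else 0) := by
  have hpt : ∀ k ∈ Finset.range K', A k ≤ (if k = 0 then a₀ else 0) + (if 1 ≤ k ∧ k ≤ K then N else 0) +
      (if K < k then F k else 0) := by
    intro k _
    by_cases hk0 : k = 0
    · subst hk0
      have h1 : ¬ (1 ≤ 0 ∧ 0 ≤ K) := by omega
      have h2 : ¬ K < 0 := by omega
      simp only [if_true, h1, if_false, h2, add_zero]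
      exact h0
    · have hk1 : 1 ≤ k := by omega
      by_cases hkK : k ≤ K
      · have h1 : 1 ≤ k ∧ k ≤ K := ⟨hk1, hkK⟩
        have h2 : ¬ K < k := by omega
        simp only [hk0, if_false, h1, and_self, if_true, h2, add_zero, zero_add]
        exact hnear k hk1 hkK
      · have h1 : ¬ (1 ≤ k ∧ k ≤ K) := by omega
        have h2 : K < k := by omega
        simp only [hk0, if_false, h1, h2, if_true, add_zero, zero_add]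
        exact hfar k hk1 h2
  refine (Finset.sum_le_sum hpt).trans ?_
  rw [Finset.sum_add_distrib, Finset.sum_add_distrib]
  have hc : ∑ k ∈ Finset.range K', (if 1 ≤ k ∧ k ≤ K then N else 0) ≤ (K:ℝ) * N := by
    rw [← Finset.sum_filter, Finset.sum_const, nsmul_eq_mul]
    refine mul_le_mul_of_nonneg_right ?_ hN
    have hsub : (Finset.range K').filter (fun k => 1 ≤ k ∧ k ≤ K) ⊆ Finset.Icc 1 K := by
      intro k hk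
      have := (Finset.mem_filter.mp hk).2
      exact Finset.mem_Icc.mpr this
    have h1 := Finset.card_le_card hsub
    rw [Nat.card_Icc] at h1
    have h2 : ((Finset.range K').filter (fun k => 1 ≤ k ∧ k ≤ K)).card ≤ K := by omega
    exact_mod_cast h2
  have hz : ∑ k ∈ Finset.range K', (if k = 0 then a₀ else 0) ≤ a₀ := by
    rw [Finset.sum_ite_eq']
    split_ifs
    · exact le_rfl
    · exact ha₀
  linarith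

/-- The measure of a trivial tail event. -/
theorem triv_tail {ε : ℝ} (hε1 : ε ≤ 1) (hε0 : 0 < ε) (l : ℕ) (r' : ℝ) (hr' : 1 ≤ r') :
      ((noiseP V) {ω : Nz V | wf ε r' l < (fun (l : ℕ) (_ : Nz V) => if l = 0 then (1:ℝ) else 0) l ω}).toReal ≤ Real.exp (-(r' + l)) := by
  have hemp : {ω : Nz V | wf ε r' l < (fun (l : ℕ) (_ : Nz V) => if l = 0 then (1:ℝ) else 0) l ω} = ∅ := by
    ext ω
    simp only [Set.mem_setOf_eq, Set.mem_empty_iff_false, iff_false, not_lt]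
    by_cases hl : l = 0
    · subst hl
      simp only [if_true, wf]
      have : (1:ℝ) ≤ (1 - ε) ^ (0 / 2) + Real.sqrt ((r' + ((0:ℕ):ℝ)) / 2 ^ (0 / 2)) := by
        have := Real.sqrt_nonneg ((r' + ((0:ℕ):ℝ)) / 2 ^ (0 / 2))
        simp only [Nat.zero_div, pow_zero]
        simp only [Nat.zero_div, pow_zero] at this
        linarith
      exact le_min le_rfl this
    · simp only [hl, if_false]
      exact wf_nonneg hε1 _ _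
  rw [hemp]
  simp only [measure_empty, ENNReal.toReal_zero]
  exact (Real.exp_pos _).le

section main

variable {r ε κ₀ p : ℝ}

theorem bm_xI (hG : RegTree G q) {θ : ℝ} {m : Nz V → V → ℝ} (hθ : Adm θ) (hbd : ∀ ξ v, |m ξ v| ≤ 1)
    (hmm : ∀ v, Measurable (fun ξ => m ξ v)) (v u : V) : BM (fun ξ => xI G θ (m ξ) v u) := by
  refine ⟨measurable_xI hG hmm v u, 1, fun ξ => ?_⟩
  refine (abs_xI_le hG hθ (hbd ξ) v u).trans ?_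
  exact pow_le_one₀ hθ.nonneg hθ.lt_one.le

theorem abs_xI_le_one (hG : RegTree G q) {θ : ℝ} {m : V → ℝ} (hθ : Adm θ) (hbd : ∀ v, |m v| ≤ 1) (v u : V) :
    |xI G θ m v u| ≤ 1 := by
  refine (abs_xI_le hG hθ hbd v u).trans ?_
  exact pow_le_one₀ hθ.nonneg hθ.lt_one.le

theorem bm_sq {f : Nz V → ℝ} (hf : BM f) : BM (fun ξ => f ξ ^ 2) := by
  simpa [pow_two] using hf.mul hf

theorem bm_Δ (hP : PairP G q θ₁ θ₂ m₁ m₂) (v : V) : BM (fun ξ : Nz V => (m₁ ξ v - m₂ ξ v) ^ 2) := by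
  refine ⟨(((hP.meas₁ v).sub (hP.meas₂ v)).pow_const 2), 4, fun ξ => ?_⟩
  rw [abs_of_nonneg (sq_nonneg _)]
  have h1 := abs_le.mp (hP.bd₁ ξ v)
  have h2 := abs_le.mp (hP.bd₂ ξ v)
  nlinarith

theorem inc_sum (hG : RegTree G q) (hP : PairP G q θ₁ θ₂ m₁ m₂) (o : V) (k : ℕ) :
    ∑ u ∈ sphere G o k, ∫ ξ, incI G κ₀ θ₁ θ₂ (m₁ ξ) (m₂ ξ) o u ∂noiseP V =
      2 * tauK κ₀ * (∑ u ∈ sphere G o k, ∫ ξ, (xI G θ₁ (m₁ ξ) o u - xI G θ₂ (m₂ ξ) o u) ^ 2 ∂noiseP V) +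
      32 * κ₀ ^ 4 * ∑ u ∈ sphere G o k, ∫ ξ, xI G θ₂ (m₂ ξ) o u ^ 2 * (m₁ ξ u - m₂ ξ u) ^ 2 ∂noiseP V := by
  rw [Finset.mul_sum, Finset.mul_sum, ← Finset.sum_add_distrib]
  refine Finset.sum_congr rfl (fun u _ => ?_)
  have hb₁ := bm_xI hG hP.adm₁ hP.bd₁ hP.meas₁ o u
  have hb₂ := bm_xI hG hP.adm₂ hP.bd₂ hP.meas₂ o u
  have h1 : BM (fun ξ => (xI G θ₁ (m₁ ξ) o u - xI G θ₂ (m₂ ξ) o u) ^ 2) := bm_sq (hb₁.sub hb₂)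
  have h2 : BM (fun ξ => xI G θ₂ (m₂ ξ) o u ^ 2 * (m₁ ξ u - m₂ ξ u) ^ 2) := (bm_sq hb₂).mul (bm_Δ hP u)
  have e : ∀ ξ, incI G κ₀ θ₁ θ₂ (m₁ ξ) (m₂ ξ) o u =
      2 * tauK κ₀ * (xI G θ₁ (m₁ ξ) o u - xI G θ₂ (m₂ ξ) o u) ^ 2 +
        32 * κ₀ ^ 4 * (xI G θ₂ (m₂ ξ) o u ^ 2 * (m₁ ξ u - m₂ ξ u) ^ 2) := by
    intro ξ
    simp only [incI]; ring
  simp_rw [e]
  rw [integral_add ((h1.integrable _).const_mul _) ((h2.integrable _).const_mul _),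
    integral_const_mul, integral_const_mul]

theorem A_zero (hG : RegTree G q) (hP : PairP G q θ₁ θ₂ m₁ m₂) (o : V) :
    ∑ u ∈ sphere G o 0, ∫ ξ, (xI G θ₁ (m₁ ξ) o u - xI G θ₂ (m₂ ξ) o u) ^ 2 ∂noiseP V ≤
      4 * ∫ ξ, (m₁ ξ o - m₂ ξ o) ^ 2 ∂noiseP V := by
  simp only [sphere, Finset.sum_singleton]
  have hb₁ := bm_xI hG hP.adm₁ hP.bd₁ hP.meas₁ o o
  have hb₂ := bm_xI hG hP.adm₂ hP.bd₂ hP.meas₂ o o
  have e : ∀ ξ, (xI G θ₁ (m₁ ξ) o o - xI G θ₂ (m₂ ξ) o o) ^ 2 ≤ 4 * (m₁ ξ o - m₂ ξ o) ^ 2 := by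
    intro ξ
    simp only [xI, pathProd_self hG, mul_one]
    have h1 := abs_le.mp (hP.bd₁ ξ o)
    have h2 := abs_le.mp (hP.bd₂ ξ o)
    have h3 : (1 - m₁ ξ o ^ 2 - (1 - m₂ ξ o ^ 2)) ^ 2 = (m₁ ξ o - m₂ ξ o) ^ 2 * (m₁ ξ o + m₂ ξ o) ^ 2 := by ring
    rw [h3, mul_comm]
    refine mul_le_mul_of_nonneg_right ?_ (sq_nonneg _)
    nlinarith
  calc _ ≤ ∫ ξ, 4 * (m₁ ξ o - m₂ ξ o) ^ 2 ∂noiseP V :=
        integral_mono ((bm_sq (hb₁.sub hb₂)).integrable _)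
          (((bm_Δ hP o).integrable _).const_mul _) e
    _ = _ := by rw [integral_const_mul]

theorem B_zero (hG : RegTree G q) (hP : PairP G q θ₁ θ₂ m₁ m₂) (o : V) :
    ∑ u ∈ sphere G o 0, ∫ ξ, xI G θ₂ (m₂ ξ) o u ^ 2 * (m₁ ξ u - m₂ ξ u) ^ 2 ∂noiseP V ≤
      ∫ ξ, (m₁ ξ o - m₂ ξ o) ^ 2 ∂noiseP V := by
  simp only [sphere, Finset.sum_singleton]
  have hb₂ := bm_xI hG hP.adm₂ hP.bd₂ hP.meas₂ o o
  refine integral_mono (((bm_sq hb₂).mul (bm_Δ hP o)).integrable _) ((bm_Δ hP o).integrable _) (fun ξ => ?_)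
  have h1 : xI G θ₂ (m₂ ξ) o o ^ 2 ≤ 1 := by
    have := abs_xI_le_one hG hP.adm₂ (hP.bd₂ ξ) o o
    rw [← sq_abs]
    have h0 := abs_nonneg (xI G θ₂ (m₂ ξ) o o)
    nlinarith
  have h2 : 0 ≤ (m₁ ξ o - m₂ ξ o) ^ 2 := sq_nonneg _
  show xI G θ₂ (m₂ ξ) o o ^ 2 * (m₁ ξ o - m₂ ξ o) ^ 2 ≤ (m₁ ξ o - m₂ ξ o) ^ 2
  nlinarith

theorem bm_shell (hG : RegTree G q) {θ : ℝ} {m : Nz V → V → ℝ} (hθ : Adm θ) (hqθ : (q:ℝ) * θ ^ 2 ≤ 1)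
    (hbd : ∀ ξ v, |m ξ v| ≤ 1) (hmm : ∀ v, Measurable (fun ξ => m ξ v)) (l : ℕ) {o d : V} (hd : G.Adj o d) :
    BM (fun ξ => shellM G θ (m ξ) l o d) := by
  refine ⟨measurable_shellM hG hmm _ _ _, 1, fun ξ => ?_⟩
  rw [abs_of_nonneg (shellM_nonneg _ _ _ _)]
  exact shellM_le_one hG hθ hqθ (hbd ξ) l hd

theorem B_pos (hG : RegTree G q) (hq : 2 ≤ q) (hP : PairP G q θ₁ θ₂ m₁ m₂) (o : V) (k : ℕ) (hk : 1 ≤ k) :
    ∑ u ∈ sphere G o k, ∫ ξ, xI G θ₂ (m₂ ξ) o u ^ 2 * (m₁ ξ u - m₂ ξ u) ^ 2 ∂noiseP V ≤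
      ((q:ℝ) + 1) * ∫ ξ, (m₁ ξ o - m₂ ξ o) ^ 2 ∂noiseP V := by
  refine (far_second hG hq hP o k hk).trans ?_
  have h1 : ∀ d ∈ G.neighborFinset o, ∫ ξ, (m₁ ξ o - m₂ ξ o) ^ 2 * shellM G θ₂ (m₂ ξ) (k - 1) o d ∂noiseP V ≤
      ∫ ξ, (m₁ ξ o - m₂ ξ o) ^ 2 ∂noiseP V := by
    intro d hd
    have hd' : G.Adj o d := by simpa using hd
    refine integral_mono (((bm_Δ hP o).mul (bm_shell hG hP.adm₂ hP.qθ₂ hP.bd₂ hP.meas₂ _ hd')).integrable _)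
      ((bm_Δ hP o).integrable _) (fun ξ => ?_)
    have h2 := shellM_le_one hG hP.adm₂ hP.qθ₂ (hP.bd₂ ξ) (k - 1) hd'
    have h3 : 0 ≤ (m₁ ξ o - m₂ ξ o) ^ 2 := sq_nonneg _
    show (m₁ ξ o - m₂ ξ o) ^ 2 * shellM G θ₂ (m₂ ξ) (k - 1) o d ≤ (m₁ ξ o - m₂ ξ o) ^ 2
    nlinarith
  refine (Finset.sum_le_sum h1).trans ?_
  rw [Finset.sum_const, nsmul_eq_mul, hG.reg o]
  push_cast
  exact le_of_eq (by ring)

/-- The near range with constants. -/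
theorem A_near {C₁ C₂ : ℝ} (hC₁ : 0 < C₁) (hC₂ : 0 < C₂) {δ Θ μ E ζ Qe sk : ℝ} {k K : ℕ} 
    (hΘ0 : 0 ≤ Θ) (hμ0 : 0 ≤ μ) (hδ0 : 0 ≤ δ) (hE0 : 0 ≤ E) (hkK : k ≤ K)
    (hnear : sk ≤ C₁ * (δ + (k:ℝ) ^ 2 * Θ + k * Qe + (k:ℝ) ^ 2 * ζ ^ 2))
    (hQb : Qe ≤ C₂ * (μ * (δ + Θ) + E)) :
    sk ≤ C₁ * (δ + (K:ℝ) ^ 2 * Θ + (K:ℝ) * (C₂ * (μ * (δ + Θ) + E)) + (K:ℝ) ^ 2 * ζ ^ 2) := by
  refine hnear.trans ?_
  refine mul_le_mul_of_nonneg_left ?_ hC₁.le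
  have hkK' : (k:ℝ) ≤ K := by exact_mod_cast hkK
  have hk0 : (0:ℝ) ≤ k := by positivity
  have hk2 : (k:ℝ) ^ 2 ≤ (K:ℝ) ^ 2 := pow_le_pow_left₀ hk0 hkK' 2
  have hX : 0 ≤ C₂ * (μ * (δ + Θ) + E) := by positivity
  have h4 : (k:ℝ) * Qe ≤ (K:ℝ) * (C₂ * (μ * (δ + Θ) + E)) :=
    (mul_le_mul_of_nonneg_left hQb hk0).trans (mul_le_mul_of_nonneg_right hkK' hX)
  have h5 : (k:ℝ) ^ 2 * Θ ≤ (K:ℝ) ^ 2 * Θ := mul_le_mul_of_nonneg_right hk2 hΘ0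
  have h6 : (k:ℝ) ^ 2 * ζ ^ 2 ≤ (K:ℝ) ^ 2 * ζ ^ 2 := mul_le_mul_of_nonneg_right hk2 (sq_nonneg _)
  linarith

/-- `far_expect` on the noise space. -/
def FE (V : Type*) (C : ℝ) : Prop :=
  ∀ (ε : ℝ) (_ : 0 < ε) (_ : ε ≤ 1) (K K' : ℕ) (_ : farK ε ≤ K) (p : ℝ) (_ : 1 ≤ p)
    (D : Nz V → ℝ) (W₁ W₂ : ℕ → Nz V → ℝ), Measurable D → (∀ ω, 0 ≤ D ω) → (∀ ω, D ω ≤ 4) →
    (∀ l, Measurable (W₁ l)) → (∀ l, Measurable (W₂ l)) →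
    (∀ l ω, 0 ≤ W₁ l ω ∧ W₁ l ω ≤ 1) → (∀ l ω, 0 ≤ W₂ l ω ∧ W₂ l ω ≤ 1) →
    (∀ l (r : ℝ), 1 ≤ r → ((noiseP V) {ω | wf ε r l < W₁ l ω}).toReal ≤ Real.exp (-(r + l))) →
    (∀ l (r : ℝ), 1 ≤ r → ((noiseP V) {ω | wf ε r l < W₂ l ω}).toReal ≤ Real.exp (-(r + l))) →
    ∫ ω, D ω * ∑ l₁ ∈ Finset.range K', ∑ l₂ ∈ Finset.range K',
        (if K ≤ l₁ + l₂ then ((l₁ : ℝ) + l₂ + 3) * W₁ l₁ ω * W₂ l₂ ω else 0) ∂noiseP V ≤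
      C * ((1 + Real.sqrt p) * ∫ ω, D ω ∂noiseP V + Real.exp (-p / 2))

universe u in
theorem exists_FE (V' : Type u) : ∃ C : ℝ, 0 < C ∧ FE V' C := by
  obtain ⟨C, hC, h⟩ := far_expect.{u}
  exact ⟨C, hC, fun ε hε hε1 K K' hK p hp D W₁ W₂ => h (Nz V') (noiseP V') ε hε hε1 K K' hK p hp D W₁ W₂⟩

/-- The far range of the first kind. -/
theorem far_D (hG : RegTree G q) (hP : PairP G q θ₁ θ₂ m₁ m₂) {C₃ : ℝ} (hfe : FE V C₃)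
    (hε : 0 < ε) (hε1 : ε ≤ 1) {K K' : ℕ} (hK : farK ε ≤ K) (hp : 1 ≤ p)
    {θ : ℝ} {m : Nz V → V → ℝ} (hθ : Adm θ) (hqθ : (q:ℝ) * θ ^ 2 ≤ 1) (hbd : ∀ ξ v, |m ξ v| ≤ 1)
    (hmm : ∀ v, Measurable (fun ξ => m ξ v)) (hS : ShellHyp G θ ε m) {o d : V} (hd : G.Adj o d) :
    ∑ k ∈ Finset.range K', (if K < k then ∫ ξ, (m₁ ξ o - m₂ ξ o) ^ 2 * shellM G θ (m ξ) (k - 1) o d ∂noiseP V else 0) ≤
      C₃ * ((1 + Real.sqrt p) * (∫ ξ, (m₁ ξ o - m₂ ξ o) ^ 2 ∂noiseP V) + Real.exp (-p / 2)) := by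
  have hWm : ∀ l, Measurable (fun ξ => shellM G θ (m ξ) l o d) := fun l => measurable_shellM hG hmm l o d
  have hW : ∀ l ξ, 0 ≤ shellM G θ (m ξ) l o d ∧ shellM G θ (m ξ) l o d ≤ 1 := fun l ξ =>
    ⟨shellM_nonneg _ _ _ _, shellM_le_one hG hθ hqθ (hbd ξ) l hd⟩
  have hΔ := bm_Δ hP o
  have hD4 : ∀ ξ, (m₁ ξ o - m₂ ξ o) ^ 2 ≤ 4 := by
    intro ξ
    have h1 := abs_le.mp (hP.bd₁ ξ o)
    have h2 := abs_le.mp (hP.bd₂ ξ o)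
    nlinarith
  refine far_single (P := noiseP V) K K' (D := fun ξ => (m₁ ξ o - m₂ ξ o) ^ 2)
    (W := fun l ξ => shellM G θ (m ξ) l o d) hΔ.1 (fun ξ => sq_nonneg _) hD4 hWm hW ?_
  refine hfe ε hε hε1 K K' hK p hp (fun ξ => (m₁ ξ o - m₂ ξ o) ^ 2)
    (fun (l : ℕ) (_ : Nz V) => if l = 0 then (1:ℝ) else 0) (fun l ξ => shellM G θ (m ξ) l o d)
    hΔ.1 (fun ξ => sq_nonneg _) hD4 (fun l => measurable_const) hWm ?_ hW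
    (fun l r' hr' => triv_tail hε1 hε l r' hr')
    (fun l r' hr' => tail_of_integral (hWm l) (hS o d hd l r' hr'))
  intro l ω
  by_cases hl : l = 0 <;> simp [hl]

/-- Sum over the neighbours of `far_D`. -/
theorem far_D_sum (hG : RegTree G q) (hP : PairP G q θ₁ θ₂ m₁ m₂) {C₃ : ℝ} (hfe : FE V C₃)
    (hε : 0 < ε) (hε1 : ε ≤ 1) {K K' : ℕ} (hK : farK ε ≤ K) (hp : 1 ≤ p)
    {θ : ℝ} {m : Nz V → V → ℝ} (hθ : Adm θ) (hqθ : (q:ℝ) * θ ^ 2 ≤ 1) (hbd : ∀ ξ v, |m ξ v| ≤ 1)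
    (hmm : ∀ v, Measurable (fun ξ => m ξ v)) (hS : ShellHyp G θ ε m) (o : V) :
    ∑ k ∈ Finset.range K', (if K < k then ∑ d ∈ G.neighborFinset o,
        ∫ ξ, (m₁ ξ o - m₂ ξ o) ^ 2 * shellM G θ (m ξ) (k - 1) o d ∂noiseP V else 0) ≤
      ((q:ℝ) + 1) * (C₃ * ((1 + Real.sqrt p) * (∫ ξ, (m₁ ξ o - m₂ ξ o) ^ 2 ∂noiseP V) + Real.exp (-p / 2))) := by
  have e : ∀ k, (if K < k then ∑ d ∈ G.neighborFinset o,
      ∫ ξ, (m₁ ξ o - m₂ ξ o) ^ 2 * shellM G θ (m ξ) (k - 1) o d ∂noiseP V else 0) =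
      ∑ d ∈ G.neighborFinset o, (if K < k then ∫ ξ, (m₁ ξ o - m₂ ξ o) ^ 2 * shellM G θ (m ξ) (k - 1) o d ∂noiseP V else 0) := by
    intro k
    by_cases h : K < k <;> simp [h]
  simp_rw [e]
  rw [Finset.sum_comm]
  have hnbr : ∀ d ∈ G.neighborFinset o, G.Adj o d := fun d hd => by simpa using hd
  refine (Finset.sum_le_sum (fun d hd => far_D hG hP hfe hε hε1 hK hp hθ hqθ hbd hmm hS (hnbr d hd))).trans ?_
  rw [Finset.sum_const, nsmul_eq_mul, hG.reg o]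
  push_cast
  exact le_of_eq (by ring)

/-- The difference of the transmissions. -/
noncomputable def Dr (θ₁ θ₂ : ℝ) (m₁ m₂ : Nz V → V → ℝ) (a b : V) (ξ : Nz V) : ℝ :=
  (rr θ₁ (m₁ ξ a) (m₁ ξ b) - rr θ₂ (m₂ ξ a) (m₂ ξ b)) ^ 2

theorem Dr_nonneg (a b : V) (ξ : Nz V) : 0 ≤ Dr θ₁ θ₂ m₁ m₂ a b ξ := sq_nonneg _

theorem Dr_le (hP : PairP G q θ₁ θ₂ m₁ m₂) (a b : V) (ξ : Nz V) : Dr θ₁ θ₂ m₁ m₂ a b ξ ≤ 4 := by
  have h1 := rr_nonneg hP.adm₁ (hP.bd₁ ξ a) (hP.bd₁ ξ b)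
  have h2 := (rr_le hP.adm₁ (hP.bd₁ ξ a) (hP.bd₁ ξ b)).trans hP.adm₁.lt_one.le
  have h3 := rr_nonneg hP.adm₂ (hP.bd₂ ξ a) (hP.bd₂ ξ b)
  have h4 := (rr_le hP.adm₂ (hP.bd₂ ξ a) (hP.bd₂ ξ b)).trans hP.adm₂.lt_one.le
  simp only [Dr]
  nlinarith

theorem Dr_meas (hP : PairP G q θ₁ θ₂ m₁ m₂) (a b : V) : Measurable (Dr θ₁ θ₂ m₁ m₂ a b) :=
  ((measurable_rr' θ₁ (hP.meas₁ a) (hP.meas₁ b)).sub (measurable_rr' θ₂ (hP.meas₂ a) (hP.meas₂ b))).pow_const 2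

theorem Dr_bm (hP : PairP G q θ₁ θ₂ m₁ m₂) (a b : V) : BM (Dr θ₁ θ₂ m₁ m₂ a b) :=
  ⟨Dr_meas hP a b, 4, fun ξ => by rw [abs_of_nonneg (Dr_nonneg a b ξ)]; exact Dr_le hP a b ξ⟩

theorem Dr_point {c : ℝ} {x y z d : ℝ} (h : |d| ≤ c * (|x| + |y| + |z|)) (hc : 0 < c) :
    d ^ 2 ≤ 3 * c ^ 2 * (x ^ 2 + y ^ 2 + z ^ 2) := by
  have hx2 : x ^ 2 = |x| ^ 2 := (sq_abs _).symm
  have hy2 : y ^ 2 = |y| ^ 2 := (sq_abs _).symm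
  have hz2 : z ^ 2 = |z| ^ 2 := (sq_abs _).symm
  have hd2 : d ^ 2 = |d| ^ 2 := (sq_abs _).symm
  rw [hx2, hy2, hz2, hd2]
  generalize |x| = X at h
  generalize |y| = Y at h
  generalize |z| = Z at h
  have hd0 := abs_nonneg d
  generalize |d| = D at h hd0
  have h3 : D ^ 2 ≤ (c * (X + Y + Z)) ^ 2 := pow_le_pow_left₀ hd0 h 2
  have h4 : (X + Y + Z) ^ 2 ≤ 3 * (X ^ 2 + Y ^ 2 + Z ^ 2) := by
    nlinarith [sq_nonneg (X - Y), sq_nonneg (Y - Z), sq_nonneg (X - Z)]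
  have h5 : (c * (X + Y + Z)) ^ 2 = c ^ 2 * (X + Y + Z) ^ 2 := by ring
  have h6 : 0 ≤ c ^ 2 := sq_nonneg _
  have h7 : c ^ 2 * (X + Y + Z) ^ 2 ≤ c ^ 2 * (3 * (X ^ 2 + Y ^ 2 + Z ^ 2)) := mul_le_mul_of_nonneg_left h4 h6
  calc _ ≤ _ := h3
    _ = _ := h5
    _ ≤ _ := h7
    _ = _ := by ring

theorem Dr_int (hG : RegTree G q) (hP : PairP G q θ₁ θ₂ m₁ m₂) {c : ℝ} (hc : 0 < c)
    (hrr : ∀ θ θ' x y x' y' : ℝ, Adm θ → Adm θ' → |x| ≤ 1 → |y| ≤ 1 → |x'| ≤ 1 → |y'| ≤ 1 →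
      |rr θ x y - rr θ' x' y'| ≤ c * (|x - x'| + |y - y'| + |θ - θ'|)) (o a b : V) :
    ∫ ξ, Dr θ₁ θ₂ m₁ m₂ a b ξ ∂noiseP V ≤
      6 * c ^ 2 * ((∫ ξ, (m₁ ξ o - m₂ ξ o) ^ 2 ∂noiseP V) + ((θ₁ - θ₂) ^ 2 + (θ₁ - ϑ) ^ 2 + (θ₂ - ϑ) ^ 2)) := by
  have hδa : ∫ ξ, (m₁ ξ a - m₂ ξ a) ^ 2 ∂noiseP V = ∫ ξ, (m₁ ξ o - m₂ ξ o) ^ 2 ∂noiseP V := delta_const hG hP a o
  have hδb : ∫ ξ, (m₁ ξ b - m₂ ξ b) ^ 2 ∂noiseP V = ∫ ξ, (m₁ ξ o - m₂ ξ o) ^ 2 ∂noiseP V := delta_const hG hP b o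
  have hpt : ∀ ξ, Dr θ₁ θ₂ m₁ m₂ a b ξ ≤ 3 * c ^ 2 * ((m₁ ξ a - m₂ ξ a) ^ 2 + (m₁ ξ b - m₂ ξ b) ^ 2 + (θ₁ - θ₂) ^ 2) := by
    intro ξ
    exact Dr_point (hrr θ₁ θ₂ (m₁ ξ a) (m₁ ξ b) (m₂ ξ a) (m₂ ξ b) hP.adm₁ hP.adm₂ (hP.bd₁ ξ a) (hP.bd₁ ξ b) (hP.bd₂ ξ a) (hP.bd₂ ξ b)) hc
  have hR : BM (fun ξ : Nz V => 3 * c ^ 2 * ((m₁ ξ a - m₂ ξ a) ^ 2 + (m₁ ξ b - m₂ ξ b) ^ 2 + (θ₁ - θ₂) ^ 2)) :=
    (BM.const _).mul (((bm_Δ hP a).add (bm_Δ hP b)).add (BM.const _))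
  refine (integral_mono ((Dr_bm hP a b).integrable _) (hR.integrable _) hpt).trans ?_
  rw [integral_const_mul, integral_add (((bm_Δ hP a).add (bm_Δ hP b)).integrable _) (integrable_const _),
    integral_add ((bm_Δ hP a).integrable _) ((bm_Δ hP b).integrable _), hδa, hδb]
  simp only [integral_const, probReal_univ, one_smul]
  generalize (∫ ξ, (m₁ ξ o - m₂ ξ o) ^ 2 ∂noiseP V) = δ
  have h2 : 0 ≤ c ^ 2 := sq_nonneg _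
  have h3 : (θ₁ - θ₂) ^ 2 ≥ 0 := sq_nonneg _
  have h5 : 0 ≤ (θ₁ - ϑ) ^ 2 := sq_nonneg _
  have h6 : 0 ≤ (θ₂ - ϑ) ^ 2 := sq_nonneg _
  have h7 : 0 ≤ c ^ 2 * ((θ₁ - θ₂) ^ 2 + 2 * (θ₁ - ϑ) ^ 2 + 2 * (θ₂ - ϑ) ^ 2) := by positivity
  nlinarith [h7]

/-- The far range of the second kind. -/
theorem far_pair' (hG : RegTree G q) (hP : PairP G q θ₁ θ₂ m₁ m₂) {C₃ : ℝ} (hfe : FE V C₃)
    (hε : 0 < ε) (hε1 : ε ≤ 1) {K K' : ℕ} (hK : farK ε ≤ K) (hp : 1 ≤ p)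
    (hS₁ : ShellHyp G θ₁ ε m₁) (hS₂ : ShellHyp G θ₂ ε m₂) {a b : V} (hab : G.Adj a b) :
    ∑ k ∈ Finset.range K', (if K < k then (k:ℝ) * ∑ l ∈ Finset.range k,
        ∫ ξ, (rr θ₁ (m₁ ξ a) (m₁ ξ b) - rr θ₂ (m₂ ξ a) (m₂ ξ b)) ^ 2 *
          (shellM G θ₂ (m₂ ξ) l b a * shellM G θ₁ (m₁ ξ) (k - 1 - l) a b) ∂noiseP V else 0) ≤
      C₃ * ((1 + Real.sqrt p) * (∫ ξ, Dr θ₁ θ₂ m₁ m₂ a b ξ ∂noiseP V) + Real.exp (-p / 2)) := by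
  have hba : G.Adj b a := hab.symm
  have hWm₁ : ∀ l, Measurable (fun ξ => shellM G θ₂ (m₂ ξ) l b a) := fun l => measurable_shellM hG hP.meas₂ l b a
  have hWm₂ : ∀ l, Measurable (fun ξ => shellM G θ₁ (m₁ ξ) l a b) := fun l => measurable_shellM hG hP.meas₁ l a b
  have hW₁ : ∀ l ξ, 0 ≤ shellM G θ₂ (m₂ ξ) l b a ∧ shellM G θ₂ (m₂ ξ) l b a ≤ 1 := fun l ξ =>
    ⟨shellM_nonneg _ _ _ _, shellM_le_one hG hP.adm₂ hP.qθ₂ (hP.bd₂ ξ) l hba⟩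
  have hW₂ : ∀ l ξ, 0 ≤ shellM G θ₁ (m₁ ξ) l a b ∧ shellM G θ₁ (m₁ ξ) l a b ≤ 1 := fun l ξ =>
    ⟨shellM_nonneg _ _ _ _, shellM_le_one hG hP.adm₁ hP.qθ₁ (hP.bd₁ ξ) l hab⟩
  refine far_pair (P := noiseP V) K K' (D := Dr θ₁ θ₂ m₁ m₂ a b) (W₁ := fun l ξ => shellM G θ₂ (m₂ ξ) l b a)
    (W₂ := fun l ξ => shellM G θ₁ (m₁ ξ) l a b) (Dr_meas hP a b) (Dr_nonneg a b) (Dr_le hP a b) hWm₁ hW₁ hWm₂ hW₂ ?_
  exact hfe ε hε hε1 K K' hK p hp (Dr θ₁ θ₂ m₁ m₂ a b) (fun l ξ => shellM G θ₂ (m₂ ξ) l b a)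
    (fun l ξ => shellM G θ₁ (m₁ ξ) l a b) (Dr_meas hP a b) (Dr_nonneg a b) (Dr_le hP a b) hWm₁ hWm₂ hW₁ hW₂
    (fun l r' hr' => tail_of_integral (hWm₁ l) (hS₂ b a hba l r' hr'))
    (fun l r' hr' => tail_of_integral (hWm₂ l) (hS₁ a b hab l r' hr'))

/-- The decomposition of the first sum. -/
theorem sum_A (hG : RegTree G q) (hq : 2 ≤ q) (hP : PairP G q θ₁ θ₂ m₁ m₂) {K K' : ℕ} {N : ℝ} (hN : 0 ≤ N)
    {o a b : V} (hab : G.Adj a b)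
    (hnear : ∀ k, 1 ≤ k → k ≤ K →
      ∑ u ∈ sphere G o k, ∫ ξ, (xI G θ₁ (m₁ ξ) o u - xI G θ₂ (m₂ ξ) o u) ^ 2 ∂noiseP V ≤ N) :
    ∑ k ∈ Finset.range K', ∑ u ∈ sphere G o k, ∫ ξ, (xI G θ₁ (m₁ ξ) o u - xI G θ₂ (m₂ ξ) o u) ^ 2 ∂noiseP V ≤
      4 * (∫ ξ, (m₁ ξ o - m₂ ξ o) ^ 2 ∂noiseP V) + (K:ℝ) * N +
      (8 * ∑ k ∈ Finset.range K', (if K < k then ∑ d ∈ G.neighborFinset o,
          ∫ ξ, (m₁ ξ o - m₂ ξ o) ^ 2 * shellM G θ₁ (m₁ ξ) (k - 1) o d ∂noiseP V else 0) +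
        2 * ((q:ℝ) + 1) * ∑ k ∈ Finset.range K', (if K < k then (k:ℝ) * ∑ l ∈ Finset.range k,
          ∫ ξ, (rr θ₁ (m₁ ξ a) (m₁ ξ b) - rr θ₂ (m₂ ξ a) (m₂ ξ b)) ^ 2 *
            (shellM G θ₂ (m₂ ξ) l b a * shellM G θ₁ (m₁ ξ) (k - 1 - l) a b) ∂noiseP V else 0)) := by
  have h := sum_split K K'
    (fun k => ∑ u ∈ sphere G o k, ∫ ξ, (xI G θ₁ (m₁ ξ) o u - xI G θ₂ (m₂ ξ) o u) ^ 2 ∂noiseP V)
    (fun k => 8 * (∑ d ∈ G.neighborFinset o, ∫ ξ, (m₁ ξ o - m₂ ξ o) ^ 2 * shellM G θ₁ (m₁ ξ) (k - 1) o d ∂noiseP V) +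
      2 * k * (q + 1) * ∑ l ∈ Finset.range k,
        ∫ ξ, (rr θ₁ (m₁ ξ a) (m₁ ξ b) - rr θ₂ (m₂ ξ a) (m₂ ξ b)) ^ 2 *
          (shellM G θ₂ (m₂ ξ) l b a * shellM G θ₁ (m₁ ξ) (k - 1 - l) a b) ∂noiseP V)
    (a₀ := 4 * ∫ ξ, (m₁ ξ o - m₂ ξ o) ^ 2 ∂noiseP V) (N := N)
    (mul_nonneg (by norm_num) (integral_nonneg (fun ξ => sq_nonneg _))) hN (A_zero hG hP o) hnear
    (fun k hk _ => far_sphere hG hq hP o a b hab k hk)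
  refine h.trans (le_of_eq ?_)
  congr 1
  rw [Finset.mul_sum, Finset.mul_sum, ← Finset.sum_add_distrib]
  refine Finset.sum_congr rfl (fun k _ => ?_)
  by_cases hk : K < k
  · simp only [hk, if_true]; ring
  · simp only [hk, if_false]; ring

/-- The decomposition of the second sum. -/
theorem sum_B (hG : RegTree G q) (hq : 2 ≤ q) (hP : PairP G q θ₁ θ₂ m₁ m₂) {K K' : ℕ} (o : V) :
    ∑ k ∈ Finset.range K', ∑ u ∈ sphere G o k, ∫ ξ, xI G θ₂ (m₂ ξ) o u ^ 2 * (m₁ ξ u - m₂ ξ u) ^ 2 ∂noiseP V ≤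
      (∫ ξ, (m₁ ξ o - m₂ ξ o) ^ 2 ∂noiseP V) + (K:ℝ) * (((q:ℝ) + 1) * ∫ ξ, (m₁ ξ o - m₂ ξ o) ^ 2 ∂noiseP V) +
      ∑ k ∈ Finset.range K', (if K < k then ∑ d ∈ G.neighborFinset o,
          ∫ ξ, (m₁ ξ o - m₂ ξ o) ^ 2 * shellM G θ₂ (m₂ ξ) (k - 1) o d ∂noiseP V else 0) := by
  have hδ0 : 0 ≤ ∫ ξ, (m₁ ξ o - m₂ ξ o) ^ 2 ∂noiseP V := integral_nonneg (fun ξ => sq_nonneg _)
  exact sum_split K K'
    (fun k => ∑ u ∈ sphere G o k, ∫ ξ, xI G θ₂ (m₂ ξ) o u ^ 2 * (m₁ ξ u - m₂ ξ u) ^ 2 ∂noiseP V)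
    (fun k => ∑ d ∈ G.neighborFinset o, ∫ ξ, (m₁ ξ o - m₂ ξ o) ^ 2 * shellM G θ₂ (m₂ ξ) (k - 1) o d ∂noiseP V)
    hδ0 (mul_nonneg (by positivity) hδ0) (B_zero hG hP o) (fun k hk _ => B_pos hG hq hP o k hk)
    (fun k hk _ => far_second hG hq hP o k hk)

theorem kappa_le (hκ0 : 0 ≤ κ₀) (hκ : κ₀ ≤ 1 / 3) : 32 * κ₀ ^ 4 ≤ 11 * tauK κ₀ := by
  simp only [tauK]
  have h1 : 0 < 3 * (1 - κ₀) := by nlinarith
  rw [mul_div_assoc', le_div_iff₀ h1]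
  have h2 : κ₀ ^ 2 ≤ 1 / 9 := by nlinarith
  have h3 : 0 ≤ κ₀ ^ 2 := sq_nonneg _
  have h4 : 3 * (1 - κ₀) ≤ 3 := by nlinarith
  have h5 : κ₀ ^ 4 = κ₀ ^ 2 * κ₀ ^ 2 := by ring
  rw [h5]
  nlinarith

theorem tau_nonneg (hκ : κ₀ ≤ 1 / 3) : 0 ≤ tauK κ₀ := by
  simp only [tauK]
  have : 0 ≤ 3 * (1 - κ₀) := by nlinarith
  positivity

theorem farK_one_le {ε : ℝ} (hε : 0 < ε) (hε1 : ε ≤ 1) {K : ℕ} (hK : farK ε ≤ K) : (1:ℝ) ≤ K := by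
  refine le_trans ?_ hK
  unfold farK
  have hlog : 0 ≤ Real.log (1 / ε) := Real.log_nonneg (by rw [le_div_iff₀ hε]; linarith)
  rw [le_div_iff₀ hε]
  nlinarith

/-- The near estimate including the tail hypothesis. -/
theorem near_all (hG : RegTree G q) (hP : PairP G q θ₁ θ₂ m₁ m₂) {C₁ C₂ : ℝ} (hC₁ : 0 < C₁) (hC₂ : 0 < C₂)
    (hnear : ∀ (θ₁ θ₂ ϑ : ℝ) (m₁ m₂ : Nz V → V → ℝ) (_ : PairP G q θ₁ θ₂ m₁ m₂) (_ : Adm ϑ)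
    (_ : PathVar G θ₁ θ₂ ϑ m₁ m₂) (o a b : V) (k : ℕ), G.Adj a b → 1 ≤ k →
    ∑ u ∈ sphere G o k, ∫ ξ, (xI G θ₁ (m₁ ξ) o u - xI G θ₂ (m₂ ξ) o u) ^ 2 ∂noiseP V ≤
      C₁ * ((∫ ξ, (m₁ ξ o - m₂ ξ o) ^ 2 ∂noiseP V) + k ^ 2 * ((θ₁ - θ₂) ^ 2 + (θ₁ - ϑ) ^ 2 + (θ₂ - ϑ) ^ 2) +
        k * Qedge θ₁ θ₂ m₁ m₂ a b +
        k ^ 2 * (∫ ξ, (lhat ϑ (cavM θ₁ (m₁ ξ) a b) - lhat ϑ (cavM θ₂ (m₂ ξ) a b)) ∂noiseP V) ^ 2))
    (hQ : ∀ (θ₁ θ₂ r : ℝ) (m₁ m₂ : Nz V → V → ℝ) (_ : PairP G q θ₁ θ₂ m₁ m₂) (_ : 0 ≤ r)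
    (_ : TailHyp G θ₁ r m₁) (_ : TailHyp G θ₂ r m₂) (a b : V) (p : ℝ), G.Adj a b → 1 ≤ p →
    Qedge θ₁ θ₂ m₁ m₂ a b ≤ C₂ * (min (36 * r * p) 1 * ((∫ ξ, (m₁ ξ a - m₂ ξ a) ^ 2 ∂noiseP V) + (θ₁ - θ₂) ^ 2) + Real.exp (-p)))
    (hϑ : Adm ϑ) (hPV : PathVar G θ₁ θ₂ ϑ m₁ m₂) (hr : 0 ≤ r) (hT₁ : TailHyp G θ₁ r m₁) (hT₂ : TailHyp G θ₂ r m₂)
    (hp : 1 ≤ p) (o : V) {a b : V} (hab : G.Adj a b) {k K : ℕ} (hk : 1 ≤ k) (hkK : k ≤ K) :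
    ∑ u ∈ sphere G o k, ∫ ξ, (xI G θ₁ (m₁ ξ) o u - xI G θ₂ (m₂ ξ) o u) ^ 2 ∂noiseP V ≤
      C₁ * ((∫ ξ, (m₁ ξ o - m₂ ξ o) ^ 2 ∂noiseP V) + (K:ℝ) ^ 2 * ((θ₁ - θ₂) ^ 2 + (θ₁ - ϑ) ^ 2 + (θ₂ - ϑ) ^ 2) +
        (K:ℝ) * (C₂ * (min (36 * r * p) 1 * ((∫ ξ, (m₁ ξ o - m₂ ξ o) ^ 2 ∂noiseP V) + ((θ₁ - θ₂) ^ 2 + (θ₁ - ϑ) ^ 2 + (θ₂ - ϑ) ^ 2)) + Real.exp (-p / 2))) +
        (K:ℝ) ^ 2 * (∫ ξ, (lhat ϑ (cavM θ₁ (m₁ ξ) a b) - lhat ϑ (cavM θ₂ (m₂ ξ) a b)) ∂noiseP V) ^ 2) := by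
  have hδ0 : 0 ≤ ∫ ξ, (m₁ ξ o - m₂ ξ o) ^ 2 ∂noiseP V := integral_nonneg (fun ξ => sq_nonneg _)
  have hμ0 : 0 ≤ min (36 * r * p) 1 := le_min (by positivity) zero_le_one
  refine A_near hC₁ hC₂ (by positivity) hμ0 hδ0 (Real.exp_pos _).le hkK
    (hnear θ₁ θ₂ ϑ m₁ m₂ hP hϑ hPV o a b k hab hk) ?_
  have hQb := hQ θ₁ θ₂ r m₁ m₂ hP hr hT₁ hT₂ a b p hab hp
  rw [delta_const hG hP a o] at hQb
  refine hQb.trans (mul_le_mul_of_nonneg_left ?_ hC₂.le)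
  have h1 : (θ₁ - θ₂) ^ 2 ≤ (θ₁ - θ₂) ^ 2 + (θ₁ - ϑ) ^ 2 + (θ₂ - ϑ) ^ 2 := by
    nlinarith [sq_nonneg (θ₁ - ϑ), sq_nonneg (θ₂ - ϑ)]
  have h2 : min (36 * r * p) 1 * ((∫ ξ, (m₁ ξ o - m₂ ξ o) ^ 2 ∂noiseP V) + (θ₁ - θ₂) ^ 2) ≤
      min (36 * r * p) 1 * ((∫ ξ, (m₁ ξ o - m₂ ξ o) ^ 2 ∂noiseP V) + ((θ₁ - θ₂) ^ 2 + (θ₁ - ϑ) ^ 2 + (θ₂ - ϑ) ^ 2)) :=
    mul_le_mul_of_nonneg_left (by linarith) hμ0
  have h3 : Real.exp (-p) ≤ Real.exp (-p / 2) := Real.exp_le_exp.mpr (by linarith)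
  linarith

/-- **The comparison theorem.** `C` depends only on `q`. -/
theorem compare' (hG : RegTree G q) (hq : 2 ≤ q) : ∃ C : ℝ, 0 < C ∧
    ∀ (θ₁ θ₂ ϑ r ε κ₀ p : ℝ) (m₁ m₂ : Nz V → V → ℝ) (K K' : ℕ) (_ : PairP G q θ₁ θ₂ m₁ m₂) (_ : Adm ϑ)
      (_ : PathVar G θ₁ θ₂ ϑ m₁ m₂) (_ : 0 ≤ r) (_ : TailHyp G θ₁ r m₁) (_ : TailHyp G θ₂ r m₂)
      (_ : 0 < ε) (_ : ε ≤ 1) (_ : ShellHyp G θ₁ ε m₁) (_ : ShellHyp G θ₂ ε m₂) (_ : farK ε ≤ K)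
      (_ : 0 ≤ κ₀) (_ : κ₀ ≤ 1 / 3) (_ : 1 ≤ p) (o a b : V) (_ : G.Adj a b),
      ∑ k ∈ Finset.range K', ∑ u ∈ sphere G o k, ∫ ξ, incI G κ₀ θ₁ θ₂ (m₁ ξ) (m₂ ξ) o u ∂noiseP V ≤
        C * tauK κ₀ * (((K : ℝ) + K ^ 2 * min (36 * r * p) 1 + 1 + Real.sqrt p) * (∫ ξ, (m₁ ξ o - m₂ ξ o) ^ 2 ∂noiseP V) +
          ((K : ℝ) ^ 2 + 1) * Real.exp (-p / 2) +
          ((K : ℝ) ^ 3 + Real.sqrt p + 1) * ((θ₁ - θ₂) ^ 2 + (θ₁ - ϑ) ^ 2 + (θ₂ - ϑ) ^ 2) +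
          (K : ℝ) ^ 3 * (∫ ξ, (lhat ϑ (cavM θ₁ (m₁ ξ) a b) - lhat ϑ (cavM θ₂ (m₂ ξ) a b)) ∂noiseP V) ^ 2) := by
  obtain ⟨C₁, hC₁, hnear⟩ := near_sphere hG hq
  obtain ⟨C₂, hC₂, hQ⟩ := Qedge_le hG hq
  obtain ⟨C₃, hC₃, hfe⟩ := exists_FE V
  obtain ⟨c, hc, hrr⟩ := rr_lip
  have hQq0 : (0:ℝ) < (q:ℝ) + 1 := by positivity
  refine ⟨2 * (4 + 2 * C₁ * (1 + C₂) + ((q:ℝ) + 1) * C₃ * (10 + 12 * c ^ 2)) + 11 * (((q:ℝ) + 1) + 1 + ((q:ℝ) + 1) * C₃) + 1,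
    by positivity, ?_⟩
  intro θ₁ θ₂ ϑ r ε κ₀ p m₁ m₂ K K' hP hϑ hPV hr hT₁ hT₂ hε hε1 hS₁ hS₂ hK hκ0 hκ hp o a b hab
  have hδ0 : 0 ≤ ∫ ξ, (m₁ ξ o - m₂ ξ o) ^ 2 ∂noiseP V := integral_nonneg (fun ξ => sq_nonneg _)
  have hμ0 : 0 ≤ min (36 * r * p) 1 := le_min (by positivity) zero_le_one
  have hK1 := farK_one_le hε hε1 hK
  have hN0 : 0 ≤ C₁ * ((∫ ξ, (m₁ ξ o - m₂ ξ o) ^ 2 ∂noiseP V) + (K:ℝ) ^ 2 * ((θ₁ - θ₂) ^ 2 + (θ₁ - ϑ) ^ 2 + (θ₂ - ϑ) ^ 2) +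
        (K:ℝ) * (C₂ * (min (36 * r * p) 1 * ((∫ ξ, (m₁ ξ o - m₂ ξ o) ^ 2 ∂noiseP V) + ((θ₁ - θ₂) ^ 2 + (θ₁ - ϑ) ^ 2 + (θ₂ - ϑ) ^ 2)) + Real.exp (-p / 2))) +
        (K:ℝ) ^ 2 * (∫ ξ, (lhat ϑ (cavM θ₁ (m₁ ξ) a b) - lhat ϑ (cavM θ₂ (m₂ ξ) a b)) ∂noiseP V) ^ 2) := by positivity
  have hsA := sum_A hG hq hP (K := K) (K' := K') hN0 hab
    (fun k hk hkK => near_all hG hP hC₁ hC₂ hnear hQ hϑ hPV hr hT₁ hT₂ hp o hab hk hkK)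
  have hsB := sum_B hG hq hP (K := K) (K' := K') o
  have hf1 := far_D_sum hG hP hfe hε hε1 hK hp (K' := K') hP.adm₁ hP.qθ₁ hP.bd₁ hP.meas₁ hS₁ o
  have hf2 := far_D_sum hG hP hfe hε hε1 hK hp (K' := K') hP.adm₂ hP.qθ₂ hP.bd₂ hP.meas₂ hS₂ o
  have hf3 := far_pair' hG hP hfe hε hε1 hK hp (K' := K') hS₁ hS₂ hab
  have hDr := Dr_int (ϑ := ϑ) hG hP hc hrr o a b
  have hSB0 : 0 ≤ ∑ k ∈ Finset.range K', ∑ u ∈ sphere G o k, ∫ ξ, xI G θ₂ (m₂ ξ) o u ^ 2 * (m₁ ξ u - m₂ ξ u) ^ 2 ∂noiseP V :=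
    Finset.sum_nonneg (fun k _ => Finset.sum_nonneg (fun u _ => integral_nonneg (fun ξ =>
      mul_nonneg (sq_nonneg _) (sq_nonneg _))))
  have hT : ∑ k ∈ Finset.range K', ∑ u ∈ sphere G o k, ∫ ξ, incI G κ₀ θ₁ θ₂ (m₁ ξ) (m₂ ξ) o u ∂noiseP V ≤
      2 * tauK κ₀ * (∑ k ∈ Finset.range K', ∑ u ∈ sphere G o k, ∫ ξ, (xI G θ₁ (m₁ ξ) o u - xI G θ₂ (m₂ ξ) o u) ^ 2 ∂noiseP V) +
      32 * κ₀ ^ 4 * ∑ k ∈ Finset.range K', ∑ u ∈ sphere G o k, ∫ ξ, xI G θ₂ (m₂ ξ) o u ^ 2 * (m₁ ξ u - m₂ ξ u) ^ 2 ∂noiseP V := by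
    simp_rw [inc_sum hG hP o]
    rw [Finset.sum_add_distrib, Finset.mul_sum, Finset.mul_sum]
  have hsA' := hsA.trans (add_le_add le_rfl (add_le_add
    (mul_le_mul_of_nonneg_left hf1 (by norm_num : (0:ℝ) ≤ 8))
    (mul_le_mul_of_nonneg_left hf3 (by positivity : (0:ℝ) ≤ 2 * ((q:ℝ) + 1)))))
  have hsB' := hsB.trans (add_le_add le_rfl hf2)
  exact final_alg hδ0 (by positivity) hμ0 (min_le_right _ _) (Real.sqrt_nonneg _) (Real.exp_pos _).le hK1 hC₁ hC₂ hC₃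
    hQq0 (tau_nonneg hκ) (kappa_le hκ0 hκ) hSB0 hT hsA' hsB' hDr

end main

end CmpAux

/-- **The comparison theorem.** `C` depends only on `q`. -/
theorem compare (hG : RegTree G q) (hq : 2 ≤ q) : ∃ C : ℝ, 0 < C ∧
    ∀ (θ₁ θ₂ ϑ r ε κ₀ p : ℝ) (m₁ m₂ : Nz V → V → ℝ) (K K' : ℕ) (_ : PairP G q θ₁ θ₂ m₁ m₂) (_ : Adm ϑ)
      (_ : PathVar G θ₁ θ₂ ϑ m₁ m₂) (_ : 0 ≤ r) (_ : TailHyp G θ₁ r m₁) (_ : TailHyp G θ₂ r m₂)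
      (_ : 0 < ε) (_ : ε ≤ 1) (_ : ShellHyp G θ₁ ε m₁) (_ : ShellHyp G θ₂ ε m₂) (_ : farK ε ≤ K)
      (_ : 0 ≤ κ₀) (_ : κ₀ ≤ 1 / 3) (_ : 1 ≤ p) (o a b : V) (_ : G.Adj a b),
      ∑ k ∈ Finset.range K', ∑ u ∈ sphere G o k, ∫ ξ, incI G κ₀ θ₁ θ₂ (m₁ ξ) (m₂ ξ) o u ∂noiseP V ≤
        C * tauK κ₀ * (((K : ℝ) + K ^ 2 * min (36 * r * p) 1 + 1 + Real.sqrt p) * (∫ ξ, (m₁ ξ o - m₂ ξ o) ^ 2 ∂noiseP V) +
          ((K : ℝ) ^ 2 + 1) * Real.exp (-p / 2) +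
          ((K : ℝ) ^ 3 + Real.sqrt p + 1) * ((θ₁ - θ₂) ^ 2 + (θ₁ - ϑ) ^ 2 + (θ₂ - ϑ) ^ 2) +
          (K : ℝ) ^ 3 * (∫ ξ, (lhat ϑ (cavM θ₁ (m₁ ξ) a b) - lhat ϑ (cavM θ₂ (m₂ ξ) a b)) ∂noiseP V) ^ 2) := by
  exact CmpAux.compare' hG hq

end Crest.Agent.Lib.TI
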