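import Mathlib

/-!
# The function `Psi` and the key inequality (S0241 project, module TI.KeyPsi)

`Psi κ x = cosh (κ artanh x) √(1 - x²)`, which in the hyperbolic parametrisation reads
`Psi κ (tanh H) = cosh (κ H) / cosh H`.  It satisfies `Ψ'' = (κ² - 1) Ψ / (1 - x²)²`.

The **key inequality** compares `Psi κ (θ T)` with `Psi κ' T`, `κ'² - 1 = (1 - η) θ² (κ² - 1)`:
this is what gives moment bounds at and below the reconstruction threshold uniformly in the depth.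

Proof of `key_psi`. Write `u = κ² - 1 ≥ 0`, `v = (1 - η) θ² u`, `A(T) = Psi κ (θ T)`, `B(T) = Psi κ' T`, for `0 ≤ T < 1`.
Then `A'' = θ² u A / (1 - θ²T²)²`, `B'' = v B / (1 - T²)²`, so `W = A' B - A B'` has `W(0) = 0` and
`W' = A B θ² u h(T)`, `h(T) = 1 / (1 - θ²T²)² - (1 - η) / (1 - T²)²`. With `φ(y) = 1/(1-y)²` convex: `φ(θ² y) ≤ (1 - θ²) + θ² φ(y)`,
`φ(y) ≥ 1 + 2 y` so `h(T) ≤ η - λ T²`, `λ = 2 (1 - θ² - η) ≥ 1/2`.
Both `A` and `B` are positive, increasing on `[0, 1)` (as `κ ≥ 1`: `Ψ' = (κ S - C x) / w ≥ 0` with `S = sinh(κ artanh x)`,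
`C = cosh (κ artanh x)`, `w = √(1-x²)`).
Let `T₀ = √(η / λ)`. On `[0, T₀]`: `h ≤ η`, so `W ≤ θ² u η T (A B)` (derivative comparison, `A B` increasing).
On `[T₀, 1)`: `h ≤ 0`, so `W ≤ W(T₀) ≤ θ² u η T₀ (A B)(T₀) ≤ θ² u η T₀ (A B)(T)`.
So `(log (A / B))' = W / (A B) ≤ θ² u η T₀`, and `log (A / B)(T) ≤ θ² u η T₀ ≤ θ² u √2 η √η`.
-/

set_option autoImplicit false

namespace Crest.Agent.Lib.TI

/-- The function `Psi`. -/
noncomputable def Psi (κ x : ℝ) : ℝ := Real.cosh (κ * Real.artanh x) * Real.sqrt (1 - x ^ 2)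

variable {κ θ η x T H : ℝ}

/-! ### Basic facts on hyperbolic functions -/

lemma one_sub_tanh_sq (H : ℝ) : 1 - Real.tanh H ^ 2 = 1 / Real.cosh H ^ 2 := by
  have hc := Real.cosh_pos H
  rw [Real.tanh_eq_sinh_div_cosh, div_pow]
  field_simp
  nlinarith [Real.cosh_sq H]

lemma sqrt_one_sub_tanh_sq (H : ℝ) : Real.sqrt (1 - Real.tanh H ^ 2) = 1 / Real.cosh H := by
  have hc := Real.cosh_pos H
  rw [one_sub_tanh_sq, ← one_div_pow, Real.sqrt_sq (by positivity)]

lemma mem_Ioo_of_abs (hx : |x| < 1) : x ∈ Set.Ioo (-1 : ℝ) 1 := abs_lt.1 hx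

lemma one_sub_sq_pos (hx : |x| < 1) : 0 < 1 - x ^ 2 := by
  have := sq_lt_one_iff_abs_lt_one x |>.2 hx
  linarith

lemma tanh_artanh' (hx : |x| < 1) : Real.tanh (Real.artanh x) = x :=
  Real.tanh_artanh (mem_Ioo_of_abs hx)

theorem Psi_tanh (κ H : ℝ) : Psi κ (Real.tanh H) = Real.cosh (κ * H) / Real.cosh H := by
  unfold Psi
  rw [Real.artanh_tanh, sqrt_one_sub_tanh_sq]
  ring

lemma Psi_eq_of_artanh (κ : ℝ) (hx : |x| < 1) :
    Psi κ x = Real.cosh (κ * Real.artanh x) / Real.cosh (Real.artanh x) := by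
  rw [← Psi_tanh, tanh_artanh' hx]

lemma artanh_neg_eq (x : ℝ) : Real.artanh (-x) = - Real.artanh x := by
  unfold Real.artanh
  have : (1 + -x) / (1 - -x) = ((1 + x) / (1 - x))⁻¹ := by
    rw [inv_div]; ring_nf
  rw [this, Real.sqrt_inv, Real.log_inv]

theorem Psi_neg (κ x : ℝ) : Psi κ (-x) = Psi κ x := by
  unfold Psi
  rw [artanh_neg_eq, neg_sq, mul_neg, Real.cosh_neg]

theorem Psi_pos (κ : ℝ) (hx : |x| < 1) : 0 < Psi κ x :=
  mul_pos (Real.cosh_pos _) (Real.sqrt_pos.2 (one_sub_sq_pos hx))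

theorem Psi_one (hx : |x| < 1) : Psi 1 x = 1 := by
  rw [Psi_eq_of_artanh 1 hx, one_mul, div_self (Real.cosh_pos _).ne']

theorem Psi_zero_le (hx : |x| < 1) : Psi 0 x ≤ 1 := by
  have h1 := one_sub_sq_pos hx
  unfold Psi
  rw [zero_mul, Real.cosh_zero, one_mul]
  calc Real.sqrt (1 - x ^ 2) ≤ Real.sqrt 1 := Real.sqrt_le_sqrt (by nlinarith [sq_nonneg x])
    _ = 1 := by simp

lemma Psi_at_zero (κ : ℝ) : Psi κ 0 = 1 := by
  unfold Psi
  simp

/-- Derivative of `artanh`. -/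
lemma hasDerivAt_artanh (hx : |x| < 1) : HasDerivAt Real.artanh (1 / (1 - x ^ 2)) x := by
  obtain ⟨hx1, hx2⟩ := mem_Ioo_of_abs hx
  have hp : 0 < 1 - x := by linarith
  have hq : 0 < 1 + x := by linarith
  have hg : HasDerivAt (fun y : ℝ => (1 + y) / (1 - y)) (2 / (1 - x) ^ 2) x := by
    have h1 : HasDerivAt (fun y : ℝ => 1 + y) 1 x := (hasDerivAt_id x).const_add 1
    have h2 : HasDerivAt (fun y : ℝ => 1 - y) (-1) x := (hasDerivAt_id x).const_sub 1
    refine (h1.fun_div h2 hp.ne').congr_deriv ?_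
    congr 1
    ring
  have hgpos : 0 < (1 + x) / (1 - x) := div_pos hq hp
  have hsq := hg.sqrt hgpos.ne'
  have hlog := hsq.log (Real.sqrt_pos.2 hgpos).ne'
  have hs : Real.sqrt ((1 + x) / (1 - x)) * Real.sqrt ((1 + x) / (1 - x)) = (1 + x) / (1 - x) :=
    Real.mul_self_sqrt hgpos.le
  have hs0 := (Real.sqrt_pos.2 hgpos).ne'
  have hlog' : HasDerivAt Real.artanh _ x := hlog
  refine hlog'.congr_deriv ?_
  rw [div_div, mul_assoc, hs]
  have h1x : 1 - x ^ 2 = (1 - x) * (1 + x) := by ring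
  rw [h1x]
  field_simp

/-- Derivative of `√(1 - x²)`. -/
lemma hasDerivAt_w (hx : |x| < 1) :
    HasDerivAt (fun y : ℝ => Real.sqrt (1 - y ^ 2)) (- x / Real.sqrt (1 - x ^ 2)) x := by
  have h1 := one_sub_sq_pos hx
  have h2 : HasDerivAt (fun y : ℝ => 1 - y ^ 2) (- (2 * x)) x := by
    have h3 : HasDerivAt (fun y : ℝ => y ^ 2) (2 * x) x := by
      simpa using hasDerivAt_pow 2 x
    exact h3.const_sub 1
  refine (h2.sqrt h1.ne').congr_deriv ?_
  field_simp

lemma w_sq (hx : |x| < 1) : Real.sqrt (1 - x ^ 2) ^ 2 = 1 - x ^ 2 :=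
  Real.sq_sqrt (one_sub_sq_pos hx).le

/-- First derivative of `Psi`. -/
theorem hasDerivAt_Psi (κ : ℝ) (hx : |x| < 1) :
    HasDerivAt (Psi κ)
      ((κ * Real.sinh (κ * Real.artanh x) - Real.cosh (κ * Real.artanh x) * x) / Real.sqrt (1 - x ^ 2)) x := by
  have ha := hasDerivAt_artanh hx
  have hw := hasDerivAt_w hx
  have hc : HasDerivAt (fun y => Real.cosh (κ * Real.artanh y))
      (Real.sinh (κ * Real.artanh x) * (κ * (1 / (1 - x ^ 2)))) x := (ha.const_mul κ).cosh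
  have hwpos : 0 < Real.sqrt (1 - x ^ 2) := Real.sqrt_pos.2 (one_sub_sq_pos hx)
  have hw2 := w_sq hx
  have hP : HasDerivAt (Psi κ) _ x := hc.mul hw
  refine hP.congr_deriv ?_
  set w := Real.sqrt (1 - x ^ 2) with hwdef
  rw [← hw2]
  field_simp
  ring

/-- Second derivative of `Psi`. -/
theorem hasDerivAt_Psi' (κ : ℝ) (hx : |x| < 1) :
    HasDerivAt (fun x => (κ * Real.sinh (κ * Real.artanh x) - Real.cosh (κ * Real.artanh x) * x) / Real.sqrt (1 - x ^ 2))
      ((κ ^ 2 - 1) * Psi κ x / (1 - x ^ 2) ^ 2) x := by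
  have ha := hasDerivAt_artanh hx
  have hw := hasDerivAt_w hx
  have hc : HasDerivAt (fun y => Real.cosh (κ * Real.artanh y))
      (Real.sinh (κ * Real.artanh x) * (κ * (1 / (1 - x ^ 2)))) x := (ha.const_mul κ).cosh
  have hs : HasDerivAt (fun y => Real.sinh (κ * Real.artanh y))
      (Real.cosh (κ * Real.artanh x) * (κ * (1 / (1 - x ^ 2)))) x := (ha.const_mul κ).sinh
  have hwpos : 0 < Real.sqrt (1 - x ^ 2) := Real.sqrt_pos.2 (one_sub_sq_pos hx)
  have hw2 := w_sq hx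
  have hid : HasDerivAt (fun y : ℝ => y) 1 x := hasDerivAt_id x
  have hN : HasDerivAt (fun y => κ * Real.sinh (κ * Real.artanh y) - Real.cosh (κ * Real.artanh y) * y)
      (κ * (Real.cosh (κ * Real.artanh x) * (κ * (1 / (1 - x ^ 2)))) -
        (Real.sinh (κ * Real.artanh x) * (κ * (1 / (1 - x ^ 2))) * x +
          Real.cosh (κ * Real.artanh x) * 1)) x :=
    (hs.const_mul κ).sub (hc.mul hid)
  have hfin := hN.fun_div hw hwpos.ne'
  refine hfin.congr_deriv ?_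
  unfold Psi
  set C := Real.cosh (κ * Real.artanh x)
  set S := Real.sinh (κ * Real.artanh x)
  set w := Real.sqrt (1 - x ^ 2) with hwdef
  have hxw : x ^ 2 = 1 - w ^ 2 := by linarith
  rw [← hw2]
  field_simp
  linear_combination (-C) * hxw

/-! ### Monotonicity -/

lemma tanh_lt_tanh {a b : ℝ} (h : a < b) : Real.tanh a < Real.tanh b := by
  by_contra hcon
  push Not at hcon
  have h1 := Real.artanh_le_artanh (Real.neg_one_lt_tanh b) (Real.tanh_lt_one a) hcon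
  rw [Real.artanh_tanh, Real.artanh_tanh] at h1
  linarith

lemma tanh_le_tanh {a b : ℝ} (h : a ≤ b) : Real.tanh a ≤ Real.tanh b := by
  rcases h.lt_or_eq with h | rfl
  · exact (tanh_lt_tanh h).le
  · exact le_rfl

lemma tanh_nonneg {a : ℝ} (h : 0 ≤ a) : 0 ≤ Real.tanh a := by
  have := tanh_le_tanh h
  rwa [Real.tanh_zero] at this

/-- `Psi κ` is nondecreasing on `[0, 1)` for `κ ≥ 1`. -/
theorem Psi_mono (hκ : 1 ≤ κ) {x y : ℝ} (hx : 0 ≤ x) (hxy : x ≤ y) (hy : y < 1) : Psi κ x ≤ Psi κ y := by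
  have hx1 : |x| < 1 := by rw [abs_of_nonneg hx]; linarith
  have hy1 : |y| < 1 := by rw [abs_of_nonneg (hx.trans hxy)]; exact hy
  rw [Psi_eq_of_artanh κ hx1, Psi_eq_of_artanh κ hy1]
  set H₁ := Real.artanh x
  set H₂ := Real.artanh y
  have hH₁ : 0 ≤ H₁ := Real.artanh_nonneg hx
  have hH : H₁ ≤ H₂ := Real.artanh_le_artanh (by linarith) hy hxy
  have hc1 := Real.cosh_pos H₁
  have hc2 := Real.cosh_pos H₂
  rw [div_le_div_iff₀ hc1 hc2]
  have h1 : Real.cosh (κ * H₁) * Real.cosh H₂ =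
      (Real.cosh (κ * H₁ + H₂) + Real.cosh (κ * H₁ - H₂)) / 2 := by
    rw [Real.cosh_add, Real.cosh_sub]; ring
  have h2 : Real.cosh (κ * H₂) * Real.cosh H₁ =
      (Real.cosh (κ * H₂ + H₁) + Real.cosh (κ * H₂ - H₁)) / 2 := by
    rw [Real.cosh_add, Real.cosh_sub]; ring
  rw [h1, h2]
  have hκH : H₂ ≤ κ * H₂ := by nlinarith
  have h3 : Real.cosh (κ * H₁ + H₂) ≤ Real.cosh (κ * H₂ + H₁) := by
    rw [Real.cosh_le_cosh, abs_of_nonneg (by nlinarith), abs_of_nonneg (by nlinarith)]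
    nlinarith
  have h4 : Real.cosh (κ * H₁ - H₂) ≤ Real.cosh (κ * H₂ - H₁) := by
    rw [Real.cosh_le_cosh, abs_of_nonneg (by nlinarith : 0 ≤ κ * H₂ - H₁), abs_le]
    constructor <;> nlinarith
  linarith

/-! ### Derivative comparison -/

lemma sub_le_of_hasDerivAt {f f' : ℝ → ℝ} {a b C : ℝ} (hab : a ≤ b)
    (h : ∀ s ∈ Set.Icc a b, HasDerivAt f (f' s) s) (hC : ∀ s ∈ Set.Icc a b, f' s ≤ C) :
    f b - f a ≤ C * (b - a) := by
  have hcont : ContinuousOn f (Set.Icc a b) := fun s hs => (h s hs).continuousAt.continuousWithinAt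
  have hdiff : DifferentiableOn ℝ f (interior (Set.Icc a b)) := fun s hs =>
    (h s (interior_subset hs)).differentiableAt.differentiableWithinAt
  refine Convex.image_sub_le_mul_sub_of_deriv_le (convex_Icc a b) hcont hdiff ?_ a
    (Set.left_mem_Icc.2 hab) b (Set.right_mem_Icc.2 hab) hab
  intro s hs
  rw [(h s (interior_subset hs)).deriv]
  exact hC s (interior_subset hs)

/-- The first derivative of `Psi`, as a function. -/
noncomputable def dPsi (κ x : ℝ) : ℝ :=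
  (κ * Real.sinh (κ * Real.artanh x) - Real.cosh (κ * Real.artanh x) * x) / Real.sqrt (1 - x ^ 2)

lemma hasDerivAt_Psi_d (κ : ℝ) (hx : |x| < 1) : HasDerivAt (Psi κ) (dPsi κ x) x :=
  hasDerivAt_Psi κ hx

lemma hasDerivAt_dPsi (κ : ℝ) (hx : |x| < 1) :
    HasDerivAt (dPsi κ) ((κ ^ 2 - 1) * Psi κ x / (1 - x ^ 2) ^ 2) x :=
  hasDerivAt_Psi' κ hx

lemma dPsi_zero (κ : ℝ) : dPsi κ 0 = 0 := by
  unfold dPsi
  simp

/-! ### Algebraic inequalities -/

/-- Convexity of `y ↦ 1/(1-y)²` at `0` and `y`. -/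
lemma phi_convex {a y : ℝ} (ha0 : 0 ≤ a) (ha1 : a ≤ 1) (hy0 : 0 ≤ y) (hy1 : y < 1) :
    1 / (1 - a * y) ^ 2 ≤ (1 - a) + a / (1 - y) ^ 2 := by
  have hz : 0 < 1 - y := by linarith
  have ht : 0 < 1 - a * y := by nlinarith
  set z := 1 - y with hzdef
  have hb : 0 ≤ 1 - a := by linarith
  have hty : 1 - a * y = (1 - a) + a * z := by rw [hzdef]; ring
  rw [hty] at ht ⊢
  set b := 1 - a with hbdef
  have hab : a + b = 1 := by rw [hbdef]; ring
  have hid : (b + a / z ^ 2) - 1 / (b + a * z) ^ 2 =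
      a * b * (z - 1) ^ 2 * (a * z * (z + 2) + b * (2 * z + 1)) / (z ^ 2 * (b + a * z) ^ 2) := by
    have hbz : b = 1 - a := hbdef
    rw [hbz] at ht ⊢
    field_simp
    ring
  have hnn : 0 ≤ a * b * (z - 1) ^ 2 * (a * z * (z + 2) + b * (2 * z + 1)) / (z ^ 2 * (b + a * z) ^ 2) := by
    positivity
  linarith

lemma phi_ge {y : ℝ} (_hy0 : 0 ≤ y) (hy1 : y < 1) : 1 + 2 * y ≤ 1 / (1 - y) ^ 2 := by
  have hz : 0 < 1 - y := by linarith
  rw [le_div_iff₀ (by positivity)]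
  nlinarith [mul_nonneg (sq_nonneg y) (by linarith : (0:ℝ) ≤ 3 - 2 * y)]

/-- The bound on `h`. -/
lemma h_bound {a η y : ℝ} (ha0 : 0 ≤ a) (ha : a ≤ 1 / 2) (_hη0 : 0 ≤ η) (hη : η ≤ 1 / 4)
    (hy0 : 0 ≤ y) (hy1 : y < 1) :
    1 / (1 - a * y) ^ 2 - (1 - η) / (1 - y) ^ 2 ≤ η - 2 * (1 - a - η) * y := by
  have h1 := phi_convex ha0 (by linarith) hy0 hy1
  have h2 := phi_ge hy0 hy1
  have hz : 0 < 1 - y := by linarith
  have e1 : a / (1 - y) ^ 2 = a * (1 / (1 - y) ^ 2) := by ring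
  have e2 : (1 - η) / (1 - y) ^ 2 = (1 - η) * (1 / (1 - y) ^ 2) := by ring
  rw [e1] at h1
  rw [e2]
  set p := 1 / (1 - y) ^ 2
  nlinarith [mul_le_mul_of_nonneg_left h2 (by linarith : (0:ℝ) ≤ 1 - a - η)]

/-! ### The key inequality -/

theorem key_psi_aux (hθ0 : 0 ≤ θ) (hθ : θ ^ 2 ≤ 1 / 2) (hκ : 1 ≤ κ) (hη0 : 0 ≤ η) (hη : η ≤ 1 / 4)
    (hT0 : 0 ≤ T) (hT : T < 1) :
    Psi κ (θ * T) ≤
      Real.exp (θ ^ 2 * (κ ^ 2 - 1) * (2 * η * Real.sqrt η)) *
        Psi (Real.sqrt (1 + (1 - η) * θ ^ 2 * (κ ^ 2 - 1))) T := by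
  -- notation
  have hθ1 : θ < 1 := by nlinarith
  set u := κ ^ 2 - 1 with hu
  have hu0 : 0 ≤ u := by rw [hu]; nlinarith
  set v := (1 - η) * θ ^ 2 * u with hv
  have hv0 : 0 ≤ v := by rw [hv]; have : 0 ≤ 1 - η := by linarith
                         positivity
  set κ' := Real.sqrt (1 + v) with hκ'
  have hκ'1 : 1 ≤ κ' := Real.one_le_sqrt.2 (by linarith)
  have hκ'2 : κ' ^ 2 - 1 = v := by
    rw [hκ', Real.sq_sqrt (by linarith)]; ring
  -- domain facts
  have hdom : ∀ s, 0 ≤ s → s < 1 → |s| < 1 ∧ |θ * s| < 1 := by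
    intro s hs0 hs1
    have h1 : |s| < 1 := by rw [abs_of_nonneg hs0]; exact hs1
    have h2 : |θ * s| < 1 := by
      rw [abs_of_nonneg (mul_nonneg hθ0 hs0)]
      nlinarith
    exact ⟨h1, h2⟩
  set A : ℝ → ℝ := fun s => Psi κ (θ * s) with hA
  set B : ℝ → ℝ := fun s => Psi κ' s with hB
  set A' : ℝ → ℝ := fun s => θ * dPsi κ (θ * s) with hA'
  set B' : ℝ → ℝ := fun s => dPsi κ' s with hB'
  have hApos : ∀ s, 0 ≤ s → s < 1 → 0 < A s := fun s hs0 hs1 => Psi_pos κ (hdom s hs0 hs1).2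
  have hBpos : ∀ s, 0 ≤ s → s < 1 → 0 < B s := fun s hs0 hs1 => Psi_pos κ' (hdom s hs0 hs1).1
  have hAmono : ∀ s t, 0 ≤ s → s ≤ t → t < 1 → A s ≤ A t := by
    intro s t hs0 hst ht
    refine Psi_mono hκ (mul_nonneg hθ0 hs0) (mul_le_mul_of_nonneg_left hst hθ0) ?_
    nlinarith
  have hBmono : ∀ s t, 0 ≤ s → s ≤ t → t < 1 → B s ≤ B t :=
    fun s t hs0 hst ht => Psi_mono hκ'1 hs0 hst ht
  have hid : ∀ s : ℝ, HasDerivAt (fun r : ℝ => θ * r) θ s := fun s => by
    simpa using (hasDerivAt_id s).const_mul θ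
  have hdA : ∀ s, 0 ≤ s → s < 1 → HasDerivAt A (A' s) s := by
    intro s hs0 hs1
    have h := (hasDerivAt_Psi_d κ (hdom s hs0 hs1).2).comp s (hid s)
    have h2 : HasDerivAt A (dPsi κ (θ * s) * θ) s := h
    refine h2.congr_deriv ?_
    simp only [hA']
    ring
  have hdB : ∀ s, 0 ≤ s → s < 1 → HasDerivAt B (B' s) s :=
    fun s hs0 hs1 => hasDerivAt_Psi_d κ' (hdom s hs0 hs1).1
  have hdA' : ∀ s, 0 ≤ s → s < 1 →
      HasDerivAt A' (θ ^ 2 * u * A s / (1 - θ ^ 2 * s ^ 2) ^ 2) s := by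
    intro s hs0 hs1
    have h := (hasDerivAt_dPsi κ (hdom s hs0 hs1).2).comp s (hid s)
    have h2 : HasDerivAt (fun r => dPsi κ (θ * r)) _ s := h
    have h3 := h2.const_mul θ
    refine h3.congr_deriv ?_
    simp only [hA, mul_pow]
    ring
  have hdB' : ∀ s, 0 ≤ s → s < 1 →
      HasDerivAt B' (v * B s / (1 - s ^ 2) ^ 2) s := by
    intro s hs0 hs1
    have h := hasDerivAt_dPsi κ' (hdom s hs0 hs1).1
    refine h.congr_deriv ?_
    rw [hκ'2]
  -- the Wronskian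
  set W : ℝ → ℝ := fun s => A' s * B s - A s * B' s with hW
  have hW0 : W 0 = 0 := by
    simp only [hW, hA', hB', mul_zero, dPsi_zero]
    ring
  set c₀ := θ ^ 2 * u with hc₀
  have hc₀0 : 0 ≤ c₀ := by positivity
  have hdW : ∀ s, 0 ≤ s → s < 1 → HasDerivAt W
      (A s * B s * c₀ * (1 / (1 - θ ^ 2 * s ^ 2) ^ 2 - (1 - η) / (1 - s ^ 2) ^ 2)) s := by
    intro s hs0 hs1
    have h := ((hdA' s hs0 hs1).fun_mul (hdB s hs0 hs1)).fun_sub
      ((hdA s hs0 hs1).fun_mul (hdB' s hs0 hs1))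
    refine h.congr_deriv ?_
    have h1 : 1 - s ^ 2 ≠ 0 := (one_sub_sq_pos (hdom s hs0 hs1).1).ne'
    have h2 : 1 - θ ^ 2 * s ^ 2 ≠ 0 := by
      have := one_sub_sq_pos (hdom s hs0 hs1).2
      rw [mul_pow] at this
      exact this.ne'
    rw [hv, hc₀]
    field_simp
    ring
  -- the parameters
  set lam := 2 * (1 - θ ^ 2 - η) with hlam
  have hlam12 : 1 / 2 ≤ lam := by rw [hlam]; nlinarith
  have hlam0 : 0 < lam := by linarith
  set T₀ := Real.sqrt (η / lam) with hT₀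
  have hT₀0 : 0 ≤ T₀ := Real.sqrt_nonneg _
  have hT₀sq : T₀ ^ 2 = η / lam := Real.sq_sqrt (by positivity)
  have hh : ∀ s, 0 ≤ s → s < 1 →
      1 / (1 - θ ^ 2 * s ^ 2) ^ 2 - (1 - η) / (1 - s ^ 2) ^ 2 ≤ η - lam * s ^ 2 := by
    intro s hs0 hs1
    have hss : s ^ 2 < 1 := by nlinarith
    exact h_bound (sq_nonneg θ) hθ hη0 hη (sq_nonneg s) hss
  set c := c₀ * η * T₀ with hc
  have hc0 : 0 ≤ c := by positivity
  -- bound for W
  have hWbound : ∀ t, 0 ≤ t → t < 1 → W t ≤ c * (A t * B t) := by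
    -- first on `[0, T₀]`
    have hfirst : ∀ t, 0 ≤ t → t < 1 → t ≤ T₀ → W t ≤ c₀ * η * t * (A t * B t) := by
      intro t ht0 ht1 htT
      have hM : 0 < A t * B t := mul_pos (hApos t ht0 ht1) (hBpos t ht0 ht1)
      have := sub_le_of_hasDerivAt (f := W) (C := (A t * B t) * c₀ * η) ht0
        (fun s hs => hdW s hs.1 (lt_of_le_of_lt hs.2 ht1))
        (fun s hs => by
          have hs1 := lt_of_le_of_lt hs.2 ht1
          have hAB : A s * B s ≤ A t * B t :=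
            mul_le_mul (hAmono s t hs.1 hs.2 ht1) (hBmono s t hs.1 hs.2 ht1)
              (hBpos s hs.1 hs1).le (hApos t ht0 ht1).le
          have hABpos : 0 < A s * B s := mul_pos (hApos s hs.1 hs1) (hBpos s hs.1 hs1)
          have h3 := hh s hs.1 hs1
          have h4 : 1 / (1 - θ ^ 2 * s ^ 2) ^ 2 - (1 - η) / (1 - s ^ 2) ^ 2 ≤ η := by
            have : 0 ≤ lam * s ^ 2 := by positivity
            linarith
          calc A s * B s * c₀ * (1 / (1 - θ ^ 2 * s ^ 2) ^ 2 - (1 - η) / (1 - s ^ 2) ^ 2)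
              ≤ A s * B s * c₀ * η :=
                mul_le_mul_of_nonneg_left h4 (by positivity)
            _ ≤ A t * B t * c₀ * η := by
                have : 0 ≤ c₀ * η := by positivity
                nlinarith)
      rw [hW0, sub_zero, sub_zero] at this
      calc W t ≤ A t * B t * c₀ * η * t := this
        _ = c₀ * η * t * (A t * B t) := by ring
    intro t ht0 ht1
    by_cases htT : t ≤ T₀
    · have h1 := hfirst t ht0 ht1 htT
      have hM : 0 < A t * B t := mul_pos (hApos t ht0 ht1) (hBpos t ht0 ht1)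
      have h2 : c₀ * η * t * (A t * B t) ≤ c₀ * η * T₀ * (A t * B t) := by
        have : 0 ≤ c₀ * η := by positivity
        apply mul_le_mul_of_nonneg_right _ hM.le
        exact mul_le_mul_of_nonneg_left htT this
      linarith
    · push Not at htT
      have hT₀1 : T₀ < 1 := lt_trans htT ht1
      have h1 := hfirst T₀ hT₀0 hT₀1 le_rfl
      have h2 := sub_le_of_hasDerivAt (f := W) (C := 0) htT.le
        (fun s hs => hdW s (hT₀0.trans hs.1) (lt_of_le_of_lt hs.2 ht1))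
        (fun s hs => by
          have hs0 := hT₀0.trans hs.1
          have hs1 := lt_of_le_of_lt hs.2 ht1
          have h3 := hh s hs0 hs1
          have h4 : η - lam * s ^ 2 ≤ 0 := by
            have h5 : T₀ ^ 2 ≤ s ^ 2 := pow_le_pow_left₀ hT₀0 hs.1 2
            have h6 : lam * T₀ ^ 2 = η := by rw [hT₀sq]; field_simp
            nlinarith
          have hABpos : 0 < A s * B s := mul_pos (hApos s hs0 hs1) (hBpos s hs0 hs1)
          exact mul_nonpos_of_nonneg_of_nonpos (by positivity) (h3.trans h4))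
      have hAB : A T₀ * B T₀ ≤ A t * B t :=
        mul_le_mul (hAmono T₀ t hT₀0 htT.le ht1) (hBmono T₀ t hT₀0 htT.le ht1)
          (hBpos T₀ hT₀0 hT₀1).le (hApos t ht0 ht1).le
      have h3 : c₀ * η * T₀ * (A T₀ * B T₀) ≤ c₀ * η * T₀ * (A t * B t) :=
        mul_le_mul_of_nonneg_left hAB (by positivity)
      have : W t ≤ W T₀ := by linarith
      linarith
  -- the logarithm
  set G : ℝ → ℝ := fun s => Real.log (A s) - Real.log (B s) with hG
  have hdG : ∀ s, 0 ≤ s → s < 1 → HasDerivAt G (W s / (A s * B s)) s := by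
    intro s hs0 hs1
    have h := ((hdA s hs0 hs1).log (hApos s hs0 hs1).ne').fun_sub
      ((hdB s hs0 hs1).log (hBpos s hs0 hs1).ne')
    refine h.congr_deriv ?_
    have h1 := (hApos s hs0 hs1).ne'
    have h2 := (hBpos s hs0 hs1).ne'
    simp only [hW]
    field_simp
  have hG0 : G 0 = 0 := by
    simp only [hG, hA, hB, mul_zero, Psi_at_zero, Real.log_one, sub_zero]
  have hGT := sub_le_of_hasDerivAt (f := G) (C := c) hT0
    (fun s hs => hdG s hs.1 (lt_of_le_of_lt hs.2 hT))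
    (fun s hs => by
      have hs1 := lt_of_le_of_lt hs.2 hT
      have hABpos : 0 < A s * B s := mul_pos (hApos s hs.1 hs1) (hBpos s hs.1 hs1)
      rw [div_le_iff₀ hABpos]
      exact hWbound s hs.1 hs1)
  rw [hG0, sub_zero, sub_zero] at hGT
  have hAT := hApos T hT0 hT
  have hBT := hBpos T hT0 hT
  have hGT2 : Real.log (A T) - Real.log (B T) ≤ c := by
    have : c * T ≤ c := by nlinarith
    exact (show G T ≤ c * T from hGT).trans this
  have hcle : c ≤ θ ^ 2 * u * (2 * η * Real.sqrt η) := by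
    have hT₀le : T₀ ≤ 2 * Real.sqrt η := by
      have h1 : η / lam ≤ 2 ^ 2 * η := by
        rw [div_le_iff₀ hlam0]
        nlinarith
      calc T₀ ≤ Real.sqrt (2 ^ 2 * η) := Real.sqrt_le_sqrt h1
        _ = 2 * Real.sqrt η := by
          rw [Real.sqrt_mul (by norm_num), Real.sqrt_sq (by norm_num)]
    calc c = c₀ * η * T₀ := rfl
      _ ≤ c₀ * η * (2 * Real.sqrt η) := mul_le_mul_of_nonneg_left hT₀le (by positivity)
      _ = θ ^ 2 * u * (2 * η * Real.sqrt η) := by rw [hc₀]; ring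
  have hlog : Real.log (A T) ≤ θ ^ 2 * u * (2 * η * Real.sqrt η) + Real.log (B T) := by linarith
  have hfin : A T ≤ Real.exp (θ ^ 2 * u * (2 * η * Real.sqrt η)) * B T := by
    calc A T = Real.exp (Real.log (A T)) := (Real.exp_log hAT).symm
      _ ≤ Real.exp (θ ^ 2 * u * (2 * η * Real.sqrt η) + Real.log (B T)) :=
          Real.exp_le_exp.2 hlog
      _ = Real.exp (θ ^ 2 * u * (2 * η * Real.sqrt η)) * B T := by
          rw [Real.exp_add, Real.exp_log hBT]
  exact hfin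

/-- **The key inequality.** -/
theorem key_psi (hθ0 : 0 ≤ θ) (hθ : θ ^ 2 ≤ 1 / 2) (hκ : 1 ≤ κ) (hη0 : 0 ≤ η) (hη : η ≤ 1 / 4) (hT : |T| < 1) :
    Psi κ (θ * T) ≤
      Real.exp (θ ^ 2 * (κ ^ 2 - 1) * (2 * η * Real.sqrt η)) *
        Psi (Real.sqrt (1 + (1 - η) * θ ^ 2 * (κ ^ 2 - 1))) T := by
  rcases le_total 0 T with h | h
  · exact key_psi_aux hθ0 hθ hκ hη0 hη h (by rwa [abs_of_nonneg h] at hT)
  · have h1 := key_psi_aux (T := -T) hθ0 hθ hκ hη0 hη (by linarith)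
      (by rw [abs_of_nonpos h] at hT; exact hT)
    rw [mul_neg, Psi_neg, Psi_neg] at h1
    exact h1

/-- Bound on a bounded field. -/
theorem Psi_le_of_abs_le (hκ : 1 ≤ κ) {lam : ℝ} (hlam0 : 0 ≤ lam) (hlam : lam ≤ 1 / 2) (hx : |x| ≤ lam) :
    Psi κ x ≤ Real.exp ((κ ^ 2 - 1) * lam ^ 2 / (2 * (1 - lam ^ 2) ^ 2)) := by
  -- reduce to `x ≥ 0`
  have hreduce : Psi κ x = Psi κ |x| := by
    rcases abs_cases x with ⟨h, _⟩ | ⟨h, _⟩
    · rw [h]
    · rw [h, Psi_neg]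
  rw [hreduce]
  set y := |x| with hy
  have hy0 : 0 ≤ y := abs_nonneg x
  have hlam1 : lam < 1 := by linarith
  have hdom : ∀ s ∈ Set.Icc (0 : ℝ) lam, |s| < 1 := by
    intro s hs
    rw [abs_of_nonneg hs.1]
    linarith [hs.2]
  have hl2 : 0 < 1 - lam ^ 2 := by nlinarith
  set a := (κ ^ 2 - 1) / (1 - lam ^ 2) ^ 2 with ha
  have hκ2 : 0 ≤ κ ^ 2 - 1 := by nlinarith
  have ha0 : 0 ≤ a := by positivity
  -- q = Ψ'/Ψ
  set q : ℝ → ℝ := fun s => dPsi κ s / Psi κ s with hq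
  have hdq : ∀ s ∈ Set.Icc (0 : ℝ) lam, HasDerivAt q
      ((κ ^ 2 - 1) / (1 - s ^ 2) ^ 2 - (q s) ^ 2) s := by
    intro s hs
    have hd := hdom s hs
    have hpos := Psi_pos κ hd
    have h := (hasDerivAt_dPsi κ hd).fun_div (hasDerivAt_Psi_d κ hd) hpos.ne'
    refine h.congr_deriv ?_
    have h1 := (one_sub_sq_pos hd).ne'
    simp only [hq]
    field_simp
  have hq0 : q 0 = 0 := by
    simp only [hq, dPsi_zero, zero_div]
  have hqle : ∀ s ∈ Set.Icc (0 : ℝ) lam, q s ≤ a * s := by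
    intro s hs
    have := sub_le_of_hasDerivAt (f := q) (C := a) hs.1
      (fun r hr => hdq r ⟨hr.1, hr.2.trans hs.2⟩)
      (fun r hr => by
        have hr' : r ∈ Set.Icc (0 : ℝ) lam := ⟨hr.1, hr.2.trans hs.2⟩
        have h1 : r ^ 2 ≤ lam ^ 2 := pow_le_pow_left₀ hr.1 hr'.2 2
        have h2 : (κ ^ 2 - 1) / (1 - r ^ 2) ^ 2 ≤ a := by
          rw [ha]
          apply div_le_div_of_nonneg_left hκ2 (by positivity)
          apply pow_le_pow_left₀ hl2.le
          linarith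
        nlinarith [sq_nonneg (q r)])
    rw [hq0, sub_zero, sub_zero] at this
    exact this
  -- the logarithm
  set L : ℝ → ℝ := fun s => Real.log (Psi κ s) - a * s ^ 2 / 2 with hL
  have hdL : ∀ s ∈ Set.Icc (0 : ℝ) lam, HasDerivAt L (q s - a * s) s := by
    intro s hs
    have hd := hdom s hs
    have hpos := Psi_pos κ hd
    have h1 := (hasDerivAt_Psi_d κ hd).log hpos.ne'
    have h2 : HasDerivAt (fun s : ℝ => a * s ^ 2 / 2) (a * s) s := by
      have h3 : HasDerivAt (fun y : ℝ => y ^ 2) (2 * s) s := by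
        simpa using hasDerivAt_pow 2 s
      refine ((h3.const_mul a).div_const 2).congr_deriv ?_
      ring
    exact h1.fun_sub h2
  have hyIcc : y ∈ Set.Icc (0 : ℝ) lam := ⟨hy0, hx⟩
  have hLy := sub_le_of_hasDerivAt (f := L) (C := 0) hy0
    (fun r hr => hdL r ⟨hr.1, hr.2.trans hx⟩)
    (fun r hr => by
      have := hqle r ⟨hr.1, hr.2.trans hx⟩
      linarith)
  have hL0 : L 0 = 0 := by
    simp only [hL, Psi_at_zero, Real.log_one]
    ring
  rw [hL0, sub_zero, zero_mul] at hLy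
  have hposy := Psi_pos κ (hdom y hyIcc)
  have hlog : Real.log (Psi κ y) ≤ (κ ^ 2 - 1) * lam ^ 2 / (2 * (1 - lam ^ 2) ^ 2) := by
    have h1 : Real.log (Psi κ y) ≤ a * y ^ 2 / 2 := by
      have : L y ≤ 0 := hLy
      simp only [hL] at this
      linarith
    have h2 : y ^ 2 ≤ lam ^ 2 := pow_le_pow_left₀ hy0 hx 2
    have h3 : a * y ^ 2 / 2 ≤ a * lam ^ 2 / 2 := by nlinarith
    have h4 : a * lam ^ 2 / 2 = (κ ^ 2 - 1) * lam ^ 2 / (2 * (1 - lam ^ 2) ^ 2) := by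
      rw [ha]; field_simp
    linarith
  calc Psi κ y = Real.exp (Real.log (Psi κ y)) := (Real.exp_log hposy).symm
    _ ≤ _ := Real.exp_le_exp.2 hlog

/-- Comparisons for the moment bounds. -/
theorem cosh_sub_one_le_Psi (hκ : 1 ≤ κ) (H : ℝ) :
    Real.cosh ((κ - 1) * H) ≤ Psi κ (Real.tanh H) := by
  rw [Psi_tanh, le_div_iff₀ (Real.cosh_pos H)]
  have h1 : κ * H = (κ - 1) * H + H := by ring
  rw [h1, Real.cosh_add]
  have h2 : 0 ≤ Real.sinh ((κ - 1) * H) * Real.sinh H := by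
    rcases le_total 0 H with h | h
    · exact mul_nonneg (Real.sinh_nonneg_iff.2 (mul_nonneg (by linarith) h)) (Real.sinh_nonneg_iff.2 h)
    · exact mul_nonneg_of_nonpos_of_nonpos
        (Real.sinh_nonpos_iff.2 (mul_nonpos_of_nonneg_of_nonpos (by linarith) h))
        (Real.sinh_nonpos_iff.2 h)
  linarith

/-- Comparison with the square of `T`: `1 + T²/2 ≤ Psi (√2) T`. -/
theorem one_add_sq_le_Psi (hT : |T| < 1) : 1 + T ^ 2 / 2 ≤ Psi (Real.sqrt 2) T := by
  have hκ : 1 ≤ Real.sqrt 2 := Real.one_le_sqrt.2 (by norm_num)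
  have hκ2 : Real.sqrt 2 ^ 2 - 1 = 1 := by
    rw [Real.sq_sqrt (by norm_num)]; norm_num
  have hreduce : Psi (Real.sqrt 2) T = Psi (Real.sqrt 2) |T| := by
    rcases abs_cases T with ⟨h, _⟩ | ⟨h, _⟩
    · rw [h]
    · rw [h, Psi_neg]
  have hsq : T ^ 2 = |T| ^ 2 := (sq_abs T).symm
  rw [hreduce, hsq]
  set y := |T| with hy
  have hy0 : 0 ≤ y := abs_nonneg T
  have hdom : ∀ s, 0 ≤ s → s ≤ y → |s| < 1 := by
    intro s hs0 hs
    rw [abs_of_nonneg hs0]
    linarith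
  have hPsi1 : ∀ s, 0 ≤ s → s ≤ y → 1 ≤ Psi (Real.sqrt 2) s := by
    intro s hs0 hs
    have := Psi_mono hκ le_rfl hs0 (lt_of_le_of_lt hs hT)
    rwa [Psi_at_zero] at this
  -- `dPsi s ≥ s`
  have hd1 : ∀ s, 0 ≤ s → s ≤ y → s ≤ dPsi (Real.sqrt 2) s := by
    intro s hs0 hs
    have h := sub_le_of_hasDerivAt (f := fun r => r - dPsi (Real.sqrt 2) r)
      (f' := fun r => 1 - (Real.sqrt 2 ^ 2 - 1) * Psi (Real.sqrt 2) r / (1 - r ^ 2) ^ 2) (C := 0) hs0
      (fun r hr => ((hasDerivAt_id r).fun_sub (hasDerivAt_dPsi (Real.sqrt 2)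
        (hdom r hr.1 (hr.2.trans hs)))))
      (fun r hr => by
        have hr1 := hdom r hr.1 (hr.2.trans hs)
        have h1 := one_sub_sq_pos hr1
        have h2 := hPsi1 r hr.1 (hr.2.trans hs)
        rw [hκ2, one_mul, sub_nonpos, le_div_iff₀ (by positivity), one_mul]
        have h3 : (1 - r ^ 2) ^ 2 ≤ 1 := by nlinarith [sq_nonneg r]
        linarith)
    simp only [dPsi_zero, sub_zero, zero_mul] at h
    linarith
  have h := sub_le_of_hasDerivAt (f := fun r => 1 + r ^ 2 / 2 - Psi (Real.sqrt 2) r)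
    (f' := fun r => r - dPsi (Real.sqrt 2) r) (C := 0) hy0
    (fun r hr => by
      have h3 : HasDerivAt (fun y : ℝ => y ^ 2) (2 * r) r := by
        simpa using hasDerivAt_pow 2 r
      have h4 : HasDerivAt (fun y : ℝ => 1 + y ^ 2 / 2) r r := by
        refine ((h3.div_const 2).const_add 1).congr_deriv ?_
        ring
      exact h4.fun_sub (hasDerivAt_Psi_d (Real.sqrt 2) (hdom r hr.1 hr.2)))
    (fun r hr => by
      have := hd1 r hr.1 hr.2
      linarith)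
  simp only [Psi_at_zero] at h
  norm_num at h
  linarith

/-- `tanh H ≤ H` for `H ≥ 0`. -/
lemma tanh_le_self {H : ℝ} (hH : 0 ≤ H) : Real.tanh H ≤ H := by
  rw [Real.tanh_eq_sinh_div_cosh, div_le_iff₀ (Real.cosh_pos H)]
  have h := sub_le_of_hasDerivAt (f := fun r => Real.sinh r - r * Real.cosh r)
    (f' := fun r => - (r * Real.sinh r)) (C := 0) hH
    (fun r _ => by
      have h1 := Real.hasDerivAt_sinh r
      have h2 := (hasDerivAt_id r).fun_mul (Real.hasDerivAt_cosh r)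
      refine (h1.fun_sub h2).congr_deriv ?_
      simp only [id]
      ring)
    (fun r hr => by
      have := mul_nonneg hr.1 (Real.sinh_nonneg_iff.2 hr.1)
      linarith)
  simp only [Real.sinh_zero, zero_mul, sub_zero] at h
  linarith

/-- `|artanh z| ≥ |z|`, `z artanh z ≥ z²`. -/
theorem mul_artanh_ge (hx : |x| < 1) : x ^ 2 ≤ x * Real.artanh x := by
  set H := Real.artanh x with hH
  have hxH : x = Real.tanh H := (tanh_artanh' hx).symm
  rw [hxH]
  rcases le_total 0 H with h | h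
  · have h1 := tanh_le_self h
    have h2 := tanh_nonneg h
    nlinarith
  · have h1 := tanh_le_self (H := -H) (by linarith)
    have h2 := tanh_nonneg (a := -H) (by linarith)
    rw [Real.tanh_neg] at h1 h2
    nlinarith

/-- Derivative of `tanh`. -/
lemma hasDerivAt_tanh (s : ℝ) : HasDerivAt Real.tanh (1 - Real.tanh s ^ 2) s := by
  have hc := (Real.cosh_pos s).ne'
  have h := (Real.hasDerivAt_sinh s).fun_div (Real.hasDerivAt_cosh s) hc
  have h2 : Real.tanh = fun y => Real.sinh y / Real.cosh y := by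
    funext y; exact Real.tanh_eq_sinh_div_cosh y
  rw [h2]
  refine h.congr_deriv ?_
  field_simp

/-- `H - tanh H ≤ H³/3` for `H ≥ 0`. -/
lemma sub_tanh_le {H : ℝ} (hH : 0 ≤ H) : H - Real.tanh H ≤ H ^ 3 / 3 := by
  have h := sub_le_of_hasDerivAt (f := fun r => r - Real.tanh r - r ^ 3 / 3)
    (f' := fun r => Real.tanh r ^ 2 - r ^ 2) (C := 0) hH
    (fun r _ => by
      have h3 : HasDerivAt (fun y : ℝ => y ^ 3 / 3) (r ^ 2) r := by
        have h4 : HasDerivAt (fun y : ℝ => y ^ 3) (3 * r ^ 2) r := by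
          simpa using hasDerivAt_pow 3 r
        refine (h4.div_const 3).congr_deriv ?_
        ring
      refine (((hasDerivAt_id r).fun_sub (hasDerivAt_tanh r)).fun_sub h3).congr_deriv ?_
      ring)
    (fun r hr => by
      have h1 := tanh_le_self hr.1
      have h2 := tanh_nonneg hr.1
      nlinarith)
  simp only [Real.tanh_zero] at h
  norm_num at h
  linarith

/-- `H - tanh H ≤ H³/3`. -/
theorem tanh_mul_le (H : ℝ) : Real.tanh H * H ≤ Real.tanh H ^ 2 + H ^ 4 / 3 := by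
  have key : ∀ H : ℝ, 0 ≤ H → Real.tanh H * H ≤ Real.tanh H ^ 2 + H ^ 4 / 3 := by
    intro H hH
    have h1 := tanh_le_self hH
    have h2 := tanh_nonneg hH
    have h3 := sub_tanh_le hH
    have h4 : Real.tanh H * (H - Real.tanh H) ≤ H * (H ^ 3 / 3) :=
      mul_le_mul h1 h3 (by linarith) hH
    nlinarith
  rcases le_total 0 H with h | h
  · exact key H h
  · have := key (-H) (by linarith)
    rw [Real.tanh_neg] at this
    have e : (-H) ^ 4 = H ^ 4 := by ring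
    rw [e] at this
    nlinarith

lemma tanh_sq_mono {y z : ℝ} (h : |y| ≤ |z|) : Real.tanh y ^ 2 ≤ Real.tanh z ^ 2 := by
  have e : ∀ r : ℝ, Real.tanh r ^ 2 = Real.tanh |r| ^ 2 := by
    intro r
    rcases abs_cases r with ⟨h, _⟩ | ⟨h, _⟩
    · rw [h]
    · rw [h, Real.tanh_neg, neg_sq]
  rw [e y, e z]
  exact pow_le_pow_left₀ (tanh_nonneg (abs_nonneg y)) (tanh_le_tanh h) 2

theorem tanh_sq_add (a b : ℝ) : Real.tanh b ^ 2 ≤ Real.tanh (a + b) ^ 2 + Real.tanh (a - b) ^ 2 := by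
  have h2b : b = ((a + b) - (a - b)) / 2 := by ring
  have h1 : |b| ≤ (|a + b| + |a - b|) / 2 := by
    have h3 := abs_sub (a + b) (a - b)
    have h4 : a + b - (a - b) = 2 * b := by ring
    rw [h4, abs_mul, abs_of_pos (by norm_num : (0:ℝ) < 2)] at h3
    linarith
  rcases le_total |a + b| |a - b| with h | h
  · have := tanh_sq_mono (y := b) (z := a - b) (by linarith)
    nlinarith [sq_nonneg (Real.tanh (a + b))]
  · have := tanh_sq_mono (y := b) (z := a + b) (by linarith)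
    nlinarith [sq_nonneg (Real.tanh (a - b))]

end Crest.Agent.Lib.TI
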