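import Crest.Agent.Lib.TI.Gibbs
import Crest.Agent.Lib.TI.KeyPsi
import Crest.Agent.Lib.TI.Block

/-!
# Static estimates for the planted measure on subtrees (S0241 project, module TI.Static)

The vertex functions `g v s ω` are random, independent over the vertices, with mean one and symmetric under the flip.
`Zω n a b s = Zt G θ (g · · ω) n a b s` is the partition function of the subtree `subT n a b` with spin `s` at the root,
`rhoω = (Z₊ + Z₋)/2`, `Tω = (Z₊ - Z₋)/(Z₊ + Z₋)`; all statements are about integrals against `rhoω` (the law of the observations below `b`)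
or `Zω n a b s` (the law given the spin at `b`).

Recursion: `Z (n+1) a b s = g b s ∏_{d ∈ kids a b} Msg n b d s`, `Msg n b d s = ∑_{s'} ef θ s s' * Z n b d s' = rho n b d (1 + spin s θ T n b d)`.
-/

set_option autoImplicit false
set_option linter.unusedSectionVars false
set_option linter.unusedVariables false

namespace Crest.Agent.Lib.TI

open MeasureTheory Set Classical
open scoped unitInterval
open Crest.Agent.Lib.FiidPlanted

variable {V : Type*} {J : Type*} (G : SimpleGraph V) [G.LocallyFinite]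

/-- Independent symmetric mean-one experiments at the vertices. -/
structure Exper (bl : V → Set J) (Fl : Set J) (g : V → Bool → (J → I) → ℝ) : Prop where
  lb : ∃ c : ℝ, 0 < c ∧ ∀ v s ω, c ≤ g v s ω
  bm : ∀ v s, BM (g v s)
  dep : ∀ v s, DepS (g v s) (bl v)
  disj : ∀ v v', v ≠ v' → Disjoint (bl v) (bl v')
  mean : ∀ v s, ∫ ω, g v s ω ∂Lam J = 1
  flip : ∀ v s ω, g v s (flipS Fl ω) = g v (!s) ω

/-- Tilted products. -/
noncomputable def pw (κ x y : ℝ) : ℝ := x ^ ((1 + κ) / 2) * y ^ ((1 - κ) / 2)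

/-- Information and mgf bounds on the experiments. -/
structure ExpBd (g : V → Bool → (J → I) → ℝ) (τp τm : ℝ) : Prop where
  mgf : ∀ v, ∀ κ : ℝ, 1 ≤ κ → ∫ ω, pw κ (g v true ω) (g v false ω) ∂Lam J ≤ Real.exp (τp * (κ ^ 2 - 1) / 2)
  info : ∀ v, τm ≤ ∫ ω, g v true ω * (Real.log (g v true ω / g v false ω) / 2) ∂Lam J
  hell : ∀ v, ∫ ω, Real.sqrt (g v true ω * g v false ω) ∂Lam J ≤ Real.exp (-τm / 2)

variable (θ : ℝ) (g : V → Bool → (J → I) → ℝ)

/-- Rooted partition function as a random variable. -/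
noncomputable def Zω (n : ℕ) (a b : V) (s : Bool) (ω : J → I) : ℝ := Zt G θ (fun v s => g v s ω) n a b s

/-- Cavity field as a random variable. -/
noncomputable def Tω (n : ℕ) (a b : V) (ω : J → I) : ℝ := Tt G θ (fun v s => g v s ω) n a b

/-- Density. -/
noncomputable def rhoω (n : ℕ) (a b : V) (ω : J → I) : ℝ := (Zω G θ g n a b true ω + Zω G θ g n a b false ω) / 2

/-- Messages. -/
noncomputable def Msgω (n : ℕ) (b d : V) (s : Bool) (ω : J → I) : ℝ :=
  ∑ s' : Bool, ef θ s s' * Zω G θ g n b d s' ω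

/-- Expectation under the law of the observations below `b`. -/
noncomputable def Jt (n : ℕ) (a b : V) (F : (J → I) → ℝ) : ℝ := ∫ ω, rhoω G θ g n a b ω * F ω ∂Lam J

/-- Blocks of subtrees. -/
def subBl (bl : V → Set J) (n : ℕ) (a b : V) : Set J := ⋃ v ∈ subT G n a b, bl v

variable {G θ g} {bl : V → Set J} {Fl : Set J} {q : ℕ} {n : ℕ} {a b : V} {τp τm : ℝ}

section basicAux

private theorem g_pos (hE : Exper bl Fl g) (v : V) (s : Bool) (ω : J → I) : 0 < g v s ω := by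
  obtain ⟨c, hc, h⟩ := hE.lb
  exact lt_of_lt_of_le hc (h v s ω)

private theorem θ_abs (hθ : Adm θ) : |θ| < 1 := by
  rw [abs_of_nonneg hθ.nonneg]; exact hθ.lt_one

private theorem subBl_zero (a b : V) : subBl G bl 0 a b = bl b := by
  simp [subBl, subT]

private theorem bl_sub_subBl (n : ℕ) (a b : V) : bl b ⊆ subBl G bl (n + 1) a b := by
  intro j hj
  simp only [subBl, Set.mem_iUnion]
  exact ⟨b, by simp [subT], hj⟩

private theorem subBl_child_sub (n : ℕ) (a b : V) {d : V} (hd : d ∈ kids G a b) :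
    subBl G bl n b d ⊆ subBl G bl (n + 1) a b := by
  intro j hj
  simp only [subBl, Set.mem_iUnion] at hj ⊢
  obtain ⟨v, hv, hj⟩ := hj
  refine ⟨v, ?_, hj⟩
  simp only [subT, Finset.mem_insert, Finset.mem_biUnion]
  exact Or.inr ⟨d, hd, hv⟩

private theorem adj_of_kid {a b d : V} (hd : d ∈ kids G a b) : G.Adj b d := by
  have := (Finset.mem_erase.mp hd).2; simpa using this

private theorem Zω_pos_aux (hθ : Adm θ) (hE : Exper bl Fl g) (s : Bool) (ω : J → I) : 0 < Zω G θ g n a b s ω := by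
  have hef := ef_pos (θ_abs hθ)
  induction n generalizing a b s with
  | zero => exact g_pos hE _ _ _
  | succ n ih =>
    simp only [Zω, Zt]
    refine mul_pos (g_pos hE _ _ _) (Finset.prod_pos (fun d _ => ?_))
    exact Finset.sum_pos (fun s' _ => mul_pos (hef _ _) (ih _)) Finset.univ_nonempty

end basicAux

section basic

variable (hG : RegTree G q) (hθ : Adm θ) (hE : Exper bl Fl g)
include hG hθ hE

theorem Zω_pos (hab : G.Adj a b) (s : Bool) (ω : J → I) : 0 < Zω G θ g n a b s ω :=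
  Zω_pos_aux hθ hE s ω

theorem Zω_bm (s : Bool) : BM (Zω G θ g n a b s) := by
  induction n generalizing a b s with
  | zero => exact hE.bm b s
  | succ n ih =>
    have e : Zω G θ g (n + 1) a b s = fun ω => g b s ω * ∏ d ∈ kids G a b, ∑ s' : Bool, ef θ s s' * Zω G θ g n b d s' ω := rfl
    rw [e]
    refine (hE.bm b s).mul (BM.finset_prod _ (fun d _ => BM.finset_sum _ (fun s' _ => ?_)))
    exact (BM.const _).mul (ih (a := b) (b := d) (s := s'))

theorem Zω_dep (hab : G.Adj a b) (s : Bool) : DepS (Zω G θ g n a b s) (subBl G bl n a b) := by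
  clear hab
  induction n generalizing a b s with
  | zero =>
    simp only [subBl_zero (G := G) (bl := bl)]
    exact hE.dep b s
  | succ n ih =>
    intro ω ω' hω
    simp only [Zω, Zt]
    have h1 : g b s ω = g b s ω' := hE.dep b s ω ω' (fun j hj => hω j (bl_sub_subBl n a b hj))
    rw [h1]
    congr 1
    refine Finset.prod_congr rfl (fun d hd => Finset.sum_congr rfl (fun s' _ => ?_))
    congr 1
    exact ih (a := b) (b := d) (s := s') ω ω' (fun j hj => hω j (subBl_child_sub n a b hd hj))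

theorem Zω_flip (s : Bool) (ω : J → I) : Zω G θ g n a b s (flipS Fl ω) = Zω G θ g n a b (!s) ω := by
  induction n generalizing a b s with
  | zero => exact hE.flip b s ω
  | succ n ih =>
    simp only [Zω, Zt]
    rw [hE.flip b s ω]
    congr 1
    refine Finset.prod_congr rfl (fun d _ => ?_)
    have h1 : ∀ s' : Bool, Zt G θ (fun v s => g v s (flipS Fl ω)) n b d s' = Zt G θ (fun v s => g v s ω) n b d (!s') :=
      fun s' => ih (a := b) (b := d) (s := s')
    simp only [Fintype.sum_bool, h1, Bool.not_true, Bool.not_false]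
    simp only [ef, spin]
    cases s <;> simp <;> ring

/-- Blocks of different children are disjoint. -/
theorem subBl_disj (hab : G.Adj a b) {d d' : V} (hd : d ∈ kids G a b) (hd' : d' ∈ kids G a b) (hne : d ≠ d') (n : ℕ) :
    Disjoint (subBl G bl n b d) (subBl G bl n b d') := by
  have hbd : G.Adj b d := by
    have := (Finset.mem_erase.mp hd).2; simpa using this
  have hbd' : G.Adj b d' := by
    have := (Finset.mem_erase.mp hd').2; simpa using this
  rw [Set.disjoint_left]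
  intro j hj hj'
  simp only [subBl, Set.mem_iUnion] at hj hj'
  obtain ⟨v, hv, hjv⟩ := hj
  obtain ⟨v', hv', hjv'⟩ := hj'
  have hvv' : v = v' := by
    by_contra hc
    exact Set.disjoint_left.mp (hE.disj v v' hc) hjv hjv'
  subst hvv'
  have h1 := (mem_subT hG hbd n v).mp hv
  have h2 := (mem_subT hG hbd' n v).mp hv'
  exact hne (unique_step hG hbd h1.2.symm hbd' h2.2.symm)

theorem subBl_disj_root (hab : G.Adj a b) {d : V} (hd : d ∈ kids G a b) (n : ℕ) :
    Disjoint (bl b) (subBl G bl n b d) := by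
  have hbd : G.Adj b d := by
    have := (Finset.mem_erase.mp hd).2; simpa using this
  rw [Set.disjoint_left]
  intro j hj hj'
  simp only [subBl, Set.mem_iUnion] at hj'
  obtain ⟨v, hv, hjv⟩ := hj'
  have hvb : v = b := by
    by_contra hc
    exact Set.disjoint_left.mp (hE.disj b v (Ne.symm hc)) hj hjv
  subst hvb
  have h1 := (mem_subT hG hbd n v).mp hv
  simp at h1

/-- Measurability of the messages. -/
theorem Msgω_bm (s : Bool) : BM (Msgω G θ g n a b s) :=
  BM.finset_sum _ (fun s' _ => (BM.const _).mul (Zω_bm hG hθ hE s'))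

theorem Msgω_dep (hab : G.Adj a b) (s : Bool) : DepS (Msgω G θ g n a b s) (subBl G bl n a b) := by
  intro ω ω' hω
  simp only [Msgω]
  refine Finset.sum_congr rfl (fun s' _ => ?_)
  rw [Zω_dep hG hθ hE hab s' ω ω' hω]

theorem Msgω_pos (hab : G.Adj a b) (s : Bool) (ω : J → I) : 0 < Msgω G θ g n a b s ω :=
  Finset.sum_pos (fun s' _ => mul_pos (ef_pos (θ_abs hθ) _ _) (Zω_pos hG hθ hE hab s' ω)) Finset.univ_nonempty

/-- Independence of the root and of the children. -/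
theorem integral_node (hab : G.Adj a b) (s : Bool) {F₀ : (J → I) → ℝ} {F : V → (J → I) → ℝ} (hF₀ : BM F₀)
    (hF₀d : DepS F₀ (bl b)) (hF : ∀ d ∈ kids G a b, BM (F d)) (hFd : ∀ d ∈ kids G a b, DepS (F d) (subBl G bl n b d)) :
    ∫ ω, (g b s ω * F₀ ω) * ∏ d ∈ kids G a b, (Msgω G θ g n b d s ω * F d ω) ∂Lam J =
      (∫ ω, g b s ω * F₀ ω ∂Lam J) * ∏ d ∈ kids G a b, ∫ ω, Msgω G θ g n b d s ω * F d ω ∂Lam J := by
  have hf : ∀ d ∈ kids G a b, BM (fun ω => Msgω G θ g n b d s ω * F d ω) :=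
    fun d hd => (Msgω_bm hG hθ hE s).mul (hF d hd)
  have hdp : ∀ d ∈ kids G a b, DepS (fun ω => Msgω G θ g n b d s ω * F d ω) (subBl G bl n b d) :=
    fun d hd => (Msgω_dep hG hθ hE (adj_of_kid hd) s).mul (hFd d hd)
  rw [integral_mul_indep (B := bl b) (B' := ⋃ d ∈ kids G a b, subBl G bl n b d)
    ((hE.bm b s).mul hF₀) (BM.finset_prod _ hf) ((hE.dep b s).mul hF₀d) ?_ ?_]
  · rw [integral_prod_indep (kids G a b) hf hdp]
    intro d hd d' hd' hne
    exact subBl_disj hG hθ hE hab hd hd' hne n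
  · intro ω ω' hω
    refine Finset.prod_congr rfl (fun d hd => ?_)
    exact hdp d hd ω ω' (fun j hj => hω j (by
      simp only [Set.mem_iUnion]
      exact ⟨d, hd, hj⟩))
  · rw [Set.disjoint_left]
    intro j hj hj'
    simp only [Set.mem_iUnion] at hj'
    obtain ⟨d, hd, hjd⟩ := hj'
    exact Set.disjoint_left.mp (subBl_disj_root hG hθ hE hab hd n) hj hjd

theorem integral_Msgω_of_Z {a b : V} (s : Bool) (hZ : ∀ s', ∫ ω, Zω G θ g n a b s' ω ∂Lam J = 1) :
    ∫ ω, Msgω G θ g n a b s ω ∂Lam J = 1 := by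
  have hint : ∀ s' : Bool, Integrable (fun ω => ef θ s s' * Zω G θ g n a b s' ω) (Lam J) :=
    fun s' => ((BM.const _).mul (Zω_bm hG hθ hE s')).integrable _
  simp only [Msgω]
  rw [integral_finsetSum _ (fun s' _ => hint s')]
  simp only [integral_const_mul, hZ, mul_one, Fintype.sum_bool]
  exact ef_sum θ s

theorem integral_Zω (hab : G.Adj a b) (s : Bool) : ∫ ω, Zω G θ g n a b s ω ∂Lam J = 1 := by
  induction n generalizing a b s with
  | zero => exact hE.mean b s
  | succ n ih =>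
    have hnode := integral_node (n := n) hG hθ hE hab s (F₀ := fun _ => 1) (F := fun _ _ => 1)
      (BM.const 1) (DepS.const _ _) (fun _ _ => BM.const 1) (fun _ _ => DepS.const _ _)
    simp only [mul_one] at hnode
    have e : Zω G θ g (n + 1) a b s = fun ω => g b s ω * ∏ d ∈ kids G a b, Msgω G θ g n b d s ω := rfl
    rw [e, hnode, hE.mean b s, one_mul]
    refine Finset.prod_eq_one (fun d hd => ?_)
    exact integral_Msgω_of_Z hG hθ hE s (fun s' => ih (adj_of_kid hd) s')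

theorem integral_rhoω (hab : G.Adj a b) : ∫ ω, rhoω G θ g n a b ω ∂Lam J = 1 := by
  simp only [rhoω]
  rw [integral_div, integral_add ((Zω_bm hG hθ hE true).integrable _) ((Zω_bm hG hθ hE false).integrable _),
    integral_Zω hG hθ hE hab, integral_Zω hG hθ hE hab]
  norm_num

theorem abs_Tω_lt (hab : G.Adj a b) (ω : J → I) : |Tω G θ g n a b ω| < 1 := by
  have h1 := Zω_pos (n := n) hG hθ hE hab true ω
  have h2 := Zω_pos (n := n) hG hθ hE hab false ω
  simp only [Tω, Tt]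
  simp only [Zω] at h1 h2
  rw [abs_lt, lt_div_iff₀ (by linarith), div_lt_iff₀ (by linarith)]
  constructor <;> linarith

theorem Tω_bm : BM (Tω G θ g n a b) := by
  have h1 := (Zω_bm (n := n) (a := a) (b := b) hG hθ hE true)
  have h2 := (Zω_bm (n := n) (a := a) (b := b) hG hθ hE false)
  refine ⟨(h1.1.sub h2.1).div (h1.1.add h2.1), 1, fun ω => ?_⟩
  have hpos : ∀ s, 0 < Zω G θ g n a b s ω := fun s => Zω_pos_aux hθ hE s ω
  have h3 := hpos true
  have h4 := hpos false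
  simp only [Zω] at h3 h4
  show |Tt G θ (fun v s => g v s ω) n a b| ≤ 1
  simp only [Tt]
  rw [abs_le, le_div_iff₀ (by linarith), div_le_iff₀ (by linarith)]
  constructor <;> linarith

theorem Tω_dep (hab : G.Adj a b) : DepS (Tω G θ g n a b) (subBl G bl n a b) := by
  intro ω ω' hω
  have h1 := Zω_dep hG hθ hE hab true ω ω' hω
  have h2 := Zω_dep hG hθ hE hab false ω ω' hω
  simp only [Zω] at h1 h2
  simp only [Tω, Tt, h1, h2]

theorem Tω_flip (ω : J → I) : Tω G θ g n a b (flipS Fl ω) = - Tω G θ g n a b ω := by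
  have h1 := Zω_flip (n := n) (a := a) (b := b) (θ := θ) (G := G) hG hθ hE true ω
  have h2 := Zω_flip (n := n) (a := a) (b := b) (θ := θ) (G := G) hG hθ hE false ω
  simp only [Zω, Bool.not_true, Bool.not_false] at h1 h2
  simp only [Tω, Tt, h1, h2]
  rw [add_comm, ← neg_div, neg_sub]

theorem rhoω_flip (ω : J → I) : rhoω G θ g n a b (flipS Fl ω) = rhoω G θ g n a b ω := by
  have h1 := Zω_flip (n := n) (a := a) (b := b) (θ := θ) (G := G) hG hθ hE true ω
  have h2 := Zω_flip (n := n) (a := a) (b := b) (θ := θ) (G := G) hG hθ hE false ω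
  simp only [Bool.not_true, Bool.not_false] at h1 h2
  simp only [rhoω, h1, h2]
  rw [add_comm]

/-- The flip symmetry of the law of the cavity field. -/
theorem Jt_flip {F : ℝ → ℝ} (hF : Measurable F) (hab : G.Adj a b) :
    Jt G θ g n a b (fun ω => F (Tω G θ g n a b ω)) = Jt G θ g n a b (fun ω => F (- Tω G θ g n a b ω)) := by
  simp only [Jt]
  have hm : Measurable (fun ω => rhoω G θ g n a b ω * F (Tω G θ g n a b ω)) := by
    have h1 : Measurable (rhoω G θ g n a b) :=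
      (((Zω_bm hG hθ hE true).1).add ((Zω_bm hG hθ hE false).1)).div_const 2
    exact h1.mul (hF.comp (Tω_bm hG hθ hE).1)
  rw [← integral_flipS Fl hm]
  simp only [Tω_flip hG hθ hE, rhoω_flip hG hθ hE]

theorem Zω_succ (s : Bool) (ω : J → I) :
    Zω G θ g (n + 1) a b s ω = g b s ω * ∏ d ∈ kids G a b, Msgω G θ g n b d s ω := rfl

theorem Msgω_eq (hab : G.Adj a b) (s : Bool) (ω : J → I) :
    Msgω G θ g n a b s ω = rhoω G θ g n a b ω * (1 + spin s * (θ * Tω G θ g n a b ω)) := by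
  have h1 := Zω_pos (n := n) hG hθ hE hab true ω
  have h2 := Zω_pos (n := n) hG hθ hE hab false ω
  have hne : Zω G θ g n a b true ω + Zω G θ g n a b false ω ≠ 0 := by positivity
  simp only [Msgω, rhoω, Fintype.sum_bool, ef]
  have hT : Tω G θ g n a b ω = (Zω G θ g n a b true ω - Zω G θ g n a b false ω) /
      (Zω G θ g n a b true ω + Zω G θ g n a b false ω) := rfl
  rw [hT]
  cases s <;> simp [spin] <;> field_simp <;> ring

theorem Zω_eq (hab : G.Adj a b) (s : Bool) (ω : J → I) :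
    Zω G θ g n a b s ω = rhoω G θ g n a b ω * (1 + spin s * Tω G θ g n a b ω) := by
  have h1 := Zω_pos (n := n) hG hθ hE hab true ω
  have h2 := Zω_pos (n := n) hG hθ hE hab false ω
  have hne : Zω G θ g n a b true ω + Zω G θ g n a b false ω ≠ 0 := by positivity
  simp only [rhoω]
  have hT : Tω G θ g n a b ω = (Zω G θ g n a b true ω - Zω G θ g n a b false ω) /
      (Zω G θ g n a b true ω + Zω G θ g n a b false ω) := rfl
  rw [hT]
  cases s <;> simp [spin] <;> field_simp <;> ring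

theorem integral_Msgω (hab : G.Adj a b) (s : Bool) : ∫ ω, Msgω G θ g n a b s ω ∂Lam J = 1 :=
  integral_Msgω_of_Z hG hθ hE s (fun s' => integral_Zω hG hθ hE hab s')

/-- The cavity field at the parent in terms of those of the children. -/
theorem Tω_succ_artanh (hab : G.Adj a b) (ω : J → I) :
    Real.artanh (Tω G θ g (n + 1) a b ω) =
      Real.log (g b true ω / g b false ω) / 2 +
        ∑ d ∈ kids G a b, Real.artanh (θ * Tω G θ g n b d ω) := by
  -- general identity: artanh ((x - y) / (x + y)) = log (x / y) / 2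
  have hart : ∀ x y : ℝ, 0 < x → 0 < y → Real.artanh ((x - y) / (x + y)) = Real.log (x / y) / 2 := by
    intro x y hx hy
    have hmem : (x - y) / (x + y) ∈ Set.Icc (-1:ℝ) 1 := by
      rw [Set.mem_Icc, le_div_iff₀ (by linarith), div_le_iff₀ (by linarith)]
      constructor <;> linarith
    rw [Real.artanh_eq_half_log hmem]
    have hxy : x + y ≠ 0 := by positivity
    have e1 : 1 + (x - y) / (x + y) = 2 * x / (x + y) := by field_simp; ring
    have e2 : 1 - (x - y) / (x + y) = 2 * y / (x + y) := by field_simp; ring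
    have : (1 + (x - y) / (x + y)) / (1 - (x - y) / (x + y)) = x / y := by
      rw [e1, e2]
      field_simp
    rw [this]; ring
  have hZt := Zω_pos (n := n + 1) hG hθ hE hab true ω
  have hZf := Zω_pos (n := n + 1) hG hθ hE hab false ω
  have hT : Tω G θ g (n + 1) a b ω = (Zω G θ g (n + 1) a b true ω - Zω G θ g (n + 1) a b false ω) /
      (Zω G θ g (n + 1) a b true ω + Zω G θ g (n + 1) a b false ω) := rfl
  rw [hT, hart _ _ hZt hZf, Zω_succ hG hθ hE, Zω_succ hG hθ hE]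
  have hgt := g_pos hE b true ω
  have hgf := g_pos hE b false ω
  have hMt : ∀ d ∈ kids G a b, 0 < Msgω G θ g n b d true ω := fun d hd => Msgω_pos hG hθ hE (adj_of_kid hd) _ _
  have hMf : ∀ d ∈ kids G a b, 0 < Msgω G θ g n b d false ω := fun d hd => Msgω_pos hG hθ hE (adj_of_kid hd) _ _
  have hPt : 0 < ∏ d ∈ kids G a b, Msgω G θ g n b d true ω := Finset.prod_pos hMt
  have hPf : 0 < ∏ d ∈ kids G a b, Msgω G θ g n b d false ω := Finset.prod_pos hMf
  have e1 : (g b true ω * ∏ d ∈ kids G a b, Msgω G θ g n b d true ω) / (g b false ω * ∏ d ∈ kids G a b, Msgω G θ g n b d false ω) =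
      (g b true ω / g b false ω) * ∏ d ∈ kids G a b, (Msgω G θ g n b d true ω / Msgω G θ g n b d false ω) := by
    rw [Finset.prod_div_distrib, mul_div_mul_comm]
  rw [e1, Real.log_mul (by positivity) (ne_of_gt (Finset.prod_pos (fun d hd => div_pos (hMt d hd) (hMf d hd)))),
    Real.log_prod (fun d hd => ne_of_gt (div_pos (hMt d hd) (hMf d hd))), add_div, Finset.sum_div]
  congr 1
  refine Finset.sum_congr rfl (fun d hd => ?_)
  have hbd := adj_of_kid hd
  have h1 := Msgω_eq (n := n) hG hθ hE hbd true ω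
  have h2 := Msgω_eq (n := n) hG hθ hE hbd false ω
  have hTd := abs_Tω_lt (n := n) hG hθ hE hbd ω
  have hrho : 0 < rhoω G θ g n b d ω := by
    have h3 := Zω_pos (n := n) hG hθ hE hbd true ω
    have h4 := Zω_pos (n := n) hG hθ hE hbd false ω
    simp only [rhoω]; linarith
  set t := Tω G θ g n b d ω with ht
  have hθ1 := hθ.lt_one
  have hθ0 := hθ.nonneg
  have hθt : |θ * t| < 1 := by
    rw [abs_mul, abs_of_nonneg hθ0]
    have := abs_nonneg t
    nlinarith
  have hθt' := abs_lt.mp hθt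
  have hmem : θ * t ∈ Set.Icc (-1:ℝ) 1 := ⟨hθt'.1.le, hθt'.2.le⟩
  rw [Real.artanh_eq_half_log hmem, h1, h2]
  have hst : spin true = 1 := by simp [spin]
  have hsf : spin false = -1 := by simp [spin]
  rw [hst, hsf]
  have : rhoω G θ g n b d ω * (1 + 1 * (θ * t)) / (rhoω G θ g n b d ω * (1 + -1 * (θ * t))) =
      (1 + θ * t) / (1 - θ * t) := by
    rw [mul_div_mul_left _ _ hrho.ne']
    congr 1 <;> ring
  rw [this]; ring

end basic

/-! ### Moment generating functions -/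

namespace MgfAux

/-! ### Tilted products -/

section pwLemmas

theorem pw_smul (κ : ℝ) {r x y : ℝ} (hr : 0 < r) (hx : 0 ≤ x) (hy : 0 ≤ y) :
    pw κ (r * x) (r * y) = r * pw κ x y := by
  unfold pw
  rw [Real.mul_rpow hr.le hx, Real.mul_rpow hr.le hy]
  have h1 : r ^ ((1 + κ) / 2) * r ^ ((1 - κ) / 2) = r := by
    rw [← Real.rpow_add hr]
    have h2 : (1 + κ) / 2 + (1 - κ) / 2 = 1 := by ring
    rw [h2, Real.rpow_one]
  calc _ = (r ^ ((1 + κ) / 2) * r ^ ((1 - κ) / 2)) * (x ^ ((1 + κ) / 2) * y ^ ((1 - κ) / 2)) := by ring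
    _ = _ := by rw [h1]

theorem pw_mul (κ : ℝ) {x y x' y' : ℝ} (hx : 0 ≤ x) (hy : 0 ≤ y) (hx' : 0 ≤ x') (hy' : 0 ≤ y') :
    pw κ (x * x') (y * y') = pw κ x y * pw κ x' y' := by
  unfold pw
  rw [Real.mul_rpow hx hx', Real.mul_rpow hy hy']
  ring

theorem pw_prod {ι : Type*} (κ : ℝ) (s : Finset ι) {f h : ι → ℝ} (hf : ∀ i ∈ s, 0 ≤ f i) (hh : ∀ i ∈ s, 0 ≤ h i) :
    pw κ (∏ i ∈ s, f i) (∏ i ∈ s, h i) = ∏ i ∈ s, pw κ (f i) (h i) := by
  unfold pw
  rw [← Real.finsetProd_rpow s f hf, ← Real.finsetProd_rpow s h hh, ← Finset.prod_mul_distrib]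

theorem pw_pos (κ : ℝ) {x y : ℝ} (hx : 0 < x) (hy : 0 < y) : 0 < pw κ x y :=
  mul_pos (Real.rpow_pos_of_pos hx _) (Real.rpow_pos_of_pos hy _)

/-- The perspective identity behind `Psi`. -/
theorem mul_Psi_eq (κ : ℝ) {x y : ℝ} (hx : 0 < x) (hy : 0 < y) :
    ((x + y) / 2) * Psi κ ((x - y) / (x + y)) = (pw κ x y + pw κ y x) / 2 := by
  obtain ⟨u, rfl⟩ : ∃ u, x = Real.exp u := ⟨Real.log x, (Real.exp_log hx).symm⟩
  obtain ⟨v, rfl⟩ : ∃ v, y = Real.exp v := ⟨Real.log y, (Real.exp_log hy).symm⟩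
  obtain ⟨m, H, rfl, rfl⟩ : ∃ m H, u = m + H ∧ v = m - H := ⟨(u + v) / 2, (u - v) / 2, by ring, by ring⟩
  have hc := Real.cosh_pos H
  have hem := Real.exp_pos m
  have hT : (Real.exp (m + H) - Real.exp (m - H)) / (Real.exp (m + H) + Real.exp (m - H)) = Real.tanh H := by
    rw [Real.tanh_eq_sinh_div_cosh, Real.sinh_eq, Real.cosh_eq, sub_eq_add_neg m H, Real.exp_add, Real.exp_add]
    have : Real.exp m * Real.exp H - Real.exp m * Real.exp (-H) = 2 * Real.exp m * ((Real.exp H - Real.exp (-H)) / 2) := by ring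
    rw [this]
    have : Real.exp m * Real.exp H + Real.exp m * Real.exp (-H) = 2 * Real.exp m * ((Real.exp H + Real.exp (-H)) / 2) := by ring
    rw [this]
    rw [mul_div_mul_left _ _ (by positivity)]
  have hrho : (Real.exp (m + H) + Real.exp (m - H)) / 2 = Real.exp m * Real.cosh H := by
    rw [Real.cosh_eq, sub_eq_add_neg m H, Real.exp_add, Real.exp_add]
    ring
  have h1 : ∀ z w : ℝ, pw κ (Real.exp z) (Real.exp w) = Real.exp (z * ((1 + κ) / 2) + w * ((1 - κ) / 2)) := by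
    intro z w
    unfold pw
    rw [← Real.exp_mul, ← Real.exp_mul, ← Real.exp_add]
  rw [hT, hrho, Psi_tanh, h1, h1]
  have e1 : (m + H) * ((1 + κ) / 2) + (m - H) * ((1 - κ) / 2) = m + κ * H := by ring
  have e2 : (m - H) * ((1 + κ) / 2) + (m + H) * ((1 - κ) / 2) = m + -(κ * H) := by ring
  rw [e1, e2, Real.exp_add, Real.exp_add]
  rw [mul_assoc, mul_div_cancel₀ _ hc.ne', Real.cosh_eq]
  ring

end pwLemmas

theorem BM_rpow {f : (J → I) → ℝ} (hf : BM f) {c : ℝ} (hc : 0 < c) (hcf : ∀ ω, c ≤ f ω) (r : ℝ) :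
    BM (fun ω => f ω ^ r) := by
  obtain ⟨hm, C, hC⟩ := hf
  refine ⟨hm.pow_const r, c ^ r + C ^ r, fun ω => ?_⟩
  have h0 : 0 < f ω := hc.trans_le (hcf ω)
  rw [abs_of_pos (Real.rpow_pos_of_pos h0 r)]
  have hfC : f ω ≤ C := (le_abs_self _).trans (hC ω)
  have hCpos : 0 < C := h0.trans_le hfC
  rcases le_total 0 r with hr | hr
  · have := Real.rpow_le_rpow h0.le hfC hr
    have h2 := Real.rpow_pos_of_pos hc r
    linarith
  · have := Real.rpow_le_rpow_of_nonpos hc (hcf ω) hr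
    have h2 := Real.rpow_pos_of_pos hCpos r
    linarith

theorem BM_pw {f h : (J → I) → ℝ} (hf : BM f) (hh : BM h) {c : ℝ} (hc : 0 < c) (hcf : ∀ ω, c ≤ f ω) (hch : ∀ ω, c ≤ h ω)
    (κ : ℝ) : BM (fun ω => pw κ (f ω) (h ω)) :=
  (BM_rpow hf hc hcf _).mul (BM_rpow hh hc hch _)

theorem ef_nonneg' (hθ : Adm θ) (s s' : Bool) : 0 ≤ ef θ s s' := by
  have h1 := hθ.lt_one
  have h0 := hθ.nonneg
  unfold ef spin
  cases s <;> cases s' <;> simp <;> nlinarith

theorem ef_sum' (θ : ℝ) (s : Bool) : ∑ s' : Bool, ef θ s s' = 1 := by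
  unfold ef spin
  cases s <;> simp <;> ring

section lowerBounds

variable (hG : RegTree G q) (hθ : Adm θ) (hE : Exper bl Fl g)
include hG hθ hE

omit hG hE in
theorem Msgω_lb_of {n : ℕ} {b d : V} {c : ℝ} (h : ∀ s ω, c ≤ Zω G θ g n b d s ω) (s : Bool) (ω : J → I) :
    c ≤ Msgω G θ g n b d s ω := by
  unfold Msgω
  calc c = ∑ s' : Bool, ef θ s s' * c := by rw [← Finset.sum_mul, ef_sum', one_mul]
    _ ≤ _ := Finset.sum_le_sum fun s' _ => mul_le_mul_of_nonneg_left (h s' ω) (ef_nonneg' hθ s s')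

theorem Zω_lb (n : ℕ) : ∀ (a b : V), ∃ c : ℝ, 0 < c ∧ ∀ s ω, c ≤ Zω G θ g n a b s ω := by
  obtain ⟨c₀, hc₀, hc₀'⟩ := hE.lb
  induction n with
  | zero => exact fun a b => ⟨c₀, hc₀, fun s ω => hc₀' b s ω⟩
  | succ n ih =>
    intro a b
    choose c hc hc' using fun d => ih b d
    refine ⟨c₀ * ∏ d ∈ kids G a b, c d, mul_pos hc₀ (Finset.prod_pos fun d _ => hc d), fun s ω => ?_⟩
    rw [Zω_succ hG hθ hE]
    refine mul_le_mul (hc₀' b s ω) ?_ (Finset.prod_nonneg fun d _ => (hc d).le) (hc₀.le.trans (hc₀' b s ω))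
    exact Finset.prod_le_prod (fun d _ => (hc d).le) fun d _ => Msgω_lb_of hθ (hc' d) s ω

end lowerBounds

section identity

variable (hG : RegTree G q) (hθ : Adm θ) (hE : Exper bl Fl g)
include hG hθ hE

theorem rhoω_pos (hab : G.Adj a b) (ω : J → I) : 0 < rhoω G θ g n a b ω := by
  unfold rhoω
  have h1 := Zω_pos hG hθ hE (n := n) hab true ω
  have h2 := Zω_pos hG hθ hE (n := n) hab false ω
  linarith

theorem rhoω_bm : BM (rhoω G θ g n a b) := by
  have h : rhoω G θ g n a b = fun ω => (Zω G θ g n a b true ω + Zω G θ g n a b false ω) * (1 / 2) := by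
    funext ω
    unfold rhoω
    ring
  rw [h]
  exact ((Zω_bm hG hθ hE true).add (Zω_bm hG hθ hE false)).mul (BM.const _)

theorem Jt_Psi_eq_integral (hab : G.Adj a b) {κ c : ℝ} {P Q : (J → I) → ℝ} (hP : BM P) (hQ : BM Q) {c₀ : ℝ} (hc₀ : 0 < c₀)
    (hPl : ∀ ω, c₀ ≤ P ω) (hQl : ∀ ω, c₀ ≤ Q ω)
    (hPe : ∀ ω, P ω = rhoω G θ g n a b ω * (1 + c * Tω G θ g n a b ω))
    (hQe : ∀ ω, Q ω = rhoω G θ g n a b ω * (1 - c * Tω G θ g n a b ω)) :
    Jt G θ g n a b (fun ω => Psi κ (c * Tω G θ g n a b ω)) = ∫ ω, pw κ (P ω) (Q ω) ∂Lam J := by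
  have hrho : ∀ ω, 0 < rhoω G θ g n a b ω := rhoω_pos hG hθ hE hab
  have hP0 : ∀ ω, 0 < P ω := fun ω => hc₀.trans_le (hPl ω)
  have hQ0 : ∀ ω, 0 < Q ω := fun ω => hc₀.trans_le (hQl ω)
  have hp : ∀ ω, 0 < 1 + c * Tω G θ g n a b ω := fun ω => by
    have := hP0 ω
    rw [hPe ω] at this
    exact (mul_pos_iff_of_pos_left (hrho ω)).1 this
  have hq : ∀ ω, 0 < 1 - c * Tω G θ g n a b ω := fun ω => by
    have := hQ0 ω
    rw [hQe ω] at this
    exact (mul_pos_iff_of_pos_left (hrho ω)).1 this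
  have hF : Measurable (fun t : ℝ => pw κ (1 + c * t) (1 - c * t)) := by
    unfold pw
    fun_prop
  have hflip := Jt_flip hG hθ hE hF hab (n := n)
  have e1 : ∀ ω, rhoω G θ g n a b ω * pw κ (1 + c * Tω G θ g n a b ω) (1 - c * Tω G θ g n a b ω) = pw κ (P ω) (Q ω) := fun ω => by
    rw [hPe, hQe, pw_smul κ (hrho ω) (hp ω).le (hq ω).le]
  have e2 : ∀ ω, rhoω G θ g n a b ω * pw κ (1 + c * (- Tω G θ g n a b ω)) (1 - c * (- Tω G θ g n a b ω)) = pw κ (Q ω) (P ω) := fun ω => by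
    rw [hPe, hQe, pw_smul κ (hrho ω) (hq ω).le (hp ω).le]
    congr 2 <;> ring
  have e3 : ∀ ω, rhoω G θ g n a b ω * Psi κ (c * Tω G θ g n a b ω) = (pw κ (P ω) (Q ω) + pw κ (Q ω) (P ω)) / 2 := fun ω => by
    have h0 := mul_Psi_eq κ (hP0 ω) (hQ0 ω)
    have h1 : (P ω + Q ω) / 2 = rhoω G θ g n a b ω := by
      rw [hPe, hQe]
      ring
    have h2 : (P ω - Q ω) / (P ω + Q ω) = c * Tω G θ g n a b ω := by
      rw [hPe, hQe]
      have := (hrho ω).ne'
      field_simp
      ring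
    rw [h1, h2] at h0
    exact h0
  have h4 : ∫ ω, pw κ (P ω) (Q ω) ∂Lam J = ∫ ω, pw κ (Q ω) (P ω) ∂Lam J := by
    unfold Jt at hflip
    simp only [e1, e2] at hflip
    exact hflip
  have hi1 : Integrable (fun ω => pw κ (P ω) (Q ω)) (Lam J) := (BM_pw hP hQ hc₀ hPl hQl κ).integrable _
  have hi2 : Integrable (fun ω => pw κ (Q ω) (P ω)) (Lam J) := (BM_pw hQ hP hc₀ hQl hPl κ).integrable _
  unfold Jt
  simp only [e3]
  rw [integral_div, integral_add hi1 hi2, ← h4]
  ring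

theorem Jt_Psi_eq_Z (hab : G.Adj a b) (κ : ℝ) :
    Jt G θ g n a b (fun ω => Psi κ (Tω G θ g n a b ω)) =
      ∫ ω, pw κ (Zω G θ g n a b true ω) (Zω G θ g n a b false ω) ∂Lam J := by
  obtain ⟨c, hc, hc'⟩ := Zω_lb hG hθ hE n a b
  have := Jt_Psi_eq_integral hG hθ hE hab (n := n) (κ := κ) (c := 1) (Zω_bm hG hθ hE true) (Zω_bm hG hθ hE false) hc (hc' true) (hc' false)
    (fun ω => by rw [Zω_eq hG hθ hE hab, show spin true = 1 by simp [spin]])
    (fun ω => by rw [Zω_eq hG hθ hE hab, show spin false = -1 by simp [spin]]; ring)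
  simpa only [one_mul] using this

theorem Jt_Psi_eq_Msg (hab : G.Adj a b) (κ : ℝ) :
    Jt G θ g n a b (fun ω => Psi κ (θ * Tω G θ g n a b ω)) =
      ∫ ω, pw κ (Msgω G θ g n a b true ω) (Msgω G θ g n a b false ω) ∂Lam J := by
  obtain ⟨c, hc, hc'⟩ := Zω_lb hG hθ hE n a b
  exact Jt_Psi_eq_integral hG hθ hE hab (n := n) (κ := κ) (c := θ) (Msgω_bm hG hθ hE true) (Msgω_bm hG hθ hE false) hc
    (Msgω_lb_of hθ hc' true) (Msgω_lb_of hθ hc' false)
    (fun ω => by rw [Msgω_eq hG hθ hE hab, show spin true = 1 by simp [spin]]; ring)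
    (fun ω => by rw [Msgω_eq hG hθ hE hab, show spin false = -1 by simp [spin]]; ring)

omit hG hθ hE in
theorem kids_adj {a b d : V} (hd : d ∈ kids G a b) : G.Adj b d := by
  simpa [kids] using (Finset.mem_erase.1 hd).2

/-- Factorisation at the root. -/
theorem integral_pw_succ (hab : G.Adj a b) (κ : ℝ) :
    ∫ ω, pw κ (Zω G θ g (n + 1) a b true ω) (Zω G θ g (n + 1) a b false ω) ∂Lam J =
      (∫ ω, pw κ (g b true ω) (g b false ω) ∂Lam J) *
        ∏ d ∈ kids G a b, ∫ ω, pw κ (Msgω G θ g n b d true ω) (Msgω G θ g n b d false ω) ∂Lam J := by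
  have hkid : ∀ d ∈ kids G a b, G.Adj b d := fun d hd => kids_adj hd
  obtain ⟨c₀, hc₀, hc₀'⟩ := hE.lb
  have hMsg_lb : ∀ d, ∃ c, 0 < c ∧ ∀ s ω, c ≤ Msgω G θ g n b d s ω := fun d => by
    obtain ⟨c, hc, hc'⟩ := Zω_lb hG hθ hE n b d
    exact ⟨c, hc, Msgω_lb_of hθ hc'⟩
  choose cM hcM hcM' using hMsg_lb
  have hMpos : ∀ d s ω, 0 < Msgω G θ g n b d s ω := fun d s ω => (hcM d).trans_le (hcM' d s ω)
  have hgpos : ∀ s ω, 0 < g b s ω := fun s ω => hc₀.trans_le (hc₀' b s ω)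
  have e : ∀ ω, pw κ (Zω G θ g (n + 1) a b true ω) (Zω G θ g (n + 1) a b false ω) =
      pw κ (g b true ω) (g b false ω) * ∏ d ∈ kids G a b, pw κ (Msgω G θ g n b d true ω) (Msgω G θ g n b d false ω) := fun ω => by
    rw [Zω_succ hG hθ hE, Zω_succ hG hθ hE,
      pw_mul κ (hgpos _ _).le (hgpos _ _).le (Finset.prod_nonneg fun d _ => (hMpos d _ _).le)
        (Finset.prod_nonneg fun d _ => (hMpos d _ _).le),
      pw_prod κ _ (fun d _ => (hMpos d _ _).le) (fun d _ => (hMpos d _ _).le)]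
  simp only [e]
  have hφ : BM fun ω => pw κ (g b true ω) (g b false ω) :=
    BM_pw (hE.bm b true) (hE.bm b false) hc₀ (hc₀' b true) (hc₀' b false) κ
  have hW : ∀ d ∈ kids G a b, BM fun ω => pw κ (Msgω G θ g n b d true ω) (Msgω G θ g n b d false ω) := fun d _ =>
    BM_pw (Msgω_bm hG hθ hE true) (Msgω_bm hG hθ hE false) (hcM d) (hcM' d true) (hcM' d false) κ
  have hWd : ∀ d ∈ kids G a b, DepS (fun ω => pw κ (Msgω G θ g n b d true ω) (Msgω G θ g n b d false ω)) (subBl G bl n b d) :=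
    fun d hd ω ω' h => by
      simp only []
      rw [Msgω_dep hG hθ hE (hkid d hd) true ω ω' h, Msgω_dep hG hθ hE (hkid d hd) false ω ω' h]
  have hψ : BM fun ω => ∏ d ∈ kids G a b, pw κ (Msgω G θ g n b d true ω) (Msgω G θ g n b d false ω) :=
    BM.finset_prod _ hW
  have hφd : DepS (fun ω => pw κ (g b true ω) (g b false ω)) (bl b) := fun ω ω' h => by
    simp only []
    rw [hE.dep b true ω ω' h, hE.dep b false ω ω' h]
  have hψd : DepS (fun ω => ∏ d ∈ kids G a b, pw κ (Msgω G θ g n b d true ω) (Msgω G θ g n b d false ω))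
      (⋃ d ∈ kids G a b, subBl G bl n b d) := fun ω ω' h => by
    refine Finset.prod_congr rfl fun d hd => hWd d hd ω ω' fun j hj => h j ?_
    exact Set.mem_biUnion (Finset.mem_coe.2 hd) hj
  have hdis : Disjoint (bl b) (⋃ d ∈ kids G a b, subBl G bl n b d) := by
    simp only [Set.disjoint_iUnion_right]
    exact fun d hd => subBl_disj_root hG hθ hE hab hd n
  rw [integral_mul_indep hφ hψ hφd hψd hdis, integral_prod_indep _ hW hWd]
  intro d hd d' hd' hne
  exact subBl_disj hG hθ hE hab hd hd' hne n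

/-- The recursion of the mgf. -/
theorem Jt_succ_Psi (hab : G.Adj a b) (κ : ℝ) :
    Jt G θ g (n + 1) a b (fun ω => Psi κ (Tω G θ g (n + 1) a b ω)) =
      (∫ ω, pw κ (g b true ω) (g b false ω) ∂Lam J) *
        ∏ d ∈ kids G a b, Jt G θ g n b d (fun ω => Psi κ (θ * Tω G θ g n b d ω)) := by
  rw [Jt_Psi_eq_Z hG hθ hE hab, integral_pw_succ hG hθ hE hab]
  congr 1
  refine Finset.prod_congr rfl fun d hd => ?_
  rw [Jt_Psi_eq_Msg hG hθ hE (kids_adj hd)]

theorem abs_mul_Tω_lt (hab : G.Adj a b) (ω : J → I) : |θ * Tω G θ g n a b ω| < 1 := by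
  have h1 := abs_Tω_lt hG hθ hE (n := n) hab ω
  have h2 := hθ.lt_one
  rw [abs_mul, abs_of_nonneg hθ.nonneg]
  nlinarith [abs_nonneg (Tω G θ g n a b ω), hθ.nonneg]

theorem rho_Psi_bm (hab : G.Adj a b) (κ : ℝ) : BM (fun ω => rhoω G θ g n a b ω * Psi κ (Tω G θ g n a b ω)) := by
  obtain ⟨c, hc, hc'⟩ := Zω_lb hG hθ hE n a b
  have e : ∀ ω, rhoω G θ g n a b ω * Psi κ (Tω G θ g n a b ω) =
      (pw κ (Zω G θ g n a b true ω) (Zω G θ g n a b false ω) + pw κ (Zω G θ g n a b false ω) (Zω G θ g n a b true ω)) * (1 / 2) := fun ω => by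
    have := mul_Psi_eq κ (Zω_pos hG hθ hE (n := n) hab true ω) (Zω_pos hG hθ hE (n := n) hab false ω)
    rw [mul_one_div]
    exact this
  simp only [e]
  exact ((BM_pw (Zω_bm hG hθ hE true) (Zω_bm hG hθ hE false) hc (hc' true) (hc' false) κ).add
    (BM_pw (Zω_bm hG hθ hE false) (Zω_bm hG hθ hE true) hc (hc' false) (hc' true) κ)).mul (BM.const _)

theorem Jt_Psi_mul_nonneg (hab : G.Adj a b) (κ : ℝ) : 0 ≤ Jt G θ g n a b (fun ω => Psi κ (θ * Tω G θ g n a b ω)) := by
  unfold Jt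
  refine integral_nonneg fun ω => ?_
  exact mul_nonneg (rhoω_pos hG hθ hE hab ω).le (Psi_pos κ (abs_mul_Tω_lt hG hθ hE hab ω)).le

/-- The key inequality under the integral. -/
theorem Jt_key (hab : G.Adj a b) {κ η : ℝ} (hκ : 1 ≤ κ) (hη0 : 0 ≤ η) (hη : η ≤ 1 / 4) :
    Jt G θ g n a b (fun ω => Psi κ (θ * Tω G θ g n a b ω)) ≤
      Real.exp (θ ^ 2 * (κ ^ 2 - 1) * (2 * η * Real.sqrt η)) *
        Jt G θ g n a b (fun ω => Psi (Real.sqrt (1 + (1 - η) * θ ^ 2 * (κ ^ 2 - 1))) (Tω G θ g n a b ω)) := by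
  unfold Jt
  rw [← integral_const_mul]
  refine integral_mono_of_nonneg (Filter.Eventually.of_forall fun ω => ?_) (((rho_Psi_bm hG hθ hE hab _).integrable _).const_mul _)
    (Filter.Eventually.of_forall fun ω => ?_)
  · exact mul_nonneg (rhoω_pos hG hθ hE hab ω).le (Psi_pos κ (abs_mul_Tω_lt hG hθ hE hab ω)).le
  · have h1 := key_psi hθ.nonneg hθ.sq_le hκ hη0 hη (abs_Tω_lt hG hθ hE (n := n) hab ω)
    have h2 := mul_le_mul_of_nonneg_left h1 (rhoω_pos hG hθ hE (n := n) hab ω).le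
    calc _ ≤ _ := h2
      _ = _ := by ring

/-- One step of the recursion. -/
theorem Jt_step (hqθ : (q : ℝ) * θ ^ 2 ≤ 1) (hB : ExpBd g τp τm) (hab : G.Adj a b) {A : ℝ} (hA : 0 ≤ A) {η : ℝ} (hη0 : 0 ≤ η)
    (hη : η ≤ 1 / 4)
    (ih : ∀ d ∈ kids G a b, ∀ κ' : ℝ, 1 ≤ κ' → Jt G θ g n b d (fun ω => Psi κ' (Tω G θ g n b d ω)) ≤ Real.exp (A * (κ' ^ 2 - 1)))
    {κ : ℝ} (hκ : 1 ≤ κ) :
    Jt G θ g (n + 1) a b (fun ω => Psi κ (Tω G θ g (n + 1) a b ω)) ≤
      Real.exp ((τp / 2 + 2 * η * Real.sqrt η + (1 - η) * A) * (κ ^ 2 - 1)) := by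
  have hκ2 : 0 ≤ κ ^ 2 - 1 := by nlinarith
  have hs : 0 ≤ 2 * η * Real.sqrt η := by positivity
  obtain ⟨E, hE_def⟩ : ∃ E, E = 2 * η * Real.sqrt η + (1 - η) * A := ⟨_, rfl⟩
  have hE0 : 0 ≤ E := by
    rw [hE_def]
    exact add_nonneg hs (mul_nonneg (by linarith) hA)
  have hsq : 0 ≤ (1 - η) * θ ^ 2 * (κ ^ 2 - 1) := mul_nonneg (mul_nonneg (by linarith) (sq_nonneg _)) hκ2
  have child : ∀ d ∈ kids G a b, Jt G θ g n b d (fun ω => Psi κ (θ * Tω G θ g n b d ω)) ≤ Real.exp (θ ^ 2 * (κ ^ 2 - 1) * E) := fun d hd => by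
    have hbd := kids_adj hd
    have h1 := Jt_key hG hθ hE (n := n) hbd hκ hη0 hη
    have hκ'2 : Real.sqrt (1 + (1 - η) * θ ^ 2 * (κ ^ 2 - 1)) ^ 2 = 1 + (1 - η) * θ ^ 2 * (κ ^ 2 - 1) :=
      Real.sq_sqrt (by linarith)
    have hκ' : 1 ≤ Real.sqrt (1 + (1 - η) * θ ^ 2 * (κ ^ 2 - 1)) := Real.one_le_sqrt.2 (by linarith)
    have h2 := ih d hd _ hκ'
    refine h1.trans ((mul_le_mul_of_nonneg_left h2 (Real.exp_pos _).le).trans_eq ?_)
    rw [← Real.exp_add, hκ'2, hE_def]
    congr 1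
    ring
  have hprod : ∏ d ∈ kids G a b, Jt G θ g n b d (fun ω => Psi κ (θ * Tω G θ g n b d ω)) ≤
      Real.exp ((q : ℝ) * (θ ^ 2 * (κ ^ 2 - 1) * E)) := by
    calc _ ≤ ∏ _d ∈ kids G a b, Real.exp (θ ^ 2 * (κ ^ 2 - 1) * E) :=
          Finset.prod_le_prod (fun d hd => Jt_Psi_mul_nonneg hG hθ hE (kids_adj hd) κ) child
      _ = _ := by
          rw [Finset.prod_const, card_kids hG hab, ← Real.exp_nat_mul]
  have hprod' : Real.exp ((q : ℝ) * (θ ^ 2 * (κ ^ 2 - 1) * E)) ≤ Real.exp ((κ ^ 2 - 1) * E) := by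
    apply Real.exp_le_exp.2
    have := mul_le_mul_of_nonneg_right hqθ (mul_nonneg hκ2 hE0)
    calc _ = (q : ℝ) * θ ^ 2 * ((κ ^ 2 - 1) * E) := by ring
      _ ≤ _ := by linarith
  rw [Jt_succ_Psi hG hθ hE hab]
  calc _ ≤ Real.exp (τp * (κ ^ 2 - 1) / 2) * Real.exp ((κ ^ 2 - 1) * E) :=
        mul_le_mul (hB.mgf b κ hκ) (hprod.trans hprod')
          (Finset.prod_nonneg fun d hd => Jt_Psi_mul_nonneg hG hθ hE (kids_adj hd) κ) (Real.exp_pos _).le
    _ = _ := by
        rw [← Real.exp_add, hE_def]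
        congr 1
        ring

theorem Jt_zero_Psi (hB : ExpBd g τp τm) (hab : G.Adj a b) {κ : ℝ} (hκ : 1 ≤ κ) :
    Jt G θ g 0 a b (fun ω => Psi κ (Tω G θ g 0 a b ω)) ≤ Real.exp (τp * (κ ^ 2 - 1) / 2) := by
  rw [Jt_Psi_eq_Z hG hθ hE hab]
  exact hB.mgf b κ hκ

end identity

section momentsAux

variable (hG : RegTree G q) (hθ : Adm θ) (hE : Exper bl Fl g)
include hG hθ hE

/-- Exponential Markov: a function dominated by `C cosh (t H)` is controlled by the mgf bound. -/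
theorem Jt_le_of_cosh {B : ℝ} (hab : G.Adj a b)
    (hm : ∀ κ : ℝ, 1 ≤ κ → Jt G θ g n a b (fun ω => Psi κ (Tω G θ g n a b ω)) ≤ Real.exp (B * (κ ^ 2 - 1) / 2))
    {F : (J → I) → ℝ} {C t : ℝ} (hC : 0 ≤ C) (ht : 0 ≤ t) (hF0 : ∀ ω, 0 ≤ F ω)
    (hF : ∀ ω, F ω ≤ C * Real.cosh (t * Real.artanh (Tω G θ g n a b ω))) :
    Jt G θ g n a b F ≤ C * Real.exp (B * ((1 + t) ^ 2 - 1) / 2) := by
  have hκ : 1 ≤ 1 + t := by linarith
  have h1 : Jt G θ g n a b F ≤ C * Jt G θ g n a b (fun ω => Psi (1 + t) (Tω G θ g n a b ω)) := by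
    unfold Jt
    rw [← integral_const_mul]
    refine integral_mono_of_nonneg (Filter.Eventually.of_forall fun ω => ?_) (((rho_Psi_bm hG hθ hE hab _).integrable _).const_mul _)
      (Filter.Eventually.of_forall fun ω => ?_)
    · exact mul_nonneg (rhoω_pos hG hθ hE hab ω).le (hF0 ω)
    · have hT := abs_Tω_lt hG hθ hE (n := n) hab ω
      have h2 := cosh_sub_one_le_Psi hκ (Real.artanh (Tω G θ g n a b ω))
      rw [tanh_artanh' hT, show 1 + t - 1 = t by ring] at h2
      have h3 : F ω ≤ C * Psi (1 + t) (Tω G θ g n a b ω) := (hF ω).trans (mul_le_mul_of_nonneg_left h2 hC)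
      have h4 := mul_le_mul_of_nonneg_left h3 (rhoω_pos hG hθ hE (n := n) hab ω).le
      calc _ ≤ _ := h4
        _ = _ := by ring
  exact h1.trans (mul_le_mul_of_nonneg_left (hm _ hκ) hC)

end momentsAux

end MgfAux

section mgf

open MgfAux

variable (hG : RegTree G q) (hθ : Adm θ) (hqθ : (q : ℝ) * θ ^ 2 ≤ 1) (hE : Exper bl Fl g) (hB : ExpBd g τp τm) (hτ : 0 ≤ τp)
include hG hθ hqθ hE hB hτ

/-- The bound at depth `n` from the key inequality with `η = 0`. -/
theorem mgf_depth (hab : G.Adj a b) {κ : ℝ} (hκ : 1 ≤ κ) :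
    Jt G θ g n a b (fun ω => Psi κ (Tω G θ g n a b ω)) ≤ Real.exp ((n + 1) * τp * (κ ^ 2 - 1) / 2) := by
  induction n generalizing a b κ with
  | zero =>
    have := Jt_zero_Psi (θ := θ) hG hθ hE hB hab hκ
    simpa using this
  | succ n ih =>
    have h := Jt_step hG hθ hE hqθ hB hab (n := n) (A := ((n : ℝ) + 1) * τp / 2) (by positivity) (η := 0) le_rfl (by norm_num)
      (fun d hd κ' hκ' => by
        refine (ih (kids_adj hd) hκ').trans_eq ?_
        congr 1
        ring) hκ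
    refine h.trans_eq ?_
    congr 1
    push_cast
    ring

/-- **The bound uniform in the depth**, from the key inequality with `η = 9 r² / 16`. -/
theorem mgf_unif {r : ℝ} (hr0 : 0 ≤ r) (hr : r ≤ 2 / 3) (hτr : τp ≤ r ^ 3) (hab : G.Adj a b) {κ : ℝ} (hκ : 1 ≤ κ) :
    Jt G θ g n a b (fun ω => Psi κ (Tω G θ g n a b ω)) ≤ Real.exp (3 * r * (κ ^ 2 - 1)) := by
  have hκ2 : 0 ≤ κ ^ 2 - 1 := by nlinarith
  have hr3 : 0 ≤ r ^ 3 := by positivity
  induction n generalizing a b κ with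
  | zero =>
    refine (Jt_zero_Psi (θ := θ) hG hθ hE hB hab hκ).trans (Real.exp_le_exp.2 ?_)
    have hr2 : r ^ 2 ≤ 1 := by nlinarith
    have hr3' : r ^ 3 ≤ r := by
      calc r ^ 3 = r * r ^ 2 := by ring
        _ ≤ r * 1 := mul_le_mul_of_nonneg_left hr2 hr0
        _ = r := by ring
    have : τp / 2 ≤ 3 * r := by linarith
    calc τp * (κ ^ 2 - 1) / 2 = τp / 2 * (κ ^ 2 - 1) := by ring
      _ ≤ _ := mul_le_mul_of_nonneg_right this hκ2
  | succ n ih =>
    have hη : Real.sqrt (9 * r ^ 2 / 16) = 3 * r / 4 := by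
      rw [show 9 * r ^ 2 / 16 = (3 * r / 4) ^ 2 by ring]
      exact Real.sqrt_sq (by positivity)
    have hηle : 9 * r ^ 2 / 16 ≤ 1 / 4 := by nlinarith
    have h := Jt_step hG hθ hE hqθ hB hab (n := n) (A := 3 * r) (by positivity) (η := 9 * r ^ 2 / 16) (by positivity) hηle
      (fun d hd κ' hκ' => ih (kids_adj hd) hκ' (by nlinarith)) hκ
    refine h.trans (Real.exp_le_exp.2 ?_)
    apply mul_le_mul_of_nonneg_right _ hκ2
    rw [hη]
    nlinarith

end mgf

/-! ### Moments from the mgf bound -/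

section moments

open MgfAux

variable (hG : RegTree G q) (hθ : Adm θ) (hE : Exper bl Fl g)
include hG hθ hE

/-- Fourth moment from the mgf bound. -/
theorem fourth_moment {B : ℝ} (hB0 : 0 < B) (hB1 : B ≤ 1) (hab : G.Adj a b)
    (hm : ∀ κ : ℝ, 1 ≤ κ → Jt G θ g n a b (fun ω => Psi κ (Tω G θ g n a b ω)) ≤ Real.exp (B * (κ ^ 2 - 1) / 2)) :
    Jt G θ g n a b (fun ω => Real.artanh (Tω G θ g n a b ω) ^ 4) ≤ 108 * B ^ 2 := by
  obtain ⟨s, hs0, hs2⟩ : ∃ s : ℝ, 0 < s ∧ s ^ 2 = B := ⟨Real.sqrt B, Real.sqrt_pos.2 hB0, Real.sq_sqrt hB0.le⟩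
  have hs1 : s ≤ 1 := by nlinarith
  have hcosh : ∀ x : ℝ, x ^ 4 / 24 ≤ Real.cosh x := by
    intro x
    have h := le_hasSum (Real.hasSum_cosh x) 2 (fun i _ => by rw [pow_mul]; positivity)
    have e : ((2 * 2).factorial : ℝ) = 24 := by norm_num [Nat.factorial]
    rw [e] at h
    simpa using h
  have h := Jt_le_of_cosh hG hθ hE (n := n) hab hm (F := fun ω => Real.artanh (Tω G θ g n a b ω) ^ 4)
    (C := 24 * B ^ 2) (t := 1 / s) (by positivity) (by positivity) (fun ω => by positivity) (fun ω => by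
      have h1 := hcosh ((1 / s) * Real.artanh (Tω G θ g n a b ω))
      have h2 := mul_le_mul_of_nonneg_left h1 (by positivity : (0 : ℝ) ≤ 24 * B ^ 2)
      refine le_trans (le_of_eq ?_) h2
      rw [← hs2]
      field_simp)
  refine h.trans ?_
  have e : B * ((1 + 1 / s) ^ 2 - 1) / 2 = s + 1 / 2 := by
    rw [← hs2]
    field_simp
    ring
  rw [e]
  have hexp : Real.exp (3 / 2) ≤ 9 / 2 := by
    have h1 : Real.exp (3 / 2) ^ 2 = Real.exp 1 ^ 3 := by
      rw [← Real.exp_nat_mul, ← Real.exp_nat_mul]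
      congr 1
      norm_num
    have h2 : Real.exp 1 ^ 3 ≤ 2.7182818286 ^ 3 := pow_le_pow_left₀ (Real.exp_pos 1).le Real.exp_one_lt_d9.le 3
    have h3 : Real.exp (3 / 2) ^ 2 ≤ (9 / 2) ^ 2 := by
      rw [h1]
      refine h2.trans ?_
      norm_num
    exact (pow_le_pow_iff_left₀ (Real.exp_pos _).le (by norm_num) (by norm_num)).1 h3
  have h4 : Real.exp (s + 1 / 2) ≤ 9 / 2 := (Real.exp_le_exp.2 (by linarith)).trans hexp
  have h5 : 0 ≤ B ^ 2 := by positivity
  nlinarith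

/-- Tail bound from the mgf bound. -/
theorem tail_T {B : ℝ} (hB0 : 0 < B) (hB1 : B ≤ 1) (hab : G.Adj a b)
    (hm : ∀ κ : ℝ, 1 ≤ κ → Jt G θ g n a b (fun ω => Psi κ (Tω G θ g n a b ω)) ≤ Real.exp (B * (κ ^ 2 - 1) / 2))
    {p : ℝ} (hp : 1 ≤ p) :
    Jt G θ g n a b (fun ω => if 6 * B * p < Tω G θ g n a b ω ^ 2 then 1 else 0) ≤ 2 * Real.exp (-p) := by
  have hp0 : 0 < p := by linarith
  obtain ⟨y, hy0, hy2⟩ : ∃ y : ℝ, 0 < y ∧ y ^ 2 = 6 * B * p :=
    ⟨Real.sqrt (6 * B * p), Real.sqrt_pos.2 (by positivity), Real.sq_sqrt (by positivity)⟩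
  have ht0 : 0 ≤ 3 * p / y := by positivity
  have hty : 3 * p / y * y = 3 * p := by field_simp
  have h := Jt_le_of_cosh hG hθ hE (n := n) hab hm (F := fun ω => if 6 * B * p < Tω G θ g n a b ω ^ 2 then 1 else 0)
    (C := 2 * Real.exp (-(3 * p))) (t := 3 * p / y) (by positivity) ht0 (fun ω => by split_ifs <;> norm_num) (fun ω => by
      have hpos : 0 ≤ 2 * Real.exp (-(3 * p)) * Real.cosh (3 * p / y * Real.artanh (Tω G θ g n a b ω)) := by
        have := Real.cosh_pos (3 * p / y * Real.artanh (Tω G θ g n a b ω))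
        positivity
      split_ifs with hif
      · -- on the event
        have hT := abs_Tω_lt hG hθ hE (n := n) hab ω
        obtain ⟨H, hH⟩ : ∃ H, H = Real.artanh (Tω G θ g n a b ω) := ⟨_, rfl⟩
        have hTH : Tω G θ g n a b ω = Real.tanh H := by rw [hH, tanh_artanh' hT]
        rw [← hH]
        have hH2 : Real.tanh H ^ 2 ≤ H ^ 2 := by
          rcases le_total 0 H with h0 | h0
          · have h1 := tanh_le_self h0
            have h2 := tanh_nonneg h0
            nlinarith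
          · have h1 := tanh_le_self (by linarith : 0 ≤ -H)
            have h2 := tanh_nonneg (by linarith : 0 ≤ -H)
            rw [Real.tanh_neg] at h1 h2
            nlinarith
        rw [hTH] at hif
        have hyH : y < |H| := by
          have : y ^ 2 < |H| ^ 2 := by
            rw [sq_abs, hy2]
            linarith
          exact (pow_lt_pow_iff_left₀ hy0.le (abs_nonneg _) (by norm_num)).1 this
        have hc : Real.exp (3 * p) / 2 ≤ Real.cosh (3 * p / y * H) := by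
          have h1 : 3 * p ≤ |3 * p / y * H| := by
            rw [abs_mul, abs_of_nonneg ht0]
            calc 3 * p = 3 * p / y * y := hty.symm
              _ ≤ _ := mul_le_mul_of_nonneg_left hyH.le ht0
          rw [← Real.cosh_abs, Real.cosh_eq]
          have h2 := Real.exp_le_exp.2 h1
          have h3 := Real.exp_pos (-|3 * p / y * H|)
          linarith
        have h5 : Real.exp (-(3 * p)) * Real.exp (3 * p) = 1 := by
          rw [← Real.exp_add]
          simp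
        have h6 := mul_le_mul_of_nonneg_left hc (by positivity : (0 : ℝ) ≤ 2 * Real.exp (-(3 * p)))
        calc (1 : ℝ) = 2 * Real.exp (-(3 * p)) * (Real.exp (3 * p) / 2) := by
              rw [show 2 * Real.exp (-(3 * p)) * (Real.exp (3 * p) / 2) = Real.exp (-(3 * p)) * Real.exp (3 * p) by ring, h5]
          _ ≤ _ := h6
      · exact hpos)
  refine h.trans ?_
  rw [mul_assoc, ← Real.exp_add]
  refine mul_le_mul_of_nonneg_left (Real.exp_le_exp.2 ?_) (by norm_num)
  have e1 : B * (3 * p / y) ^ 2 = 3 * p / 2 := by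
    rw [div_pow, hy2]
    field_simp
    ring
  have e2 : B * (3 * p / y) ≤ 5 / 4 * p := by
    have h12 : 12 * B ≤ 5 * y := by
      have : (12 * B) ^ 2 ≤ (5 * y) ^ 2 := by
        rw [mul_pow 5 y, hy2]
        nlinarith [mul_pos hB0 hp0, mul_pos hB0 hB0, mul_le_mul_of_nonneg_left (by linarith : B ≤ p) hB0.le]
      exact (pow_le_pow_iff_left₀ (by positivity) (by positivity) (by norm_num)).1 this
    have : B * (3 * p / y) = (B * 3 * p) / y := by ring
    rw [this, div_le_iff₀ hy0]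
    nlinarith
  have e3 : B * ((1 + 3 * p / y) ^ 2 - 1) / 2 = B * (3 * p / y) + (B * (3 * p / y) ^ 2) / 2 := by ring
  rw [e3, e1]
  linarith

/-- Second moment from the mgf bound. -/
theorem second_moment {B : ℝ} (hB0 : 0 < B) (hB1 : B ≤ 1) (hab : G.Adj a b)
    (hm : ∀ κ : ℝ, 1 ≤ κ → Jt G θ g n a b (fun ω => Psi κ (Tω G θ g n a b ω)) ≤ Real.exp (B * (κ ^ 2 - 1) / 2)) :
    Jt G θ g n a b (fun ω => Tω G θ g n a b ω ^ 2) ≤ 4 * B := by
  have hκ : (1 : ℝ) ≤ Real.sqrt 2 := Real.one_le_sqrt.2 (by norm_num)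
  have hκ2 : Real.sqrt 2 ^ 2 - 1 = 1 := by
    rw [Real.sq_sqrt (by norm_num)]
    norm_num
  have h := hm _ hκ
  rw [hκ2, mul_one] at h
  have hrho := integral_rhoω hG hθ hE (n := n) hab
  have hi1 : Integrable (rhoω G θ g n a b) (Lam J) := (rhoω_bm hG hθ hE).integrable _
  have hi2 : Integrable (fun ω => rhoω G θ g n a b ω * Tω G θ g n a b ω ^ 2) (Lam J) := by
    have := (rhoω_bm hG hθ hE (n := n) (a := a) (b := b)).mul ((Tω_bm hG hθ hE (n := n) (a := a) (b := b)).mul (Tω_bm hG hθ hE (n := n) (a := a) (b := b)))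
    refine (this.integrable _).congr (Filter.Eventually.of_forall fun ω => ?_)
    simp only []
    ring
  have h1 : 1 + Jt G θ g n a b (fun ω => Tω G θ g n a b ω ^ 2) / 2 ≤
      Jt G θ g n a b (fun ω => Psi (Real.sqrt 2) (Tω G θ g n a b ω)) := by
    have e : 1 + Jt G θ g n a b (fun ω => Tω G θ g n a b ω ^ 2) / 2 =
        ∫ ω, (rhoω G θ g n a b ω + (rhoω G θ g n a b ω * Tω G θ g n a b ω ^ 2) * (1 / 2)) ∂Lam J := by
      rw [integral_add hi1 (hi2.mul_const _), hrho, integral_mul_const]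
      unfold Jt
      ring
    rw [e]
    unfold Jt
    refine integral_mono (hi1.add (hi2.mul_const _)) ((rho_Psi_bm hG hθ hE hab _).integrable _) fun ω => ?_
    have h2 := one_add_sq_le_Psi (abs_Tω_lt hG hθ hE (n := n) hab ω)
    have h3 := mul_le_mul_of_nonneg_left h2 (rhoω_pos hG hθ hE (n := n) hab ω).le
    calc _ = _ := by ring
      _ ≤ _ := h3
  have h2 : Real.exp (B / 2) ≤ 1 + 2 * B := by
    have h3 := Real.exp_bound_div_one_sub_of_interval (x := B / 2) (by positivity) (by linarith)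
    refine h3.trans ?_
    rw [div_le_iff₀ (by linarith)]
    nlinarith
  have h6 : B * 1 / 2 = B / 2 := by ring
  have h7 : Real.exp (B / 2) = Real.exp (B * 1 / 2) := by rw [h6]
  linarith [h.trans_eq (by rw [show B / 2 = B / 2 from rfl] : Real.exp (B / 2) = Real.exp (B / 2))]

end moments

/-! ### Lower bound on the energy -/

section lowerAux

private theorem measurable_artanh' : Measurable Real.artanh := by
  unfold Real.artanh
  fun_prop

private theorem artanh_sub_div_add {x y : ℝ} (hx : 0 < x) (hy : 0 < y) :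
    Real.artanh ((x - y) / (x + y)) = Real.log (x / y) / 2 := by
  have hxy : 0 < x + y := by positivity
  have hmem : (x - y) / (x + y) ∈ Icc (-1 : ℝ) 1 := by
    constructor
    · rw [le_div_iff₀ hxy]; linarith
    · rw [div_le_iff₀ hxy]; linarith
  rw [Real.artanh_eq_half_log hmem]
  have h1 : 1 + (x - y) / (x + y) = 2 * x / (x + y) := by field_simp; ring
  have h2 : 1 - (x - y) / (x + y) = 2 * y / (x + y) := by field_simp; ring
  rw [h1, h2]
  have h3 : 2 * x / (x + y) / (2 * y / (x + y)) = x / y := by field_simp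
  rw [h3]; ring

private theorem abs_artanh_mul_le {θ t : ℝ} (hθ : Adm θ) (ht : |t| < 1) :
    |Real.artanh (θ * t)| ≤ Real.artanh (3 / 4) := by
  have h34 := hθ.le
  have h0 := hθ.nonneg
  have habs : |θ * t| ≤ 3 / 4 := by
    rw [abs_mul, abs_of_nonneg h0]
    have := abs_nonneg t
    nlinarith
  obtain ⟨h1, h2⟩ := abs_le.mp habs
  by_cases hs : 0 ≤ θ * t
  · rw [abs_of_nonneg (Real.artanh_nonneg hs)]
    exact Real.artanh_le_artanh (by linarith) (by norm_num) h2
  · push Not at hs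
    rw [abs_of_nonpos (Real.artanh_nonpos hs.le), ← artanh_neg_eq]
    exact Real.artanh_le_artanh (by linarith) (by norm_num) (by linarith)

private theorem logR_bm (hE : Exper bl Fl g) (b : V) :
    BM (fun ω => Real.log (g b true ω / g b false ω) / 2) := by
  obtain ⟨c, hc, hlb⟩ := hE.lb
  obtain ⟨hm1, C1, hC1⟩ := hE.bm b true
  obtain ⟨hm2, C2, hC2⟩ := hE.bm b false
  refine ⟨((hm1.div hm2).log).div_const 2, (C1 / c + C2 / c) / 2, fun ω => ?_⟩
  have h1 : 0 < g b true ω := lt_of_lt_of_le hc (hlb _ _ _)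
  have h2 : 0 < g b false ω := lt_of_lt_of_le hc (hlb _ _ _)
  have h3 : g b true ω ≤ C1 := (le_abs_self _).trans (hC1 ω)
  have h4 : g b false ω ≤ C2 := (le_abs_self _).trans (hC2 ω)
  have hr : 0 < g b true ω / g b false ω := div_pos h1 h2
  have hu : g b true ω / g b false ω ≤ C1 / c :=
    div_le_div₀ (h1.le.trans h3) h3 hc (hlb _ _ _)
  have hv : g b false ω / g b true ω ≤ C2 / c :=
    div_le_div₀ (h2.le.trans h4) h4 hc (hlb _ _ _)
  have h5 : Real.log (g b true ω / g b false ω) ≤ C1 / c :=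
    (Real.log_le_self hr.le).trans hu
  have h6 : - Real.log (g b true ω / g b false ω) ≤ C2 / c := by
    rw [← Real.log_inv, inv_div]
    exact (Real.log_le_self (div_pos h2 h1).le).trans hv
  rw [abs_div, abs_of_pos (by norm_num : (0:ℝ) < 2)]
  have h7 : 0 ≤ C1 / c := hr.le.trans hu
  have h8 : 0 ≤ C2 / c := (div_pos h2 h1).le.trans hv
  apply div_le_div_of_nonneg_right _ (by norm_num)
  rw [abs_le]
  constructor <;> linarith

private theorem artanhθT_bm (hG : RegTree G q) (hθ : Adm θ) (hE : Exper bl Fl g) {n : ℕ} {a b : V}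
    (hab : G.Adj a b) : BM (fun ω => Real.artanh (θ * Tω G θ g n a b ω)) := by
  refine ⟨measurable_artanh'.comp ((Tω_bm hG hθ hE).1.const_mul θ), Real.artanh (3 / 4), fun ω => ?_⟩
  exact abs_artanh_mul_le hθ (abs_Tω_lt hG hθ hE hab ω)

private theorem artanhT_bm (hG : RegTree G q) (hθ : Adm θ) (hE : Exper bl Fl g) (n : ℕ) :
    ∀ a b : V, G.Adj a b → BM (fun ω => Real.artanh (Tω G θ g n a b ω)) := by
  obtain ⟨c, hc, hlb⟩ := hE.lb
  induction n with
  | zero =>
    intro a b hab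
    have h : (fun ω => Real.artanh (Tω G θ g 0 a b ω)) =
        fun ω => Real.log (g b true ω / g b false ω) / 2 := by
      funext ω
      have h1 : 0 < g b true ω := lt_of_lt_of_le hc (hlb _ _ _)
      have h2 : 0 < g b false ω := lt_of_lt_of_le hc (hlb _ _ _)
      have : Tω G θ g 0 a b ω = (g b true ω - g b false ω) / (g b true ω + g b false ω) := by
        simp [Tω, Tt, Zt]
      rw [this, artanh_sub_div_add h1 h2]
    rw [h]
    exact logR_bm hE b
  | succ n ih =>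
    intro a b hab
    have h : (fun ω => Real.artanh (Tω G θ g (n + 1) a b ω)) =
        fun ω => Real.log (g b true ω / g b false ω) / 2 +
          ∑ d ∈ kids G a b, Real.artanh (θ * Tω G θ g n b d ω) := by
      funext ω
      exact Tω_succ_artanh hG hθ hE hab ω
    rw [h]
    refine (logR_bm hE b).add (BM.finset_sum _ fun d hd => ?_)
    have hbd : G.Adj b d := by simpa [kids] using (Finset.mem_erase.1 hd).2
    exact artanhθT_bm hG hθ hE hbd

private theorem rhoω_bm (hG : RegTree G q) (hθ : Adm θ) (hE : Exper bl Fl g) {n : ℕ} {a b : V} :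
    BM (rhoω G θ g n a b) := by
  have h : rhoω G θ g n a b = fun ω => (1 / 2 : ℝ) * (Zω G θ g n a b true ω + Zω G θ g n a b false ω) := by
    funext ω; simp only [rhoω]; ring
  rw [h]
  exact (BM.const _).mul ((Zω_bm hG hθ hE true).add (Zω_bm hG hθ hE false))

private theorem rhoω_pos (hG : RegTree G q) (hθ : Adm θ) (hE : Exper bl Fl g) {n : ℕ} {a b : V}
    (hab : G.Adj a b) (ω : J → I) : 0 < rhoω G θ g n a b ω := by
  have h1 := Zω_pos hG hθ hE (n := n) hab true ω
  have h2 := Zω_pos hG hθ hE (n := n) hab false ω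
  simp only [rhoω]
  linarith

/-- The expectation of an odd function of the cavity field vanishes. -/
private theorem Jt_odd (hG : RegTree G q) (hθ : Adm θ) (hE : Exper bl Fl g) {n : ℕ} {a b : V}
    (hab : G.Adj a b) {F : ℝ → ℝ} (hF : Measurable F) (hodd : ∀ t, F (-t) = - F t) :
    Jt G θ g n a b (fun ω => F (Tω G θ g n a b ω)) = 0 := by
  have h := Jt_flip hG hθ hE (n := n) hF hab
  have h2 : Jt G θ g n a b (fun ω => F (- Tω G θ g n a b ω)) =
      - Jt G θ g n a b (fun ω => F (Tω G θ g n a b ω)) := by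
    simp only [Jt, hodd, mul_neg, integral_neg]
  linarith

private theorem ptw_upper {t : ℝ} (ht : |t| < 1) :
    t * Real.artanh t - Real.artanh t ^ 4 / 3 ≤ t ^ 2 := by
  have h := tanh_mul_le (Real.artanh t)
  rw [Real.tanh_artanh (mem_Ioo_of_abs ht)] at h
  linarith

private theorem ptw_lower {θ t : ℝ} (hθ : Adm θ) (ht : |t| < 1) :
    θ ^ 2 * (t * Real.artanh t - Real.artanh t ^ 4 / 3) ≤ (θ * t) * Real.artanh (θ * t) := by
  have h0 := hθ.nonneg
  have h1 := hθ.lt_one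
  have habs : |θ * t| < 1 := by
    rw [abs_mul, abs_of_nonneg h0]
    have := abs_nonneg t
    nlinarith
  have h2 := mul_artanh_ge habs
  have h3 := ptw_upper ht
  have h4 : θ ^ 2 * (t * Real.artanh t - Real.artanh t ^ 4 / 3) ≤ θ ^ 2 * t ^ 2 :=
    mul_le_mul_of_nonneg_left h3 (sq_nonneg _)
  calc _ ≤ θ ^ 2 * t ^ 2 := h4
    _ = (θ * t) ^ 2 := by ring
    _ ≤ _ := h2

end lowerAux

section lower

variable (hG : RegTree G q) (hθ : Adm θ) (hqθ : (q : ℝ) * θ ^ 2 ≤ 1) (hE : Exper bl Fl g) (hB : ExpBd g τp τm)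
include hG hθ hqθ hE hB

/-- `I = J[T artanh T]`. -/
noncomputable def Info (G : SimpleGraph V) [G.LocallyFinite] (θ : ℝ) (g : V → Bool → (J → I) → ℝ) (n : ℕ) (a b : V) : ℝ :=
  Jt G θ g n a b (fun ω => Tω G θ g n a b ω * Real.artanh (Tω G θ g n a b ω))

omit hqθ in
/-- The recursion for `I`. -/
theorem Info_succ (hab : G.Adj a b) :
    τm + ∑ d ∈ kids G a b, θ ^ 2 * (Info G θ g n b d -
        Jt G θ g n b d (fun ω => Real.artanh (Tω G θ g n b d ω) ^ 4) / 3) ≤ Info G θ g (n + 1) a b := by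
  have hadj : ∀ d ∈ kids G a b, G.Adj b d := fun d hd => by
    simpa [kids] using (Finset.mem_erase.1 hd).2
  -- `I` is the expectation of `artanh T` given the spin `+` at the root
  have hA : Info G θ g (n + 1) a b =
      ∫ ω, Zω G θ g (n + 1) a b true ω * Real.artanh (Tω G θ g (n + 1) a b ω) ∂Lam J := by
    have hodd := Jt_odd hG hθ hE (n := n + 1) hab measurable_artanh' artanh_neg_eq
    have hbmA := artanhT_bm hG hθ hE (n + 1) a b hab
    have hbmT := Tω_bm hG hθ hE (n := n + 1) (a := a) (b := b)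
    have hbmR := rhoω_bm hG hθ hE (n := n + 1) (a := a) (b := b)
    have hsplit : ∀ ω, Zω G θ g (n + 1) a b true ω * Real.artanh (Tω G θ g (n + 1) a b ω) =
        rhoω G θ g (n + 1) a b ω * Real.artanh (Tω G θ g (n + 1) a b ω) +
          rhoω G θ g (n + 1) a b ω * (Tω G θ g (n + 1) a b ω * Real.artanh (Tω G θ g (n + 1) a b ω)) := by
      intro ω
      rw [Zω_eq hG hθ hE hab true ω]
      simp only [spin, if_true]
      ring
    simp_rw [hsplit]
    rw [integral_add ((hbmR.mul hbmA).integrable _) ((hbmR.mul (hbmT.mul hbmA)).integrable _)]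
    unfold Jt at hodd
    rw [hodd, zero_add]
    rfl
  set L : (J → I) → ℝ := fun ω => Real.log (g b true ω / g b false ω) / 2 with hL
  have hLbm : BM L := logR_bm hE b
  have hLd : DepS L (bl b) := fun ω ω' h => by
    simp only [hL, hE.dep b true ω ω' h, hE.dep b false ω ω' h]
  set A : V → (J → I) → ℝ := fun d ω => Real.artanh (θ * Tω G θ g n b d ω) with hAdef
  have hAbm : ∀ d ∈ kids G a b, BM (A d) := fun d hd => artanhθT_bm hG hθ hE (hadj d hd)
  have hAd : ∀ d ∈ kids G a b, DepS (A d) (subBl G bl n b d) := fun d hd ω ω' h => by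
    simp only [hAdef, Tω_dep hG hθ hE (hadj d hd) ω ω' h]
  have hgbm : BM (g b true) := hE.bm b true
  have hMsgbm : ∀ d, BM (Msgω G θ g n b d true) := fun d => by
    have : Msgω G θ g n b d true = fun ω => ∑ s' : Bool, ef θ true s' * Zω G θ g n b d s' ω := by
      funext ω; rfl
    rw [this]
    exact BM.finset_sum _ fun s' _ => (BM.const _).mul (Zω_bm hG hθ hE s')
  -- expansion of the integrand
  have hptw : ∀ ω, Zω G θ g (n + 1) a b true ω * Real.artanh (Tω G θ g (n + 1) a b ω) =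
      (g b true ω * L ω) * ∏ d ∈ kids G a b, (Msgω G θ g n b d true ω * 1) +
        ∑ d₀ ∈ kids G a b, (g b true ω * 1) * ∏ d ∈ kids G a b,
          (Msgω G θ g n b d true ω * (if d = d₀ then A d ω else 1)) := by
    intro ω
    rw [Zω_succ hG hθ hE true ω, Tω_succ_artanh hG hθ hE hab ω]
    have h1 : ∀ d₀ ∈ kids G a b, (g b true ω * 1) * ∏ d ∈ kids G a b,
        (Msgω G θ g n b d true ω * (if d = d₀ then A d ω else 1)) =
          g b true ω * (∏ d ∈ kids G a b, Msgω G θ g n b d true ω) * A d₀ ω := by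
      intro d₀ hd₀
      rw [Finset.prod_mul_distrib, Finset.prod_ite_eq' (kids G a b) d₀ (fun d => A d ω), if_pos hd₀]
      ring
    rw [Finset.sum_congr rfl h1, ← Finset.mul_sum]
    simp only [mul_one, hL, hAdef]
    ring
  have hbm1 : BM (fun ω => (g b true ω * L ω) * ∏ d ∈ kids G a b, (Msgω G θ g n b d true ω * 1)) :=
    (hgbm.mul hLbm).mul (BM.finset_prod _ fun d _ => (hMsgbm d).mul (BM.const 1))
  have hF₀ : ∀ d₀ ∈ kids G a b, ∀ d ∈ kids G a b, BM (fun ω => if d = d₀ then A d ω else 1) := by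
    intro d₀ _ d hd
    by_cases h : d = d₀
    · simp only [h, if_true]; exact hAbm d₀ (h ▸ hd)
    · simp only [h, if_false]; exact BM.const 1
  have hbm2 : ∀ d₀ ∈ kids G a b, BM (fun ω => (g b true ω * 1) * ∏ d ∈ kids G a b,
      (Msgω G θ g n b d true ω * (if d = d₀ then A d ω else 1))) := fun d₀ hd₀ =>
    (hgbm.mul (BM.const 1)).mul (BM.finset_prod _ fun d hd => (hMsgbm d).mul (hF₀ d₀ hd₀ d hd))
  have hint : ∫ ω, Zω G θ g (n + 1) a b true ω * Real.artanh (Tω G θ g (n + 1) a b ω) ∂Lam J =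
      (∫ ω, g b true ω * L ω ∂Lam J) +
        ∑ d₀ ∈ kids G a b, ∫ ω, Msgω G θ g n b d₀ true ω * A d₀ ω ∂Lam J := by
    simp_rw [hptw]
    rw [integral_add (hbm1.integrable _)
      (integrable_finsetSum _ fun d₀ hd₀ => (hbm2 d₀ hd₀).integrable _),
      integral_finsetSum _ fun d₀ hd₀ => (hbm2 d₀ hd₀).integrable _]
    congr 1
    · rw [integral_node hG hθ hE (n := n) hab true (F₀ := L) (F := fun _ _ => 1) hLbm hLd
        (fun _ _ => BM.const 1) (fun _ _ => DepS.const 1 _)]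
      have : ∀ d ∈ kids G a b, ∫ ω, Msgω G θ g n b d true ω * 1 ∂Lam J = 1 := by
        intro d hd
        simp only [mul_one]
        exact integral_Msgω hG hθ hE (hadj d hd) true
      rw [Finset.prod_eq_one this, mul_one]
    · refine Finset.sum_congr rfl fun d₀ hd₀ => ?_
      rw [integral_node hG hθ hE (n := n) hab true (F₀ := fun _ => 1)
        (F := fun d ω => if d = d₀ then A d ω else 1) (BM.const 1) (DepS.const 1 _)
        (hF₀ d₀ hd₀) ?_]
      · have hm : ∫ ω, g b true ω * 1 ∂Lam J = 1 := by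
          simp only [mul_one]; exact hE.mean b true
        have hc : ∀ d ∈ kids G a b, ∫ ω, Msgω G θ g n b d true ω * (if d = d₀ then A d ω else 1) ∂Lam J =
            if d = d₀ then ∫ ω, Msgω G θ g n b d₀ true ω * A d₀ ω ∂Lam J else 1 := by
          intro d hd
          by_cases h : d = d₀
          · subst h; simp
          · simp only [h, if_false, mul_one]
            exact integral_Msgω hG hθ hE (hadj d hd) true
        rw [hm, one_mul, Finset.prod_congr rfl hc,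
          Finset.prod_ite_eq' (kids G a b) d₀ (fun _ => ∫ ω, Msgω G θ g n b d₀ true ω * A d₀ ω ∂Lam J), if_pos hd₀]
      · intro d hd
        by_cases h : d = d₀
        · subst h
          simp only [if_true]
          exact hAd d hd
        · simp only [h, if_false]
          exact DepS.const 1 _
  -- the children
  have hchild : ∀ d ∈ kids G a b, θ ^ 2 * (Info G θ g n b d -
        Jt G θ g n b d (fun ω => Real.artanh (Tω G θ g n b d ω) ^ 4) / 3) ≤
      ∫ ω, Msgω G θ g n b d true ω * A d ω ∂Lam J := by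
    intro d hd
    have hbd := hadj d hd
    have hodd := Jt_odd hG hθ hE (n := n) hbd (F := fun t => Real.artanh (θ * t))
      (measurable_artanh'.comp (measurable_const.mul measurable_id))
      (fun t => by rw [mul_neg, artanh_neg_eq])
    have hbmA := hAbm d hd
    have hbmT := Tω_bm hG hθ hE (n := n) (a := b) (b := d)
    have hbmR := rhoω_bm hG hθ hE (n := n) (a := b) (b := d)
    have hbmH := artanhT_bm hG hθ hE n b d hbd
    have hsplit : ∀ ω, Msgω G θ g n b d true ω * A d ω =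
        rhoω G θ g n b d ω * A d ω +
          rhoω G θ g n b d ω * ((θ * Tω G θ g n b d ω) * A d ω) := by
      intro ω
      rw [Msgω_eq hG hθ hE hbd true ω]
      simp only [spin, if_true]
      ring
    simp_rw [hsplit]
    rw [integral_add ((hbmR.mul hbmA).integrable _)
      ((hbmR.mul (((BM.const θ).mul hbmT).mul hbmA)).integrable _)]
    unfold Jt at hodd
    rw [show (∫ ω, rhoω G θ g n b d ω * A d ω ∂Lam J) = 0 from hodd, zero_add]
    have hbmX : BM (fun ω => rhoω G θ g n b d ω * (Tω G θ g n b d ω * Real.artanh (Tω G θ g n b d ω))) :=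
      hbmR.mul (hbmT.mul hbmH)
    have hbmY : BM (fun ω => rhoω G θ g n b d ω * Real.artanh (Tω G θ g n b d ω) ^ 4) := by
      have : BM (fun ω => Real.artanh (Tω G θ g n b d ω) ^ 4) := by
        have h := (hbmH.mul hbmH).mul (hbmH.mul hbmH)
        refine (show (fun ω => Real.artanh (Tω G θ g n b d ω) ^ 4) = _ from ?_) ▸ h
        funext ω; ring
      exact hbmR.mul this
    have hlin : θ ^ 2 * (Info G θ g n b d -
        Jt G θ g n b d (fun ω => Real.artanh (Tω G θ g n b d ω) ^ 4) / 3) =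
        ∫ ω, rhoω G θ g n b d ω * (θ ^ 2 * (Tω G θ g n b d ω * Real.artanh (Tω G θ g n b d ω) -
          Real.artanh (Tω G θ g n b d ω) ^ 4 / 3)) ∂Lam J := by
      have e : ∀ ω, rhoω G θ g n b d ω * (θ ^ 2 * (Tω G θ g n b d ω * Real.artanh (Tω G θ g n b d ω) -
          Real.artanh (Tω G θ g n b d ω) ^ 4 / 3)) =
          θ ^ 2 * (rhoω G θ g n b d ω * (Tω G θ g n b d ω * Real.artanh (Tω G θ g n b d ω))) -
            (θ ^ 2 / 3) * (rhoω G θ g n b d ω * Real.artanh (Tω G θ g n b d ω) ^ 4) := by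
        intro ω; ring
      simp_rw [e]
      rw [integral_sub (hbmX.integrable _ |>.const_mul _) (hbmY.integrable _ |>.const_mul _),
        integral_const_mul, integral_const_mul]
      simp only [Info, Jt]
      ring
    rw [hlin]
    refine integral_mono ?_ ?_ fun ω => ?_
    · exact (hbmR.mul ((BM.const _).mul ((hbmT.mul hbmH).sub
        ((show (fun ω => Real.artanh (Tω G θ g n b d ω) ^ 4 / 3) = fun ω =>
          (1 / 3 : ℝ) * (Real.artanh (Tω G θ g n b d ω) * Real.artanh (Tω G θ g n b d ω) *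
            (Real.artanh (Tω G θ g n b d ω) * Real.artanh (Tω G θ g n b d ω))) from by
            funext ω; ring) ▸ (BM.const _).mul ((hbmH.mul hbmH).mul (hbmH.mul hbmH)))))).integrable _
    · exact (hbmR.mul (((BM.const θ).mul hbmT).mul hbmA)).integrable _
    · exact mul_le_mul_of_nonneg_left (ptw_lower hθ (abs_Tω_lt hG hθ hE hbd ω))
        (rhoω_pos hG hθ hE hbd ω).le
  rw [hA, hint]
  have hinfo : τm ≤ ∫ ω, g b true ω * L ω ∂Lam J := hB.info b
  have hsum := Finset.sum_le_sum hchild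
  linarith

omit hqθ in
theorem T_sq_ge_Info (hab : G.Adj a b) :
    Info G θ g n a b - Jt G θ g n a b (fun ω => Real.artanh (Tω G θ g n a b ω) ^ 4) / 3 ≤
      Jt G θ g n a b (fun ω => Tω G θ g n a b ω ^ 2) := by
  have hbmT := Tω_bm hG hθ hE (n := n) (a := a) (b := b)
  have hbmR := rhoω_bm hG hθ hE (n := n) (a := a) (b := b)
  have hbmH := artanhT_bm hG hθ hE n a b hab
  have hbmX : BM (fun ω => rhoω G θ g n a b ω * (Tω G θ g n a b ω * Real.artanh (Tω G θ g n a b ω))) :=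
    hbmR.mul (hbmT.mul hbmH)
  have hbmY : BM (fun ω => rhoω G θ g n a b ω * Real.artanh (Tω G θ g n a b ω) ^ 4) := by
    have h := hbmR.mul ((hbmH.mul hbmH).mul (hbmH.mul hbmH))
    refine (show (fun ω => rhoω G θ g n a b ω * Real.artanh (Tω G θ g n a b ω) ^ 4) = _ from ?_) ▸ h
    funext ω; ring
  have hbmZ : BM (fun ω => rhoω G θ g n a b ω * Tω G θ g n a b ω ^ 2) := by
    have h := hbmR.mul (hbmT.mul hbmT)
    refine (show (fun ω => rhoω G θ g n a b ω * Tω G θ g n a b ω ^ 2) = _ from ?_) ▸ h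
    funext ω; ring
  have hmono : ∫ ω, rhoω G θ g n a b ω * (Tω G θ g n a b ω * Real.artanh (Tω G θ g n a b ω)) ∂Lam J ≤
      ∫ ω, (rhoω G θ g n a b ω * Tω G θ g n a b ω ^ 2 +
        (1 / 3) * (rhoω G θ g n a b ω * Real.artanh (Tω G θ g n a b ω) ^ 4)) ∂Lam J := by
    refine integral_mono (hbmX.integrable _)
      ((hbmZ.integrable _).add ((hbmY.integrable _).const_mul _)) fun ω => ?_
    have h := ptw_upper (abs_Tω_lt hG hθ hE (n := n) hab ω)
    have hr := (rhoω_pos hG hθ hE (n := n) hab ω).le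
    have := mul_le_mul_of_nonneg_left h hr
    simp only at this ⊢
    nlinarith
  rw [integral_add (hbmZ.integrable _) ((hbmY.integrable _).const_mul _), integral_const_mul] at hmono
  simp only [Info, Jt]
  linarith

/-- **Lower bound on the energy at depth `n₁`**: `τm / 2 * ∑_{i<n₁} (q θ²)^i - τm / 2`. The condition says that the fourth moments
at depths below `n₁` are negligible. -/
theorem energy_lower (hτ : 0 ≤ τp) (hτm : 0 ≤ τm) (hab : G.Adj a b) {n₁ : ℕ} (h1 : ((n₁ : ℝ) + 1) * τp ≤ 1)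
    (h2 : 36 * (((n₁ : ℝ) + 1) * τp) ^ 2 ≤ τm / 2) :
    τm / 2 * ∑ i ∈ Finset.range n₁, ((q : ℝ) * θ ^ 2) ^ i - τm / 2 ≤
      Jt G θ g n₁ a b (fun ω => Tω G θ g n₁ a b ω ^ 2) := by
  -- the fourth moments are negligible
  have hfour : ∀ n : ℕ, n ≤ n₁ → ∀ a' b' : V, G.Adj a' b' →
      Jt G θ g n a' b' (fun ω => Real.artanh (Tω G θ g n a' b' ω) ^ 4) / 3 ≤ τm / 2 := by
    intro n hn a' b' hab'
    have hnn : ((n : ℝ) + 1) ≤ (n₁ : ℝ) + 1 := by
      have : (n : ℝ) ≤ n₁ := by exact_mod_cast hn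
      linarith
    have hBle : ((n : ℝ) + 1) * τp ≤ ((n₁ : ℝ) + 1) * τp := mul_le_mul_of_nonneg_right hnn hτ
    have hall : ∀ B : ℝ, 0 < B → B ≤ 1 → ((n : ℝ) + 1) * τp ≤ B →
        Jt G θ g n a' b' (fun ω => Real.artanh (Tω G θ g n a' b' ω) ^ 4) ≤ 108 * B ^ 2 := by
      intro B hB0 hB1 hB2
      refine fourth_moment hG hθ hE hB0 hB1 hab' fun κ hκ => ?_
      refine (mgf_depth hG hθ hqθ hE hB hτ hab' hκ).trans (Real.exp_le_exp.2 ?_)
      have hk : 0 ≤ κ ^ 2 - 1 := by nlinarith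
      nlinarith [mul_le_mul_of_nonneg_right hB2 hk]
    by_cases hτ0 : τp = 0
    · -- the limit `B → 0`
      have hle : Jt G θ g n a' b' (fun ω => Real.artanh (Tω G θ g n a' b' ω) ^ 4) ≤ 0 := by
        by_contra hcon
        push Not at hcon
        set X := Jt G θ g n a' b' (fun ω => Real.artanh (Tω G θ g n a' b' ω) ^ 4) with hX
        set B := min 1 (X / 216) with hBdef
        have hB0 : 0 < B := lt_min one_pos (by positivity)
        have hB1 : B ≤ 1 := min_le_left _ _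
        have hB2 : B ≤ X / 216 := min_le_right _ _
        have h3 := hall B hB0 hB1 (by rw [hτ0, mul_zero]; exact hB0.le)
        nlinarith
      have : 0 ≤ τm / 2 := by positivity
      linarith
    · have hτpos : 0 < τp := lt_of_le_of_ne hτ (Ne.symm hτ0)
      have hBpos : 0 < ((n : ℝ) + 1) * τp := by positivity
      have h3 := hall _ hBpos (hBle.trans h1) le_rfl
      have h4 : (((n : ℝ) + 1) * τp) ^ 2 ≤ (((n₁ : ℝ) + 1) * τp) ^ 2 :=
        pow_le_pow_left₀ hBpos.le hBle 2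
      linarith
  -- induction on the depth
  have hind : ∀ n : ℕ, n ≤ n₁ → ∀ a' b' : V, G.Adj a' b' →
      τm / 2 * ∑ i ∈ Finset.range n, ((q : ℝ) * θ ^ 2) ^ i ≤ Info G θ g n a' b' := by
    intro n
    induction n with
    | zero =>
      intro _ a' b' hab'
      simp only [Finset.range_zero, Finset.sum_empty, mul_zero]
      refine integral_nonneg fun ω => ?_
      have hT := abs_Tω_lt hG hθ hE (n := 0) hab' ω
      have h5 := mul_artanh_ge hT
      exact mul_nonneg (rhoω_pos hG hθ hE hab' ω).le ((sq_nonneg _).trans h5)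
    | succ n ih =>
      intro hn a' b' hab'
      have hadj : ∀ d ∈ kids G a' b', G.Adj b' d := fun d hd => by
        simpa [kids] using (Finset.mem_erase.1 hd).2
      have hstep := Info_succ hG hθ hE hB (n := n) hab'
      set S := ∑ i ∈ Finset.range n, ((q : ℝ) * θ ^ 2) ^ i with hS
      have hS0 : 0 ≤ S := Finset.sum_nonneg fun i _ => pow_nonneg (by positivity) _
      have hterm : ∀ d ∈ kids G a' b', θ ^ 2 * (τm / 2 * S - τm / 2) ≤
          θ ^ 2 * (Info G θ g n b' d -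
            Jt G θ g n b' d (fun ω => Real.artanh (Tω G θ g n b' d ω) ^ 4) / 3) := by
        intro d hd
        have hn' : n ≤ n₁ := by omega
        have h5 := ih hn' b' d (hadj d hd)
        have h6 := hfour n hn' b' d (hadj d hd)
        exact mul_le_mul_of_nonneg_left (by linarith) (sq_nonneg _)
      have hsum := Finset.sum_le_sum hterm
      rw [Finset.sum_const, card_kids hG hab', nsmul_eq_mul] at hsum
      have hgeom : ∑ i ∈ Finset.range (n + 1), ((q : ℝ) * θ ^ 2) ^ i = (q : ℝ) * θ ^ 2 * S + 1 := by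
        rw [geom_sum_succ]
      rw [hgeom]
      have h7 : 0 ≤ τm * (1 - (q : ℝ) * θ ^ 2) := mul_nonneg hτm (by linarith)
      nlinarith
  have h5 := hind n₁ le_rfl a b hab
  have h6 := hfour n₁ le_rfl a b hab
  have h7 := T_sq_ge_Info hG hθ hE hB (n := n₁) hab
  linarith

end lower

/-! ### Shells -/

/-- The shell at depth `l` below `b` in the subtree of depth `n`. -/
noncomputable def Shs (G : SimpleGraph V) [G.LocallyFinite] (θ : ℝ) (g : V → Bool → ℝ) : ℕ → ℕ → V → V → ℝ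
  | 0, _, _, _ => 1
  | l + 1, n, a, b => ∑ d ∈ kids G a b, θ ^ 2 * om θ (Tt G θ g (n - 1) b d) ^ 2 * Shs G θ g l (n - 1) b d

/-- The shell as a random variable. -/
noncomputable def Shω (l n : ℕ) (a b : V) (ω : J → I) : ℝ := Shs G θ (fun v s => g v s ω) l n a b

/-- Attenuation by an off-path child: `ϖ = (1 - θ²) (1 - θ) θ² A / 2` with `A` a lower bound for the energy of all children at depth `n`. -/
noncomputable def varpi (θ A : ℝ) : ℝ := (1 - θ ^ 2) * (1 - θ) * θ ^ 2 * A / 2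

namespace ShellAux


theorem adj_of_mem_kids {a b d : V} (hd : d ∈ kids G a b) : G.Adj b d := by
  simpa [kids] using (Finset.mem_erase.1 hd).2

theorem Shω_zero (n : ℕ) (a b : V) (ω : J → I) : Shω (G := G) (θ := θ) (g := g) 0 n a b ω = 1 := rfl

theorem Shω_succ (l n : ℕ) (a b : V) (ω : J → I) :
    Shω (G := G) (θ := θ) (g := g) (l + 1) n a b ω =
      ∑ d ∈ kids G a b, θ ^ 2 * om θ (Tω G θ g (n - 1) b d ω) ^ 2 *
        Shω (G := G) (θ := θ) (g := g) l (n - 1) b d ω := rfl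

theorem Shω_nonneg' (l n : ℕ) (a b : V) (ω : J → I) : 0 ≤ Shω (G := G) (θ := θ) (g := g) l n a b ω := by
  induction l generalizing n a b with
  | zero => rw [Shω_zero]; exact zero_le_one
  | succ l ih =>
    rw [Shω_succ]
    exact Finset.sum_nonneg fun d _ => mul_nonneg (by positivity) (ih _ _ _)

theorem bm_exp_mul {φ : (J → I) → ℝ} (h : BM φ) (c : ℝ) : BM (fun ω => Real.exp (c * φ ω)) := by
  obtain ⟨hm, C, hC⟩ := h
  refine ⟨Real.measurable_exp.comp (measurable_const.mul hm), Real.exp (|c| * C), fun ω => ?_⟩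
  rw [abs_of_pos (Real.exp_pos _)]
  refine Real.exp_le_exp.2 ?_
  calc c * φ ω ≤ |c * φ ω| := le_abs_self _
    _ = |c| * |φ ω| := abs_mul _ _
    _ ≤ |c| * C := mul_le_mul_of_nonneg_left (hC ω) (abs_nonneg c)

theorem Y_nonneg (l m : ℕ) (a b : V) (ω : J → I) :
    0 ≤ om θ (Tω G θ g m a b ω) ^ 2 * Shω (G := G) (θ := θ) (g := g) l m a b ω :=
  mul_nonneg (sq_nonneg _) (Shω_nonneg' l m a b ω)

theorem measurable_artanh : Measurable Real.artanh := by
  unfold Real.artanh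
  fun_prop

section

variable (hG : RegTree G q) (hθ : Adm θ) (hE : Exper bl Fl g)
include hG hθ hE

theorem om_T_sq_le {b d : V} (hbd : G.Adj b d) (m : ℕ) (ω : J → I) : om θ (Tω G θ g m b d ω) ^ 2 ≤ 1 := by
  have h := (abs_Tω_lt hG hθ hE (n := m) hbd ω).le
  have h0 := om_nonneg hθ h
  have h1 := om_le_one hθ h
  nlinarith

theorem Msgω_bm (m : ℕ) (a b : V) (s : Bool) : BM (Msgω G θ g m a b s) := by
  unfold Msgω
  refine BM.finset_sum _ fun s' _ => ?_
  exact (BM.const _).mul (Zω_bm hG hθ hE s')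

theorem Msgω_dep {a b : V} (hab : G.Adj a b) (m : ℕ) (s : Bool) : DepS (Msgω G θ g m a b s) (subBl G bl m a b) := by
  intro ω ω' hω
  unfold Msgω
  refine Finset.sum_congr rfl fun s' _ => ?_
  rw [Zω_dep hG hθ hE hab s' ω ω' hω]

theorem abs_theta_lt : |θ| < 1 := by
  rw [abs_of_nonneg hθ.nonneg]
  exact hθ.lt_one

theorem Msgω_pos {a b : V} (hab : G.Adj a b) (m : ℕ) (s : Bool) (ω : J → I) : 0 < Msgω G θ g m a b s ω := by
  unfold Msgω
  rw [Fintype.sum_bool]
  have h := abs_theta_lt hG hθ hE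
  have h1 := ef_pos h s true
  have h2 := ef_pos h s false
  have h3 := Zω_pos hG hθ hE (n := m) hab true ω
  have h4 := Zω_pos hG hθ hE (n := m) hab false ω
  positivity

theorem om_T_sq_bm {b d : V} (hbd : G.Adj b d) (m : ℕ) : BM (fun ω => om θ (Tω G θ g m b d ω) ^ 2) := by
  refine ⟨((measurable_om θ).comp (Tω_bm hG hθ hE).1).pow_const 2, 1, fun ω => ?_⟩
  have h := om_T_sq_le hG hθ hE hbd m ω
  rw [abs_of_nonneg (by positivity)]
  exact h

theorem g_bm (b : V) (s : Bool) : BM (g b s) := hE.bm b s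

theorem g_pos (b : V) (s : Bool) (ω : J → I) : 0 < g b s ω := by
  obtain ⟨c, hc, h⟩ := hE.lb
  exact lt_of_lt_of_le hc (h b s ω)

end

theorem subT_mono_succ (n : ℕ) (a b : V) : subT G n a b ⊆ subT G (n + 1) a b := by
  induction n generalizing a b with
  | zero =>
    intro v hv
    simp only [subT, Finset.mem_singleton] at hv
    simp [subT, hv]
  | succ n ih =>
    intro v hv
    rw [subT] at hv
    rw [subT]
    rcases Finset.mem_insert.1 hv with h | h
    · exact Finset.mem_insert.2 (Or.inl h)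
    · refine Finset.mem_insert.2 (Or.inr ?_)
      obtain ⟨d, hd, hv⟩ := Finset.mem_biUnion.1 h
      exact Finset.mem_biUnion.2 ⟨d, hd, ih b d hv⟩

theorem subT_mono {m N : ℕ} (h : m ≤ N) (a b : V) : subT G m a b ⊆ subT G N a b := by
  induction N, h using Nat.le_induction with
  | base => exact subset_rfl
  | succ N _ ih => exact ih.trans (subT_mono_succ N a b)

theorem subBl_mono {m N : ℕ} (h : m ≤ N) (a b : V) : subBl G bl m a b ⊆ subBl G bl N a b := by
  intro j hj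
  simp only [subBl, Set.mem_iUnion] at hj ⊢
  obtain ⟨v, hv, hj⟩ := hj
  exact ⟨v, subT_mono h a b hv, hj⟩

theorem subBl_kid {a b d : V} (hd : d ∈ kids G a b) (N : ℕ) : subBl G bl N b d ⊆ subBl G bl (N + 1) a b := by
  intro j hj
  simp only [subBl, Set.mem_iUnion] at hj ⊢
  obtain ⟨v, hv, hj⟩ := hj
  refine ⟨v, ?_, hj⟩
  rw [subT]
  exact Finset.mem_insert.2 (Or.inr (Finset.mem_biUnion.2 ⟨d, hd, hv⟩))


section shellsAux


variable (hG : RegTree G q) (hθ : Adm θ) (hqθ : (q : ℝ) * θ ^ 2 ≤ 1) (hE : Exper bl Fl g)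
include hG hθ hqθ hE

theorem Shω_nonneg_aux (l : ℕ) (hab : G.Adj a b) (ω : J → I) : 0 ≤ Shω (G := G) (θ := θ) (g := g) l n a b ω :=
  Shω_nonneg' l n a b ω

theorem Shω_le_one_aux (l : ℕ) (hab : G.Adj a b) (ω : J → I) : Shω (G := G) (θ := θ) (g := g) l n a b ω ≤ 1 := by
  induction l generalizing n a b with
  | zero => rw [Shω_zero]
  | succ l ih =>
    rw [Shω_succ]
    calc _ ≤ ∑ d ∈ kids G a b, θ ^ 2 := Finset.sum_le_sum fun d hd => by
            have had := adj_of_mem_kids hd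
            have h1 := om_T_sq_le hG hθ hE had (n - 1) ω
            have h2 := ih (n := n - 1) had
            have h3 := Shω_nonneg' (G := G) (θ := θ) (g := g) l (n - 1) b d ω
            have h4 := sq_nonneg θ
            have h5 : om θ (Tω G θ g (n - 1) b d ω) ^ 2 * Shω (G := G) (θ := θ) (g := g) l (n - 1) b d ω ≤ 1 := by
              have := sq_nonneg (om θ (Tω G θ g (n - 1) b d ω))
              nlinarith
            calc _ = θ ^ 2 * (om θ (Tω G θ g (n - 1) b d ω) ^ 2 * Shω (G := G) (θ := θ) (g := g) l (n - 1) b d ω) := by ring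
              _ ≤ θ ^ 2 * 1 := mul_le_mul_of_nonneg_left h5 h4
              _ = θ ^ 2 := mul_one _
         _ = (q : ℝ) * θ ^ 2 := by rw [Finset.sum_const, card_kids hG hab, nsmul_eq_mul]
         _ ≤ 1 := hqθ

omit hqθ in
theorem Shω_bm_aux (l : ℕ) : BM (Shω (G := G) (θ := θ) (g := g) l n a b) := by
  induction l generalizing n a b with
  | zero => exact BM.const 1
  | succ l ih =>
    have : Shω (G := G) (θ := θ) (g := g) (l + 1) n a b = fun ω => ∑ d ∈ kids G a b, θ ^ 2 * om θ (Tω G θ g (n - 1) b d ω) ^ 2 *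
        Shω (G := G) (θ := θ) (g := g) l (n - 1) b d ω := rfl
    rw [this]
    refine BM.finset_sum _ fun d hd => ?_
    exact ((BM.const _).mul (om_T_sq_bm hG hθ hE (adj_of_mem_kids hd) _)).mul ih

omit hqθ in
/-- Dependence on the subtree of depth `max l n`. -/
theorem Shω_dep_le (l : ℕ) {N : ℕ} (hl : l ≤ N) (hn : n ≤ N) (hab : G.Adj a b) :
    DepS (Shω (G := G) (θ := θ) (g := g) l n a b) (subBl G bl N a b) := by
  induction l generalizing n a b N with
  | zero => exact DepS.const 1 _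
  | succ l ih =>
    obtain ⟨N, rfl⟩ : ∃ N', N = N' + 1 := ⟨N - 1, by omega⟩
    intro ω ω' hω
    rw [Shω_succ, Shω_succ]
    refine Finset.sum_congr rfl fun d hd => ?_
    have had := adj_of_mem_kids hd
    have hsub : subBl G bl N b d ⊆ subBl G bl (N + 1) a b := subBl_kid hd N
    have hT := (Tω_dep hG hθ hE (n := n - 1) had).mono ((subBl_mono (by omega : n - 1 ≤ N) b d).trans hsub) ω ω' hω
    have hS := ih (by omega : l ≤ N) (by omega : n - 1 ≤ N) had ω ω' fun j hj => hω j (hsub hj)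
    rw [hT, hS]

omit hqθ in
theorem Shω_dep_aux (l : ℕ) (hl : l ≤ n) (hab : G.Adj a b) :
    DepS (Shω (G := G) (θ := θ) (g := g) l n a b) (subBl G bl n a b) :=
  Shω_dep_le hG hθ hE l hl le_rfl hab

/-- Integral of a product over the root and children: general blocks. -/
theorem integral_node_gen (hab : G.Adj a b) {N : ℕ} {K : Finset V} (hK : K ⊆ kids G a b) {F₀ : (J → I) → ℝ}
    {X : V → (J → I) → ℝ} (hF₀ : BM F₀) (hF₀d : DepS F₀ (bl b)) (hX : ∀ d ∈ K, BM (X d))
    (hXd : ∀ d ∈ K, DepS (X d) (subBl G bl N b d)) :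
    ∫ ω, F₀ ω * ∏ d ∈ K, X d ω ∂Lam J = (∫ ω, F₀ ω ∂Lam J) * ∏ d ∈ K, ∫ ω, X d ω ∂Lam J := by
  have hdisj : Disjoint (bl b) (⋃ d ∈ K, subBl G bl N b d) := by
    rw [Set.disjoint_iUnion₂_right]
    intro d hd
    exact subBl_disj_root hG hθ hE hab (hK hd) N
  have hprodB : BM (fun ω => ∏ d ∈ K, X d ω) := BM.finset_prod K hX
  have hdep : DepS (fun ω => ∏ d ∈ K, X d ω) (⋃ d ∈ K, subBl G bl N b d) := by
    intro ω ω' hω
    refine Finset.prod_congr rfl fun d hd => ?_
    refine hXd d hd ω ω' fun j hj => hω j ?_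
    exact Set.mem_biUnion hd hj
  rw [integral_mul_indep hF₀ hprodB hF₀d hdep hdisj]
  rw [integral_prod_indep K hX hXd]
  intro d hd d' hd' hne
  exact subBl_disj hG hθ hE hab (hK hd) (hK hd') hne N

theorem integral_g (b : V) (s : Bool) : ∫ ω, g b s ω ∂Lam J = 1 := hE.mean b s

/-- Integrating out all the children but `d`. -/
theorem integral_factor (hab : G.Adj a b) {N : ℕ} (hN : n ≤ N) {R : Finset V} (hR : R ⊆ kids G a b) {d : V} (hd : d ∈ R) (s : Bool)
    {Y : (J → I) → ℝ} (hY : BM Y) (hYd : DepS Y (subBl G bl N b d)) :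
    ∫ ω, (g b s ω * ∏ d' ∈ R, Msgω G θ g n b d' s ω) * Y ω ∂Lam J = ∫ ω, Msgω G θ g n b d s ω * Y ω ∂Lam J := by
  set X : V → (J → I) → ℝ := fun d' ω => Msgω G θ g n b d' s ω * (if d' = d then Y ω else 1) with hXdef
  have h1 : ∀ ω, (g b s ω * ∏ d' ∈ R, Msgω G θ g n b d' s ω) * Y ω = g b s ω * ∏ d' ∈ R, X d' ω := by
    intro ω
    simp only [hXdef, Finset.prod_mul_distrib]
    rw [Finset.prod_ite_eq' R d (fun _ => Y ω)]
    simp [hd]
    ring
  simp_rw [h1]
  have hXb : ∀ d' ∈ R, BM (X d') := by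
    intro d' _
    refine (Msgω_bm hG hθ hE n b d' s).mul ?_
    by_cases h : d' = d
    · simpa [h] using hY
    · simpa [h] using BM.const 1
  have hXD : ∀ d' ∈ R, DepS (X d') (subBl G bl N b d') := by
    intro d' hd'
    have hbd := adj_of_mem_kids (hR hd')
    refine DepS.mul ((Msgω_dep hG hθ hE hbd n s).mono (subBl_mono hN b d')) ?_
    by_cases h : d' = d
    · subst h
      simpa using hYd
    · simpa [h] using DepS.const 1 _
  rw [integral_node_gen hG hθ hqθ hE hab hR (g_bm hG hθ hE b s) (hE.dep b s) hXb hXD, integral_g hG hθ hqθ hE, one_mul]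
  rw [Finset.prod_eq_single_of_mem d hd]
  · simp [hXdef]
  · intro d' hd' hne
    have hbd := adj_of_mem_kids (hR hd')
    simp only [hXdef, hne, if_false, mul_one]
    exact integral_Msgω hG hθ hE hbd s

theorem measurable_tanh' : Measurable Real.tanh := by
  have : Real.tanh = fun x => Real.sinh x / Real.cosh x := by
    funext x
    exact Real.tanh_eq_sinh_div_cosh x
  rw [this]
  exact Real.measurable_sinh.div Real.measurable_cosh

theorem rho_bm (m : ℕ) (a b : V) : BM (rhoω G θ g m a b) := by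
  have h1 := Zω_bm hG hθ hE (n := m) (a := a) (b := b) true
  have h2 := Zω_bm hG hθ hE (n := m) (a := a) (b := b) false
  have : rhoω G θ g m a b = fun ω => (Zω G θ g m a b true ω + Zω G θ g m a b false ω) * (1 / 2) := by
    funext ω
    simp only [rhoω]
    ring
  rw [this]
  exact (h1.add h2).mul (BM.const _)

theorem rho_pos {a b : V} (hab : G.Adj a b) (m : ℕ) (ω : J → I) : 0 < rhoω G θ g m a b ω := by
  have h3 := Zω_pos hG hθ hE (n := m) hab true ω
  have h4 := Zω_pos hG hθ hE (n := m) hab false ω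
  simp only [rhoω]
  positivity

/-- Attenuation by an off-path child. -/
theorem offpath {e : V} (hbe : G.Adj b e) {m : ℕ} {A : ℝ}
    (hA : A ≤ Jt G θ g m b e (fun ω => Tω G θ g m b e ω ^ 2)) (s : Bool) (c : ℝ) :
    ∫ ω, Msgω G θ g m b e s ω * om θ (Real.tanh (c + Real.artanh (θ * Tω G θ g m b e ω))) ^ 2 ∂Lam J ≤ 1 - varpi θ A := by
  have hθ0 := hθ.nonneg
  have hθ1 := hθ.lt_one
  set T := Tω G θ g m b e with hT
  have hTb : BM T := Tω_bm hG hθ hE
  have hTlt : ∀ ω, |T ω| < 1 := abs_Tω_lt hG hθ hE hbe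
  set ρ := rhoω G θ g m b e with hρdef
  have hρ : BM ρ := rho_bm hG hθ hqθ hE m b e
  have hρpos : ∀ ω, 0 < ρ ω := rho_pos hG hθ hqθ hE hbe m
  set Msg := Msgω G θ g m b e s with hMsgdef
  have hMsgb : BM Msg := Msgω_bm hG hθ hE m b e s
  have hMsgpos : ∀ ω, 0 < Msg ω := Msgω_pos hG hθ hE hbe m s
  set F : ℝ → ℝ := fun u => Real.tanh (c + Real.artanh (θ * u)) ^ 2 with hFdef
  have hFm : Measurable F := by
    refine (measurable_tanh' hG hθ hqθ hE).comp ?_ |>.pow_const 2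
    exact measurable_const.add (measurable_artanh.comp (measurable_const.mul measurable_id))
  set x : (J → I) → ℝ := fun ω => Real.tanh (c + Real.artanh (θ * T ω)) with hxdef
  have hxb : BM (fun ω => x ω ^ 2) := by
    refine ⟨hFm.comp hTb.1, 1, fun ω => ?_⟩
    have := (Real.abs_tanh_lt_one (c + Real.artanh (θ * T ω))).le
    rw [abs_of_nonneg (by positivity)]
    have h2 := Real.tanh_sq_lt_one (c + Real.artanh (θ * T ω))
    exact h2.le
  have hxFb : BM (fun ω => F (- T ω)) := by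
    refine ⟨hFm.comp hTb.1.neg, 1, fun ω => ?_⟩
    rw [abs_of_nonneg (by simp only [hFdef]; positivity)]
    exact (Real.tanh_sq_lt_one _).le
  have hxa : ∀ ω, |x ω| ≤ 1 := fun ω => (Real.abs_tanh_lt_one _).le
  have hI1 : ∫ ω, Msg ω * om θ (x ω) ^ 2 ∂Lam J ≤ 1 - (1 - θ ^ 2) * ∫ ω, Msg ω * x ω ^ 2 ∂Lam J := by
    have h1 : ∀ ω, Msg ω * om θ (x ω) ^ 2 ≤ Msg ω - (1 - θ ^ 2) * (Msg ω * x ω ^ 2) := by
      intro ω
      have := mul_le_mul_of_nonneg_left (om_sq_le hθ (hxa ω)) (hMsgpos ω).le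
      nlinarith
    have hb1 : BM (fun ω => Msg ω * om θ (x ω) ^ 2) := by
      refine hMsgb.mul ⟨((measurable_om θ).comp ((measurable_tanh' hG hθ hqθ hE).comp
        (measurable_const.add (measurable_artanh.comp (measurable_const.mul hTb.1))))).pow_const 2, 1, fun ω => ?_⟩
      have h0 := om_nonneg hθ (hxa ω)
      have h1 := om_le_one hθ (hxa ω)
      rw [abs_of_nonneg (by positivity)]
      nlinarith
    have hb2 : BM (fun ω => Msg ω * x ω ^ 2) := hMsgb.mul hxb
    calc ∫ ω, Msg ω * om θ (x ω) ^ 2 ∂Lam J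
        ≤ ∫ ω, Msg ω - (1 - θ ^ 2) * (Msg ω * x ω ^ 2) ∂Lam J :=
          integral_mono (hb1.integrable _) ((hMsgb.sub ((BM.const _).mul hb2)).integrable _) h1
      _ = 1 - (1 - θ ^ 2) * ∫ ω, Msg ω * x ω ^ 2 ∂Lam J := by
          rw [integral_sub (hMsgb.integrable _) (((BM.const _).mul hb2).integrable _), integral_const_mul,
            integral_Msgω hG hθ hE hbe s]
  have hI2 : (1 - θ) * ∫ ω, ρ ω * x ω ^ 2 ∂Lam J ≤ ∫ ω, Msg ω * x ω ^ 2 ∂Lam J := by
    rw [← integral_const_mul]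
    refine integral_mono (((BM.const _).mul (hρ.mul hxb)).integrable _) ((hMsgb.mul hxb).integrable _) fun ω => ?_
    have h1 : Msg ω = ρ ω * (1 + spin s * (θ * T ω)) := Msgω_eq hG hθ hE hbe s ω
    have h2 : 1 - θ ≤ 1 + spin s * (θ * T ω) := by
      have h3 := abs_spin s
      have h4 : |spin s * (θ * T ω)| ≤ θ := by
        rw [abs_mul, h3, one_mul, abs_mul, abs_of_nonneg hθ0]
        have := (hTlt ω).le
        nlinarith
      have := (abs_le.1 h4).1
      linarith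
    simp only
    rw [h1]
    have h5 := mul_le_mul_of_nonneg_left h2 (mul_nonneg (hρpos ω).le (sq_nonneg (x ω)))
    nlinarith
  have hI3 : θ ^ 2 * A ≤ 2 * ∫ ω, ρ ω * x ω ^ 2 ∂Lam J := by
    have hflip := Jt_flip hG hθ hE (n := m) (a := b) (b := e) hFm hbe
    have e1 : Jt G θ g m b e (fun ω => F (T ω)) = ∫ ω, ρ ω * x ω ^ 2 ∂Lam J := rfl
    have e2 : Jt G θ g m b e (fun ω => F (- T ω)) = ∫ ω, ρ ω * F (- T ω) ∂Lam J := rfl
    rw [e1, e2] at hflip
    have e3 : 2 * ∫ ω, ρ ω * x ω ^ 2 ∂Lam J = ∫ ω, ρ ω * (x ω ^ 2 + F (- T ω)) ∂Lam J := by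
      have : ∫ ω, ρ ω * (x ω ^ 2 + F (- T ω)) ∂Lam J = ∫ ω, ρ ω * x ω ^ 2 ∂Lam J + ∫ ω, ρ ω * F (- T ω) ∂Lam J := by
        rw [← integral_add ((hρ.mul hxb).integrable _) ((hρ.mul hxFb).integrable _)]
        simp_rw [mul_add]
      rw [this, ← hflip]
      ring
    have e4 : θ ^ 2 * A ≤ ∫ ω, ρ ω * (θ ^ 2 * T ω ^ 2) ∂Lam J := by
      have : ∫ ω, ρ ω * (θ ^ 2 * T ω ^ 2) ∂Lam J = θ ^ 2 * Jt G θ g m b e (fun ω => T ω ^ 2) := by
        rw [show Jt G θ g m b e (fun ω => T ω ^ 2) = ∫ ω, ρ ω * T ω ^ 2 ∂Lam J from rfl, ← integral_const_mul]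
        refine integral_congr_ae (Filter.Eventually.of_forall fun ω => ?_)
        simp only
        ring
      rw [this]
      exact mul_le_mul_of_nonneg_left hA (sq_nonneg θ)
    refine e4.trans ?_
    rw [e3]
    have hTsqb : BM (fun ω => T ω ^ 2) := by
      simpa [pow_two] using hTb.mul hTb
    refine integral_mono ((hρ.mul ((BM.const _).mul hTsqb)).integrable _) ((hρ.mul (hxb.add hxFb)).integrable _) fun ω => ?_
    simp only
    refine mul_le_mul_of_nonneg_left ?_ (hρpos ω).le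
    have hθT : |θ * T ω| < 1 := by
      rw [abs_mul, abs_of_nonneg hθ0]
      have := hTlt ω
      have := abs_nonneg (T ω)
      nlinarith
    have h1 := tanh_sq_add c (Real.artanh (θ * T ω))
    rw [tanh_artanh' hθT] at h1
    have h2 : F (- T ω) = Real.tanh (c - Real.artanh (θ * T ω)) ^ 2 := by
      simp only [hFdef]
      rw [mul_neg, artanh_neg_eq, ← sub_eq_add_neg]
    rw [h2]
    simp only [hxdef]
    nlinarith
  have hθsq : 0 ≤ 1 - θ ^ 2 := by nlinarith
  have hθ1' : 0 ≤ 1 - θ := by linarith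
  have hfin : (1 - θ ^ 2) * ((1 - θ) * (θ ^ 2 * A / 2)) ≤ (1 - θ ^ 2) * ∫ ω, Msg ω * x ω ^ 2 ∂Lam J := by
    refine mul_le_mul_of_nonneg_left ?_ hθsq
    refine le_trans (mul_le_mul_of_nonneg_left ?_ hθ1') hI2
    linarith
  have hv : varpi θ A = (1 - θ ^ 2) * ((1 - θ) * (θ ^ 2 * A / 2)) := by
    unfold varpi
    ring
  rw [hv]
  linarith

/-- The cavity field at `b` when the coordinates of the block of the child `e` are resampled. -/
theorem T_succ_glue (hab : G.Adj a b) {e : V} (he : e ∈ kids G a b) (m : ℕ) (ω ω' : J → I) :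
    Tω G θ g (m + 1) a b (glue (subBl G bl m b e) ω ω') =
      Real.tanh ((Real.log (g b true ω / g b false ω) / 2 +
        ∑ d ∈ (kids G a b).erase e, Real.artanh (θ * Tω G θ g m b d ω)) +
          Real.artanh (θ * Tω G θ g m b e ω')) := by
  set B := subBl G bl m b e with hB
  set ζ := glue B ω ω' with hζ
  have hleft : ∀ {S : Set J}, Disjoint S B → ∀ j ∈ S, ζ j = ω j := by
    intro S hS j hj
    have : j ∉ B := Set.disjoint_left.1 hS hj
    simp [hζ, glue, this]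
  have h := Tω_succ_artanh hG hθ hE (n := m) hab ζ
  have hlt := abs_Tω_lt hG hθ hE (n := m + 1) hab ζ
  rw [← tanh_artanh' hlt, h]
  congr 1
  have hg : ∀ s, g b s ζ = g b s ω := fun s =>
    (hE.dep b s) ζ ω (hleft (subBl_disj_root hG hθ hE hab he m))
  rw [hg, hg, ← Finset.add_sum_erase _ _ he]
  have hTe : Tω G θ g m b e ζ = Tω G θ g m b e ω' :=
    DepS.glue_right (Tω_dep hG hθ hE (adj_of_mem_kids he)) ω ω'
  rw [hTe]
  have hsum : ∑ d ∈ (kids G a b).erase e, Real.artanh (θ * Tω G θ g m b d ζ) =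
      ∑ d ∈ (kids G a b).erase e, Real.artanh (θ * Tω G θ g m b d ω) := by
    refine Finset.sum_congr rfl fun d hd => ?_
    obtain ⟨hne, hdk⟩ := Finset.mem_erase.1 hd
    rw [(Tω_dep hG hθ hE (adj_of_mem_kids hdk)) ζ ω (hleft (subBl_disj hG hθ hE hab hdk he hne m))]
  rw [hsum]
  ring

/-- One step along the path, with an off-path child `e`. -/
theorem step_offpath (hab : G.Adj a b) {d e : V} (hd : d ∈ kids G a b) (he : e ∈ kids G a b) (hne : d ≠ e) {m : ℕ} {A : ℝ}
    (hA : A ≤ Jt G θ g m b e (fun ω => Tω G θ g m b e ω ^ 2)) (s : Bool)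
    {Y : (J → I) → ℝ} (hY : BM Y) (hY0 : ∀ ω, 0 ≤ Y ω) (hYd : DepS Y (subBl G bl m b d)) :
    ∫ ω, Zω G θ g (m + 1) a b s ω * (om θ (Tω G θ g (m + 1) a b ω) ^ 2 * Y ω) ∂Lam J ≤
      (1 - varpi θ A) * ∫ ω, Msgω G θ g m b d s ω * Y ω ∂Lam J := by
  set R := (kids G a b).erase e with hR
  set B := subBl G bl m b e with hB
  have hRk : R ⊆ kids G a b := Finset.erase_subset _ _
  have hdR : d ∈ R := Finset.mem_erase.2 ⟨hne, hd⟩
  set ψ : (J → I) → ℝ := fun ω => (g b s ω * ∏ d' ∈ R, Msgω G θ g m b d' s ω) * Y ω with hψ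
  set F : (J → I) → ℝ := fun ω => Msgω G θ g m b e s ω * om θ (Tω G θ g (m + 1) a b ω) ^ 2 with hF
  have hpt : ∀ ω, Zω G θ g (m + 1) a b s ω * (om θ (Tω G θ g (m + 1) a b ω) ^ 2 * Y ω) = ψ ω * F ω := by
    intro ω
    rw [Zω_succ hG hθ hE s ω, ← Finset.mul_prod_erase _ _ he]
    simp only [hψ, hF, hR]
    ring
  simp_rw [hpt]
  have hbe := adj_of_mem_kids he
  have hFb : BM F := (Msgω_bm hG hθ hE m b e s).mul (om_T_sq_bm hG hθ hE hab (m + 1))
  have hprodb : BM (fun ω => g b s ω * ∏ d' ∈ R, Msgω G θ g m b d' s ω) :=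
    (g_bm hG hθ hE b s).mul (BM.finset_prod R fun d' _ => Msgω_bm hG hθ hE m b d' s)
  have hψb : BM ψ := hprodb.mul hY
  have hψ0 : ∀ ω, 0 ≤ ψ ω := by
    intro ω
    refine mul_nonneg (mul_nonneg (g_pos hG hθ hE b s ω).le ?_) (hY0 ω)
    exact Finset.prod_nonneg fun d' hd' => (Msgω_pos hG hθ hE (adj_of_mem_kids (hRk hd')) m s ω).le
  have hψB : DepS ψ Bᶜ := by
    intro ω ω' hω
    have hg : g b s ω = g b s ω' :=
      (hE.dep b s) ω ω' fun j hj => hω j (Set.disjoint_left.1 (subBl_disj_root hG hθ hE hab he m) hj)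
    have hP : ∀ d' ∈ R, Msgω G θ g m b d' s ω = Msgω G θ g m b d' s ω' := by
      intro d' hd'
      obtain ⟨hne', hdk⟩ := Finset.mem_erase.1 hd'
      exact (Msgω_dep hG hθ hE (adj_of_mem_kids hdk) m s) ω ω' fun j hj =>
        hω j (Set.disjoint_left.1 (subBl_disj hG hθ hE hab hdk he hne' m) hj)
    have hYe : Y ω = Y ω' :=
      hYd ω ω' fun j hj => hω j (Set.disjoint_left.1 (subBl_disj hG hθ hE hab hd he hne m) hj)
    simp only [hψ]
    rw [hg, Finset.prod_congr rfl hP, hYe]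
  have hpart : ∀ ω, ∫ ω', F (glue B ω ω') ∂Lam J ≤ 1 - varpi θ A := by
    intro ω
    have := offpath hG hθ hqθ hE hbe hA s (Real.log (g b true ω / g b false ω) / 2 +
        ∑ d ∈ (kids G a b).erase e, Real.artanh (θ * Tω G θ g m b d ω))
    refine le_of_eq_of_le ?_ this
    refine integral_congr_ae (Filter.Eventually.of_forall fun ω' => ?_)
    simp only [hF]
    rw [T_succ_glue hG hθ hqθ hE hab he m ω ω', DepS.glue_right (Msgω_dep hG hθ hE hbe m s) ω ω']
  have h := integral_le_of_partial B hFb hψb hψ0 hψB hpart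
  refine h.trans (le_of_eq ?_)
  congr 1
  exact integral_factor hG hθ hqθ hE hab le_rfl hRk hdR s hY hYd

/-- Passing from the messages to the partition functions. -/
theorem integral_Msg_le {m : ℕ} {Ψ : (J → I) → ℝ} (hΨ : BM Ψ) (s : Bool) {W : ℝ} {a b : V}
    (h : ∀ s', ∫ ω, Zω G θ g m a b s' ω * Ψ ω ∂Lam J ≤ W) :
    ∫ ω, Msgω G θ g m a b s ω * Ψ ω ∂Lam J ≤ W := by
  have hθlt := abs_theta_lt hG hθ hE
  have e1 : ∀ ω, Msgω G θ g m a b s ω * Ψ ω = ef θ s true * (Zω G θ g m a b true ω * Ψ ω) + ef θ s false * (Zω G θ g m a b false ω * Ψ ω) := by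
    intro ω
    simp only [Msgω, Fintype.sum_bool]
    ring
  simp_rw [e1]
  have hb : ∀ s', BM (fun ω => ef θ s s' * (Zω G θ g m a b s' ω * Ψ ω)) := fun s' =>
    (BM.const _).mul ((Zω_bm hG hθ hE s').mul hΨ)
  rw [integral_add ((hb true).integrable _) ((hb false).integrable _), integral_const_mul, integral_const_mul]
  have h1 := mul_le_mul_of_nonneg_left (h true) (ef_pos hθlt s true).le
  have h2 := mul_le_mul_of_nonneg_left (h false) (ef_pos hθlt s false).le
  have h3 : ef θ s true * W + ef θ s false * W = W := by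
    rw [← add_mul, ef_sum θ s, one_mul]
  linarith

theorem Y_bm {l m : ℕ} {a b : V} (hab : G.Adj a b) :
    BM (fun ω => om θ (Tω G θ g m a b ω) ^ 2 * Shω (G := G) (θ := θ) (g := g) l m a b ω) :=
  (om_T_sq_bm hG hθ hE hab m).mul (Shω_bm_aux hG hθ hE l)

theorem Y_dep {l m : ℕ} {a b : V} (hab : G.Adj a b) (hl : l ≤ m) :
    DepS (fun ω => om θ (Tω G θ g m a b ω) ^ 2 * Shω (G := G) (θ := θ) (g := g) l m a b ω) (subBl G bl m a b) :=
  ((Tω_dep hG hθ hE hab).comp (fun t => om θ t ^ 2)).mul (Shω_dep_aux hG hθ hE l hl hab)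

theorem exists_other (hq : 2 ≤ q) (hab : G.Adj a b) (d : V) : ∃ e ∈ kids G a b, e ≠ d := by
  have hc : 1 < (kids G a b).card := by
    rw [card_kids hG hab]
    omega
  exact Finset.exists_mem_ne hc d

theorem varpi_le_one (hq : 2 ≤ q) {A : ℝ} {n₁ : ℕ}
    (hA : ∀ a' b', G.Adj a' b' → ∀ m, n₁ ≤ m → A ≤ Jt G θ g m a' b' (fun ω => Tω G θ g m a' b' ω ^ 2))
    (hab : G.Adj a b) : 0 ≤ 1 - varpi θ A := by
  obtain ⟨e, he, -⟩ := exists_other hG hθ hqθ hE hq hab a
  have hbe := adj_of_mem_kids he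
  have h := offpath hG hθ hqθ hE hbe (hA b e hbe n₁ le_rfl) true 0
  refine le_trans (integral_nonneg fun ω => ?_) h
  exact mul_nonneg (Msgω_pos hG hθ hE hbe n₁ true ω).le (sq_nonneg _)

/-- The mean along a path. -/
theorem path_bound (hq : 2 ≤ q) {A : ℝ} {n₁ : ℕ}
    (hA : ∀ a' b', G.Adj a' b' → ∀ m, n₁ ≤ m → A ≤ Jt G θ g m a' b' (fun ω => Tω G θ g m a' b' ω ^ 2))
    (l m : ℕ) {a b : V} (hab : G.Adj a b) (hm : n₁ + l ≤ m) (s : Bool) :
    ∫ ω, Msgω G θ g m a b s ω * (om θ (Tω G θ g m a b ω) ^ 2 * Shω (G := G) (θ := θ) (g := g) l m a b ω) ∂Lam J ≤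
      ((q : ℝ) * θ ^ 2 * (1 - varpi θ A)) ^ l := by
  induction l generalizing m a b s with
  | zero =>
    rw [pow_zero]
    have hb : BM (fun ω => Msgω G θ g m a b s ω * (om θ (Tω G θ g m a b ω) ^ 2 * Shω (G := G) (θ := θ) (g := g) 0 m a b ω)) :=
      (Msgω_bm hG hθ hE m a b s).mul (Y_bm hG hθ hqθ hE hab)
    calc _ ≤ ∫ ω, Msgω G θ g m a b s ω ∂Lam J := by
            refine integral_mono (hb.integrable _) ((Msgω_bm hG hθ hE m a b s).integrable _) fun ω => ?_
            have h1 := om_T_sq_le hG hθ hE hab m ω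
            have h2 := Msgω_pos hG hθ hE hab m s ω
            simp only
            rw [Shω_zero, mul_one]
            nlinarith
         _ = 1 := integral_Msgω hG hθ hE hab s
  | succ l ih =>
    obtain ⟨m, rfl⟩ : ∃ m', m = m' + 1 := ⟨m - 1, by omega⟩
    have hc := varpi_le_one hG hθ hqθ hE hq hA hab
    have hind : ∀ d ∈ kids G a b, ∀ s', ∫ ω, Msgω G θ g m b d s' ω * (om θ (Tω G θ g m b d ω) ^ 2 *
        Shω (G := G) (θ := θ) (g := g) l m b d ω) ∂Lam J ≤ ((q : ℝ) * θ ^ 2 * (1 - varpi θ A)) ^ l :=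
      fun d hd s' => ih m (adj_of_mem_kids hd) (by omega) s'
    refine integral_Msg_le hG hθ hqθ hE (Y_bm hG hθ hqθ hE hab) s fun s' => ?_
    have e1 : ∀ ω, Zω G θ g (m + 1) a b s' ω * (om θ (Tω G θ g (m + 1) a b ω) ^ 2 * Shω (G := G) (θ := θ) (g := g) (l + 1) (m + 1) a b ω) =
        ∑ d ∈ kids G a b, θ ^ 2 * (Zω G θ g (m + 1) a b s' ω * (om θ (Tω G θ g (m + 1) a b ω) ^ 2 *
          (om θ (Tω G θ g m b d ω) ^ 2 * Shω (G := G) (θ := θ) (g := g) l m b d ω))) := by
      intro ω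
      rw [Shω_succ, Nat.add_sub_cancel, Finset.mul_sum, Finset.mul_sum]
      refine Finset.sum_congr rfl fun d _ => ?_
      ring
    simp_rw [e1]
    have hbm : ∀ d ∈ kids G a b, BM (fun ω => θ ^ 2 * (Zω G θ g (m + 1) a b s' ω * (om θ (Tω G θ g (m + 1) a b ω) ^ 2 *
          (om θ (Tω G θ g m b d ω) ^ 2 * Shω (G := G) (θ := θ) (g := g) l m b d ω)))) := fun d hd =>
      (BM.const _).mul ((Zω_bm hG hθ hE s').mul ((om_T_sq_bm hG hθ hE hab (m + 1)).mul
        (Y_bm hG hθ hqθ hE (adj_of_mem_kids hd))))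
    rw [integral_finsetSum _ fun d hd => (hbm d hd).integrable _]
    have hterm : ∀ d ∈ kids G a b, ∫ ω, θ ^ 2 * (Zω G θ g (m + 1) a b s' ω * (om θ (Tω G θ g (m + 1) a b ω) ^ 2 *
          (om θ (Tω G θ g m b d ω) ^ 2 * Shω (G := G) (θ := θ) (g := g) l m b d ω))) ∂Lam J ≤
        θ ^ 2 * ((1 - varpi θ A) * ((q : ℝ) * θ ^ 2 * (1 - varpi θ A)) ^ l) := by
      intro d hd
      rw [integral_const_mul]
      refine mul_le_mul_of_nonneg_left ?_ (sq_nonneg θ)
      obtain ⟨e, he, hne⟩ := exists_other hG hθ hqθ hE hq hab d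
      have hbe := adj_of_mem_kids he
      have hbd := adj_of_mem_kids hd
      have h1 := step_offpath hG hθ hqθ hE hab hd he hne.symm (hA b e hbe m (by omega)) s'
        (Y_bm hG hθ hqθ hE (l := l) (m := m) hbd) (Y_nonneg l m b d) (Y_dep hG hθ hqθ hE hbd (by omega))
      exact h1.trans (mul_le_mul_of_nonneg_left (hind d hd s') hc)
    refine (Finset.sum_le_sum hterm).trans (le_of_eq ?_)
    rw [Finset.sum_const, card_kids hG hab, nsmul_eq_mul]
    ring

theorem shell_mean_aux (hq : 2 ≤ q) {A : ℝ} (hA0 : 0 ≤ A) {n₁ : ℕ}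
    (hA : ∀ a' b', G.Adj a' b' → ∀ m, n₁ ≤ m → A ≤ Jt G θ g m a' b' (fun ω => Tω G θ g m a' b' ω ^ 2))
    {l : ℕ} (hn : n₁ + l + 1 ≤ n) (hab : G.Adj a b) (s : Bool) :
    ∫ ω, Zω G θ g n a b s ω * Shω (G := G) (θ := θ) (g := g) (l + 1) n a b ω ∂Lam J ≤
      ((q : ℝ) * θ ^ 2 * (1 - varpi θ A)) ^ l := by
  obtain ⟨m, rfl⟩ : ∃ m', n = m' + 1 := ⟨n - 1, by omega⟩
  have hc := varpi_le_one hG hθ hqθ hE hq hA hab
  have hP : 0 ≤ ((q : ℝ) * θ ^ 2 * (1 - varpi θ A)) ^ l := by positivity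
  have e1 : ∀ ω, Zω G θ g (m + 1) a b s ω * Shω (G := G) (θ := θ) (g := g) (l + 1) (m + 1) a b ω =
      ∑ d ∈ kids G a b, θ ^ 2 * (Zω G θ g (m + 1) a b s ω *
        (om θ (Tω G θ g m b d ω) ^ 2 * Shω (G := G) (θ := θ) (g := g) l m b d ω)) := by
    intro ω
    rw [Shω_succ, Nat.add_sub_cancel, Finset.mul_sum]
    refine Finset.sum_congr rfl fun d _ => ?_
    ring
  simp_rw [e1]
  have hbm : ∀ d ∈ kids G a b, BM (fun ω => θ ^ 2 * (Zω G θ g (m + 1) a b s ω *
        (om θ (Tω G θ g m b d ω) ^ 2 * Shω (G := G) (θ := θ) (g := g) l m b d ω))) := fun d hd =>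
    (BM.const _).mul ((Zω_bm hG hθ hE s).mul (Y_bm hG hθ hqθ hE (adj_of_mem_kids hd)))
  rw [integral_finsetSum _ fun d hd => (hbm d hd).integrable _]
  have hterm : ∀ d ∈ kids G a b, ∫ ω, θ ^ 2 * (Zω G θ g (m + 1) a b s ω *
        (om θ (Tω G θ g m b d ω) ^ 2 * Shω (G := G) (θ := θ) (g := g) l m b d ω)) ∂Lam J ≤
      θ ^ 2 * ((q : ℝ) * θ ^ 2 * (1 - varpi θ A)) ^ l := by
    intro d hd
    rw [integral_const_mul]
    refine mul_le_mul_of_nonneg_left ?_ (sq_nonneg θ)
    have hbd := adj_of_mem_kids hd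
    have e2 : ∀ ω, Zω G θ g (m + 1) a b s ω * (om θ (Tω G θ g m b d ω) ^ 2 * Shω (G := G) (θ := θ) (g := g) l m b d ω) =
        (g b s ω * ∏ d' ∈ kids G a b, Msgω G θ g m b d' s ω) * (om θ (Tω G θ g m b d ω) ^ 2 * Shω (G := G) (θ := θ) (g := g) l m b d ω) := by
      intro ω
      rw [Zω_succ hG hθ hE s ω]
    simp_rw [e2]
    rw [integral_factor hG hθ hqθ hE hab le_rfl subset_rfl hd s (Y_bm hG hθ hqθ hE hbd) (Y_dep hG hθ hqθ hE hbd (by omega))]
    exact path_bound hG hθ hqθ hE hq hA l m hbd (by omega) s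
  refine (Finset.sum_le_sum hterm).trans ?_
  rw [Finset.sum_const, card_kids hG hab, nsmul_eq_mul, ← mul_assoc]
  calc _ ≤ 1 * ((q : ℝ) * θ ^ 2 * (1 - varpi θ A)) ^ l := mul_le_mul_of_nonneg_right hqθ hP
    _ = _ := one_mul _

/-- Moment generating function of the shells. -/
theorem shell_mgf {V₀ : ℝ} (j : ℕ) : ∀ (l n : ℕ), j ≤ l → j ≤ n →
    (∀ a' b', G.Adj a' b' → ∀ s', ∫ ω, Zω G θ g (n - j) a' b' s' ω * Shω (G := G) (θ := θ) (g := g) (l - j) (n - j) a' b' ω ∂Lam J ≤ V₀) →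
    ∀ a b, G.Adj a b → ∀ (s : Bool) (lam : ℝ), 0 ≤ lam →
    ∫ ω, Zω G θ g n a b s ω * Real.exp (lam * Shω (G := G) (θ := θ) (g := g) l n a b ω) ∂Lam J ≤
      Real.exp ((q : ℝ) ^ j * (lam * θ ^ (2 * j) * V₀ + (lam * θ ^ (2 * j)) ^ 2 / 8)) := by
  induction j with
  | zero =>
    intro l n _ _ hV a b hab s lam hlam
    have h := hoeffding_density (Zω_bm hG hθ hE (n := n) (a := a) (b := b) s) (Shω_bm_aux hG hθ hE l)
      (fun ω => (Zω_pos hG hθ hE hab s ω).le) (integral_Zω hG hθ hE hab s) (fun ω => Shω_nonneg' l n a b ω)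
      (fun ω => Shω_le_one_aux hG hθ hqθ hE l hab ω) lam
    refine h.trans (Real.exp_le_exp.2 ?_)
    have h2 := hV a b hab s
    simp only [Nat.sub_zero] at h2
    have h3 := mul_le_mul_of_nonneg_left h2 hlam
    simp only [pow_zero, mul_zero, mul_one, one_mul]
    linarith
  | succ j ih =>
    intro l n hjl hjn hV a b hab s lam hlam
    obtain ⟨l, rfl⟩ : ∃ l', l = l' + 1 := ⟨l - 1, by omega⟩
    obtain ⟨n, rfl⟩ : ∃ n', n = n' + 1 := ⟨n - 1, by omega⟩
    have hV' : ∀ a' b', G.Adj a' b' → ∀ s', ∫ ω, Zω G θ g (n - j) a' b' s' ω * Shω (G := G) (θ := θ) (g := g) (l - j) (n - j) a' b' ω ∂Lam J ≤ V₀ := by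
      intro a' b' h s'
      have := hV a' b' h s'
      simpa [Nat.add_sub_add_right] using this
    set lam' := lam * θ ^ 2 with hlam'
    have hlam'0 : 0 ≤ lam' := mul_nonneg hlam (sq_nonneg θ)
    set E := Real.exp ((q : ℝ) ^ j * (lam' * θ ^ (2 * j) * V₀ + (lam' * θ ^ (2 * j)) ^ 2 / 8)) with hE'
    set X : V → (J → I) → ℝ := fun d ω => Msgω G θ g n b d s ω * Real.exp (lam' * Shω (G := G) (θ := θ) (g := g) l n b d ω) with hX
    have hexpb : ∀ d, BM (fun ω => Real.exp (lam' * Shω (G := G) (θ := θ) (g := g) l n b d ω)) := fun d =>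
      bm_exp_mul (Shω_bm_aux hG hθ hE l) lam'
    have hXb : ∀ d, BM (X d) := fun d => (Msgω_bm hG hθ hE n b d s).mul (hexpb d)
    have hXE : ∀ d ∈ kids G a b, ∫ ω, X d ω ∂Lam J ≤ E := by
      intro d hd
      refine integral_Msg_le hG hθ hqθ hE (hexpb d) s fun s' => ?_
      exact ih l n (by omega) (by omega) hV' b d (adj_of_mem_kids hd) s' lam' hlam'0
    have hX0 : ∀ d ∈ kids G a b, 0 ≤ ∫ ω, X d ω ∂Lam J := by
      intro d hd
      refine integral_nonneg fun ω => ?_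
      exact mul_nonneg (Msgω_pos hG hθ hE (adj_of_mem_kids hd) n s ω).le (Real.exp_pos _).le
    set N := max l n with hN
    have hXd : ∀ d ∈ kids G a b, DepS (X d) (subBl G bl N b d) := by
      intro d hd
      have hbd := adj_of_mem_kids hd
      refine DepS.mul ((Msgω_dep hG hθ hE hbd n s).mono (subBl_mono (le_max_right l n) b d)) ?_
      exact (Shω_dep_le hG hθ hE l (le_max_left l n) (le_max_right l n) hbd).comp (fun t => Real.exp (lam' * t))
    have hpt : ∀ ω, Zω G θ g (n + 1) a b s ω * Real.exp (lam * Shω (G := G) (θ := θ) (g := g) (l + 1) (n + 1) a b ω) ≤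
        g b s ω * ∏ d ∈ kids G a b, X d ω := by
      intro ω
      have hsum : Shω (G := G) (θ := θ) (g := g) (l + 1) (n + 1) a b ω ≤ ∑ d ∈ kids G a b, θ ^ 2 * Shω (G := G) (θ := θ) (g := g) l n b d ω := by
        rw [Shω_succ, Nat.add_sub_cancel]
        refine Finset.sum_le_sum fun d hd => ?_
        have h1 := om_T_sq_le hG hθ hE (adj_of_mem_kids hd) n ω
        have h2 := Shω_nonneg' (G := G) (θ := θ) (g := g) l n b d ω
        have h3 := mul_le_mul_of_nonneg_right h1 (mul_nonneg (sq_nonneg θ) h2)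
        nlinarith
      have hexp : Real.exp (lam * Shω (G := G) (θ := θ) (g := g) (l + 1) (n + 1) a b ω) ≤
          ∏ d ∈ kids G a b, Real.exp (lam' * Shω (G := G) (θ := θ) (g := g) l n b d ω) := by
        rw [← Real.exp_sum]
        refine Real.exp_le_exp.2 ?_
        have h4 := mul_le_mul_of_nonneg_left hsum hlam
        rw [Finset.mul_sum] at h4
        refine h4.trans (le_of_eq ?_)
        refine Finset.sum_congr rfl fun d _ => ?_
        rw [hlam']
        ring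
      rw [Zω_succ hG hθ hE s ω, hX]
      simp only
      rw [Finset.prod_mul_distrib, mul_assoc]
      refine mul_le_mul_of_nonneg_left ?_ (g_pos hG hθ hE b s ω).le
      refine mul_le_mul_of_nonneg_left hexp ?_
      exact Finset.prod_nonneg fun d hd => (Msgω_pos hG hθ hE (adj_of_mem_kids hd) n s ω).le
    have hLb : BM (fun ω => Zω G θ g (n + 1) a b s ω * Real.exp (lam * Shω (G := G) (θ := θ) (g := g) (l + 1) (n + 1) a b ω)) :=
      (Zω_bm hG hθ hE s).mul (bm_exp_mul (Shω_bm_aux hG hθ hE (l + 1)) lam)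
    have hRb : BM (fun ω => g b s ω * ∏ d ∈ kids G a b, X d ω) :=
      (g_bm hG hθ hE b s).mul (BM.finset_prod _ fun d _ => hXb d)
    refine (integral_mono (hLb.integrable _) (hRb.integrable _) hpt).trans ?_
    rw [integral_node_gen hG hθ hqθ hE hab subset_rfl (g_bm hG hθ hE b s) (hE.dep b s) (fun d _ => hXb d) hXd,
      integral_g hG hθ hqθ hE, one_mul]
    refine (Finset.prod_le_prod hX0 hXE).trans (le_of_eq ?_)
    rw [Finset.prod_const, card_kids hG hab, hE', ← Real.exp_nat_mul]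
    congr 1
    rw [hlam']
    have : θ ^ (2 * (j + 1)) = θ ^ 2 * θ ^ (2 * j) := by ring
    rw [this, pow_succ (q : ℝ) j]
    ring

theorem shell_tail_aux (hq : 2 ≤ q) {V₀ : ℝ} {l j : ℕ} (hj : j ≤ l) (hjn : j ≤ n)
    (hV : ∀ a' b', G.Adj a' b' → ∀ s', ∫ ω, Zω G θ g (n - j) a' b' s' ω * Shω (G := G) (θ := θ) (g := g) (l - j) (n - j) a' b' ω ∂Lam J ≤ V₀)
    (hab : G.Adj a b) {x : ℝ} (hx : 0 ≤ x) :
    Jt G θ g n a b (fun ω => if V₀ + x < Shω (G := G) (θ := θ) (g := g) l n a b ω then 1 else 0) ≤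
      Real.exp (-2 * (q : ℝ) ^ j * x ^ 2) := by
  have hθ0 := hθ.nonneg
  have hqpos : (0 : ℝ) < q := by
    have : 0 < q := by omega
    exact_mod_cast this
  have hV0 : 0 ≤ V₀ := by
    refine le_trans (integral_nonneg fun ω => ?_) (hV a b hab true)
    exact mul_nonneg (Zω_pos hG hθ hE hab true ω).le (Shω_nonneg' _ _ _ _ ω)
  set P : ℝ := (q : ℝ) ^ j with hP
  have hPpos : 0 < P := by positivity
  set t : ℝ := θ ^ (2 * j) with ht
  have ht0 : 0 ≤ t := by positivity
  have hPt : P * t ≤ 1 := by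
    have : P * t = ((q : ℝ) * θ ^ 2) ^ j := by
      rw [hP, ht, mul_pow, pow_mul]
    rw [this]
    exact pow_le_one₀ (by positivity) hqθ
  have hPt0 : 0 ≤ P * t := by positivity
  set lam : ℝ := 4 * x * P with hlam
  have hlam0 : 0 ≤ lam := by positivity
  set S := Shω (G := G) (θ := θ) (g := g) l n a b with hS
  have hSb : BM S := Shω_bm_aux hG hθ hE l
  have hmgf : ∀ s, ∫ ω, Zω G θ g n a b s ω * Real.exp (lam * S ω) ∂Lam J ≤ Real.exp (P * (lam * t * V₀ + (lam * t) ^ 2 / 8)) :=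
    fun s => shell_mgf hG hθ hqθ hE j l n hj hjn hV a b hab s lam hlam0
  set K := Real.exp (-(lam * (V₀ + x))) with hK
  have hKpos : 0 < K := Real.exp_pos _
  have hrho : BM (rhoω G θ g n a b) := rho_bm hG hθ hqθ hE n a b
  have hexpS : BM (fun ω => Real.exp (lam * S ω)) := bm_exp_mul hSb lam
  have hint : ∫ ω, rhoω G θ g n a b ω * (K * Real.exp (lam * S ω)) ∂Lam J ≤ K * Real.exp (P * (lam * t * V₀ + (lam * t) ^ 2 / 8)) := by
    have e1 : ∀ ω, rhoω G θ g n a b ω * (K * Real.exp (lam * S ω)) =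
        K * ((1 / 2) * (Zω G θ g n a b true ω * Real.exp (lam * S ω)) + (1 / 2) * (Zω G θ g n a b false ω * Real.exp (lam * S ω))) := by
      intro ω
      simp only [rhoω]
      ring
    simp_rw [e1]
    have hb : ∀ s, BM (fun ω => (1 / 2 : ℝ) * (Zω G θ g n a b s ω * Real.exp (lam * S ω))) := fun s =>
      (BM.const _).mul ((Zω_bm hG hθ hE s).mul hexpS)
    rw [integral_const_mul, integral_add ((hb true).integrable _) ((hb false).integrable _), integral_const_mul, integral_const_mul]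
    refine mul_le_mul_of_nonneg_left ?_ hKpos.le
    have h1 := hmgf true
    have h2 := hmgf false
    linarith
  have hpt : ∀ ω, rhoω G θ g n a b ω * (if V₀ + x < S ω then (1 : ℝ) else 0) ≤ rhoω G θ g n a b ω * (K * Real.exp (lam * S ω)) := by
    intro ω
    refine mul_le_mul_of_nonneg_left ?_ (rho_pos hG hθ hqθ hE hab n ω).le
    split_ifs with h
    · rw [hK, ← Real.exp_add]
      refine Real.one_le_exp ?_
      have := mul_le_mul_of_nonneg_left h.le hlam0
      linarith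
    · positivity
  have hmono : Jt G θ g n a b (fun ω => if V₀ + x < S ω then 1 else 0) ≤ ∫ ω, rhoω G θ g n a b ω * (K * Real.exp (lam * S ω)) ∂Lam J := by
    refine integral_mono_of_nonneg (Filter.Eventually.of_forall fun ω => ?_)
      ((hrho.mul ((BM.const _).mul hexpS)).integrable _) (Filter.Eventually.of_forall hpt)
    refine mul_nonneg (rho_pos hG hθ hqθ hE hab n ω).le ?_
    simp only
    split_ifs <;> norm_num
  refine hmono.trans (hint.trans ?_)
  rw [hK, ← Real.exp_add]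
  refine Real.exp_le_exp.2 ?_
  have hlamP : P * (lam * t) ^ 2 / 8 = 2 * x ^ 2 * P * (P * t) ^ 2 := by
    rw [hlam]
    ring
  have h1 : P * (lam * t * V₀) = lam * V₀ * (P * t) := by ring
  have h2 : lam * V₀ * (P * t) ≤ lam * V₀ * 1 := mul_le_mul_of_nonneg_left hPt (by positivity)
  have h3 : (P * t) ^ 2 ≤ 1 := pow_le_one₀ hPt0 hPt
  have h4 : 2 * x ^ 2 * P * (P * t) ^ 2 ≤ 2 * x ^ 2 * P * 1 := mul_le_mul_of_nonneg_left h3 (by positivity)
  have h5 : lam * x = 4 * x ^ 2 * P := by rw [hlam]; ring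
  have h6 : P * (lam * t * V₀ + (lam * t) ^ 2 / 8) = P * (lam * t * V₀) + P * (lam * t) ^ 2 / 8 := by ring
  rw [h6, hlamP, h1]
  nlinarith


end shellsAux

end ShellAux

section shells

variable (hG : RegTree G q) (hθ : Adm θ) (hqθ : (q : ℝ) * θ ^ 2 ≤ 1) (hE : Exper bl Fl g)
include hG hθ hqθ hE

theorem Shω_nonneg (l : ℕ) (hab : G.Adj a b) (ω : J → I) : 0 ≤ Shω (G := G) (θ := θ) (g := g) l n a b ω :=
  ShellAux.Shω_nonneg' l n a b ω

theorem Shω_le_one (l : ℕ) (hab : G.Adj a b) (ω : J → I) : Shω (G := G) (θ := θ) (g := g) l n a b ω ≤ 1 :=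
  ShellAux.Shω_le_one_aux hG hθ hqθ hE l hab ω

omit hqθ in
theorem Shω_bm (l : ℕ) : BM (Shω (G := G) (θ := θ) (g := g) l n a b) :=
  ShellAux.Shω_bm_aux hG hθ hE l

omit hqθ in
/-- Dependence on the subtree. The hypothesis `l ≤ n` is needed: for `l > n` the shell sees the vertices below depth `n`
(because of the truncated subtraction in `Shs`), see `ShellAux.Shω_dep_le` for the general form. -/
theorem Shω_dep (l : ℕ) (hl : l ≤ n) (hab : G.Adj a b) : DepS (Shω (G := G) (θ := θ) (g := g) l n a b) (subBl G bl n a b) :=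
  ShellAux.Shω_dep_aux hG hθ hE l hl hab

/-- **The mean of the shells decays**: with `A` the energy of the subtrees of depth at least `n₁`. -/
theorem shell_mean (hq : 2 ≤ q) {A : ℝ} (hA0 : 0 ≤ A) {n₁ : ℕ}
    (hA : ∀ a' b', G.Adj a' b' → ∀ m, n₁ ≤ m → A ≤ Jt G θ g m a' b' (fun ω => Tω G θ g m a' b' ω ^ 2))
    {l : ℕ} (hn : n₁ + l + 1 ≤ n) (hab : G.Adj a b) (s : Bool) :
    ∫ ω, Zω G θ g n a b s ω * Shω (G := G) (θ := θ) (g := g) (l + 1) n a b ω ∂Lam J ≤
      ((q : ℝ) * θ ^ 2 * (1 - varpi θ A)) ^ l :=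
  ShellAux.shell_mean_aux hG hθ hqθ hE hq hA0 hA hn hab s

/-- **Concentration of the shells**: the sum over `q^j` independent subtrees. -/
theorem shell_tail (hq : 2 ≤ q) {V₀ : ℝ} {l j : ℕ} (hj : j ≤ l) (hjn : j ≤ n)
    (hV : ∀ a' b', G.Adj a' b' → ∀ s', ∫ ω, Zω G θ g (n - j) a' b' s' ω * Shω (G := G) (θ := θ) (g := g) (l - j) (n - j) a' b' ω ∂Lam J ≤ V₀)
    (hab : G.Adj a b) {x : ℝ} (hx : 0 ≤ x) :
    Jt G θ g n a b (fun ω => if V₀ + x < Shω (G := G) (θ := θ) (g := g) l n a b ω then 1 else 0) ≤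
      Real.exp (-2 * (q : ℝ) ^ j * x ^ 2) :=
  ShellAux.shell_tail_aux hG hθ hqθ hE hq hj hjn hV hab hx

end shells

/-! ### Monotonicity of convex functionals -/

section blackwell

/-- The perspective functional. -/
noncomputable def PX (ξ : ℝ → ℝ) (x y : ℝ) : ℝ := ((x + y) / 2) * ξ ((x - y) / (x + y))

/-- Comparison of two experiments: `g'` is `g` times an independent mean one experiment. -/
structure Refines (bl : V → Set J) (Fl : Set J) (g g' : V → Bool → (J → I) → ℝ) : Prop where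
  left : Exper bl Fl g
  right : Exper bl Fl g'
  factor : ∃ h : V → Bool → (J → I) → ℝ, Exper bl Fl h ∧ (∀ v s ω, g' v s ω = g v s ω * h v s ω) ∧
    (∀ v s s', ∫ ω, g v s ω * h v s' ω ∂Lam J = 1) ∧ (∀ v, ∃ B B' : Set J, Disjoint B B' ∧ (∀ s, DepS (g v s) B) ∧ ∀ s, DepS (h v s) B')

namespace BW

variable {ξ : ℝ → ℝ} {Ω : Type*} [MeasurableSpace Ω]

theorem PX_mul_left (ξ : ℝ → ℝ) {r : ℝ} (hr : r ≠ 0) (x y : ℝ) :
    PX ξ (r * x) (r * y) = r * PX ξ x y := by
  unfold PX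
  have : (r * x - r * y) / (r * x + r * y) = (x - y) / (x + y) := by
    rw [← mul_sub, ← mul_add, mul_div_mul_left _ _ hr]
  rw [this]; ring

theorem ratio_mem_Icc {x y : ℝ} (hx : 0 ≤ x) (hy : 0 ≤ y) (hxy : 0 < x + y) :
    (x - y) / (x + y) ∈ Icc (-1 : ℝ) 1 := by
  constructor
  · rw [le_div_iff₀ hxy]; linarith
  · rw [div_le_iff₀ hxy]; linarith

theorem BM_PX (hm : Measurable ξ) (hc : ContinuousOn ξ (Icc (-1) 1)) {X Y : Ω → ℝ} (hX : BM X)
    (hY : BM Y) (hX0 : ∀ ω, 0 < X ω) (hY0 : ∀ ω, 0 < Y ω) : BM (fun ω => PX ξ (X ω) (Y ω)) := by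
  obtain ⟨C, hC⟩ := isCompact_Icc.exists_bound_of_continuousOn hc
  obtain ⟨mX, CX, hCX⟩ := hX
  obtain ⟨mY, CY, hCY⟩ := hY
  refine ⟨((mX.add mY).div_const 2).mul (hm.comp ((mX.sub mY).div (mX.add mY))),
    (CX + CY) / 2 * C, fun ω => ?_⟩
  have h0 : (0 : ℝ) ≤ C := (norm_nonneg _).trans (hC 0 (by norm_num))
  have h1 := hC _ (ratio_mem_Icc (hX0 ω).le (hY0 ω).le (add_pos (hX0 ω) (hY0 ω)))
  rw [Real.norm_eq_abs] at h1
  unfold PX
  rw [abs_mul]
  have h2 : |(X ω + Y ω) / 2| ≤ (CX + CY) / 2 := by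
    rw [abs_div, abs_of_pos (by norm_num : (0 : ℝ) < 2)]
    have := abs_add_le (X ω) (Y ω)
    have h3 := hCX ω
    have h4 := hCY ω
    linarith
  have h5 : 0 ≤ (CX + CY) / 2 := (abs_nonneg _).trans h2
  exact mul_le_mul h2 h1 (abs_nonneg _) h5

theorem integrable_inner (B : Set J) {F : (J → I) → ℝ} (hF : BM F) :
    Integrable (fun ω => ∫ ω', F (glue B ω ω') ∂Lam J) (Lam J) := by
  have hG : BM (fun p : (J → I) × (J → I) => F (glue B p.1 p.2)) := hF.comp (measurable_glue B)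
  exact (hG.integrable ((Lam J).prod (Lam J))).integral_prod_left

/-- Freezing the coordinates outside a block. -/
theorem hybrid_step {B : Set J} (hm : Measurable ξ) (hc : ContinuousOn ξ (Icc (-1) 1))
    {A₁ A₂ M₁ M₂ M₁' M₂' : (J → I) → ℝ}
    (hA₁ : BM A₁) (hA₂ : BM A₂) (hM₁ : BM M₁) (hM₂ : BM M₂) (hM₁' : BM M₁') (hM₂' : BM M₂')
    (pA₁ : ∀ ω, 0 < A₁ ω) (pA₂ : ∀ ω, 0 < A₂ ω) (pM₁ : ∀ ω, 0 < M₁ ω) (pM₂ : ∀ ω, 0 < M₂ ω)
    (pM₁' : ∀ ω, 0 < M₁' ω) (pM₂' : ∀ ω, 0 < M₂' ω)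
    (dA₁ : DepS A₁ Bᶜ) (dA₂ : DepS A₂ Bᶜ) (dM₁ : DepS M₁ B) (dM₂ : DepS M₂ B)
    (dM₁' : DepS M₁' B) (dM₂' : DepS M₂' B)
    (H : ∀ x y : ℝ, 0 < x → 0 < y →
      ∫ ω, PX ξ (x * M₁ ω) (y * M₂ ω) ∂Lam J ≤ ∫ ω, PX ξ (x * M₁' ω) (y * M₂' ω) ∂Lam J) :
    ∫ ω, PX ξ (A₁ ω * M₁ ω) (A₂ ω * M₂ ω) ∂Lam J ≤
      ∫ ω, PX ξ (A₁ ω * M₁' ω) (A₂ ω * M₂' ω) ∂Lam J := by
  have hF : BM (fun ω => PX ξ (A₁ ω * M₁ ω) (A₂ ω * M₂ ω)) :=
    BM_PX hm hc (hA₁.mul hM₁) (hA₂.mul hM₂) (fun ω => mul_pos (pA₁ ω) (pM₁ ω))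
      (fun ω => mul_pos (pA₂ ω) (pM₂ ω))
  have hF' : BM (fun ω => PX ξ (A₁ ω * M₁' ω) (A₂ ω * M₂' ω)) :=
    BM_PX hm hc (hA₁.mul hM₁') (hA₂.mul hM₂') (fun ω => mul_pos (pA₁ ω) (pM₁' ω))
      (fun ω => mul_pos (pA₂ ω) (pM₂' ω))
  rw [← integral_glue B hF, ← integral_glue B hF']
  refine integral_mono (integrable_inner B hF) (integrable_inner B hF') fun ω => ?_
  simp only [dA₁.glue_left, dA₂.glue_left, dM₁.glue_right, dM₂.glue_right, dM₁'.glue_right,
    dM₂'.glue_right]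
  exact H _ _ (pA₁ ω) (pA₂ ω)

/-- Replacing factors one block at a time. -/
theorem hybrid {ι : Type*} (D : Finset ι) (hm : Measurable ξ) (hc : ContinuousOn ξ (Icc (-1) 1))
    {B : ι → Set J} (hB : ∀ d ∈ D, ∀ d' ∈ D, d ≠ d' → Disjoint (B d) (B d'))
    {M M' : ι → Bool → (J → I) → ℝ}
    (hM : ∀ d ∈ D, ∀ s, BM (M d s)) (hM' : ∀ d ∈ D, ∀ s, BM (M' d s))
    (pM : ∀ d ∈ D, ∀ s ω, 0 < M d s ω) (pM' : ∀ d ∈ D, ∀ s ω, 0 < M' d s ω)
    (dM : ∀ d ∈ D, ∀ s, DepS (M d s) (B d)) (dM' : ∀ d ∈ D, ∀ s, DepS (M' d s) (B d))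
    (H : ∀ d ∈ D, ∀ x y : ℝ, 0 < x → 0 < y →
      ∫ ω, PX ξ (x * M d true ω) (y * M d false ω) ∂Lam J ≤
        ∫ ω, PX ξ (x * M' d true ω) (y * M' d false ω) ∂Lam J)
    {R : Bool → (J → I) → ℝ} (hR : ∀ s, BM (R s)) (pR : ∀ s ω, 0 < R s ω)
    (dR : ∀ d ∈ D, ∀ s, DepS (R s) (B d)ᶜ) :
    ∫ ω, PX ξ (R true ω * ∏ d ∈ D, M d true ω) (R false ω * ∏ d ∈ D, M d false ω) ∂Lam J ≤
      ∫ ω, PX ξ (R true ω * ∏ d ∈ D, M' d true ω) (R false ω * ∏ d ∈ D, M' d false ω) ∂Lam J := by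
  classical
  induction D using Finset.induction_on generalizing R with
  | empty => simp
  | insert d₀ D₀ hd₀ ih =>
    have hmem : d₀ ∈ insert d₀ D₀ := Finset.mem_insert_self _ _
    have hsub : ∀ d ∈ D₀, d ∈ insert d₀ D₀ := fun d hd => Finset.mem_insert_of_mem hd
    have hdis : ∀ d ∈ D₀, Disjoint (B d₀) (B d) := fun d hd =>
      hB d₀ hmem d (hsub d hd) (fun e => hd₀ (e ▸ hd))
    -- the product over `D₀` does not see the block of `d₀`
    have dA : ∀ s, DepS (fun ω => R s ω * ∏ d ∈ D₀, M d s ω) (B d₀)ᶜ := fun s ω ω' hω => by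
      simp only []
      rw [dR d₀ hmem s ω ω' hω]
      congr 1
      refine Finset.prod_congr rfl fun d hd => dM d (hsub d hd) s ω ω' fun j hj => hω j ?_
      exact fun hj' => (Set.disjoint_left.1 (hdis d hd)) hj' hj
    have step1 := hybrid_step (B := B d₀) (A₁ := fun ω => R true ω * ∏ d ∈ D₀, M d true ω)
      (A₂ := fun ω => R false ω * ∏ d ∈ D₀, M d false ω) (M₁ := M d₀ true) (M₂ := M d₀ false)
      (M₁' := M' d₀ true) (M₂' := M' d₀ false) hm hc
      ((hR _).mul (BM.finset_prod _ fun d hd => hM d (hsub d hd) _))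
      ((hR _).mul (BM.finset_prod _ fun d hd => hM d (hsub d hd) _))
      (hM _ hmem _) (hM _ hmem _) (hM' _ hmem _) (hM' _ hmem _)
      (fun ω => mul_pos (pR _ _) (Finset.prod_pos fun d hd => pM d (hsub d hd) _ _))
      (fun ω => mul_pos (pR _ _) (Finset.prod_pos fun d hd => pM d (hsub d hd) _ _))
      (pM _ hmem _) (pM _ hmem _) (pM' _ hmem _) (pM' _ hmem _)
      (dA _) (dA _) (dM _ hmem _) (dM _ hmem _) (dM' _ hmem _) (dM' _ hmem _) (H _ hmem)
    have step2 := ih (fun d hd d' hd' => hB d (hsub d hd) d' (hsub d' hd'))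
      (fun d hd => hM d (hsub d hd)) (fun d hd => hM' d (hsub d hd))
      (fun d hd => pM d (hsub d hd)) (fun d hd => pM' d (hsub d hd))
      (fun d hd => dM d (hsub d hd)) (fun d hd => dM' d (hsub d hd))
      (fun d hd => H d (hsub d hd))
      (R := fun s ω => R s ω * M' d₀ s ω) (fun s => (hR s).mul (hM' _ hmem s))
      (fun s ω => mul_pos (pR _ _) (pM' _ hmem _ _))
      (fun d hd s ω ω' hω => by
        simp only []
        rw [dR d (hsub d hd) s ω ω' hω]
        congr 1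
        refine dM' d₀ hmem s ω ω' fun j hj => hω j ?_
        exact fun hj' => (Set.disjoint_left.1 (hdis d hd)) hj hj')
    simp only [Finset.prod_insert hd₀]
    calc ∫ ω, PX ξ (R true ω * (M d₀ true ω * ∏ d ∈ D₀, M d true ω))
            (R false ω * (M d₀ false ω * ∏ d ∈ D₀, M d false ω)) ∂Lam J
        = ∫ ω, PX ξ ((R true ω * ∏ d ∈ D₀, M d true ω) * M d₀ true ω)
            ((R false ω * ∏ d ∈ D₀, M d false ω) * M d₀ false ω) ∂Lam J := by
          congr 1; funext ω; congr 1 <;> ring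
      _ ≤ ∫ ω, PX ξ ((R true ω * ∏ d ∈ D₀, M d true ω) * M' d₀ true ω)
            ((R false ω * ∏ d ∈ D₀, M d false ω) * M' d₀ false ω) ∂Lam J := step1
      _ = ∫ ω, PX ξ ((R true ω * M' d₀ true ω) * ∏ d ∈ D₀, M d true ω)
            ((R false ω * M' d₀ false ω) * ∏ d ∈ D₀, M d false ω) ∂Lam J := by
          congr 1; funext ω; congr 1 <;> ring
      _ ≤ ∫ ω, PX ξ ((R true ω * M' d₀ true ω) * ∏ d ∈ D₀, M' d true ω)
            ((R false ω * M' d₀ false ω) * ∏ d ∈ D₀, M' d false ω) ∂Lam J := step2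
      _ = ∫ ω, PX ξ (R true ω * (M' d₀ true ω * ∏ d ∈ D₀, M' d true ω))
            (R false ω * (M' d₀ false ω * ∏ d ∈ D₀, M' d false ω)) ∂Lam J := by
          congr 1; funext ω; congr 1 <;> ring

/-- Adding an experiment of mean one: Jensen. -/
theorem jensen_step (hξ : ConvexOn ℝ (Icc (-1) 1) ξ) (hc : ContinuousOn ξ (Icc (-1) 1))
    {M₁ M₂ : (J → I) → ℝ} (hM₁ : BM M₁) (hM₂ : BM M₂) (pM₁ : ∀ ω, 0 < M₁ ω) (pM₂ : ∀ ω, 0 < M₂ ω)
    (iM₁ : ∫ ω, M₁ ω ∂Lam J = 1) (iM₂ : ∫ ω, M₂ ω ∂Lam J = 1) {x y : ℝ} (hx : 0 < x) (hy : 0 < y) :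
    ∫ _ω : J → I, PX ξ (x * 1) (y * 1) ∂Lam J ≤ ∫ ω, PX ξ (x * M₁ ω) (y * M₂ ω) ∂Lam J := by
  have h := perspective_jensen hξ hc (X := fun ω => x * M₁ ω) (Y := fun ω => y * M₂ ω)
    ((BM.const x).mul hM₁) ((BM.const y).mul hM₂) (fun ω => mul_pos hx (pM₁ ω))
    (fun ω => mul_pos hy (pM₂ ω))
  rw [integral_const_mul, integral_const_mul, iM₁, iM₂, mul_one, mul_one] at h
  simp only [integral_const, probReal_univ, smul_eq_mul, one_mul, mul_one]
  exact h

/-! ### The convex function of the message -/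

/-- The function of the field of a child. -/
noncomputable def psiP (ξ : ℝ → ℝ) (x y u : ℝ) : ℝ := PX ξ (x * (1 + u)) (y * (1 - u))

/-- Its symmetrisation. -/
noncomputable def psiS (ξ : ℝ → ℝ) (x y u : ℝ) : ℝ := (psiP ξ x y u + psiP ξ x y (-u)) / 2

theorem den_pos {x y u : ℝ} (hx : 0 < x) (hy : 0 < y) (hu : u ∈ Icc (-1 : ℝ) 1) :
    0 < x * (1 + u) + y * (1 - u) := by
  obtain ⟨h1, h2⟩ := hu
  rcases le_total u 0 with h | h
  · have : 0 < y * (1 - u) := mul_pos hy (by linarith)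
    have : 0 ≤ x * (1 + u) := mul_nonneg hx.le (by linarith)
    linarith
  · have : 0 < x * (1 + u) := mul_pos hx (by linarith)
    have : 0 ≤ y * (1 - u) := mul_nonneg hy.le (by linarith)
    linarith

theorem psiP_convex (hξ : ConvexOn ℝ (Icc (-1) 1) ξ) {x y : ℝ} (hx : 0 < x) (hy : 0 < y) :
    ConvexOn ℝ (Icc (-1) 1) (psiP ξ x y) := by
  refine ⟨convex_Icc _ _, fun u₁ hu₁ u₂ hu₂ a b ha hb hab => ?_⟩
  simp only [smul_eq_mul]
  have hu : a * u₁ + b * u₂ ∈ Icc (-1 : ℝ) 1 := (convex_Icc _ _) hu₁ hu₂ ha hb hab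
  set x₁ := x * (1 + u₁) with hx₁
  set y₁ := y * (1 - u₁) with hy₁
  set x₂ := x * (1 + u₂) with hx₂
  set y₂ := y * (1 - u₂) with hy₂
  have p₁ : 0 < x₁ + y₁ := den_pos hx hy hu₁
  have p₂ : 0 < x₂ + y₂ := den_pos hx hy hu₂
  have p₀ := den_pos hx hy hu
  have e₁ : x * (1 + (a * u₁ + b * u₂)) = a * x₁ + b * x₂ := by
    have : a = 1 - b := by linarith
    rw [hx₁, hx₂, this]; ring
  have e₂ : y * (1 - (a * u₁ + b * u₂)) = a * y₁ + b * y₂ := by
    have : a = 1 - b := by linarith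
    rw [hy₁, hy₂, this]; ring
  have t₁ : (x₁ - y₁) / (x₁ + y₁) ∈ Icc (-1 : ℝ) 1 :=
    ratio_mem_Icc (mul_nonneg hx.le (by linarith [hu₁.1])) (mul_nonneg hy.le (by linarith [hu₁.2])) p₁
  have t₂ : (x₂ - y₂) / (x₂ + y₂) ∈ Icc (-1 : ℝ) 1 :=
    ratio_mem_Icc (mul_nonneg hx.le (by linarith [hu₂.1])) (mul_nonneg hy.le (by linarith [hu₂.2])) p₂
  unfold psiP PX
  rw [e₁, e₂]
  rw [e₁, e₂] at p₀
  set W := a * x₁ + b * x₂ + (a * y₁ + b * y₂) with hW
  have hα : 0 ≤ a * (x₁ + y₁) / W := div_nonneg (mul_nonneg ha p₁.le) p₀.le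
  have hβ : 0 ≤ b * (x₂ + y₂) / W := div_nonneg (mul_nonneg hb p₂.le) p₀.le
  have hαβ : a * (x₁ + y₁) / W + b * (x₂ + y₂) / W = 1 := by
    rw [← add_div, div_eq_one_iff_eq p₀.ne']
    rw [hW]; ring
  have hconv := hξ.2 t₁ t₂ hα hβ hαβ
  simp only [smul_eq_mul] at hconv
  have hT : (a * x₁ + b * x₂ - (a * y₁ + b * y₂)) / W =
      a * (x₁ + y₁) / W * ((x₁ - y₁) / (x₁ + y₁)) + b * (x₂ + y₂) / W * ((x₂ - y₂) / (x₂ + y₂)) := by
    field_simp
    ring
  rw [hT]
  have hW2 : 0 < W / 2 := by positivity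
  have := mul_le_mul_of_nonneg_left hconv hW2.le
  calc W / 2 * ξ (a * (x₁ + y₁) / W * ((x₁ - y₁) / (x₁ + y₁)) + b * (x₂ + y₂) / W * ((x₂ - y₂) / (x₂ + y₂)))
      ≤ W / 2 * (a * (x₁ + y₁) / W * ξ ((x₁ - y₁) / (x₁ + y₁)) + b * (x₂ + y₂) / W * ξ ((x₂ - y₂) / (x₂ + y₂))) := this
    _ = a * ((x₁ + y₁) / 2 * ξ ((x₁ - y₁) / (x₁ + y₁))) + b * ((x₂ + y₂) / 2 * ξ ((x₂ - y₂) / (x₂ + y₂))) := by
        field_simp

theorem psiP_continuousOn (hc : ContinuousOn ξ (Icc (-1) 1)) {x y : ℝ} (hx : 0 < x) (hy : 0 < y) :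
    ContinuousOn (psiP ξ x y) (Icc (-1) 1) := by
  unfold psiP PX
  have hd : ∀ u ∈ Icc (-1 : ℝ) 1, x * (1 + u) + y * (1 - u) ≠ 0 := fun u hu => (den_pos hx hy hu).ne'
  refine ContinuousOn.mul (by fun_prop) ?_
  refine hc.comp (ContinuousOn.div (by fun_prop) (by fun_prop) hd) fun u hu => ?_
  exact ratio_mem_Icc (mul_nonneg hx.le (by linarith [hu.1])) (mul_nonneg hy.le (by linarith [hu.2]))
    (den_pos hx hy hu)

theorem psiP_measurable (hm : Measurable ξ) (x y : ℝ) : Measurable (psiP ξ x y) := by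
  unfold psiP PX
  fun_prop

theorem psiS_convex (hξ : ConvexOn ℝ (Icc (-1) 1) ξ) {x y : ℝ} (hx : 0 < x) (hy : 0 < y) :
    ConvexOn ℝ (Icc (-1) 1) (psiS ξ x y) := by
  have h := psiP_convex hξ hx hy
  refine ⟨convex_Icc _ _, fun u₁ hu₁ u₂ hu₂ a b ha hb hab => ?_⟩
  have h1 := h.2 hu₁ hu₂ ha hb hab
  have hn : ∀ {u : ℝ}, u ∈ Icc (-1 : ℝ) 1 → -u ∈ Icc (-1 : ℝ) 1 := fun {u} hu =>
    ⟨by linarith [hu.2], by linarith [hu.1]⟩
  have h2 := h.2 (hn hu₁) (hn hu₂) ha hb hab
  simp only [smul_eq_mul] at h1 h2 ⊢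
  unfold psiS
  have e : -(a * u₁ + b * u₂) = a * -u₁ + b * -u₂ := by ring
  rw [e]
  linarith

theorem psiS_neg (ξ : ℝ → ℝ) (x y u : ℝ) : psiS ξ x y (-u) = psiS ξ x y u := by
  unfold psiS
  rw [neg_neg, add_comm]

/-- Monotonicity of an even convex function in the absolute value. -/
theorem even_convex_mono {f : ℝ → ℝ} (hf : ConvexOn ℝ (Icc (-1) 1) f) (he : ∀ u, f (-u) = f u)
    {u v : ℝ} (huv : |u| ≤ |v|) (hv : |v| ≤ 1) : f u ≤ f v := by
  rcases eq_or_ne v 0 with rfl | hv0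
  · have : u = 0 := by simpa using huv
    rw [this]
  · have hv' : 0 < |v| := abs_pos.2 hv0
    have hw : f v = f |v| := by
      rcases abs_cases v with ⟨h, -⟩ | ⟨h, -⟩
      · rw [h]
      · rw [h, he]
    rw [hw]
    have h1 : |v| ∈ Icc (-1 : ℝ) 1 := ⟨by linarith, hv⟩
    have h2 : -|v| ∈ Icc (-1 : ℝ) 1 := ⟨by linarith, by linarith⟩
    have hu1 := abs_le.1 huv
    have ha : 0 ≤ (|v| + u) / (2 * |v|) := div_nonneg (by linarith) (by linarith)
    have hb : 0 ≤ (|v| - u) / (2 * |v|) := div_nonneg (by linarith) (by linarith)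
    have hab : (|v| + u) / (2 * |v|) + (|v| - u) / (2 * |v|) = 1 := by
      field_simp
      ring
    have := hf.2 h1 h2 ha hb hab
    simp only [smul_eq_mul, he] at this
    have e : (|v| + u) / (2 * |v|) * |v| + (|v| - u) / (2 * |v|) * -|v| = u := by
      field_simp
      ring
    rw [e] at this
    calc f u ≤ (|v| + u) / (2 * |v|) * f |v| + (|v| - u) / (2 * |v|) * f |v| := this
      _ = f |v| := by rw [← add_mul, hab, one_mul]

theorem Msgω_bm (hG : RegTree G q) (hθ : Adm θ) (hE : Exper bl Fl g) {n : ℕ} {b d : V} (s : Bool) :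
    BM (Msgω G θ g n b d s) := by
  have : Msgω G θ g n b d s =
      fun ω => ef θ s true * Zω G θ g n b d true ω + ef θ s false * Zω G θ g n b d false ω := by
    funext ω
    simp [Msgω]
  rw [this]
  exact ((BM.const _).mul (Zω_bm hG hθ hE _)).add ((BM.const _).mul (Zω_bm hG hθ hE _))

theorem rhoω_pos (hG : RegTree G q) (hθ : Adm θ) (hE : Exper bl Fl g) {n : ℕ} {b d : V}
    (hbd : G.Adj b d) (ω : J → I) : 0 < rhoω G θ g n b d ω := by
  have h1 := Zω_pos hG hθ hE (n := n) hbd true ω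
  have h2 := Zω_pos hG hθ hE (n := n) hbd false ω
  unfold rhoω
  positivity

theorem abs_θT_lt (hG : RegTree G q) (hθ : Adm θ) (hE : Exper bl Fl g) {θ₁ : ℝ} (h0 : 0 ≤ θ₁)
    (h1 : θ₁ ≤ 1) {n : ℕ} {b d : V} (hbd : G.Adj b d) (ω : J → I) :
    |θ₁ * Tω G θ g n b d ω| < 1 := by
  have h := abs_Tω_lt hG hθ hE (n := n) hbd ω
  rw [abs_mul, abs_of_nonneg h0]
  have := abs_nonneg (Tω G θ g n b d ω)
  nlinarith

theorem Msgω_pos (hG : RegTree G q) (hθ : Adm θ) (hE : Exper bl Fl g) {n : ℕ} {b d : V}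
    (hbd : G.Adj b d) (s : Bool) (ω : J → I) : 0 < Msgω G θ g n b d s ω := by
  rw [Msgω_eq hG hθ hE hbd]
  refine mul_pos (rhoω_pos hG hθ hE hbd ω) ?_
  have h := abs_lt.1 (abs_θT_lt hG hθ hE hθ.nonneg hθ.lt_one.le (n := n) hbd ω)
  cases s <;> simp [spin] <;> linarith [h.1, h.2]

theorem Msgω_dep (hG : RegTree G q) (hθ : Adm θ) (hE : Exper bl Fl g) {n : ℕ} {b d : V}
    (hbd : G.Adj b d) (s : Bool) : DepS (Msgω G θ g n b d s) (subBl G bl n b d) := by
  intro ω ω' hω
  unfold Msgω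
  refine Finset.sum_congr rfl fun s' _ => ?_
  rw [Zω_dep hG hθ hE hbd s' ω ω' hω]

theorem subBl_mono (hG : RegTree G q) {b d : V} (hbd : G.Adj b d) {n n' : ℕ} (h : n ≤ n') :
    subBl G bl n b d ⊆ subBl G bl n' b d := by
  intro j hj
  simp only [subBl, mem_iUnion, exists_prop] at hj ⊢
  obtain ⟨v, hv, hj⟩ := hj
  obtain ⟨h1, h2⟩ := (mem_subT hG hbd n v).1 hv
  exact ⟨v, (mem_subT hG hbd n' v).2 ⟨by omega, h2⟩, hj⟩

theorem Jt_eq_PX (G : SimpleGraph V) [G.LocallyFinite] (θ : ℝ) (g : V → Bool → (J → I) → ℝ)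
    (n : ℕ) (a b : V) (ξ : ℝ → ℝ) :
    Jt G θ g n a b (fun ω => ξ (Tω G θ g n a b ω)) =
      ∫ ω, PX ξ (Zω G θ g n a b true ω) (Zω G θ g n a b false ω) ∂Lam J := rfl

theorem DepS_inter {φ : (J → I) → ℝ} {B B' : Set J} (h : DepS φ B) (h' : DepS φ B') :
    DepS φ (B ∩ B') := by
  intro ω ω' hω
  have h1 : φ ω = φ (fun j => if j ∈ B then ω j else ω' j) := h _ _ fun j hj => by simp [hj]
  rw [h1]
  refine h' _ _ fun j hj => ?_
  by_cases hjB : j ∈ B
  · simp only [hjB, if_true]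
    exact hω j ⟨hjB, hj⟩
  · simp [hjB]

theorem bm_psiP (hm : Measurable ξ) (hc : ContinuousOn ξ (Icc (-1) 1)) {x y : ℝ} (hx : 0 < x)
    (hy : 0 < y) {u : (J → I) → ℝ} (hu : BM u) (hu1 : ∀ ω, |u ω| < 1) :
    BM (fun ω => psiP ξ x y (u ω)) := by
  refine BM_PX hm hc ((BM.const x).mul ((BM.const 1).add hu)) ((BM.const y).mul ((BM.const 1).sub hu))
    (fun ω => mul_pos hx ?_) (fun ω => mul_pos hy ?_)
  · linarith [(abs_lt.1 (hu1 ω)).1]
  · linarith [(abs_lt.1 (hu1 ω)).2]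

theorem msg_PX (hG : RegTree G q) (hθ : Adm θ) (hE : Exper bl Fl g) {n : ℕ} {b d : V}
    (hbd : G.Adj b d) (ξ : ℝ → ℝ) (x y : ℝ) :
    ∫ ω, PX ξ (x * Msgω G θ g n b d true ω) (y * Msgω G θ g n b d false ω) ∂Lam J =
      Jt G θ g n b d (fun ω => psiP ξ x y (θ * Tω G θ g n b d ω)) := by
  unfold Jt
  congr 1
  funext ω
  rw [Msgω_eq hG hθ hE hbd, Msgω_eq hG hθ hE hbd]
  have e1 : x * (rhoω G θ g n b d ω * (1 + spin true * (θ * Tω G θ g n b d ω))) =
      rhoω G θ g n b d ω * (x * (1 + θ * Tω G θ g n b d ω)) := by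
    simp only [spin, if_true]; ring
  have e2 : y * (rhoω G θ g n b d ω * (1 + spin false * (θ * Tω G θ g n b d ω))) =
      rhoω G θ g n b d ω * (y * (1 - θ * Tω G θ g n b d ω)) := by
    simp only [spin]; simp; ring
  rw [e1, e2, PX_mul_left ξ (rhoω_pos hG hθ hE hbd ω).ne']
  rfl

theorem bm_psiS (hm : Measurable ξ) (hc : ContinuousOn ξ (Icc (-1) 1)) {x y : ℝ} (hx : 0 < x)
    (hy : 0 < y) {u : (J → I) → ℝ} (hu : BM u) (hu1 : ∀ ω, |u ω| < 1) :
    BM (fun ω => psiS ξ x y (u ω)) := by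
  have h1 := bm_psiP hm hc hx hy hu hu1
  have h2 := bm_psiP hm hc hx hy hu.neg (fun ω => by rw [abs_neg]; exact hu1 ω)
  have : (fun ω => psiS ξ x y (u ω)) = fun ω => (psiP ξ x y (u ω) + psiP ξ x y (- u ω)) * (1 / 2) := by
    funext ω
    unfold psiS
    ring
  rw [this]
  exact (h1.add h2).mul (BM.const _)

theorem rhoω_bm (hG : RegTree G q) (hθ : Adm θ) (hE : Exper bl Fl g) {n : ℕ} {b d : V} :
    BM (rhoω G θ g n b d) := by
  have : rhoω G θ g n b d = fun ω => (Zω G θ g n b d true ω + Zω G θ g n b d false ω) * (1 / 2) := by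
    funext ω
    unfold rhoω
    ring
  rw [this]
  exact ((Zω_bm hG hθ hE true).add (Zω_bm hG hθ hE false)).mul (BM.const _)

/-- The flip symmetry of the field of the child. -/
theorem Jt_psiS (hG : RegTree G q) (hθ : Adm θ) (hE : Exper bl Fl g) {n : ℕ} {b d : V}
    (hbd : G.Adj b d) (hm : Measurable ξ) (hc : ContinuousOn ξ (Icc (-1) 1)) {x y : ℝ}
    (hx : 0 < x) (hy : 0 < y) {θ₁ : ℝ} (h0 : 0 ≤ θ₁) (h1 : θ₁ ≤ 1) :
    Jt G θ g n b d (fun ω => psiS ξ x y (θ₁ * Tω G θ g n b d ω)) =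
      Jt G θ g n b d (fun ω => psiP ξ x y (θ₁ * Tω G θ g n b d ω)) := by
  have hF : Measurable (fun t => psiP ξ x y (θ₁ * t)) :=
    (psiP_measurable hm x y).comp (measurable_const.mul measurable_id)
  have hflip := Jt_flip hG hθ hE hF (n := n) hbd
  have hT : BM (fun ω => θ₁ * Tω G θ g n b d ω) := (BM.const θ₁).mul (Tω_bm hG hθ hE)
  have hρ : BM (rhoω G θ g n b d) := rhoω_bm hG hθ hE
  have hu1 : ∀ ω, |θ₁ * Tω G θ g n b d ω| < 1 := abs_θT_lt hG hθ hE h0 h1 hbd
  have hb1 := hρ.mul (bm_psiP hm hc hx hy hT hu1)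
  have hb2 := hρ.mul (bm_psiP hm hc hx hy hT.neg (fun ω => by rw [abs_neg]; exact hu1 ω))
  have hflip' : ∫ ω, rhoω G θ g n b d ω * psiP ξ x y (θ₁ * Tω G θ g n b d ω) ∂Lam J =
      ∫ ω, rhoω G θ g n b d ω * psiP ξ x y (- (θ₁ * Tω G θ g n b d ω)) ∂Lam J := by
    simpa only [Jt, mul_neg] using hflip
  unfold Jt
  have e : ∀ ω, rhoω G θ g n b d ω * psiS ξ x y (θ₁ * Tω G θ g n b d ω) =
      (rhoω G θ g n b d ω * psiP ξ x y (θ₁ * Tω G θ g n b d ω) +
        rhoω G θ g n b d ω * psiP ξ x y (- (θ₁ * Tω G θ g n b d ω))) / 2 := by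
    intro ω
    unfold psiS
    ring
  simp only [e]
  rw [integral_div, integral_add (hb1.integrable _) (hb2.integrable _), ← hflip']
  ring

theorem psiS_measurable (hm : Measurable ξ) (x y : ℝ) : Measurable (psiS ξ x y) :=
  ((psiP_measurable hm x y).add ((psiP_measurable hm x y).comp measurable_neg)).div_const 2

theorem psiS_continuousOn (hc : ContinuousOn ξ (Icc (-1) 1)) {x y : ℝ} (hx : 0 < x) (hy : 0 < y) :
    ContinuousOn (psiS ξ x y) (Icc (-1) 1) := by
  have h1 := psiP_continuousOn hc hx hy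
  have h2 : ContinuousOn (fun u => psiP ξ x y (-u)) (Icc (-1) 1) :=
    h1.comp continuousOn_neg fun u hu => ⟨by linarith [hu.2], by linarith [hu.1]⟩
  exact (h1.add h2).div_const 2

/-- Replacing the subtree of a child. -/
theorem child_step (hG : RegTree G q) {θ θ' : ℝ} (hθ : Adm θ) (hθ' : Adm θ') (hθθ' : θ ≤ θ')
    {g g' : V → Bool → (J → I) → ℝ} (hE : Exper bl Fl g) (hE' : Exper bl Fl g') {n n' : ℕ} {b d : V}
    (hbd : G.Adj b d)
    (IH : ∀ ξ₁ : ℝ → ℝ, Measurable ξ₁ → ContinuousOn ξ₁ (Icc (-1) 1) → ConvexOn ℝ (Icc (-1) 1) ξ₁ →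
      (∀ t, ξ₁ (-t) = ξ₁ t) → Jt G θ g n b d (fun ω => ξ₁ (Tω G θ g n b d ω)) ≤
        Jt G θ' g' n' b d (fun ω => ξ₁ (Tω G θ' g' n' b d ω)))
    (hm : Measurable ξ) (hc : ContinuousOn ξ (Icc (-1) 1)) (hξ : ConvexOn ℝ (Icc (-1) 1) ξ)
    {x y : ℝ} (hx : 0 < x) (hy : 0 < y) :
    ∫ ω, PX ξ (x * Msgω G θ g n b d true ω) (y * Msgω G θ g n b d false ω) ∂Lam J ≤
      ∫ ω, PX ξ (x * Msgω G θ' g' n' b d true ω) (y * Msgω G θ' g' n' b d false ω) ∂Lam J := by
  rw [msg_PX hG hθ hE hbd, msg_PX hG hθ' hE' hbd,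
    ← Jt_psiS hG hθ hE hbd hm hc hx hy hθ.nonneg hθ.lt_one.le,
    ← Jt_psiS hG hθ' hE' hbd hm hc hx hy hθ'.nonneg hθ'.lt_one.le]
  have hS := psiS_convex hξ hx hy
  have hT : BM (Tω G θ g n b d) := Tω_bm hG hθ hE
  have step1 : Jt G θ g n b d (fun ω => psiS ξ x y (θ * Tω G θ g n b d ω)) ≤
      Jt G θ g n b d (fun ω => psiS ξ x y (θ' * Tω G θ g n b d ω)) := by
    unfold Jt
    refine integral_mono
      (((rhoω_bm hG hθ hE).mul (bm_psiS hm hc hx hy ((BM.const θ).mul hT)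
        (abs_θT_lt hG hθ hE hθ.nonneg hθ.lt_one.le hbd))).integrable _)
      (((rhoω_bm hG hθ hE).mul (bm_psiS hm hc hx hy ((BM.const θ').mul hT)
        (abs_θT_lt hG hθ hE hθ'.nonneg hθ'.lt_one.le hbd))).integrable _) fun ω => ?_
    refine mul_le_mul_of_nonneg_left ?_ (rhoω_pos hG hθ hE hbd ω).le
    refine even_convex_mono hS (psiS_neg ξ x y) ?_
      (abs_θT_lt hG hθ hE hθ'.nonneg hθ'.lt_one.le hbd ω).le
    rw [abs_mul, abs_mul, abs_of_nonneg hθ.nonneg, abs_of_nonneg hθ'.nonneg]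
    exact mul_le_mul_of_nonneg_right hθθ' (abs_nonneg _)
  have hθm : ∀ {t : ℝ}, t ∈ Icc (-1 : ℝ) 1 → θ' * t ∈ Icc (-1 : ℝ) 1 := fun {t} ht => by
    have h1 := hθ'.nonneg
    have h2 := hθ'.lt_one
    constructor <;> nlinarith [ht.1, ht.2]
  have step2 := IH (fun t => psiS ξ x y (θ' * t))
    ((psiS_measurable hm x y).comp (measurable_const.mul measurable_id))
    ((psiS_continuousOn hc hx hy).comp (continuousOn_const.mul continuousOn_id) fun t ht => hθm ht)
    ⟨convex_Icc _ _, fun t₁ h₁ t₂ h₂ a b ha hb hab => by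
      have := hS.2 (hθm h₁) (hθm h₂) ha hb hab
      simp only [smul_eq_mul] at this ⊢
      have e : θ' * (a * t₁ + b * t₂) = a * (θ' * t₁) + b * (θ' * t₂) := by ring
      rw [e]
      exact this⟩
    (fun t => by simp only [mul_neg, psiS_neg])
  exact step1.trans step2

/-- Adding the experiment at the root. -/
theorem root_step (hm : Measurable ξ) (hc : ContinuousOn ξ (Icc (-1) 1))
    (hξ : ConvexOn ℝ (Icc (-1) 1) ξ) {h : V → Bool → (J → I) → ℝ} (hh : Exper bl Fl h) {b : V}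
    {E : Set J} (hhE : ∀ s, DepS (h b s) E) {R : Bool → (J → I) → ℝ} (hR : ∀ s, BM (R s))
    (pR : ∀ s ω, 0 < R s ω) (dR : ∀ s, DepS (R s) Eᶜ) :
    ∫ ω, PX ξ (R true ω) (R false ω) ∂Lam J ≤
      ∫ ω, PX ξ (R true ω * h b true ω) (R false ω * h b false ω) ∂Lam J := by
  obtain ⟨c, hc0, hcb⟩ := hh.lb
  have ph : ∀ s ω, 0 < h b s ω := fun s ω => hc0.trans_le (hcb b s ω)
  have := hybrid_step (B := E) (A₁ := R true) (A₂ := R false) (M₁ := fun _ => 1) (M₂ := fun _ => 1)
    (M₁' := h b true) (M₂' := h b false) hm hc (hR _) (hR _) (BM.const 1) (BM.const 1) (hh.bm _ _)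
    (hh.bm _ _) (pR _) (pR _) (fun _ => one_pos) (fun _ => one_pos) (ph _) (ph _) (dR _) (dR _)
    (DepS.const _ _) (DepS.const _ _) (hhE _) (hhE _)
    (fun x y hx hy => jensen_step hξ hc (hh.bm _ _) (hh.bm _ _) (ph _) (ph _) (hh.mean _ _)
      (hh.mean _ _) hx hy)
  simpa only [mul_one] using this

/-- The main induction. -/
theorem core (hG : RegTree G q) {θ θ' : ℝ} (hθ : Adm θ) (hθ' : Adm θ') (hθθ' : θ ≤ θ')
    {g g' h : V → Bool → (J → I) → ℝ} (hE : Exper bl Fl g) (hE' : Exper bl Fl g') (hh : Exper bl Fl h)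
    (hfac : ∀ v s ω, g' v s ω = g v s ω * h v s ω)
    (hsep : ∀ v, ∃ B B' : Set J, Disjoint B B' ∧ (∀ s, DepS (g v s) B) ∧ ∀ s, DepS (h v s) B')
    (n : ℕ) : ∀ (n' : ℕ), n ≤ n' → ∀ a b : V, G.Adj a b → ∀ ξ : ℝ → ℝ, Measurable ξ →
      ContinuousOn ξ (Icc (-1) 1) → ConvexOn ℝ (Icc (-1) 1) ξ → (∀ t, ξ (-t) = ξ t) →
      Jt G θ g n a b (fun ω => ξ (Tω G θ g n a b ω)) ≤
        Jt G θ' g' n' a b (fun ω => ξ (Tω G θ' g' n' a b ω)) := by
  -- positivity of the experiments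
  have pg : ∀ v s ω, 0 < g v s ω := fun v s ω => by
    obtain ⟨c, hc0, hcb⟩ := hE.lb
    exact hc0.trans_le (hcb v s ω)
  -- finishing with the experiment at the root
  have finish : ∀ (m : ℕ) (a b : V) (_ : G.Adj a b) (ξ : ℝ → ℝ), Measurable ξ →
      ContinuousOn ξ (Icc (-1) 1) → ConvexOn ℝ (Icc (-1) 1) ξ →
      ∫ ω, PX ξ (g b true ω * ∏ d ∈ kids G a b, Msgω G θ' g' m b d true ω)
        (g b false ω * ∏ d ∈ kids G a b, Msgω G θ' g' m b d false ω) ∂Lam J ≤
      Jt G θ' g' (m + 1) a b (fun ω => ξ (Tω G θ' g' (m + 1) a b ω)) := by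
    intro m a b hab ξ hm hc hξ
    obtain ⟨B, B', hdis, hgB, hhB⟩ := hsep b
    have hkid : ∀ d ∈ kids G a b, G.Adj b d := fun d hd => by
      simpa [kids] using (Finset.mem_erase.1 hd).2
    have hroot := root_step (E := B' ∩ bl b) hm hc hξ hh (b := b)
      (fun s => DepS_inter (hhB s) (hh.dep b s))
      (R := fun s ω => g b s ω * ∏ d ∈ kids G a b, Msgω G θ' g' m b d s ω)
      (fun s => (hE.bm _ _).mul (BM.finset_prod _ fun d _ => Msgω_bm hG hθ' hE' s))
      (fun s ω => mul_pos (pg _ _ _) (Finset.prod_pos fun d hd => Msgω_pos hG hθ' hE' (hkid d hd) s ω))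
      (fun s ω ω' hω => by
        simp only []
        congr 1
        · refine hgB s ω ω' fun j hj => hω j fun hj' => ?_
          exact (Set.disjoint_left.1 hdis) hj hj'.1
        · refine Finset.prod_congr rfl fun d hd => Msgω_dep hG hθ' hE' (hkid d hd) s ω ω' fun j hj => hω j fun hj' => ?_
          exact (Set.disjoint_left.1 (subBl_disj_root hG hθ' hE' hab hd m)) hj'.2 hj)
    rw [Jt_eq_PX]
    refine hroot.trans (le_of_eq ?_)
    congr 1
    funext ω
    rw [Zω_succ hG hθ' hE', Zω_succ hG hθ' hE', hfac, hfac]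
    congr 1 <;> ring
  induction n with
  | zero =>
    intro n' _ a b hab ξ hm hc hξ he
    rw [Jt_eq_PX]
    have h0 : ∀ s ω, Zω G θ g 0 a b s ω = g b s ω := fun _ _ => rfl
    simp only [h0]
    cases n' with
    | zero =>
      rw [Jt_eq_PX]
      obtain ⟨B, B', hdis, hgB, hhB⟩ := hsep b
      have hroot := root_step (E := B' ∩ bl b) hm hc hξ hh (b := b)
        (fun s => DepS_inter (hhB s) (hh.dep b s)) (R := fun s ω => g b s ω)
        (fun s => hE.bm _ _) (fun s ω => pg _ _ _)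
        (fun s ω ω' hω => hgB s ω ω' fun j hj => hω j fun hj' =>
          (Set.disjoint_left.1 hdis) hj hj'.1)
      refine hroot.trans (le_of_eq ?_)
      congr 1
      funext ω
      have h1 : ∀ s, Zω G θ' g' 0 a b s ω = g b s ω * h b s ω := fun s => hfac b s ω
      rw [h1, h1]
    | succ m =>
      refine le_trans ?_ (finish m a b hab ξ hm hc hξ)
      have hkid : ∀ d ∈ kids G a b, G.Adj b d := fun d hd => by
        simpa [kids] using (Finset.mem_erase.1 hd).2
      have := hybrid (kids G a b) hm hc (B := fun d => subBl G bl m b d)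
        (fun d hd d' hd' hne => subBl_disj hG hθ' hE' hab hd hd' hne m)
        (M := fun _ _ _ => 1) (M' := fun d s => Msgω G θ' g' m b d s)
        (fun _ _ _ => BM.const 1) (fun _ _ s => Msgω_bm hG hθ' hE' s)
        (fun _ _ _ _ => one_pos) (fun d hd s ω => Msgω_pos hG hθ' hE' (hkid d hd) s ω)
        (fun _ _ _ => DepS.const _ _) (fun d hd s => Msgω_dep hG hθ' hE' (hkid d hd) s)
        (fun d hd x y hx hy => jensen_step hξ hc (Msgω_bm hG hθ' hE' _) (Msgω_bm hG hθ' hE' _)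
          (Msgω_pos hG hθ' hE' (hkid d hd) _) (Msgω_pos hG hθ' hE' (hkid d hd) _)
          (integral_Msgω hG hθ' hE' (hkid d hd) _) (integral_Msgω hG hθ' hE' (hkid d hd) _) hx hy)
        (R := fun s ω => g b s ω) (fun s => hE.bm _ _) (fun s ω => pg _ _ _)
        (fun d hd s => (hE.dep b s).mono fun j hj hj' =>
          (Set.disjoint_left.1 (subBl_disj_root hG hθ' hE' hab hd m)) hj hj')
      simpa only [Finset.prod_const_one, mul_one] using this
  | succ n ih =>
    intro n' hn a b hab ξ hm hc hξ he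
    obtain ⟨m, rfl⟩ : ∃ m, n' = m + 1 := ⟨n' - 1, by omega⟩
    have hnm : n ≤ m := by omega
    refine le_trans ?_ (finish m a b hab ξ hm hc hξ)
    rw [Jt_eq_PX]
    simp only [Zω_succ hG hθ hE]
    have hkid : ∀ d ∈ kids G a b, G.Adj b d := fun d hd => by
      simpa [kids] using (Finset.mem_erase.1 hd).2
    exact hybrid (kids G a b) hm hc (B := fun d => subBl G bl m b d)
      (fun d hd d' hd' hne => subBl_disj hG hθ' hE' hab hd hd' hne m)
      (M := fun d s => Msgω G θ g n b d s) (M' := fun d s => Msgω G θ' g' m b d s)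
      (fun _ _ s => Msgω_bm hG hθ hE s) (fun _ _ s => Msgω_bm hG hθ' hE' s)
      (fun d hd s ω => Msgω_pos hG hθ hE (hkid d hd) s ω)
      (fun d hd s ω => Msgω_pos hG hθ' hE' (hkid d hd) s ω)
      (fun d hd s => (Msgω_dep hG hθ hE (hkid d hd) s).mono (subBl_mono hG (hkid d hd) hnm))
      (fun d hd s => Msgω_dep hG hθ' hE' (hkid d hd) s)
      (fun d hd x y hx hy => child_step hG hθ hθ' hθθ' hE hE' (hkid d hd)
        (fun ξ₁ h1 h2 h3 h4 => ih m hnm b d (hkid d hd) ξ₁ h1 h2 h3 h4) hm hc hξ hx hy)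
      (R := fun s ω => g b s ω) (fun s => hE.bm _ _) (fun s ω => pg _ _ _)
      (fun d hd s => (hE.dep b s).mono fun j hj hj' =>
        (Set.disjoint_left.1 (subBl_disj_root hG hθ' hE' hab hd m)) hj hj')

/-- Clamping to `[-1, 1]`. -/
noncomputable def clampI (t : ℝ) : ℝ := max (-1) (min t 1)

theorem clampI_mem (t : ℝ) : clampI t ∈ Icc (-1 : ℝ) 1 :=
  ⟨le_max_left _ _, max_le (by norm_num) (min_le_right _ _)⟩

theorem clampI_of_mem {t : ℝ} (ht : t ∈ Icc (-1 : ℝ) 1) : clampI t = t := by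
  unfold clampI
  rw [min_eq_left ht.2, max_eq_right ht.1]

theorem clampI_neg (t : ℝ) : clampI (-t) = - clampI t := by
  unfold clampI
  rcases le_total t (-1) with h | h
  · rw [min_eq_right (by linarith), max_eq_right (by linarith), min_eq_left (by linarith),
      max_eq_left h]
    norm_num
  · rcases le_total t 1 with h' | h'
    · rw [min_eq_left (by linarith), max_eq_right (by linarith), min_eq_left h', max_eq_right h]
    · rw [min_eq_left (by linarith), max_eq_left (by linarith), min_eq_right h', max_eq_right (by norm_num)]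

theorem continuous_clampI : Continuous clampI := by
  unfold clampI
  fun_prop

end BW

open BW in
/-- **Blackwell monotonicity**: for a convex even `ξ`, the expectation of `ξ(T)` increases with the interaction, the
depth and the experiment. -/
theorem blackwell (hG : RegTree G q) {θ θ' : ℝ} (hθ : Adm θ) (hθ' : Adm θ') (hθθ' : θ ≤ θ') {g g' : V → Bool → (J → I) → ℝ}
    (hR : Refines bl Fl g g') {n n' : ℕ} (hn : n ≤ n') {ξ : ℝ → ℝ} (hξ : ConvexOn ℝ (Icc (-1) 1) ξ)
    (hξc : ContinuousOn ξ (Icc (-1) 1)) (hξe : ∀ t, ξ (-t) = ξ t) (hab : G.Adj a b) :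
    Jt G θ g n a b (fun ω => ξ (Tω G θ g n a b ω)) ≤ Jt G θ' g' n' a b (fun ω => ξ (Tω G θ' g' n' a b ω)) := by
  obtain ⟨h, hh, hfac, -, hsep⟩ := hR.factor
  have hE := hR.left
  have hE' := hR.right
  -- replace `ξ` by its clamped version
  have hcl : Continuous (fun t => ξ (clampI t)) :=
    hξc.comp_continuous continuous_clampI clampI_mem
  have main := core hG hθ hθ' hθθ' hE hE' hh hfac hsep n n' hn a b hab (fun t => ξ (clampI t))
    hcl.measurable hcl.continuousOn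
    (hξ.congr (fun t ht => by rw [clampI_of_mem ht]))
    (fun t => by rw [clampI_neg, hξe])
  have e : ∀ {θ₀ : ℝ} {g₀ : V → Bool → (J → I) → ℝ} {n₀ : ℕ}, Adm θ₀ → Exper bl Fl g₀ →
      (fun ω => ξ (clampI (Tω G θ₀ g₀ n₀ a b ω))) = fun ω => ξ (Tω G θ₀ g₀ n₀ a b ω) := by
    intro θ₀ g₀ n₀ h1 h2
    funext ω
    have := abs_lt.1 (abs_Tω_lt hG h1 h2 (n := n₀) hab ω)
    rw [clampI_of_mem ⟨this.1.le, this.2.le⟩]
  rw [e hθ hE, e hθ' hE'] at main
  exact main

/-- A special case: only the depth changes. -/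
theorem energy_mono_depth (hG : RegTree G q) {θ : ℝ} (hθ : Adm θ) {g : V → Bool → (J → I) → ℝ}
    (hE : Exper bl Fl g) {n n' : ℕ} (hn : n ≤ n') (hab : G.Adj a b) :
    Jt G θ g n a b (fun ω => Tω G θ g n a b ω ^ 2) ≤ Jt G θ g n' a b (fun ω => Tω G θ g n' a b ω ^ 2) := by
  have h1 : Exper bl Fl (fun (_ : V) (_ : Bool) (_ : J → I) => (1 : ℝ)) :=
    { lb := ⟨1, one_pos, fun _ _ _ => le_rfl⟩
      bm := fun _ _ => BM.const 1
      dep := fun _ _ => DepS.const _ _
      disj := hE.disj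
      mean := fun _ _ => by simp
      flip := fun _ _ _ => rfl }
  have hR : Refines bl Fl g g :=
    { left := hE
      right := hE
      factor := ⟨fun _ _ _ => 1, h1, fun _ _ _ => (mul_one _).symm,
        fun v s _ => by simpa using hE.mean v s,
        fun v => ⟨univ, ∅, disjoint_bot_right, fun s ω ω' hω => by
          congr 1; funext j; exact hω j (mem_univ j), fun _ => DepS.const _ _⟩⟩ }
  exact blackwell hG hθ hθ le_rfl hR hn ((even_two.convexOn_pow).subset (subset_univ _) (convex_Icc _ _))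
    (by fun_prop) (fun t => by ring) hab

end blackwell


/-! ### Planted marginals on balls -/

section planted

open Crest.ProbabilityR.TreeIsing

variable (hG : RegTree G q) (hθ : Adm θ) (hE : Exper bl Fl g)

omit [G.LocallyFinite] in
include hE in
/-- Integrating out vertices that are independent of `Φ`. -/
private theorem integral_prod_mean (T : Finset V) (η : V → Bool) {Φ : (J → I) → ℝ} (hΦ : BM Φ) {B : Set J}
    (hd : DepS Φ B) (hdisj : ∀ v ∈ T, Disjoint B (bl v)) :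
    ∫ ω, (∏ v ∈ T, g v (η v) ω) * Φ ω ∂Lam J = ∫ ω, Φ ω ∂Lam J := by
  induction T using Finset.induction_on generalizing Φ B with
  | empty => simp
  | insert x T hx ih =>
    have hbmT : BM (fun ω => ∏ v ∈ T, g v (η v) ω) :=
      BM.finset_prod T (fun v _ => hE.bm v (η v))
    have hdepT : DepS (fun ω => ∏ v ∈ T, g v (η v) ω) (⋃ v ∈ T, bl v) := by
      intro ω ω' h
      apply Finset.prod_congr rfl
      intro v hv
      exact hE.dep v (η v) ω ω' (fun j hj => h j (Set.mem_biUnion hv hj))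
    have h1 : ∫ ω, (∏ v ∈ insert x T, g v (η v) ω) * Φ ω ∂Lam J =
        ∫ ω, ((∏ v ∈ T, g v (η v) ω) * Φ ω) * g x (η x) ω ∂Lam J := by
      apply integral_congr_ae
      filter_upwards with ω
      rw [Finset.prod_insert hx]
      ring
    rw [h1, integral_mul_indep (hbmT.mul hΦ) (hE.bm x (η x))
      ((hdepT.mono Set.subset_union_left).mul (hd.mono Set.subset_union_right))
      (hE.dep x (η x)), hE.mean, mul_one]
    · exact ih hΦ hd (fun v hv => hdisj v (Finset.mem_insert_of_mem hv))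
    · rw [Set.disjoint_union_left]
      constructor
      · rw [Set.disjoint_iUnion₂_left]
        intro v hv
        exact hE.disj v x (fun h => hx (h ▸ hv))
      · exact hdisj x (Finset.mem_insert_self x T)

include hE in
/-- The key reduction: integrating the partition function of `W` against a function of the observations on `S`. -/
private theorem integral_Zg_mul (hG : RegTree G q) (hθ : Adm θ) {W S : Finset V} {o : V} (hSW : S ⊆ W) (hW : Star G W o) (hS : Star G S o)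
    {F : (J → I) → ℝ} (hF : BM F) (hFd : DepS F (⋃ v ∈ S, bl v)) :
    ∫ ω, Zg G θ W (fun v s => g v s ω) * F ω ∂Lam J = ∫ ω, Zg G θ S (fun v s => g v s ω) * F ω ∂Lam J := by
  have hθ' : |θ| < 1 := by
    rw [abs_of_nonneg hθ.nonneg]; exact hθ.lt_one
  -- each term
  have hterm : ∀ η : V → Bool, ∫ ω, (∏ v ∈ W, g v (η v) ω) * F ω ∂Lam J = ∫ ω, (∏ v ∈ S, g v (η v) ω) * F ω ∂Lam J := by
    intro η
    have hbmS : BM (fun ω => ∏ v ∈ S, g v (η v) ω) :=
      BM.finset_prod S (fun v _ => hE.bm v (η v))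
    have hdepS : DepS (fun ω => ∏ v ∈ S, g v (η v) ω) (⋃ v ∈ S, bl v) := by
      intro ω ω' h
      apply Finset.prod_congr rfl
      intro v hv
      exact hE.dep v (η v) ω ω' (fun j hj => h j (Set.mem_biUnion hv hj))
    have h := integral_prod_mean hE (W \ S) η (hbmS.mul hF) (hdepS.mul hFd) (by
      intro v hv
      rw [Set.disjoint_iUnion₂_left]
      intro u hu
      refine hE.disj u v ?_
      rintro rfl
      exact (Finset.mem_sdiff.mp hv).2 hu)
    rw [← h]
    apply integral_congr_ae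
    filter_upwards with ω
    rw [← Finset.prod_sdiff hSW]
    ring
  have hbmW : ∀ η : V → Bool, BM (fun ω => (∏ v ∈ W, g v (η v) ω) * F ω) := fun η =>
    (BM.finset_prod W (fun v _ => hE.bm v (η v))).mul hF
  have hbmS : ∀ η : V → Bool, BM (fun ω => (∏ v ∈ S, g v (η v) ω) * F ω) := fun η =>
    (BM.finset_prod S (fun v _ => hE.bm v (η v))).mul hF
  -- expand
  have e1 : ∀ ω, Zg G θ W (fun v s => g v s ω) * F ω =
      ∑ A ∈ W.powerset, isingWeight G θ W (fun v => decide (v ∈ A)) * ((∏ v ∈ W, g v (decide (v ∈ A)) ω) * F ω) := by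
    intro ω
    unfold Zg sumW wt
    rw [Finset.sum_mul]
    apply Finset.sum_congr rfl
    intro A _
    ring
  have e2 : ∀ ω, ∑ A ∈ W.powerset, isingWeight G θ W (fun v => decide (v ∈ A)) * ((∏ v ∈ S, g v (decide (v ∈ A)) ω) * F ω) =
      Zg G θ S (fun v s => g v s ω) * F ω := by
    intro ω
    have hdep : DepOn S (fun η : V → Bool => ∏ v ∈ S, g v (η v) ω) := by
      intro η η' h
      apply Finset.prod_congr rfl
      intro v hv
      rw [h v hv]
    have h := sum_marginal (g := fun _ _ => 1) hG hSW hW hS hθ' (fun _ _ _ _ => rfl) hdep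
    simp only [wt, Finset.prod_const_one, mul_one] at h
    unfold Zg wt
    have h2 : sumW S (fun η => isingWeight G θ S η * ∏ v ∈ S, g v (η v) ω) =
        sumW W (fun η => isingWeight G θ W η * ∏ v ∈ S, g v (η v) ω) := h.symm
    rw [h2]
    unfold sumW
    rw [Finset.sum_mul]
    apply Finset.sum_congr rfl
    intro A _
    ring
  simp_rw [e1]
  rw [integral_finsetSum _ (fun A _ => ((hbmW _).integrable _).const_mul _)]
  simp_rw [integral_const_mul, hterm]
  simp_rw [← integral_const_mul]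
  rw [← integral_finsetSum _ (fun A _ => ((hbmS _).integrable _).const_mul _)]
  simp_rw [e2]

private theorem planted_pointwise {Z m x y a b : ℝ} (hZ0 : 0 < Z) (hx : 0 < x) (hy : 0 < y) (ha : 0 ≤ a) (hb : 0 ≤ b)
    (h1 : Z * m = x * a - y * b) (h2 : Z = x * a + y * b) :
    Z * (1 - m ^ 2) ≤ Real.sqrt (x * y) * (a + b) := by
  have e : Z * (1 - m ^ 2) * Z = 4 * (x * y) * (a * b) := by
    have h3 : Z * (1 - m ^ 2) * Z = Z ^ 2 - (Z * m) ^ 2 := by ring
    rw [h3, h1, h2]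
    ring
  have hp : Real.sqrt x ^ 2 = x := Real.sq_sqrt hx.le
  have hq : Real.sqrt y ^ 2 = y := Real.sq_sqrt hy.le
  have hr : Real.sqrt (x * y) = Real.sqrt x * Real.sqrt y := Real.sqrt_mul hx.le y
  have hp0 := Real.sqrt_nonneg x
  have hq0 := Real.sqrt_nonneg y
  apply le_of_mul_le_mul_right _ hZ0
  rw [e, hr]
  set p := Real.sqrt x
  set q' := Real.sqrt y
  have key : 4 * (p * q') * (a * b) ≤ (a + b) * (p ^ 2 * a + q' ^ 2 * b) := by
    nlinarith [sq_nonneg (p * a - q' * b), mul_nonneg (mul_nonneg ha hb) (sq_nonneg (p - q'))]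
  have h5 := mul_le_mul_of_nonneg_left key (mul_nonneg hp0 hq0)
  have h6 : p * q' * (a + b) * Z = p * q' * ((a + b) * (p ^ 2 * a + q' ^ 2 * b)) := by
    rw [hp, hq, ← h2]; ring
  rw [h6, ← hp, ← hq]
  calc 4 * (p ^ 2 * q' ^ 2) * (a * b) = p * q' * (4 * (p * q') * (a * b)) := by ring
    _ ≤ _ := h5

include hG hθ hE

/-- **Marginal of the planted measure on a subtree.** `W` is star-shaped around `b`. -/
theorem integral_Zg_subT {W : Finset V} (hW : Star G W b) (hab : G.Adj a b) (hsub : subT G n a b ⊆ W)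
    {F : (J → I) → ℝ} (hF : BM F) (hFd : DepS F (subBl G bl n a b)) :
    ∫ ω, Zg G θ W (fun v s => g v s ω) * F ω ∂Lam J = Jt G θ g n a b F := by
  have hθ' : |θ| < 1 := by
    rw [abs_of_nonneg hθ.nonneg]; exact hθ.lt_one
  rw [integral_Zg_mul hE hG hθ hsub hW (star_subT hG hab n) hF hFd]
  unfold Jt
  apply integral_congr_ae
  filter_upwards with ω
  rw [Zg_subT hG hab hθ' n]
  rfl

/-- Mean one of the planted density. -/
theorem integral_Zg {W : Finset V} {o : V} (hW : Star G W o) : ∫ ω, Zg G θ W (fun v s => g v s ω) ∂Lam J = 1 := by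
  have hS : Star G {o} o := by
    refine ⟨Finset.mem_singleton_self o, ?_⟩
    intro v hv hne
    exact absurd (Finset.mem_singleton.mp hv) hne
  have hsub : ({o} : Finset V) ⊆ W := Finset.singleton_subset_iff.mpr hW.1
  have h := integral_Zg_mul hE hG hθ (F := fun _ => 1) hsub hW hS (BM.const 1) (DepS.const 1 _)
  simp only [mul_one] at h
  rw [h]
  have hval : ∀ ω, Zg G θ {o} (fun v s => g v s ω) = (g o true ω + g o false ω) / 2 := by
    intro ω
    unfold Zg
    have hins : ({o} : Finset V) = insert o ∅ := rfl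
    rw [hins, sumW_insert (Finset.notMem_empty o), sumW_empty, sumW_empty, ← hins]
    simp only [wt, isingWeight_singleton, Finset.prod_singleton, Function.update_self]
    ring
  simp_rw [hval]
  rw [integral_div, integral_add ((hE.bm o true).integrable _) ((hE.bm o false).integrable _), hE.mean, hE.mean]
  norm_num

/-- **Own observations**: the expectation of `1 - m²`. -/
theorem one_sub_mv_sq_le {W : Finset V} {o : V} (hW : Star G W o) (hB : ExpBd g τp τm) :
    ∫ ω, Zg G θ W (fun v s => g v s ω) * (1 - mv G θ W (fun v s => g v s ω) o ^ 2) ∂Lam J ≤ Real.exp (-τm / 2) := by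
  have hθ' : |θ| < 1 := by
    rw [abs_of_nonneg hθ.nonneg]; exact hθ.lt_one
  obtain ⟨c, hc, hlb⟩ := hE.lb
  have hpos : ∀ ω, PosG (fun v s => g v s ω) := fun ω v s => lt_of_lt_of_le hc (hlb v s ω)
  set W' := W.erase o with hW'
  have hoW : o ∈ W := hW.1
  -- the two partial sums
  let A : Bool → (J → I) → ℝ := fun s ω =>
    sumW W (fun η => (if η o = s then 1 else 0) * (isingWeight G θ W η * ∏ v ∈ W', g v (η v) ω))
  have hA0 : ∀ s ω, 0 ≤ A s ω := by
    intro s ω
    apply sumW_nonneg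
    intro η
    apply mul_nonneg (by split_ifs <;> norm_num)
    exact mul_nonneg (isingWeight_pos hθ' W η).le (Finset.prod_nonneg (fun v _ => (hpos ω v _).le))
  have hsplit : ∀ η : V → Bool, ∀ ω, wt G θ W (fun v s => g v s ω) η =
      g o (η o) ω * (isingWeight G θ W η * ∏ v ∈ W', g v (η v) ω) := by
    intro η ω
    unfold wt
    rw [← Finset.mul_prod_erase W _ hoW]
    ring
  have hZ : ∀ ω, Zg G θ W (fun v s => g v s ω) = g o true ω * A true ω + g o false ω * A false ω := by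
    intro ω
    unfold Zg
    rw [← sumW_mul_left, ← sumW_mul_left, ← sumW_add]
    apply sumW_congr
    intro η
    rw [hsplit]
    cases h : η o <;> simp
  have hm : ∀ ω, Zg G θ W (fun v s => g v s ω) * mv G θ W (fun v s => g v s ω) o =
      g o true ω * A true ω - g o false ω * A false ω := by
    intro ω
    have hZ0 := Zg_pos (G := G) (W := W) (θ := θ) hθ' (hpos ω)
    unfold mv Ex
    rw [mul_div_cancel₀ _ hZ0.ne']
    have e1 : g o true ω * A true ω = sumW W (fun η => g o true ω * ((if η o = true then 1 else 0) *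
        (isingWeight G θ W η * ∏ v ∈ W', g v (η v) ω))) := (sumW_mul_left _).symm
    have e2 : (-(g o false ω)) * A false ω = sumW W (fun η => (-(g o false ω)) * ((if η o = false then 1 else 0) *
        (isingWeight G θ W η * ∏ v ∈ W', g v (η v) ω))) := (sumW_mul_left _).symm
    rw [sub_eq_add_neg, ← neg_mul, e1, e2, ← sumW_add]
    apply sumW_congr
    intro η
    rw [hsplit]
    cases h : η o <;> simp [spin, h]
  -- pointwise bound
  let r : (J → I) → ℝ := fun ω => Real.sqrt (g o true ω * g o false ω)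
  have hpt : ∀ ω, Zg G θ W (fun v s => g v s ω) * (1 - mv G θ W (fun v s => g v s ω) o ^ 2) ≤
      r ω * (A true ω + A false ω) := fun ω =>
    planted_pointwise (Zg_pos (G := G) (W := W) (θ := θ) hθ' (hpos ω)) (hpos ω o true) (hpos ω o false)
      (hA0 _ _) (hA0 _ _) (hm ω) (hZ ω)
  -- integrability
  have hbmZ : BM (fun ω => Zg G θ W (fun v s => g v s ω)) := by
    have : (fun ω => Zg G θ W (fun v s => g v s ω)) = fun ω => ∑ A ∈ W.powerset, isingWeight G θ W (fun v => decide (v ∈ A)) * ∏ v ∈ W, g v (decide (v ∈ A)) ω := by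
      funext ω; rfl
    rw [this]
    exact BM.finset_sum _ (fun B _ => (BM.const _).mul (BM.finset_prod W (fun v _ => hE.bm v _)))
  have hbmm : BM (fun ω => 1 - mv G θ W (fun v s => g v s ω) o ^ 2) := by
    refine ⟨?_, 2, fun ω => ?_⟩
    · exact measurable_const.sub ((measurable_mv (G := G) (θ := θ) (W := W) (fun v s => (hE.bm v s).1) o).pow_const 2)
    · have := abs_mv_le (G := G) (W := W) (θ := θ) hθ' (hpos ω) o
      have h2 : mv G θ W (fun v s => g v s ω) o ^ 2 ≤ 1 := by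
        have := abs_le.mp this
        nlinarith [this.1, this.2]
      rw [abs_le]
      constructor <;> nlinarith [sq_nonneg (mv G θ W (fun v s => g v s ω) o)]
  -- the two factors
  have hbmA : ∀ η : V → Bool, BM (fun ω => ∏ v ∈ W', g v (η v) ω) := fun η =>
    BM.finset_prod W' (fun v _ => hE.bm v _)
  have hAsum : ∀ ω, A true ω + A false ω = sumW W (fun η => isingWeight G θ W η * ∏ v ∈ W', g v (η v) ω) := by
    intro ω
    show sumW _ _ + sumW _ _ = _
    rw [← sumW_add]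
    apply sumW_congr
    intro η
    cases h : η o <;> simp
  have hbmApB : BM (fun ω => A true ω + A false ω) := by
    have : (fun ω => A true ω + A false ω) = fun ω => ∑ B ∈ W.powerset, isingWeight G θ W (fun v => decide (v ∈ B)) * ∏ v ∈ W', g v (decide (v ∈ B)) ω := by
      funext ω; rw [hAsum]; rfl
    rw [this]
    exact BM.finset_sum _ (fun B _ => (BM.const _).mul (hbmA _))
  have hdepApB : DepS (fun ω => A true ω + A false ω) (⋃ v ∈ W', bl v) := by
    intro ω ω' h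
    simp only [hAsum]
    apply sumW_congr
    intro η
    congr 1
    apply Finset.prod_congr rfl
    intro v hv
    exact hE.dep v (η v) ω ω' (fun j hj => h j (Set.mem_biUnion hv hj))
  have hbmr : BM r := by
    refine ⟨((hE.bm o true).1.mul (hE.bm o false).1).sqrt, ?_⟩
    obtain ⟨C₁, h₁⟩ := (hE.bm o true).2
    obtain ⟨C₂, h₂⟩ := (hE.bm o false).2
    refine ⟨C₁ * C₂ + 1, fun ω => ?_⟩
    have hxy : 0 ≤ g o true ω * g o false ω := mul_nonneg (hpos ω o true).le (hpos ω o false).le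
    have hb : g o true ω * g o false ω ≤ C₁ * C₂ := by
      have h1 := abs_le.mp (h₁ ω)
      have h2 := abs_le.mp (h₂ ω)
      exact mul_le_mul h1.2 h2.2 (hpos ω o false).le ((hpos ω o true).le.trans h1.2)
    rw [abs_of_nonneg (Real.sqrt_nonneg _)]
    have h3 : Real.sqrt (g o true ω * g o false ω) ≤ g o true ω * g o false ω + 1 := by
      have := Real.sqrt_le_sqrt (show g o true ω * g o false ω ≤ (g o true ω * g o false ω + 1) ^ 2 by nlinarith)
      rwa [Real.sqrt_sq (by linarith)] at this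
    linarith
  have hdepr : DepS r (bl o) := by
    intro ω ω' h
    show Real.sqrt _ = Real.sqrt _
    rw [hE.dep o true ω ω' h, hE.dep o false ω ω' h]
  have hindep : ∫ ω, r ω * (A true ω + A false ω) ∂Lam J = (∫ ω, r ω ∂Lam J) * ∫ ω, A true ω + A false ω ∂Lam J := by
    refine integral_mul_indep hbmr hbmApB hdepr hdepApB ?_
    rw [Set.disjoint_iUnion₂_right]
    intro v hv
    refine hE.disj o v ?_
    rintro rfl
    exact Finset.notMem_erase _ _ hv
  have hone : ∫ ω, A true ω + A false ω ∂Lam J = 1 := by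
    simp_rw [hAsum]
    have e : ∀ ω, sumW W (fun η => isingWeight G θ W η * ∏ v ∈ W', g v (η v) ω) =
        ∑ B ∈ W.powerset, isingWeight G θ W (fun v => decide (v ∈ B)) * ∏ v ∈ W', g v (decide (v ∈ B)) ω := fun ω => rfl
    simp_rw [e]
    rw [integral_finsetSum _ (fun B _ => ((hbmA _).integrable _).const_mul _)]
    have hm1 : ∀ η : V → Bool, ∫ ω, ∏ v ∈ W', g v (η v) ω ∂Lam J = 1 := by
      intro η
      have := integral_prod_mean hE W' η (BM.const 1) (DepS.const 1 ∅) (fun v _ => Set.empty_disjoint _)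
      simpa using this
    simp_rw [integral_const_mul, hm1, mul_one]
    have := Zg_one (W := W) (θ := θ) hG hθ' hW
    unfold Zg wt sumW at this
    simpa using this
  calc ∫ ω, Zg G θ W (fun v s => g v s ω) * (1 - mv G θ W (fun v s => g v s ω) o ^ 2) ∂Lam J
      ≤ ∫ ω, r ω * (A true ω + A false ω) ∂Lam J :=
        integral_mono ((hbmZ.mul hbmm).integrable _) ((hbmr.mul hbmApB).integrable _) hpt
    _ = ∫ ω, r ω ∂Lam J := by rw [hindep, hone, mul_one]
    _ ≤ Real.exp (-τm / 2) := hB.hell o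

end planted

end Crest.Agent.Lib.TI
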