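import Crest.Agent.Lib.TI.Run
import Crest.Agent.Lib.TI.Static
import Crest.Agent.Lib.FiidNoise

/-!
# The concrete experiments (S0241 project, module TI.ConcreteExper)

The coordinates are `JJ V = Stg V ⊕ Stg V`: `inl c` is the label `U c` of the stage, `inr c` the observation `y c` of the stage.
`gS L κ ℓ x v s ω = ∏_{i=L}^{ℓ} (1 + a_i s)`, with `a_i = aY (κ i) (y (v, i))` if the stage `(v, i)` is active at the state `(ℓ, x)`, else `0`.
-/

set_option autoImplicit false

namespace Crest.Agent.Lib.TI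

open MeasureTheory Set Classical
open scoped unitInterval
open Crest.Agent.Lib.FiidChannel Crest.Agent.Lib.FiidPlanted Crest.ProbabilityR.TreeIsing

variable {V : Type*}

/-- Coordinates of the planted measure. -/
abbrev JJ (V : Type*) := Stg V ⊕ Stg V

/-- The block of a vertex. -/
def blS (v : V) : Set (JJ V) := {j | ∃ i, j = Sum.inl (v, i) ∨ j = Sum.inr (v, i)}

/-- The coordinates which are reflected by the flip. -/
def flS : Set (JJ V) := Set.range Sum.inr

/-- Labels of a point. -/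
def uOf (ω : JJ V → I) : Stg V → I := fun c => ω (Sum.inl c)

/-- Observations of a point. -/
def yOf (ω : JJ V → I) : Stg V → I := fun c => ω (Sum.inr c)

/-- The stage `(v, i)` is active at the state `(ℓ, x)`. -/
def actS (ℓ : ℤ) (x : ℝ) (i : ℤ) (u : I) : Prop := (i < ℓ ∧ (u : ℝ) < 1 / 2) ∨ (i = ℓ ∧ (u : ℝ) < x)

/-- The vertex functions of the planted measure. -/
noncomputable def gS (L : ℤ) (κ : ℤ → ℝ) (ℓ : ℤ) (x : ℝ) (v : V) (s : Bool) (ω : JJ V → I) : ℝ :=
  ∏ i ∈ Finset.Icc L ℓ, (if actS ℓ x i (ω (Sum.inl (v, i))) then 1 + aY (κ i) (ω (Sum.inr (v, i))) * spin s else 1)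

/-- The upper bound on the information at a vertex. -/
noncomputable def tauP (L : ℤ) (κ : ℤ → ℝ) (ℓ : ℤ) : ℝ := ∑ i ∈ Finset.Icc L ℓ, κ i ^ 2 / (1 - κ i ^ 2) ^ 2

/-- The lower bound on the information at a vertex. -/
noncomputable def tauM (L : ℤ) (κ : ℤ → ℝ) (ℓ : ℤ) (x : ℝ) : ℝ :=
  (∑ i ∈ Finset.Ico L ℓ, κ i ^ 2 / 6) + x * κ ℓ ^ 2 / 3

variable {L : ℤ} {κ : ℤ → ℝ} {ℓ : ℤ} {x : ℝ}

/-! ### One coordinate -/

lemma bm_of_continuous_I {f : I → ℝ} (hf : Continuous f) : BM f := by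
  refine ⟨hf.measurable, ?_⟩
  obtain ⟨C, hC⟩ := isCompact_univ.exists_bound_of_continuousOn hf.continuousOn
  exact ⟨C, fun y => by simpa using hC y (mem_univ y)⟩

lemma integral_const_I (c : ℝ) : ∫ _y : I, c = c := by simp

lemma continuous_aY (κ : ℝ) : Continuous (aY κ) := by
  unfold aY
  fun_prop

lemma integral_sigma (f : I → ℝ) (_hf : Measurable f) : ∫ y : I, f (σ y) = ∫ y : I, f y :=
  unitInterval.measurePreserving_symm.integral_comp' (f := unitInterval.symmMeasurableEquiv) f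

lemma aY_sigma (κ : ℝ) (y : I) : aY κ (σ y) = - aY κ y := by
  unfold aY
  rw [unitInterval.coe_symm_eq]
  ring

/-- Symmetrisation in `y ↦ 1 - y`. -/
lemma integral_symm_half {f : I → ℝ} (hf : BM f) :
    ∫ y : I, f y = (1 / 2) * ∫ y : I, (f y + f (σ y)) := by
  rw [integral_add (hf.integrable _) ((hf.comp unitInterval.measurable_symm).integrable _),
    integral_sigma f hf.1]
  ring

/-- The probability that the stage `i` is active. -/
noncomputable def pA (ℓ : ℤ) (x : ℝ) (i : ℤ) : ℝ := if i < ℓ then 1 / 2 else if i = ℓ then x else 0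

lemma pA_nonneg (hx0 : 0 ≤ x) (ℓ i : ℤ) : 0 ≤ pA ℓ x i := by
  unfold pA
  split_ifs
  · norm_num
  · exact hx0
  · norm_num

lemma pA_le_one (hx : x ≤ 1 / 2) (ℓ i : ℤ) : pA ℓ x i ≤ 1 := by
  unfold pA
  split_ifs
  · norm_num
  · linarith
  · norm_num

lemma integral_lt_const {t : ℝ} (ht0 : 0 ≤ t) (ht1 : t ≤ 1) (a b : ℝ) :
    ∫ u : I, (if (u : ℝ) < t then a else b) = t * a + (1 - t) * b := by
  have hS : (fun u : I => if (u : ℝ) < t then a else b) =
      fun u : I => (Iio (⟨t, ht0, ht1⟩ : I)).indicator (fun _ => a - b) u + b := by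
    funext u
    by_cases h : (u : ℝ) < t
    · have : u ∈ Iio (⟨t, ht0, ht1⟩ : I) := h
      rw [if_pos h, indicator_of_mem this]; ring
    · have : u ∉ Iio (⟨t, ht0, ht1⟩ : I) := h
      rw [if_neg h, indicator_of_notMem this]; ring
  rw [hS, integral_add ((integrable_const _).indicator measurableSet_Iio) (integrable_const _),
    integral_indicator_const _ measurableSet_Iio]
  simp only [measureReal_def, unitInterval.volume_Iio, integral_const]
  rw [ENNReal.toReal_ofReal ht0]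
  simp
  ring

lemma actS_measurable (ℓ : ℤ) (x : ℝ) (i : ℤ) : MeasurableSet {u : I | actS ℓ x i u} := by
  by_cases h : i < ℓ
  · have : {u : I | actS ℓ x i u} = {u : I | (u : ℝ) < 1 / 2} := by
      ext u
      simp [actS, h, ne_of_lt h]
    rw [this]
    exact measurableSet_lt (by fun_prop) measurable_const
  · by_cases h' : i = ℓ
    · have : {u : I | actS ℓ x i u} = {u : I | (u : ℝ) < x} := by
        ext u
        simp [actS, h']
      rw [this]
      exact measurableSet_lt (by fun_prop) measurable_const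
    · have : {u : I | actS ℓ x i u} = ∅ := by
        ext u
        simp [actS, h, h']
      rw [this]
      exact MeasurableSet.empty

lemma integral_act (hx0 : 0 ≤ x) (hx : x ≤ 1 / 2) (i : ℤ) (a b : ℝ) :
    ∫ u : I, (if actS ℓ x i u then a else b) = pA ℓ x i * a + (1 - pA ℓ x i) * b := by
  unfold pA actS
  by_cases h : i < ℓ
  · have hne : i ≠ ℓ := ne_of_lt h
    simp only [h, hne, true_and, false_and, or_false, if_true]
    exact integral_lt_const (by norm_num) (by norm_num) a b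
  · by_cases h' : i = ℓ
    · simp only [h, h', lt_irrefl, false_and, true_and, false_or, if_false, if_true]
      exact integral_lt_const hx0 (by linarith) a b
    · simp [h, h']

/-! ### Functions of one stage -/

lemma update_inr_inl (ω : JJ V → I) (c d : Stg V) (r : I) :
    Function.update ω (Sum.inr c) r (Sum.inl d) = ω (Sum.inl d) :=
  Function.update_of_ne (by simp) _ _

lemma update_inl_inr (ω : JJ V → I) (c d : Stg V) (r : I) :
    Function.update ω (Sum.inl c) r (Sum.inr d) = ω (Sum.inr d) :=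
  Function.update_of_ne (by simp) _ _

/-- A function of one stage. -/
noncomputable def stF (ℓ : ℤ) (x : ℝ) (c : Stg V) (h : I → ℝ) (e : ℝ) (ω : JJ V → I) : ℝ :=
  if actS ℓ x c.2 (ω (Sum.inl c)) then h (ω (Sum.inr c)) else e

lemma bm_stF (c : Stg V) {h : I → ℝ} (hh : BM h) (e : ℝ) : BM (stF (V := V) ℓ x c h e) := by
  refine ⟨?_, ?_⟩
  · unfold stF
    refine Measurable.ite ?_ (hh.1.comp (measurable_pi_apply _)) measurable_const
    exact (measurable_pi_apply (Sum.inl c) : Measurable (fun ω : JJ V → I => ω (Sum.inl c))) (actS_measurable ℓ x c.2)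
  · obtain ⟨C, hC⟩ := hh.2
    refine ⟨max C |e|, fun ω => ?_⟩
    unfold stF
    split_ifs
    · exact (hC _).trans (le_max_left _ _)
    · exact le_max_right _ _

/-- The block of a stage. -/
def stB (c : Stg V) : Set (JJ V) := {Sum.inl c, Sum.inr c}

lemma stB_disj {c d : Stg V} (h : c ≠ d) : Disjoint (stB c) (stB d) := by
  rw [Set.disjoint_left]
  intro j hj hj'
  simp only [stB, mem_insert_iff, mem_singleton_iff] at hj hj'
  rcases hj with rfl | rfl <;> rcases hj' with hj' | hj' <;> simp_all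

lemma depS_stF (c : Stg V) (h : I → ℝ) (e : ℝ) : DepS (stF (V := V) ℓ x c h e) (stB c) := by
  intro ω ω' hω
  unfold stF
  rw [hω (Sum.inl c) (by simp [stB]), hω (Sum.inr c) (by simp [stB])]

lemma stB_sub_blS (c : Stg V) : stB c ⊆ blS c.1 := by
  intro j hj
  simp only [stB, mem_insert_iff, mem_singleton_iff] at hj
  exact ⟨c.2, by simpa using hj⟩

/-- **Integral of a function of one stage.** -/
lemma integral_stF (hx0 : 0 ≤ x) (hx : x ≤ 1 / 2) (c : Stg V) {h : I → ℝ} (hh : BM h) (e : ℝ) :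
    ∫ ω, stF ℓ x c h e ω ∂Lam (JJ V) = pA ℓ x c.2 * (∫ t : I, h t) + (1 - pA ℓ x c.2) * e := by
  rw [← integral_resample (Sum.inr c) (bm_stF c hh e)]
  have e1 : ∀ ω : JJ V → I, ∫ r : I, stF ℓ x c h e (Function.update ω (Sum.inr c) r) =
      if actS ℓ x c.2 (ω (Sum.inl c)) then ∫ t : I, h t else e := by
    intro ω
    unfold stF
    simp only [update_inr_inl, Function.update_self]
    by_cases hA : actS ℓ x c.2 (ω (Sum.inl c))
    · simp [hA]
    · simp [hA]
  simp_rw [e1]
  have hbm : BM (fun ω : JJ V → I => if actS ℓ x c.2 (ω (Sum.inl c)) then ∫ t : I, h t else e) :=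
    bm_stF c (BM.const _) e
  rw [← integral_resample (Sum.inl c) hbm]
  simp only [Function.update_self]
  simp_rw [integral_act hx0 hx]
  simp

/-- Functions of the stages of a vertex are independent. -/
lemma integral_prod_stage (v : V) (S : Finset ℤ) {f : ℤ → (JJ V → I) → ℝ} (hf : ∀ i ∈ S, BM (f i))
    (hd : ∀ i ∈ S, DepS (f i) (stB (v, i))) :
    ∫ ω, ∏ i ∈ S, f i ω ∂Lam (JJ V) = ∏ i ∈ S, ∫ ω, f i ω ∂Lam (JJ V) := by
  refine integral_prod_indep S hf hd ?_
  intro i _ j _ hij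
  exact stB_disj (by simpa using hij)

/-! ### The factors of `gS` -/

/-- The factor of a stage. -/
noncomputable def facY (κ : ℝ) (s : Bool) (y : I) : ℝ := 1 + aY κ y * spin s

lemma gS_eq (v : V) (s : Bool) (ω : JJ V → I) :
    gS L κ ℓ x v s ω = ∏ i ∈ Finset.Icc L ℓ, stF ℓ x (v, i) (facY (κ i) s) 1 ω := rfl

lemma facY_ge {κ : ℝ} (h0 : 0 ≤ κ) (s : Bool) (y : I) : 1 - κ ≤ facY κ s y := by
  unfold facY
  have h := abs_aY_le h0 y
  have h1 := abs_le.mp h
  cases s <;> simp [spin] <;> linarith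

lemma facY_le {κ : ℝ} (h0 : 0 ≤ κ) (s : Bool) (y : I) : facY κ s y ≤ 1 + κ := by
  unfold facY
  have h := abs_aY_le h0 y
  have h1 := abs_le.mp h
  cases s <;> simp [spin] <;> linarith

lemma continuous_facY (κ : ℝ) (s : Bool) : Continuous (facY κ s) := by
  unfold facY
  exact continuous_const.add ((continuous_aY κ).mul continuous_const)

lemma bm_facY (κ : ℝ) (s : Bool) : BM (facY κ s) := bm_of_continuous_I (continuous_facY κ s)

lemma facY_true (κ : ℝ) (y : I) : facY κ true y = 1 + aY κ y := by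
  simp [facY, spin]

lemma facY_false (κ : ℝ) (y : I) : facY κ false y = 1 - aY κ y := by
  simp [facY, spin]
  ring

lemma integral_aY (κ : ℝ) : ∫ y : I, aY κ y = 0 := by
  unfold aY
  rw [integral_const_mul, integral_linear, mul_zero]

lemma integral_facY (κ : ℝ) (s : Bool) : ∫ y : I, facY κ s y = 1 := by
  unfold facY
  rw [integral_add (integrable_const _) (((bm_aY κ).mul (BM.const _)).integrable _), integral_mul_const,
    integral_aY]
  simp

section exper

variable (hκ : Sched κ) (hx0 : 0 ≤ x) (hx : x ≤ 1 / 2)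
include hκ

lemma stF_fac_pos (i : ℤ) (v : V) (s : Bool) (ω : JJ V → I) :
    2 / 3 ≤ stF ℓ x (v, i) (facY (κ i) s) 1 ω := by
  unfold stF
  split_ifs
  · have := facY_ge (hκ.pos i).le s (ω (Sum.inr (v, i)))
    have := hκ.le i
    linarith
  · norm_num

lemma bm_gS (v : V) (s : Bool) : BM (gS (V := V) L κ ℓ x v s) :=
  BM.finset_prod _ fun i _ => bm_stF (v, i) (bm_facY _ _) 1

lemma gS_pos (v : V) (s : Bool) (ω : JJ V → I) : 0 < gS L κ ℓ x v s ω := by
  rw [gS_eq]
  refine Finset.prod_pos fun i _ => ?_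
  have := stF_fac_pos (ℓ := ℓ) (x := x) hκ i v s ω
  linarith

include hx0 hx

/-- Mean one. -/
lemma integral_gS (v : V) (s : Bool) : ∫ ω, gS L κ ℓ x v s ω ∂Lam (JJ V) = 1 := by
  simp_rw [gS_eq]
  rw [integral_prod_stage v _ (fun i _ => bm_stF (v, i) (bm_facY _ _) 1) (fun i _ => depS_stF _ _ _)]
  refine Finset.prod_eq_one fun i _ => ?_
  rw [integral_stF hx0 hx (v, i) (bm_facY _ _) 1, integral_facY]
  ring

theorem exper_gS : Exper (blS (V := V)) flS (gS (V := V) L κ ℓ x) := by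
  refine ⟨⟨(2 / 3 : ℝ) ^ (Finset.Icc L ℓ).card, by positivity, fun v s ω => ?_⟩, fun v s => bm_gS hκ v s, ?_, ?_,
    fun v s => integral_gS hκ hx0 hx v s, ?_⟩
  · rw [gS_eq, ← Finset.prod_const]
    exact Finset.prod_le_prod (fun _ _ => by norm_num) fun i _ => stF_fac_pos hκ i v s ω
  · intro v s ω ω' hω
    simp_rw [gS_eq]
    refine Finset.prod_congr rfl fun i _ => ?_
    exact depS_stF _ _ _ ω ω' fun j hj => hω j (stB_sub_blS _ hj)
  · intro v v' hne
    rw [Set.disjoint_left]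
    rintro j ⟨i, hi⟩ ⟨i', hi'⟩
    rcases hi with rfl | rfl <;> rcases hi' with hi' | hi' <;> simp_all
  · intro v s ω
    simp_rw [gS_eq]
    refine Finset.prod_congr rfl fun i _ => ?_
    unfold stF
    have h1 : flipS flS ω (Sum.inl (v, i)) = ω (Sum.inl (v, i)) := by
      unfold flipS
      rw [if_neg]
      simp [flS]
    have h2 : flipS flS ω (Sum.inr (v, i)) = σ (ω (Sum.inr (v, i))) := by
      unfold flipS
      rw [if_pos]
      simp [flS]
    rw [h1, h2]
    simp only
    congr 1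
    unfold facY
    rw [aY_sigma]
    cases s <;> simp [spin]

/-! ### The three stage bounds -/

end exper

/-- The value of a tilted product of two complementary factors. -/
lemma pw_add_pw {K a : ℝ} (ha : |a| < 1) :
    pw K (1 + a) (1 - a) + pw K (1 - a) (1 + a) = 2 * Psi K a := by
  obtain ⟨h1, h2⟩ := abs_lt.mp ha
  have hp : 0 < 1 + a := by linarith
  have hm : 0 < 1 - a := by linarith
  unfold pw Psi
  rw [Real.rpow_def_of_pos hp, Real.rpow_def_of_pos hm, Real.rpow_def_of_pos hm, Real.rpow_def_of_pos hp]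
  have hsq : Real.sqrt (1 - a ^ 2) = Real.exp ((Real.log (1 + a) + Real.log (1 - a)) / 2) := by
    have hpos : 0 < 1 - a ^ 2 := by nlinarith
    rw [Real.sqrt_eq_rpow, Real.rpow_def_of_pos hpos]
    have : 1 - a ^ 2 = (1 + a) * (1 - a) := by ring
    rw [this, Real.log_mul hp.ne' hm.ne']
    congr 1
    ring
  have hart : Real.artanh a = (Real.log (1 + a) - Real.log (1 - a)) / 2 := by
    rw [Real.artanh, Real.log_sqrt (div_pos hp hm).le, Real.log_div hp.ne' hm.ne']
  rw [hsq, hart, Real.cosh_eq, ← Real.exp_add, ← Real.exp_add]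
  have e : (Real.exp (K * ((Real.log (1 + a) - Real.log (1 - a)) / 2)) +
        Real.exp (-(K * ((Real.log (1 + a) - Real.log (1 - a)) / 2)))) / 2 *
      Real.exp ((Real.log (1 + a) + Real.log (1 - a)) / 2) =
      (Real.exp (K * ((Real.log (1 + a) - Real.log (1 - a)) / 2) + (Real.log (1 + a) + Real.log (1 - a)) / 2) +
        Real.exp (-(K * ((Real.log (1 + a) - Real.log (1 - a)) / 2)) + (Real.log (1 + a) + Real.log (1 - a)) / 2)) / 2 := by
    rw [Real.exp_add, Real.exp_add]
    ring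
  rw [e]
  have e1 : Real.log (1 + a) * ((1 + K) / 2) + Real.log (1 - a) * ((1 - K) / 2) =
      K * ((Real.log (1 + a) - Real.log (1 - a)) / 2) + (Real.log (1 + a) + Real.log (1 - a)) / 2 := by ring
  have e2 : Real.log (1 - a) * ((1 + K) / 2) + Real.log (1 + a) * ((1 - K) / 2) =
      -(K * ((Real.log (1 + a) - Real.log (1 - a)) / 2)) + (Real.log (1 + a) + Real.log (1 - a)) / 2 := by ring
  rw [e1, e2]
  ring

lemma abs_aY_lt {κ : ℝ} (h0 : 0 ≤ κ) (h1 : κ < 1) (y : I) : |aY κ y| < 1 :=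
  lt_of_le_of_lt (abs_aY_le h0 y) h1

lemma continuous_pw_aY {κ K : ℝ} (h0 : 0 ≤ κ) (h1 : κ < 1) :
    Continuous (fun y : I => pw K (1 + aY κ y) (1 - aY κ y)) := by
  unfold pw
  have hc := continuous_aY κ
  have hc1 : Continuous (fun y : I => 1 + aY κ y) := continuous_const.add hc
  have hc2 : Continuous (fun y : I => 1 - aY κ y) := continuous_const.sub hc
  refine Continuous.mul ?_ ?_
  · refine hc1.rpow_const fun y => Or.inl ?_
    have := abs_lt.mp (abs_aY_lt h0 h1 y)
    have hp : 0 < 1 + aY κ y := by linarith [this.1]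
    exact hp.ne'
  · refine hc2.rpow_const fun y => Or.inl ?_
    have := abs_lt.mp (abs_aY_lt h0 h1 y)
    have hp : 0 < 1 - aY κ y := by linarith [this.2]
    exact hp.ne'

/-- Stage bound: the moment generating function. -/
lemma stage_mgf {κ K : ℝ} (h0 : 0 ≤ κ) (h1 : κ ≤ 1 / 3) (hK : 1 ≤ K) :
    ∫ y : I, pw K (1 + aY κ y) (1 - aY κ y) ≤ Real.exp ((κ ^ 2 / (1 - κ ^ 2) ^ 2) * (K ^ 2 - 1) / 2) := by
  have hc := continuous_pw_aY (K := K) h0 (by linarith : κ < 1)
  have hbm := bm_of_continuous_I hc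
  rw [integral_symm_half hbm]
  have e : ∀ y : I, pw K (1 + aY κ y) (1 - aY κ y) + pw K (1 + aY κ (σ y)) (1 - aY κ (σ y)) =
      2 * Psi K (aY κ y) := by
    intro y
    rw [aY_sigma, ← pw_add_pw (abs_aY_lt h0 (by linarith) y),
      show 1 + -aY κ y = 1 - aY κ y by ring, show 1 - -aY κ y = 1 + aY κ y by ring]
  simp_rw [e]
  rw [integral_const_mul]
  have hbound : ∀ y : I, Psi K (aY κ y) ≤ Real.exp ((κ ^ 2 / (1 - κ ^ 2) ^ 2) * (K ^ 2 - 1) / 2) := by
    intro y
    refine (Psi_le_of_abs_le hK h0 (by linarith) (abs_aY_le h0 y)).trans (le_of_eq ?_)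
    congr 1
    have : 1 - κ ^ 2 ≠ 0 := by nlinarith
    field_simp
  have hint : Integrable (fun y : I => Psi K (aY κ y)) := by
    have : (fun y : I => Psi K (aY κ y)) =
        fun y => (1 / 2) * (pw K (1 + aY κ y) (1 - aY κ y) + pw K (1 + aY κ (σ y)) (1 - aY κ (σ y))) := by
      funext y
      rw [e]
      ring
    rw [this]
    exact ((hbm.integrable _).add ((hbm.comp unitInterval.measurable_symm).integrable _)).const_mul _
  have := integral_mono hint (integrable_const _) hbound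
  rw [integral_const_I] at this
  linarith

/-- The ratio of the tilt factors. -/
noncomputable def artY (κ : ℝ) (y : I) : ℝ := Real.log ((1 + aY κ y) / (1 - aY κ y)) / 2

lemma artY_eq {κ : ℝ} (h0 : 0 ≤ κ) (h1 : κ < 1) (y : I) : artY κ y = Real.artanh (aY κ y) := by
  unfold artY
  have := abs_lt.mp (abs_aY_lt h0 h1 y)
  have hp : 0 < 1 + aY κ y := by linarith [this.1]
  have hm : 0 < 1 - aY κ y := by linarith [this.2]
  rw [Real.artanh, Real.log_sqrt (div_pos hp hm).le]

lemma continuous_artY {κ : ℝ} (h0 : 0 ≤ κ) (h1 : κ < 1) : Continuous (artY κ) := by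
  unfold artY
  have hc := continuous_aY κ
  refine Continuous.div_const ?_ _
  refine Continuous.log ((continuous_const.add hc).div (continuous_const.sub hc) ?_) ?_
  · intro y
    have := abs_lt.mp (abs_aY_lt h0 h1 y)
    linarith [this.2]
  · intro y
    have := abs_lt.mp (abs_aY_lt h0 h1 y)
    have hp : 0 < 1 + aY κ y := by linarith [this.1]
    have hm : 0 < 1 - aY κ y := by linarith [this.2]
    exact (div_pos hp hm).ne'

lemma artY_sigma {κ : ℝ} (h0 : 0 ≤ κ) (h1 : κ < 1) (y : I) : artY κ (σ y) = - artY κ y := by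
  rw [artY_eq h0 h1, artY_eq h0 h1, aY_sigma, artanh_neg_eq]

/-- Stage bound: the information. -/
lemma stage_info {κ : ℝ} (h0 : 0 ≤ κ) (h1 : κ ≤ 1 / 3) :
    κ ^ 2 / 3 ≤ ∫ y : I, (1 + aY κ y) * artY κ y := by
  have hc : Continuous (fun y : I => (1 + aY κ y) * artY κ y) :=
    (continuous_const.add (continuous_aY κ)).mul (continuous_artY h0 (by linarith))
  have hbm := bm_of_continuous_I hc
  rw [integral_symm_half hbm]
  have e : ∀ y : I, (1 + aY κ y) * artY κ y + (1 + aY κ (σ y)) * artY κ (σ y) =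
      2 * (aY κ y * artY κ y) := by
    intro y
    rw [aY_sigma, artY_sigma h0 (by linarith)]
    ring
  simp_rw [e]
  rw [integral_const_mul]
  have hge : ∀ y : I, κ ^ 2 * (2 * (y : ℝ) - 1) ^ 2 ≤ aY κ y * artY κ y := by
    intro y
    rw [artY_eq h0 (by linarith)]
    have := mul_artanh_ge (abs_aY_lt h0 (by linarith) y)
    have e2 : aY κ y ^ 2 = κ ^ 2 * (2 * (y : ℝ) - 1) ^ 2 := by unfold aY; ring
    rwa [e2] at this
  have hbd : BM (fun y : I => κ ^ 2 * (2 * (y : ℝ) - 1) ^ 2) :=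
    bm_of_continuous_I (by fun_prop)
  have hbd2 : BM (fun y : I => aY κ y * artY κ y) :=
    bm_of_continuous_I ((continuous_aY κ).mul (continuous_artY h0 (by linarith)))
  have := integral_mono (hbd.integrable volume) (hbd2.integrable volume) hge
  rw [integral_const_mul, integral_sq] at this
  linarith

/-- Stage bound: the Hellinger integral. -/
lemma stage_hell {κ : ℝ} (h0 : 0 ≤ κ) (h1 : κ ≤ 1 / 3) :
    ∫ y : I, Real.sqrt ((1 + aY κ y) * (1 - aY κ y)) ≤ 1 - κ ^ 2 / 6 := by
  have hbd : BM (fun y : I => 1 - κ ^ 2 * (2 * (y : ℝ) - 1) ^ 2 / 2) :=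
    bm_of_continuous_I (by fun_prop)
  have hc : BM (fun y : I => Real.sqrt ((1 + aY κ y) * (1 - aY κ y))) := by
    refine bm_of_continuous_I (Real.continuous_sqrt.comp ?_)
    exact (continuous_const.add (continuous_aY κ)).mul (continuous_const.sub (continuous_aY κ))
  have hle : ∀ y : I, Real.sqrt ((1 + aY κ y) * (1 - aY κ y)) ≤ 1 - κ ^ 2 * (2 * (y : ℝ) - 1) ^ 2 / 2 := by
    intro y
    have e2 : aY κ y ^ 2 = κ ^ 2 * (2 * (y : ℝ) - 1) ^ 2 := by unfold aY; ring
    have hb := abs_lt.mp (abs_aY_lt h0 (by linarith : κ < 1) y)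
    have ha2 : aY κ y ^ 2 ≤ 1 := by nlinarith
    rw [← e2]
    apply Real.sqrt_le_iff.mpr
    constructor
    · linarith
    · nlinarith [sq_nonneg (aY κ y ^ 2)]
  have := integral_mono (hc.integrable volume) (hbd.integrable volume) hle
  have e3 : ∫ y : I, (1 - κ ^ 2 * (2 * (y : ℝ) - 1) ^ 2 / 2) = 1 - κ ^ 2 / 6 := by
    have hq : BM (fun y : I => κ ^ 2 * (2 * (y : ℝ) - 1) ^ 2 / 2) := bm_of_continuous_I (by fun_prop)
    rw [integral_sub (integrable_const _) (hq.integrable volume), integral_const_I]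
    have : ∫ y : I, κ ^ 2 * (2 * (y : ℝ) - 1) ^ 2 / 2 = κ ^ 2 * (∫ y : I, (2 * (y : ℝ) - 1) ^ 2) / 2 := by
      rw [← integral_const_mul, ← integral_div]
    rw [this, integral_sq]
    ring
  rw [e3] at this
  exact this

/-! ### Sum decomposition of the information lower bound -/

lemma tauM_eq (hL : L ≤ ℓ) : tauM L κ ℓ x = ∑ i ∈ Finset.Icc L ℓ, pA ℓ x i * (κ i ^ 2 / 3) := by
  unfold tauM
  rw [← Finset.Ico_insert_right hL, Finset.sum_insert (by simp), add_comm]
  congr 1
  · simp [pA]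
    ring
  · refine Finset.sum_congr rfl fun i hi => ?_
    have : i < ℓ := (Finset.mem_Ico.mp hi).2
    simp [pA, this]
    ring

lemma sqrt_prod' (S : Finset ℤ) (f : ℤ → ℝ) (hf : ∀ i ∈ S, 0 ≤ f i) :
    Real.sqrt (∏ i ∈ S, f i) = ∏ i ∈ S, Real.sqrt (f i) := by
  induction S using Finset.induction_on with
  | empty => simp
  | insert a S ha ih =>
    rw [Finset.prod_insert ha, Finset.prod_insert ha, Real.sqrt_mul (hf a (Finset.mem_insert_self _ _)),
      ih fun i hi => hf i (Finset.mem_insert_of_mem hi)]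

section bd

variable (hκ : Sched κ) (hx0 : 0 ≤ x) (hx : x ≤ 1 / 2)
include hκ hx0 hx

lemma pos_of_stF (v : V) (i : ℤ) (s : Bool) (ω : JJ V → I) : 0 < stF ℓ x (v, i) (facY (κ i) s) 1 ω := by
  have := stF_fac_pos (ℓ := ℓ) (x := x) hκ i v s ω
  linarith

/-- The moment generating function of the tilted product. -/
theorem gS_mgf (v : V) (K : ℝ) (hK : 1 ≤ K) :
    ∫ ω, pw K (gS L κ ℓ x v true ω) (gS L κ ℓ x v false ω) ∂Lam (JJ V) ≤ Real.exp (tauP L κ ℓ * (K ^ 2 - 1) / 2) := by
  have e : ∀ ω : JJ V → I, pw K (gS L κ ℓ x v true ω) (gS L κ ℓ x v false ω) =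
      ∏ i ∈ Finset.Icc L ℓ, stF ℓ x (v, i) (fun y => pw K (1 + aY (κ i) y) (1 - aY (κ i) y)) 1 ω := by
    intro ω
    simp_rw [gS_eq]
    unfold pw
    rw [← Real.finsetProd_rpow _ _ (fun i _ => (pos_of_stF hκ hx0 hx v i true ω).le),
      ← Real.finsetProd_rpow _ _ (fun i _ => (pos_of_stF hκ hx0 hx v i false ω).le),
      ← Finset.prod_mul_distrib]
    refine Finset.prod_congr rfl fun i _ => ?_
    unfold stF
    by_cases hA : actS ℓ x (v, i).2 (ω (Sum.inl (v, i)))
    · simp only [if_pos hA, facY_true, facY_false]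
    · simp only [if_neg hA, Real.one_rpow, mul_one]
  simp_rw [e]
  have hb : ∀ i : ℤ, BM (fun y : I => pw K (1 + aY (κ i) y) (1 - aY (κ i) y)) := fun i =>
    bm_of_continuous_I (continuous_pw_aY (hκ.pos i).le (by linarith [hκ.le i]))
  rw [integral_prod_stage v _ (fun i _ => bm_stF (v, i) (hb i) 1) (fun i _ => depS_stF _ _ _)]
  have hE : Real.exp (tauP L κ ℓ * (K ^ 2 - 1) / 2) =
      ∏ i ∈ Finset.Icc L ℓ, Real.exp ((κ i ^ 2 / (1 - κ i ^ 2) ^ 2) * (K ^ 2 - 1) / 2) := by
    rw [← Real.exp_sum]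
    congr 1
    unfold tauP
    rw [Finset.sum_mul, Finset.sum_div]
  rw [hE]
  refine Finset.prod_le_prod (fun i _ => ?_) fun i _ => ?_
  · refine integral_nonneg fun ω => ?_
    unfold stF pw
    have hbb := abs_lt.mp (abs_aY_lt (hκ.pos i).le (by linarith [hκ.le i]) (ω (Sum.inr (v, i))))
    split_ifs
    · exact mul_nonneg (Real.rpow_nonneg (by linarith [hbb.1]) _) (Real.rpow_nonneg (by linarith [hbb.2]) _)
    · norm_num
  · rw [integral_stF hx0 hx (v, i) (hb i) 1]
    simp only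
    have h1 := stage_mgf (K := K) (hκ.pos i).le (hκ.le i) hK
    have hτ : 0 ≤ (κ i ^ 2 / (1 - κ i ^ 2) ^ 2) * (K ^ 2 - 1) / 2 := by
      have : 0 ≤ K ^ 2 - 1 := by nlinarith
      positivity
    have h2 : 1 ≤ Real.exp ((κ i ^ 2 / (1 - κ i ^ 2) ^ 2) * (K ^ 2 - 1) / 2) := Real.one_le_exp hτ
    have hp0 := pA_nonneg hx0 ℓ i
    have hp1 := pA_le_one hx ℓ i
    nlinarith

/-- The Hellinger bound. -/
theorem gS_hell (hL : L ≤ ℓ) (v : V) :
    ∫ ω, Real.sqrt (gS L κ ℓ x v true ω * gS L κ ℓ x v false ω) ∂Lam (JJ V) ≤ Real.exp (-tauM L κ ℓ x / 2) := by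
  have e : ∀ ω : JJ V → I, Real.sqrt (gS L κ ℓ x v true ω * gS L κ ℓ x v false ω) =
      ∏ i ∈ Finset.Icc L ℓ, stF ℓ x (v, i) (fun y => Real.sqrt ((1 + aY (κ i) y) * (1 - aY (κ i) y))) 1 ω := by
    intro ω
    simp_rw [gS_eq]
    rw [← Finset.prod_mul_distrib, sqrt_prod' _ _ (fun i _ =>
      (mul_pos (pos_of_stF hκ hx0 hx v i true ω) (pos_of_stF hκ hx0 hx v i false ω)).le)]
    refine Finset.prod_congr rfl fun i _ => ?_
    unfold stF
    by_cases hA : actS ℓ x (v, i).2 (ω (Sum.inl (v, i)))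
    · simp only [if_pos hA, facY_true, facY_false]
    · simp only [if_neg hA, mul_one, Real.sqrt_one]
  simp_rw [e]
  have hb : ∀ i : ℤ, BM (fun y : I => Real.sqrt ((1 + aY (κ i) y) * (1 - aY (κ i) y))) := fun i =>
    bm_of_continuous_I (Real.continuous_sqrt.comp
      ((continuous_const.add (continuous_aY _)).mul (continuous_const.sub (continuous_aY _))))
  rw [integral_prod_stage v _ (fun i _ => bm_stF (v, i) (hb i) 1) (fun i _ => depS_stF _ _ _)]
  have hE : Real.exp (-tauM L κ ℓ x / 2) =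
      ∏ i ∈ Finset.Icc L ℓ, Real.exp (- (pA ℓ x i * (κ i ^ 2 / 3)) / 2) := by
    rw [← Real.exp_sum, tauM_eq hL, ← Finset.sum_div, Finset.sum_neg_distrib]
  rw [hE]
  refine Finset.prod_le_prod (fun i _ => ?_) fun i _ => ?_
  · refine integral_nonneg fun ω => ?_
    unfold stF
    split_ifs
    · exact Real.sqrt_nonneg _
    · norm_num
  · rw [integral_stF hx0 hx (v, i) (hb i) 1]
    simp only
    have h1 := stage_hell (hκ.pos i).le (hκ.le i)
    have hp0 := pA_nonneg hx0 ℓ i
    have hp1 := pA_le_one hx ℓ i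
    have h2 := Real.add_one_le_exp (- (pA ℓ x i * (κ i ^ 2 / 3)) / 2)
    nlinarith

/-- The information bound. -/
theorem gS_info (hL : L ≤ ℓ) (v : V) :
    tauM L κ ℓ x ≤ ∫ ω, gS L κ ℓ x v true ω * (Real.log (gS L κ ℓ x v true ω / gS L κ ℓ x v false ω) / 2) ∂Lam (JJ V) := by
  -- the log ratio as a sum
  have hr : ∀ i : ℤ, BM (artY (κ i)) := fun i =>
    bm_of_continuous_I (continuous_artY (hκ.pos i).le (by linarith [hκ.le i]))
  have hfr : ∀ i : ℤ, BM (fun y : I => (1 + aY (κ i) y) * artY (κ i) y) := fun i =>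
    bm_of_continuous_I ((continuous_const.add (continuous_aY _)).mul
      (continuous_artY (hκ.pos i).le (by linarith [hκ.le i])))
  have e : ∀ ω : JJ V → I, Real.log (gS L κ ℓ x v true ω / gS L κ ℓ x v false ω) / 2 =
      ∑ i ∈ Finset.Icc L ℓ, stF ℓ x (v, i) (artY (κ i)) 0 ω := by
    intro ω
    simp_rw [gS_eq]
    rw [← Finset.prod_div_distrib, Real.log_prod, Finset.sum_div]
    · refine Finset.sum_congr rfl fun i _ => ?_
      unfold stF
      by_cases hA : actS ℓ x (v, i).2 (ω (Sum.inl (v, i)))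
      · simp only [if_pos hA, facY_true, facY_false]
        rfl
      · simp only [if_neg hA]
        simp
    · intro i _
      exact (div_pos (pos_of_stF hκ hx0 hx v i true ω) (pos_of_stF hκ hx0 hx v i false ω)).ne'
  simp_rw [e, Finset.mul_sum]
  rw [integral_finsetSum _ (fun i _ => ((bm_gS hκ v true).mul (bm_stF (v, i) (hr i) 0)).integrable _)]
  rw [tauM_eq hL]
  refine Finset.sum_le_sum fun i hi => ?_
  -- one stage: independence
  have hone : ∫ ω, gS L κ ℓ x v true ω * stF ℓ x (v, i) (artY (κ i)) 0 ω ∂Lam (JJ V) =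
      ∫ ω, stF ℓ x (v, i) (fun y => (1 + aY (κ i) y) * artY (κ i) y) 0 ω ∂Lam (JJ V) := by
    set f : ℤ → (JJ V → I) → ℝ := fun j =>
      if j = i then stF ℓ x (v, i) (fun y => (1 + aY (κ i) y) * artY (κ i) y) 0
      else stF ℓ x (v, j) (facY (κ j) true) 1 with hf
    have hprod : ∀ ω, gS L κ ℓ x v true ω * stF ℓ x (v, i) (artY (κ i)) 0 ω =
        ∏ j ∈ Finset.Icc L ℓ, f j ω := by
      intro ω
      rw [gS_eq, ← Finset.mul_prod_erase _ _ hi, ← Finset.mul_prod_erase (Finset.Icc L ℓ) (fun j => f j ω) hi]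
      have h1 : f i ω = stF ℓ x (v, i) (fun y => (1 + aY (κ i) y) * artY (κ i) y) 0 ω := by
        simp [hf]
      have h2 : ∏ j ∈ (Finset.Icc L ℓ).erase i, f j ω =
          ∏ j ∈ (Finset.Icc L ℓ).erase i, stF ℓ x (v, j) (facY (κ j) true) 1 ω := by
        refine Finset.prod_congr rfl fun j hj => ?_
        have : j ≠ i := (Finset.mem_erase.mp hj).1
        simp [hf, this]
      rw [h1, h2]
      have h3 : stF ℓ x (v, i) (facY (κ i) true) 1 ω * stF ℓ x (v, i) (artY (κ i)) 0 ω =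
          stF ℓ x (v, i) (fun y => (1 + aY (κ i) y) * artY (κ i) y) 0 ω := by
        unfold stF
        by_cases hA : actS ℓ x (v, i).2 (ω (Sum.inl (v, i)))
        · simp only [if_pos hA, facY_true]
        · simp only [if_neg hA, mul_zero]
      rw [← h3]
      ring
    simp_rw [hprod]
    have hfb : ∀ j ∈ Finset.Icc L ℓ, BM (f j) := by
      intro j _
      by_cases hji : j = i
      · simp only [hf, hji, if_true]; exact bm_stF (v, i) (hfr i) 0
      · simp only [hf, hji, if_false]; exact bm_stF (v, j) (bm_facY _ _) 1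
    have hfd : ∀ j ∈ Finset.Icc L ℓ, DepS (f j) (stB (v, j)) := by
      intro j _
      by_cases hji : j = i
      · subst hji; simp only [hf, if_true]; exact depS_stF _ _ _
      · simp only [hf, hji, if_false]; exact depS_stF _ _ _
    rw [integral_prod_stage v _ hfb hfd, Finset.prod_eq_single_of_mem i hi]
    · simp [hf]
    · intro j _ hji
      simp only [hf, hji, if_false]
      rw [integral_stF hx0 hx (v, j) (bm_facY _ _) 1, integral_facY]
      ring
  rw [hone, integral_stF hx0 hx (v, i) (hfr i) 0]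
  have h1 := stage_info (hκ.pos i).le (hκ.le i)
  have hp0 := pA_nonneg hx0 ℓ i
  nlinarith

theorem expBd_gS (hL : L ≤ ℓ) : ExpBd (gS (V := V) L κ ℓ x) (tauP L κ ℓ) (tauM L κ ℓ x) :=
  ⟨fun v K hK => gS_mgf hκ hx0 hx v K hK, fun v => gS_info hκ hx0 hx hL v, fun v => gS_hell hκ hx0 hx hL v⟩

end bd

theorem gA_eq_gS {W : Finset V} (ω : JJ V → I) {v : V} (hv : v ∈ W) (s : Bool) :
    gA κ (Act W L (uOf ω) ℓ x) (yOf ω) v s = gS L κ ℓ x v s ω := by
  rw [gA_Act_eq W L κ (uOf ω) (yOf ω) ℓ x v s hv]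
  unfold gS
  refine Finset.prod_congr rfl fun i _ => ?_
  by_cases hA : actS ℓ x i (ω (Sum.inl (v, i)))
  · rw [if_pos hA]
    exact if_pos hA
  · rw [if_neg hA]
    exact if_neg hA

/-- The planted measure in the two coordinates. -/
theorem integral_noiseP {Φ : (Stg V → I) × (Stg V → I) → ℝ} (hΦ : Measurable Φ) :
    ∫ q, Φ q ∂noiseP V = ∫ ω, Φ (uOf ω, yOf ω) ∂Lam (JJ V) := by
  have hmS : Measurable (fun z : JJ V → I => (z ∘ Sum.inl, z ∘ Sum.inr)) := by
    refine Measurable.prodMk ?_ ?_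
    · rw [measurable_pi_iff]; intro j; exact measurable_pi_apply (Sum.inl j)
    · rw [measurable_pi_iff]; intro j; exact measurable_pi_apply (Sum.inr j)
  unfold noiseP
  rw [← Crest.Agent.Lib.FiidNoise.map_sum_split, integral_map hmS.aemeasurable hΦ.aestronglyMeasurable]
  rfl

end Crest.Agent.Lib.TI
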