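import Crest.Agent.Lib.TI.Run
import Crest.Agent.Lib.TI.Static
import Crest.Agent.Lib.TI.ConcreteExper

/-!
# Helper lemmas for the planted measure and the concrete experiments (S0241 project)

Used for `one_sub_mSt_sq_le`, `mSt_cell_diff`, `pattern_planted` in `TI.Concrete`.
-/

set_option autoImplicit false

namespace Crest.Agent.Lib.TI
namespace LinkAux

open MeasureTheory Set Classical
open scoped unitInterval
open Crest.Agent.Lib.FiidChannel Crest.Agent.Lib.FiidPlanted Crest.ProbabilityR.TreeIsing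

variable {V : Type*} {G : SimpleGraph V} [G.LocallyFinite] {q : ℕ} {θ : ℝ}
variable {J : Type*}

set_option linter.unusedSectionVars false

theorem abs_lt_one (hθ : Adm θ) : |θ| < 1 := by
  rw [abs_of_nonneg hθ.nonneg]; exact hθ.lt_one

/-- Comparison of two products of numbers in `[-1, 1]`. -/
theorem abs_prod_sub_prod_le {ι : Type*} (s : Finset ι) (a b : ι → ℝ)
    (ha : ∀ i ∈ s, |a i| ≤ 1) (hb : ∀ i ∈ s, |b i| ≤ 1) :
    |∏ i ∈ s, a i - ∏ i ∈ s, b i| ≤ ∑ i ∈ s, |a i - b i| := by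
  induction s using Finset.induction_on with
  | empty => simp
  | insert x s hx ih =>
    rw [Finset.prod_insert hx, Finset.prod_insert hx, Finset.sum_insert hx]
    have h1 := ih (fun i hi => ha i (Finset.mem_insert_of_mem hi))
      (fun i hi => hb i (Finset.mem_insert_of_mem hi))
    have h2 : |∏ i ∈ s, a i| ≤ 1 := by
      rw [Finset.abs_prod]
      exact Finset.prod_le_one (fun _ _ => abs_nonneg _)
        (fun i hi => ha i (Finset.mem_insert_of_mem hi))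
    have h3 := ha x (Finset.mem_insert_self _ _)
    have h4 := hb x (Finset.mem_insert_self _ _)
    have e : a x * ∏ i ∈ s, a i - b x * ∏ i ∈ s, b i =
        (a x - b x) * ∏ i ∈ s, a i + b x * (∏ i ∈ s, a i - ∏ i ∈ s, b i) := by ring
    rw [e]
    calc _ ≤ |(a x - b x) * ∏ i ∈ s, a i| + |b x * (∏ i ∈ s, a i - ∏ i ∈ s, b i)| := abs_add_le _ _
      _ ≤ |a x - b x| * 1 + 1 * ∑ i ∈ s, |a i - b i| := by
          rw [abs_mul, abs_mul]
          have h5 := abs_nonneg (a x - b x)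
          have h6 := abs_nonneg (∏ i ∈ s, a i - ∏ i ∈ s, b i)
          exact add_le_add (mul_le_mul_of_nonneg_left h2 h5) (mul_le_mul h4 h1 h6 zero_le_one)
      _ = _ := by ring

/-- A set star shaped around one of its points is star shaped around each of them. -/
theorem star_of_mem (hG : RegTree G q) {W : Finset V} {o v : V} (hW : Star G W o) (hv : v ∈ W) :
    Star G W v := by
  refine star_of_connected hG ?_ hv
  have ho : o ∈ (W : Set V) := hW.1
  have hreach : ∀ n : ℕ, ∀ p (hp : p ∈ (W : Set V)), G.dist p o = n →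
      (G.induce (W : Set V)).Reachable ⟨p, hp⟩ ⟨o, ho⟩ := by
    intro n
    induction n with
    | zero =>
      intro p hp hd
      have : p = o := hG.tree.connected.dist_eq_zero_iff.mp hd
      subst this
      exact SimpleGraph.Reachable.refl _
    | succ n ih =>
      intro p hp hd
      have hne : p ≠ o := by
        rintro rfl
        simp at hd
      have hn : nxt G p o ∈ (W : Set V) := hW.2 p hp hne
      have h1 := ih (nxt G p o) hn (by have := dist_nxt hG hne; omega)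
      refine SimpleGraph.Reachable.trans ?_ h1
      refine SimpleGraph.Adj.reachable ?_
      simpa using nxt_adj hG hne
  have : Nonempty (W : Set V) := ⟨⟨v, hv⟩⟩
  refine (SimpleGraph.connected_iff _).2 ⟨fun x y => ?_, inferInstance⟩
  exact (hreach _ x.1 x.2 rfl).trans (hreach _ y.1 y.2 rfl).symm

/-! ### Experiments -/

section exper

variable {g : V → Bool → (J → I) → ℝ} {bl : V → Set J} {Fl : Set J}

theorem integral_prod_g (hE : Exper bl Fl g) (W : Finset V) (τ : V → Bool) :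
    ∫ ω, ∏ v ∈ W, g v (τ v) ω ∂Lam J = 1 := by
  rw [integral_prod_indep W (fun v _ => hE.bm v (τ v)) (fun v _ => hE.dep v (τ v))
    (fun v _ v' _ hne => hE.disj v v' hne)]
  exact Finset.prod_eq_one fun v _ => hE.mean v (τ v)

theorem bm_wt (hb : ∀ v s, BM (g v s)) (W : Finset V) (τ : V → Bool) :
    BM (fun ω => wt G θ W (fun v s => g v s ω) τ) := by
  unfold wt
  exact (BM.const _).mul (BM.finset_prod W fun v _ => hb v (τ v))

theorem bm_Zg (hb : ∀ v s, BM (g v s)) (W : Finset V) :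
    BM (fun ω => Zg G θ W (fun v s => g v s ω)) := by
  unfold Zg sumW
  exact BM.finset_sum _ fun A _ => bm_wt hb W _

theorem integral_wt (hE : Exper bl Fl g) (W : Finset V) (τ : V → Bool) :
    ∫ ω, wt G θ W (fun v s => g v s ω) τ ∂Lam J = isingWeight G θ W τ := by
  unfold wt
  rw [integral_const_mul, integral_prod_g hE, mul_one]

theorem integral_sumW {W : Finset V} {F : (J → I) → (V → Bool) → ℝ}
    (h : ∀ τ, BM (fun ω => F ω τ)) :
    ∫ ω, sumW W (F ω) ∂Lam J = sumW W (fun τ => ∫ ω, F ω τ ∂Lam J) := by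
  unfold sumW
  exact integral_finsetSum _ fun _ _ => (h _).integrable _

theorem bm_mv (hθ1 : |θ| < 1) (hb : ∀ v s, BM (g v s)) (hp : ∀ ω, PosG fun v s => g v s ω)
    (W : Finset V) (v : V) : BM (fun ω => mv G θ W (fun v s => g v s ω) v) :=
  ⟨measurable_mv (fun v s => (hb v s).1) v, 1, fun ω => abs_mv_le hθ1 (hp ω) v⟩

end exper

/-! ### Sums against the weight -/

section sums

variable {h : V → Bool → ℝ}

theorem sumW_wt_spin (hθ1 : |θ| < 1) (hg : PosG h) (W : Finset V) (v : V) :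
    sumW W (fun τ => wt G θ W h τ * spin (τ v)) = mv G θ W h v * Zg G θ W h := by
  unfold mv Ex
  rw [div_mul_cancel₀ _ (Zg_pos hθ1 hg).ne']

theorem sumW_wt_sq (hθ1 : |θ| < 1) (hg : PosG h) (W : Finset V) (o : V) (m₀ : ℝ) :
    sumW W (fun τ => wt G θ W h τ * (spin (τ o) - m₀) ^ 2) =
      Zg G θ W h * (1 - 2 * m₀ * mv G θ W h o + m₀ ^ 2) := by
  have e : ∀ τ : V → Bool, wt G θ W h τ * (spin (τ o) - m₀) ^ 2 =
      (1 + m₀ ^ 2) * wt G θ W h τ + (-2 * m₀) * (wt G θ W h τ * spin (τ o)) := by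
    intro τ
    have h1 := spin_sq (τ o)
    have : (spin (τ o) - m₀) ^ 2 = spin (τ o) ^ 2 - 2 * m₀ * spin (τ o) + m₀ ^ 2 := by ring
    rw [this, h1]
    ring
  rw [sumW_congr e, sumW_add, sumW_mul_left, sumW_mul_left, sumW_wt_spin hθ1 hg]
  show (1 + m₀ ^ 2) * Zg G θ W h + _ = _
  ring

theorem abs_sub_spin {m : ℝ} (hm : |m| ≤ 1) (s : Bool) : |m - spin s| = 1 - m * spin s := by
  obtain ⟨h1, h2⟩ := abs_le.mp hm
  cases s
  · simp only [spin, Bool.false_eq_true, if_false]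
    rw [abs_of_nonneg (by linarith)]
    ring
  · simp only [spin, if_true]
    rw [abs_of_nonpos (by linarith)]
    ring

theorem sumW_wt_abs (hθ1 : |θ| < 1) (hg : PosG h) (W : Finset V) (v : V) :
    sumW W (fun τ => wt G θ W h τ * |mv G θ W h v - spin (τ v)|) =
      Zg G θ W h * (1 - mv G θ W h v ^ 2) := by
  have hm := abs_mv_le (G := G) (W := W) hθ1 hg v
  have e : ∀ τ : V → Bool, wt G θ W h τ * |mv G θ W h v - spin (τ v)| =
      1 * wt G θ W h τ + (- mv G θ W h v) * (wt G θ W h τ * spin (τ v)) := by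
    intro τ
    rw [abs_sub_spin hm]
    ring
  rw [sumW_congr e, sumW_add, sumW_mul_left, sumW_mul_left, sumW_wt_spin hθ1 hg]
  show 1 * Zg G θ W h + _ = _
  ring

end sums

/-! ### Splitting the concrete experiments -/

section split

variable {L ℓ ℓ' : ℤ} {κ : ℤ → ℝ}

/-- One stage at the start of a later cell. -/
noncomputable def phiS (κ : ℤ → ℝ) (v : V) (s : Bool) (i : ℤ) (ω : JJ V → I) : ℝ :=
  if ((ω (Sum.inl (v, i)) : I) : ℝ) < 1 / 2 then 1 + aY (κ i) (ω (Sum.inr (v, i))) * spin s else 1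

theorem gS_zero (hL : L ≤ ℓ) (v : V) (s : Bool) (ω : JJ V → I) :
    gS L κ ℓ 0 v s ω = ∏ i ∈ Finset.Ico L ℓ, phiS κ v s i ω := by
  unfold gS
  rw [← Finset.Ico_insert_right hL, Finset.prod_insert Finset.right_notMem_Ico]
  have h0 : ¬ actS ℓ 0 ℓ (ω (Sum.inl (v, ℓ))) := by
    unfold actS
    rintro (⟨h, -⟩ | ⟨-, h⟩)
    · exact lt_irrefl _ h
    · exact absurd h (not_lt.mpr (ω _).2.1)
  rw [if_neg h0, one_mul]
  refine Finset.prod_congr rfl fun i hi => ?_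
  have hi' := (Finset.mem_Ico.mp hi).2
  have : actS ℓ 0 i (ω (Sum.inl (v, i))) ↔ ((ω (Sum.inl (v, i)) : I) : ℝ) < 1 / 2 := by
    unfold actS
    constructor
    · rintro (⟨-, h⟩ | ⟨h1, -⟩)
      · exact h
      · exact absurd h1 hi'.ne
    · intro h
      exact Or.inl ⟨hi', h⟩
  simp only [phiS, this]

theorem gS_split (hL : L ≤ ℓ) (hℓ : ℓ ≤ ℓ') (v : V) (s : Bool) (ω : JJ V → I) :
    gS L κ ℓ' 0 v s ω = gS L κ ℓ 0 v s ω * ∏ i ∈ Finset.Ico ℓ ℓ', phiS κ v s i ω := by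
  rw [gS_zero (hL.trans hℓ), gS_zero hL, ← Finset.Ico_union_Ico_eq_Ico hL hℓ,
    Finset.prod_union (Finset.Ico_disjoint_Ico_consecutive L ℓ ℓ')]

/-- The cell index of a coordinate. -/
def idxJ : JJ V → ℤ := Sum.elim (fun c => c.2) (fun c => c.2)

/-- Coordinates of the cells before `ℓ`. -/
def loB (ℓ : ℤ) : Set (JJ V) := {j | idxJ j < ℓ}

/-- Coordinates of the cells from `ℓ` on. -/
def hiB (ℓ : ℤ) : Set (JJ V) := {j | ℓ ≤ idxJ j}

theorem disjoint_lo_hi (ℓ : ℤ) : Disjoint (loB (V := V) ℓ) (hiB ℓ) := by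
  rw [Set.disjoint_left]
  intro j h1 h2
  have h3 : idxJ j < ℓ := h1
  have h4 : ℓ ≤ idxJ j := h2
  omega

theorem phiS_congr {v : V} {s : Bool} {i : ℤ} {ω ω' : JJ V → I}
    (h1 : ω (Sum.inl (v, i)) = ω' (Sum.inl (v, i))) (h2 : ω (Sum.inr (v, i)) = ω' (Sum.inr (v, i))) :
    phiS κ v s i ω = phiS κ v s i ω' := by
  simp only [phiS, h1, h2]

theorem bm_phiS (hκ : Sched κ) (v : V) (s : Bool) (i : ℤ) : BM (phiS (V := V) κ v s i) := by
  refine ⟨?_, 2, fun ω => ?_⟩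
  · unfold phiS
    refine Measurable.ite (measurableSet_lt (measurable_subtype_coe.comp (measurable_pi_apply _))
      measurable_const) ?_ measurable_const
    have hy : Measurable (fun ω : JJ V → I => ω (Sum.inr (v, i))) := measurable_pi_apply _
    exact (((measurable_aY _).comp hy).mul_const _).const_add _
  · unfold phiS
    split_ifs
    · have h0 := (hκ.pos i).le
      have h1 := abs_aY_le h0 (ω (Sum.inr (v, i)))
      have h2 := hκ.le i
      have h3 : |aY (κ i) (ω (Sum.inr (v, i))) * spin s| ≤ 1 / 3 := by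
        rw [abs_mul, abs_spin, mul_one]
        linarith
      calc _ ≤ |(1:ℝ)| + |aY (κ i) (ω (Sum.inr (v, i))) * spin s| := abs_add_le _ _
        _ ≤ 2 := by rw [abs_one]; linarith
    · rw [abs_one]; norm_num

/-- The experiments of the later cells. -/
noncomputable def hP (κ : ℤ → ℝ) (ℓ ℓ' : ℤ) (v : V) (s : Bool) (ω : JJ V → I) : ℝ :=
  ∏ i ∈ Finset.Ico ℓ ℓ', phiS κ v s i ω

theorem bm_hP (hκ : Sched κ) (v : V) (s : Bool) : BM (hP (V := V) κ ℓ ℓ' v s) :=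
  BM.finset_prod _ fun i _ => bm_phiS hκ v s i

theorem dep_hP_hi (v : V) (s : Bool) : DepS (hP (V := V) κ ℓ ℓ' v s) (hiB ℓ) := by
  intro ω ω' h
  refine Finset.prod_congr rfl fun i hi => ?_
  have hi' := (Finset.mem_Ico.mp hi).1
  exact phiS_congr (h _ hi') (h _ hi')

theorem dep_hP_bl (v : V) (s : Bool) : DepS (hP (V := V) κ ℓ ℓ' v s) (blS v) := by
  intro ω ω' h
  refine Finset.prod_congr rfl fun i _ => ?_
  exact phiS_congr (h _ ⟨i, Or.inl rfl⟩) (h _ ⟨i, Or.inr rfl⟩)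

theorem dep_gS_lo (hL : L ≤ ℓ) (v : V) (s : Bool) : DepS (gS (V := V) L κ ℓ 0 v s) (loB ℓ) := by
  intro ω ω' h
  rw [gS_zero hL, gS_zero hL]
  refine Finset.prod_congr rfl fun i hi => ?_
  have hi' := (Finset.mem_Ico.mp hi).2
  exact phiS_congr (h _ hi') (h _ hi')

theorem integral_hP (hκ : Sched κ) (hL : L ≤ ℓ) (hℓ : ℓ ≤ ℓ') (v : V) (s : Bool) :
    ∫ ω, hP κ ℓ ℓ' v s ω ∂Lam (JJ V) = 1 := by
  have h0 : (0:ℝ) ≤ 0 := le_rfl
  have h12 : (0:ℝ) ≤ 1 / 2 := by norm_num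
  have e1 := (exper_gS (V := V) (L := L) (ℓ := ℓ') hκ h0 h12).mean v s
  have e2 := (exper_gS (V := V) (L := L) (ℓ := ℓ) hκ h0 h12).mean v s
  have e3 : ∫ ω, gS L κ ℓ' 0 v s ω ∂Lam (JJ V) =
      ∫ ω, gS L κ ℓ 0 v s ω * hP κ ℓ ℓ' v s ω ∂Lam (JJ V) :=
    integral_congr_ae (Filter.Eventually.of_forall fun ω => gS_split hL hℓ v s ω)
  rw [e3, integral_mul_indep (bm_gS hκ v s) (bm_hP hκ v s) (dep_gS_lo hL v s) (dep_hP_hi v s)
    (disjoint_lo_hi ℓ), e2, one_mul] at e1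
  exact e1

/-- The later cells integrate out against anything depending only on the earlier cells. -/
theorem integral_refine (hκ : Sched κ) (hL : L ≤ ℓ) (hℓ : ℓ ≤ ℓ') (W : Finset V) (τ : V → Bool)
    {Ψ : (JJ V → I) → ℝ} (hΨ : BM Ψ) (hΨd : DepS Ψ (loB ℓ)) :
    ∫ ω, (∏ v ∈ W, gS L κ ℓ' 0 v (τ v) ω) * Ψ ω ∂Lam (JJ V) =
      ∫ ω, (∏ v ∈ W, gS L κ ℓ 0 v (τ v) ω) * Ψ ω ∂Lam (JJ V) := by
  have h0 : (0:ℝ) ≤ 0 := le_rfl
  have h12 : (0:ℝ) ≤ 1 / 2 := by norm_num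
  have hE := exper_gS (V := V) (L := L) (ℓ := ℓ) hκ h0 h12
  have e : ∀ ω, (∏ v ∈ W, gS L κ ℓ' 0 v (τ v) ω) * Ψ ω =
      ((∏ v ∈ W, gS L κ ℓ 0 v (τ v) ω) * Ψ ω) * ∏ v ∈ W, hP κ ℓ ℓ' v (τ v) ω := by
    intro ω
    have : ∏ v ∈ W, gS L κ ℓ' 0 v (τ v) ω =
        (∏ v ∈ W, gS L κ ℓ 0 v (τ v) ω) * ∏ v ∈ W, hP κ ℓ ℓ' v (τ v) ω := by
      rw [← Finset.prod_mul_distrib]
      exact Finset.prod_congr rfl fun v _ => gS_split hL hℓ v (τ v) ω
    rw [this]
    ring
  simp_rw [e]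
  have hg : BM (fun ω => (∏ v ∈ W, gS L κ ℓ 0 v (τ v) ω) * Ψ ω) :=
    (BM.finset_prod W fun v _ => bm_gS hκ v (τ v)).mul hΨ
  have hh : BM (fun ω => ∏ v ∈ W, hP κ ℓ ℓ' v (τ v) ω) :=
    BM.finset_prod W fun v _ => bm_hP hκ v (τ v)
  have hgd : DepS (fun ω => (∏ v ∈ W, gS L κ ℓ 0 v (τ v) ω) * Ψ ω) (loB ℓ) := by
    intro ω ω' h
    have : ∏ v ∈ W, gS L κ ℓ 0 v (τ v) ω = ∏ v ∈ W, gS L κ ℓ 0 v (τ v) ω' :=
      Finset.prod_congr rfl fun v _ => dep_gS_lo hL v (τ v) ω ω' h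
    show _ * _ = _ * _
    rw [this, hΨd ω ω' h]
  have hhd : DepS (fun ω => ∏ v ∈ W, hP κ ℓ ℓ' v (τ v) ω) (hiB ℓ) := by
    intro ω ω' h
    exact Finset.prod_congr rfl fun v _ => dep_hP_hi v (τ v) ω ω' h
  rw [integral_mul_indep hg hh hgd hhd (disjoint_lo_hi ℓ)]
  have h1 : ∫ ω, ∏ v ∈ W, hP κ ℓ ℓ' v (τ v) ω ∂Lam (JJ V) = 1 := by
    rw [integral_prod_indep W (fun v _ => bm_hP hκ v (τ v)) (fun v _ => dep_hP_bl v (τ v))
      (fun v _ v' _ hne => hE.disj v v' hne)]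
    exact Finset.prod_eq_one fun v _ => integral_hP hκ hL hℓ v (τ v)
  rw [h1, mul_one]

/-- The same in terms of the weight. -/
theorem integral_wt_refine (hκ : Sched κ) (hL : L ≤ ℓ) (hℓ : ℓ ≤ ℓ') (W : Finset V) (τ : V → Bool)
    {Ψ : (JJ V → I) → ℝ} (hΨ : BM Ψ) (hΨd : DepS Ψ (loB ℓ)) :
    ∫ ω, wt G θ W (fun v s => gS L κ ℓ' 0 v s ω) τ * Ψ ω ∂Lam (JJ V) =
      ∫ ω, wt G θ W (fun v s => gS L κ ℓ 0 v s ω) τ * Ψ ω ∂Lam (JJ V) := by
  unfold wt
  simp_rw [mul_assoc]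
  rw [integral_const_mul, integral_const_mul, integral_refine hκ hL hℓ W τ hΨ hΨd]

theorem Act_zero_mono {W : Finset V} {U : Stg V → I} (hℓ : ℓ ≤ ℓ') : Act W L U ℓ 0 ⊆ Act W L U ℓ' 0 := by
  intro c hc
  rw [mem_Act] at hc ⊢
  obtain ⟨h1, h2, h3, h4⟩ := hc
  rcases h4 with ⟨h5, h6⟩ | ⟨h5, h6⟩
  · exact ⟨h1, h2, by omega, Or.inl ⟨by omega, h6⟩⟩
  · exact absurd h6 (not_lt.mpr (U c).2.1)

theorem measurable_gA_Act (W : Finset V) (L : ℤ) (κ : ℤ → ℝ) (ℓ : ℤ) (x : ℝ) (v : V) (s : Bool) :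
    Measurable (fun q : (Stg V → I) × (Stg V → I) => gA κ (Act W L q.1 ℓ x) q.2 v s) := by
  by_cases hv : v ∈ W
  · have e : (fun q : (Stg V → I) × (Stg V → I) => gA κ (Act W L q.1 ℓ x) q.2 v s) = fun q =>
        ∏ i ∈ Finset.Icc L ℓ, (if (i < ℓ ∧ (q.1 (v, i) : ℝ) < 1 / 2) ∨ (i = ℓ ∧ (q.1 (v, i) : ℝ) < x) then
          1 + aY (κ i) (q.2 (v, i)) * spin s else 1) := by
      funext q
      exact gA_Act_eq W L κ q.1 q.2 ℓ x v s hv
    rw [e]
    refine Finset.measurable_prod _ fun i _ => ?_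
    have hU : Measurable (fun q : (Stg V → I) × (Stg V → I) => ((q.1 (v, i) : I) : ℝ)) :=
      measurable_subtype_coe.comp ((measurable_pi_apply _).comp measurable_fst)
    have hY : Measurable (fun q : (Stg V → I) × (Stg V → I) => q.2 (v, i)) :=
      (measurable_pi_apply _).comp measurable_snd
    refine Measurable.ite ?_ ((((measurable_aY _).comp hY).mul_const _).const_add _) measurable_const
    exact ((MeasurableSet.const _).inter (measurableSet_lt hU measurable_const)).union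
      ((MeasurableSet.const _).inter (measurableSet_lt hU measurable_const))
  · have e : (fun q : (Stg V → I) × (Stg V → I) => gA κ (Act W L q.1 ℓ x) q.2 v s) = fun _ => 1 := by
      funext q
      unfold gA
      refine Finset.prod_eq_one fun c hc => ?_
      rw [Finset.mem_filter, mem_Act] at hc
      exact absurd (hc.2 ▸ hc.1.1) hv
    rw [e]
    exact measurable_const

end split

end LinkAux
end Crest.Agent.Lib.TI
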