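import Mathlib

/-!
# Elementary lemmas on sequences (S0241 project, module TI.Seq)

* `gron`: a Gronwall inequality for functions that are only known to satisfy increment bounds;
* `closure`: the Osgood-type closure on the cells;
* `l2_limit`: limsup of an L²-summable sequence;
* `farSum_le`: the sum estimate of the far range.
-/

set_option autoImplicit false

universe u

namespace Crest.Agent.Lib.TI

open MeasureTheory Filter Topology


private lemma inv_one_sub_le_exp {u : ℝ} (h0 : 0 ≤ u) (h1 : u ≤ 1 / 2) :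
    1 ≤ (1 - u) * Real.exp (2 * u) := by
  have h := Real.add_one_le_exp (2 * u)
  have h2 : 0 ≤ 1 - u := by linarith
  have h3 : (1 - u) * (2 * u + 1) ≤ (1 - u) * Real.exp (2 * u) := mul_le_mul_of_nonneg_left h h2
  nlinarith [mul_nonneg h0 (by linarith : (0:ℝ) ≤ 1 - 2 * u)]

/-- One step of the Gronwall iteration, with the running supremum `M`. -/
private lemma gron_step {f G S : ℝ → ℝ} {x₀ α β : ℝ} (hα : 0 ≤ α) (hβ : 0 ≤ β)
    (hf0 : ∀ x ∈ Set.Icc 0 x₀, 0 ≤ f x) (hfb : ∃ M, ∀ x ∈ Set.Icc 0 x₀, f x ≤ M)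
    (hG : IntervalIntegrable G volume 0 x₀) (hS : IntervalIntegrable S volume 0 x₀)
    (hS0 : ∀ x, 0 ≤ S x)
    (hinc : ∀ x₁ x₂, 0 ≤ x₁ → x₁ ≤ x₂ → x₂ ≤ x₀ → f x₂ - f x₁ ≤ ∫ x in x₁..x₂, G x)
    (hGle : ∀ x ∈ Set.Icc 0 x₀, G x ≤ α * f x + β + S x)
    {a b : ℝ} (ha : 0 ≤ a) (hab : a ≤ b) (hb : b ≤ x₀) (hsmall : α * (b - a) ≤ 1 / 2) :
    sSup (f '' Set.Icc 0 b) ≤
      (sSup (f '' Set.Icc 0 a) + (b - a) * β + ∫ x in a..b, S x) * Real.exp (2 * α * (b - a)) := by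
  obtain ⟨Mf, hMf⟩ := hfb
  have hbdd : ∀ c, c ≤ x₀ → BddAbove (f '' Set.Icc 0 c) := by
    intro c hc
    refine ⟨Mf, ?_⟩
    rintro _ ⟨y, hy, rfl⟩
    exact hMf y ⟨hy.1, hy.2.trans hc⟩
  have hle : ∀ c y, c ≤ x₀ → y ∈ Set.Icc 0 c → f y ≤ sSup (f '' Set.Icc 0 c) := by
    intro c y hc hy
    exact le_csSup (hbdd c hc) ⟨y, hy, rfl⟩
  have hb0 : 0 ≤ b := ha.trans hab
  set Mb := sSup (f '' Set.Icc 0 b) with hMb
  set Ma := sSup (f '' Set.Icc 0 a) with hMa
  have hMb0 : 0 ≤ Mb := (hf0 0 ⟨le_rfl, hb0.trans hb⟩).trans (hle b 0 hb ⟨le_rfl, hb0⟩)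
  have hMa0 : 0 ≤ Ma := (hf0 0 ⟨le_rfl, (ha.trans hab).trans hb⟩).trans
    (hle a 0 (hab.trans hb) ⟨le_rfl, ha⟩)
  have hSint : ∀ u v, 0 ≤ u → u ≤ v → v ≤ x₀ → IntervalIntegrable S volume u v := by
    intro u v hu huv hv
    refine hS.mono_set ?_
    rw [Set.uIcc_of_le huv, Set.uIcc_of_le (hu.trans (huv.trans hv))]
    exact Set.Icc_subset_Icc hu hv
  have hGint : ∀ u v, 0 ≤ u → u ≤ v → v ≤ x₀ → IntervalIntegrable G volume u v := by
    intro u v hu huv hv
    refine hG.mono_set ?_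
    rw [Set.uIcc_of_le huv, Set.uIcc_of_le (hu.trans (huv.trans hv))]
    exact Set.Icc_subset_Icc hu hv
  set I := ∫ x in a..b, S x with hI
  have hI0 : 0 ≤ I := intervalIntegral.integral_nonneg hab (fun x _ => hS0 x)
  set h := b - a with hh
  have hh0 : 0 ≤ h := by simp [hh, hab]
  -- main bound
  have hmain : Mb ≤ Ma + h * (α * Mb + β) + I := by
    refine csSup_le ⟨f 0, 0, ⟨le_rfl, hb0⟩, rfl⟩ ?_
    rintro _ ⟨y, hy, rfl⟩
    have hcnn : 0 ≤ α * Mb + β := by positivity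
    by_cases hya : y ≤ a
    · have := hle a y (hab.trans hb) ⟨hy.1, hya⟩
      have h2 : 0 ≤ h * (α * Mb + β) := mul_nonneg hh0 hcnn
      linarith
    · have hya' := (not_le.mp hya).le
      have h1 := hinc a y ha hya' (hy.2.trans hb)
      have h2 : ∫ x in a..y, G x ≤ ∫ x in a..y, ((α * Mb + β) + S x) := by
        refine intervalIntegral.integral_mono_on hya' (hGint a y ha hya' (hy.2.trans hb)) ?_ ?_
        · exact (intervalIntegrable_const).add (hSint a y ha hya' (hy.2.trans hb))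
        · intro x hx
          have hx0 : x ∈ Set.Icc 0 x₀ := ⟨ha.trans hx.1, hx.2.trans (hy.2.trans hb)⟩
          have hfx : f x ≤ Mb := hle b x hb ⟨hx0.1, hx.2.trans hy.2⟩
          have := hGle x hx0
          have h3 : α * f x ≤ α * Mb := mul_le_mul_of_nonneg_left hfx hα
          linarith
      have h3 : ∫ x in a..y, ((α * Mb + β) + S x) = (y - a) * (α * Mb + β) + ∫ x in a..y, S x := by
        rw [intervalIntegral.integral_add intervalIntegrable_const (hSint a y ha hya' (hy.2.trans hb))]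
        simp
        ring
      have h4 : ∫ x in a..y, S x ≤ I := by
        refine intervalIntegral.integral_mono_interval le_rfl hya' hy.2 ?_ (hSint a b ha hab hb)
        exact Filter.Eventually.of_forall (fun x => hS0 x)
      have h5 : (y - a) * (α * Mb + β) ≤ h * (α * Mb + β) :=
        mul_le_mul_of_nonneg_right (by simp only [hh]; linarith [hy.2]) hcnn
      have h6 := hle a a (hab.trans hb) ⟨ha, le_rfl⟩
      linarith
  -- rearrange
  have hsm : α * h ≤ 1 / 2 := hsmall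
  have hu0 : 0 ≤ α * h := mul_nonneg hα hh0
  have hexp := inv_one_sub_le_exp hu0 hsm
  have hrew : 2 * α * h = 2 * (α * h) := by ring
  rw [hrew]
  have hR : 0 ≤ Ma + h * β + I := by positivity
  have hE : 0 < Real.exp (2 * (α * h)) := Real.exp_pos _
  have h1 : (1 - α * h) * Mb ≤ Ma + h * β + I := by nlinarith
  have h2 : Mb ≤ Mb * ((1 - α * h) * Real.exp (2 * (α * h))) := by
    nlinarith
  calc Mb ≤ Mb * ((1 - α * h) * Real.exp (2 * (α * h))) := h2
    _ = ((1 - α * h) * Mb) * Real.exp (2 * (α * h)) := by ring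
    _ ≤ (Ma + h * β + I) * Real.exp (2 * (α * h)) := mul_le_mul_of_nonneg_right h1 hE.le

/-- **Gronwall from increments**. -/
theorem gron {f G S : ℝ → ℝ} {x₀ α β : ℝ} (hx₀ : 0 ≤ x₀) (hα : 0 ≤ α) (hβ : 0 ≤ β)
    (hf0 : ∀ x ∈ Set.Icc 0 x₀, 0 ≤ f x) (hfb : ∃ M, ∀ x ∈ Set.Icc 0 x₀, f x ≤ M)
    (hG : IntervalIntegrable G volume 0 x₀) (hS : IntervalIntegrable S volume 0 x₀)
    (hS0 : ∀ x, 0 ≤ S x)
    (hinc : ∀ x₁ x₂, 0 ≤ x₁ → x₁ ≤ x₂ → x₂ ≤ x₀ → f x₂ - f x₁ ≤ ∫ x in x₁..x₂, G x)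
    (hGle : ∀ x ∈ Set.Icc 0 x₀, G x ≤ α * f x + β + S x) :
    f x₀ ≤ (f 0 + β * x₀ + ∫ x in (0:ℝ)..x₀, S x) * Real.exp (2 * α * x₀) := by
  obtain ⟨n, hn⟩ := exists_nat_gt (2 * α * x₀ + 1)
  have hn0 : (0:ℝ) < n := by
    have : 0 ≤ 2 * α * x₀ := by positivity
    linarith
  set h := x₀ / n with hh
  have hh0 : 0 ≤ h := by positivity
  have hnh : (n:ℝ) * h = x₀ := by simp [hh]; field_simp
  have hsmall : α * h ≤ 1 / 2 := by
    have h1 : 2 * α * x₀ ≤ n := by linarith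
    have h2 : 2 * (α * h) * n ≤ n := by
      have : 2 * (α * h) * n = 2 * α * ((n:ℝ) * h) := by ring
      rw [this, hnh]; exact h1
    have h3 : 2 * (α * h) ≤ 1 := by
      by_contra hc
      have hc' := not_le.mp hc
      nlinarith
    linarith
  have hbdd : BddAbove (f '' Set.Icc 0 x₀) := by
    obtain ⟨Mf, hMf⟩ := hfb
    refine ⟨Mf, ?_⟩
    rintro _ ⟨y, hy, rfl⟩
    exact hMf y hy
  have hSint : ∀ u v, 0 ≤ u → u ≤ v → v ≤ x₀ → IntervalIntegrable S volume u v := by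
    intro u v hu huv hv
    refine hS.mono_set ?_
    rw [Set.uIcc_of_le huv, Set.uIcc_of_le (hu.trans (huv.trans hv))]
    exact Set.Icc_subset_Icc hu hv
  have hxi : ∀ i : ℕ, i ≤ n → (i:ℝ) * h ≤ x₀ := by
    intro i hi
    have : (i:ℝ) ≤ n := by exact_mod_cast hi
    calc (i:ℝ) * h ≤ n * h := mul_le_mul_of_nonneg_right this hh0
      _ = x₀ := hnh
  have key : ∀ i : ℕ, i ≤ n →
      sSup (f '' Set.Icc 0 ((i:ℝ) * h)) ≤
        (f 0 + β * ((i:ℝ) * h) + ∫ x in (0:ℝ)..((i:ℝ) * h), S x) * Real.exp (2 * α * ((i:ℝ) * h)) := by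
    intro i
    induction i with
    | zero =>
      intro _
      simp
    | succ i ih =>
      intro hi
      have hi' : i ≤ n := by omega
      have IH := ih hi'
      have hai : (0:ℝ) ≤ (i:ℝ) * h := by positivity
      have hbi : (i:ℝ) * h ≤ ((i + 1 : ℕ):ℝ) * h :=
        mul_le_mul_of_nonneg_right (by push_cast; linarith) hh0
      have hdiff : ((i + 1 : ℕ):ℝ) * h - (i:ℝ) * h = h := by push_cast; ring
      have hstep := gron_step (f := f) (G := G) (S := S) (x₀ := x₀) hα hβ hf0 hfb hG hS hS0 hinc hGle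
        hai hbi (hxi (i+1) hi) (by rw [hdiff]; exact hsmall)
      rw [hdiff] at hstep
      refine hstep.trans ?_
      set J := ∫ x in (0:ℝ)..((i:ℝ) * h), S x with hJ
      set Ii := ∫ x in ((i:ℝ) * h)..(((i+1:ℕ):ℝ) * h), S x with hIi
      have hI0 : 0 ≤ Ii := intervalIntegral.integral_nonneg hbi (fun x _ => hS0 x)
      have hJ0 : 0 ≤ J := intervalIntegral.integral_nonneg hai (fun x _ => hS0 x)
      have hadd : ∫ x in (0:ℝ)..(((i+1:ℕ):ℝ) * h), S x = J + Ii := by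
        rw [hJ, hIi, intervalIntegral.integral_add_adjacent_intervals
          (hSint 0 _ le_rfl hai (hbi.trans (hxi (i+1) hi))) (hSint _ _ hai hbi (hxi (i+1) hi))]
      rw [hadd]
      have hE1 : 1 ≤ Real.exp (2 * α * ((i:ℝ) * h)) := by
        rw [← Real.exp_zero]; exact Real.exp_le_exp.mpr (by positivity)
      have hexp : Real.exp (2 * α * (((i + 1 : ℕ):ℝ) * h)) =
          Real.exp (2 * α * ((i:ℝ) * h)) * Real.exp (2 * α * h) := by
        rw [← Real.exp_add]; congr 1; push_cast; ring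
      rw [hexp]
      have hE2 : 0 < Real.exp (2 * α * h) := Real.exp_pos _
      have hstep2 : sSup (f '' Set.Icc 0 ((i:ℝ) * h)) + h * β + Ii ≤
          (f 0 + β * (((i + 1 : ℕ):ℝ) * h) + (J + Ii)) * Real.exp (2 * α * ((i:ℝ) * h)) := by
        have h3 : 0 ≤ h * β + Ii := by positivity
        have h4 : h * β + Ii ≤ (h * β + Ii) * Real.exp (2 * α * ((i:ℝ) * h)) := by nlinarith
        have h5 : (f 0 + β * (((i + 1 : ℕ):ℝ) * h) + (J + Ii)) * Real.exp (2 * α * ((i:ℝ) * h)) =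
            (f 0 + β * ((i:ℝ) * h) + J) * Real.exp (2 * α * ((i:ℝ) * h)) +
              (h * β + Ii) * Real.exp (2 * α * ((i:ℝ) * h)) := by
          push_cast; ring
        rw [h5]; linarith
      calc _ ≤ _ := mul_le_mul_of_nonneg_right hstep2 hE2.le
        _ = _ := by ring
  have hfin := key n le_rfl
  rw [hnh] at hfin
  have hmem : f x₀ ≤ sSup (f '' Set.Icc 0 x₀) := le_csSup hbdd ⟨x₀, ⟨hx₀, le_rfl⟩, rfl⟩
  exact hmem.trans hfin


private lemma iterate_bound {a h b : ℕ → ℝ} (ha0 : ∀ k, 0 ≤ a k) (hh0 : ∀ k, 0 ≤ h k) (hb0 : ∀ k, 0 ≤ b k)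
    (hstep : ∀ k, a (k + 1) ≤ (a k + h k) * Real.exp (b k)) (k : ℕ) :
    a k ≤ (a 0 + ∑ j ∈ Finset.range k, h j) * Real.exp (∑ j ∈ Finset.range k, b j) := by
  induction k with
  | zero => simp
  | succ k ih =>
    rw [Finset.sum_range_succ, Finset.sum_range_succ, Real.exp_add]
    refine (hstep k).trans ?_
    have hE : 1 ≤ Real.exp (∑ j ∈ Finset.range k, b j) := by
      rw [← Real.exp_zero]
      exact Real.exp_le_exp.mpr (Finset.sum_nonneg (fun j _ => hb0 j))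
    have hpos : 0 ≤ Real.exp (b k) := (Real.exp_pos _).le
    have h1 : a k + h k ≤ (a 0 + (∑ j ∈ Finset.range k, h j + h k)) * Real.exp (∑ j ∈ Finset.range k, b j) := by
      have : h k ≤ h k * Real.exp (∑ j ∈ Finset.range k, b j) := by
        nlinarith [hh0 k]
      nlinarith
    calc (a k + h k) * Real.exp (b k)
        ≤ ((a 0 + (∑ j ∈ Finset.range k, h j + h k)) * Real.exp (∑ j ∈ Finset.range k, b j)) * Real.exp (b k) :=
          mul_le_mul_of_nonneg_right h1 hpos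
      _ = _ := by ring

/-- Zero propagates upward in the cell inequality. -/
private lemma closure_zero {D α β E : ℤ → ℝ} (hD0 : ∀ ℓ, 0 ≤ D ℓ) (hE : ∀ ℓ, 0 ≤ E ℓ) (hβ : ∀ ℓ, 0 ≤ β ℓ)
    (hβ4 : ∀ ℓ, β ℓ ≤ 1 / 4)
    (hcell : ∀ ℓ (p : ℝ), 1 ≤ p → D (ℓ + 1) ≤ (D ℓ + E ℓ * Real.exp (-p / 2)) * Real.exp (α ℓ + β ℓ * p))
    {ℓ : ℤ} (h0 : D ℓ = 0) : D (ℓ + 1) = 0 := by
  refine le_antisymm ?_ (hD0 _)
  have hlim : Tendsto (fun p : ℝ => E ℓ * Real.exp (α ℓ) * Real.exp (-(p / 4))) atTop (𝓝 (E ℓ * Real.exp (α ℓ) * 0)) := by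
    refine Tendsto.const_mul _ ?_
    refine Real.tendsto_exp_atBot.comp ?_
    refine tendsto_neg_atTop_atBot.comp ?_
    exact tendsto_id.atTop_div_const (by norm_num)
  rw [mul_zero] at hlim
  refine ge_of_tendsto hlim ?_
  filter_upwards [eventually_ge_atTop (1:ℝ)] with p hp
  have := hcell ℓ p hp
  rw [h0, zero_add] at this
  refine this.trans ?_
  have hp0 : (0:ℝ) ≤ p := by linarith
  have hexp : Real.exp (-p / 2) * Real.exp (α ℓ + β ℓ * p) ≤ Real.exp (α ℓ) * Real.exp (-(p / 4)) := by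
    rw [← Real.exp_add, ← Real.exp_add]
    apply Real.exp_le_exp.mpr
    nlinarith [hβ4 ℓ]
  calc E ℓ * Real.exp (-p / 2) * Real.exp (α ℓ + β ℓ * p)
      = E ℓ * (Real.exp (-p / 2) * Real.exp (α ℓ + β ℓ * p)) := by ring
    _ ≤ E ℓ * (Real.exp (α ℓ) * Real.exp (-(p / 4))) := mul_le_mul_of_nonneg_left hexp (hE ℓ)
    _ = _ := by ring

/-- **Closure on the cells.** -/
theorem closure {D α β E : ℤ → ℝ} (hD0 : ∀ ℓ, 0 ≤ D ℓ) (hDlim : Tendsto D atBot (𝓝 0))
    (hα : ∀ ℓ, 0 ≤ α ℓ) (hβ : ∀ ℓ, 0 ≤ β ℓ) (hE : ∀ ℓ, 0 ≤ E ℓ) (hβ4 : ∀ ℓ, β ℓ ≤ 1 / 4)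
    (hcell : ∀ ℓ (p : ℝ), 1 ≤ p → D (ℓ + 1) ≤ (D ℓ + E ℓ * Real.exp (-p / 2)) * Real.exp (α ℓ + β ℓ * p))
    (hs1 : Summable (fun n : ℕ => α (-(n : ℤ))))
    (hs2 : Summable (fun n : ℕ => β (-(n : ℤ)) * (1 + n + Real.log (1 + E (-(n : ℤ)))))) :
    ∀ ℓ, D ℓ = 0 := by
  intro ℓ₁
  by_contra hne
  have hpos1 : 0 < D ℓ₁ := lt_of_le_of_ne (hD0 _) (Ne.symm hne)
  -- positivity propagates downward
  have hpos : ∀ k : ℕ, 0 < D (ℓ₁ - k) := by
    intro k
    induction k with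
    | zero => simpa using hpos1
    | succ k ih =>
      refine lt_of_le_of_ne (hD0 _) (fun h0 => ?_)
      have := closure_zero hD0 hE hβ hβ4 hcell h0.symm
      have hrw : ℓ₁ - ((k + 1 : ℕ) : ℤ) + 1 = ℓ₁ - k := by push_cast; ring
      rw [hrw] at this
      exact absurd this ih.ne'
  have hlt1 : ∀ᶠ ℓ in atBot, D ℓ < 1 := hDlim.eventually (gt_mem_nhds (by norm_num : (0:ℝ) < 1))
  obtain ⟨L, hL⟩ := eventually_atBot.mp hlt1
  -- choose N
  obtain ⟨N, hN1, hN2⟩ : ∃ N : ℕ, -(N:ℤ) ≤ L ∧ -(N:ℤ) ≤ ℓ₁ := by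
    refine ⟨(max |L| |ℓ₁|).toNat, ?_, ?_⟩
    · have h1 : ((max |L| |ℓ₁|).toNat : ℤ) = max |L| |ℓ₁| := Int.toNat_of_nonneg (le_max_of_le_left (abs_nonneg L))
      rw [h1]
      have := neg_abs_le L
      have h2 := le_max_left |L| |ℓ₁|
      linarith
    · have h1 : ((max |L| |ℓ₁|).toNat : ℤ) = max |L| |ℓ₁| := Int.toNat_of_nonneg (le_max_of_le_left (abs_nonneg L))
      rw [h1]
      have := neg_abs_le ℓ₁
      have h2 := le_max_right |L| |ℓ₁|
      linarith
  -- positivity and smallness for n ≥ N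
  have hDpos : ∀ n : ℕ, N ≤ n → 0 < D (-(n:ℤ)) := by
    intro n hn
    have hle : -(n:ℤ) ≤ ℓ₁ := by
      have : (N:ℤ) ≤ n := by exact_mod_cast hn
      linarith
    have := hpos (ℓ₁ + n).toNat
    have h2 : ((ℓ₁ + n).toNat : ℤ) = ℓ₁ + n := Int.toNat_of_nonneg (by linarith)
    rw [h2] at this
    have h3 : ℓ₁ - (ℓ₁ + n) = -(n:ℤ) := by ring
    rwa [h3] at this
  have hDlt : ∀ n : ℕ, N ≤ n → D (-(n:ℤ)) < 1 := by
    intro n hn
    refine hL _ ?_
    have : (N:ℤ) ≤ n := by exact_mod_cast hn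
    linarith
  -- the log sequence
  set y : ℕ → ℝ := fun n => - Real.log (D (-(n:ℤ))) with hy
  have hy0 : ∀ n, N ≤ n → 0 ≤ y n := by
    intro n hn
    have : Real.log (D (-(n:ℤ))) ≤ 0 := Real.log_nonpos (hD0 _) (hDlt n hn).le
    simp only [hy]; linarith
  have hyD : ∀ n, N ≤ n → Real.exp (- y n) = D (-(n:ℤ)) := by
    intro n hn
    simp only [hy, neg_neg]
    exact Real.exp_log (hDpos n hn)
  set b : ℕ → ℝ := fun m => β (-(m:ℤ)) with hb
  set lE : ℕ → ℝ := fun m => Real.log (1 + E (-(m:ℤ))) with hlE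
  have hlE0 : ∀ m, 0 ≤ lE m := fun m => Real.log_nonneg (by linarith [hE (-(m:ℤ))])
  set hh : ℕ → ℝ := fun m => Real.exp (-(m:ℝ)) + α (-(m:ℤ)) + 2 * (β (-(m:ℤ)) * (1 + m + lE m)) with hhdef
  have hh0 : ∀ m, 0 ≤ hh m := by
    intro m
    have h1 := hα (-(m:ℤ))
    have h2 := hβ (-(m:ℤ))
    have h3 := hlE0 m
    have h4 : (0:ℝ) ≤ m := by positivity
    have h5 : 0 ≤ β (-(m:ℤ)) * (1 + m + lE m) := by positivity
    have h6 := Real.exp_pos (-(m:ℝ))
    simp only [hhdef]; linarith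
  -- the one-step inequality
  have hstep : ∀ n, N ≤ n → y (n + 1) ≤ (y n + hh (n + 1)) * Real.exp (4 * b (n + 1)) := by
    intro n hn
    set m := n + 1 with hm
    have hmN : N ≤ m := by omega
    set Dℓ := D (-(m:ℤ)) with hDℓ
    have hDℓpos : 0 < Dℓ := hDpos m hmN
    have hym := hy0 m hmN
    have hEm := hE (-(m:ℤ))
    have hβm := hβ (-(m:ℤ))
    have hαm := hα (-(m:ℤ))
    have hm0 : (0:ℝ) ≤ m := by positivity
    set p : ℝ := 1 + 2 * y m + 2 * lE m + 2 * (m:ℝ) with hp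
    have hp1 : 1 ≤ p := by
      have := hlE0 m
      simp only [hp]; linarith
    have hcellm := hcell (-(m:ℤ)) p hp1
    have hrw : (-(m:ℤ)) + 1 = -(n:ℤ) := by simp only [hm]; push_cast; ring
    rw [hrw] at hcellm
    -- the exponential factor
    have hexp : E (-(m:ℤ)) * Real.exp (-p / 2) ≤ Dℓ * Real.exp (-(m:ℝ)) := by
      have h1 : Real.exp (-p / 2) = Real.exp (-(1/2)) * Real.exp (- y m) * Real.exp (- lE m) * Real.exp (-(m:ℝ)) := by
        rw [← Real.exp_add, ← Real.exp_add, ← Real.exp_add]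
        congr 1
        simp only [hp]; ring
      have h2 : Real.exp (- y m) = Dℓ := hyD m hmN
      have h3 : Real.exp (- lE m) = (1 + E (-(m:ℤ)))⁻¹ := by
        simp only [hlE]
        rw [Real.exp_neg, Real.exp_log (by linarith)]
      rw [h1, h2, h3]
      have h4 : E (-(m:ℤ)) * (1 + E (-(m:ℤ)))⁻¹ ≤ 1 := by
        rw [← div_eq_mul_inv, div_le_one (by linarith)]
        linarith
      have h5 : Real.exp (-(1/2)) ≤ 1 := by
        rw [← Real.exp_zero]; exact Real.exp_le_exp.mpr (by norm_num)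
      have h6 := Real.exp_pos (-(m:ℝ))
      have h7 := Real.exp_pos (-(1/2:ℝ))
      have h8 : 0 ≤ E (-(m:ℤ)) * (1 + E (-(m:ℤ)))⁻¹ := by positivity
      calc E (-(m:ℤ)) * (Real.exp (-(1/2)) * Dℓ * (1 + E (-(m:ℤ)))⁻¹ * Real.exp (-(m:ℝ)))
          = (E (-(m:ℤ)) * (1 + E (-(m:ℤ)))⁻¹) * Real.exp (-(1/2)) * (Dℓ * Real.exp (-(m:ℝ))) := by ring
        _ ≤ 1 * 1 * (Dℓ * Real.exp (-(m:ℝ))) := by
          apply mul_le_mul_of_nonneg_right _ (by positivity)
          exact mul_le_mul h4 h5 h7.le (by norm_num)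
        _ = _ := by ring
    have h2 : D (-(n:ℤ)) ≤ Dℓ * (1 + Real.exp (-(m:ℝ))) * Real.exp (α (-(m:ℤ)) + β (-(m:ℤ)) * p) := by
      refine hcellm.trans ?_
      apply mul_le_mul_of_nonneg_right _ (Real.exp_pos _).le
      nlinarith
    -- take logs
    have h1plus : 1 + Real.exp (-(m:ℝ)) ≤ Real.exp (Real.exp (-(m:ℝ))) := by
      linarith [Real.add_one_le_exp (Real.exp (-(m:ℝ)))]
    have h3 : Real.exp (- y n) ≤ Real.exp (- y m + Real.exp (-(m:ℝ)) + (α (-(m:ℤ)) + β (-(m:ℤ)) * p)) := by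
      rw [hyD n hn, Real.exp_add, Real.exp_add, hyD m hmN]
      refine h2.trans ?_
      apply mul_le_mul_of_nonneg_right _ (Real.exp_pos _).le
      exact mul_le_mul_of_nonneg_left h1plus hDℓpos.le
    have h4 := Real.exp_le_exp.mp h3
    -- rearrange
    have hbm : b m = β (-(m:ℤ)) := rfl
    have h5 : y m * (1 - 2 * b m) ≤ y n + hh m := by
      simp only [hhdef]
      rw [hbm]
      have h6 : β (-(m:ℤ)) * p = β (-(m:ℤ)) * (2 * y m) + β (-(m:ℤ)) * (1 + 2 * lE m + 2 * (m:ℝ)) := by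
        simp only [hp]; ring
      have h7 : β (-(m:ℤ)) * (1 + 2 * lE m + 2 * (m:ℝ)) ≤ 2 * (β (-(m:ℤ)) * (1 + m + lE m)) := by
        nlinarith
      nlinarith
    have h6 := inv_one_sub_le_exp (u := 2 * b m) (by simp only [hb]; linarith) (by
      simp only [hb]; linarith [hβ4 (-(m:ℤ))])
    have h7 : (2:ℝ) * (2 * b m) = 4 * b m := by ring
    rw [h7] at h6
    have hE4 := Real.exp_pos (4 * b m)
    calc y m ≤ y m * ((1 - 2 * b m) * Real.exp (4 * b m)) := by nlinarith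
      _ = (y m * (1 - 2 * b m)) * Real.exp (4 * b m) := by ring
      _ ≤ _ := mul_le_mul_of_nonneg_right h5 hE4.le
  -- summability
  have hsexp : Summable (fun m : ℕ => Real.exp (-(m:ℝ))) := by
    have h1 : (fun m : ℕ => Real.exp (-(m:ℝ))) = fun m : ℕ => (Real.exp (-1)) ^ m := by
      funext m
      rw [← Real.exp_nat_mul]
      congr 1; ring
    rw [h1]
    exact summable_geometric_of_lt_one (Real.exp_pos _).le (by
      rw [← Real.exp_zero]; exact Real.exp_lt_exp.mpr (by norm_num))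
  have hshh : Summable hh := (hsexp.add hs1).add (hs2.mul_left 2)
  have hsb : Summable b := by
    refine Summable.of_nonneg_of_le (fun m => hβ _) (fun m => ?_) hs2
    have := hβ (-(m:ℤ))
    have h2 := hlE0 m
    have h3 : (0:ℝ) ≤ m := by positivity
    simp only [hb]
    nlinarith
  -- iterate
  set a : ℕ → ℝ := fun k => y (k + N) with ha
  set h' : ℕ → ℝ := fun k => hh (k + (N + 1)) with hh'
  set b' : ℕ → ℝ := fun k => 4 * b (k + (N + 1)) with hb'
  have hiter := iterate_bound (a := a) (h := h') (b := b')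
    (fun k => hy0 _ (by omega)) (fun k => hh0 _) (fun k => by
      have := hβ (-(((k + (N + 1) : ℕ) : ℤ)))
      simp only [hb', hb]; linarith)
    (fun k => by
      have := hstep (k + N) (by omega)
      have e1 : k + 1 + N = k + N + 1 := by omega
      have e2 : k + (N + 1) = k + N + 1 := by omega
      simp only [ha, hh', hb']
      rw [e1, e2]
      exact this)
  have hsh' : Summable h' := (summable_nat_add_iff (N + 1)).2 hshh
  have hsb' : Summable b' := ((summable_nat_add_iff (N + 1)).2 hsb).mul_left 4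
  set Y := (a 0 + ∑' j, h' j) * Real.exp (∑' j, b' j) with hY
  have hbound : ∀ k, a k ≤ Y := by
    intro k
    refine (hiter k).trans ?_
    have h1 : ∑ j ∈ Finset.range k, h' j ≤ ∑' j, h' j :=
      hsh'.sum_le_tsum _ (fun j _ => hh0 _)
    have hb'0 : ∀ j, 0 ≤ b' j := fun j => by
      have := hβ (-(((j + (N + 1) : ℕ) : ℤ)))
      simp only [hb', hb]; linarith
    have h2 : ∑ j ∈ Finset.range k, b' j ≤ ∑' j, b' j :=
      hsb'.sum_le_tsum _ (fun j _ => hb'0 j)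
    have h3 : 0 ≤ a 0 + ∑ j ∈ Finset.range k, h' j := by
      have := hy0 (0 + N) (by omega)
      have h4 : 0 ≤ ∑ j ∈ Finset.range k, h' j := Finset.sum_nonneg (fun j _ => hh0 _)
      simp only [ha]; linarith
    exact mul_le_mul (by linarith) (Real.exp_le_exp.mpr h2) (Real.exp_pos _).le
      (by linarith)
  -- contradiction
  have hlow : ∀ k : ℕ, Real.exp (- Y) ≤ D (-(((k + N : ℕ) : ℤ))) := by
    intro k
    rw [← hyD (k + N) (by omega)]
    exact Real.exp_le_exp.mpr (by have := hbound k; simp only [ha] at this; linarith)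
  have htend : Tendsto (fun k : ℕ => D (-(((k + N : ℕ) : ℤ)))) atTop (𝓝 0) := by
    refine hDlim.comp ?_
    refine tendsto_neg_atTop_atBot.comp ?_
    refine tendsto_natCast_atTop_atTop.comp ?_
    exact tendsto_add_atTop_nat N
  have := ge_of_tendsto' htend hlow
  have h0 := Real.exp_pos (- Y)
  linarith


/-- Bounds for the limsup of a bounded sequence. -/
theorem abs_limsup_le {f : ℕ → ℝ} (hb : ∀ k, |f k| ≤ 1) : |limsup f atTop| ≤ 1 := by
  have hu : IsBoundedUnder (· ≤ ·) atTop f := isBoundedUnder_of ⟨1, fun k => (abs_le.mp (hb k)).2⟩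
  have hl : IsBoundedUnder (· ≥ ·) atTop f := isBoundedUnder_of ⟨-1, fun k => (abs_le.mp (hb k)).1⟩
  rw [abs_le]
  constructor
  · exact le_limsup_of_frequently_le (Frequently.of_forall (fun k => (abs_le.mp (hb k)).1)) hu
  · exact limsup_le_of_le hl.isCoboundedUnder_le (Eventually.of_forall (fun k => (abs_le.mp (hb k)).2))

theorem measurable_limsup_seq {Ω : Type*} [MeasurableSpace Ω] {f : ℕ → Ω → ℝ} (hm : ∀ k, Measurable (f k)) :
    Measurable (fun ω => limsup (fun k => f k ω) atTop) :=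
  Measurable.limsup hm

section
variable {Ω : Type*} [MeasurableSpace Ω] {P : Measure Ω} [IsProbabilityMeasure P]

private lemma integrable_of_abs_le {g : Ω → ℝ} (hg : Measurable g) {C : ℝ} (hb : ∀ ω, |g ω| ≤ C) :
    Integrable g P :=
  Integrable.of_bound hg.aestronglyMeasurable C (Eventually.of_forall (fun ω => by
    simpa using hb ω))

/-- `∫ |g| ≤ A` from `∫ g² ≤ A²`. -/
private lemma integral_abs_le {g : Ω → ℝ} (hg : Measurable g) {C : ℝ} (hb : ∀ ω, |g ω| ≤ C) {A : ℝ} (hA : 0 ≤ A)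
    (h : ∫ ω, g ω ^ 2 ∂P ≤ A ^ 2) : ∫ ω, |g ω| ∂P ≤ A := by
  have hC : 0 ≤ C := (abs_nonneg _).trans (hb (nonempty_of_isProbabilityMeasure P).some)
  have hi1 : Integrable (fun ω => |g ω|) P :=
    integrable_of_abs_le (P := P) hg.abs (C := C) (fun ω => by simpa using hb ω)
  have hi2 : Integrable (fun ω => g ω ^ 2) P :=
    integrable_of_abs_le (P := P) (hg.pow_const 2) (C := C ^ 2) (fun ω => by
      rw [abs_pow]; exact pow_le_pow_left₀ (abs_nonneg _) (hb ω) 2)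
  set c := ∫ ω, |g ω| ∂P with hc
  have hc0 : 0 ≤ c := integral_nonneg (fun ω => abs_nonneg _)
  have h0 : 0 ≤ ∫ ω, (|g ω| - c) ^ 2 ∂P := integral_nonneg (fun ω => sq_nonneg _)
  have h1 : ∫ ω, (|g ω| - c) ^ 2 ∂P = ∫ ω, g ω ^ 2 ∂P - 2 * c * c + c ^ 2 := by
    have e : ∀ ω, (|g ω| - c) ^ 2 = g ω ^ 2 - 2 * c * |g ω| + c ^ 2 := by
      intro ω
      have := sq_abs (g ω)
      nlinarith
    simp_rw [e]
    have hi4 : Integrable (fun ω => g ω ^ 2 - 2 * c * |g ω|) P := hi2.sub (hi1.const_mul _)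
    have e1 : ∫ ω, (g ω ^ 2 - 2 * c * |g ω|) + c ^ 2 ∂P = ∫ ω, (g ω ^ 2 - 2 * c * |g ω|) ∂P + ∫ _ω, c ^ 2 ∂P :=
      integral_add hi4 (integrable_const _)
    have e2 : ∫ ω, (g ω ^ 2 - 2 * c * |g ω|) ∂P = ∫ ω, g ω ^ 2 ∂P - ∫ ω, 2 * c * |g ω| ∂P :=
      integral_sub hi2 (hi1.const_mul _)
    rw [e1, e2, integral_const_mul]
    simp only [integral_const, probReal_univ, smul_eq_mul, one_mul]
    rw [← hc]
  have h2 : c ^ 2 ≤ A ^ 2 := by nlinarith
  exact (sq_le_sq₀ hc0 hA).mp h2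

/-- Cauchy-Schwarz in the form needed for Minkowski. -/
private lemma integral_mul_le {g h : Ω → ℝ} (hg : Measurable g) (hh : Measurable h) {C : ℝ}
    (hgb : ∀ ω, |g ω| ≤ C) (hhb : ∀ ω, |h ω| ≤ C) {A B : ℝ} (hA : 0 ≤ A) (hB : 0 ≤ B)
    (h1 : ∫ ω, g ω ^ 2 ∂P ≤ A ^ 2) (h2 : ∫ ω, h ω ^ 2 ∂P ≤ B ^ 2) :
    ∫ ω, g ω * h ω ∂P ≤ A * B := by
  have hC : 0 ≤ C := (abs_nonneg _).trans (hgb (nonempty_of_isProbabilityMeasure P).some)
  have hi1 : Integrable (fun ω => g ω ^ 2) P :=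
    integrable_of_abs_le (P := P) (hg.pow_const 2) (C := C ^ 2) (fun ω => by
      rw [abs_pow]; exact pow_le_pow_left₀ (abs_nonneg _) (hgb ω) 2)
  have hi2 : Integrable (fun ω => h ω ^ 2) P :=
    integrable_of_abs_le (P := P) (hh.pow_const 2) (C := C ^ 2) (fun ω => by
      rw [abs_pow]; exact pow_le_pow_left₀ (abs_nonneg _) (hhb ω) 2)
  have hi3 : Integrable (fun ω => g ω * h ω) P :=
    integrable_of_abs_le (P := P) (hg.mul hh) (C := C * C) (fun ω => by
      rw [abs_mul]; exact mul_le_mul (hgb ω) (hhb ω) (abs_nonneg _) hC)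
  have key : ∀ η : ℝ, 0 < η → ∫ ω, g ω * h ω ∂P ≤ (A + η) * (B + η) := by
    intro η hη
    have hA' : 0 < A + η := by linarith
    have hB' : 0 < B + η := by linarith
    set s := (B + η) / (A + η) with hs
    have hs0 : 0 < s := div_pos hB' hA'
    have hptw : ∀ ω, g ω * h ω ≤ (s * g ω ^ 2 + s⁻¹ * h ω ^ 2) / 2 := by
      intro ω
      have h3 : 0 ≤ s⁻¹ * (s * g ω - h ω) ^ 2 := by positivity
      have h4 : s⁻¹ * (s * g ω - h ω) ^ 2 = s * g ω ^ 2 - 2 * (g ω * h ω) + s⁻¹ * h ω ^ 2 := by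
        field_simp
        ring
      linarith
    have hint : ∫ ω, g ω * h ω ∂P ≤ ∫ ω, (s * g ω ^ 2 + s⁻¹ * h ω ^ 2) / 2 ∂P :=
      integral_mono hi3 (((hi1.const_mul s).add (hi2.const_mul s⁻¹)).div_const 2) hptw
    have heq : ∫ ω, (s * g ω ^ 2 + s⁻¹ * h ω ^ 2) / 2 ∂P =
        (s * ∫ ω, g ω ^ 2 ∂P + s⁻¹ * ∫ ω, h ω ^ 2 ∂P) / 2 := by
      rw [integral_div, integral_add (hi1.const_mul s) (hi2.const_mul s⁻¹), integral_const_mul,
        integral_const_mul]
    rw [heq] at hint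
    have h5 : s * ∫ ω, g ω ^ 2 ∂P ≤ (A + η) * (B + η) := by
      have h6 : s * ∫ ω, g ω ^ 2 ∂P ≤ s * (A + η) ^ 2 := by
        apply mul_le_mul_of_nonneg_left _ hs0.le
        nlinarith
      have h7 : s * (A + η) ^ 2 = (A + η) * (B + η) := by
        simp only [hs]; field_simp
      linarith
    have h5' : s⁻¹ * ∫ ω, h ω ^ 2 ∂P ≤ (A + η) * (B + η) := by
      have h6 : s⁻¹ * ∫ ω, h ω ^ 2 ∂P ≤ s⁻¹ * (B + η) ^ 2 := by
        apply mul_le_mul_of_nonneg_left _ (inv_pos.mpr hs0).le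
        nlinarith
      have h7 : s⁻¹ * (B + η) ^ 2 = (A + η) * (B + η) := by
        simp only [hs]; field_simp
      linarith
    linarith
  apply le_of_forall_pos_le_add
  intro ε hε
  set η := min 1 (ε / (A + B + 1)) with hηdef
  have hη : 0 < η := lt_min one_pos (by positivity)
  have hη1 : η ≤ 1 := min_le_left _ _
  have hη2 : η ≤ ε / (A + B + 1) := min_le_right _ _
  have h3 := key η hη
  have h4 : η * (A + B + 1) ≤ ε := by
    have : 0 < A + B + 1 := by linarith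
    rwa [le_div_iff₀ this] at hη2
  nlinarith

private lemma integral_add_sq_le {g h : Ω → ℝ} (hg : Measurable g) (hh : Measurable h) {C : ℝ}
    (hgb : ∀ ω, |g ω| ≤ C) (hhb : ∀ ω, |h ω| ≤ C) {A B : ℝ} (hA : 0 ≤ A) (hB : 0 ≤ B)
    (h1 : ∫ ω, g ω ^ 2 ∂P ≤ A ^ 2) (h2 : ∫ ω, h ω ^ 2 ∂P ≤ B ^ 2) :
    ∫ ω, (g ω + h ω) ^ 2 ∂P ≤ (A + B) ^ 2 := by
  have hC : 0 ≤ C := (abs_nonneg _).trans (hgb (nonempty_of_isProbabilityMeasure P).some)
  have hi1 : Integrable (fun ω => g ω ^ 2) P :=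
    integrable_of_abs_le (P := P) (hg.pow_const 2) (C := C ^ 2) (fun ω => by
      rw [abs_pow]; exact pow_le_pow_left₀ (abs_nonneg _) (hgb ω) 2)
  have hi2 : Integrable (fun ω => h ω ^ 2) P :=
    integrable_of_abs_le (P := P) (hh.pow_const 2) (C := C ^ 2) (fun ω => by
      rw [abs_pow]; exact pow_le_pow_left₀ (abs_nonneg _) (hhb ω) 2)
  have hi3 : Integrable (fun ω => g ω * h ω) P :=
    integrable_of_abs_le (P := P) (hg.mul hh) (C := C * C) (fun ω => by
      rw [abs_mul]; exact mul_le_mul (hgb ω) (hhb ω) (abs_nonneg _) hC)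
  have h3 := integral_mul_le (P := P) hg hh hgb hhb hA hB h1 h2
  have e : ∀ ω, (g ω + h ω) ^ 2 = g ω ^ 2 + 2 * (g ω * h ω) + h ω ^ 2 := by
    intro ω; ring
  simp_rw [e]
  have hi4 : Integrable (fun ω => g ω ^ 2 + 2 * (g ω * h ω)) P := hi1.add (hi3.const_mul 2)
  have e1 : ∫ ω, (g ω ^ 2 + 2 * (g ω * h ω)) + h ω ^ 2 ∂P =
      ∫ ω, (g ω ^ 2 + 2 * (g ω * h ω)) ∂P + ∫ ω, h ω ^ 2 ∂P := integral_add hi4 hi2
  have e2 : ∫ ω, (g ω ^ 2 + 2 * (g ω * h ω)) ∂P = ∫ ω, g ω ^ 2 ∂P + ∫ ω, 2 * (g ω * h ω) ∂P :=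
    integral_add hi1 (hi3.const_mul 2)
  rw [e1, e2, integral_const_mul]
  nlinarith

end

/-- **L² summable sequences converge.** -/
theorem l2_limit {Ω : Type*} [MeasurableSpace Ω] {P : Measure Ω} [IsProbabilityMeasure P] {f : ℕ → Ω → ℝ}
    (hm : ∀ k, Measurable (f k)) (hb : ∀ k ω, |f k ω| ≤ 1) {a : ℕ → ℝ} (ha : Summable a)
    (hd : ∀ k, ∫ ω, (f k ω - f (k + 1) ω) ^ 2 ∂P ≤ a k ^ 2) (ha0 : ∀ k, 0 ≤ a k) :
    (∀ᵐ ω ∂P, Tendsto (fun k => f k ω) atTop (𝓝 (limsup (fun k => f k ω) atTop))) ∧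
    (∀ k, ∫ ω, (f k ω - limsup (fun j => f j ω) atTop) ^ 2 ∂P ≤ (∑' j, a (j + k)) ^ 2) := by
  have hdiff_b : ∀ k l ω, |f k ω - f l ω| ≤ 2 := by
    intro k l ω
    have h1 := abs_le.mp (hb k ω)
    have h2 := abs_le.mp (hb l ω)
    rw [abs_le]; constructor <;> linarith
  have hdiffm : ∀ k l, Measurable (fun ω => f k ω - f l ω) := fun k l => (hm k).sub (hm l)
  -- a.e. convergence
  have hae : ∀ᵐ ω ∂P, Tendsto (fun k => f k ω) atTop (𝓝 (limsup (fun k => f k ω) atTop)) := by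
    set F : ℕ → Ω → ENNReal := fun k ω => ENNReal.ofReal |f k ω - f (k + 1) ω| with hF
    have hFm : ∀ k, Measurable (F k) := fun k => ((hdiffm k (k + 1)).abs).ennreal_ofReal
    have hle : ∀ k, ∫⁻ ω, F k ω ∂P ≤ ENNReal.ofReal (a k) := by
      intro k
      have h1 : ∫ ω, |f k ω - f (k + 1) ω| ∂P ≤ a k :=
        integral_abs_le (P := P) (hdiffm k (k + 1)) (hdiff_b k (k + 1)) (ha0 k) (hd k)
      have hint : Integrable (fun ω => |f k ω - f (k + 1) ω|) P :=
        integrable_of_abs_le (P := P) (hdiffm k (k + 1)).abs (C := 2) (fun ω => by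
          simpa using hdiff_b k (k + 1) ω)
      have h2 : ∫⁻ ω, F k ω ∂P = ENNReal.ofReal (∫ ω, |f k ω - f (k + 1) ω| ∂P) := by
        rw [ofReal_integral_eq_lintegral_ofReal hint (Eventually.of_forall (fun ω => abs_nonneg _))]
      rw [h2]
      exact ENNReal.ofReal_le_ofReal h1
    have htsum : ∫⁻ ω, ∑' k, F k ω ∂P ≠ ⊤ := by
      rw [lintegral_tsum (fun k => (hFm k).aemeasurable)]
      refine ne_top_of_le_ne_top ?_ (ENNReal.tsum_le_tsum hle)
      rw [← ENNReal.ofReal_tsum_of_nonneg ha0 ha]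
      exact ENNReal.ofReal_ne_top
    have hfin := ae_lt_top (Measurable.ennreal_tsum hFm) htsum
    filter_upwards [hfin] with ω hω
    have hs : Summable (fun k => (F k ω).toReal) := ENNReal.summable_toReal hω.ne
    have hs' : Summable (fun k => dist (f k ω) (f k.succ ω)) := by
      refine hs.congr (fun k => ?_)
      simp only [hF]
      rw [ENNReal.toReal_ofReal (abs_nonneg _), Real.dist_eq]
    have hc : CauchySeq (fun k => f k ω) := cauchySeq_of_summable_dist hs'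
    obtain ⟨L, hL⟩ := cauchySeq_tendsto_of_complete hc
    rw [hL.limsup_eq]
    exact hL
  refine ⟨hae, fun k => ?_⟩
  -- the chain
  have hchain : ∀ m, ∫ ω, (f k ω - f (m + k) ω) ^ 2 ∂P ≤ (∑ j ∈ Finset.range m, a (j + k)) ^ 2 := by
    intro m
    induction m with
    | zero => simp
    | succ m ih =>
      rw [Finset.sum_range_succ]
      have hA : 0 ≤ ∑ j ∈ Finset.range m, a (j + k) := Finset.sum_nonneg (fun j _ => ha0 _)
      have := integral_add_sq_le (P := P) (hdiffm k (m + k)) (hdiffm (m + k) (m + k + 1))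
        (hdiff_b k (m + k)) (hdiff_b (m + k) (m + k + 1)) hA (ha0 (m + k)) ih (hd (m + k))
      have e : ∀ ω, f k ω - f (m + 1 + k) ω = (f k ω - f (m + k) ω) + (f (m + k) ω - f (m + k + 1) ω) := by
        intro ω
        have : m + 1 + k = m + k + 1 := by omega
        rw [this]; ring
      simp_rw [e]
      exact this
  -- pass to the limit
  have hlim : Tendsto (fun m => ∫ ω, (f k ω - f (m + k) ω) ^ 2 ∂P) atTop
      (𝓝 (∫ ω, (f k ω - limsup (fun j => f j ω) atTop) ^ 2 ∂P)) := by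
    refine tendsto_integral_of_dominated_convergence (fun _ => (4:ℝ)) ?_ (integrable_const _) ?_ ?_
    · intro m
      exact ((hdiffm k (m + k)).pow_const 2).aestronglyMeasurable
    · intro m
      refine Eventually.of_forall (fun ω => ?_)
      rw [Real.norm_eq_abs, abs_pow]
      have := hdiff_b k (m + k) ω
      have h0 := abs_nonneg (f k ω - f (m + k) ω)
      nlinarith
    · filter_upwards [hae] with ω hω
      have h1 : Tendsto (fun m => f (m + k) ω) atTop (𝓝 (limsup (fun j => f j ω) atTop)) :=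
        (tendsto_add_atTop_iff_nat k).2 hω
      exact (tendsto_const_nhds.sub h1).pow 2
  have hsum : Summable (fun j => a (j + k)) := (summable_nat_add_iff k).2 ha
  refine le_of_tendsto' hlim (fun m => (hchain m).trans ?_)
  have h1 : ∑ j ∈ Finset.range m, a (j + k) ≤ ∑' j, a (j + k) :=
    hsum.sum_le_tsum _ (fun j _ => ha0 _)
  have h0 : 0 ≤ ∑ j ∈ Finset.range m, a (j + k) := Finset.sum_nonneg (fun j _ => ha0 _)
  exact pow_le_pow_left₀ h0 h1 2


/-- Shell profile. -/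
noncomputable def wf (ε p : ℝ) (l : ℕ) : ℝ :=
  min 1 ((1 - ε) ^ (l / 2) + Real.sqrt ((p + l) / 2 ^ (l / 2)))

/-- The range of the far sum. -/
noncomputable def farK (ε : ℝ) : ℝ := 64 * (1 + Real.log (1 / ε)) / ε

private lemma exp_half_le_two : Real.exp (1 / 2) ≤ 2 := by
  have h1 : Real.exp (1 / 2) ^ 2 = Real.exp 1 := by
    rw [← Real.exp_nat_mul]; norm_num
  have h2 := Real.exp_one_lt_d9
  have h3 := Real.exp_pos (1 / 2 : ℝ)
  nlinarith

private lemma nat_div_two_ge (l : ℕ) : (l:ℝ) / 2 - 1 / 2 ≤ ((l / 2 : ℕ) : ℝ) := by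
  have h : l ≤ 2 * (l / 2) + 1 := by omega
  have h2 : (l:ℝ) ≤ 2 * ((l / 2 : ℕ) : ℝ) + 1 := by exact_mod_cast h
  linarith

lemma wf_nonneg {ε : ℝ} (hε1 : ε ≤ 1) (p : ℝ) (l : ℕ) : 0 ≤ wf ε p l := by
  unfold wf
  refine le_min zero_le_one (add_nonneg (pow_nonneg (by linarith) _) (Real.sqrt_nonneg _))

lemma wf_le_one (ε p : ℝ) (l : ℕ) : wf ε p l ≤ 1 := min_le_left _ _

/-- Pointwise bound on the profile. -/
private lemma wf_le {ε p : ℝ} (hε : 0 < ε) (hε1 : ε ≤ 1) (hp : 1 ≤ p) (l : ℕ) :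
    wf ε p l ≤ Real.sqrt (Real.sqrt p) *
      (3 * Real.exp (-(ε / 2) * l) + 2 * (1 + (l:ℝ)) * Real.exp (-(1 / 16) * l)) := by
  set q := Real.sqrt (Real.sqrt p) with hq
  have hq1 : 1 ≤ q := by
    rw [hq, Real.one_le_sqrt, Real.one_le_sqrt]; exact hp
  set m := l / 2 with hm
  have hmge := nat_div_two_ge l
  rw [← hm] at hmge
  have hl0 : (0:ℝ) ≤ l := by positivity
  have hm0 : (0:ℝ) ≤ m := by positivity
  -- first part
  have hu : (1 - ε) ^ m ≤ 3 * Real.exp (-(ε / 2) * l) := by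
    have h1 : 1 - ε ≤ Real.exp (-ε) := by linarith [Real.add_one_le_exp (-ε)]
    have h2 : (1 - ε) ^ m ≤ Real.exp (-ε) ^ m := pow_le_pow_left₀ (by linarith) h1 m
    have h3 : Real.exp (-ε) ^ m = Real.exp (m * (-ε)) := (Real.exp_nat_mul _ _).symm
    have h4 : Real.exp (m * (-ε)) ≤ Real.exp (1 / 2) * Real.exp (-(ε / 2) * l) := by
      rw [← Real.exp_add]
      apply Real.exp_le_exp.mpr
      nlinarith
    have h5 := exp_half_le_two
    have h6 := Real.exp_pos (-(ε / 2) * l)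
    nlinarith
  -- second part
  set X := (p + l) / 2 ^ m with hX
  have hX0 : 0 ≤ X := by positivity
  have hXle : X ≤ p * (1 + l) * Real.exp (-(1 / 2) * m) := by
    have h2m : Real.exp ((1 / 2) * m) ≤ 2 ^ m := by
      have : Real.exp ((1 / 2) * (m:ℝ)) = Real.exp (1 / 2) ^ m := by
        rw [← Real.exp_nat_mul]; congr 1; ring
      rw [this]
      exact pow_le_pow_left₀ (Real.exp_pos _).le exp_half_le_two m
    have hneg : Real.exp (-(1 / 2) * m) = (Real.exp ((1 / 2) * m))⁻¹ := by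
      rw [← Real.exp_neg]; congr 1; ring
    rw [hX, hneg, div_eq_mul_inv]
    have hpl : p + l ≤ p * (1 + l) := by nlinarith
    have hinv : ((2:ℝ) ^ m)⁻¹ ≤ (Real.exp ((1 / 2) * m))⁻¹ :=
      inv_anti₀ (Real.exp_pos _) h2m
    have h20 : (0:ℝ) ≤ (2 ^ m)⁻¹ := by positivity
    exact mul_le_mul hpl hinv h20 (by positivity)
  have hsq : Real.sqrt (Real.sqrt X) ≤ q * (1 + l) * Real.exp (-(1 / 8) * m) := by
    have h1 : Real.sqrt (Real.sqrt X) ≤ Real.sqrt (Real.sqrt (p * (1 + l) * Real.exp (-(1 / 2) * m))) :=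
      Real.sqrt_le_sqrt (Real.sqrt_le_sqrt hXle)
    refine h1.trans ?_
    have hp0 : 0 ≤ p := by linarith
    have h1l : (0:ℝ) ≤ 1 + l := by linarith
    rw [Real.sqrt_mul (mul_nonneg hp0 h1l), Real.sqrt_mul hp0, Real.sqrt_mul (by positivity),
      Real.sqrt_mul (Real.sqrt_nonneg _)]
    have h3 : Real.sqrt (Real.sqrt (1 + l)) ≤ 1 + l := by
      have ha : (1:ℝ) ≤ 1 + l := by linarith
      have hs1 : Real.sqrt (1 + l) ≤ 1 + l := by
        rw [Real.sqrt_le_left (by linarith)]; nlinarith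
      have hs2 : 1 ≤ Real.sqrt (1 + l) := by rw [Real.one_le_sqrt]; exact ha
      have hs3 : Real.sqrt (Real.sqrt (1 + l)) ≤ Real.sqrt (1 + l) := by
        rw [Real.sqrt_le_left (by linarith)]; nlinarith
      linarith
    have h4 : Real.sqrt (Real.sqrt (Real.exp (-(1 / 2) * m))) = Real.exp (-(1 / 8) * m) := by
      rw [← Real.exp_half, ← Real.exp_half]; congr 1; ring
    rw [h4]
    have h5 := Real.exp_pos (-(1 / 8) * (m:ℝ))
    have h6 : 0 ≤ q := by linarith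
    calc q * Real.sqrt (Real.sqrt (1 + l)) * Real.exp (-(1 / 8) * m)
        ≤ q * (1 + l) * Real.exp (-(1 / 8) * m) := by
          apply mul_le_mul_of_nonneg_right _ h5.le
          exact mul_le_mul_of_nonneg_left h3 h6
      _ = _ := rfl
  have hm8 : Real.exp (-(1 / 8) * m) ≤ 2 * Real.exp (-(1 / 16) * l) := by
    have h1 : Real.exp (-(1 / 8) * m) ≤ Real.exp (1 / 2) * Real.exp (-(1 / 16) * l) := by
      rw [← Real.exp_add]
      apply Real.exp_le_exp.mpr
      nlinarith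
    have h5 := exp_half_le_two
    have h6 := Real.exp_pos (-(1 / 16) * (l:ℝ))
    nlinarith
  -- combine
  unfold wf
  rw [← hm, ← hX]
  set y := Real.sqrt X with hy
  have hy0 : 0 ≤ y := Real.sqrt_nonneg _
  have hu0 : 0 ≤ (1 - ε) ^ m := pow_nonneg (by linarith) _
  have hmin : min 1 ((1 - ε) ^ m + y) ≤ (1 - ε) ^ m + Real.sqrt y := by
    by_cases hy1 : y ≤ 1
    · have h1 : y ≤ Real.sqrt y := by
        apply Real.le_sqrt_of_sq_le; nlinarith
      exact (min_le_right _ _).trans (by linarith)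
    · have h1 : 1 ≤ Real.sqrt y := by
        rw [Real.one_le_sqrt]; linarith [not_le.mp hy1]
      exact (min_le_left _ _).trans (by linarith)
  refine hmin.trans ?_
  have h7 : Real.sqrt y ≤ q * (2 * (1 + l) * Real.exp (-(1 / 16) * l)) := by
    refine hsq.trans ?_
    have h0 : 0 ≤ q * (1 + l) := by
      have : (0:ℝ) ≤ 1 + l := by linarith
      positivity
    calc q * (1 + l) * Real.exp (-(1 / 8) * m)
        ≤ q * (1 + l) * (2 * Real.exp (-(1 / 16) * l)) := mul_le_mul_of_nonneg_left hm8 h0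
      _ = _ := by ring
  have h8 : (1 - ε) ^ m ≤ q * (3 * Real.exp (-(ε / 2) * l)) := by
    have : 0 ≤ 3 * Real.exp (-(ε / 2) * l) := by positivity
    nlinarith
  rw [mul_add]
  linarith

/-- The basic weight. -/
private noncomputable def GG (ε : ℝ) (l : ℕ) : ℝ :=
  ((l:ℝ) + 3) * (3 * Real.exp (-(ε / 2) * l) + 2 * (1 + (l:ℝ)) * Real.exp (-(1 / 16) * l))

private lemma GG_nonneg (ε : ℝ) (l : ℕ) : 0 ≤ GG ε l := by
  unfold GG; positivity

private lemma GG_le {ε : ℝ} (hε : 0 < ε) (hε1 : ε ≤ 1) (l : ℕ) :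
    GG ε l ≤ (21 / ε) * Real.exp (-(ε / 4) * l) + 18432 * Real.exp (-(1 / 24) * l) := by
  unfold GG
  have hl0 : (0:ℝ) ≤ l := by positivity
  have h1 : ((l:ℝ) + 3) * Real.exp (-(ε / 4) * l) ≤ 7 / ε := by
    have h2 : (l:ℝ) * Real.exp (-(ε / 4) * l) ≤ 4 / ε := by
      have h3 := Real.add_one_le_exp ((ε / 4) * l)
      have hE : Real.exp (-(ε / 4) * l) * Real.exp ((ε / 4) * l) = 1 := by
        rw [← Real.exp_add]; simp
      have hpos := Real.exp_pos (-(ε / 4) * (l:ℝ))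
      rw [le_div_iff₀ hε]
      nlinarith
    have h4 : 3 * Real.exp (-(ε / 4) * l) ≤ 3 / ε := by
      have h5 : Real.exp (-(ε / 4) * l) ≤ 1 := by
        rw [← Real.exp_zero]; apply Real.exp_le_exp.mpr; nlinarith
      have h6 : (1:ℝ) ≤ 1 / ε := by rw [le_div_iff₀ hε]; linarith
      have h7 : 3 / ε = 3 * (1 / ε) := by ring
      rw [h7]; linarith
    have h7 : (7:ℝ) / ε = 4 / ε + 3 / ε := by ring
    rw [h7]; nlinarith
  have h2 : ((l:ℝ) + 3) * (3 * Real.exp (-(ε / 2) * l)) ≤ (21 / ε) * Real.exp (-(ε / 4) * l) := by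
    have hsplit : Real.exp (-(ε / 2) * l) = Real.exp (-(ε / 4) * l) * Real.exp (-(ε / 4) * l) := by
      rw [← Real.exp_add]; congr 1; ring
    rw [hsplit]
    have hpos := Real.exp_pos (-(ε / 4) * (l:ℝ))
    calc ((l:ℝ) + 3) * (3 * (Real.exp (-(ε / 4) * l) * Real.exp (-(ε / 4) * l)))
        = 3 * (((l:ℝ) + 3) * Real.exp (-(ε / 4) * l)) * Real.exp (-(ε / 4) * l) := by ring
      _ ≤ 3 * (7 / ε) * Real.exp (-(ε / 4) * l) := by
          apply mul_le_mul_of_nonneg_right _ hpos.le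
          linarith
      _ = _ := by ring
  have h3 : ((l:ℝ) + 3) * (2 * (1 + (l:ℝ)) * Real.exp (-(1 / 16) * l)) ≤ 18432 * Real.exp (-(1 / 24) * l) := by
    have h4 : (l:ℝ) + 3 ≤ 96 * Real.exp ((1 / 96) * l) := by
      have := Real.add_one_le_exp ((1 / 96) * (l:ℝ))
      nlinarith
    have h5 : (1 + (l:ℝ)) ≤ (l:ℝ) + 3 := by linarith
    have h6 : ((l:ℝ) + 3) * (1 + (l:ℝ)) ≤ 96 * Real.exp ((1 / 96) * l) * (96 * Real.exp ((1 / 96) * l)) := by
      apply mul_le_mul h4 (h5.trans h4) (by linarith) (by positivity)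
    have hsplit : Real.exp (-(1 / 24) * l) =
        Real.exp ((1 / 96) * l) * Real.exp ((1 / 96) * l) * Real.exp (-(1 / 16) * l) := by
      rw [← Real.exp_add, ← Real.exp_add]; congr 1; ring
    rw [hsplit]
    have hpos := Real.exp_pos (-(1 / 16) * (l:ℝ))
    calc ((l:ℝ) + 3) * (2 * (1 + (l:ℝ)) * Real.exp (-(1 / 16) * l))
        = 2 * (((l:ℝ) + 3) * (1 + (l:ℝ))) * Real.exp (-(1 / 16) * l) := by ring
      _ ≤ 2 * (96 * Real.exp ((1 / 96) * l) * (96 * Real.exp ((1 / 96) * l))) * Real.exp (-(1 / 16) * l) := by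
          apply mul_le_mul_of_nonneg_right _ hpos.le
          linarith
      _ = _ := by ring
  rw [mul_add]
  linarith

/-- Geometric sums of exponentials. -/
private lemma sum_exp_le {a : ℝ} (ha : 0 < a) (ha1 : a ≤ 1) (n : ℕ) :
    ∑ l ∈ Finset.range n, Real.exp (-a * l) ≤ 2 / a := by
  set r := Real.exp (-a) with hr
  have hr0 : 0 < r := Real.exp_pos _
  have hr1 : r ≤ 1 - a / 2 := by
    have h1 := Real.add_one_le_exp a
    have h2 : r * Real.exp a = 1 := by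
      rw [hr, ← Real.exp_add]; simp
    have h3 : r * (a + 1) ≤ 1 := by
      calc r * (a + 1) ≤ r * Real.exp a := mul_le_mul_of_nonneg_left h1 hr0.le
        _ = 1 := h2
    nlinarith
  have hrw : ∀ l : ℕ, Real.exp (-a * l) = r ^ l := by
    intro l
    rw [hr, ← Real.exp_nat_mul]; congr 1; ring
  simp_rw [hrw]
  have hgeom := mul_neg_geom_sum r n
  have hrn : 0 ≤ r ^ n := by positivity
  have hS : 0 ≤ ∑ l ∈ Finset.range n, r ^ l := Finset.sum_nonneg (fun l _ => by positivity)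
  rw [le_div_iff₀ ha]
  have h1 : (1 - r) * ∑ l ∈ Finset.range n, r ^ l ≤ 1 := by rw [hgeom]; linarith
  have h2 : a / 2 * ∑ l ∈ Finset.range n, r ^ l ≤ (1 - r) * ∑ l ∈ Finset.range n, r ^ l :=
    mul_le_mul_of_nonneg_right (by linarith) hS
  linarith

private lemma total_le {ε : ℝ} (hε : 0 < ε) (hε1 : ε ≤ 1) (n : ℕ) :
    ∑ l ∈ Finset.range n, GG ε l ≤ 884904 / ε ^ 2 := by
  have h1 : ∑ l ∈ Finset.range n, GG ε l ≤
      ∑ l ∈ Finset.range n, ((21 / ε) * Real.exp (-(ε / 4) * l) + 18432 * Real.exp (-(1 / 24) * l)) :=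
    Finset.sum_le_sum (fun l _ => GG_le hε hε1 l)
  refine h1.trans ?_
  rw [Finset.sum_add_distrib, ← Finset.mul_sum, ← Finset.mul_sum]
  have h2 := sum_exp_le (a := ε / 4) (by positivity) (by linarith) n
  have h3 := sum_exp_le (a := 1 / 24) (by norm_num) (by norm_num) n
  have h4 : (21 / ε) * ∑ l ∈ Finset.range n, Real.exp (-(ε / 4) * l) ≤ (21 / ε) * (2 / (ε / 4)) :=
    mul_le_mul_of_nonneg_left h2 (by positivity)
  have h5 : (21 / ε) * (2 / (ε / 4)) = 168 / ε ^ 2 := by field_simp; ring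
  have h6 : (18432:ℝ) * ∑ l ∈ Finset.range n, Real.exp (-(1 / 24) * l) ≤ 18432 * (2 / (1 / 24)) :=
    mul_le_mul_of_nonneg_left h3 (by norm_num)
  have h7 : (1:ℝ) ≤ 1 / ε ^ 2 := by
    rw [le_div_iff₀ (by positivity)]; nlinarith
  have h8 : (884904:ℝ) / ε ^ 2 = 168 / ε ^ 2 + 884736 * (1 / ε ^ 2) := by ring
  rw [h8]
  norm_num at h6
  nlinarith

private lemma tail_le {ε : ℝ} (hε : 0 < ε) (hε1 : ε ≤ 1) (K n : ℕ) (hK : farK ε ≤ K) :
    ∑ l ∈ Finset.range n, (if K ≤ 2 * l then GG ε l else 0) ≤ 7962960 * ε ^ 2 := by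
  have hlog : 0 ≤ Real.log (1 / ε) := Real.log_nonneg (by rw [le_div_iff₀ hε]; linarith)
  have hpt : ∀ l ∈ Finset.range n, (if K ≤ 2 * l then GG ε l else 0) ≤
      (21 / ε) * (ε ^ 4 * Real.exp (-(ε / 8) * l)) + 18432 * (((9 / 2) * ε ^ 2) * Real.exp (-(1 / 48) * l)) := by
    intro l _
    have hnn : 0 ≤ (21 / ε) * (ε ^ 4 * Real.exp (-(ε / 8) * l)) +
        18432 * (((9 / 2) * ε ^ 2) * Real.exp (-(1 / 48) * l)) := by positivity
    split_ifs with hcase
    · refine (GG_le hε hε1 l).trans ?_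
      have hl : (K:ℝ) ≤ 2 * l := by exact_mod_cast hcase
      have hKl : 64 * (1 + Real.log (1 / ε)) / ε ≤ 2 * l := hK.trans hl
      rw [div_le_iff₀ hε] at hKl
      have hlε : 32 * (1 + Real.log (1 / ε)) ≤ ε * l := by linarith
      -- first exponential
      have h1 : Real.exp (-(ε / 4) * l) ≤ ε ^ 4 * Real.exp (-(ε / 8) * l) := by
        have hε4 : ε ^ 4 = Real.exp (-4 * Real.log (1 / ε)) := by
          have h2 : Real.exp (- Real.log (1 / ε)) = ε := by
            rw [Real.exp_neg, Real.exp_log (by positivity)]; field_simp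
          rw [show (-4 : ℝ) * Real.log (1 / ε) = (4:ℕ) * (- Real.log (1 / ε)) by push_cast; ring,
            Real.exp_nat_mul, h2]
        rw [hε4, ← Real.exp_add]
        apply Real.exp_le_exp.mpr
        nlinarith
      -- second exponential
      have h2 : Real.exp (-(1 / 24) * l) ≤ ((9 / 2) * ε ^ 2) * Real.exp (-(1 / 48) * l) := by
        have hsplit : Real.exp (-(1 / 24) * l) = Real.exp (-(1 / 48) * l) * Real.exp (-(1 / 48) * l) := by
          rw [← Real.exp_add]; congr 1; ring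
        rw [hsplit]
        have hpos := Real.exp_pos (-(1 / 48) * (l:ℝ))
        apply mul_le_mul_of_nonneg_right _ hpos.le
        -- l ≥ 32/ε
        have hl32 : 32 / ε ≤ l := by
          rw [div_le_iff₀ hε]; nlinarith
        set x := (1 / 48) * (l:ℝ) with hx
        have hx0 : (2 / 3) / ε ≤ x := by
          have : (2 / 3) / ε = (1 / 48) * (32 / ε) := by ring
          rw [this, hx]; linarith
        have hx1 : 0 ≤ x := le_trans (by positivity) hx0
        have hq := Real.quadratic_le_exp_of_nonneg hx1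
        have hexp : x ^ 2 / 2 ≤ Real.exp x := by nlinarith
        have hneg : Real.exp (-(1 / 48) * l) = (Real.exp x)⁻¹ := by
          rw [← Real.exp_neg]; congr 1; simp only [hx]; ring
        rw [hneg]
        have hxs : (2 / 9) / ε ^ 2 ≤ x ^ 2 / 2 := by
          have h3 : ((2 / 3) / ε) ^ 2 ≤ x ^ 2 := pow_le_pow_left₀ (by positivity) hx0 2
          have h4 : ((2 / 3) / ε) ^ 2 = 2 * ((2 / 9) / ε ^ 2) := by field_simp; ring
          linarith
        have h5 : (2 / 9) / ε ^ 2 ≤ Real.exp x := hxs.trans hexp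
        have h6 : (Real.exp x)⁻¹ ≤ ((2 / 9) / ε ^ 2)⁻¹ := inv_anti₀ (by positivity) h5
        refine h6.trans (le_of_eq ?_)
        field_simp
      have h3 : 0 ≤ 21 / ε := by positivity
      exact add_le_add (mul_le_mul_of_nonneg_left h1 h3) (mul_le_mul_of_nonneg_left h2 (by norm_num))
    · exact hnn
  refine (Finset.sum_le_sum hpt).trans ?_
  rw [Finset.sum_add_distrib, ← Finset.mul_sum, ← Finset.mul_sum, ← Finset.mul_sum, ← Finset.mul_sum]
  have h2 := sum_exp_le (a := ε / 8) (by positivity) (by linarith) n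
  have h3 := sum_exp_le (a := 1 / 48) (by norm_num) (by norm_num) n
  have h4 : (21 / ε) * (ε ^ 4 * ∑ l ∈ Finset.range n, Real.exp (-(ε / 8) * l)) ≤
      (21 / ε) * (ε ^ 4 * (2 / (ε / 8))) :=
    mul_le_mul_of_nonneg_left (mul_le_mul_of_nonneg_left h2 (by positivity)) (by positivity)
  have h5 : (21 / ε) * (ε ^ 4 * (2 / (ε / 8))) = 336 * ε ^ 2 := by field_simp; ring
  have h6 : (18432:ℝ) * (((9 / 2) * ε ^ 2) * ∑ l ∈ Finset.range n, Real.exp (-(1 / 48) * l)) ≤
      18432 * (((9 / 2) * ε ^ 2) * (2 / (1 / 48))) :=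
    mul_le_mul_of_nonneg_left (mul_le_mul_of_nonneg_left h3 (by positivity)) (by norm_num)
  have h7 : (18432:ℝ) * (((9 / 2) * ε ^ 2) * (2 / (1 / 48))) = 7962624 * ε ^ 2 := by ring
  nlinarith

/-- **The far sum.** -/
theorem farSum_le : ∃ C : ℝ, 0 < C ∧ ∀ (ε : ℝ) (_ : 0 < ε) (_ : ε ≤ 1) (K K' : ℕ) (_ : farK ε ≤ K) (p : ℝ) (_ : 1 ≤ p),
    ∑ l₁ ∈ Finset.range K', ∑ l₂ ∈ Finset.range K',
      (if K ≤ l₁ + l₂ then ((l₁ : ℝ) + l₂ + 3) * wf ε p l₁ * wf ε p l₂ else 0) ≤ C * (1 + Real.sqrt p) := by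
  refine ⟨2 * (7962960 * 884904), by norm_num, ?_⟩
  intro ε hε hε1 K K' hK p hp
  set q := Real.sqrt (Real.sqrt p) with hq
  have hq0 : 0 ≤ q := Real.sqrt_nonneg _
  have hqq : q * q = Real.sqrt p := Real.mul_self_sqrt (Real.sqrt_nonneg _)
  have hw : ∀ l : ℕ, ((l:ℝ) + 3) * wf ε p l ≤ q * GG ε l := by
    intro l
    have := wf_le hε hε1 hp l
    unfold GG
    calc ((l:ℝ) + 3) * wf ε p l ≤ ((l:ℝ) + 3) * (q * (3 * Real.exp (-(ε / 2) * l) + 2 * (1 + (l:ℝ)) * Real.exp (-(1 / 16) * l))) :=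
          mul_le_mul_of_nonneg_left this (by positivity)
      _ = _ := by ring
  -- pointwise bound
  have hpt : ∀ l₁ l₂ : ℕ, (if K ≤ l₁ + l₂ then ((l₁ : ℝ) + l₂ + 3) * wf ε p l₁ * wf ε p l₂ else 0) ≤
      q * q * ((if K ≤ 2 * l₁ then GG ε l₁ else 0) * GG ε l₂ +
        GG ε l₁ * (if K ≤ 2 * l₂ then GG ε l₂ else 0)) := by
    intro l₁ l₂
    have hG1 := GG_nonneg ε l₁
    have hG2 := GG_nonneg ε l₂
    have hqq0 : 0 ≤ q * q := mul_nonneg hq0 hq0
    have hnn : 0 ≤ q * q * ((if K ≤ 2 * l₁ then GG ε l₁ else 0) * GG ε l₂ +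
        GG ε l₁ * (if K ≤ 2 * l₂ then GG ε l₂ else 0)) := by
      apply mul_nonneg hqq0
      apply add_nonneg
      · apply mul_nonneg _ hG2
        split_ifs <;> simp [hG1]
      · apply mul_nonneg hG1
        split_ifs <;> simp [hG2]
    split_ifs at hnn ⊢ with h1 h2 h3 h4 h5 <;> first | exact hnn | skip
    all_goals
      have hw1 := wf_nonneg hε1 p l₁
      have hw2 := wf_nonneg hε1 p l₂
      have hT : ((l₁ : ℝ) + l₂ + 3) * wf ε p l₁ * wf ε p l₂ ≤ q * q * (GG ε l₁ * GG ε l₂) := by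
        have hc : ((l₁ : ℝ) + l₂ + 3) ≤ ((l₁:ℝ) + 3) * ((l₂:ℝ) + 3) := by
          have : (0:ℝ) ≤ l₁ := by positivity
          have : (0:ℝ) ≤ l₂ := by positivity
          nlinarith
        calc ((l₁ : ℝ) + l₂ + 3) * wf ε p l₁ * wf ε p l₂
            ≤ (((l₁:ℝ) + 3) * ((l₂:ℝ) + 3)) * wf ε p l₁ * wf ε p l₂ := by
              apply mul_le_mul_of_nonneg_right _ hw2
              exact mul_le_mul_of_nonneg_right hc hw1
          _ = (((l₁:ℝ) + 3) * wf ε p l₁) * (((l₂:ℝ) + 3) * wf ε p l₂) := by ring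
          _ ≤ (q * GG ε l₁) * (q * GG ε l₂) :=
              mul_le_mul (hw l₁) (hw l₂) (by positivity) (mul_nonneg hq0 hG1)
          _ = _ := by ring
    · nlinarith [mul_nonneg hG1 hG2, mul_nonneg hqq0 (mul_nonneg hG1 hG2)]
    · nlinarith [mul_nonneg hG1 hG2, mul_nonneg hqq0 (mul_nonneg hG1 hG2)]
    · nlinarith [mul_nonneg hG1 hG2, mul_nonneg hqq0 (mul_nonneg hG1 hG2)]
    · exfalso; omega
  set Tail := ∑ l ∈ Finset.range K', (if K ≤ 2 * l then GG ε l else 0) with hTail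
  set Total := ∑ l ∈ Finset.range K', GG ε l with hTotal
  have hTail0 : 0 ≤ Tail := Finset.sum_nonneg (fun l _ => by
    have := GG_nonneg ε l
    split_ifs <;> simp [this])
  have hTotal0 : 0 ≤ Total := Finset.sum_nonneg (fun l _ => GG_nonneg ε l)
  have hsum : ∑ l₁ ∈ Finset.range K', ∑ l₂ ∈ Finset.range K',
      (if K ≤ l₁ + l₂ then ((l₁ : ℝ) + l₂ + 3) * wf ε p l₁ * wf ε p l₂ else 0) ≤
      q * q * (Tail * Total + Total * Tail) := by
    calc _ ≤ ∑ l₁ ∈ Finset.range K', ∑ l₂ ∈ Finset.range K', q * q * ((if K ≤ 2 * l₁ then GG ε l₁ else 0) * GG ε l₂ +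
        GG ε l₁ * (if K ≤ 2 * l₂ then GG ε l₂ else 0)) :=
          Finset.sum_le_sum (fun l₁ _ => Finset.sum_le_sum (fun l₂ _ => hpt l₁ l₂))
      _ = _ := by
          simp only [← Finset.mul_sum]
          congr 1
          simp only [Finset.sum_add_distrib, ← Finset.mul_sum, ← Finset.sum_mul]
          rfl
  have hT1 := tail_le hε hε1 K K' hK
  have hT2 := total_le hε hε1 K'
  have hprod : Tail * Total ≤ 7962960 * 884904 := by
    calc Tail * Total ≤ (7962960 * ε ^ 2) * (884904 / ε ^ 2) :=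
          mul_le_mul hT1 hT2 hTotal0 (by positivity)
      _ = _ := by field_simp
  refine hsum.trans ?_
  rw [hqq]
  have hsp : 0 ≤ Real.sqrt p := Real.sqrt_nonneg _
  nlinarith


/-- **The far expectation.** -/
theorem far_expect : ∃ C : ℝ, 0 < C ∧ ∀ (Ω : Type u) [MeasurableSpace Ω] (P : Measure Ω) [IsProbabilityMeasure P]
    (ε : ℝ) (_ : 0 < ε) (_ : ε ≤ 1) (K K' : ℕ) (_ : farK ε ≤ K) (p : ℝ) (_ : 1 ≤ p)
    (D : Ω → ℝ) (W₁ W₂ : ℕ → Ω → ℝ), Measurable D → (∀ ω, 0 ≤ D ω) → (∀ ω, D ω ≤ 4) →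
    (∀ l, Measurable (W₁ l)) → (∀ l, Measurable (W₂ l)) →
    (∀ l ω, 0 ≤ W₁ l ω ∧ W₁ l ω ≤ 1) → (∀ l ω, 0 ≤ W₂ l ω ∧ W₂ l ω ≤ 1) →
    (∀ l (r : ℝ), 1 ≤ r → (P {ω | wf ε r l < W₁ l ω}).toReal ≤ Real.exp (-(r + l))) →
    (∀ l (r : ℝ), 1 ≤ r → (P {ω | wf ε r l < W₂ l ω}).toReal ≤ Real.exp (-(r + l))) →
    ∫ ω, D ω * ∑ l₁ ∈ Finset.range K', ∑ l₂ ∈ Finset.range K',
        (if K ≤ l₁ + l₂ then ((l₁ : ℝ) + l₂ + 3) * W₁ l₁ ω * W₂ l₂ ω else 0) ∂P ≤
      C * ((1 + Real.sqrt p) * ∫ ω, D ω ∂P + Real.exp (-p / 2)) := by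
  obtain ⟨C₀, hC₀, hfar⟩ := farSum_le
  refine ⟨C₀ + 128 * C₀ + 1, by positivity, ?_⟩
  intro Ω _ P _ ε hε hε1 K K' hK p hp D W₁ W₂ hDm hD0 hD4 hW₁m hW₂m hW₁ hW₂ htail₁ htail₂
  -- the sum
  set F : Ω → ℝ := fun ω => ∑ l₁ ∈ Finset.range K', ∑ l₂ ∈ Finset.range K',
        (if K ≤ l₁ + l₂ then ((l₁ : ℝ) + l₂ + 3) * W₁ l₁ ω * W₂ l₂ ω else 0) with hF
  set G : ℝ := ∑ l₁ ∈ Finset.range K', ∑ l₂ ∈ Finset.range K', ((l₁ : ℝ) + l₂ + 3) with hG
  have hG0 : 0 ≤ G := Finset.sum_nonneg (fun _ _ => Finset.sum_nonneg (fun _ _ => by positivity))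
  have hF0 : ∀ ω, 0 ≤ F ω := by
    intro ω
    refine Finset.sum_nonneg (fun l₁ _ => Finset.sum_nonneg (fun l₂ _ => ?_))
    split_ifs
    · exact mul_nonneg (mul_nonneg (by positivity) (hW₁ _ _).1) (hW₂ _ _).1
    · exact le_rfl
  have hFG : ∀ ω, F ω ≤ G := by
    intro ω
    refine Finset.sum_le_sum (fun l₁ _ => Finset.sum_le_sum (fun l₂ _ => ?_))
    have hn : (0:ℝ) ≤ (l₁ : ℝ) + l₂ + 3 := by positivity
    split_ifs
    · have h1 := hW₁ l₁ ω
      have h2 := hW₂ l₂ ω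
      calc ((l₁ : ℝ) + l₂ + 3) * W₁ l₁ ω * W₂ l₂ ω
          ≤ ((l₁ : ℝ) + l₂ + 3) * 1 * 1 :=
            mul_le_mul (mul_le_mul_of_nonneg_left h1.2 hn) h2.2 h2.1 (by positivity)
        _ = _ := by ring
    · exact hn
  have hFm : Measurable F := by
    refine Finset.measurable_sum _ (fun l₁ _ => Finset.measurable_sum _ (fun l₂ _ => ?_))
    split_ifs
    · exact (measurable_const.mul (hW₁m l₁)).mul (hW₂m l₂)
    · exact measurable_const
  -- the events
  set Ev : ℕ → Set Ω := fun i => ⋃ l ∈ Finset.range K',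
    ({ω | wf ε (p + i) l < W₁ l ω} ∪ {ω | wf ε (p + i) l < W₂ l ω}) with hEv
  have hEvm : ∀ i, MeasurableSet (Ev i) := by
    intro i
    refine Finset.measurableSet_biUnion _ (fun l _ => ?_)
    exact (measurableSet_lt measurable_const (hW₁m l)).union (measurableSet_lt measurable_const (hW₂m l))
  set a : ℕ → ℝ := fun i => C₀ * (1 + Real.sqrt (p + i)) with ha
  have ha0 : ∀ i, 0 ≤ a i := fun i => by
    simp only [ha]; positivity
  -- outside the events the far sum bound applies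
  have hout : ∀ i ω, ω ∉ Ev i → F ω ≤ a i := by
    intro i ω hω
    have hr : 1 ≤ p + i := by
      have : (0:ℝ) ≤ i := by positivity
      linarith
    have hnot : ∀ l ∈ Finset.range K', W₁ l ω ≤ wf ε (p + i) l ∧ W₂ l ω ≤ wf ε (p + i) l := by
      intro l hl
      by_contra hc
      apply hω
      simp only [hEv, Set.mem_iUnion]
      refine ⟨l, hl, ?_⟩
      by_cases h1 : W₁ l ω ≤ wf ε (p + i) l
      · right
        have h2 : ¬ W₂ l ω ≤ wf ε (p + i) l := fun h2 => hc ⟨h1, h2⟩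
        exact not_le.mp h2
      · left
        exact not_le.mp h1
    refine le_trans ?_ (hfar ε hε hε1 K K' hK (p + i) hr)
    refine Finset.sum_le_sum (fun l₁ hl₁ => Finset.sum_le_sum (fun l₂ hl₂ => ?_))
    have hn : (0:ℝ) ≤ (l₁ : ℝ) + l₂ + 3 := by positivity
    split_ifs
    · exact mul_le_mul (mul_le_mul_of_nonneg_left (hnot l₁ hl₁).1 hn) (hnot l₂ hl₂).2 (hW₂ _ _).1
        (mul_nonneg hn (wf_nonneg hε1 _ _))
    · exact le_rfl
  -- probability of the events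
  have hprob : ∀ i : ℕ, P.real (Ev i) ≤ 4 * Real.exp (-(p + i)) := by
    intro i
    have hr : 1 ≤ p + i := by
      have : (0:ℝ) ≤ i := by positivity
      linarith
    refine (measureReal_biUnion_finset_le _ _).trans ?_
    have h1 : ∀ l ∈ Finset.range K', P.real ({ω | wf ε (p + i) l < W₁ l ω} ∪ {ω | wf ε (p + i) l < W₂ l ω}) ≤
        2 * Real.exp (-(p + i)) * Real.exp (-1 * l) := by
      intro l _
      refine (measureReal_union_le _ _).trans ?_
      have h2 := htail₁ l (p + i) hr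
      have h3 := htail₂ l (p + i) hr
      have h4 : Real.exp (-(p + i + l)) ≤ Real.exp (-(p + i)) * Real.exp (-1 * l) := by
        rw [← Real.exp_add]
        apply Real.exp_le_exp.mpr
        have : (0:ℝ) ≤ l := by positivity
        nlinarith
      simp only [Measure.real] at *
      linarith
    refine (Finset.sum_le_sum h1).trans ?_
    rw [← Finset.mul_sum]
    have h2 := sum_exp_le (a := 1) one_pos le_rfl K'
    have h3 := Real.exp_pos (-(p + i))
    calc 2 * Real.exp (-(p + i)) * ∑ l ∈ Finset.range K', Real.exp (-1 * l)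
        ≤ 2 * Real.exp (-(p + i)) * (2 / 1) := mul_le_mul_of_nonneg_left h2 (by positivity)
      _ = _ := by ring
  -- choose the cutoff
  obtain ⟨M, hM⟩ := exists_nat_ge (16 * G)
  -- pointwise bound
  have hptw : ∀ (M : ℕ) (ω : Ω), F ω ≤ a 0 + ∑ i ∈ Finset.range M, (Ev i).indicator (fun _ => a (i + 1)) ω +
      (Ev M).indicator (fun _ => G) ω := by
    intro M ω
    induction M with
    | zero =>
      by_cases h : ω ∈ Ev 0
      · simp only [Finset.range_zero, Finset.sum_empty, add_zero, Set.indicator_of_mem h]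
        have := hFG ω
        have := ha0 0
        linarith
      · simp only [Finset.range_zero, Finset.sum_empty, add_zero, Set.indicator_of_notMem h]
        simpa using hout 0 ω h
    | succ M ih =>
      rw [Finset.sum_range_succ]
      have hs0 : 0 ≤ ∑ i ∈ Finset.range M, (Ev i).indicator (fun _ => a (i + 1)) ω :=
        Finset.sum_nonneg (fun i _ => Set.indicator_nonneg (fun _ _ => ha0 _) _)
      have hind0 : 0 ≤ (Ev (M + 1)).indicator (fun _ => G) ω := Set.indicator_nonneg (fun _ _ => hG0) _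
      by_cases h : ω ∈ Ev M
      · rw [Set.indicator_of_mem h]
        by_cases h2 : ω ∈ Ev (M + 1)
        · rw [Set.indicator_of_mem h2]
          have := hFG ω
          have := ha0 0
          have := ha0 (M + 1)
          linarith
        · rw [Set.indicator_of_notMem h2]
          have := hout (M + 1) ω h2
          have := ha0 0
          linarith
      · rw [Set.indicator_of_notMem h] at ih ⊢
        linarith
  -- pointwise bound with D
  set R : Ω → ℝ := fun ω => a 0 * D ω + ∑ i ∈ Finset.range M, (Ev i).indicator (fun _ => 4 * a (i + 1)) ω +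
      (Ev M).indicator (fun _ => 4 * G) ω with hR
  have hDF : ∀ ω, D ω * F ω ≤ R ω := by
    intro ω
    have h1 := hptw M ω
    have h2 : D ω * F ω ≤ D ω * (a 0 + ∑ i ∈ Finset.range M, (Ev i).indicator (fun _ => a (i + 1)) ω +
      (Ev M).indicator (fun _ => G) ω) := mul_le_mul_of_nonneg_left h1 (hD0 ω)
    refine h2.trans ?_
    simp only [hR]
    rw [mul_add, mul_add]
    have h3 : D ω * a 0 = a 0 * D ω := mul_comm _ _
    have h4 : D ω * ∑ i ∈ Finset.range M, (Ev i).indicator (fun _ => a (i + 1)) ω ≤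
        ∑ i ∈ Finset.range M, (Ev i).indicator (fun _ => 4 * a (i + 1)) ω := by
      rw [Finset.mul_sum]
      refine Finset.sum_le_sum (fun i _ => ?_)
      by_cases h : ω ∈ Ev i
      · rw [Set.indicator_of_mem h, Set.indicator_of_mem h]
        exact mul_le_mul_of_nonneg_right (hD4 ω) (ha0 _)
      · rw [Set.indicator_of_notMem h, Set.indicator_of_notMem h]; simp
    have h5 : D ω * (Ev M).indicator (fun _ => G) ω ≤ (Ev M).indicator (fun _ => 4 * G) ω := by
      by_cases h : ω ∈ Ev M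
      · rw [Set.indicator_of_mem h, Set.indicator_of_mem h]
        exact mul_le_mul_of_nonneg_right (hD4 ω) hG0
      · rw [Set.indicator_of_notMem h, Set.indicator_of_notMem h]; simp
    linarith
  -- integrate
  have hDint : Integrable D P := Integrable.of_bound hDm.aestronglyMeasurable 4
    (Eventually.of_forall (fun ω => by
      rw [Real.norm_eq_abs, abs_of_nonneg (hD0 ω)]; exact hD4 ω))
  have hDFint : Integrable (fun ω => D ω * F ω) P := Integrable.of_bound (hDm.mul hFm).aestronglyMeasurable (4 * G)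
    (Eventually.of_forall (fun ω => by
      rw [Real.norm_eq_abs, abs_of_nonneg (mul_nonneg (hD0 ω) (hF0 ω))]
      exact mul_le_mul (hD4 ω) (hFG ω) (hF0 ω) (by norm_num)))
  have hint1 : Integrable (fun ω => a 0 * D ω) P := hDint.const_mul _
  have hint2 : Integrable (fun ω => ∑ i ∈ Finset.range M, (Ev i).indicator (fun _ => 4 * a (i + 1)) ω) P :=
    integrable_finsetSum _ (fun i _ => (integrable_const _).indicator (hEvm i))
  have hint3 : Integrable (fun ω => (Ev M).indicator (fun _ => 4 * G) ω) P :=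
    (integrable_const _).indicator (hEvm M)
  have hRint : ∫ ω, R ω ∂P = a 0 * ∫ ω, D ω ∂P + ∑ i ∈ Finset.range M, P.real (Ev i) * (4 * a (i + 1)) +
      P.real (Ev M) * (4 * G) := by
    simp only [hR]
    have e1 : ∫ ω, (a 0 * D ω + ∑ i ∈ Finset.range M, (Ev i).indicator (fun _ => 4 * a (i + 1)) ω) +
        (Ev M).indicator (fun _ => 4 * G) ω ∂P =
        ∫ ω, (a 0 * D ω + ∑ i ∈ Finset.range M, (Ev i).indicator (fun _ => 4 * a (i + 1)) ω) ∂P +
        ∫ ω, (Ev M).indicator (fun _ => 4 * G) ω ∂P := integral_add (hint1.add hint2) hint3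
    have e2 : ∫ ω, (a 0 * D ω + ∑ i ∈ Finset.range M, (Ev i).indicator (fun _ => 4 * a (i + 1)) ω) ∂P =
        ∫ ω, a 0 * D ω ∂P + ∫ ω, ∑ i ∈ Finset.range M, (Ev i).indicator (fun _ => 4 * a (i + 1)) ω ∂P :=
      integral_add hint1 hint2
    have e3 : ∫ ω, ∑ i ∈ Finset.range M, (Ev i).indicator (fun _ => 4 * a (i + 1)) ω ∂P =
        ∑ i ∈ Finset.range M, ∫ ω, (Ev i).indicator (fun _ => 4 * a (i + 1)) ω ∂P :=
      integral_finsetSum _ (fun i _ => (integrable_const _).indicator (hEvm i))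
    rw [e1, e2, e3, integral_const_mul, integral_indicator_const _ (hEvm M)]
    congr 2
    exact Finset.sum_congr rfl (fun i _ => by rw [integral_indicator_const _ (hEvm i)]; simp)
  have hmain : ∫ ω, D ω * F ω ∂P ≤ ∫ ω, R ω ∂P :=
    integral_mono hDFint ((hint1.add hint2).add hint3) hDF
  -- bound of the error terms
  have hp0 : 0 ≤ p := by linarith
  have herr1 : ∑ i ∈ Finset.range M, P.real (Ev i) * (4 * a (i + 1)) ≤ 128 * C₀ * Real.exp (-p / 2) := by
    have hterm : ∀ i ∈ Finset.range M, P.real (Ev i) * (4 * a (i + 1)) ≤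
        32 * C₀ * Real.exp (-p / 2) * Real.exp (-(1 / 2) * i) := by
      intro i _
      have hxi : (0:ℝ) ≤ p + i := by positivity
      have h1 := hprob i
      have h2 : 1 + Real.sqrt (p + ((i + 1 : ℕ):ℝ)) ≤ 2 * Real.exp ((p + i) / 2) := by
        have h3 : p + ((i + 1 : ℕ):ℝ) = p + i + 1 := by push_cast; ring
        rw [h3]
        have h4 : Real.sqrt (p + i + 1) ≤ 1 + (p + i) / 2 := by
          rw [Real.sqrt_le_left (by linarith)]; nlinarith
        have h5 := Real.add_one_le_exp ((p + (i:ℝ)) / 2)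
        linarith
      have h3 : a (i + 1) ≤ C₀ * (2 * Real.exp ((p + i) / 2)) := mul_le_mul_of_nonneg_left h2 hC₀.le
      have hEpos : 0 ≤ P.real (Ev i) := measureReal_nonneg
      calc P.real (Ev i) * (4 * a (i + 1))
          ≤ (4 * Real.exp (-(p + i))) * (4 * (C₀ * (2 * Real.exp ((p + i) / 2)))) :=
            mul_le_mul h1 (by linarith) (by have := ha0 (i + 1); linarith) (by positivity)
        _ = 32 * C₀ * (Real.exp (-(p + i)) * Real.exp ((p + i) / 2)) := by ring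
        _ = _ := by
          have h9 : Real.exp (-(p + i)) * Real.exp ((p + i) / 2) = Real.exp (-p / 2) * Real.exp (-(1 / 2) * i) := by
            rw [← Real.exp_add, ← Real.exp_add]; congr 1; ring
          rw [h9]; ring
    refine (Finset.sum_le_sum hterm).trans ?_
    rw [← Finset.mul_sum]
    have h2 := sum_exp_le (a := 1 / 2) (by norm_num) (by norm_num) M
    have hE := Real.exp_pos (-p / 2)
    calc 32 * C₀ * Real.exp (-p / 2) * ∑ i ∈ Finset.range M, Real.exp (-(1 / 2) * i)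
        ≤ 32 * C₀ * Real.exp (-p / 2) * (2 / (1 / 2)) :=
          mul_le_mul_of_nonneg_left h2 (by positivity)
      _ = _ := by ring
  have herr2 : P.real (Ev M) * (4 * G) ≤ Real.exp (-p / 2) := by
    have h1 := hprob M
    have hEpos : 0 ≤ P.real (Ev M) := measureReal_nonneg
    have hMn : (0:ℝ) ≤ M := by positivity
    have h2 : 16 * G * Real.exp (-(M:ℝ)) ≤ 1 := by
      have h3 := Real.add_one_le_exp ((M:ℝ))
      have hE : Real.exp (-(M:ℝ)) * Real.exp ((M:ℝ)) = 1 := by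
        rw [← Real.exp_add]; simp
      have hpos := Real.exp_pos (-(M:ℝ))
      have h4 : (M:ℝ) * Real.exp (-(M:ℝ)) ≤ 1 := by
        nlinarith
      calc 16 * G * Real.exp (-(M:ℝ)) ≤ M * Real.exp (-(M:ℝ)) :=
            mul_le_mul_of_nonneg_right hM hpos.le
        _ ≤ 1 := h4
    have h3 : Real.exp (-(p + M)) = Real.exp (-p) * Real.exp (-(M:ℝ)) := by
      rw [← Real.exp_add]; congr 1; ring
    have h4 : Real.exp (-p) ≤ Real.exp (-p / 2) := Real.exp_le_exp.mpr (by linarith)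
    have h5 := Real.exp_pos (-p)
    calc P.real (Ev M) * (4 * G) ≤ (4 * Real.exp (-(p + M))) * (4 * G) :=
          mul_le_mul_of_nonneg_right h1 (by positivity)
      _ = Real.exp (-p) * (16 * G * Real.exp (-(M:ℝ))) := by rw [h3]; ring
      _ ≤ Real.exp (-p) * 1 := mul_le_mul_of_nonneg_left h2 h5.le
      _ ≤ _ := by linarith
  -- conclude
  have hDint0 : 0 ≤ ∫ ω, D ω ∂P := integral_nonneg hD0
  have ha00 : a 0 = C₀ * (1 + Real.sqrt p) := by simp [ha]
  have hfinal : ∫ ω, D ω * F ω ∂P ≤ C₀ * (1 + Real.sqrt p) * ∫ ω, D ω ∂P + (128 * C₀ + 1) * Real.exp (-p / 2) := by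
    have := hmain
    rw [hRint, ha00] at this
    nlinarith
  refine hfinal.trans ?_
  have hS : 0 ≤ (1 + Real.sqrt p) * ∫ ω, D ω ∂P := by positivity
  have hEp := Real.exp_pos (-p / 2)
  nlinarith

end Crest.Agent.Lib.TI
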