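import Crest.Agent.Lib.TI.Run
import Crest.Agent.Lib.TI.Seq
import Crest.Agent.Lib.TI.Static
import Crest.Agent.Lib.FiidNoise
import Crest.Agent.Lib.TI.ConcreteExper
import Crest.Agent.Lib.TI.ConcreteLinkAux

/-!
# The concrete experiments and the law of the ball runs (S0241 project, module TI.Concrete)

The coordinates are `JJ V = Stg V ⊕ Stg V`: `inl c` is the label `U c` of the stage, `inr c` the observation `y c` of the stage.
`gS L κ ℓ x v s ω = ∏_{i=L}^{ℓ} (1 + a_i s)`, with `a_i = aY (κ i) (y (v, i))` if the stage `(v, i)` is active at the state `(ℓ, x)`, else `0`.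
-/

set_option autoImplicit false

namespace Crest.Agent.Lib.TI

open MeasureTheory Set Classical
open scoped unitInterval
open Crest.Agent.Lib.FiidChannel Crest.Agent.Lib.FiidPlanted Crest.ProbabilityR.TreeIsing

variable {V : Type*}

variable {L : ℤ} {κ : ℤ → ℝ} {ℓ : ℤ} {x : ℝ}

variable (G : SimpleGraph V) [G.LocallyFinite] {q : ℕ} {θ : ℝ}

/-- The cavity field of the means. -/
noncomputable def cavM (θ : ℝ) (m : V → ℝ) (x y : V) : ℝ := cav θ (m x) (m y)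

/-- The shell of a vector of means. -/
noncomputable def shellM (θ : ℝ) (m : V → ℝ) (l : ℕ) (a b : V) : ℝ :=
  ∑ u ∈ level G l a b, pathProd G (fun x y => rr θ (m x) (m y)) b u ^ 2

variable {G}

section link

variable (hG : RegTree G q) (hκ : Sched κ) (hθ : Adm θ)
include hG hκ hθ

/-- **The law of a ball run.** `F` is a functional of the vertex functions on `W`. -/
theorem law_gSt (hx0 : 0 ≤ x) (hx : x ≤ 1 / 2) {W : Finset V} {o : V} (hW : Star G W o)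
    {F : (V → Bool → ℝ) → ℝ} (hF : ∀ g g' : V → Bool → ℝ, (∀ v ∈ W, ∀ s, g v s = g' v s) → F g = F g')
    (hFm : BM (fun q : (Stg V → I) × (Stg V → I) => F (gA κ (Act W L q.1 ℓ x) q.2))) :
    ∫ q, F (gSt G θ W L κ ℓ x q.1 q.2) ∂noiseP V =
      ∫ ω, F (fun v s => gS L κ ℓ x v s ω) * Zg G θ W (fun v s => gS L κ ℓ x v s ω) ∂Lam (JJ V) := by
  have hθ1 := LinkAux.abs_lt_one hθ
  have h1 := run_law (G := G) (θ := θ) (W := W) (L := L) (κ := κ) (ℓ := ℓ) (x := x) hκ hθ1 (Zg_one hG hθ1 hW) hx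
    (φ := fun U y => F (gA κ (Act W L U ℓ x) y)) hFm
    (fun U y y' hy => by
      show F (gA κ (Act W L U ℓ x) y) = F (gA κ (Act W L U ℓ x) y')
      rw [gA_congr hy])
  have h2 := integral_noiseP (V := V)
    (Φ := fun q => F (gA κ (Act W L q.1 ℓ x) q.2) * Zg G θ W (gA κ (Act W L q.1 ℓ x) q.2))
    (hFm.1.mul (measurable_Zg fun v s => LinkAux.measurable_gA_Act W L κ ℓ x v s))
  refine h1.trans (h2.trans ?_)
  refine integral_congr_ae (Filter.Eventually.of_forall fun ω => ?_)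
  have hag : ∀ v ∈ W, ∀ s, gA κ (Act W L (uOf ω) ℓ x) (yOf ω) v s = gS L κ ℓ x v s ω :=
    fun v hv s => gA_eq_gS ω hv s
  show F _ * Zg _ _ _ _ = F _ * Zg _ _ _ _
  rw [hF _ _ hag, Zg_congr hag]

/-- **The law of the cavity fields in a ball**, for an outward edge. -/
theorem law_cav (hx0 : 0 ≤ x) (hx : x ≤ 1 / 2) {c a b : V} {R : ℕ} (hab : G.Adj a b) (hd : G.dist c b = G.dist c a + 1)
    (hR : G.dist c b ≤ R) {Ψ : ℝ → ℝ} (hΨ : BM Ψ) :
    ∫ q, Ψ (cavM θ (mSt G θ (ball G c R) L κ ℓ x q.1 q.2) a b) ∂noiseP V =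
      Jt G θ (gS L κ ℓ x) (R - G.dist c b) a b (fun ω => Ψ (Tω G θ (gS L κ ℓ x) (R - G.dist c b) a b ω)) := by
  have hE := exper_gS (V := V) (L := L) (κ := κ) (ℓ := ℓ) (x := x) hκ hx0 hx
  have hW : Star G (ball G c R) b := star_ball hG ((mem_ball hG c R b).2 hR)
  have hm : ∀ u, Measurable (fun q : (Stg V → I) × (Stg V → I) => mv G θ (ball G c R) (gA κ (Act (ball G c R) L q.1 ℓ x) q.2) u) :=
    fun u => measurable_mv (fun v s => LinkAux.measurable_gA_Act _ L κ ℓ x v s) u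
  have hcomp := (measurable_cav θ).comp ((hm a).prodMk (hm b))
  have h1 := law_gSt hG hκ hθ (L := L) (ℓ := ℓ) hx0 hx hW
    (F := fun g => Ψ (cav θ (mv G θ (ball G c R) g a) (mv G θ (ball G c R) g b)))
    (fun g g' hgg => by
      show Ψ _ = Ψ _
      rw [mv_congr hgg a, mv_congr hgg b])
    (hΨ.comp hcomp)
  have h2 := integral_Zg_subT hG hθ hE hW hab (subT_subset_ball hG hab hd hR)
    (F := fun ω => Ψ (Tω G θ (gS L κ ℓ x) (R - G.dist c b) a b ω))
    (hΨ.comp (Tω_bm hG hθ hE).1) ((Tω_dep hG hθ hE hab).comp Ψ)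
  refine Eq.trans h1 (Eq.trans ?_ h2)
  refine integral_congr_ae (Filter.Eventually.of_forall fun ω => ?_)
  show Ψ _ * _ = _ * Ψ _
  have hpos : PosG (fun v s => gS L κ ℓ x v s ω) := fun v s => by
    obtain ⟨c', hc', h'⟩ := hE.lb
    exact lt_of_lt_of_le hc' (h' v s ω)
  rw [cav_ball hG hθ hpos hab hd hR, mul_comm]
  rfl

/-- Shells of the means in a ball are the static shells. -/
theorem shellM_eq {g : V → Bool → ℝ} (hg : PosG g) {c a b : V} {R : ℕ} (hab : G.Adj a b) (hd : G.dist c b = G.dist c a + 1)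
    {l : ℕ} (hR : G.dist c b + l ≤ R) :
    shellM G θ (mv G θ (ball G c R) g) l a b = Shs G θ g l (R - G.dist c b) a b := by
  induction l generalizing a b with
  | zero =>
    simp [shellM, level, Shs, pathProd_self hG]
  | succ l ih =>
    have hlev : level G (l + 1) a b = (kids G a b).biUnion (level G l b) := rfl
    have hdisj : (↑(kids G a b) : Set V).PairwiseDisjoint (level G l b) := by
      intro c₁ hc₁ c₂ hc₂ hne
      refine Finset.disjoint_left.2 fun y hy hy' => hne ?_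
      have hbc₁ : G.Adj b c₁ := by simpa using (Finset.mem_erase.1 hc₁).2
      have hbc₂ : G.Adj b c₂ := by simpa using (Finset.mem_erase.1 hc₂).2
      obtain ⟨h1, h2⟩ := (mem_level hG hbc₁ l y).1 hy
      obtain ⟨h1', h2'⟩ := (mem_level hG hbc₂ l y).1 hy'
      exact unique_step (u := y) hG hbc₁ (by omega) hbc₂ (by omega)
    unfold shellM
    rw [hlev, Finset.sum_biUnion hdisj]
    show _ = ∑ d ∈ kids G a b, θ ^ 2 * om θ (Tt G θ g (R - G.dist c b - 1) b d) ^ 2 * Shs G θ g l (R - G.dist c b - 1) b d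
    refine Finset.sum_congr rfl fun d hd' => ?_
    have hbd : G.Adj b d := by simpa using (Finset.mem_erase.1 hd').2
    have hda : d ≠ a := (Finset.mem_erase.1 hd').1
    have hdist : G.dist c d = G.dist c b + 1 := by
      have e1 : G.dist a c + 1 = G.dist b c := by
        rw [SimpleGraph.dist_comm (u := a), SimpleGraph.dist_comm (u := b)]
        omega
      have h1 : a = nxt G b c := eq_nxt_of hG hab.symm e1
      have h2 := dist_of_ne_nxt hG hbd (u := c) (by rw [← h1]; exact hda)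
      rw [SimpleGraph.dist_comm (u := c), SimpleGraph.dist_comm (u := c)]
      exact h2
    have ih' := ih hbd hdist (by omega)
    have hn : R - G.dist c d = R - G.dist c b - 1 := by omega
    rw [← hn, ← ih']
    unfold shellM
    rw [Finset.mul_sum]
    refine Finset.sum_congr rfl fun u hu => ?_
    obtain ⟨h3, h4⟩ := (mem_level hG hbd l u).1 hu
    have hne : b ≠ u := by
      rintro rfl
      simp at h4
    have hnxt : nxt G b u = d := (eq_nxt_of hG hbd (by omega)).symm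
    rw [pathProd_cons hG _ hne, hnxt, mul_pow]
    congr 1
    show (θ * om θ (cav θ _ _)) ^ 2 = _
    rw [cav_ball hG hθ hg hbd hdist (by omega)]
    ring

/-- **The law of the shells in a ball.** -/
theorem law_shell (hx0 : 0 ≤ x) (hx : x ≤ 1 / 2) {c a b : V} {R : ℕ} (hab : G.Adj a b) (hd : G.dist c b = G.dist c a + 1)
    {l : ℕ} (hR : G.dist c b + l ≤ R) {Ψ : ℝ → ℝ} (hΨ : BM Ψ) :
    ∫ q, Ψ (shellM G θ (mSt G θ (ball G c R) L κ ℓ x q.1 q.2) l a b) ∂noiseP V =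
      Jt G θ (gS L κ ℓ x) (R - G.dist c b) a b
        (fun ω => Ψ (Shω (G := G) (θ := θ) (g := gS L κ ℓ x) l (R - G.dist c b) a b ω)) := by
  have hE := exper_gS (V := V) (L := L) (κ := κ) (ℓ := ℓ) (x := x) hκ hx0 hx
  have hRb : G.dist c b ≤ R := by omega
  have hW : Star G (ball G c R) b := star_ball hG ((mem_ball hG c R b).2 hRb)
  have hm : ∀ u, Measurable (fun q : (Stg V → I) × (Stg V → I) => mv G θ (ball G c R) (gA κ (Act (ball G c R) L q.1 ℓ x) q.2) u) :=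
    fun u => measurable_mv (fun v s => LinkAux.measurable_gA_Act _ L κ ℓ x v s) u
  have hmS : Measurable (fun q : (Stg V → I) × (Stg V → I) =>
      shellM G θ (mv G θ (ball G c R) (gA κ (Act (ball G c R) L q.1 ℓ x) q.2)) l a b) := by
    have hpp : ∀ u, Measurable (fun q : (Stg V → I) × (Stg V → I) =>
        pathProd G (fun x' y' => rr θ (mv G θ (ball G c R) (gA κ (Act (ball G c R) L q.1 ℓ x) q.2) x')
          (mv G θ (ball G c R) (gA κ (Act (ball G c R) L q.1 ℓ x) q.2) y')) b u) := by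
      intro u
      have h : (fun q : (Stg V → I) × (Stg V → I) =>
          pathProd G (fun x' y' => rr θ (mv G θ (ball G c R) (gA κ (Act (ball G c R) L q.1 ℓ x) q.2) x')
            (mv G θ (ball G c R) (gA κ (Act (ball G c R) L q.1 ℓ x) q.2) y')) b u) =
          fun q => ∏ j ∈ Finset.range (G.dist b u), rr θ (mv G θ (ball G c R) (gA κ (Act (ball G c R) L q.1 ℓ x) q.2) (geo G b u j))
            (mv G θ (ball G c R) (gA κ (Act (ball G c R) L q.1 ℓ x) q.2) (geo G b u (j + 1))) :=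
        funext fun q => pathProd_eq_prod hG _ b u
      rw [h]
      refine Finset.measurable_prod _ fun j _ => ?_
      have h3 := (measurable_rr θ).comp ((hm (geo G b u j)).prodMk (hm (geo G b u (j + 1))))
      exact h3
    have h2 : (fun q : (Stg V → I) × (Stg V → I) =>
        shellM G θ (mv G θ (ball G c R) (gA κ (Act (ball G c R) L q.1 ℓ x) q.2)) l a b) =
        fun q => ∑ u ∈ level G l a b, (pathProd G (fun x' y' => rr θ (mv G θ (ball G c R) (gA κ (Act (ball G c R) L q.1 ℓ x) q.2) x')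
          (mv G θ (ball G c R) (gA κ (Act (ball G c R) L q.1 ℓ x) q.2) y')) b u) ^ 2 := rfl
    rw [h2]
    exact Finset.measurable_sum _ fun u _ => (hpp u).pow_const 2
  have h1 := law_gSt hG hκ hθ (L := L) (ℓ := ℓ) hx0 hx hW
    (F := fun g => Ψ (shellM G θ (mv G θ (ball G c R) g) l a b))
    (fun g g' hgg => by
      have : mv G θ (ball G c R) g = mv G θ (ball G c R) g' := funext (mv_congr hgg)
      show Ψ _ = Ψ _
      rw [this])
    (hΨ.comp hmS)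
  have h2 := integral_Zg_subT hG hθ hE hW hab (subT_subset_ball hG hab hd hRb)
    (F := fun ω => Ψ (Shω (G := G) (θ := θ) (g := gS L κ ℓ x) l (R - G.dist c b) a b ω))
    (hΨ.comp (Shω_bm hG hθ hE l).1) ((Shω_dep hG hθ hE l (by omega) hab).comp Ψ)
  refine Eq.trans h1 (Eq.trans ?_ h2)
  refine integral_congr_ae (Filter.Eventually.of_forall fun ω => ?_)
  show Ψ _ * _ = _ * Ψ _
  have hpos : PosG (fun v s => gS L κ ℓ x v s ω) := fun v s => by
    obtain ⟨c', hc', h'⟩ := hE.lb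
    exact lt_of_lt_of_le hc' (h' v s ω)
  rw [shellM_eq hG hκ hθ hpos hab hd hR, mul_comm]
  rfl

/-- Own observations in a ball. -/
theorem one_sub_mSt_sq_le (hx0 : 0 ≤ x) (hx : x ≤ 1 / 2) (hL : L ≤ ℓ) {W : Finset V} {o : V} (hW : Star G W o) :
    ∫ q, (1 - mSt G θ W L κ ℓ x q.1 q.2 o ^ 2) ∂noiseP V ≤ Real.exp (-tauM L κ ℓ x / 2) := by
  have hθ1 := LinkAux.abs_lt_one hθ
  have hE := exper_gS (V := V) (L := L) (ℓ := ℓ) hκ hx0 hx
  have hB := expBd_gS (V := V) hκ hx0 hx hL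
  have hm : Measurable (fun q : (Stg V → I) × (Stg V → I) => mv G θ W (gA κ (Act W L q.1 ℓ x) q.2) o) :=
    measurable_mv (fun v s => LinkAux.measurable_gA_Act W L κ ℓ x v s) o
  have hFm : BM (fun q : (Stg V → I) × (Stg V → I) => 1 - mv G θ W (gA κ (Act W L q.1 ℓ x) q.2) o ^ 2) := by
    refine ⟨measurable_const.sub (hm.pow_const 2), 1, fun q => ?_⟩
    have h1 := abs_mv_le (G := G) (W := W) hθ1 (gA_pos hκ (Act W L q.1 ℓ x) q.2) o
    have h2 : mv G θ W (gA κ (Act W L q.1 ℓ x) q.2) o ^ 2 ≤ 1 := (sq_le_one_iff_abs_le_one _).2 h1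
    have h3 := sq_nonneg (mv G θ W (gA κ (Act W L q.1 ℓ x) q.2) o)
    rw [abs_le]
    constructor <;> linarith
  have hlaw := law_gSt hG hκ hθ hx0 hx hW (F := fun g => 1 - mv G θ W g o ^ 2)
    (fun g g' h => by simp only [mv_congr h]) hFm
  have e1 : ∫ q, (1 - mSt G θ W L κ ℓ x q.1 q.2 o ^ 2) ∂noiseP V =
      ∫ q, (1 - mv G θ W (gSt G θ W L κ ℓ x q.1 q.2) o ^ 2) ∂noiseP V := rfl
  rw [e1, hlaw]
  simp_rw [mul_comm (1 - mv G θ W (fun v s => gS L κ ℓ x v s _) o ^ 2)]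
  exact one_sub_mv_sq_le hG hθ hE hW hB

/-- Two successive states: the mean moves little when the own observations are strong. Here `ℓ ≤ ℓ'` are two cell
indices, `x = x' = 0`. -/
theorem mSt_cell_diff (hL : L ≤ ℓ) {ℓ' : ℤ} (hℓ : ℓ ≤ ℓ') {W : Finset V} {o : V} (hW : Star G W o) :
    ∫ q, (mSt G θ W L κ ℓ' 0 q.1 q.2 o - mSt G θ W L κ ℓ 0 q.1 q.2 o) ^ 2 ∂noiseP V ≤
      4 * Real.exp (-tauM L κ ℓ 0 / 2) := by
  have hθ1 := LinkAux.abs_lt_one hθ
  have h0 : (0:ℝ) ≤ 0 := le_rfl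
  have h12 : (0:ℝ) ≤ 1 / 2 := by norm_num
  have hE := exper_gS (V := V) (L := L) (ℓ := ℓ) hκ h0 h12
  have hE' := exper_gS (V := V) (L := L) (ℓ := ℓ') hκ h0 h12
  have hB := expBd_gS (V := V) hκ h0 h12 hL
  -- the functional on the noise space
  have hm : ∀ ℓ₀ : ℤ, Measurable (fun q : (Stg V → I) × (Stg V → I) => mv G θ W (gA κ (Act W L q.1 ℓ₀ 0) q.2) o) :=
    fun ℓ₀ => measurable_mv (fun v s => LinkAux.measurable_gA_Act W L κ ℓ₀ 0 v s) o
  have hb : ∀ (ℓ₀ : ℤ) (q : (Stg V → I) × (Stg V → I)), |mv G θ W (gA κ (Act W L q.1 ℓ₀ 0) q.2) o| ≤ 1 :=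
    fun ℓ₀ q => abs_mv_le hθ1 (gA_pos hκ _ _) o
  have hφ : BM (fun q : (Stg V → I) × (Stg V → I) =>
      (mv G θ W (gA κ (Act W L q.1 ℓ' 0) q.2) o - mv G θ W (gA κ (Act W L q.1 ℓ 0) q.2) o) ^ 2) := by
    refine ⟨((hm ℓ').sub (hm ℓ)).pow_const 2, 4, fun q => ?_⟩
    have h1 := abs_le.mp (hb ℓ' q)
    have h2 := abs_le.mp (hb ℓ q)
    rw [abs_of_nonneg (sq_nonneg _)]
    nlinarith [h1.1, h1.2, h2.1, h2.2]
  have hdep : ∀ U, Dep (fun y => (mv G θ W (gA κ (Act W L U ℓ' 0) y) o - mv G θ W (gA κ (Act W L U ℓ 0) y) o) ^ 2)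
      (Act W L U ℓ' 0) := by
    intro U y y' h
    show (_ - _) ^ 2 = (_ - _) ^ 2
    rw [gA_congr h, gA_congr (fun c hc => h c (LinkAux.Act_zero_mono hℓ hc))]
  have hrun := run_law (G := G) (θ := θ) (W := W) (L := L) (κ := κ) (ℓ := ℓ') (x := 0) hκ hθ1 (Zg_one hG hθ1 hW) h12
    (φ := fun U y => (mv G θ W (gA κ (Act W L U ℓ' 0) y) o - mv G θ W (gA κ (Act W L U ℓ 0) y) o) ^ 2) hφ hdep
  have hmZ : Measurable (fun q : (Stg V → I) × (Stg V → I) => Zg G θ W (gA κ (Act W L q.1 ℓ' 0) q.2)) :=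
    measurable_Zg (fun v s => LinkAux.measurable_gA_Act W L κ ℓ' 0 v s)
  have e1 : ∫ q, (mSt G θ W L κ ℓ' 0 q.1 q.2 o - mSt G θ W L κ ℓ 0 q.1 q.2 o) ^ 2 ∂noiseP V =
      ∫ ω, (mv G θ W (fun v s => gS L κ ℓ' 0 v s ω) o - mv G θ W (fun v s => gS L κ ℓ 0 v s ω) o) ^ 2 *
        Zg G θ W (fun v s => gS L κ ℓ' 0 v s ω) ∂Lam (JJ V) := by
    refine hrun.trans ?_
    rw [integral_noiseP (Φ := fun q => (mv G θ W (gA κ (Act W L q.1 ℓ' 0) q.2) o -
      mv G θ W (gA κ (Act W L q.1 ℓ 0) q.2) o) ^ 2 * Zg G θ W (gA κ (Act W L q.1 ℓ' 0) q.2)) (hφ.1.mul hmZ)]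
    refine integral_congr_ae (Filter.Eventually.of_forall fun ω => ?_)
    have h1 : ∀ ℓ₀ : ℤ, ∀ v ∈ W, ∀ s, gA κ (Act W L (uOf ω) ℓ₀ 0) (yOf ω) v s = gS L κ ℓ₀ 0 v s ω :=
      fun ℓ₀ v hv s => gA_eq_gS ω hv s
    show (mv G θ W (gA κ (Act W L (uOf ω) ℓ' 0) (yOf ω)) o - mv G θ W (gA κ (Act W L (uOf ω) ℓ 0) (yOf ω)) o) ^ 2 *
        Zg G θ W (gA κ (Act W L (uOf ω) ℓ' 0) (yOf ω)) = _
    rw [mv_congr (h1 ℓ'), mv_congr (h1 ℓ), Zg_congr (h1 ℓ')]
  rw [e1]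
  -- abbreviations
  have hp : ∀ ℓ₀ ω, PosG (fun v s => gS (V := V) L κ ℓ₀ 0 v s ω) := fun ℓ₀ ω v s => gS_pos hκ v s ω
  have hbm : ∀ ℓ₀ v s, BM (gS (V := V) L κ ℓ₀ 0 v s) := fun ℓ₀ v s => bm_gS hκ v s
  set M : (JJ V → I) → ℝ := fun ω => mv G θ W (fun v s => gS L κ ℓ 0 v s ω) o with hM
  have hMb : BM M := LinkAux.bm_mv hθ1 (hbm ℓ) (hp ℓ) W o
  have hMd : DepS M (LinkAux.loB ℓ) := by
    intro ω ω' h
    show mv G θ W _ o = mv G θ W _ o
    rw [mv_congr (fun v _ s => LinkAux.dep_gS_lo hL v s ω ω' h)]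
  -- the test functions
  have hΨ : ∀ τ : V → Bool, BM (fun ω => (spin (τ o) - M ω) ^ 2) := fun τ => by
    have := ((BM.const (spin (τ o))).sub hMb)
    simpa [pow_two] using this.mul this
  have hΨd : ∀ τ : V → Bool, DepS (fun ω => (spin (τ o) - M ω) ^ 2) (LinkAux.loB ℓ) := fun τ ω ω' h => by
    show (_ - _) ^ 2 = (_ - _) ^ 2
    rw [hMd ω ω' h]
  have hR : ∀ ℓ₀ : ℤ, ∀ τ : V → Bool, BM (fun ω => wt G θ W (fun v s => gS L κ ℓ₀ 0 v s ω) τ * (spin (τ o) - M ω) ^ 2) :=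
    fun ℓ₀ τ => (LinkAux.bm_wt (hbm ℓ₀) W τ).mul (hΨ τ)
  -- integrate out the later cells
  have hI : ∫ ω, sumW W (fun τ => wt G θ W (fun v s => gS L κ ℓ' 0 v s ω) τ * (spin (τ o) - M ω) ^ 2) ∂Lam (JJ V) =
      ∫ ω, sumW W (fun τ => wt G θ W (fun v s => gS L κ ℓ 0 v s ω) τ * (spin (τ o) - M ω) ^ 2) ∂Lam (JJ V) := by
    rw [LinkAux.integral_sumW (hR ℓ'), LinkAux.integral_sumW (hR ℓ)]
    exact sumW_congr fun τ => LinkAux.integral_wt_refine hκ hL hℓ W τ (hΨ τ) (hΨd τ)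
  have hIb : BM (fun ω => sumW W (fun τ => wt G θ W (fun v s => gS L κ ℓ' 0 v s ω) τ * (spin (τ o) - M ω) ^ 2)) := by
    unfold sumW
    exact BM.finset_sum _ fun A _ => hR ℓ' _
  have hZ' := LinkAux.bm_Zg (G := G) (θ := θ) (hbm ℓ') W
  have hZ := LinkAux.bm_Zg (G := G) (θ := θ) (hbm ℓ) W
  have hM' : BM (fun ω => mv G θ W (fun v s => gS L κ ℓ' 0 v s ω) o) := LinkAux.bm_mv hθ1 (hbm ℓ') (hp ℓ') W o
  -- pointwise comparison
  have hle : ∀ ω, (mv G θ W (fun v s => gS L κ ℓ' 0 v s ω) o - M ω) ^ 2 * Zg G θ W (fun v s => gS L κ ℓ' 0 v s ω) ≤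
      sumW W (fun τ => wt G θ W (fun v s => gS L κ ℓ' 0 v s ω) τ * (spin (τ o) - M ω) ^ 2) := by
    intro ω
    rw [LinkAux.sumW_wt_sq hθ1 (hp ℓ' ω)]
    have hZp := Zg_pos (G := G) (W := W) hθ1 (hp ℓ' ω)
    have h1 := abs_mv_le (G := G) (W := W) hθ1 (hp ℓ' ω) o
    have h2 : mv G θ W (fun v s => gS L κ ℓ' 0 v s ω) o ^ 2 ≤ 1 := (sq_le_one_iff_abs_le_one _).2 h1
    rw [mul_comm]
    refine mul_le_mul_of_nonneg_left ?_ hZp.le
    nlinarith
  have hfin : ∫ ω, sumW W (fun τ => wt G θ W (fun v s => gS L κ ℓ 0 v s ω) τ * (spin (τ o) - M ω) ^ 2) ∂Lam (JJ V) =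
      ∫ ω, Zg G θ W (fun v s => gS L κ ℓ 0 v s ω) * (1 - mv G θ W (fun v s => gS L κ ℓ 0 v s ω) o ^ 2) ∂Lam (JJ V) := by
    refine integral_congr_ae (Filter.Eventually.of_forall fun ω => ?_)
    show sumW W (fun τ => wt G θ W (fun v s => gS L κ ℓ 0 v s ω) τ * (spin (τ o) - M ω) ^ 2) = _
    rw [LinkAux.sumW_wt_sq hθ1 (hp ℓ ω)]
    have : M ω = mv G θ W (fun v s => gS L κ ℓ 0 v s ω) o := rfl
    rw [this]
    ring
  have hmain := one_sub_mv_sq_le hG hθ hE hW hB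
  have hexp := Real.exp_pos (-tauM L κ ℓ 0 / 2)
  calc ∫ ω, (mv G θ W (fun v s => gS L κ ℓ' 0 v s ω) o - M ω) ^ 2 * Zg G θ W (fun v s => gS L κ ℓ' 0 v s ω) ∂Lam (JJ V)
      ≤ ∫ ω, sumW W (fun τ => wt G θ W (fun v s => gS L κ ℓ' 0 v s ω) τ * (spin (τ o) - M ω) ^ 2) ∂Lam (JJ V) := by
        refine integral_mono ?_ (hIb.integrable _) hle
        have h3 := (hM'.sub hMb)
        have h4 := (h3.mul h3).mul hZ'
        refine (h4.integrable _).congr (Filter.Eventually.of_forall fun ω => ?_)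
        show _ * _ * _ = _ ^ 2 * _
        ring
    _ = ∫ ω, Zg G θ W (fun v s => gS L κ ℓ 0 v s ω) * (1 - mv G θ W (fun v s => gS L κ ℓ 0 v s ω) o ^ 2) ∂Lam (JJ V) := by
        rw [hI, hfin]
    _ ≤ Real.exp (-tauM L κ ℓ 0 / 2) := hmain
    _ ≤ 4 * Real.exp (-tauM L κ ℓ 0 / 2) := by linarith

/-- Spin pattern under the planted measure: the expectation of the product of the means is close to the Ising weight. -/
theorem pattern_planted {W S : Finset V} {o : V} (hW : Star G W o) (hS : Star G S o) (hSW : S ⊆ W)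
    (hL : L ≤ ℓ) (η : V → Bool) :
    |∫ q, ∏ v ∈ S, ((1 + spin (η v) * mSt G θ W L κ ℓ 0 q.1 q.2 v) / 2) ∂noiseP V - isingWeight G θ S η| ≤
      S.card * Real.exp (-tauM L κ ℓ 0 / 2) := by
  have hθ1 := LinkAux.abs_lt_one hθ
  have h0 : (0:ℝ) ≤ 0 := le_rfl
  have h12 : (0:ℝ) ≤ 1 / 2 := by norm_num
  have hE := exper_gS (V := V) (L := L) (ℓ := ℓ) hκ h0 h12
  have hB := expBd_gS (V := V) hκ h0 h12 hL
  have hp : ∀ ω, PosG (fun v s => gS (V := V) L κ ℓ 0 v s ω) := fun ω v s => gS_pos hκ v s ω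
  have hbm : ∀ v s, BM (gS (V := V) L κ ℓ 0 v s) := fun v s => bm_gS hκ v s
  -- factors in `[0, 1]`
  have hfac : ∀ {m t : ℝ}, |m| ≤ 1 → |t| = 1 → |(1 + t * m) / 2| ≤ 1 := by
    intro m t hm ht
    have h1 : |t * m| ≤ 1 := by rw [abs_mul, ht, one_mul]; exact hm
    obtain ⟨h2, h3⟩ := abs_le.mp h1
    rw [abs_le]
    constructor <;> linarith
  -- the functional
  have hFm : BM (fun q : (Stg V → I) × (Stg V → I) =>
      ∏ v ∈ S, ((1 + spin (η v) * mv G θ W (gA κ (Act W L q.1 ℓ 0) q.2) v) / 2)) := by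
    refine BM.finset_prod S fun v _ => ⟨?_, 1, fun q => ?_⟩
    · have hm : Measurable (fun q : (Stg V → I) × (Stg V → I) => mv G θ W (gA κ (Act W L q.1 ℓ 0) q.2) v) :=
        measurable_mv (fun v s => LinkAux.measurable_gA_Act W L κ ℓ 0 v s) v
      exact ((hm.const_mul _).const_add _).div_const _
    · exact hfac (abs_mv_le hθ1 (gA_pos hκ _ _) v) (abs_spin _)
  have hlaw := law_gSt hG hκ hθ h0 h12 hW
    (F := fun g => ∏ v ∈ S, ((1 + spin (η v) * mv G θ W g v) / 2))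
    (fun g g' h => by simp only [mv_congr h]) hFm
  have e1 : ∫ q, ∏ v ∈ S, ((1 + spin (η v) * mSt G θ W L κ ℓ 0 q.1 q.2 v) / 2) ∂noiseP V =
      ∫ q, ∏ v ∈ S, ((1 + spin (η v) * mv G θ W (gSt G θ W L κ ℓ 0 q.1 q.2) v) / 2) ∂noiseP V := rfl
  rw [e1, hlaw]
  -- the indicator in terms of spins
  have hind : ∀ τ : V → Bool, (if ∀ v ∈ S, τ v = η v then (1:ℝ) else 0) =
      ∏ v ∈ S, ((1 + spin (η v) * spin (τ v)) / 2) := by
    intro τ
    have h1 : ∀ v, (1 + spin (η v) * spin (τ v)) / 2 = if τ v = η v then 1 else 0 := by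
      intro v
      cases h : τ v <;> cases h' : η v <;> simp [spin]
    simp_rw [h1]
    rw [Finset.prod_ite_zero]
    simp
  -- the Ising weight as an integral
  set Fω : (JJ V → I) → ℝ := fun ω => ∏ v ∈ S, ((1 + spin (η v) * mv G θ W (fun v s => gS L κ ℓ 0 v s ω) v) / 2) with hFω
  have hmv : ∀ v, BM (fun ω => mv G θ W (fun v s => gS L κ ℓ 0 v s ω) v) :=
    fun v => LinkAux.bm_mv hθ1 hbm hp W v
  have hFb : BM Fω := BM.finset_prod S fun v _ =>
    ⟨(((hmv v).1.const_mul _).const_add _).div_const _, 1, fun ω => hfac (abs_mv_le hθ1 (hp ω) v) (abs_spin _)⟩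
  have hZb := LinkAux.bm_Zg (G := G) (θ := θ) hbm W
  have hIb : ∀ τ : V → Bool, BM (fun ω => wt G θ W (fun v s => gS L κ ℓ 0 v s ω) τ *
      (if ∀ v ∈ S, τ v = η v then (1:ℝ) else 0)) := fun τ => (LinkAux.bm_wt hbm W τ).mul (BM.const _)
  have hI1 : isingWeight G θ S η = ∫ ω, sumW W (fun τ => wt G θ W (fun v s => gS L κ ℓ 0 v s ω) τ *
      (if ∀ v ∈ S, τ v = η v then (1:ℝ) else 0)) ∂Lam (JJ V) := by
    rw [LinkAux.integral_sumW hIb, ← pattern_prob hG hSW hW hS hθ1 η]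
    refine sumW_congr fun τ => ?_
    rw [integral_mul_const, LinkAux.integral_wt hE]
  have hSb : BM (fun ω => sumW W (fun τ => wt G θ W (fun v s => gS L κ ℓ 0 v s ω) τ *
      (if ∀ v ∈ S, τ v = η v then (1:ℝ) else 0))) := by
    unfold sumW
    exact BM.finset_sum _ fun A _ => hIb _
  have hF1 : BM (fun ω => Fω ω * Zg G θ W (fun v s => gS L κ ℓ 0 v s ω)) := hFb.mul hZb
  -- the pointwise bound
  have hpt : ∀ ω, |Fω ω * Zg G θ W (fun v s => gS L κ ℓ 0 v s ω) -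
      sumW W (fun τ => wt G θ W (fun v s => gS L κ ℓ 0 v s ω) τ * (if ∀ v ∈ S, τ v = η v then (1:ℝ) else 0))| ≤
      ∑ v ∈ S, (1 / 2) * (Zg G θ W (fun v s => gS L κ ℓ 0 v s ω) *
        (1 - mv G θ W (fun v s => gS L κ ℓ 0 v s ω) v ^ 2)) := by
    intro ω
    set h : V → Bool → ℝ := fun v s => gS L κ ℓ 0 v s ω with hh
    have hpos : ∀ τ, 0 < wt G θ W h τ := fun τ => wt_pos hθ1 (hp ω) τ
    have e1 : Fω ω * Zg G θ W h - sumW W (fun τ => wt G θ W h τ * (if ∀ v ∈ S, τ v = η v then (1:ℝ) else 0)) =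
        sumW W (fun τ => wt G θ W h τ * (Fω ω - (if ∀ v ∈ S, τ v = η v then (1:ℝ) else 0))) := by
      have : Fω ω * Zg G θ W h = sumW W (fun τ => Fω ω * wt G θ W h τ) := (sumW_mul_left _).symm
      rw [this]
      unfold sumW
      rw [← Finset.sum_sub_distrib]
      exact Finset.sum_congr rfl fun _ _ => by ring
    rw [e1]
    refine abs_sumW_le.trans ?_
    have e2 : ∀ τ : V → Bool, |wt G θ W h τ * (Fω ω - (if ∀ v ∈ S, τ v = η v then (1:ℝ) else 0))| ≤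
        ∑ v ∈ S, (1 / 2) * (wt G θ W h τ * |mv G θ W h v - spin (τ v)|) := by
      intro τ
      rw [abs_mul, abs_of_pos (hpos τ), hind τ]
      have h3 := LinkAux.abs_prod_sub_prod_le S
        (fun v => (1 + spin (η v) * mv G θ W h v) / 2) (fun v => (1 + spin (η v) * spin (τ v)) / 2)
        (fun v _ => hfac (abs_mv_le hθ1 (hp ω) v) (abs_spin _))
        (fun v _ => hfac (le_of_eq (abs_spin _)) (abs_spin _))
      have h4 : ∑ v ∈ S, |(1 + spin (η v) * mv G θ W h v) / 2 - (1 + spin (η v) * spin (τ v)) / 2| =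
          ∑ v ∈ S, (1 / 2) * |mv G θ W h v - spin (τ v)| := by
        refine Finset.sum_congr rfl fun v _ => ?_
        have : (1 + spin (η v) * mv G θ W h v) / 2 - (1 + spin (η v) * spin (τ v)) / 2 =
            (1 / 2) * (spin (η v) * (mv G θ W h v - spin (τ v))) := by ring
        rw [this, abs_mul, abs_mul, abs_spin, one_mul, abs_of_pos (by norm_num : (0:ℝ) < 1 / 2)]
      rw [h4] at h3
      have h5 := mul_le_mul_of_nonneg_left h3 (hpos τ).le
      refine h5.trans (le_of_eq ?_)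
      rw [Finset.mul_sum]
      exact Finset.sum_congr rfl fun _ _ => by ring
    refine (sumW_le e2).trans (le_of_eq ?_)
    have e3 : sumW W (fun τ => ∑ v ∈ S, (1 / 2) * (wt G θ W h τ * |mv G θ W h v - spin (τ v)|)) =
        ∑ v ∈ S, (1 / 2) * sumW W (fun τ => wt G θ W h τ * |mv G θ W h v - spin (τ v)|) := by
      unfold sumW
      rw [Finset.sum_comm]
      exact Finset.sum_congr rfl fun _ _ => (Finset.mul_sum _ _ _).symm
    rw [e3]
    exact Finset.sum_congr rfl fun v _ => by rw [LinkAux.sumW_wt_abs hθ1 (hp ω)]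
  -- the integrals
  have hint : ∀ v, BM (fun ω => Zg G θ W (fun v s => gS L κ ℓ 0 v s ω) *
      (1 - mv G θ W (fun v s => gS L κ ℓ 0 v s ω) v ^ 2)) := by
    intro v
    refine hZb.mul ?_
    have := (hmv v).mul (hmv v)
    have h2 := (BM.const (1:ℝ)).sub this
    simpa [pow_two] using h2
  have hexp := Real.exp_pos (-tauM L κ ℓ 0 / 2)
  have hmain : ∀ v ∈ S, ∫ ω, (1 / 2) * (Zg G θ W (fun v s => gS L κ ℓ 0 v s ω) *
      (1 - mv G θ W (fun v s => gS L κ ℓ 0 v s ω) v ^ 2)) ∂Lam (JJ V) ≤ Real.exp (-tauM L κ ℓ 0 / 2) := by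
    intro v hv
    rw [integral_const_mul]
    have := one_sub_mv_sq_le hG hθ hE (LinkAux.star_of_mem hG hW (hSW hv)) hB
    linarith
  rw [hI1, ← integral_sub (hF1.integrable _) (hSb.integrable _)]
  calc _ ≤ ∫ ω, |Fω ω * Zg G θ W (fun v s => gS L κ ℓ 0 v s ω) -
        sumW W (fun τ => wt G θ W (fun v s => gS L κ ℓ 0 v s ω) τ * (if ∀ v ∈ S, τ v = η v then (1:ℝ) else 0))| ∂Lam (JJ V) :=
        abs_integral_le_integral_abs
    _ ≤ ∫ ω, ∑ v ∈ S, (1 / 2) * (Zg G θ W (fun v s => gS L κ ℓ 0 v s ω) *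
        (1 - mv G θ W (fun v s => gS L κ ℓ 0 v s ω) v ^ 2)) ∂Lam (JJ V) := by
        refine integral_mono ?_ ?_ hpt
        · exact ((hF1.sub hSb).integrable _).abs
        · exact (BM.finset_sum S fun v _ => (BM.const _).mul (hint v)).integrable _
    _ = ∑ v ∈ S, ∫ ω, (1 / 2) * (Zg G θ W (fun v s => gS L κ ℓ 0 v s ω) *
        (1 - mv G θ W (fun v s => gS L κ ℓ 0 v s ω) v ^ 2)) ∂Lam (JJ V) :=
        integral_finsetSum _ fun v _ => ((BM.const _).mul (hint v)).integrable _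
    _ ≤ ∑ _v ∈ S, Real.exp (-tauM L κ ℓ 0 / 2) := Finset.sum_le_sum hmain
    _ = S.card * Real.exp (-tauM L κ ℓ 0 / 2) := by
        rw [Finset.sum_const, nsmul_eq_mul]

end link

/-! ### Tail bounds for the ball runs, for the parameters of the schedule -/

section tailsAux

private lemma tauP_nonneg' (L : ℤ) (κ : ℤ → ℝ) (ℓ : ℤ) : 0 ≤ tauP L κ ℓ :=
  Finset.sum_nonneg fun _ _ => by positivity

private lemma bm_ind_sq (t : ℝ) : BM (fun y : ℝ => if t < y ^ 2 then (1:ℝ) else 0) := by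
  refine ⟨Measurable.ite (measurableSet_lt measurable_const (by fun_prop)) measurable_const measurable_const, 1, fun y => ?_⟩
  dsimp only
  split_ifs <;> simp

private lemma bm_ind_id (t : ℝ) : BM (fun y : ℝ => if t < y then (1:ℝ) else 0) := by
  refine ⟨Measurable.ite (measurableSet_lt measurable_const measurable_id) measurable_const measurable_const, 1, fun y => ?_⟩
  dsimp only
  split_ifs <;> simp

private lemma bm_min_sq : BM (fun y : ℝ => min (y ^ 2) 1) := by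
  refine ⟨(by fun_prop : Measurable (fun y : ℝ => y ^ 2)).min measurable_const, 1, fun y => ?_⟩
  rw [abs_of_nonneg (le_min (sq_nonneg y) zero_le_one)]
  exact min_le_right _ _

private lemma vel_add {t y : ℝ} (ht : |t| ≤ 1) (hy : |y| ≤ 1) :
    (t + y) ^ 2 ≤ (2 * t ^ 2 + 2 * y ^ 2) * (1 + t * y) ^ 2 := by
  obtain ⟨ht1, ht2⟩ := abs_le.mp ht
  obtain ⟨hy1, hy2⟩ := abs_le.mp hy
  have ht3 : t ^ 2 ≤ 1 := by nlinarith
  have hy3 : y ^ 2 ≤ 1 := by nlinarith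
  have hu : t ^ 2 + y ^ 2 ≤ 1 + (t * y) ^ 2 := by
    nlinarith [mul_nonneg (sub_nonneg.mpr ht3) (sub_nonneg.mpr hy3)]
  have hus : 2 * (t * y) ≤ t ^ 2 + y ^ 2 := by nlinarith [sq_nonneg (t - y)]
  have hu0 : 0 ≤ t ^ 2 + y ^ 2 := by positivity
  have hexp : (t + y) ^ 2 = t ^ 2 + y ^ 2 + 2 * (t * y) := by ring
  have hrhs : (2 * t ^ 2 + 2 * y ^ 2) * (1 + t * y) ^ 2 = 2 * (t ^ 2 + y ^ 2) * (1 + t * y) ^ 2 := by ring
  rw [hexp, hrhs]
  generalize t * y = s at hu hus ⊢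
  generalize t ^ 2 + y ^ 2 = u at hu hus hu0 ⊢
  by_cases hc : 0 ≤ 2 * (1 + s) ^ 2 - 1
  · by_cases hs0 : 0 ≤ s
    · have h1 : 0 ≤ 2 * (1 + s) ^ 2 - 2 := by nlinarith
      nlinarith [mul_nonneg hu0 h1]
    · nlinarith [mul_nonneg hu0 hc]
  · have hc' := not_le.mp hc
    have h1 : (1 + s ^ 2) * (2 * (1 + s) ^ 2 - 1) ≤ u * (2 * (1 + s) ^ 2 - 1) := by nlinarith
    have h2 : (1 + s ^ 2) * (2 * (1 + s) ^ 2 - 1) - 2 * s = (1 + s) ^ 2 * (1 + 2 * s ^ 2) := by ring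
    have h3 : 0 ≤ (1 + s) ^ 2 * (1 + 2 * s ^ 2) := by positivity
    nlinarith

/-- The mean at the centre of a ball from the two cavity fields of an edge at the centre. -/
private lemma mean_root_sq (hG : RegTree G q) (hθ : Adm θ) {g : V → Bool → ℝ} (hg : PosG g) {c a : V}
    (hca : G.Adj c a) {R : ℕ} (hR : 1 ≤ R) :
    mv G θ (ball G c R) g c ^ 2 ≤ 2 * Tt G θ g R a c ^ 2 + 2 * Tt G θ g (R - 1) c a ^ 2 := by
  have hθ1 : |θ| < 1 := by rw [abs_of_nonneg hθ.nonneg]; exact hθ.lt_one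
  have hdca : G.dist c a = 1 := SimpleGraph.dist_eq_one_iff_adj.mpr hca
  have hcW : c ∈ ball G c R := (mem_ball hG c R c).mpr (by simp)
  have haW : a ∈ ball G c R := (mem_ball hG c R a).mpr (by omega)
  have hc := isCut_filter hG hca hcW haW
  have hU := filter_union_filter hG hca (ball G c R)
  have h := (cut_means hc hθ hg).1
  have ht1 := abs_tr_lt (G := G) hθ hg hc.mem₁
  have ht2 := abs_tr_lt (G := G) hθ hg hc.mem₂
  have hW₂ : (ball G c R).filter (fun p => G.dist a p < G.dist c p) = subT G (R - 1) c a := by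
    have := ball_filter_side hG hca (a := c) (by simp [hdca]) (by omega : G.dist c a ≤ R)
    rwa [hdca] at this
  have hW₁ : (ball G c R).filter (fun p => G.dist c p < G.dist a p) = subT G R a c := by
    ext p
    rw [Finset.mem_filter, mem_ball hG, mem_subT hG hca.symm]
    constructor
    · rintro ⟨h1, h2⟩
      refine ⟨h1, ?_⟩
      rcases dist_adj_cases hG hca p with h3 | h3 <;> omega
    · rintro ⟨h1, h2⟩
      exact ⟨h1, by omega⟩
  rw [hU] at h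
  rw [hW₁, hW₂, tr_subT hG hca.symm hθ1, tr_subT hG hca hθ1] at h
  rw [hW₁, tr_subT hG hca.symm hθ1] at ht1
  rw [hW₂, tr_subT hG hca hθ1] at ht2
  rw [h]
  set t1 := Tt G θ g R a c
  set t2 := Tt G θ g (R - 1) c a
  have hθ0 := hθ.nonneg
  have hθl := hθ.lt_one
  have hy : |θ * t2| ≤ 1 := by
    rw [abs_mul, abs_of_nonneg hθ0]
    nlinarith [abs_nonneg t2]
  have hv := vel_add ht1.le hy
  have e : t1 * (θ * t2) = θ * t1 * t2 := by ring
  rw [e] at hv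
  have hpos : 0 < 1 + θ * t1 * t2 := by
    have h3 : |t1 * (θ * t2)| < 1 := by
      rw [abs_mul]
      nlinarith [abs_nonneg t1, abs_nonneg (θ * t2)]
    rw [e] at h3
    linarith [(abs_lt.mp h3).1]
  rw [div_pow, div_le_iff₀ (by positivity)]
  have h4 : (θ * t2) ^ 2 ≤ t2 ^ 2 := by
    rw [mul_pow]
    have : θ ^ 2 ≤ 1 := by nlinarith
    nlinarith [sq_nonneg t2]
  calc (t1 + θ * t2) ^ 2 ≤ (2 * t1 ^ 2 + 2 * (θ * t2) ^ 2) * (1 + θ * t1 * t2) ^ 2 := hv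
    _ ≤ (2 * t1 ^ 2 + 2 * t2 ^ 2) * (1 + θ * t1 * t2) ^ 2 := by gcongr

private lemma bm_Zg' {J : Type*} {bl : V → Set J} {Fl : Set J} {g : V → Bool → (J → I) → ℝ}
    (hE : Exper bl Fl g) (W : Finset V) : BM (fun ω => Zg G θ W (fun v s => g v s ω)) := by
  unfold Zg sumW wt
  exact BM.finset_sum _ fun A _ => (BM.const _).mul (BM.finset_prod _ fun v _ => hE.bm _ _)

private lemma posG_of_exper {J : Type*} {bl : V → Set J} {Fl : Set J} {g : V → Bool → (J → I) → ℝ}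
    (hE : Exper bl Fl g) (ω : J → I) : PosG (fun v s => g v s ω) := by
  obtain ⟨c, hc, h⟩ := hE.lb
  exact fun v s => lt_of_lt_of_le hc (h v s ω)

private lemma measurable_gA_Act (W : Finset V) (L : ℤ) (κ : ℤ → ℝ) (ℓ : ℤ) (x : ℝ) (v : V) (s : Bool) :
    Measurable (fun q : (Stg V → I) × (Stg V → I) => gA κ (Act W L q.1 ℓ x) q.2 v s) := by
  by_cases hv : v ∈ W
  · have e : (fun q : (Stg V → I) × (Stg V → I) => gA κ (Act W L q.1 ℓ x) q.2 v s) = fun q =>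
        ∏ i ∈ Finset.Icc L ℓ, (if (i < ℓ ∧ (q.1 (v, i) : ℝ) < 1 / 2) ∨ (i = ℓ ∧ (q.1 (v, i) : ℝ) < x) then
          1 + aY (κ i) (q.2 (v, i)) * spin s else 1) := by
      funext p
      exact gA_Act_eq W L κ p.1 p.2 ℓ x v s hv
    rw [e]
    refine Finset.measurable_prod _ fun i _ => ?_
    have hU : Measurable (fun q : (Stg V → I) × (Stg V → I) => ((q.1 (v, i) : I) : ℝ)) :=
      measurable_subtype_coe.comp ((measurable_pi_apply (v, i)).comp measurable_fst)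
    refine Measurable.ite ?_ ?_ measurable_const
    · have h1 : MeasurableSet {q : (Stg V → I) × (Stg V → I) | (q.1 (v, i) : ℝ) < 1 / 2} :=
        measurableSet_lt hU measurable_const
      have h2 : MeasurableSet {q : (Stg V → I) × (Stg V → I) | (q.1 (v, i) : ℝ) < x} :=
        measurableSet_lt hU measurable_const
      by_cases h3 : i < ℓ
      · have h4 : i ≠ ℓ := ne_of_lt h3
        simpa [h3, h4] using h1
      · by_cases h4 : i = ℓ
        · simpa [h3, h4] using h2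
        · simp [h3, h4]
    · exact measurable_const.add (((measurable_aY (κ i)).comp ((measurable_pi_apply (v, i)).comp measurable_snd)).mul_const _)
  · have e : (fun q : (Stg V → I) × (Stg V → I) => gA κ (Act W L q.1 ℓ x) q.2 v s) = fun _ => 1 := by
      funext p
      unfold gA
      apply Finset.prod_eq_one
      intro c hc
      obtain ⟨hc1, hc2⟩ := Finset.mem_filter.mp hc
      exact absurd (hc2 ▸ (mem_Act.mp hc1).1) hv
    rw [e]
    exact measurable_const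

variable (hG : RegTree G q) (hκ : Sched κ) (hθ : Adm θ) (hqθ : (q : ℝ) * θ ^ 2 ≤ 1)
include hG hκ hθ hqθ

/-- The mgf bound for the experiments of the schedule, with the constant `B = 6 r`. -/
private lemma mgf_gS (hx0 : 0 ≤ x) (hx : x ≤ 1 / 2) (hL : L ≤ ℓ) {r : ℝ} (hr0 : 0 < r) (hr : r ≤ 1 / 6)
    (hτ : tauP L κ ℓ ≤ r ^ 3) {n : ℕ} {a b : V} (hab : G.Adj a b) (κ' : ℝ) (h1 : 1 ≤ κ') :
    Jt G θ (gS L κ ℓ x) n a b (fun ω => Psi κ' (Tω G θ (gS L κ ℓ x) n a b ω)) ≤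
      Real.exp ((6 * r) * (κ' ^ 2 - 1) / 2) := by
  have hE := exper_gS (V := V) (L := L) (ℓ := ℓ) hκ hx0 hx
  have hB := expBd_gS (V := V) hκ hx0 hx hL
  have h := mgf_unif hG hθ hqθ hE hB (tauP_nonneg' L κ ℓ) hr0.le (by linarith) hτ hab (n := n) h1
  have e : (6 * r) * (κ' ^ 2 - 1) / 2 = 3 * r * (κ' ^ 2 - 1) := by ring
  rwa [e]

/-- The second moment of the cavity fields for the experiments of the schedule. -/
private lemma Jt_sq_gS (hx0 : 0 ≤ x) (hx : x ≤ 1 / 2) (hL : L ≤ ℓ) {r : ℝ} (hr0 : 0 < r) (hr : r ≤ 1 / 6)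
    (hτ : tauP L κ ℓ ≤ r ^ 3) {n : ℕ} {a b : V} (hab : G.Adj a b) :
    Jt G θ (gS L κ ℓ x) n a b (fun ω => Tω G θ (gS L κ ℓ x) n a b ω ^ 2) ≤ 24 * r := by
  have hE := exper_gS (V := V) (L := L) (ℓ := ℓ) hκ hx0 hx
  have h := second_moment hG hθ hE (n := n) (B := 6 * r) (by positivity) (by linarith) hab
    (mgf_gS hG hκ hθ hqθ hx0 hx hL hr0 hr hτ hab)
  linarith

end tailsAux

section tails

variable (hG : RegTree G q) (hκ : Sched κ) (hθ : Adm θ) (hqθ : (q : ℝ) * θ ^ 2 ≤ 1)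
include hG hκ hθ hqθ

/-- Tail bound of the cavity fields in a ball. -/
theorem tail_cav (hx0 : 0 ≤ x) (hx : x ≤ 1 / 2) (hL : L ≤ ℓ) {r : ℝ} (hr0 : 0 < r) (hr : r ≤ 1 / 6) (hτ : tauP L κ ℓ ≤ r ^ 3)
    {c a b : V} {R : ℕ} (hab : G.Adj a b) (hd : G.dist c b = G.dist c a + 1) (hRb : G.dist c b ≤ R) {p : ℝ} (hp : 1 ≤ p) :
    ∫ q, (if 36 * r * p < cavM θ (mSt G θ (ball G c R) L κ ℓ x q.1 q.2) a b ^ 2 then (1:ℝ) else 0) ∂noiseP V ≤ 2 * Real.exp (-p) := by
  have hE := exper_gS (V := V) (L := L) (ℓ := ℓ) hκ hx0 hx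
  refine (law_cav hG hκ hθ hx0 hx hab hd hRb (bm_ind_sq (36 * r * p))).le.trans ?_
  have hT := tail_T hG hθ hE (n := R - G.dist c b) (B := 6 * r) (by positivity) (by linarith) hab
    (mgf_gS hG hκ hθ hqθ hx0 hx hL hr0 hr hτ hab) hp
  have e : 6 * (6 * r) * p = 36 * r * p := by ring
  rwa [e] at hT

/-- Second moment of the cavity fields in a ball. -/
theorem second_moment_cav (hx0 : 0 ≤ x) (hx : x ≤ 1 / 2) (hL : L ≤ ℓ) {r : ℝ} (hr0 : 0 < r) (hr : r ≤ 1 / 6) (hτ : tauP L κ ℓ ≤ r ^ 3)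
    {c a b : V} {R : ℕ} (hab : G.Adj a b) (hd : G.dist c b = G.dist c a + 1) (hRb : G.dist c b ≤ R) :
    ∫ q, cavM θ (mSt G θ (ball G c R) L κ ℓ x q.1 q.2) a b ^ 2 ∂noiseP V ≤ 24 * r := by
  have hE := exper_gS (V := V) (L := L) (ℓ := ℓ) hκ hx0 hx
  have hθ1 : |θ| < 1 := by rw [abs_of_nonneg hθ.nonneg]; exact hθ.lt_one
  have e1 : ∀ q : (Stg V → I) × (Stg V → I), cavM θ (mSt G θ (ball G c R) L κ ℓ x q.1 q.2) a b ^ 2 =
      min (cavM θ (mSt G θ (ball G c R) L κ ℓ x q.1 q.2) a b ^ 2) 1 := by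
    intro p
    refine (min_eq_left ?_).symm
    have hg := gA_pos hκ (Act (ball G c R) L p.1 ℓ x) (runY G θ (ball G c R) L κ p.1 p.2)
    have h := abs_cav_le hθ (abs_mv_le (G := G) (W := ball G c R) hθ1 hg a) (abs_mv_le (G := G) (W := ball G c R) hθ1 hg b)
    have h2 := abs_le.mp h
    have : cavM θ (mSt G θ (ball G c R) L κ ℓ x p.1 p.2) a b = cav θ (mv G θ (ball G c R) (gA κ (Act (ball G c R) L p.1 ℓ x) (runY G θ (ball G c R) L κ p.1 p.2)) a) (mv G θ (ball G c R) (gA κ (Act (ball G c R) L p.1 ℓ x) (runY G θ (ball G c R) L κ p.1 p.2)) b) := rfl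
    rw [this]
    nlinarith
  rw [integral_congr_ae (Filter.Eventually.of_forall e1)]
  refine (law_cav hG hκ hθ hx0 hx hab hd hRb bm_min_sq).le.trans ?_
  have e2 : ∀ ω, min (Tω G θ (gS L κ ℓ x) (R - G.dist c b) a b ω ^ 2) 1 = Tω G θ (gS L κ ℓ x) (R - G.dist c b) a b ω ^ 2 := by
    intro ω
    refine min_eq_left ?_
    have h := abs_le.mp (abs_Tω_lt hG hθ hE (n := R - G.dist c b) hab ω).le
    nlinarith
  simp_rw [e2]
  exact Jt_sq_gS hG hκ hθ hqθ hx0 hx hL hr0 hr hτ hab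

/-- Second moment of the means in a ball. -/
theorem second_moment_mSt (hx0 : 0 ≤ x) (hx : x ≤ 1 / 2) (hL : L ≤ ℓ) {r : ℝ} (hr0 : 0 < r) (hr : r ≤ 1 / 6) (hτ : tauP L κ ℓ ≤ r ^ 3)
    {c : V} {R : ℕ} (hR : 1 ≤ R) :
    ∫ q, mSt G θ (ball G c R) L κ ℓ x q.1 q.2 c ^ 2 ∂noiseP V ≤ 1000 * r := by
  have hE := exper_gS (V := V) (L := L) (ℓ := ℓ) hκ hx0 hx
  have hθ1 : |θ| < 1 := by rw [abs_of_nonneg hθ.nonneg]; exact hθ.lt_one
  obtain ⟨a, hca⟩ : ∃ a, G.Adj c a := by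
    have hcard := hG.reg c
    have hne : (G.neighborFinset c).Nonempty := by
      rw [← Finset.card_pos, hcard]; omega
    obtain ⟨a, ha⟩ := hne
    exact ⟨a, (G.mem_neighborFinset c a).mp ha⟩
  have hdca : G.dist c a = 1 := SimpleGraph.dist_eq_one_iff_adj.mpr hca
  have hcW : c ∈ ball G c R := (mem_ball hG c R c).mpr (by simp)
  have haW : a ∈ ball G c R := (mem_ball hG c R a).mpr (by omega)
  have hsc : Star G (ball G c R) c := star_ball hG hcW
  have hsa : Star G (ball G c R) a := star_ball hG haW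
  have hF : ∀ g g' : V → Bool → ℝ, (∀ v ∈ ball G c R, ∀ s, g v s = g' v s) →
      mv G θ (ball G c R) g c ^ 2 = mv G θ (ball G c R) g' c ^ 2 := fun g g' h => by
    rw [mv_congr h]
  have hFm : BM (fun q : (Stg V → I) × (Stg V → I) =>
      mv G θ (ball G c R) (gA κ (Act (ball G c R) L q.1 ℓ x) q.2) c ^ 2) := by
    refine ⟨(measurable_mv (fun v s => measurable_gA_Act _ L κ ℓ x v s) c).pow_const 2, 1, fun p => ?_⟩
    have h := abs_le.mp (abs_mv_le (G := G) (W := ball G c R) hθ1 (gA_pos hκ (Act (ball G c R) L p.1 ℓ x) p.2) c)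
    rw [abs_of_nonneg (sq_nonneg _)]
    nlinarith
  have hlaw := law_gSt hG hκ hθ hx0 hx hsc hF hFm
  have hbmT1 : BM (fun ω => Tω G θ (gS L κ ℓ x) R a c ω ^ 2) := by
    simpa [pow_two] using (Tω_bm hG hθ hE (n := R) (a := a) (b := c)).mul (Tω_bm hG hθ hE (n := R) (a := a) (b := c))
  have hbmT2 : BM (fun ω => Tω G θ (gS L κ ℓ x) (R - 1) c a ω ^ 2) := by
    simpa [pow_two] using (Tω_bm hG hθ hE (n := R - 1) (a := c) (b := a)).mul (Tω_bm hG hθ hE (n := R - 1) (a := c) (b := a))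
  have hZ := bm_Zg' (G := G) (θ := θ) hE (ball G c R)
  have hsub1 : subT G R a c ⊆ ball G c R := by
    intro p hp
    rw [mem_ball hG]
    exact ((mem_subT hG hca.symm R p).mp hp).1
  have hsub2 : subT G (R - 1) c a ⊆ ball G c R := by
    have := subT_subset_ball hG hca (a := c) (by simp [hdca]) (by omega : G.dist c a ≤ R)
    rwa [hdca] at this
  have hJ1 := integral_Zg_subT hG hθ hE hsc hca.symm hsub1 hbmT1
    ((Tω_dep hG hθ hE hca.symm).comp (fun t => t ^ 2))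
  have hJ2 := integral_Zg_subT hG hθ hE hsa hca hsub2 hbmT2
    ((Tω_dep hG hθ hE hca).comp (fun t => t ^ 2))
  have hb1 := Jt_sq_gS hG hκ hθ hqθ hx0 hx hL hr0 hr hτ hca.symm (n := R)
  have hb2 := Jt_sq_gS hG hκ hθ hqθ hx0 hx hL hr0 hr hτ hca (n := R - 1)
  have hZ0 : ∀ ω, 0 ≤ Zg G θ (ball G c R) (fun v s => gS L κ ℓ x v s ω) := fun ω =>
    (Zg_pos hθ1 (posG_of_exper hE ω)).le
  have hbound : ∀ ω, mv G θ (ball G c R) (fun v s => gS L κ ℓ x v s ω) c ^ 2 *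
      Zg G θ (ball G c R) (fun v s => gS L κ ℓ x v s ω) ≤
      2 * (Zg G θ (ball G c R) (fun v s => gS L κ ℓ x v s ω) * Tω G θ (gS L κ ℓ x) R a c ω ^ 2) +
      2 * (Zg G θ (ball G c R) (fun v s => gS L κ ℓ x v s ω) * Tω G θ (gS L κ ℓ x) (R - 1) c a ω ^ 2) := by
    intro ω
    have h := mean_root_sq (G := G) hG hθ (posG_of_exper hE ω) hca hR
    have h2 := mul_le_mul_of_nonneg_right h (hZ0 ω)
    calc _ ≤ _ := h2
      _ = _ := by unfold Tω; ring
  have hint0 : Integrable (fun ω => mv G θ (ball G c R) (fun v s => gS L κ ℓ x v s ω) c ^ 2 *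
      Zg G θ (ball G c R) (fun v s => gS L κ ℓ x v s ω)) (Lam (JJ V)) := by
    have hbm : BM (fun ω => mv G θ (ball G c R) (fun v s => gS L κ ℓ x v s ω) c ^ 2) := by
      refine ⟨(measurable_mv (fun v s => (hE.bm v s).1) c).pow_const 2, 1, fun ω => ?_⟩
      have h := abs_le.mp (abs_mv_le (G := G) (W := ball G c R) hθ1 (posG_of_exper hE ω) c)
      rw [abs_of_nonneg (sq_nonneg _)]
      nlinarith
    exact (hbm.mul hZ).integrable _
  have hint1 : Integrable (fun ω => Zg G θ (ball G c R) (fun v s => gS L κ ℓ x v s ω) * Tω G θ (gS L κ ℓ x) R a c ω ^ 2) (Lam (JJ V)) :=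
    (hZ.mul hbmT1).integrable _
  have hint2 : Integrable (fun ω => Zg G θ (ball G c R) (fun v s => gS L κ ℓ x v s ω) * Tω G θ (gS L κ ℓ x) (R - 1) c a ω ^ 2) (Lam (JJ V)) :=
    (hZ.mul hbmT2).integrable _
  calc ∫ q, mSt G θ (ball G c R) L κ ℓ x q.1 q.2 c ^ 2 ∂noiseP V
      = ∫ ω, mv G θ (ball G c R) (fun v s => gS L κ ℓ x v s ω) c ^ 2 *
          Zg G θ (ball G c R) (fun v s => gS L κ ℓ x v s ω) ∂Lam (JJ V) := hlaw
    _ ≤ ∫ ω, (2 * (Zg G θ (ball G c R) (fun v s => gS L κ ℓ x v s ω) * Tω G θ (gS L κ ℓ x) R a c ω ^ 2) +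
          2 * (Zg G θ (ball G c R) (fun v s => gS L κ ℓ x v s ω) * Tω G θ (gS L κ ℓ x) (R - 1) c a ω ^ 2)) ∂Lam (JJ V) :=
        integral_mono hint0 ((hint1.const_mul 2).add (hint2.const_mul 2)) hbound
    _ = 2 * Jt G θ (gS L κ ℓ x) R a c (fun ω => Tω G θ (gS L κ ℓ x) R a c ω ^ 2) +
        2 * Jt G θ (gS L κ ℓ x) (R - 1) c a (fun ω => Tω G θ (gS L κ ℓ x) (R - 1) c a ω ^ 2) := by
        rw [integral_add (hint1.const_mul 2) (hint2.const_mul 2), integral_const_mul, integral_const_mul, hJ1, hJ2]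
    _ ≤ 1000 * r := by linarith

/-- Tail bound of the shells in a ball. Hypotheses: `ε` is such that the mean of the shell at depth `l` is at most `(1 - ε)^(l-1)`. -/
theorem tail_shell (hq : 2 ≤ q) (hx0 : 0 ≤ x) (hx : x ≤ 1 / 2) {ε : ℝ} (hε0 : 0 < ε) (hε : ε ≤ 1) {n₁ : ℕ}
    {A : ℝ} (hA0 : 0 ≤ A)
    (hA : ∀ a' b', G.Adj a' b' → ∀ m, n₁ ≤ m → A ≤ Jt G θ (gS L κ ℓ x) m a' b' (fun ω => Tω G θ (gS L κ ℓ x) m a' b' ω ^ 2))
    (hAε : (q : ℝ) * θ ^ 2 * (1 - varpi θ A) ≤ 1 - ε)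
    {c a b : V} {R : ℕ} {l : ℕ} (hab : G.Adj a b) (hd : G.dist c b = G.dist c a + 1) (hR : G.dist c b + l + n₁ + 1 ≤ R)
    {r : ℝ} (hr : 1 ≤ r) :
    ∫ q, (if Crest.Agent.Lib.TI.wf ε r l < shellM G θ (mSt G θ (ball G c R) L κ ℓ x q.1 q.2) l a b then (1:ℝ) else 0) ∂noiseP V ≤
      Real.exp (-(r + l)) := by
  have hE := exper_gS (V := V) (L := L) (ℓ := ℓ) hκ hx0 hx
  refine (law_shell hG hκ hθ hx0 hx hab hd (by omega) (bm_ind_id (wf ε r l))).le.trans ?_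
  have hnl : l + n₁ + 1 ≤ R - G.dist c b := by omega
  generalize R - G.dist c b = n at hnl ⊢
  -- the shell is at most one
  have hle1 : ∀ ω, Shω (G := G) (θ := θ) (g := gS L κ ℓ x) l n a b ω ≤ 1 := fun ω =>
    Shω_le_one hG hθ hqθ hE l hab ω
  rcases Nat.eq_zero_or_pos l with rfl | hl
  · have hwf : wf ε r 0 = 1 := by
      unfold wf
      refine min_eq_left ?_
      simp only [Nat.zero_div, pow_zero]
      linarith [Real.sqrt_nonneg ((r + ((0:ℕ):ℝ)) / 1)]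
    have h0 : ∀ ω, (if wf ε r 0 < Shω (G := G) (θ := θ) (g := gS L κ ℓ x) 0 n a b ω then (1:ℝ) else 0) = 0 := by
      intro ω
      rw [if_neg]
      rw [hwf]
      exact not_lt.mpr (hle1 ω)
    unfold Jt
    simp_rw [h0]
    simpa using (Real.exp_pos _).le
  -- `A ≤ 1`
  have hρbm : BM (rhoω G θ (gS L κ ℓ x) n a b) := by
    have h1 := (Zω_bm hG hθ hE (n := n) (a := a) (b := b) true).add (Zω_bm hG hθ hE (n := n) (a := a) (b := b) false)
    have h2 := h1.mul (BM.const (1 / 2))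
    have e : rhoω G θ (gS L κ ℓ x) n a b = fun ω => (Zω G θ (gS L κ ℓ x) n a b true ω + Zω G θ (gS L κ ℓ x) n a b false ω) * (1 / 2) := by
      funext ω; unfold rhoω; ring
    rw [e]; exact h2
  have hρ0 : ∀ ω, 0 ≤ rhoω G θ (gS L κ ℓ x) n a b ω := fun ω => by
    have h1 := Zω_pos hG hθ hE (n := n) hab true ω
    have h2 := Zω_pos hG hθ hE (n := n) hab false ω
    unfold rhoω; positivity
  have hA1 : A ≤ 1 := by
    have hρbm' : BM (rhoω G θ (gS L κ ℓ x) n₁ a b) := by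
      have h1 := (Zω_bm hG hθ hE (n := n₁) (a := a) (b := b) true).add (Zω_bm hG hθ hE (n := n₁) (a := a) (b := b) false)
      have h2 := h1.mul (BM.const (1 / 2))
      have e : rhoω G θ (gS L κ ℓ x) n₁ a b = fun ω => (Zω G θ (gS L κ ℓ x) n₁ a b true ω + Zω G θ (gS L κ ℓ x) n₁ a b false ω) * (1 / 2) := by
        funext ω; unfold rhoω; ring
      rw [e]; exact h2
    have hTbm : BM (fun ω => Tω G θ (gS L κ ℓ x) n₁ a b ω ^ 2) := by
      simpa [pow_two] using (Tω_bm hG hθ hE (n := n₁) (a := a) (b := b)).mul (Tω_bm hG hθ hE (n := n₁) (a := a) (b := b))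
    refine (hA a b hab n₁ le_rfl).trans ?_
    unfold Jt
    rw [← integral_rhoω hG hθ hE (n := n₁) hab]
    refine integral_mono ((hρbm'.mul hTbm).integrable _) (hρbm'.integrable _) fun ω => ?_
    have h1 := Zω_pos hG hθ hE (n := n₁) hab true ω
    have h2 := Zω_pos hG hθ hE (n := n₁) hab false ω
    have h3 : 0 ≤ rhoω G θ (gS L κ ℓ x) n₁ a b ω := by unfold rhoω; positivity
    have h4 := abs_le.mp (abs_Tω_lt hG hθ hE (n := n₁) hab ω).le
    have h5 : Tω G θ (gS L κ ℓ x) n₁ a b ω ^ 2 ≤ 1 := by nlinarith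
    show rhoω G θ (gS L κ ℓ x) n₁ a b ω * Tω G θ (gS L κ ℓ x) n₁ a b ω ^ 2 ≤ rhoω G θ (gS L κ ℓ x) n₁ a b ω
    nlinarith
  have hθ0 := hθ.nonneg
  have hθl := hθ.lt_one
  have hθs := hθ.sq_le
  have hvarpi : varpi θ A ≤ 1 := by
    unfold varpi
    have h1 : (1 - θ ^ 2) * (1 - θ) ≤ 1 := mul_le_one₀ (by nlinarith) (by linarith) (by linarith)
    have h2 : (1 - θ ^ 2) * (1 - θ) * θ ^ 2 ≤ 1 := mul_le_one₀ h1 (by positivity) (by linarith)
    have h3 : (1 - θ ^ 2) * (1 - θ) * θ ^ 2 * A ≤ 1 := mul_le_one₀ h2 hA0 hA1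
    linarith
  have hbase : 0 ≤ (q : ℝ) * θ ^ 2 * (1 - varpi θ A) :=
    mul_nonneg (by positivity) (by linarith)
  -- the main case
  set j := (l - 1) / 2 with hj
  set l' := l / 2 with hl'
  have hjl : l - j = l' + 1 := by omega
  have hmean : ∀ a' b', G.Adj a' b' → ∀ s', ∫ ω, Zω G θ (gS L κ ℓ x) (n - j) a' b' s' ω *
      Shω (G := G) (θ := θ) (g := gS L κ ℓ x) (l - j) (n - j) a' b' ω ∂Lam (JJ V) ≤ (1 - ε) ^ l' := by
    intro a' b' h s'
    rw [hjl]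
    have h1 := shell_mean hG hθ hqθ hE hq hA0 hA (l := l') (n := n - j) (by omega) h s'
    exact h1.trans (pow_le_pow_left₀ hbase hAε l')
  have htail := shell_tail hG hθ hqθ hE hq (V₀ := (1 - ε) ^ l') (l := l) (j := j) (n := n) (by omega) (by omega) hmean hab
    (x := Real.sqrt ((r + l) / 2 ^ l')) (Real.sqrt_nonneg _)
  have hbmSh : BM (Shω (G := G) (θ := θ) (g := gS L κ ℓ x) l n a b) := Shω_bm hG hθ hE l
  have hind1 : BM (fun ω => if wf ε r l < Shω (G := G) (θ := θ) (g := gS L κ ℓ x) l n a b ω then (1:ℝ) else 0) :=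
    (bm_ind_id _).comp hbmSh.1
  have hind2 : BM (fun ω => if (1 - ε) ^ l' + Real.sqrt ((r + l) / 2 ^ l') < Shω (G := G) (θ := θ) (g := gS L κ ℓ x) l n a b ω then (1:ℝ) else 0) :=
    (bm_ind_id _).comp hbmSh.1
  have hmono : Jt G θ (gS L κ ℓ x) n a b (fun ω => if wf ε r l < Shω (G := G) (θ := θ) (g := gS L κ ℓ x) l n a b ω then (1:ℝ) else 0) ≤
      Jt G θ (gS L κ ℓ x) n a b (fun ω => if (1 - ε) ^ l' + Real.sqrt ((r + l) / 2 ^ l') < Shω (G := G) (θ := θ) (g := gS L κ ℓ x) l n a b ω then (1:ℝ) else 0) := by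
    unfold Jt
    refine integral_mono ((hρbm.mul hind1).integrable _) ((hρbm.mul hind2).integrable _) fun ω => ?_
    refine mul_le_mul_of_nonneg_left ?_ (hρ0 ω)
    dsimp only
    by_cases hc : wf ε r l < Shω (G := G) (θ := θ) (g := gS L κ ℓ x) l n a b ω
    · have h2 : (1 - ε) ^ l' + Real.sqrt ((r + l) / 2 ^ l') < Shω (G := G) (θ := θ) (g := gS L κ ℓ x) l n a b ω := by
        unfold wf at hc
        rcases min_lt_iff.mp hc with h | h
        · exact absurd (hle1 ω) (not_le.mpr h)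
        · exact h
      rw [if_pos hc, if_pos h2]
    · rw [if_neg hc]
      split_ifs <;> norm_num
  refine hmono.trans (htail.trans (Real.exp_le_exp.mpr ?_))
  have hrl : 0 ≤ r + (l : ℝ) := by positivity
  have h2l : (0:ℝ) < 2 ^ l' := by positivity
  rw [Real.sq_sqrt (by positivity)]
  have hpow : (2:ℝ) ^ l' ≤ 2 * (q:ℝ) ^ j := by
    have h1 : (2:ℝ) ^ j ≤ (q:ℝ) ^ j := pow_le_pow_left₀ (by norm_num) (by exact_mod_cast hq) j
    have h2 : (2:ℝ) ^ l' ≤ 2 ^ (j + 1) := pow_le_pow_right₀ (by norm_num) (by omega)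
    rw [pow_succ] at h2
    linarith
  have h3 : r + (l : ℝ) ≤ 2 * (q:ℝ) ^ j * ((r + l) / 2 ^ l') := by
    have e : 2 * (q:ℝ) ^ j * ((r + l) / 2 ^ l') = (2 * (q:ℝ) ^ j) * (r + l) / 2 ^ l' := by ring
    rw [e, le_div_iff₀ h2l]
    nlinarith
  have e2 : -2 * (q:ℝ) ^ j * ((r + l) / 2 ^ l') = -(2 * (q:ℝ) ^ j * ((r + l) / 2 ^ l')) := by ring
  rw [e2]
  linarith

end tails

end Crest.Agent.Lib.TI
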