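import Crest.Agent.Lib.TI.Main
import Crest.Agent.Lib.FiidNoise
import Crest.Prelude.Def_TreeIsing
import Crest.Prelude.Def_Labels

/-!
# The factor of iid (S0241 project, module TI.Final)

**Labels.** A label `x v ∈ [0,1]` is split into a stream `rho (x v)` of independent uniform variables; `lab x = (U, w)` with `U (v, i) = rho (x v) (code (i, false))`, `w (v, i) = rho (x v) (code (i, true))`. `(labelMeasure V).map lab = noiseP V`.

**Diagonal.** For each `ℓ : ℕ` take `N ℓ` (strictly increasing) such that `E (mN n ℓ 0 - mN n' ℓ 0)² ≤ 4^(-ℓ)` for all `n, n' ≥ N ℓ` and all vertices (`cauchy_mN`), and `R ℓ` such that the means on balls of radius `R ℓ` around `v` are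
`4^(-ℓ)`-close in `L²` to the infinite volume means (`mInf_l2`). `MM ℓ ξ v = mB (θsq θ (N ℓ)) v (R ℓ) (-N ℓ) kapS ℓ 0 ξ v`. Exactly equivariant (`mSt_aut`, `ball_aut`).

**The step.** `MM ℓ ≈ mN (N ℓ) ℓ 0 ≈ mN (N (ℓ+1)) ℓ 0 ≈ mN (N (ℓ+1)) (ℓ+1) 0 ≈ MM (ℓ+1)`, the third step from `mSt_cell_diff` (`mInf_cell_diff`) with `tauM ≥ ℓ/54`. So `‖MM ℓ - MM (ℓ+1)‖₂ ≤ aD ℓ`, summable, and `l2_limit` gives
`MM ℓ → mLim` almost surely and in `L²`, `mLim ξ v = limsup (MM ℓ ξ v)`. `one_sub_mSt_sq_le` gives `mLim² = 1` almost surely.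

**The pattern.** `Φ x v = decide (0 < mLim (lab x) v)`. On the event `mLim² = 1`, the indicator of `∀ v ∈ S, Φ x v = η v` is `∏_{v ∈ S} (1 + spin (η v) mLim v) / 2`, and the expectation of this is the limit of the same thing with `MM ℓ` by bounded convergence.
To compute: fix `o ∈ S`, `S` is star-shaped around `o` (`star_of_connected`). Replace `MM ℓ ξ v` by `mB (θsq θ (N ℓ)) o R' (-N ℓ) kapS ℓ 0 ξ v` for `R'` large (`mInf_l2`), and apply `pattern_planted`. Finally `isingWeight` is continuous in `θ`.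
-/

set_option autoImplicit false

namespace Crest.Agent.Lib.TI

open MeasureTheory Set Classical Filter Topology
open scoped unitInterval
open Crest.Agent.Lib.FiidChannel Crest.Agent.Lib.FiidPlanted Crest.Agent.Lib.FiidNoise
open Crest.ProbabilityR.TreeIsing Crest.ProbabilityR.Labels

variable {V : Type*} {G : SimpleGraph V} [G.LocallyFinite] {q : ℕ} {θ : ℝ}

/-! ### Labels -/

section labels

/-- A bijection of the coordinates of a stream. -/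
noncomputable def codeS : ℤ × Bool ≃ ℕ := (nonempty_equiv_of_countable (α := ℤ × Bool) (β := ℕ)).some

/-- The noise from the labels. -/
noncomputable def lab (x : V → I) : Nz V :=
  (fun c => rho (x c.1) (codeS (c.2, false)), fun c => rho (x c.1) (codeS (c.2, true)))

theorem measurable_lab : Measurable (lab (V := V)) := by
  refine Measurable.prodMk ?_ ?_
  · rw [measurable_pi_iff]
    rintro ⟨v, n⟩
    exact (measurable_pi_apply _).comp (measurable_rho.comp (measurable_pi_apply v))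
  · rw [measurable_pi_iff]
    rintro ⟨v, n⟩
    exact (measurable_pi_apply _).comp (measurable_rho.comp (measurable_pi_apply v))

theorem map_lab : (labelMeasure V).map lab = noiseP V := by
  let κ : Stg V ⊕ Stg V → V × ℕ :=
    Sum.elim (fun c => (c.1, codeS (c.2, false))) (fun c => (c.1, codeS (c.2, true)))
  have hκ : Function.Injective κ := by
    rintro (⟨a, n⟩ | ⟨a, n⟩) (⟨b, m⟩ | ⟨b, m⟩) h <;> simp_all [κ]
  have hm1 : Measurable (fun z : V × ℕ → I => z ∘ κ) := by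
    rw [measurable_pi_iff]
    intro j
    exact measurable_pi_apply (κ j)
  have hmS : Measurable (fun z : Stg V ⊕ Stg V → I => (z ∘ Sum.inl, z ∘ Sum.inr)) := by
    refine Measurable.prodMk ?_ ?_
    · rw [measurable_pi_iff]; intro j; exact measurable_pi_apply (Sum.inl j)
    · rw [measurable_pi_iff]; intro j; exact measurable_pi_apply (Sum.inr j)
  have hL : labelMeasure V = Lam V := rfl
  unfold noiseP
  rw [hL, ← map_sum_split, ← map_comp_injective κ hκ, ← map_streams,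
    Measure.map_map hm1 measurable_streams, Measure.map_map hmS (hm1.comp measurable_streams)]
  rfl

theorem lab_comp (g : G ≃g G) (x : V → I) : lab (x ∘ g) = actN g.symm (lab x) := rfl

end labels

/-! ### The diagonal -/

/-- Choice of the parameters. -/
structure Diag (G : SimpleGraph V) [G.LocallyFinite] (θ : ℝ) (N R : ℕ → ℕ) : Prop where
  mono : StrictMono N
  cauchy : ∀ (ℓ : ℕ) (n n' : ℕ), N ℓ ≤ n → N ℓ ≤ n' → ∀ v,
    ∫ ξ, (mN G θ n ℓ 0 ξ v - mN G θ n' ℓ 0 ξ v) ^ 2 ∂noiseP V ≤ (1 / 4) ^ ℓ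
  ball : ∀ (ℓ : ℕ) (v : V),
    ∫ ξ, (mB G (θsq θ (N ℓ)) v (R ℓ) (-(N ℓ : ℤ)) kapS ℓ 0 ξ v - mN G θ (N ℓ) ℓ 0 ξ v) ^ 2 ∂noiseP V ≤ (1 / 4) ^ ℓ

/-- The finite volume means along the diagonal. -/
noncomputable def MM (G : SimpleGraph V) [G.LocallyFinite] (θ : ℝ) (N R : ℕ → ℕ) (ℓ : ℕ) (ξ : Nz V) (v : V) : ℝ :=
  mB G (θsq θ (N ℓ)) v (R ℓ) (-(N ℓ : ℤ)) kapS ℓ 0 ξ v

/-- The limit along the diagonal. -/
noncomputable def mLim (G : SimpleGraph V) [G.LocallyFinite] (θ : ℝ) (N R : ℕ → ℕ) (ξ : Nz V) (v : V) : ℝ :=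
  limsup (fun ℓ : ℕ => MM G θ N R ℓ ξ v) atTop

/-- The size of the steps. -/
noncomputable def aD (ℓ : ℕ) : ℝ := 4 * (1 / 2) ^ ℓ + 4 * Real.exp (-(ℓ : ℝ) / 216)

/-! ### Auxiliary: the triangle inequality in `L²` -/

namespace DiagAux

/-- The triangle inequality in `L²` for bounded measurable functions, with the norms squared. -/
theorem l2_trans {Ω : Type*} [MeasurableSpace Ω] {P : Measure Ω} [IsProbabilityMeasure P] {f g h : Ω → ℝ}
    (hf : BM f) (hg : BM g) (hh : BM h) {a b : ℝ} (ha : 0 < a) (hb : 0 < b)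
    (h1 : ∫ ω, (f ω - g ω) ^ 2 ∂P ≤ a ^ 2) (h2 : ∫ ω, (g ω - h ω) ^ 2 ∂P ≤ b ^ 2) :
    ∫ ω, (f ω - h ω) ^ 2 ∂P ≤ (a + b) ^ 2 := by
  have hsq : ∀ {u v : Ω → ℝ}, BM u → BM v → BM (fun ω => (u ω - v ω) ^ 2) := fun {u v} hu hv => by
    have := hu.sub hv
    simpa only [pow_two] using this.mul this
  have i1 := (hsq hf hg).integrable P
  have i2 := (hsq hg hh).integrable P
  have i3 := (hsq hf hh).integrable P
  have hpt : ∀ ω, (f ω - h ω) ^ 2 ≤ (1 + b / a) * (f ω - g ω) ^ 2 + (1 + a / b) * (g ω - h ω) ^ 2 := by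
    intro ω
    set x := f ω - g ω with hx
    set y := g ω - h ω with hy
    have e : f ω - h ω = x + y := by simp only [hx, hy]; ring
    rw [e]
    have key : 2 * x * y ≤ b / a * x ^ 2 + a / b * y ^ 2 := by
      have h0 : 0 ≤ (b * x - a * y) ^ 2 / (a * b) := by positivity
      have h3 : (b * x - a * y) ^ 2 / (a * b) = b / a * x ^ 2 + a / b * y ^ 2 - 2 * x * y := by
        field_simp
        ring
      linarith
    nlinarith
  have hint : ∫ ω, (f ω - h ω) ^ 2 ∂P ≤ ∫ ω, ((1 + b / a) * (f ω - g ω) ^ 2 + (1 + a / b) * (g ω - h ω) ^ 2) ∂P :=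
    integral_mono i3 ((i1.const_mul _).add (i2.const_mul _)) hpt
  rw [integral_add (i1.const_mul _) (i2.const_mul _), integral_const_mul, integral_const_mul] at hint
  have c1 : 0 ≤ 1 + b / a := by positivity
  have c2 : 0 ≤ 1 + a / b := by positivity
  have h4 := mul_le_mul_of_nonneg_left h1 c1
  have h5 := mul_le_mul_of_nonneg_left h2 c2
  have e : (1 + b / a) * a ^ 2 + (1 + a / b) * b ^ 2 = (a + b) ^ 2 := by
    field_simp
    ring
  linarith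

/-- Exchanging the two functions. -/
theorem l2_comm {Ω : Type*} [MeasurableSpace Ω] (P : Measure Ω) (f g : Ω → ℝ) :
    ∫ ω, (f ω - g ω) ^ 2 ∂P = ∫ ω, (g ω - f ω) ^ 2 ∂P := by
  congr 1
  funext ω
  ring

/-- The geometric rates tend to zero after taking square roots. -/
theorem tendsto_sqrt_geom {C r : ℝ} (hr0 : 0 ≤ r) (hr1 : r < 1) :
    Tendsto (fun k : ℕ => Real.sqrt (C * r ^ k)) atTop (𝓝 0) := by
  have h1 : Tendsto (fun k : ℕ => C * r ^ k) atTop (𝓝 (C * 0)) :=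
    (tendsto_pow_atTop_nhds_zero_of_lt_one hr0 hr1).const_mul C
  rw [mul_zero] at h1
  have h2 := (Real.continuous_sqrt.tendsto 0).comp h1
  rw [Real.sqrt_zero] at h2
  exact h2

/-- The infinite volume means are bounded and measurable. -/
theorem bm_mInf (hG : RegTree G q) (hq : 2 ≤ q) {θ' : ℝ} (hθ' : Adm θ') (L ℓ : ℤ) (x : ℝ) (v : V) :
    BM (fun ξ : Nz V => mInf G θ' L kapS ℓ x ξ v) := by
  have hf : Measurable (fun ξ : Nz V => ((x, ξ) : ℝ × Nz V)) := measurable_const.prodMk measurable_id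
  have h : Measurable (fun p : ℝ × Nz V => mInf G θ' L kapS ℓ p.1 p.2 v) :=
    measurable_mInf (G := G) (θ := θ') (L := L) (ℓ := ℓ) hG hq sched_kapS v
  have h2 := h.comp hf
  exact ⟨h2, 1, fun ξ => abs_mInf_le hG hq sched_kapS hθ' ξ v⟩

end DiagAux

section diag

variable (hG : RegTree G q) (hq : 2 ≤ q) (hθ : Adm θ) (hqθ : (q : ℝ) * θ ^ 2 ≤ 1)
include hG hq hθ hqθ

/-- Two successive cells, in infinite volume: limit of `mSt_cell_diff` by `mInf_l2`. -/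
theorem mInf_cell_diff {θ' : ℝ} (hθ' : Adm θ') (hsub : (q : ℝ) * θ' ^ 2 < 1) {L ℓ ℓ' : ℤ} (hL : L ≤ ℓ) (hℓ : ℓ ≤ ℓ') (o : V) :
    ∫ ξ, (mInf G θ' L kapS ℓ' 0 ξ o - mInf G θ' L kapS ℓ 0 ξ o) ^ 2 ∂noiseP V ≤ 4 * Real.exp (-tauM L kapS ℓ 0 / 2) := by
  obtain ⟨C₁, Λ₁, hC₁, hΛ₁, hl₁⟩ := mInf_l2 hG hq sched_kapS (θ := θ') hθ' hsub L ℓ' (hL.trans hℓ)
  obtain ⟨C₂, Λ₂, hC₂, hΛ₂, hl₂⟩ := mInf_l2 hG hq sched_kapS (θ := θ') hθ' hsub L ℓ hL
  have hθ'' : Adm θ' := hθ'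
  have hx0 : (0 : ℝ) ∈ Icc (0 : ℝ) (1 / 2) := ⟨le_rfl, by norm_num⟩
  set D : ℝ := 4 * Real.exp (-tauM L kapS ℓ 0 / 2) with hD
  have hD0 : 0 < D := by positivity
  have hr₁0 : 0 < 1 / Λ₁ := by positivity
  have hr₂0 : 0 < 1 / Λ₂ := by positivity
  have hr₁1 : 1 / Λ₁ < 1 := by rw [div_lt_one (by linarith)]; exact hΛ₁
  have hr₂1 : 1 / Λ₂ < 1 := by rw [div_lt_one (by linarith)]; exact hΛ₂
  have hbmI : ∀ ℓ₀ : ℤ, BM (fun ξ : Nz V => mInf G θ' L kapS ℓ₀ 0 ξ o) := fun ℓ₀ =>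
    DiagAux.bm_mInf hG hq hθ'' L ℓ₀ 0 o
  have hbmB : ∀ (ℓ₀ : ℤ) (k : ℕ), BM (fun ξ : Nz V => mB G θ' o k L kapS ℓ₀ 0 ξ o) := fun ℓ₀ k =>
    VolB.bm_mB sched_kapS hθ'' o k L ℓ₀ 0 o
  have hbound : ∀ k : ℕ, ∫ ξ, (mInf G θ' L kapS ℓ' 0 ξ o - mInf G θ' L kapS ℓ 0 ξ o) ^ 2 ∂noiseP V ≤
      (Real.sqrt (C₁ * (1 / Λ₁) ^ k) + Real.sqrt D + Real.sqrt (C₂ * (1 / Λ₂) ^ k)) ^ 2 := by
    intro k
    have hmem : o ∈ ball G o k := (mem_ball hG o k o).2 (by simp)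
    have h1 := hl₁ 0 hx0 o o k hmem
    have h2 := hl₂ 0 hx0 o o k hmem
    simp only [SimpleGraph.dist_self, Nat.sub_zero] at h1 h2
    have hstar : Star G (ball G o k) o := star_ball hG hmem
    have h3 : ∫ ξ, (mB G θ' o k L kapS ℓ' 0 ξ o - mB G θ' o k L kapS ℓ 0 ξ o) ^ 2 ∂noiseP V ≤ D :=
      mSt_cell_diff (κ := kapS) hG sched_kapS hθ'' hL hℓ hstar
    have p1 : 0 < C₁ * (1 / Λ₁) ^ k := by positivity
    have p2 : 0 < C₂ * (1 / Λ₂) ^ k := by positivity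
    have s1 : ∫ ξ, (mInf G θ' L kapS ℓ' 0 ξ o - mB G θ' o k L kapS ℓ' 0 ξ o) ^ 2 ∂noiseP V ≤
        Real.sqrt (C₁ * (1 / Λ₁) ^ k) ^ 2 := by
      rw [Real.sq_sqrt p1.le, DiagAux.l2_comm]
      exact h1
    have s2 : ∫ ξ, (mB G θ' o k L kapS ℓ' 0 ξ o - mB G θ' o k L kapS ℓ 0 ξ o) ^ 2 ∂noiseP V ≤
        Real.sqrt D ^ 2 := by
      rw [Real.sq_sqrt hD0.le]
      exact h3
    have s3 : ∫ ξ, (mB G θ' o k L kapS ℓ 0 ξ o - mInf G θ' L kapS ℓ 0 ξ o) ^ 2 ∂noiseP V ≤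
        Real.sqrt (C₂ * (1 / Λ₂) ^ k) ^ 2 := by
      rw [Real.sq_sqrt p2.le]
      exact h2
    have t1 := DiagAux.l2_trans (hbmI ℓ') (hbmB ℓ' k) (hbmB ℓ k) (Real.sqrt_pos.2 p1) (Real.sqrt_pos.2 hD0) s1 s2
    exact DiagAux.l2_trans (hbmI ℓ') (hbmB ℓ k) (hbmI ℓ)
      (add_pos (Real.sqrt_pos.2 p1) (Real.sqrt_pos.2 hD0)) (Real.sqrt_pos.2 p2) t1 s3
  have hlim : Tendsto (fun k : ℕ => (Real.sqrt (C₁ * (1 / Λ₁) ^ k) + Real.sqrt D + Real.sqrt (C₂ * (1 / Λ₂) ^ k)) ^ 2)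
      atTop (𝓝 ((0 + Real.sqrt D + 0) ^ 2)) :=
    (((DiagAux.tendsto_sqrt_geom hr₁0.le hr₁1).add tendsto_const_nhds).add
      (DiagAux.tendsto_sqrt_geom hr₂0.le hr₂1)).pow 2
  have hfin := ge_of_tendsto' hlim hbound
  have e : (0 + Real.sqrt D + 0) ^ 2 = D := by
    rw [zero_add, add_zero, Real.sq_sqrt hD0.le]
  rwa [e] at hfin

/-- The diagonal exists. -/
theorem exists_diag : ∃ N R : ℕ → ℕ, Diag G θ N R := by
  choose M hM using fun ℓ : ℕ => cauchy_mN hG hq hθ hqθ (ℓ : ℤ) (ε := (1 / 4) ^ ℓ) (by positivity)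
  let N : ℕ → ℕ := fun ℓ => (∑ i ∈ Finset.range (ℓ + 1), M i) + ℓ
  have hNM : ∀ ℓ, M ℓ ≤ N ℓ := fun ℓ => by
    have : M ℓ ≤ ∑ i ∈ Finset.range (ℓ + 1), M i :=
      Finset.single_le_sum (f := M) (fun _ _ => Nat.zero_le _) (Finset.mem_range.2 (Nat.lt_succ_self ℓ))
    simp only [N]
    omega
  have hNmono : StrictMono N := by
    refine strictMono_nat_of_lt_succ fun ℓ => ?_
    simp only [N]
    rw [Finset.sum_range_succ _ (ℓ + 1)]
    omega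
  have hR : ∀ ℓ : ℕ, ∃ R : ℕ, ∀ v : V,
      ∫ ξ, (mB G (θsq θ (N ℓ)) v R (-(N ℓ : ℤ)) kapS ℓ 0 ξ v - mN G θ (N ℓ) ℓ 0 ξ v) ^ 2 ∂noiseP V ≤ (1 / 4) ^ ℓ := by
    intro ℓ
    obtain ⟨C, Λ, hC, hΛ, hl⟩ := mInf_l2 hG hq sched_kapS (adm_θsq hθ (N ℓ)) (sub_θsq hθ hqθ (N ℓ))
      (-(N ℓ : ℤ)) (ℓ : ℤ) (by omega)
    have hr0 : 0 < 1 / Λ := by positivity
    have hr1 : 1 / Λ < 1 := by rw [div_lt_one (by linarith)]; exact hΛ
    have hpos : 0 < (1 / 4 : ℝ) ^ ℓ / C := by positivity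
    obtain ⟨R, hRlt⟩ := exists_pow_lt_of_lt_one hpos hr1
    refine ⟨R, fun v => ?_⟩
    have h := hl 0 ⟨le_rfl, by norm_num⟩ v v R ((mem_ball hG v R v).2 (by simp))
    simp only [SimpleGraph.dist_self, Nat.sub_zero] at h
    refine h.trans ?_
    rw [lt_div_iff₀ hC] at hRlt
    linarith
  choose R hR' using hR
  refine ⟨N, R, hNmono, fun ℓ n n' hn hn' v => hM ℓ n n' ((hNM ℓ).trans hn) ((hNM ℓ).trans hn') v, fun ℓ v => hR' ℓ v⟩

omit hqθ hq hθ hG in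
theorem summable_aD : Summable aD := by
  have h1 : Summable (fun ℓ : ℕ => (4 : ℝ) * (1 / 2) ^ ℓ) :=
    (summable_geometric_of_lt_one (by norm_num) (by norm_num)).mul_left _
  have h2 : Summable (fun ℓ : ℕ => (4 : ℝ) * Real.exp (-1 / 216) ^ ℓ) :=
    (summable_geometric_of_lt_one (Real.exp_pos _).le ((Real.exp_lt_exp.mpr (by norm_num : (-1 / 216 : ℝ) < 0)).trans_eq Real.exp_zero)).mul_left _
  refine (h1.add h2).congr fun ℓ => ?_
  unfold aD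
  rw [← Real.exp_nat_mul]
  congr 3
  ring

omit hq hθ hqθ hG in
theorem aD_nonneg (ℓ : ℕ) : 0 ≤ aD ℓ := by
  unfold aD
  positivity

variable {N R : ℕ → ℕ} (hD : Diag G θ N R)
include hD

theorem measurable_MM (ℓ : ℕ) (v : V) : Measurable (fun ξ : Nz V => MM G θ N R ℓ ξ v) := by
  exact VolB.measurable_mB sched_kapS v (R ℓ) _ _ 0 v

theorem abs_MM_le (ℓ : ℕ) (ξ : Nz V) (v : V) : |MM G θ N R ℓ ξ v| ≤ 1 := by
  exact VolB.abs_mB_le sched_kapS (adm_θsq hθ (N ℓ)) v (R ℓ) _ _ 0 ξ v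

/-- **Exact equivariance.** -/
theorem MM_aut (g : G ≃g G) (ℓ : ℕ) (ξ : Nz V) (v : V) : MM G θ N R ℓ (actN g ξ) (g v) = MM G θ N R ℓ ξ v := by
  unfold MM mB
  rw [ball_aut g hG v (R ℓ)]
  exact mSt_aut sched_kapS g v

/-- **The step.** -/
theorem MM_step (ℓ : ℕ) (v : V) : ∫ ξ, (MM G θ N R ℓ ξ v - MM G θ N R (ℓ + 1) ξ v) ^ 2 ∂noiseP V ≤ aD ℓ ^ 2 := by
  set L' : ℤ := -(N (ℓ + 1) : ℤ) with hL'
  have hNle : N ℓ ≤ N (ℓ + 1) := (hD.mono (Nat.lt_succ_self ℓ)).le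
  have hθ₁ : Adm (θsq θ (N (ℓ + 1))) := adm_θsq hθ _
  have hθ₀ : Adm (θsq θ (N ℓ)) := adm_θsq hθ _
  have hbmN : ∀ (n : ℕ) (ℓ₀ : ℤ), BM (fun ξ : Nz V => mN G θ n ℓ₀ 0 ξ v) := fun n ℓ₀ =>
    DiagAux.bm_mInf hG hq (adm_θsq hθ n) (-(n : ℤ)) ℓ₀ 0 v
  have hbmM : ∀ ℓ₀ : ℕ, BM (fun ξ : Nz V => MM G θ N R ℓ₀ ξ v) := fun ℓ₀ =>
    ⟨measurable_MM hG hq hθ hqθ hD ℓ₀ v, 1, fun ξ => abs_MM_le hG hq hθ hqθ hD ℓ₀ ξ v⟩
  have hhalf : ∀ k : ℕ, (1 / 4 : ℝ) ^ k = ((1 / 2) ^ k) ^ 2 := fun k => by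
    rw [← pow_mul, mul_comm, pow_mul]
    norm_num
  have hp : (0 : ℝ) < (1 / 2) ^ ℓ := by positivity
  have hq2 : (0 : ℝ) < 2 * Real.exp (-(ℓ : ℝ) / 216) := by positivity
  -- first step
  have s1 : ∫ ξ, (MM G θ N R ℓ ξ v - mN G θ (N ℓ) ℓ 0 ξ v) ^ 2 ∂noiseP V ≤ ((1 / 2) ^ ℓ) ^ 2 := by
    rw [← hhalf]
    exact hD.ball ℓ v
  -- second step
  have s2 : ∫ ξ, (mN G θ (N ℓ) ℓ 0 ξ v - mN G θ (N (ℓ + 1)) ℓ 0 ξ v) ^ 2 ∂noiseP V ≤ ((1 / 2) ^ ℓ) ^ 2 := by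
    rw [← hhalf]
    exact hD.cauchy ℓ _ _ le_rfl hNle v
  -- third step
  have s3 : ∫ ξ, (mN G θ (N (ℓ + 1)) ℓ 0 ξ v - mN G θ (N (ℓ + 1)) ((ℓ + 1 : ℕ) : ℤ) 0 ξ v) ^ 2 ∂noiseP V ≤
      (2 * Real.exp (-(ℓ : ℝ) / 216)) ^ 2 := by
    rw [DiagAux.l2_comm]
    have h := mInf_cell_diff (θ' := θsq θ (N (ℓ + 1))) hG hq hθ hqθ hθ₁ (sub_θsq hθ hqθ _) (L := L') (ℓ := (ℓ : ℤ))
      (ℓ' := ((ℓ + 1 : ℕ) : ℤ)) (by omega) (by omega) v
    have h2 := tauM_kapS_ge_nat (L := L') (by omega) ℓ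
    refine h.trans ?_
    have e : (2 * Real.exp (-(ℓ : ℝ) / 216)) ^ 2 = 4 * Real.exp (-(ℓ : ℝ) / 108) := by
      have e1 : -(ℓ : ℝ) / 108 = ((2 : ℕ) : ℝ) * (-(ℓ : ℝ) / 216) := by
        push_cast
        ring
      rw [e1, Real.exp_nat_mul]
      ring
    rw [e]
    refine mul_le_mul_of_nonneg_left (Real.exp_le_exp.mpr ?_) (by norm_num)
    linarith
  -- fourth step
  have s4 : ∫ ξ, (mN G θ (N (ℓ + 1)) ((ℓ + 1 : ℕ) : ℤ) 0 ξ v - MM G θ N R (ℓ + 1) ξ v) ^ 2 ∂noiseP V ≤ ((1 / 2) ^ ℓ) ^ 2 := by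
    rw [DiagAux.l2_comm]
    refine (hD.ball (ℓ + 1) v).trans ?_
    rw [hhalf (ℓ + 1)]
    have h1 : ((1 : ℝ) / 2) ^ (ℓ + 1) ≤ (1 / 2) ^ ℓ := pow_le_pow_of_le_one (by norm_num) (by norm_num) (Nat.le_succ ℓ)
    exact pow_le_pow_left₀ (by positivity) h1 2
  have t1 := DiagAux.l2_trans (hbmM ℓ) (hbmN (N ℓ) ℓ) (hbmN (N (ℓ + 1)) ℓ) hp hp s1 s2
  have t2 := DiagAux.l2_trans (hbmM ℓ) (hbmN (N (ℓ + 1)) ℓ) (hbmN (N (ℓ + 1)) ((ℓ + 1 : ℕ) : ℤ))
    (add_pos hp hp) hq2 t1 s3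
  have t3 := DiagAux.l2_trans (hbmM ℓ) (hbmN (N (ℓ + 1)) ((ℓ + 1 : ℕ) : ℤ)) (hbmM (ℓ + 1))
    (add_pos (add_pos hp hp) hq2) hp t2 s4
  refine t3.trans ?_
  refine pow_le_pow_left₀ (by positivity) ?_ 2
  unfold aD
  have := Real.exp_pos (-(ℓ : ℝ) / 216)
  linarith

/-- Almost sure convergence. -/
theorem MM_tendsto (v : V) : ∀ᵐ ξ ∂noiseP V, Tendsto (fun ℓ => MM G θ N R ℓ ξ v) atTop (𝓝 (mLim G θ N R ξ v)) :=
  (l2_limit (P := noiseP V) (f := fun ℓ ξ => MM G θ N R ℓ ξ v) (a := aD)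
    (fun ℓ => measurable_MM hG hq hθ hqθ hD ℓ v) (fun ℓ ξ => abs_MM_le hG hq hθ hqθ hD ℓ ξ v)
    summable_aD (fun ℓ => MM_step hG hq hθ hqθ hD ℓ v) aD_nonneg).1

theorem measurable_mLim (v : V) : Measurable (fun ξ : Nz V => mLim G θ N R ξ v) :=
  measurable_limsup_seq (f := fun ℓ ξ => MM G θ N R ℓ ξ v) (fun ℓ => measurable_MM hG hq hθ hqθ hD ℓ v)

theorem abs_mLim_le (ξ : Nz V) (v : V) : |mLim G θ N R ξ v| ≤ 1 :=
  abs_limsup_le (f := fun ℓ => MM G θ N R ℓ ξ v) (fun ℓ => abs_MM_le hG hq hθ hqθ hD ℓ ξ v)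

theorem mLim_aut (g : G ≃g G) (ξ : Nz V) (v : V) : mLim G θ N R (actN g ξ) (g v) = mLim G θ N R ξ v := by
  unfold mLim
  congr 1
  funext ℓ
  exact MM_aut hG hq hθ hqθ hD g ℓ ξ v

/-- The limit has values `±1` almost surely: `one_sub_mSt_sq_le`, and `tauM` grows linearly (`tauM_kapS_ge_nat`). -/
theorem mLim_sq (v : V) : ∀ᵐ ξ ∂noiseP V, mLim G θ N R ξ v ^ 2 = 1 := by
  have hmM := fun ℓ => measurable_MM hG hq hθ hqθ hD ℓ v
  have hbM := fun ℓ ξ => abs_MM_le hG hq hθ hqθ hD ℓ ξ v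
  have hmL := measurable_mLim hG hq hθ hqθ hD v
  have hbL := fun ξ => abs_mLim_le hG hq hθ hqθ hD ξ v
  have hsq : ∀ t : ℝ, |t| ≤ 1 → |1 - t ^ 2| ≤ 1 := by
    intro t ht
    have h1 : t ^ 2 ≤ 1 := by
      rw [← sq_abs]
      nlinarith [abs_nonneg t]
    rw [abs_of_nonneg (by linarith)]
    nlinarith [sq_nonneg t]
  -- bounded convergence
  have hconv : Tendsto (fun ℓ : ℕ => ∫ ξ, (1 - MM G θ N R ℓ ξ v ^ 2) ∂noiseP V) atTop
      (𝓝 (∫ ξ, (1 - mLim G θ N R ξ v ^ 2) ∂noiseP V)) := by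
    refine tendsto_integral_of_dominated_convergence (fun _ => (1:ℝ)) (fun ℓ => ?_) (integrable_const _)
      (fun ℓ => Eventually.of_forall fun ξ => ?_) ?_
    · exact (measurable_const.sub ((hmM ℓ).pow_const 2)).aestronglyMeasurable
    · rw [Real.norm_eq_abs]
      exact hsq _ (hbM ℓ ξ)
    · filter_upwards [MM_tendsto hG hq hθ hqθ hD v] with ξ hξ
      exact (tendsto_const_nhds.sub (hξ.pow 2))
  -- the bound along the sequence
  have hle : ∀ ℓ : ℕ, ∫ ξ, (1 - MM G θ N R ℓ ξ v ^ 2) ∂noiseP V ≤ Real.exp (-(ℓ : ℝ) / 108) := by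
    intro ℓ
    have hstar : Star G (ball G v (R ℓ)) v := star_ball hG ((mem_ball hG v (R ℓ) v).mpr (by simp))
    have hL : (-(N ℓ : ℤ)) ≤ (ℓ : ℤ) := by omega
    have h1 := one_sub_mSt_sq_le (θ := θsq θ (N ℓ)) (L := -(N ℓ : ℤ)) (κ := kapS) (ℓ := (ℓ : ℤ)) (x := 0) hG sched_kapS
      (adm_θsq hθ (N ℓ)) le_rfl (by norm_num) hL hstar
    have h2 := tauM_kapS_ge_nat (L := -(N ℓ : ℤ)) (by omega) ℓ
    refine h1.trans (Real.exp_le_exp.mpr ?_)
    linarith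
  have hzero : Tendsto (fun ℓ : ℕ => Real.exp (-(ℓ : ℝ) / 108)) atTop (𝓝 0) := by
    refine Real.tendsto_exp_atBot.comp ?_
    have h1 : Tendsto (fun ℓ : ℕ => (ℓ : ℝ) / 108) atTop atTop :=
      tendsto_natCast_atTop_atTop.atTop_div_const (by norm_num)
    have h2 := tendsto_neg_atTop_atBot.comp h1
    refine h2.congr fun ℓ => ?_
    simp only [Function.comp_apply]
    ring
  have hI0 : ∫ ξ, (1 - mLim G θ N R ξ v ^ 2) ∂noiseP V ≤ 0 := le_of_tendsto_of_tendsto' hconv hzero hle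
  have hnn : 0 ≤ᵐ[noiseP V] fun ξ => 1 - mLim G θ N R ξ v ^ 2 := Eventually.of_forall fun ξ => by
    have := abs_le.mp (hbL ξ)
    show 0 ≤ 1 - mLim G θ N R ξ v ^ 2
    nlinarith [this.1, this.2]
  have hint : Integrable (fun ξ => 1 - mLim G θ N R ξ v ^ 2) (noiseP V) :=
    Integrable.of_bound (measurable_const.sub (hmL.pow_const 2)).aestronglyMeasurable 1
      (Eventually.of_forall fun ξ => by
        rw [Real.norm_eq_abs]
        exact hsq _ (hbL ξ))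
  have hI1 := (integral_eq_zero_iff_of_nonneg_ae hnn hint).mp (le_antisymm hI0 (integral_nonneg_of_ae hnn))
  filter_upwards [hI1] with ξ hξ
  have : 1 - mLim G θ N R ξ v ^ 2 = 0 := hξ
  linarith

/-- **The pattern along the diagonal.** -/
theorem pattern_MM {S : Finset V} (hS : (G.induce (S : Set V)).Connected) (η : V → Bool) :
    Tendsto (fun ℓ : ℕ => ∫ ξ, ∏ v ∈ S, ((1 + spin (η v) * MM G θ N R ℓ ξ v) / 2) ∂noiseP V) atTop (𝓝 (isingWeight G θ S η)) := by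
  -- the base point and the star structure
  obtain ⟨⟨o, ho⟩⟩ := hS.nonempty
  have ho' : o ∈ S := ho
  have hSstar : Star G S o := star_of_connected hG hS ho'
  obtain ⟨D, hDS⟩ : ∃ D : ℕ, ∀ v ∈ S, G.dist o v ≤ D :=
    ⟨S.sup (fun v => G.dist o v), fun v hv => Finset.le_sup (f := fun v => G.dist o v) hv⟩
  -- the estimate at each `ℓ`
  have key : ∀ ℓ : ℕ,
      |∫ ξ, ∏ v ∈ S, ((1 + spin (η v) * MM G θ N R ℓ ξ v) / 2) ∂noiseP V - isingWeight G (θsq θ (N ℓ)) S η| ≤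
        (S.card : ℝ) * (1 / 2) ^ ℓ + (S.card : ℝ) * Real.exp (-(ℓ : ℝ) / 108) := by
    intro ℓ
    have hθ' : Adm (θsq θ (N ℓ)) := adm_θsq hθ (N ℓ)
    have hsub : (q : ℝ) * θsq θ (N ℓ) ^ 2 < 1 := sub_θsq hθ hqθ (N ℓ)
    have hL : (-(N ℓ : ℤ)) ≤ (ℓ : ℤ) := by omega
    obtain ⟨C, Λ, hC, hΛ, hl2⟩ := mInf_l2 hG hq sched_kapS hθ' hsub (-(N ℓ : ℤ)) (ℓ : ℤ) hL
    have hΛ0 : (0 : ℝ) ≤ 1 / Λ := by positivity
    have hΛ1 : 1 / Λ < 1 := by
      rw [div_lt_one (by linarith)]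
      exact hΛ
    have hq14 : (0 : ℝ) < (1 / 4) ^ ℓ := by positivity
    -- the radius
    obtain ⟨M, hM⟩ : ∃ M : ℕ, C * (1 / Λ) ^ M ≤ (1 / 4) ^ ℓ := by
      have h1 : Tendsto (fun k : ℕ => C * (1 / Λ) ^ k) atTop (𝓝 (C * 0)) :=
        (tendsto_pow_atTop_nhds_zero_of_lt_one hΛ0 hΛ1).const_mul C
      rw [mul_zero] at h1
      exact (h1.eventually (ge_mem_nhds hq14)).exists
    set R' : ℕ := D + M with hR'
    have hSW : S ⊆ ball G o R' := by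
      intro v hv
      rw [mem_ball hG]
      have := hDS v hv
      omega
    have hWstar : Star G (ball G o R') o := star_ball hG ((mem_ball hG o R' o).mpr (by simp))
    -- one vertex
    have hv1 : ∀ v ∈ S, ∫ ξ, |MM G θ N R ℓ ξ v - mB G (θsq θ (N ℓ)) o R' (-(N ℓ : ℤ)) kapS ℓ 0 ξ v| ∂noiseP V ≤
        2 * (1 / 2) ^ ℓ := by
      intro v hv
      have hvW : v ∈ ball G o R' := hSW hv
      have h1 : ∫ ξ, (mB G (θsq θ (N ℓ)) o R' (-(N ℓ : ℤ)) kapS ℓ 0 ξ v - mInf G (θsq θ (N ℓ)) (-(N ℓ : ℤ)) kapS ℓ 0 ξ v) ^ 2 ∂noiseP V ≤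
          (1 / 4) ^ ℓ := by
        refine (hl2 0 ⟨le_rfl, by norm_num⟩ o v R' hvW).trans (le_trans ?_ hM)
        refine mul_le_mul_of_nonneg_left ?_ hC.le
        refine pow_le_pow_of_le_one hΛ0 hΛ1.le ?_
        have := hDS v hv
        omega
      have h2 : ∫ ξ, (MM G θ N R ℓ ξ v - mInf G (θsq θ (N ℓ)) (-(N ℓ : ℤ)) kapS ℓ 0 ξ v) ^ 2 ∂noiseP V ≤ (1 / 4) ^ ℓ :=
        hD.ball ℓ v
      have hbmM : BM (fun ξ : Nz V => MM G θ N R ℓ ξ v) :=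
        ⟨measurable_MM hG hq hθ hqθ hD ℓ v, 1, fun ξ => abs_MM_le hG hq hθ hqθ hD ℓ ξ v⟩
      have hbmI : BM (fun ξ : Nz V => mInf G (θsq θ (N ℓ)) (-(N ℓ : ℤ)) kapS ℓ 0 ξ v) :=
        DiagAux.bm_mInf hG hq hθ' _ _ _ v
      have hbmB : BM (fun ξ : Nz V => mB G (θsq θ (N ℓ)) o R' (-(N ℓ : ℤ)) kapS ℓ 0 ξ v) :=
        ⟨VolB.measurable_mB sched_kapS o R' _ _ 0 v, 1, fun ξ => VolB.abs_mB_le sched_kapS hθ' o R' _ _ 0 ξ v⟩
      have e14 : ((1 / 2 : ℝ) ^ ℓ) ^ 2 = (1 / 4) ^ ℓ := by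
        rw [← pow_mul, mul_comm, pow_mul]
        norm_num
      have hp : (0 : ℝ) < (1 / 2) ^ ℓ := by positivity
      have h3 := DiagAux.l2_trans (P := noiseP V) hbmM hbmI hbmB hp hp (by rw [e14]; exact h2)
        (by rw [e14, DiagAux.l2_comm]; exact h1)
      -- from `L²` to `L¹`
      set δ : ℝ := 2 * (1 / 2) ^ ℓ with hδ
      have hδ0 : 0 < δ := by positivity
      have hbmd := hbmM.sub hbmB
      have hint1 : Integrable (fun ξ => |MM G θ N R ℓ ξ v - mB G (θsq θ (N ℓ)) o R' (-(N ℓ : ℤ)) kapS ℓ 0 ξ v|) (noiseP V) :=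
        (hbmd.integrable (noiseP V)).abs
      have hint2 : Integrable (fun ξ => (MM G θ N R ℓ ξ v - mB G (θsq θ (N ℓ)) o R' (-(N ℓ : ℤ)) kapS ℓ 0 ξ v) ^ 2) (noiseP V) := by
        have := (hbmd.mul hbmd).integrable (noiseP V)
        simpa only [pow_two] using this
      have hpt : ∀ ξ, 2 * δ * |MM G θ N R ℓ ξ v - mB G (θsq θ (N ℓ)) o R' (-(N ℓ : ℤ)) kapS ℓ 0 ξ v| ≤
          (MM G θ N R ℓ ξ v - mB G (θsq θ (N ℓ)) o R' (-(N ℓ : ℤ)) kapS ℓ 0 ξ v) ^ 2 + δ ^ 2 := by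
        intro ξ
        have := sq_nonneg (|MM G θ N R ℓ ξ v - mB G (θsq θ (N ℓ)) o R' (-(N ℓ : ℤ)) kapS ℓ 0 ξ v| - δ)
        rw [sub_sq, sq_abs] at this
        linarith
      have hmono : ∫ ξ, 2 * δ * |MM G θ N R ℓ ξ v - mB G (θsq θ (N ℓ)) o R' (-(N ℓ : ℤ)) kapS ℓ 0 ξ v| ∂noiseP V ≤
          ∫ ξ, ((MM G θ N R ℓ ξ v - mB G (θsq θ (N ℓ)) o R' (-(N ℓ : ℤ)) kapS ℓ 0 ξ v) ^ 2 + δ ^ 2) ∂noiseP V :=
        integral_mono (hint1.const_mul (2 * δ)) (hint2.add (integrable_const (δ ^ 2))) hpt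
      rw [integral_const_mul, integral_add hint2 (integrable_const _), integral_const] at hmono
      simp only [probReal_univ, smul_eq_mul, one_mul] at hmono
      have e2 : ((1 / 2 : ℝ) ^ ℓ + (1 / 2) ^ ℓ) ^ 2 = δ ^ 2 := by
        rw [hδ]
        ring
      rw [e2] at h3
      have hfin : 2 * δ * ∫ ξ, |MM G θ N R ℓ ξ v - mB G (θsq θ (N ℓ)) o R' (-(N ℓ : ℤ)) kapS ℓ 0 ξ v| ∂noiseP V ≤ 2 * δ * δ := by
        nlinarith
      exact le_of_mul_le_mul_left hfin (by positivity)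
    -- the factors
    have hfac : ∀ (b : Bool) {t : ℝ}, |t| ≤ 1 → |(1 + spin b * t) / 2| ≤ 1 := by
      intro b t ht
      have := abs_le.mp ht
      rw [abs_le]
      cases b <;> simp only [spin, if_true, if_false, Bool.false_eq_true] <;> constructor <;> linarith
    have hmeasA : Measurable (fun ξ : Nz V => ∏ v ∈ S, ((1 + spin (η v) * MM G θ N R ℓ ξ v) / 2)) :=
      Finset.measurable_prod _ (fun v _ => ((measurable_const.add (measurable_const.mul (measurable_MM hG hq hθ hqθ hD ℓ v))).div_const 2))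
    have hmeasB : Measurable (fun ξ : Nz V => ∏ v ∈ S, ((1 + spin (η v) * mB G (θsq θ (N ℓ)) o R' (-(N ℓ : ℤ)) kapS ℓ 0 ξ v) / 2)) :=
      Finset.measurable_prod _ (fun v _ => ((measurable_const.add (measurable_const.mul (VolB.measurable_mB sched_kapS o R' _ _ 0 v))).div_const 2))
    have hprod1 : ∀ (f : Nz V → V → ℝ), (∀ ξ v, |f ξ v| ≤ 1) → ∀ ξ, |∏ v ∈ S, ((1 + spin (η v) * f ξ v) / 2)| ≤ 1 := by
      intro f hf ξ
      rw [Finset.abs_prod]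
      exact Finset.prod_le_one (fun _ _ => abs_nonneg _) (fun v _ => hfac (η v) (hf ξ v))
    have hintA : Integrable (fun ξ : Nz V => ∏ v ∈ S, ((1 + spin (η v) * MM G θ N R ℓ ξ v) / 2)) (noiseP V) :=
      Integrable.of_bound hmeasA.aestronglyMeasurable 1 (Eventually.of_forall fun ξ => by
        rw [Real.norm_eq_abs]
        exact hprod1 (fun ξ v => MM G θ N R ℓ ξ v) (fun ξ v => abs_MM_le hG hq hθ hqθ hD ℓ ξ v) ξ)
    have hintB : Integrable (fun ξ : Nz V => ∏ v ∈ S, ((1 + spin (η v) * mB G (θsq θ (N ℓ)) o R' (-(N ℓ : ℤ)) kapS ℓ 0 ξ v) / 2)) (noiseP V) :=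
      Integrable.of_bound hmeasB.aestronglyMeasurable 1 (Eventually.of_forall fun ξ => by
        rw [Real.norm_eq_abs]
        exact hprod1 (fun ξ v => mB G (θsq θ (N ℓ)) o R' (-(N ℓ : ℤ)) kapS ℓ 0 ξ v)
          (fun ξ v => VolB.abs_mB_le sched_kapS hθ' o R' _ _ 0 ξ v) ξ)
    -- comparison of the two products
    have hcomp : |∫ ξ, ∏ v ∈ S, ((1 + spin (η v) * MM G θ N R ℓ ξ v) / 2) ∂noiseP V -
        ∫ ξ, ∏ v ∈ S, ((1 + spin (η v) * mB G (θsq θ (N ℓ)) o R' (-(N ℓ : ℤ)) kapS ℓ 0 ξ v) / 2) ∂noiseP V| ≤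
        (S.card : ℝ) * (1 / 2) ^ ℓ := by
      rw [← integral_sub hintA hintB]
      refine (abs_integral_le_integral_abs).trans ?_
      have hbd : ∀ ξ : Nz V, |∏ v ∈ S, ((1 + spin (η v) * MM G θ N R ℓ ξ v) / 2) -
          ∏ v ∈ S, ((1 + spin (η v) * mB G (θsq θ (N ℓ)) o R' (-(N ℓ : ℤ)) kapS ℓ 0 ξ v) / 2)| ≤
          ∑ v ∈ S, (1 / 2) * |MM G θ N R ℓ ξ v - mB G (θsq θ (N ℓ)) o R' (-(N ℓ : ℤ)) kapS ℓ 0 ξ v| := by
        intro ξ
        refine (LinkAux.abs_prod_sub_prod_le S _ _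
          (fun v _ => hfac (η v) (abs_MM_le hG hq hθ hqθ hD ℓ ξ v))
          (fun v _ => hfac (η v) (VolB.abs_mB_le sched_kapS hθ' o R' _ _ 0 ξ v))).trans ?_
        refine Finset.sum_le_sum fun v _ => le_of_eq ?_
        have e : (1 + spin (η v) * MM G θ N R ℓ ξ v) / 2 - (1 + spin (η v) * mB G (θsq θ (N ℓ)) o R' (-(N ℓ : ℤ)) kapS ℓ 0 ξ v) / 2 =
            (1 / 2) * (spin (η v) * (MM G θ N R ℓ ξ v - mB G (θsq θ (N ℓ)) o R' (-(N ℓ : ℤ)) kapS ℓ 0 ξ v)) := by ring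
        rw [e, abs_mul, abs_mul]
        have hs : |spin (η v)| = 1 := by
          cases η v <;> simp [spin]
        rw [hs, one_mul, abs_of_pos (by norm_num : (0:ℝ) < 1 / 2)]
      have hintabs : ∀ v ∈ S, Integrable (fun ξ : Nz V => (1 / 2) * |MM G θ N R ℓ ξ v - mB G (θsq θ (N ℓ)) o R' (-(N ℓ : ℤ)) kapS ℓ 0 ξ v|) (noiseP V) := by
        intro v _
        have hbmM : BM (fun ξ : Nz V => MM G θ N R ℓ ξ v) :=
          ⟨measurable_MM hG hq hθ hqθ hD ℓ v, 1, fun ξ => abs_MM_le hG hq hθ hqθ hD ℓ ξ v⟩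
        have hbmB : BM (fun ξ : Nz V => mB G (θsq θ (N ℓ)) o R' (-(N ℓ : ℤ)) kapS ℓ 0 ξ v) :=
          ⟨VolB.measurable_mB sched_kapS o R' _ _ 0 v, 1, fun ξ => VolB.abs_mB_le sched_kapS hθ' o R' _ _ 0 ξ v⟩
        exact (((hbmM.sub hbmB).integrable (noiseP V)).abs).const_mul _
      refine (integral_mono (hintA.sub hintB).abs (integrable_finset_sum _ hintabs) hbd).trans ?_
      rw [integral_finset_sum _ hintabs]
      refine (Finset.sum_le_card_nsmul S _ ((1 / 2) ^ ℓ) ?_).trans (le_of_eq (by rw [nsmul_eq_mul]))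
      intro v hv
      rw [integral_const_mul]
      have := hv1 v hv
      have h2 : (1 / 2 : ℝ) * ∫ ξ, |MM G θ N R ℓ ξ v - mB G (θsq θ (N ℓ)) o R' (-(N ℓ : ℤ)) kapS ℓ 0 ξ v| ∂noiseP V ≤ (1 / 2) * (2 * (1 / 2) ^ ℓ) :=
        mul_le_mul_of_nonneg_left this (by norm_num)
      linarith
    -- the planted pattern
    have hplant := pattern_planted (θ := θsq θ (N ℓ)) (L := -(N ℓ : ℤ)) (κ := kapS) (ℓ := (ℓ : ℤ)) hG sched_kapS hθ'
      hWstar hSstar hSW hL η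
    have htau := tauM_kapS_ge_nat (L := -(N ℓ : ℤ)) (by omega) ℓ
    have hexp : Real.exp (-tauM (-(N ℓ : ℤ)) kapS (ℓ : ℤ) 0 / 2) ≤ Real.exp (-(ℓ : ℝ) / 108) :=
      Real.exp_le_exp.mpr (by linarith)
    have hplant2 : |∫ ξ, ∏ v ∈ S, ((1 + spin (η v) * mB G (θsq θ (N ℓ)) o R' (-(N ℓ : ℤ)) kapS ℓ 0 ξ v) / 2) ∂noiseP V -
        isingWeight G (θsq θ (N ℓ)) S η| ≤ (S.card : ℝ) * Real.exp (-(ℓ : ℝ) / 108) :=
      hplant.trans (mul_le_mul_of_nonneg_left hexp (Nat.cast_nonneg _))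
    have htri := abs_sub_le (∫ ξ, ∏ v ∈ S, ((1 + spin (η v) * MM G θ N R ℓ ξ v) / 2) ∂noiseP V)
      (∫ ξ, ∏ v ∈ S, ((1 + spin (η v) * mB G (θsq θ (N ℓ)) o R' (-(N ℓ : ℤ)) kapS ℓ 0 ξ v) / 2) ∂noiseP V)
      (isingWeight G (θsq θ (N ℓ)) S η)
    linarith
  -- the bound tends to zero
  have hb1 : Tendsto (fun ℓ : ℕ => (S.card : ℝ) * (1 / 2 : ℝ) ^ ℓ) atTop (𝓝 0) := by
    have := (tendsto_pow_atTop_nhds_zero_of_lt_one (by norm_num : (0:ℝ) ≤ 1 / 2) (by norm_num)).const_mul (S.card : ℝ)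
    rwa [mul_zero] at this
  have hzero : Tendsto (fun ℓ : ℕ => Real.exp (-(ℓ : ℝ) / 108)) atTop (𝓝 0) := by
    refine Real.tendsto_exp_atBot.comp ?_
    have h1 : Tendsto (fun ℓ : ℕ => (ℓ : ℝ) / 108) atTop atTop :=
      tendsto_natCast_atTop_atTop.atTop_div_const (by norm_num)
    have h2 := tendsto_neg_atTop_atBot.comp h1
    refine h2.congr fun ℓ => ?_
    simp only [Function.comp_apply]
    ring
  have hb2 : Tendsto (fun ℓ : ℕ => (S.card : ℝ) * Real.exp (-(ℓ : ℝ) / 108)) atTop (𝓝 0) := by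
    have := hzero.const_mul (S.card : ℝ)
    rwa [mul_zero] at this
  have hbd : Tendsto (fun ℓ : ℕ => (S.card : ℝ) * (1 / 2 : ℝ) ^ ℓ + (S.card : ℝ) * Real.exp (-(ℓ : ℝ) / 108)) atTop (𝓝 0) := by
    have := hb1.add hb2
    rwa [add_zero] at this
  -- continuity of the weight
  have hcont : Continuous (fun t : ℝ => isingWeight G t S η) := by
    unfold isingWeight
    refine continuous_const.mul (continuous_finset_prod _ fun e _ => ?_)
    split_ifs <;> fun_prop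
  have hw : Tendsto (fun ℓ : ℕ => isingWeight G (θsq θ (N ℓ)) S η) atTop (𝓝 (isingWeight G θ S η)) :=
    (hcont.tendsto θ).comp ((tendsto_θsq (θ := θ)).comp hD.mono.tendsto_atTop)
  have hdiff : Tendsto (fun ℓ : ℕ => ∫ ξ, ∏ v ∈ S, ((1 + spin (η v) * MM G θ N R ℓ ξ v) / 2) ∂noiseP V - isingWeight G (θsq θ (N ℓ)) S η) atTop (𝓝 0) :=
    squeeze_zero_norm (fun ℓ => by rw [Real.norm_eq_abs]; exact key ℓ) hbd
  have := hdiff.add hw
  rw [zero_add] at this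
  refine this.congr fun ℓ => ?_
  ring

/-- **The pattern in the limit.** -/
theorem pattern_mLim {S : Finset V} (hS : (G.induce (S : Set V)).Connected) (η : V → Bool) :
    ∫ ξ, ∏ v ∈ S, ((1 + spin (η v) * mLim G θ N R ξ v) / 2) ∂noiseP V = isingWeight G θ S η := by
  have hfac : ∀ (b : Bool) {t : ℝ}, |t| ≤ 1 → |(1 + spin b * t) / 2| ≤ 1 := by
    intro b t ht
    have := abs_le.mp ht
    rw [abs_le]
    cases b <;> simp only [spin, if_true, if_false, Bool.false_eq_true] <;> constructor <;> linarith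
  have h2 : Tendsto (fun ℓ : ℕ => ∫ ξ, ∏ v ∈ S, ((1 + spin (η v) * MM G θ N R ℓ ξ v) / 2) ∂noiseP V) atTop
      (𝓝 (∫ ξ, ∏ v ∈ S, ((1 + spin (η v) * mLim G θ N R ξ v) / 2) ∂noiseP V)) := by
    refine tendsto_integral_of_dominated_convergence (fun _ => (1:ℝ)) (fun ℓ => ?_) (integrable_const _)
      (fun ℓ => Eventually.of_forall fun ξ => ?_) ?_
    · exact (Finset.measurable_prod _ (fun v _ => ((measurable_const.add (measurable_const.mul
        (measurable_MM hG hq hθ hqθ hD ℓ v))).div_const 2))).aestronglyMeasurable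
    · rw [Real.norm_eq_abs, Finset.abs_prod]
      exact Finset.prod_le_one (fun _ _ => abs_nonneg _) (fun v _ => hfac (η v) (abs_MM_le hG hq hθ hqθ hD ℓ ξ v))
    · have hae : ∀ᵐ ξ ∂noiseP V, ∀ v ∈ S, Tendsto (fun ℓ => MM G θ N R ℓ ξ v) atTop (𝓝 (mLim G θ N R ξ v)) :=
        (Filter.eventually_all_finset S).mpr (fun v _ => MM_tendsto hG hq hθ hqθ hD v)
      filter_upwards [hae] with ξ hξ
      refine tendsto_finset_prod _ fun v hv => ?_
      exact ((hξ v hv).const_mul (spin (η v))).const_add 1 |>.div_const 2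
  exact tendsto_nhds_unique h2 (pattern_MM hG hq hθ hqθ hD hS η)

/-- The probability of a pattern. -/
theorem prob_mLim {S : Finset V} (hS : (G.induce (S : Set V)).Connected) (η : V → Bool) :
    noiseP V {ξ | ∀ v ∈ S, decide (0 < mLim G θ N R ξ v) = η v} = ENNReal.ofReal (isingWeight G θ S η) := by
  have hE : MeasurableSet {ξ : Nz V | ∀ v ∈ S, decide (0 < mLim G θ N R ξ v) = η v} := by
    have : {ξ : Nz V | ∀ v ∈ S, decide (0 < mLim G θ N R ξ v) = η v} =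
        ⋂ v ∈ S, {ξ : Nz V | decide (0 < mLim G θ N R ξ v) = η v} := by
      ext ξ
      simp only [Set.mem_setOf_eq, Set.mem_iInter]
    rw [this]
    refine Finset.measurableSet_biInter _ fun v _ => ?_
    have hm := measurable_mLim hG hq hθ hqθ hD v
    cases hb : η v
    · have : {ξ : Nz V | decide (0 < mLim G θ N R ξ v) = false} = {ξ | mLim G θ N R ξ v ≤ 0} := by
        ext ξ
        simp
      rw [this]
      exact measurableSet_le hm measurable_const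
    · have : {ξ : Nz V | decide (0 < mLim G θ N R ξ v) = true} = {ξ | 0 < mLim G θ N R ξ v} := by
        ext ξ
        simp
      rw [this]
      exact measurableSet_lt measurable_const hm
  have hae : ∀ᵐ ξ ∂noiseP V, ∀ v ∈ S, mLim G θ N R ξ v ^ 2 = 1 :=
    (Filter.eventually_all_finset S).mpr (fun v _ => mLim_sq hG hq hθ hqθ hD v)
  have hind : (fun ξ : Nz V => ∏ v ∈ S, ((1 + spin (η v) * mLim G θ N R ξ v) / 2)) =ᵐ[noiseP V]
      {ξ : Nz V | ∀ v ∈ S, decide (0 < mLim G θ N R ξ v) = η v}.indicator (fun _ => (1:ℝ)) := by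
    filter_upwards [hae] with ξ hξ
    have hfac : ∀ v ∈ S, (1 + spin (η v) * mLim G θ N R ξ v) / 2 =
        if decide (0 < mLim G θ N R ξ v) = η v then 1 else 0 := by
      intro v hv
      have h1 := hξ v hv
      have h2 : mLim G θ N R ξ v = 1 ∨ mLim G θ N R ξ v = -1 := by
        have : (mLim G θ N R ξ v - 1) * (mLim G θ N R ξ v + 1) = 0 := by ring_nf; linarith
        rcases mul_eq_zero.mp this with h | h
        · left; linarith
        · right; linarith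
      rcases h2 with h2 | h2 <;> rw [h2] <;> cases η v <;> norm_num [spin]
    rw [Finset.prod_congr rfl hfac, Finset.prod_ite_zero]
    simp only [Set.indicator, Set.mem_setOf_eq, Finset.prod_const_one]
  have hI := pattern_mLim hG hq hθ hqθ hD hS η
  rw [integral_congr_ae hind, integral_indicator hE, setIntegral_const] at hI
  simp only [smul_eq_mul, mul_one] at hI
  rw [← hI, measureReal_def, ENNReal.ofReal_toReal (measure_ne_top _ _)]

end diag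

/-- **The factor of iid.** -/
theorem main_factor {V : Type*} (G : SimpleGraph V) [G.LocallyFinite] {q : ℕ} {θ : ℝ} (hG : RegTree G q) (hq : 2 ≤ q) (hθ : Adm θ) (hqθ : (q : ℝ) * θ ^ 2 ≤ 1) :
    ∃ Φ : (V → unitInterval) → (V → Bool),
      Measurable Φ ∧
      (∀ (g : G ≃g G) (x : V → unitInterval), Φ (x ∘ ⇑g) = Φ x ∘ ⇑g) ∧
      ∀ (S : Finset V) (η : V → Bool), (G.induce (S : Set V)).Connected →
        (labelMeasure V).map Φ {τ | ∀ v ∈ S, τ v = η v} = ENNReal.ofReal (isingWeight G θ S η) := by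
  obtain ⟨N, R, hD⟩ := exists_diag (G := G) (θ := θ) hG hq hθ hqθ
  have hm : ∀ v, Measurable (fun ξ : Nz V => decide (0 < mLim G θ N R ξ v)) := by
    intro v
    refine measurable_to_bool ?_
    have : (fun ξ : Nz V => decide (0 < mLim G θ N R ξ v)) ⁻¹' {true} = {ξ | 0 < mLim G θ N R ξ v} := by
      ext ξ; simp
    rw [this]
    exact measurableSet_lt measurable_const (measurable_mLim hG hq hθ hqθ hD v)
  let Ψ : Nz V → V → Bool := fun ξ v => decide (0 < mLim G θ N R ξ v)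
  have hΨ : Measurable Ψ := measurable_pi_iff.2 hm
  refine ⟨fun x => Ψ (lab x), hΨ.comp measurable_lab, ?_, ?_⟩
  · intro g x
    funext v
    simp only [Function.comp_apply, Ψ]
    rw [lab_comp]
    have := mLim_aut hG hq hθ hqθ hD g.symm (lab x) (g v)
    simp only [RelIso.symm_apply_apply] at this
    rw [this]
  · intro S η hS
    have hset : MeasurableSet {τ : V → Bool | ∀ v ∈ S, τ v = η v} := by
      have : {τ : V → Bool | ∀ v ∈ S, τ v = η v} = ⋂ v ∈ S, (fun τ : V → Bool => τ v) ⁻¹' {η v} := by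
        ext τ; simp
      rw [this]
      exact Finset.measurableSet_biInter S fun v _ => (measurable_pi_apply v) (measurableSet_singleton _)
    have hset' : MeasurableSet {ξ : Nz V | ∀ v ∈ S, decide (0 < mLim G θ N R ξ v) = η v} := hΨ hset
    have hcomp : Measurable (fun x : V → I => Ψ (lab x)) := hΨ.comp measurable_lab
    rw [Measure.map_apply hcomp hset]
    have hp := prob_mLim hG hq hθ hqθ hD hS η
    rw [← map_lab, Measure.map_apply measurable_lab hset'] at hp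
    exact hp

/-- The parameters of the statement. -/
theorem params_of_statement {d : ℕ} (hd : 3 ≤ d) {β : ℝ} (hβ : 0 ≤ β) (hθ : Real.tanh β ≤ ((d : ℝ) - 1) ^ (-(1 / 2 : ℝ))) :
    Adm (Real.tanh β) ∧ 2 ≤ d - 1 ∧ ((d - 1 : ℕ) : ℝ) * Real.tanh β ^ 2 ≤ 1 := by
  have hd' : (3 : ℝ) ≤ d := by exact_mod_cast hd
  have hd1 : (0 : ℝ) < (d : ℝ) - 1 := by linarith
  have hcast : ((d - 1 : ℕ) : ℝ) = (d : ℝ) - 1 := by
    rw [Nat.cast_sub (by omega)]; simp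
  have ht0 : 0 ≤ Real.tanh β := by
    rw [Real.tanh_eq_sinh_div_cosh]
    exact div_nonneg (Real.sinh_nonneg_iff.2 hβ) (Real.cosh_pos β).le
  have hsq : Real.tanh β ^ 2 ≤ ((d : ℝ) - 1)⁻¹ := by
    have h1 : Real.tanh β ^ 2 ≤ (((d : ℝ) - 1) ^ (-(1 / 2 : ℝ))) ^ 2 := by gcongr
    have h2 : (((d : ℝ) - 1) ^ (-(1 / 2 : ℝ))) ^ 2 = ((d : ℝ) - 1)⁻¹ := by
      rw [← Real.rpow_natCast, ← Real.rpow_mul hd1.le]
      norm_num
      exact Real.rpow_neg_one _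
    linarith
  have hmul : ((d : ℝ) - 1) * Real.tanh β ^ 2 ≤ 1 := by
    calc ((d : ℝ) - 1) * Real.tanh β ^ 2 ≤ ((d : ℝ) - 1) * ((d : ℝ) - 1)⁻¹ := by gcongr
      _ = 1 := mul_inv_cancel₀ hd1.ne'
  refine ⟨⟨ht0, ?_⟩, by omega, by rw [hcast]; exact hmul⟩
  have h2 : (2 : ℝ) ≤ (d : ℝ) - 1 := by linarith
  nlinarith [sq_nonneg (Real.tanh β)]

/-- The graph of the statement. -/
theorem regTree_of_statement {V : Type*} {G : SimpleGraph V} [G.LocallyFinite] {d : ℕ} (hd : 3 ≤ d) (hT : G.IsTree) (hreg : G.IsRegularOfDegree d) :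
    RegTree G (d - 1) := by
  refine ⟨hT, fun v => ?_⟩
  have := hreg v
  rw [SimpleGraph.card_neighborFinset_eq_degree, this]
  omega

end Crest.Agent.Lib.TI
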