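import Mathlib

/-!
# Geometry of the regular tree (S0241 project, module TI.Geom)

`G` is a locally finite tree with all degrees `q + 1`.  Everything about the tree used later on is stated here,
in terms of `G.dist`, the next-step function `nxt`, the rooted pieces `subT`, `level`, `ball`, `sphere`
and the two-point homogeneity `exists_aut`.

Statement bodies are `sorry` until filled in.
-/

set_option autoImplicit false
set_option linter.unusedSectionVars false

namespace Crest.Agent.Lib.TI

open Classical

variable {V : Type*} (G : SimpleGraph V) [G.LocallyFinite]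

/-- Hypotheses on the graph: a tree with all degrees `q + 1`. -/
structure RegTree (q : ℕ) : Prop where
  tree : G.IsTree
  reg : ∀ v, (G.neighborFinset v).card = q + 1

/-- Children of `b` seen from `a`. -/
noncomputable def kids (a b : V) : Finset V := (G.neighborFinset b).erase a

/-- Vertices at depth exactly `l` below `b`, away from `a`. -/
noncomputable def level : ℕ → V → V → Finset V
  | 0, _, b => {b}
  | l + 1, a, b => (kids G a b).biUnion (fun d => level l b d)

/-- Vertices at depth at most `n` below `b`, away from `a` (the subtree of `b`). -/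
noncomputable def subT : ℕ → V → V → Finset V
  | 0, _, b => {b}
  | n + 1, a, b => insert b ((kids G a b).biUnion (fun d => subT n b d))

/-- Balls. -/
noncomputable def ball (o : V) : ℕ → Finset V
  | 0 => {o}
  | R + 1 => insert o ((G.neighborFinset o).biUnion (fun d => subT G R o d))

/-- Spheres. -/
noncomputable def sphere (o : V) : ℕ → Finset V
  | 0 => {o}
  | k + 1 => (G.neighborFinset o).biUnion (fun d => level G k o d)

/-- The neighbour of `v` one step closer to `u` (`v` itself if `v = u`). -/
noncomputable def nxt (v u : V) : V :=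
  if h : ∃ w, G.Adj v w ∧ G.dist w u + 1 = G.dist v u then h.choose else v

variable {G} {q : ℕ}

section dist

variable (hG : RegTree G q)
include hG

/-- In a tree adjacent vertices have distances to any third vertex differing by exactly one. -/
theorem dist_adj_cases {a b : V} (h : G.Adj a b) (v : V) :
    G.dist a v = G.dist b v + 1 ∨ G.dist b v = G.dist a v + 1 := by
  have := hG.tree.dist_eq_dist_add_one_of_adj v h
  simpa [SimpleGraph.dist_comm] using this

theorem exists_step {v u : V} (h : v ≠ u) : ∃ w, G.Adj v w ∧ G.dist w u + 1 = G.dist v u := by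
  obtain ⟨p, hp⟩ := hG.tree.connected.exists_walk_length_eq_dist v u
  cases p with
  | nil => exact absurd rfl h
  | @cons _ w _ hadj q =>
    refine ⟨w, hadj, ?_⟩
    rw [SimpleGraph.Walk.length_cons] at hp
    have h1 : G.dist w u ≤ q.length := SimpleGraph.dist_le q
    have h2 : G.dist v u ≤ G.dist v w + G.dist w u := hG.tree.connected.dist_triangle
    have h3 : G.dist v w = 1 := SimpleGraph.dist_eq_one_iff_adj.2 hadj
    omega

omit hG in
private theorem nxt_spec {v u : V} (h : ∃ w, G.Adj v w ∧ G.dist w u + 1 = G.dist v u) :
    G.Adj v (nxt G v u) ∧ G.dist (nxt G v u) u + 1 = G.dist v u := by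
  unfold nxt
  rw [dif_pos h]
  exact h.choose_spec

theorem nxt_adj {v u : V} (h : v ≠ u) : G.Adj v (nxt G v u) :=
  (nxt_spec (exists_step hG h)).1

theorem dist_nxt {v u : V} (h : v ≠ u) : G.dist (nxt G v u) u + 1 = G.dist v u :=
  (nxt_spec (exists_step hG h)).2

/-- Uniqueness of the step towards `u`: this is where acyclicity enters. -/
theorem unique_step {v u w w' : V} (hw : G.Adj v w) (h : G.dist w u + 1 = G.dist v u)
    (hw' : G.Adj v w') (h' : G.dist w' u + 1 = G.dist v u) : w = w' := by
  obtain ⟨p, hp⟩ := hG.tree.connected.exists_walk_length_eq_dist w u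
  obtain ⟨p', hp'⟩ := hG.tree.connected.exists_walk_length_eq_dist w' u
  have h1 : (SimpleGraph.Walk.cons hw p).IsPath :=
    SimpleGraph.Walk.isPath_of_length_eq_dist _ (by simp [hp, h])
  have h2 : (SimpleGraph.Walk.cons hw' p').IsPath :=
    SimpleGraph.Walk.isPath_of_length_eq_dist _ (by simp [hp', h'])
  have h3 := (hG.tree.isAcyclic.subsingleton_path v u).elim ⟨_, h1⟩ ⟨_, h2⟩
  have h4 : SimpleGraph.Walk.cons hw p = SimpleGraph.Walk.cons hw' p' := congrArg Subtype.val h3
  simpa using congrArg SimpleGraph.Walk.snd h4

theorem eq_nxt_of {v u w : V} (hw : G.Adj v w) (h : G.dist w u + 1 = G.dist v u) : w = nxt G v u := by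
  have hne : v ≠ u := by
    rintro rfl
    simp at h
  exact unique_step hG hw h (nxt_adj hG hne) (dist_nxt hG hne)

theorem nxt_self (v : V) : nxt G v v = v := by
  unfold nxt
  rw [dif_neg]
  rintro ⟨w, -, h⟩
  simp at h

/-- A neighbour other than the next step is farther away. -/
theorem dist_of_ne_nxt {v u w : V} (hw : G.Adj v w) (hne : w ≠ nxt G v u) :
    G.dist w u = G.dist v u + 1 := by
  rcases dist_adj_cases hG hw u with h | h
  · exact absurd (eq_nxt_of hG hw h.symm) hne
  · exact h

/-- Only the edge `(a, b)` joins the `a`-side and the `b`-side of `(a, b)`. -/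
theorem side_edge {a b x y : V} (hab : G.Adj a b) (hxy : G.Adj x y)
    (hx : G.dist a x < G.dist b x) (hy : G.dist b y < G.dist a y) : x = a ∧ y = b := by
  have h1 := dist_adj_cases hG hab x
  have h2 := dist_adj_cases hG hab y
  have h3 := dist_adj_cases hG hxy.symm a
  have h4 := dist_adj_cases hG hxy.symm b
  simp only [SimpleGraph.dist_comm (v := a), SimpleGraph.dist_comm (v := b)] at h3 h4
  have hconn := hG.tree.connected
  -- `A = dist a x`, `dist b x = A + 1`, `dist a y = A + 1`, `dist b y = A`
  have hA : G.dist a x = 0 := by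
    by_contra hA
    have hne : y ≠ b := by
      rintro rfl
      have : G.dist y y = 0 := SimpleGraph.dist_self
      omega
    have hz1 := dist_nxt hG hne
    have hz2 := nxt_adj hG hne
    have hz3 : G.dist (nxt G y b) a ≤ G.dist (nxt G y b) b + G.dist b a := hconn.dist_triangle
    have hz4 : G.dist b a = 1 := SimpleGraph.dist_eq_one_iff_adj.2 hab.symm
    have hz5 := dist_adj_cases hG hz2 a
    have hz6 : nxt G y b = x := by
      refine unique_step (u := a) hG hz2 ?_ hxy.symm ?_
      · simp only [SimpleGraph.dist_comm (u := y) (v := b)] at hz1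
        simp only [SimpleGraph.dist_comm (v := a)] at *
        omega
      · simp only [SimpleGraph.dist_comm (v := a)] at *
        omega
    rw [hz6] at hz1
    simp only [SimpleGraph.dist_comm (v := b)] at *
    omega
  have hxa : x = a := ((hconn.dist_eq_zero_iff).1 hA).symm
  subst hxa
  refine ⟨rfl, ?_⟩
  have : G.dist b y = 0 := by
    simp only [SimpleGraph.dist_self] at *
    omega
  exact ((hconn.dist_eq_zero_iff).1 this).symm

theorem mem_level {a b : V} (h : G.Adj a b) (l : ℕ) (v : V) :
    v ∈ level G l a b ↔ G.dist b v = l ∧ G.dist a v = l + 1 := by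
  induction l generalizing a b with
  | zero =>
    simp only [level, Finset.mem_singleton, zero_add]
    constructor
    · rintro rfl
      exact ⟨SimpleGraph.dist_self, SimpleGraph.dist_eq_one_iff_adj.2 h⟩
    · rintro ⟨h0, -⟩
      exact ((hG.tree.connected.dist_eq_zero_iff).1 h0).symm
  | succ l ih =>
    simp only [level, Finset.mem_biUnion, kids, Finset.mem_erase, SimpleGraph.mem_neighborFinset]
    constructor
    · rintro ⟨d, ⟨hda, hbd⟩, hv⟩
      obtain ⟨h1, h2⟩ := (ih hbd).1 hv
      refine ⟨h2, ?_⟩
      have hne : a ≠ nxt G b v := fun e => hda ((eq_nxt_of hG hbd (by omega)).trans e.symm)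
      have := dist_of_ne_nxt hG h.symm hne
      omega
    · rintro ⟨h1, h2⟩
      have hne : b ≠ v := by
        rintro rfl
        simp at h1
      refine ⟨nxt G b v, ⟨?_, nxt_adj hG hne⟩, (ih (nxt_adj hG hne)).2 ⟨?_, h1⟩⟩
      · rintro e
        have := dist_nxt hG hne
        rw [e] at this
        omega
      · have := dist_nxt hG hne
        omega

theorem mem_subT {a b : V} (h : G.Adj a b) (n : ℕ) (v : V) :
    v ∈ subT G n a b ↔ G.dist b v ≤ n ∧ G.dist a v = G.dist b v + 1 := by
  induction n generalizing a b with
  | zero =>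
    simp only [subT, Finset.mem_singleton, nonpos_iff_eq_zero]
    constructor
    · rintro rfl
      simp [SimpleGraph.dist_eq_one_iff_adj.2 h]
    · rintro ⟨h0, -⟩
      exact ((hG.tree.connected.dist_eq_zero_iff).1 h0).symm
  | succ n ih =>
    simp only [subT, Finset.mem_insert, Finset.mem_biUnion, kids, Finset.mem_erase,
      SimpleGraph.mem_neighborFinset]
    constructor
    · rintro (rfl | ⟨d, ⟨hda, hbd⟩, hv⟩)
      · simp [SimpleGraph.dist_eq_one_iff_adj.2 h]
      · obtain ⟨h1, h2⟩ := (ih hbd).1 hv
        refine ⟨by omega, ?_⟩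
        have hne : a ≠ nxt G b v := fun e => hda ((eq_nxt_of hG hbd (by omega)).trans e.symm)
        exact dist_of_ne_nxt hG h.symm hne
    · rintro ⟨h1, h2⟩
      by_cases hne : v = b
      · exact Or.inl hne
      · right
        have hne' : b ≠ v := fun e => hne e.symm
        refine ⟨nxt G b v, ⟨?_, nxt_adj hG hne'⟩, (ih (nxt_adj hG hne')).2 ⟨?_, ?_⟩⟩
        · rintro e
          have := dist_nxt hG hne'
          rw [e] at this
          omega
        · have := dist_nxt hG hne'
          omega
        · exact (dist_nxt hG hne').symm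

theorem mem_ball (o : V) (R : ℕ) (v : V) : v ∈ ball G o R ↔ G.dist o v ≤ R := by
  cases R with
  | zero =>
    simp only [ball, Finset.mem_singleton, nonpos_iff_eq_zero]
    constructor
    · rintro rfl
      exact SimpleGraph.dist_self
    · intro h0
      exact ((hG.tree.connected.dist_eq_zero_iff).1 h0).symm
  | succ R =>
    simp only [ball, Finset.mem_insert, Finset.mem_biUnion, SimpleGraph.mem_neighborFinset]
    constructor
    · rintro (rfl | ⟨d, hd, hv⟩)
      · simp
      · obtain ⟨h1, h2⟩ := (mem_subT hG hd R v).1 hv
        omega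
    · intro h
      by_cases hne : v = o
      · exact Or.inl hne
      · right
        have hne' : o ≠ v := fun e => hne e.symm
        refine ⟨nxt G o v, nxt_adj hG hne', (mem_subT hG (nxt_adj hG hne') R v).2 ⟨?_, ?_⟩⟩
        · have := dist_nxt hG hne'
          omega
        · exact (dist_nxt hG hne').symm

theorem mem_sphere (o : V) (k : ℕ) (v : V) : v ∈ sphere G o k ↔ G.dist o v = k := by
  cases k with
  | zero =>
    simp only [sphere, Finset.mem_singleton]
    constructor
    · rintro rfl
      exact SimpleGraph.dist_self
    · intro h0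
      exact ((hG.tree.connected.dist_eq_zero_iff).1 h0).symm
  | succ k =>
    simp only [sphere, Finset.mem_biUnion, SimpleGraph.mem_neighborFinset]
    constructor
    · rintro ⟨d, hd, hv⟩
      exact ((mem_level hG hd k v).1 hv).2
    · intro h
      have hne' : o ≠ v := by
        rintro rfl
        simp at h
      refine ⟨nxt G o v, nxt_adj hG hne', (mem_level hG (nxt_adj hG hne') k v).2 ⟨?_, h⟩⟩
      have := dist_nxt hG hne'
      omega

theorem card_kids {a b : V} (h : G.Adj a b) : (kids G a b).card = q := by
  unfold kids
  rw [Finset.card_erase_of_mem (by simpa using h.symm), hG.reg]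
  simp

theorem card_level {a b : V} (h : G.Adj a b) (l : ℕ) : (level G l a b).card = q ^ l := by
  induction l generalizing a b with
  | zero => simp [level]
  | succ l ih =>
    simp only [level]
    have hk : ∀ d ∈ kids G a b, G.Adj b d := fun d hd => by
      simpa [kids] using (Finset.mem_erase.1 hd).2
    rw [Finset.card_biUnion, Finset.sum_congr rfl (fun d hd => ih (hk d hd)), Finset.sum_const,
      card_kids hG h, smul_eq_mul, pow_succ, mul_comm]
    intro d hd d' hd' hne
    rw [Function.onFun, Finset.disjoint_left]
    intro v hv hv'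
    obtain ⟨h1, h2⟩ := (mem_level hG (hk d hd) l v).1 hv
    obtain ⟨h1', h2'⟩ := (mem_level hG (hk d' hd') l v).1 hv'
    exact hne (unique_step (u := v) hG (hk d hd) (by omega) (hk d' hd') (by omega))

theorem card_sphere (o : V) (k : ℕ) : (sphere G o (k + 1)).card = (q + 1) * q ^ k := by
  simp only [sphere]
  have hk : ∀ d ∈ G.neighborFinset o, G.Adj o d := fun d hd => by simpa using hd
  rw [Finset.card_biUnion, Finset.sum_congr rfl (fun d hd => card_level hG (hk d hd) k),
    Finset.sum_const, hG.reg, smul_eq_mul]
  intro d hd d' hd' hne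
  rw [Function.onFun, Finset.disjoint_left]
  intro v hv hv'
  obtain ⟨h1, h2⟩ := (mem_level hG (hk d hd) k v).1 hv
  obtain ⟨h1', h2'⟩ := (mem_level hG (hk d' hd') k v).1 hv'
  exact hne (unique_step (u := v) hG (hk d hd) (by omega) (hk d' hd') (by omega))

/-- The ball as an increasing union. -/
theorem ball_mono (o : V) {R R' : ℕ} (h : R ≤ R') : ball G o R ⊆ ball G o R' := by
  intro v hv
  rw [mem_ball hG] at hv ⊢
  omega

/-- Nesting of balls around different centres. -/
theorem ball_subset_ball {o v : V} {R R' : ℕ} (h : G.dist o v + R ≤ R') : ball G v R ⊆ ball G o R' := by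
  intro x hx
  rw [mem_ball hG] at hx ⊢
  have : G.dist o x ≤ G.dist o v + G.dist v x := hG.tree.connected.dist_triangle
  omega

omit hG in
private theorem exists_bijOn {N N' : Finset V} (hc : N.card = N'.card) :
    ∃ τ : V → V, Set.BijOn τ N N' := by
  let e := Finset.equivOfCardEq hc
  refine ⟨fun x => if h : x ∈ N then (e ⟨x, h⟩ : V) else x, ?_, ?_, ?_⟩
  · intro x hx
    have hx' : x ∈ N := hx
    simp only [hx', dif_pos]
    exact (e ⟨x, hx'⟩).2
  · intro x hx y hy hxy
    have hx' : x ∈ N := hx
    have hy' : y ∈ N := hy
    simp only [hx', hy', dif_pos] at hxy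
    have := e.injective (Subtype.ext hxy)
    exact congrArg Subtype.val this
  · intro y hy
    have hy' : y ∈ N' := hy
    refine ⟨(e.symm ⟨y, hy'⟩ : V), (e.symm ⟨y, hy'⟩).2, ?_⟩
    have h1 := (e.symm ⟨y, hy'⟩).2
    simp only [h1, dif_pos]
    simp

omit hG in
private theorem swap_bijOn {N N' : Finset V} {τ : V → V} (hτ : Set.BijOn τ N N') {x x' : V}
    (hx : x ∈ N) (hx' : x' ∈ N') :
    Set.BijOn (Equiv.swap (τ x) x' ∘ τ) N N' := by
  have hs : Set.BijOn (Equiv.swap (τ x) x') (N' : Set V) N' := by
    have hm : ∀ y ∈ (N' : Set V), Equiv.swap (τ x) x' y ∈ (N' : Set V) := by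
      intro y hy
      rw [Equiv.swap_apply_def]
      split_ifs
      · exact hx'
      · exact hτ.mapsTo hx
      · exact hy
    refine ⟨hm, (Equiv.injective _).injOn, fun y hy => ⟨Equiv.swap (τ x) x' y, hm y hy, by simp⟩⟩
  exact hs.comp hτ

omit hG in
private theorem exists_local_bij {N N' : Finset V} (hc : N.card = N'.card) (a a' b b' : V) :
    ∃ τ : V → V, Set.BijOn τ N N' ∧ (a ∈ N → a' ∈ N' → τ a = a') ∧
      (b ∈ N → b' ∈ N' → a ≠ b → a' ≠ b' → τ b = b') := by
  obtain ⟨τ₀, h₀⟩ := exists_bijOn hc
  obtain ⟨τ₁, h₁, h₁a⟩ : ∃ τ₁ : V → V, Set.BijOn τ₁ N N' ∧ (a ∈ N → a' ∈ N' → τ₁ a = a') := by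
    by_cases ha : a ∈ N ∧ a' ∈ N'
    · exact ⟨_, swap_bijOn h₀ ha.1 ha.2, fun _ _ => by simp⟩
    · exact ⟨τ₀, h₀, fun h1 h2 => absurd ⟨h1, h2⟩ ha⟩
  by_cases hb : b ∈ N ∧ b' ∈ N' ∧ a ≠ b ∧ a' ≠ b'
  · obtain ⟨hb1, hb2, hb3, hb4⟩ := hb
    refine ⟨_, swap_bijOn h₁ hb1 hb2, fun h1 h2 => ?_, fun _ _ _ _ => by simp⟩
    have h3 : τ₁ a = a' := h₁a h1 h2
    have h4 : a' ≠ τ₁ b := by
      rw [← h3]
      exact fun e => hb3 (h₁.injOn h1 hb1 e)
    simp only [Function.comp_apply, h3]
    exact Equiv.swap_apply_of_ne_of_ne h4 hb4
  · refine ⟨τ₁, h₁, h₁a, fun h1 h2 h3 h4 => absurd ⟨h1, h2, h3, h4⟩ hb⟩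

/-- Recursive construction of the automorphism. -/
private noncomputable def autAux (G : SimpleGraph V) [G.LocallyFinite] (τ : V → V → V → V) (v v' : V) :
    ℕ → V → V
  | 0, _ => v'
  | n + 1, x => τ (nxt G x v) (autAux G τ v v' n (nxt G x v)) x

private noncomputable def autF (G : SimpleGraph V) [G.LocallyFinite] (τ : V → V → V → V) (v v' : V) (x : V) : V :=
  autAux G τ v v' (G.dist v x) x

omit hG in
private theorem autF_self (τ : V → V → V → V) (v v' : V) : autF G τ v v' v = v' := by
  simp [autF, autAux]

private theorem autF_step (τ : V → V → V → V) (v v' : V) {x : V} (hx : x ≠ v) :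
    autF G τ v v' x = τ (nxt G x v) (autF G τ v v' (nxt G x v)) x := by
  have h1 : G.dist v x = G.dist v (nxt G x v) + 1 := by
    have := dist_nxt hG hx
    rw [SimpleGraph.dist_comm (u := v), SimpleGraph.dist_comm (u := v)]
    omega
  unfold autF
  rw [h1, autAux]

private theorem autF_main {τ : V → V → V → V} {v v' : V}
    (hbij : ∀ p p', Set.BijOn (τ p p') (G.neighborFinset p) (G.neighborFinset p'))
    (hpar : ∀ p p', p ≠ v → p' ≠ v' → τ p p' (nxt G p v) = nxt G p' v') (n : ℕ) :
    ∀ x, G.dist v x = n → G.dist v' (autF G τ v v' x) = n ∧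
      (x ≠ v → nxt G (autF G τ v v' x) v' = autF G τ v v' (nxt G x v)) := by
  induction n with
  | zero =>
    intro x hx
    have : v = x := (hG.tree.connected.dist_eq_zero_iff).1 hx
    subst this
    simp [autF_self]
  | succ n ih =>
    intro x hx
    have hxv : x ≠ v := by
      rintro rfl
      simp at hx
    have hd := dist_nxt hG hxv
    have e0 : G.dist x v = G.dist v x := SimpleGraph.dist_comm
    have e1 : G.dist (nxt G x v) v = G.dist v (nxt G x v) := SimpleGraph.dist_comm
    obtain ⟨ih1, -⟩ := ih (nxt G x v) (by omega)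
    have hxadj := nxt_adj hG hxv
    set p := nxt G x v with hp
    set p' := autF G τ v v' p with hp'
    have hfx : autF G τ v v' x = τ p p' x := autF_step hG τ v v' hxv
    have hxN : x ∈ (G.neighborFinset p : Set V) := by
      simpa using hxadj.symm
    have hfxN : τ p p' x ∈ (G.neighborFinset p' : Set V) := (hbij p p').mapsTo hxN
    have hadj' : G.Adj p' (τ p p' x) := by simpa using hfxN
    have hne : τ p p' x ≠ nxt G p' v' := by
      by_cases hpv : p = v
      · have : p' = v' := by
          rw [hp', hpv, autF_self]
        rw [this, nxt_self hG]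
        rw [this] at hadj'
        exact hadj'.ne'
      · have hp'v' : p' ≠ v' := by
          rintro e
          rw [e] at ih1
          simp only [SimpleGraph.dist_self] at ih1
          have h2 : G.dist v p = 0 := by omega
          exact hpv ((hG.tree.connected.dist_eq_zero_iff).1 h2).symm
        rw [← hpar p p' hpv hp'v']
        intro e
        have hpN : nxt G p v ∈ (G.neighborFinset p : Set V) := by
          simpa using nxt_adj hG hpv
        have := (hbij p p').injOn hxN hpN e
        have h3 := dist_nxt hG hpv
        rw [← this] at h3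
        omega
    have hdist := dist_of_ne_nxt hG hadj' hne
    have e2 : G.dist (τ p p' x) v' = G.dist v' (τ p p' x) := SimpleGraph.dist_comm
    have e3 : G.dist p' v' = G.dist v' p' := SimpleGraph.dist_comm
    rw [hfx]
    refine ⟨by omega, fun _ => ?_⟩
    symm
    apply eq_nxt_of hG hadj'.symm
    omega

private theorem autF_inj {τ : V → V → V → V} {v v' : V}
    (hbij : ∀ p p', Set.BijOn (τ p p') (G.neighborFinset p) (G.neighborFinset p'))
    (hpar : ∀ p p', p ≠ v → p' ≠ v' → τ p p' (nxt G p v) = nxt G p' v') :
    Function.Injective (autF G τ v v') := by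
  have main : ∀ n x y, G.dist v x = n → autF G τ v v' x = autF G τ v v' y → x = y := by
    intro n
    induction n with
    | zero =>
      intro x y hx hxy
      have hxv : v = x := (hG.tree.connected.dist_eq_zero_iff).1 hx
      subst hxv
      have h1 := (autF_main hG hbij hpar _ y rfl).1
      rw [← hxy, autF_self, SimpleGraph.dist_self] at h1
      exact (hG.tree.connected.dist_eq_zero_iff).1 h1.symm
    | succ n ih =>
      intro x y hx hxy
      have hxv : x ≠ v := by
        rintro rfl
        simp at hx
      obtain ⟨h1, h2⟩ := autF_main hG hbij hpar _ x hx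
      obtain ⟨h3, h4⟩ := autF_main hG hbij hpar _ y rfl
      have hy : G.dist v y = n + 1 := by rw [← h3, ← hxy, h1]
      have hyv : y ≠ v := by
        rintro rfl
        simp at hy
      have h5 : autF G τ v v' (nxt G x v) = autF G τ v v' (nxt G y v) := by
        rw [← h2 hxv, ← h4 hyv, hxy]
      have hd := dist_nxt hG hxv
      have e0 : G.dist x v = G.dist v x := SimpleGraph.dist_comm
      have e1 : G.dist (nxt G x v) v = G.dist v (nxt G x v) := SimpleGraph.dist_comm
      have h6 : nxt G x v = nxt G y v := ih _ _ (by omega) h5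
      rw [autF_step hG τ v v' hxv, autF_step hG τ v v' hyv, h6] at hxy
      have hxN : x ∈ (G.neighborFinset (nxt G y v) : Set V) := by
        rw [← h6]
        simpa using (nxt_adj hG hxv).symm
      have hyN : y ∈ (G.neighborFinset (nxt G y v) : Set V) := by
        simpa using (nxt_adj hG hyv).symm
      exact (hbij _ _).injOn hxN hyN hxy
  intro x y hxy
  exact main _ x y rfl hxy

private theorem autF_surj {τ : V → V → V → V} {v v' : V}
    (hbij : ∀ p p', Set.BijOn (τ p p') (G.neighborFinset p) (G.neighborFinset p'))
    (hpar : ∀ p p', p ≠ v → p' ≠ v' → τ p p' (nxt G p v) = nxt G p' v') :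
    Function.Surjective (autF G τ v v') := by
  have main : ∀ n y, G.dist v' y = n → ∃ x, autF G τ v v' x = y := by
    intro n
    induction n with
    | zero =>
      intro y hy
      have : v' = y := (hG.tree.connected.dist_eq_zero_iff).1 hy
      subst this
      exact ⟨v, autF_self τ v v'⟩
    | succ n ih =>
      intro y hy
      have hyv : y ≠ v' := by
        rintro rfl
        simp at hy
      have hd := dist_nxt hG hyv
      have e0 : G.dist y v' = G.dist v' y := SimpleGraph.dist_comm
      have e1 : G.dist (nxt G y v') v' = G.dist v' (nxt G y v') := SimpleGraph.dist_comm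
      obtain ⟨p, hp⟩ := ih (nxt G y v') (by omega)
      have hyN : y ∈ (G.neighborFinset (autF G τ v v' p) : Set V) := by
        rw [hp]
        simpa using (nxt_adj hG hyv).symm
      obtain ⟨x, hxN, hxy⟩ := (hbij p (autF G τ v v' p)).surjOn hyN
      have hxadj : G.Adj p x := by simpa using hxN
      have h1 := (autF_main hG hbij hpar _ p rfl).1
      have hne : x ≠ nxt G p v := by
        by_cases hpv : p = v
        · rw [hpv, nxt_self hG]
          rw [hpv] at hxadj
          exact hxadj.ne'
        · intro e
          have hp'v' : autF G τ v v' p ≠ v' := by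
            intro e'
            rw [e', SimpleGraph.dist_self] at h1
            exact hpv ((hG.tree.connected.dist_eq_zero_iff).1 h1.symm).symm
          have h2 := hpar p _ hpv hp'v'
          rw [← e, hxy, hp] at h2
          have h3 := dist_nxt hG (v := nxt G y v') (u := v') (by
            rintro e4
            rw [e4] at hp
            exact hp'v' hp)
          rw [← h2] at h3
          omega
      have hdist := dist_of_ne_nxt hG hxadj hne
      have hnx : nxt G x v = p := by
        symm
        apply eq_nxt_of hG hxadj.symm
        omega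
      have hxv : x ≠ v := by
        intro e
        rw [e] at hdist
        simp at hdist
      refine ⟨x, ?_⟩
      rw [autF_step hG τ v v' hxv, hnx, hxy]
  intro y
  exact main _ y rfl

private theorem autF_adj {τ : V → V → V → V} {v v' : V}
    (hbij : ∀ p p', Set.BijOn (τ p p') (G.neighborFinset p) (G.neighborFinset p'))
    (hpar : ∀ p p', p ≠ v → p' ≠ v' → τ p p' (nxt G p v) = nxt G p' v') {x y : V} :
    G.Adj (autF G τ v v' x) (autF G τ v v' y) ↔ G.Adj x y := by
  have h1 : ∀ z, G.dist v' (autF G τ v v' z) = G.dist v z := fun z => (autF_main hG hbij hpar _ z rfl).1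
  have h2 : ∀ z, z ≠ v → nxt G (autF G τ v v' z) v' = autF G τ v v' (nxt G z v) :=
    fun z => (autF_main hG hbij hpar _ z rfl).2
  have hne : ∀ z, G.dist v' (autF G τ v v' z) ≠ 0 → autF G τ v v' z ≠ v' := by
    rintro z hz e
    rw [e] at hz
    simp at hz
  -- the oriented version
  have hfwd : ∀ x y, G.Adj x y → G.dist v x = G.dist v y + 1 → G.Adj (autF G τ v v' x) (autF G τ v v' y) := by
    intro x y hxy hd
    have hxv : x ≠ v := by
      rintro rfl
      simp at hd
    have e0 : G.dist x v = G.dist v x := SimpleGraph.dist_comm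
    have e1 : G.dist y v = G.dist v y := SimpleGraph.dist_comm
    have h3 : y = nxt G x v := eq_nxt_of hG hxy (by omega)
    rw [h3, ← h2 x hxv]
    apply nxt_adj hG
    apply hne
    rw [h1]
    omega
  have hbwd : ∀ x y, G.Adj (autF G τ v v' x) (autF G τ v v' y) →
      G.dist v' (autF G τ v v' x) = G.dist v' (autF G τ v v' y) + 1 → G.Adj x y := by
    intro x y hxy hd
    have hfv : autF G τ v v' x ≠ v' := by
      rintro e
      rw [e] at hd
      simp at hd
    have hxv : x ≠ v := by
      rintro rfl
      rw [autF_self] at hfv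
      exact hfv rfl
    have e0 : G.dist (autF G τ v v' x) v' = G.dist v' (autF G τ v v' x) := SimpleGraph.dist_comm
    have e1 : G.dist (autF G τ v v' y) v' = G.dist v' (autF G τ v v' y) := SimpleGraph.dist_comm
    have h3 : autF G τ v v' y = nxt G (autF G τ v v' x) v' := eq_nxt_of hG hxy (by omega)
    rw [h2 x hxv] at h3
    have h4 := autF_inj hG hbij hpar h3
    rw [h4]
    exact nxt_adj hG hxv
  constructor
  · intro h
    rcases dist_adj_cases hG h v' with h3 | h3
    · simp only [SimpleGraph.dist_comm (v := v')] at h3
      exact hbwd _ _ h h3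
    · simp only [SimpleGraph.dist_comm (v := v')] at h3
      exact (hbwd _ _ h.symm h3).symm
  · intro h
    rcases dist_adj_cases hG h v with h3 | h3
    · simp only [SimpleGraph.dist_comm (v := v)] at h3
      exact hfwd _ _ h h3
    · simp only [SimpleGraph.dist_comm (v := v)] at h3
      exact (hfwd _ _ h.symm h3).symm

end dist

/-! ### Automorphisms -/

section aut

variable (g : G ≃g G)

omit [G.LocallyFinite] in
theorem dist_aut (v u : V) : G.dist (g v) (g u) = G.dist v u := by
  have key : ∀ (g : G ≃g G) (v u : V), G.dist (g v) (g u) ≤ G.dist v u := by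
    intro g v u
    by_cases hr : G.Reachable v u
    · obtain ⟨p, hp⟩ := hr.exists_walk_length_eq_dist
      rw [← hp, ← SimpleGraph.Walk.length_map g.toHom p]
      exact SimpleGraph.dist_le _
    · rw [SimpleGraph.dist_eq_zero_of_not_reachable hr]
      have : ¬ G.Reachable (g v) (g u) := fun h => hr (by
        have := h.map g.symm.toHom
        simpa using this)
      rw [SimpleGraph.dist_eq_zero_of_not_reachable this]
  refine le_antisymm (key g v u) ?_
  have := key g.symm (g v) (g u)
  simpa using this

variable (hG : RegTree G q)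
include hG

theorem nxt_aut (v u : V) : nxt G (g v) (g u) = g (nxt G v u) := by
  by_cases h : v = u
  · subst h
    rw [nxt_self hG, nxt_self hG]
  · symm
    apply eq_nxt_of hG
    · exact g.map_adj_iff.2 (nxt_adj hG h)
    · rw [dist_aut, dist_aut]
      exact dist_nxt hG h

theorem ball_aut (o : V) (R : ℕ) : ball G (g o) R = (ball G o R).map g.toEquiv.toEmbedding := by
  ext v
  rw [mem_ball hG, Finset.mem_map]
  constructor
  · intro h
    refine ⟨g.symm v, ?_, by simp⟩
    rw [mem_ball hG]
    have := dist_aut g o (g.symm v)
    simp only [RelIso.apply_symm_apply] at this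
    omega
  · rintro ⟨w, hw, rfl⟩
    rw [mem_ball hG] at hw
    have := dist_aut g o w
    simpa using this ▸ hw

end aut

/-! ### Products along geodesics -/

/-- Auxiliary product along the geodesic towards `u`. -/
noncomputable def pathAux (G : SimpleGraph V) [G.LocallyFinite] (f : V → V → ℝ) (u : V) : ℕ → V → ℝ
  | 0, _ => 1
  | n + 1, v => f v (nxt G v u) * pathAux G f u n (nxt G v u)

/-- Product of `f x_j x_{j+1}` along the geodesic from `v` to `u`. -/
noncomputable def pathProd (G : SimpleGraph V) [G.LocallyFinite] (f : V → V → ℝ) (v u : V) : ℝ :=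
  pathAux G f u (G.dist v u) v

/-- The `j`th vertex of the geodesic from `v` to `u`. -/
noncomputable def geo (G : SimpleGraph V) [G.LocallyFinite] (v u : V) (j : ℕ) : V :=
  (fun x => nxt G x u)^[j] v

section path

variable (hG : RegTree G q)
include hG

theorem pathProd_self (f : V → V → ℝ) (v : V) : pathProd G f v v = 1 := by
  simp [pathProd, pathAux]

theorem pathProd_cons (f : V → V → ℝ) {v u : V} (h : v ≠ u) :
    pathProd G f v u = f v (nxt G v u) * pathProd G f (nxt G v u) u := by
  unfold pathProd
  rw [← dist_nxt hG h, pathAux]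

omit hG in
theorem geo_succ (v u : V) (j : ℕ) : geo G v u (j + 1) = nxt G (geo G v u j) u :=
  Function.iterate_succ_apply' _ _ _

omit hG in
theorem geo_succ' (v u : V) (j : ℕ) : geo G v u (j + 1) = geo G (nxt G v u) u j :=
  Function.iterate_succ_apply _ _ _

theorem dist_geo_right' (v u : V) {j : ℕ} (hj : j ≤ G.dist v u) :
    G.dist (geo G v u j) u + j = G.dist v u := by
  induction j with
  | zero => simp [geo]
  | succ j ih =>
    have h1 := ih (by omega)
    have hne : geo G v u j ≠ u := by
      intro e
      rw [e] at h1
      simp at h1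
      omega
    rw [geo_succ]
    have := dist_nxt hG hne
    omega

theorem geo_ne {v u : V} {j : ℕ} (hj : j < G.dist v u) : geo G v u j ≠ u := by
  have h1 := dist_geo_right' hG v u (j := j) (by omega)
  intro e
  rw [e] at h1
  simp at h1
  omega

theorem pathProd_eq_prod (f : V → V → ℝ) (v u : V) :
    pathProd G f v u = ∏ j ∈ Finset.range (G.dist v u), f (geo G v u j) (geo G v u (j + 1)) := by
  generalize hn : G.dist v u = n
  induction n generalizing v with
  | zero =>
    have : v = u := (hG.tree.connected.dist_eq_zero_iff).1 hn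
    subst this
    simp [pathProd_self hG]
  | succ n ih =>
    have hne : v ≠ u := by
      rintro rfl
      simp at hn
    have h1 : G.dist (nxt G v u) u = n := by
      have := dist_nxt hG hne
      omega
    rw [pathProd_cons hG f hne, ih _ h1, Finset.prod_range_succ']
    simp only [geo_succ' (v := v)]
    rw [mul_comm]
    rfl

theorem geo_zero (v u : V) : geo G v u 0 = v := rfl

theorem geo_dist (v u : V) : geo G v u (G.dist v u) = u := by
  have := dist_geo_right' hG v u (le_refl _)
  have h0 : G.dist (geo G v u (G.dist v u)) u = 0 := by omega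
  exact (hG.tree.connected.dist_eq_zero_iff).1 h0

theorem geo_adj (v u : V) {j : ℕ} (hj : j < G.dist v u) : G.Adj (geo G v u j) (geo G v u (j + 1)) := by
  rw [geo_succ]
  exact nxt_adj hG (geo_ne hG hj)

theorem dist_geo_left (v u : V) {j : ℕ} (hj : j ≤ G.dist v u) : G.dist v (geo G v u j) = j := by
  have hle : ∀ j, j ≤ G.dist v u → G.dist v (geo G v u j) ≤ j := by
    intro j hj
    induction j with
    | zero => simp [geo]
    | succ j ih =>
      have h1 := ih (by omega)
      have h2 := geo_adj hG v u (j := j) (by omega)
      have h3 : G.dist v (geo G v u (j + 1)) ≤ G.dist v (geo G v u j) + G.dist (geo G v u j) (geo G v u (j + 1)) :=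
        hG.tree.connected.dist_triangle
      rw [SimpleGraph.dist_eq_one_iff_adj.2 h2] at h3
      omega
  have h1 := hle j hj
  have h2 := dist_geo_right' hG v u hj
  have h3 : G.dist v u ≤ G.dist v (geo G v u j) + G.dist (geo G v u j) u := hG.tree.connected.dist_triangle
  omega

theorem dist_geo_right (v u : V) {j : ℕ} (hj : j ≤ G.dist v u) :
    G.dist (geo G v u j) u + j = G.dist v u := dist_geo_right' hG v u hj

/-- Uniqueness of geodesics: a walk making progress towards `u` follows `geo`. -/
theorem geo_unique {v u : V} {γ : ℕ → V} {m : ℕ} (h0 : γ 0 = v)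
    (hadj : ∀ i, i < m → G.Adj (γ i) (γ (i + 1)))
    (hd : ∀ i, i ≤ m → G.dist (γ i) u + i = G.dist v u) :
    ∀ i, i ≤ m → geo G v u i = γ i := by
  intro i hi
  induction i with
  | zero => simp [geo, h0]
  | succ i ih =>
    rw [geo_succ, ih (by omega)]
    symm
    apply eq_nxt_of hG (hadj i (by omega))
    have h1 := hd i (by omega)
    have h2 := hd (i + 1) hi
    omega

/-- A vertex on a geodesic is given by `geo`. -/
theorem geo_of_dist_add {x y z : V} (h : G.dist x z + G.dist z y = G.dist x y) :
    geo G x y (G.dist x z) = z := by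
  have := geo_unique (v := x) (u := y) (γ := geo G x z) (m := G.dist x z) hG rfl
    (fun i hi => geo_adj hG x z hi)
    (fun i hi => by
      have h1 := dist_geo_right hG x z hi
      have h2 := dist_geo_left hG x z hi
      have h3 : G.dist (geo G x z i) y ≤ G.dist (geo G x z i) z + G.dist z y :=
        hG.tree.connected.dist_triangle
      have h4 : G.dist x y ≤ G.dist x (geo G x z i) + G.dist (geo G x z i) y :=
        hG.tree.connected.dist_triangle
      omega)
    _ (le_refl _)
  rw [this, geo_dist hG]

/-- Initial segments of geodesics are geodesics. -/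
theorem geo_prefix (v u : V) {j i : ℕ} (hj : j ≤ G.dist v u) (hi : i ≤ j) :
    geo G v (geo G v u j) i = geo G v u i := by
  have h1 := dist_geo_left hG v u hj
  have h2 := dist_geo_right hG v u hj
  have := geo_unique (v := v) (u := u) (γ := geo G v (geo G v u j)) (m := j) hG rfl
    (fun i _ => geo_adj hG v _ (by omega))
    (fun i hi => by
      have h3 := dist_geo_right hG v (geo G v u j) (j := i) (by omega)
      have h4 := dist_geo_left hG v (geo G v u j) (j := i) (by omega)
      have h5 : G.dist (geo G v (geo G v u j) i) u ≤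
          G.dist (geo G v (geo G v u j) i) (geo G v u j) + G.dist (geo G v u j) u :=
        hG.tree.connected.dist_triangle
      have h6 : G.dist v u ≤ G.dist v (geo G v (geo G v u j) i) + G.dist (geo G v (geo G v u j) i) u :=
        hG.tree.connected.dist_triangle
      omega)
    i hi
  exact this.symm

/-- Final segments of geodesics are geodesics. -/
theorem geo_suffix (v u : V) {j i : ℕ} (hi : i + j ≤ G.dist v u) :
    geo G (geo G v u j) u i = geo G v u (j + i) := by
  simp only [geo]
  rw [add_comm j i, Function.iterate_add_apply]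

/-- Reversal of geodesics. -/
theorem geo_rev (v u : V) {j : ℕ} (hj : j ≤ G.dist v u) :
    geo G u v (G.dist v u - j) = geo G v u j := by
  have hD : G.dist u v = G.dist v u := SimpleGraph.dist_comm
  have := geo_unique (v := v) (u := u) (γ := fun i => geo G u v (G.dist v u - i)) (m := G.dist v u) hG
    (by simp only [Nat.sub_zero]; rw [← hD]; exact geo_dist hG u v)
    (fun i hi => by
      have h1 := geo_adj hG u v (j := G.dist v u - (i + 1)) (by omega)
      have h2 : G.dist v u - (i + 1) + 1 = G.dist v u - i := by omega
      rw [h2] at h1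
      exact h1.symm)
    (fun i hi => by
      have h1 := dist_geo_left hG u v (j := G.dist v u - i) (by omega)
      have h2 : G.dist (geo G u v (G.dist v u - i)) u = G.dist u (geo G u v (G.dist v u - i)) :=
        SimpleGraph.dist_comm
      show G.dist (geo G u v (G.dist v u - i)) u + i = G.dist v u
      rw [h2, h1]
      omega)
    j hj
  exact this.symm

/-- Splitting a path product at the `j`th vertex. -/
theorem pathProd_split (f : V → V → ℝ) (v u : V) {j : ℕ} (hj : j ≤ G.dist v u) :
    pathProd G f v u = pathProd G f v (geo G v u j) * pathProd G f (geo G v u j) u := by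
  rw [pathProd_eq_prod hG f v u, pathProd_eq_prod hG f v (geo G v u j),
    pathProd_eq_prod hG f (geo G v u j) u, dist_geo_left hG v u hj]
  have h2 := dist_geo_right hG v u hj
  have h3 : G.dist v u = j + G.dist (geo G v u j) u := by omega
  conv_lhs => rw [h3]
  rw [Finset.prod_range_add]
  congr 1
  · refine Finset.prod_congr rfl fun i hi => ?_
    have hi' := Finset.mem_range.1 hi
    rw [geo_prefix hG v u hj (by omega : i ≤ j), geo_prefix hG v u hj (by omega : i + 1 ≤ j)]
  · refine Finset.prod_congr rfl fun i hi => ?_
    have hi' := Finset.mem_range.1 hi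
    rw [geo_suffix hG v u (by omega), geo_suffix hG v u (by omega)]
    rfl

theorem pathProd_snoc (f : V → V → ℝ) {v u : V} (h : v ≠ u) :
    pathProd G f v u = pathProd G f v (nxt G u v) * f (nxt G u v) u := by
  have hu : u ≠ v := fun e => h e.symm
  have h1 := dist_nxt hG hu
  have h2 : G.dist v (nxt G u v) + 1 = G.dist v u := by
    rw [SimpleGraph.dist_comm, SimpleGraph.dist_comm (u := v) (v := u)]
    exact h1
  have h3 : geo G v u (G.dist v (nxt G u v)) = nxt G u v := by
    apply geo_of_dist_add hG
    have : G.dist (nxt G u v) u = 1 := SimpleGraph.dist_eq_one_iff_adj.2 (nxt_adj hG hu).symm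
    omega
  have h4 := pathProd_split hG f v u (j := G.dist v (nxt G u v)) (by omega)
  rw [h3] at h4
  rw [h4, pathProd_cons hG f (u := u) (v := nxt G u v) (nxt_adj hG hu).ne']
  have h5 : nxt G (nxt G u v) u = u := by
    symm
    apply eq_nxt_of hG (nxt_adj hG hu).symm
    have : G.dist (nxt G u v) u = 1 := SimpleGraph.dist_eq_one_iff_adj.2 (nxt_adj hG hu).symm
    simp [this]
  rw [h5, pathProd_self hG, mul_one]

/-- Hybrid telescoping of path products. -/
theorem pathProd_sub (f f' : V → V → ℝ) (v u : V) :
    pathProd G f v u - pathProd G f' v u =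
      ∑ j ∈ Finset.range (G.dist v u),
        pathProd G f' v (geo G v u j) * (f (geo G v u j) (geo G v u (j + 1)) - f' (geo G v u j) (geo G v u (j + 1))) *
          pathProd G f (geo G v u (j + 1)) u := by
  have hstep : ∀ j ∈ Finset.range (G.dist v u),
      pathProd G f' v (geo G v u j) * pathProd G f (geo G v u j) u -
        pathProd G f' v (geo G v u (j + 1)) * pathProd G f (geo G v u (j + 1)) u =
      pathProd G f' v (geo G v u j) * (f (geo G v u j) (geo G v u (j + 1)) - f' (geo G v u j) (geo G v u (j + 1))) *
          pathProd G f (geo G v u (j + 1)) u := by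
    intro j hj
    have hj' := Finset.mem_range.1 hj
    have hne := geo_ne hG hj'
    have h1 : pathProd G f (geo G v u j) u =
        f (geo G v u j) (geo G v u (j + 1)) * pathProd G f (geo G v u (j + 1)) u := by
      rw [geo_succ]
      exact pathProd_cons hG f hne
    have h2 : pathProd G f' v (geo G v u (j + 1)) =
        pathProd G f' v (geo G v u j) * f' (geo G v u j) (geo G v u (j + 1)) := by
      rw [pathProd_eq_prod hG f' v (geo G v u (j + 1)), pathProd_eq_prod hG f' v (geo G v u j),
        dist_geo_left hG v u (j := j + 1) (by omega), dist_geo_left hG v u (j := j) (by omega),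
        Finset.prod_range_succ]
      congr 1
      · refine Finset.prod_congr rfl fun i hi => ?_
        have hi' := Finset.mem_range.1 hi
        rw [geo_prefix hG v u (j := j + 1) (by omega) (by omega : i ≤ j + 1),
          geo_prefix hG v u (j := j + 1) (by omega) (by omega : i + 1 ≤ j + 1),
          geo_prefix hG v u (j := j) (by omega) (by omega : i ≤ j),
          geo_prefix hG v u (j := j) (by omega) (by omega : i + 1 ≤ j)]
      · rw [geo_prefix hG v u (j := j + 1) (by omega) (by omega : j ≤ j + 1),
          geo_prefix hG v u (j := j + 1) (by omega) (le_refl _)]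
    rw [h1, h2]
    ring
  rw [← Finset.sum_congr rfl hstep, Finset.sum_range_sub' (fun j => pathProd G f' v (geo G v u j) * pathProd G f (geo G v u j) u)]
  rw [geo_dist hG, pathProd_self hG, mul_one]
  simp only [geo, Function.iterate_zero, id, pathProd_self hG, one_mul]

/-- Automorphisms and path products. -/
theorem pathProd_aut (g : G ≃g G) (f : V → V → ℝ) (v u : V) :
    pathProd G (fun x y => f (g x) (g y)) v u = pathProd G f (g v) (g u) := by
  generalize hn : G.dist v u = n
  induction n generalizing v with
  | zero =>
    have : v = u := (hG.tree.connected.dist_eq_zero_iff).1 hn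
    subst this
    simp [pathProd_self hG]
  | succ n ih =>
    have hne : v ≠ u := by
      rintro rfl
      simp at hn
    have hne' : g v ≠ g u := fun e => hne (g.injective e)
    have h1 : G.dist (nxt G v u) u = n := by
      have := dist_nxt hG hne
      omega
    rw [pathProd_cons hG _ hne, pathProd_cons hG _ hne', ih _ h1, nxt_aut g hG]

/-- Distance across an edge. -/
theorem dist_across {a b x y : V} (hab : G.Adj a b) (hx : G.dist a x + 1 = G.dist b x)
    (hy : G.dist b y + 1 = G.dist a y) : G.dist x y = G.dist a x + 1 + G.dist b y := by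
  have hab1 : G.dist a b = 1 := SimpleGraph.dist_eq_one_iff_adj.2 hab
  have hba1 : G.dist b a = 1 := SimpleGraph.dist_eq_one_iff_adj.2 hab.symm
  -- the parent is on the `a` side
  have hside : ∀ {z z' : V}, G.Adj z z' → G.dist z' a + 1 = G.dist z a → G.dist a z + 1 = G.dist b z →
      G.dist a z' + 1 = G.dist b z' := by
    intro z z' hzz' h1 h2
    have h3 := dist_adj_cases hG hzz'.symm b
    have h4 : G.dist z' b ≤ G.dist z' a + G.dist a b := hG.tree.connected.dist_triangle
    have e1 : G.dist z' a = G.dist a z' := SimpleGraph.dist_comm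
    have e2 : G.dist z a = G.dist a z := SimpleGraph.dist_comm
    have e3 : G.dist z' b = G.dist b z' := SimpleGraph.dist_comm
    have e4 : G.dist z b = G.dist b z := SimpleGraph.dist_comm
    omega
  have main : ∀ (n : ℕ) (x : V), G.dist a x = n → G.dist a x + 1 = G.dist b x →
      G.dist x y = G.dist a x + 1 + G.dist b y := by
    intro n
    induction n using Nat.strong_induction_on with
    | _ n ih =>
      intro x hn hx
      rcases Nat.eq_zero_or_pos n with rfl | hpos
      · have : a = x := (hG.tree.connected.dist_eq_zero_iff).1 hn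
        subst this
        omega
      · have hne : x ≠ a := by
          rintro rfl
          simp only [SimpleGraph.dist_self] at hn
          omega
        have hadj := nxt_adj hG hne
        have hd := dist_nxt hG hne
        have e0 : G.dist x a = G.dist a x := SimpleGraph.dist_comm
        have e1 : G.dist (nxt G x a) a = G.dist a (nxt G x a) := SimpleGraph.dist_comm
        have hx' := hside hadj hd hx
        have ih1 := ih (n - 1) (by omega) (nxt G x a) (by omega) hx'
        rcases dist_adj_cases hG hadj y with h | h
        · rw [h, ih1]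
          omega
        · exfalso
          have hxe : x = nxt G (nxt G x a) y := eq_nxt_of hG hadj.symm (by omega)
          by_cases hxa : nxt G x a = a
          · rw [hxa] at hxe
            have : b = nxt G a y := eq_nxt_of hG hab hy
            rw [← this] at hxe
            subst hxe
            simp only [SimpleGraph.dist_self] at hx
            omega
          · have hz := nxt_adj hG hxa
            have hzd := dist_nxt hG hxa
            have e2 : G.dist (nxt G (nxt G x a) a) a = G.dist a (nxt G (nxt G x a) a) :=
              SimpleGraph.dist_comm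
            have hz' := hside hz hzd hx'
            have ih2 := ih (n - 2) (by omega) (nxt G (nxt G x a) a) (by omega) hz'
            have hxe' : nxt G (nxt G x a) a = x :=
              (eq_nxt_of hG (u := y) hz (by omega)).trans hxe.symm
            rw [hxe'] at hzd
            omega
  exact main _ x rfl hx

/-- Vertices below `b` at depth `l` and the vertices below `a` at depth `l'` are joined through the edge `a b`. -/
theorem dist_level_level {a b x y : V} (hab : G.Adj a b) {l l' : ℕ} (hx : x ∈ level G l b a)
    (hy : y ∈ level G l' a b) : G.dist x y = l + l' + 1 := by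
  obtain ⟨h1, h2⟩ := (mem_level hG hab.symm l x).1 hx
  obtain ⟨h3, h4⟩ := (mem_level hG hab l' y).1 hy
  have := dist_across hG hab (x := x) (y := y) (by omega) (by omega)
  omega

theorem geo_level_level {a b x y : V} (hab : G.Adj a b) {l l' : ℕ} (hx : x ∈ level G l b a)
    (hy : y ∈ level G l' a b) : geo G x y l = a ∧ geo G x y (l + 1) = b := by
  obtain ⟨h1, h2⟩ := (mem_level hG hab.symm l x).1 hx
  obtain ⟨h3, h4⟩ := (mem_level hG hab l' y).1 hy
  have h5 := dist_level_level hG hab hx hy
  have h6 := geo_of_dist_add hG (x := x) (y := y) (z := a)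
    (by rw [h5, SimpleGraph.dist_comm (u := x), h1, h4]; omega)
  have h7 := geo_of_dist_add hG (x := x) (y := y) (z := b)
    (by rw [h5, SimpleGraph.dist_comm (u := x), h2, h3]; omega)
  rw [SimpleGraph.dist_comm, h1] at h6
  rw [SimpleGraph.dist_comm, h2] at h7
  exact ⟨h6, h7⟩

private theorem nxt_ne_of_far {p v x : V} (h : G.Adj p x) (hd : G.dist v x = G.dist v p + 1) :
    nxt G p v ≠ x := by
  intro e
  by_cases hpv : p = v
  · rw [hpv, nxt_self hG] at e
    rw [hpv] at h
    exact h.ne e
  · have h1 := dist_nxt hG hpv
    rw [e, SimpleGraph.dist_comm (u := x), SimpleGraph.dist_comm (u := p)] at h1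
    omega

/-- **Two point homogeneity**: an automorphism moves any pair of vertices to any pair at the same distance. -/
theorem exists_aut {v u v' u' : V} (h : G.dist v u = G.dist v' u') :
    ∃ g : G ≃g G, g v = v' ∧ g u = u' := by
  have hc : ∀ p p', (G.neighborFinset p).card = (G.neighborFinset p').card := fun p p' => by
    rw [hG.reg, hG.reg]
  choose τ hτ1 hτ2 hτ3 using fun p p' => exists_local_bij (hc p p') (nxt G p v) (nxt G p' v') (nxt G p u)
    (nxt G p' u')
  have hpar : ∀ p p', p ≠ v → p' ≠ v' → τ p p' (nxt G p v) = nxt G p' v' := fun p p' hp hp' =>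
    hτ2 p p' (by simpa using nxt_adj hG hp) (by simpa using nxt_adj hG hp')
  let f := autF G τ v v'
  have hinj := autF_inj hG hτ1 hpar
  have hsurj := autF_surj hG hτ1 hpar
  have hadj : ∀ {x y : V}, G.Adj (f x) (f y) ↔ G.Adj x y := fun {x y} => autF_adj hG hτ1 hpar
  let g : G ≃g G := ⟨Equiv.ofBijective f ⟨hinj, hsurj⟩, fun {a b} => hadj⟩
  -- the geodesic is respected
  have hgeo : ∀ j, j ≤ G.dist v u → f (geo G v u j) = geo G v' u' j := by
    intro j hj
    induction j with
    | zero => exact autF_self τ v v'
    | succ j ih =>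
      have hj1 : j < G.dist v u := by omega
      have hj2 : j < G.dist v' u' := by omega
      have h1 := ih (by omega)
      set p := geo G v u j with hp
      set p' := geo G v' u' j with hp'
      have hpu : p ≠ u := geo_ne hG hj1
      have hpu' : p' ≠ u' := geo_ne hG hj2
      have hx : geo G v u (j + 1) = nxt G p u := geo_succ v u j
      have hx' : geo G v' u' (j + 1) = nxt G p' u' := geo_succ v' u' j
      have hdx : G.dist v (nxt G p u) = j + 1 := by
        rw [← hx]; exact dist_geo_left hG v u (j := j + 1) hj
      have hdp : G.dist v p = j := dist_geo_left hG v u (j := j) (by omega)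
      have hdx' : G.dist v' (nxt G p' u') = j + 1 := by
        rw [← hx']; exact dist_geo_left hG v' u' (j := j + 1) (by omega)
      have hdp' : G.dist v' p' = j := dist_geo_left hG v' u' (j := j) (by omega)
      have hpadj := nxt_adj hG hpu
      have hpadj' := nxt_adj hG hpu'
      have hparx : nxt G (geo G v u (j + 1)) v = p := by
        rw [hx]
        symm
        apply eq_nxt_of hG hpadj.symm
        rw [SimpleGraph.dist_comm (u := p), SimpleGraph.dist_comm (u := nxt G p u)]
        omega
      have hxv : geo G v u (j + 1) ≠ v := by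
        rintro e
        rw [hx] at e
        rw [e] at hdx
        simp at hdx
      have hab : nxt G p v ≠ nxt G p u := nxt_ne_of_far hG hpadj (by omega)
      have hab' : nxt G p' v' ≠ nxt G p' u' := nxt_ne_of_far hG hpadj' (by omega)
      show autF G τ v v' (geo G v u (j + 1)) = _
      rw [autF_step hG τ v v' hxv, hparx, hx']
      have h2 : autF G τ v v' p = p' := h1
      rw [h2, hx]
      exact hτ3 p p' (by simpa using hpadj) (by simpa using hpadj') hab hab'
  refine ⟨g, autF_self τ v v', ?_⟩
  have h1 := hgeo _ (le_refl _)
  rw [geo_dist hG, h] at h1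
  rw [geo_dist hG] at h1
  exact h1

end path


/-! ### Star-shaped sets -/

/-- `W` contains the geodesics from its points to `o`. -/
def Star (G : SimpleGraph V) [G.LocallyFinite] (W : Finset V) (o : V) : Prop :=
  o ∈ W ∧ ∀ v ∈ W, v ≠ o → nxt G v o ∈ W

section star

variable (hG : RegTree G q)
include hG

/-- Balls are geodesically convex. -/
theorem star_ball {a o : V} {R : ℕ} (ho : o ∈ ball G a R) : Star G (ball G a R) o := by
  refine ⟨ho, fun v hv hne => ?_⟩
  rw [mem_ball hG] at ho hv ⊢
  have hadj := nxt_adj hG hne
  have hd := dist_nxt hG hne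
  rcases dist_adj_cases hG hadj a with h | h
  · have e1 : G.dist v a = G.dist a v := SimpleGraph.dist_comm
    have e2 : G.dist (nxt G v o) a = G.dist a (nxt G v o) := SimpleGraph.dist_comm
    omega
  · have := dist_across hG hadj (x := a) (y := o) (by omega) hd
    have e1 : G.dist a v = G.dist v a := SimpleGraph.dist_comm
    have e2 : G.dist a (nxt G v o) = G.dist (nxt G v o) a := SimpleGraph.dist_comm
    omega

theorem star_subT {a b : V} (hab : G.Adj a b) (n : ℕ) : Star G (subT G n a b) b := by
  have hab1 : G.dist a b = 1 := SimpleGraph.dist_eq_one_iff_adj.2 hab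
  refine ⟨(mem_subT hG hab n b).2 (by simp [hab1]), fun v hv hne => ?_⟩
  obtain ⟨h1, h2⟩ := (mem_subT hG hab n v).1 hv
  have hadj := nxt_adj hG hne
  have hd := dist_nxt hG hne
  have e1 : G.dist v b = G.dist b v := SimpleGraph.dist_comm
  have e2 : G.dist (nxt G v b) b = G.dist b (nxt G v b) := SimpleGraph.dist_comm
  refine (mem_subT hG hab n _).2 ⟨by omega, ?_⟩
  rcases dist_adj_cases hG hab (nxt G v b) with h | h
  · exact h
  · have := side_edge hG hab hadj.symm (by omega) (by omega)
    exact absurd this.2 hne

/-- A connected set of vertices contains the geodesics between its points. -/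
theorem star_of_connected {S : Finset V} (hS : (G.induce (S : Set V)).Connected) {o : V} (ho : o ∈ S) :
    Star G S o := by
  refine ⟨ho, fun v hv hne => ?_⟩
  obtain ⟨p⟩ := hS.preconnected ⟨v, hv⟩ ⟨o, ho⟩
  let r : G.Walk v o := (p.map (SimpleGraph.Embedding.induce (S : Set V)).toHom).bypass
  have hr : r.IsPath := SimpleGraph.Walk.bypass_isPath _
  have hsup : ∀ w ∈ r.support, w ∈ S := by
    intro w hw
    have h1 := SimpleGraph.Walk.support_bypass_subset_support _ hw
    have h2 : w ∈ List.map (SimpleGraph.Embedding.induce (S : Set V)).toHom p.support :=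
      (SimpleGraph.Walk.support_map (SimpleGraph.Embedding.induce (S : Set V)).toHom p) ▸ h1
    obtain ⟨z, -, rfl⟩ := List.mem_map.1 h2
    exact z.2
  obtain ⟨q, hq⟩ := hG.tree.connected.exists_walk_length_eq_dist v o
  have hqp : q.IsPath := SimpleGraph.Walk.isPath_of_length_eq_dist _ hq
  have hrq : r = q := congrArg Subtype.val ((hG.tree.isAcyclic.subsingleton_path v o).elim ⟨r, hr⟩ ⟨q, hqp⟩)
  have hlen : r.length = G.dist v o := by rw [hrq, hq]
  have key : ∀ (r : G.Walk v o), v ≠ o → r.length = G.dist v o → nxt G v o ∈ r.support := by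
    intro r hne hlen
    cases r with
    | nil => exact absurd rfl hne
    | @cons _ w _ hadj r' =>
      rw [SimpleGraph.Walk.length_cons] at hlen
      have h1 : G.dist w o ≤ r'.length := SimpleGraph.dist_le r'
      have h2 : G.dist v o ≤ G.dist v w + G.dist w o := hG.tree.connected.dist_triangle
      have h3 : G.dist v w = 1 := SimpleGraph.dist_eq_one_iff_adj.2 hadj
      have h4 : w = nxt G v o := eq_nxt_of hG hadj (by omega)
      rw [← h4]
      simp
  exact hsup _ (key r hne hlen)

/-- Geodesics stay in star-shaped sets. -/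
theorem geo_mem_of_star {W : Finset V} {v u : V} (h : Star G W u) (hv : v ∈ W) {j : ℕ} (hj : j ≤ G.dist v u) :
    geo G v u j ∈ W := by
  induction j with
  | zero => exact hv
  | succ j ih =>
    rw [geo_succ]
    exact h.2 _ (ih (by omega)) (geo_ne hG (by omega))

/-- Subtrees are contained in balls. -/
theorem subT_subset_ball {a x y : V} (hxy : G.Adj x y) (hd : G.dist a y = G.dist a x + 1) {R : ℕ}
    (hR : G.dist a y ≤ R) : subT G (R - G.dist a y) x y ⊆ ball G a R := by
  intro p hp
  obtain ⟨h1, h2⟩ := (mem_subT hG hxy _ p).1 hp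
  rw [mem_ball hG]
  have : G.dist a p ≤ G.dist a y + G.dist y p := hG.tree.connected.dist_triangle
  omega

/-- The side of `y` of an outward edge in a ball is the subtree of `y`. -/
theorem ball_filter_side {a x y : V} (hxy : G.Adj x y) (hd : G.dist a y = G.dist a x + 1) {R : ℕ}
    (hR : G.dist a y ≤ R) :
    (ball G a R).filter (fun p => G.dist y p < G.dist x p) = subT G (R - G.dist a y) x y := by
  ext p
  rw [Finset.mem_filter, mem_ball hG, mem_subT hG hxy]
  constructor
  · rintro ⟨h1, h2⟩
    have h3 : G.dist x p = G.dist y p + 1 := by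
      rcases dist_adj_cases hG hxy p with h | h <;> omega
    have h4 := dist_across hG hxy (x := a) (y := p)
      (by rw [SimpleGraph.dist_comm (u := x), SimpleGraph.dist_comm (u := y)]; omega) (by omega)
    have e1 : G.dist x a = G.dist a x := SimpleGraph.dist_comm
    exact ⟨by omega, h3⟩
  · rintro ⟨h1, h2⟩
    have : G.dist a p ≤ G.dist a y + G.dist y p := hG.tree.connected.dist_triangle
    exact ⟨by omega, by omega⟩

end star

end Crest.Agent.Lib.TI
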