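import Crest.Agent.Lib.TI.Geom
import Crest.Agent.Lib.TI.Cavity
import Crest.Prelude.Def_TreeIsing

/-!
# Tilted Ising measures on finite sets of a tree (S0241 project, module TI.Gibbs)

All sums are finite sums over spin assignments on a finite set `W`, written `sumW W F`; a configuration is a total
function `σ : V → Bool` (equal to `false` off `W` when summing).  The reference weight is exactly
`Crest.ProbabilityR.TreeIsing.isingWeight`.  Vertex functions `g v s` tilt the measure.
-/

set_option autoImplicit false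

namespace Crest.Agent.Lib.TI

open Classical
open Crest.ProbabilityR.TreeIsing

variable {V : Type*}

/-- Spin of a Boolean. -/
def spin (b : Bool) : ℝ := if b then 1 else -1

/-- Sum over the spin assignments on `W`. -/
noncomputable def sumW (W : Finset V) (F : (V → Bool) → ℝ) : ℝ :=
  ∑ A ∈ W.powerset, F (fun v => decide (v ∈ A))

/-- `F` depends only on the spins on `W`. -/
def DepOn (W : Finset V) (F : (V → Bool) → ℝ) : Prop :=
  ∀ σ σ' : V → Bool, (∀ v ∈ W, σ v = σ' v) → F σ = F σ'

section sumW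

variable {W W₁ W₂ : Finset V} {F F' F₁ F₂ : (V → Bool) → ℝ}

theorem sumW_empty (F : (V → Bool) → ℝ) : sumW ∅ F = F (fun _ => false) := by
  simp [sumW]

theorem sumW_insert {x : V} (hx : x ∉ W) (F : (V → Bool) → ℝ) :
    sumW (insert x W) F =
      sumW W (fun σ => F (Function.update σ x true)) + sumW W (fun σ => F (Function.update σ x false)) := by
  unfold sumW
  rw [Finset.sum_powerset_insert hx, add_comm]
  congr 1
  · apply Finset.sum_congr rfl
    intro A _
    congr 1
    funext v
    by_cases hv : v = x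
    · subst hv; simp
    · simp [Finset.mem_insert, hv]
  · apply Finset.sum_congr rfl
    intro A hA
    congr 1
    funext v
    by_cases hv : v = x
    · subst hv
      have : v ∉ A := fun h => hx (Finset.mem_powerset.mp hA h)
      simp [this]
    · simp [Function.update_of_ne hv]

theorem sumW_congr (h : ∀ σ, F σ = F' σ) : sumW W F = sumW W F' := by
  unfold sumW
  exact Finset.sum_congr rfl (fun _ _ => h _)

theorem sumW_add : sumW W (fun σ => F σ + F' σ) = sumW W F + sumW W F' := by
  unfold sumW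
  exact Finset.sum_add_distrib

theorem sumW_mul_left (c : ℝ) : sumW W (fun σ => c * F σ) = c * sumW W F := by
  unfold sumW
  exact (Finset.mul_sum _ _ _).symm

theorem sumW_nonneg (h : ∀ σ, 0 ≤ F σ) : 0 ≤ sumW W F := by
  unfold sumW
  exact Finset.sum_nonneg (fun _ _ => h _)

theorem sumW_pos (h : ∀ σ, 0 < F σ) : 0 < sumW W F := by
  unfold sumW
  exact Finset.sum_pos (fun _ _ => h _) (Finset.powerset_nonempty W)

theorem sumW_le (h : ∀ σ, F σ ≤ F' σ) : sumW W F ≤ sumW W F' := by
  unfold sumW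
  exact Finset.sum_le_sum (fun _ _ => h _)

theorem abs_sumW_le : |sumW W F| ≤ sumW W (fun σ => |F σ|) := by
  unfold sumW
  exact Finset.abs_sum_le_sum_abs _ _

/-- Fubini. -/
theorem sumW_union (hd : Disjoint W₁ W₂) (h₁ : DepOn W₁ F₁) (h₂ : DepOn W₂ F₂) :
    sumW (W₁ ∪ W₂) (fun σ => F₁ σ * F₂ σ) = sumW W₁ F₁ * sumW W₂ F₂ := by
  classical
  induction W₁ using Finset.induction_on generalizing F₁ with
  | empty =>
    have hc : ∀ σ, F₁ σ = F₁ (fun _ => false) := fun σ => h₁ _ _ (by simp)
    rw [sumW_empty, Finset.empty_union]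
    rw [sumW_congr (F' := fun σ => F₁ (fun _ => false) * F₂ σ) (fun σ => by rw [hc σ]), sumW_mul_left]
  | insert x S hx ih =>
    have hxW₂ : x ∉ W₂ := fun h => (Finset.disjoint_left.mp hd) (Finset.mem_insert_self x S) h
    have hd' : Disjoint S W₂ := Finset.disjoint_of_subset_left (Finset.subset_insert x S) hd
    have hxU : x ∉ S ∪ W₂ := by simp [hx, hxW₂]
    have hupd : ∀ (b : Bool) (σ : V → Bool), F₂ (Function.update σ x b) = F₂ σ := by
      intro b σ
      apply h₂
      intro v hv
      have : v ≠ x := fun h => hxW₂ (h ▸ hv)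
      simp [Function.update_of_ne this]
    have hdep : ∀ b : Bool, DepOn S (fun σ => F₁ (Function.update σ x b)) := by
      intro b σ σ' hh
      apply h₁
      intro v hv
      by_cases hvx : v = x
      · subst hvx; simp
      · simp only [Function.update_of_ne hvx]
        exact hh v (by
          rcases Finset.mem_insert.mp hv with h | h
          · exact absurd h hvx
          · exact h)
    rw [Finset.insert_union, sumW_insert hxU, sumW_insert hx]
    have e1 : ∀ b : Bool, sumW (S ∪ W₂) (fun σ => F₁ (Function.update σ x b) * F₂ (Function.update σ x b)) =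
        sumW S (fun σ => F₁ (Function.update σ x b)) * sumW W₂ F₂ := by
      intro b
      rw [sumW_congr (F' := fun σ => F₁ (Function.update σ x b) * F₂ σ) (fun σ => by rw [hupd])]
      exact ih hd' (hdep b)
    rw [e1, e1]
    ring

/-- Sum over a set, when the summand is an indicator on that set. -/
theorem sumW_indicator (η : V → Bool) (hF : DepOn W F) :
    sumW W (fun σ => F σ * (if ∀ v ∈ W, σ v = η v then 1 else 0)) = F η := by
  classical
  unfold sumW
  set A₀ := W.filter (fun v => η v = true) with hA₀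
  have hA₀W : A₀ ∈ W.powerset := Finset.mem_powerset.mpr (Finset.filter_subset _ _)
  rw [Finset.sum_eq_single_of_mem A₀ hA₀W]
  · have hag : ∀ v ∈ W, decide (v ∈ A₀) = η v := by
      intro v hv
      by_cases h : η v = true
      · simp [hA₀, hv, h]
      · have h' : η v = false := by simpa using h
        simp [hA₀, h']
    beta_reduce
    rw [if_pos hag, mul_one]
    exact hF _ _ hag
  · intro A hA hne
    beta_reduce
    rw [if_neg, mul_zero]
    intro hall
    apply hne
    ext v
    constructor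
    · intro hv
      have hvW := Finset.mem_powerset.mp hA hv
      have := hall v hvW
      simp only [hv, decide_true] at this
      simp [hA₀, hvW, ← this]
    · intro hv
      have hvW : v ∈ W := (Finset.mem_filter.mp hv).1
      have h2 : η v = true := (Finset.mem_filter.mp hv).2
      have := hall v hvW
      rw [h2] at this
      simpa using this

theorem measurable_sumW {Ω : Type*} [MeasurableSpace Ω] {F : Ω → (V → Bool) → ℝ}
    (h : ∀ σ, Measurable (fun ω => F ω σ)) : Measurable (fun ω => sumW W (F ω)) := by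
  unfold sumW
  exact Finset.measurable_sum _ (fun _ _ => h _)

end sumW

/-- The edge factor. -/
noncomputable def ef (θ : ℝ) (s s' : Bool) : ℝ := (1 + θ * spin s * spin s') / 2

variable (G : SimpleGraph V)

/-- The tilted weight of a configuration. -/
noncomputable def wt (θ : ℝ) (W : Finset V) (g : V → Bool → ℝ) (σ : V → Bool) : ℝ :=
  isingWeight G θ W σ * ∏ v ∈ W, g v (σ v)

/-- The partition function. -/
noncomputable def Zg (θ : ℝ) (W : Finset V) (g : V → Bool → ℝ) : ℝ := sumW W (wt G θ W g)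

/-- Expectations under the tilted measure. -/
noncomputable def Ex (θ : ℝ) (W : Finset V) (g : V → Bool → ℝ) (F : (V → Bool) → ℝ) : ℝ :=
  sumW W (fun σ => wt G θ W g σ * F σ) / Zg G θ W g

/-- Means. -/
noncomputable def mv (θ : ℝ) (W : Finset V) (g : V → Bool → ℝ) (v : V) : ℝ :=
  Ex G θ W g (fun σ => spin (σ v))

/-- Covariances. -/
noncomputable def cv (θ : ℝ) (W : Finset V) (g : V → Bool → ℝ) (v u : V) : ℝ :=
  Ex G θ W g (fun σ => spin (σ v) * spin (σ u)) - mv G θ W g v * mv G θ W g u

/-- Multiplying the vertex function at `u` by `1 + a s`. -/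
noncomputable def tilt (g : V → Bool → ℝ) (u : V) (a : ℝ) : V → Bool → ℝ :=
  fun v s => if v = u then g v s * (1 + a * spin s) else g v s

/-- Positive vertex functions. -/
def PosG (g : V → Bool → ℝ) : Prop := ∀ v s, 0 < g v s

/-- The rooted sum with a functional: spin `s` at `b`, normalised so that it is `F` for a one point set. -/
noncomputable def ZrF (θ : ℝ) (W : Finset V) (g : V → Bool → ℝ) (b : V) (s : Bool) (F : (V → Bool) → ℝ) : ℝ :=
  2 * sumW W (fun σ => wt G θ W g σ * F σ * (if σ b = s then 1 else 0))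

/-- The rooted partition function. -/
noncomputable def Zr (θ : ℝ) (W : Finset V) (g : V → Bool → ℝ) (b : V) (s : Bool) : ℝ :=
  ZrF G θ W g b s (fun _ => 1)

/-- The cavity field of a rooted set. -/
noncomputable def tr (θ : ℝ) (W : Finset V) (g : V → Bool → ℝ) (b : V) : ℝ :=
  (Zr G θ W g b true - Zr G θ W g b false) / (Zr G θ W g b true + Zr G θ W g b false)

/-- A decomposition of a set along the edge `(x, y)`. -/
structure IsCut (W₁ W₂ : Finset V) (x y : V) : Prop where
  disj : Disjoint W₁ W₂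
  mem₁ : x ∈ W₁
  mem₂ : y ∈ W₂
  adj : G.Adj x y
  only : ∀ p ∈ W₁, ∀ p' ∈ W₂, G.Adj p p' → p = x ∧ p' = y

variable {G}
variable {θ : ℝ} {W W₁ W₂ : Finset V} {g : V → Bool → ℝ} {x y v u a b : V}

section basics

theorem spin_sq (s : Bool) : spin s ^ 2 = 1 := by
  cases s <;> simp [spin]

theorem abs_spin (s : Bool) : |spin s| = 1 := by
  cases s <;> simp [spin]

theorem ef_pos (hθ : |θ| < 1) (s s' : Bool) : 0 < ef θ s s' := by
  have h := abs_lt.mp hθ
  cases s <;> cases s' <;> simp only [ef, spin] <;> norm_num <;> linarith [h.1, h.2]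

theorem ef_sum (θ : ℝ) (s : Bool) : ef θ s true + ef θ s false = 1 := by
  cases s <;> simp only [ef, spin] <;> norm_num <;> ring

theorem isingWeight_pos (hθ : |θ| < 1) (W : Finset V) (σ : V → Bool) : 0 < isingWeight G θ W σ := by
  have h := abs_lt.mp hθ
  unfold isingWeight
  apply mul_pos (by norm_num)
  apply Finset.prod_pos
  intro e _
  split_ifs <;> linarith [h.1, h.2]

theorem isingWeight_depOn (θ : ℝ) (W : Finset V) : DepOn W (isingWeight G θ W) := by
  intro σ σ' h
  unfold isingWeight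
  congr 1
  apply Finset.prod_congr rfl
  intro e he
  have he' := (Finset.mem_filter.mp he).1
  have hmem : ∀ a ∈ e, a ∈ W := Finset.mem_sym2_iff.mp he'
  have : Sym2.map σ e = Sym2.map σ' e := by
    induction e using Sym2.ind with
    | _ a b =>
      simp only [Sym2.map_mk]
      rw [h a (hmem a (by simp)), h b (hmem b (by simp))]
  rw [this]

theorem wt_pos (hθ : |θ| < 1) (hg : PosG g) (σ : V → Bool) : 0 < wt G θ W g σ := by
  unfold wt
  exact mul_pos (isingWeight_pos hθ W σ) (Finset.prod_pos (fun v _ => hg v _))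

theorem wt_depOn (θ : ℝ) (W : Finset V) (g : V → Bool → ℝ) : DepOn W (wt G θ W g) := by
  intro σ σ' h
  unfold wt
  rw [isingWeight_depOn θ W σ σ' h]
  congr 1
  apply Finset.prod_congr rfl
  intro v hv
  rw [h v hv]

theorem Zg_pos (hθ : |θ| < 1) (hg : PosG g) : 0 < Zg G θ W g := by
  unfold Zg
  exact sumW_pos (fun σ => wt_pos hθ hg σ)

theorem abs_Ex_le (hθ : |θ| < 1) (hg : PosG g) {F : (V → Bool) → ℝ} (hF : ∀ σ, |F σ| ≤ 1) :
    |Ex G θ W g F| ≤ 1 := by
  have hZ := Zg_pos (G := G) (W := W) hθ hg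
  unfold Ex
  rw [abs_div, abs_of_pos hZ, div_le_one hZ]
  refine le_trans abs_sumW_le ?_
  unfold Zg
  apply sumW_le
  intro σ
  rw [abs_mul, abs_of_pos (wt_pos hθ hg σ)]
  have := wt_pos (G := G) (W := W) hθ hg σ
  nlinarith [hF σ]

theorem abs_mv_le (hθ : |θ| < 1) (hg : PosG g) (v : V) : |mv G θ W g v| ≤ 1 := by
  unfold mv
  exact abs_Ex_le hθ hg (fun σ => (abs_spin _).le)

/-- `1` under `Ex`. -/
theorem Ex_one (hθ : |θ| < 1) (hg : PosG g) : Ex G θ W g (fun _ => 1) = 1 := by
  have hZ := Zg_pos (G := G) (W := W) hθ hg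
  unfold Ex
  simp only [mul_one]
  exact div_self hZ.ne'

/-- The means are strictly inside `(-1, 1)` if `v ∈ W`. -/
theorem abs_mv_lt (hθ : |θ| < 1) (hg : PosG g) (hv : v ∈ W) : |mv G θ W g v| < 1 := by
  classical
  have hZ := Zg_pos (G := G) (W := W) hθ hg
  have key : ∀ c : ℝ, mv G θ W g v + c = sumW W (fun σ => wt G θ W g σ * (spin (σ v) + c)) / Zg G θ W g := by
    intro c
    have e : sumW W (fun σ => wt G θ W g σ * (spin (σ v) + c)) =
        sumW W (fun σ => wt G θ W g σ * spin (σ v)) + c * Zg G θ W g := by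
      rw [sumW_congr (F' := fun σ => wt G θ W g σ * spin (σ v) + c * wt G θ W g σ) (fun σ => by ring),
        sumW_add, sumW_mul_left]
      rfl
    rw [e]
    unfold mv Ex
    have hZ' := hZ.ne'
    field_simp
  rw [abs_lt]
  constructor
  · -- `0 < mv + 1`: configuration `W`
    have hpos : 0 < sumW W (fun σ => wt G θ W g σ * (spin (σ v) + 1)) := by
      unfold sumW
      apply Finset.sum_pos'
      · intro A _
        apply mul_nonneg (wt_pos hθ hg _).le
        by_cases h : v ∈ A <;> simp [spin, h]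
      · refine ⟨W, Finset.mem_powerset.mpr (Finset.Subset.refl _), ?_⟩
        apply mul_pos (wt_pos hθ hg _)
        simp [spin, hv]
    have := key 1
    have h2 : 0 < mv G θ W g v + 1 := by rw [this]; exact div_pos hpos hZ
    linarith
  · -- `0 < 1 - mv`: configuration `∅`
    have hneg : sumW W (fun σ => wt G θ W g σ * (spin (σ v) + (-1))) < 0 := by
      unfold sumW
      apply Finset.sum_neg'
      · intro A _
        apply mul_nonpos_of_nonneg_of_nonpos (wt_pos hθ hg _).le
        by_cases h : v ∈ A <;> simp [spin, h]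
      · refine ⟨∅, Finset.empty_mem_powerset W, ?_⟩
        apply mul_neg_of_pos_of_neg (wt_pos hθ hg _)
        simp [spin]
    have := key (-1)
    have h2 : mv G θ W g v + (-1) < 0 := by rw [this]; exact div_neg_of_neg_of_pos hneg hZ
    linarith

theorem cv_self (hθ : |θ| < 1) (hg : PosG g) (v : V) : cv G θ W g v v = 1 - mv G θ W g v ^ 2 := by
  unfold cv
  have : Ex G θ W g (fun σ => spin (σ v) * spin (σ v)) = 1 := by
    rw [← Ex_one (G := G) (W := W) hθ hg]
    unfold Ex
    congr 1
    apply sumW_congr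
    intro σ
    have := spin_sq (σ v)
    beta_reduce
    rw [show spin (σ v) * spin (σ v) = spin (σ v) ^ 2 by ring, this]
  rw [this]; ring

theorem cv_comm (v u : V) : cv G θ W g v u = cv G θ W g u v := by
  unfold cv
  have : (fun σ : V → Bool => spin (σ v) * spin (σ u)) = (fun σ => spin (σ u) * spin (σ v)) := by
    funext σ; ring
  rw [this]; ring

theorem abs_cv_le (hθ : |θ| < 1) (hg : PosG g) (v u : V) : |cv G θ W g v u| ≤ 2 := by
  unfold cv
  have h1 : |Ex G θ W g (fun σ => spin (σ v) * spin (σ u))| ≤ 1 :=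
    abs_Ex_le hθ hg (fun σ => by rw [abs_mul, abs_spin, abs_spin]; norm_num)
  have h2 := abs_mv_le (G := G) (W := W) hθ hg v
  have h3 := abs_mv_le (G := G) (W := W) hθ hg u
  have h4 : |mv G θ W g v * mv G θ W g u| ≤ 1 := by
    rw [abs_mul]; nlinarith [abs_nonneg (mv G θ W g v), abs_nonneg (mv G θ W g u)]
  calc _ ≤ |Ex G θ W g (fun σ => spin (σ v) * spin (σ u))| + |mv G θ W g v * mv G θ W g u| := abs_sub _ _
    _ ≤ 2 := by linarith

theorem one_add_spin_pos {a : ℝ} (ha : |a| < 1) (s : Bool) : 0 < 1 + a * spin s := by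
  have h := abs_lt.mp ha
  cases s <;> simp only [spin] <;> norm_num <;> linarith [h.1, h.2]

theorem tilt_pos (hg : PosG g) {a : ℝ} (ha : |a| < 1) (u : V) : PosG (tilt g u a) := by
  intro v s
  unfold tilt
  split_ifs
  · exact mul_pos (hg v s) (one_add_spin_pos ha s)
  · exact hg v s

theorem wt_congr {g' : V → Bool → ℝ} (h : ∀ v ∈ W, ∀ s, g v s = g' v s) (σ : V → Bool) :
    wt G θ W g σ = wt G θ W g' σ := by
  unfold wt
  congr 1
  exact Finset.prod_congr rfl (fun v hv => h v hv _)

/-- The vertex functions only matter on `W`. -/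
theorem Zg_congr {g' : V → Bool → ℝ} (h : ∀ v ∈ W, ∀ s, g v s = g' v s) : Zg G θ W g = Zg G θ W g' := by
  unfold Zg
  exact sumW_congr (wt_congr h)

theorem Ex_congr {g' : V → Bool → ℝ} (h : ∀ v ∈ W, ∀ s, g v s = g' v s) (F : (V → Bool) → ℝ) :
    Ex G θ W g F = Ex G θ W g' F := by
  unfold Ex
  rw [Zg_congr h]
  congr 1
  exact sumW_congr (fun σ => by rw [wt_congr h])

theorem mv_congr {g' : V → Bool → ℝ} (h : ∀ v ∈ W, ∀ s, g v s = g' v s) (u : V) :
    mv G θ W g u = mv G θ W g' u := by
  unfold mv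
  exact Ex_congr h _

theorem cv_congr {g' : V → Bool → ℝ} (h : ∀ v ∈ W, ∀ s, g v s = g' v s) (v u : V) :
    cv G θ W g v u = cv G θ W g' v u := by
  unfold cv
  rw [Ex_congr h, mv_congr h, mv_congr h]

theorem wt_tilt (hu : u ∈ W) (a : ℝ) (σ : V → Bool) :
    wt G θ W (tilt g u a) σ = wt G θ W g σ * (1 + a * spin (σ u)) := by
  classical
  unfold wt
  rw [mul_assoc]
  congr 1
  have : ∀ v ∈ W, tilt g u a v (σ v) = g v (σ v) * (if v = u then 1 + a * spin (σ u) else 1) := by
    intro v _
    unfold tilt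
    split_ifs with h
    · subst h; rfl
    · ring
  rw [Finset.prod_congr rfl this, Finset.prod_mul_distrib, Finset.prod_ite_eq' W u]
  simp [hu]

/-- Tilting. -/
theorem Zg_tilt (hθ : |θ| < 1) (hg : PosG g) (hu : u ∈ W) (a : ℝ) :
    Zg G θ W (tilt g u a) = Zg G θ W g * (1 + a * mv G θ W g u) := by
  have hZ := Zg_pos (G := G) (W := W) hθ hg
  unfold Zg mv Ex Zg
  rw [sumW_congr (fun σ => wt_tilt hu a σ)]
  rw [sumW_congr (F' := fun σ => wt G θ W g σ + a * (wt G θ W g σ * spin (σ u))) (fun σ => by ring),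
    sumW_add, sumW_mul_left]
  have hZ' : sumW W (wt G θ W g) ≠ 0 := hZ.ne'
  field_simp

theorem mv_tilt (hθ : |θ| < 1) (hg : PosG g) (hu : u ∈ W) {a : ℝ} (ha : |a| < 1) (v : V) :
    mv G θ W (tilt g u a) v = mv G θ W g v + a / (1 + a * mv G θ W g u) * cv G θ W g v u := by
  have hZ := Zg_pos (G := G) (W := W) hθ hg
  have hmu := abs_mv_le (G := G) (W := W) hθ hg u
  have hden : 0 < 1 + a * mv G θ W g u := by
    have h1 : |a * mv G θ W g u| < 1 := by
      rw [abs_mul]
      nlinarith [abs_nonneg a, abs_nonneg (mv G θ W g u)]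
    have := (abs_lt.mp h1).1
    linarith
  have hnum : sumW W (fun σ => wt G θ W (tilt g u a) σ * spin (σ v)) =
      Zg G θ W g * mv G θ W g v + a * (Zg G θ W g * Ex G θ W g (fun σ => spin (σ v) * spin (σ u))) := by
    rw [sumW_congr (F' := fun σ => wt G θ W g σ * spin (σ v) + a * (wt G θ W g σ * (spin (σ v) * spin (σ u))))
      (fun σ => by rw [wt_tilt hu]; ring), sumW_add, sumW_mul_left]
    unfold mv Ex
    have hZ' : Zg G θ W g ≠ 0 := hZ.ne'
    field_simp
  have : mv G θ W (tilt g u a) v = sumW W (fun σ => wt G θ W (tilt g u a) σ * spin (σ v)) / Zg G θ W (tilt g u a) := rfl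
  rw [this, hnum, Zg_tilt hθ hg hu]
  unfold cv
  have hZ' : Zg G θ W g ≠ 0 := hZ.ne'
  have hden' := hden.ne'
  field_simp
  ring

theorem tilt_eq_of_not_mem (hu : u ∉ W) (a : ℝ) : ∀ v ∈ W, ∀ s, tilt g u a v s = g v s := by
  intro v hv s
  unfold tilt
  rw [if_neg]
  exact fun h => hu (h ▸ hv)

/-- Tilting at a vertex outside `W` changes nothing. -/
theorem mv_tilt_of_not_mem (hu : u ∉ W) (a : ℝ) (v : V) : mv G θ W (tilt g u a) v = mv G θ W g v :=
  mv_congr (tilt_eq_of_not_mem hu a) v

theorem Zg_tilt_of_not_mem (hu : u ∉ W) (a : ℝ) : Zg G θ W (tilt g u a) = Zg G θ W g :=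
  Zg_congr (tilt_eq_of_not_mem hu a)

theorem measurable_wt {Ω : Type*} [MeasurableSpace Ω] {g : Ω → V → Bool → ℝ}
    (h : ∀ v s, Measurable (fun ω => g ω v s)) (σ : V → Bool) : Measurable (fun ω => wt G θ W (g ω) σ) := by
  unfold wt
  exact (Finset.measurable_prod _ (fun v _ => h v _)).const_mul _

theorem measurable_Zg {Ω : Type*} [MeasurableSpace Ω] {g : Ω → V → Bool → ℝ}
    (h : ∀ v s, Measurable (fun ω => g ω v s)) : Measurable (fun ω => Zg G θ W (g ω)) :=
  measurable_sumW (fun σ => measurable_wt h σ)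

theorem measurable_Ex {Ω : Type*} [MeasurableSpace Ω] {g : Ω → V → Bool → ℝ}
    (h : ∀ v s, Measurable (fun ω => g ω v s)) (F : (V → Bool) → ℝ) : Measurable (fun ω => Ex G θ W (g ω) F) := by
  unfold Ex
  exact (measurable_sumW (fun σ => (measurable_wt h σ).mul_const _)).div (measurable_Zg h)

theorem measurable_mv {Ω : Type*} [MeasurableSpace Ω] {g : Ω → V → Bool → ℝ}
    (h : ∀ v s, Measurable (fun ω => g ω v s)) (v : V) : Measurable (fun ω => mv G θ W (g ω) v) :=
  measurable_Ex h _

theorem measurable_cv {Ω : Type*} [MeasurableSpace Ω] {g : Ω → V → Bool → ℝ}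
    (h : ∀ v s, Measurable (fun ω => g ω v s)) (v u : V) : Measurable (fun ω => cv G θ W (g ω) v u) := by
  unfold cv
  exact (measurable_Ex h _).sub ((measurable_mv h v).mul (measurable_mv h u))

/-- Flip of the spins on `W`. -/
noncomputable def flipOn (W : Finset V) (σ : V → Bool) : V → Bool := fun v => if v ∈ W then !(σ v) else σ v

theorem sumW_flip (W : Finset V) (F : (V → Bool) → ℝ) : sumW W (fun σ => F (flipOn W σ)) = sumW W F := by
  classical
  unfold sumW
  apply Finset.sum_nbij' (fun A => W \ A) (fun A => W \ A)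
  · intro A _; exact Finset.mem_powerset.mpr Finset.sdiff_subset
  · intro A _; exact Finset.mem_powerset.mpr Finset.sdiff_subset
  · intro A hA; exact Finset.sdiff_sdiff_eq_self (Finset.mem_powerset.mp hA)
  · intro A hA; exact Finset.sdiff_sdiff_eq_self (Finset.mem_powerset.mp hA)
  · intro A hA
    beta_reduce
    congr 1
    funext v
    unfold flipOn
    by_cases hv : v ∈ W
    · by_cases hvA : v ∈ A <;> simp [hv, hvA]
    · have : v ∉ A := fun h => hv (Finset.mem_powerset.mp hA h)
      simp [hv, this]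

theorem isingWeight_flip (θ : ℝ) (W : Finset V) (σ : V → Bool) :
    isingWeight G θ W (flipOn W σ) = isingWeight G θ W σ := by
  unfold isingWeight
  congr 1
  apply Finset.prod_congr rfl
  intro e he
  have he' := (Finset.mem_filter.mp he).1
  have hmem : ∀ a ∈ e, a ∈ W := Finset.mem_sym2_iff.mp he'
  have : (Sym2.map (flipOn W σ) e).IsDiag ↔ (Sym2.map σ e).IsDiag := by
    induction e using Sym2.ind with
    | _ a b =>
      simp only [Sym2.map_mk, Sym2.mk_isDiag_iff, flipOn, hmem a (by simp), hmem b (by simp), if_true]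
      cases σ a <;> cases σ b <;> simp
  simp only [this]

theorem wt_flip (θ : ℝ) (W : Finset V) (g : V → Bool → ℝ) (σ : V → Bool) :
    wt G θ W (fun u s => g u (!s)) σ = wt G θ W g (flipOn W σ) := by
  unfold wt
  rw [isingWeight_flip]
  congr 1
  apply Finset.prod_congr rfl
  intro v hv
  simp [flipOn, hv]

/-- Global flip. -/
theorem mv_flip (θ : ℝ) (W : Finset V) (g : V → Bool → ℝ) (hv : v ∈ W) :
    mv G θ W (fun u s => g u (!s)) v = - mv G θ W g v := by
  have hZ : Zg G θ W (fun u s => g u (!s)) = Zg G θ W g := by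
    unfold Zg
    rw [sumW_congr (fun σ => wt_flip θ W g σ)]
    exact sumW_flip W (wt G θ W g)
  have hN : sumW W (fun σ => wt G θ W (fun u s => g u (!s)) σ * spin (σ v)) =
      - sumW W (fun σ => wt G θ W g σ * spin (σ v)) := by
    have h1 : ∀ σ : V → Bool, wt G θ W (fun u s => g u (!s)) σ * spin (σ v) =
        (-1) * (fun τ : V → Bool => wt G θ W g τ * spin (τ v)) (flipOn W σ) := by
      intro σ
      rw [wt_flip]
      have : spin (flipOn W σ v) = - spin (σ v) := by
        simp only [flipOn, hv, if_true]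
        cases σ v <;> simp [spin]
      simp only [this]
      ring
    rw [sumW_congr h1, sumW_mul_left, sumW_flip W (fun τ => wt G θ W g τ * spin (τ v))]
    ring
  unfold mv Ex
  rw [hZ, hN]
  ring

theorem mv_one (hv : v ∈ W) : mv G θ W (fun _ _ => 1) v = 0 := by
  have := mv_flip (G := G) θ W (fun _ _ => (1 : ℝ)) hv
  simp only at this
  linarith

end basics

section cut

/-- The rooted sums of a set at one of its points are positive. -/
theorem Zr_pos (hθ : |θ| < 1) (hg : PosG g) {W : Finset V} (hb : b ∈ W) (s : Bool) : 0 < Zr G θ W g b s := by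
  unfold Zr ZrF sumW
  have h2 : (0:ℝ) < 2 := by norm_num
  refine mul_pos h2 (Finset.sum_pos' ?_ ?_)
  · intro A _
    have := wt_pos (W := W) (G := G) hθ hg (fun v => decide (v ∈ A))
    simp only [mul_one]
    split_ifs <;> linarith
  · cases s
    · refine ⟨∅, by simp, ?_⟩
      have := wt_pos (W := W) (G := G) hθ hg (fun v => decide (v ∈ (∅ : Finset V)))
      simpa using this
    · refine ⟨{b}, by simpa using hb, ?_⟩
      have := wt_pos (W := W) (G := G) hθ hg (fun v => decide (v ∈ ({b} : Finset V)))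
      simpa using this

/-- Pulling a function of the root spin out of a rooted sum. -/
theorem ZrF_spin_mul (θ : ℝ) (W : Finset V) (g : V → Bool → ℝ) (b : V) (s : Bool) (F : (V → Bool) → ℝ) :
    ZrF G θ W g b s (fun σ => spin (σ b) * F σ) = spin s * ZrF G θ W g b s F := by
  unfold ZrF
  rw [mul_left_comm, ← sumW_mul_left (F := fun σ => wt G θ W g σ * F σ * (if σ b = s then 1 else 0))]
  congr 1
  apply sumW_congr
  intro σ
  by_cases h : σ b = s
  · simp only [h, if_true]; ring
  · simp only [h, if_false]; ring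

theorem ZrF_spin (θ : ℝ) (W : Finset V) (g : V → Bool → ℝ) (b : V) (s : Bool) :
    ZrF G θ W g b s (fun σ => spin (σ b)) = spin s * Zr G θ W g b s := by
  have := ZrF_spin_mul (G := G) θ W g b s (fun _ => 1)
  simpa [Zr] using this

theorem abs_tr_lt (hθ : Adm θ) (hg : PosG g) {W : Finset V} (hb : b ∈ W) : |tr G θ W g b| < 1 := by
  have h1 : |θ| < 1 := by
    rw [abs_of_nonneg hθ.nonneg]; exact hθ.lt_one
  have ha := Zr_pos (G := G) h1 hg hb true
  have hb' := Zr_pos (G := G) h1 hg hb false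
  unfold tr
  rw [abs_lt]
  constructor
  · rw [lt_div_iff₀ (by linarith)]; linarith
  · rw [div_lt_one (by linarith)]; linarith

private theorem depOn_const (W : Finset V) : DepOn W (fun _ => (1:ℝ)) := fun _ _ _ => rfl

private theorem depOn_spin {W : Finset V} {v : V} (hv : v ∈ W) : DepOn W (fun σ => spin (σ v)) := by
  intro σ σ' h
  simp only [h v hv]

private theorem spin_true : spin true = 1 := rfl
private theorem spin_false : spin false = -1 := rfl

private theorem alg_means {θ ap an bp bn : ℝ} (hap : 0 < ap) (han : 0 < an) (hbp : 0 < bp) (hbn : 0 < bn)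
    (hθ0 : 0 ≤ θ) (hθ1 : θ < 1) :
    (1 / 4 * ((1 + θ) * (1 * ap * bp + -1 * an * bn) + (1 - θ) * (1 * ap * bn + -1 * an * bp))) /
        (1 / 4 * ((1 + θ) * (ap * bp + an * bn) + (1 - θ) * (ap * bn + an * bp))) =
      ((ap - an) / (ap + an) + θ * ((bp - bn) / (bp + bn))) /
        (1 + θ * ((ap - an) / (ap + an)) * ((bp - bn) / (bp + bn))) ∧
    (1 / 4 * ((1 + θ) * (ap * (1 * bp) + an * (-1 * bn)) + (1 - θ) * (ap * (-1 * bn) + an * (1 * bp)))) /
        (1 / 4 * ((1 + θ) * (ap * bp + an * bn) + (1 - θ) * (ap * bn + an * bp))) =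
      ((bp - bn) / (bp + bn) + θ * ((ap - an) / (ap + an))) /
        (1 + θ * ((ap - an) / (ap + an)) * ((bp - bn) / (bp + bn))) ∧
    (1 / 4 * ((1 + θ) * (1 * ap * (1 * bp) + -1 * an * (-1 * bn)) + (1 - θ) * (1 * ap * (-1 * bn) + -1 * an * (1 * bp)))) /
        (1 / 4 * ((1 + θ) * (ap * bp + an * bn) + (1 - θ) * (ap * bn + an * bp))) =
      (θ + (ap - an) / (ap + an) * ((bp - bn) / (bp + bn))) /
        (1 + θ * ((ap - an) / (ap + an)) * ((bp - bn) / (bp + bn))) := by
  have hA : ap + an ≠ 0 := by positivity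
  have hB : bp + bn ≠ 0 := by positivity
  have hZpos : 0 < (1 + θ) * (ap * bp + an * bn) + (1 - θ) * (ap * bn + an * bp) := by
    have h1 : 0 < 1 + θ := by linarith
    have h2 : 0 < 1 - θ := by linarith
    positivity
  have hD : (ap + an) * (bp + bn) + θ * (ap - an) * (bp - bn) ≠ 0 := by
    have : (ap + an) * (bp + bn) + θ * (ap - an) * (bp - bn) =
        (1 + θ) * (ap * bp + an * bn) + (1 - θ) * (ap * bn + an * bp) := by ring
    rw [this]; exact hZpos.ne'
  have hP : 1 + θ * ((ap - an) / (ap + an)) * ((bp - bn) / (bp + bn)) =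
      ((ap + an) * (bp + bn) + θ * (ap - an) * (bp - bn)) / ((ap + an) * (bp + bn)) := by
    field_simp
  have hZ' : (1 / 4 * ((1 + θ) * (ap * bp + an * bn) + (1 - θ) * (ap * bn + an * bp))) =
      (1 / 4) * ((ap + an) * (bp + bn) + θ * (ap - an) * (bp - bn)) := by ring
  rw [hP, hZ']
  refine ⟨?_, ?_, ?_⟩
  · field_simp
    ring
  · field_simp
    ring
  · field_simp
    ring

private theorem alg_markov {θ ap an bp bn cp cn Z : ℝ} (hZ0 : Z ≠ 0)
    (hZ : Z = 1 / 4 * ((1 + θ) * (ap * bp + an * bn) + (1 - θ) * (ap * bn + an * bp))) :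
    ((1 / 4 * ((1 + θ) * (cp * (1 * bp) + cn * (-1 * bn)) + (1 - θ) * (cp * (-1 * bn) + cn * (1 * bp)))) / Z -
        (1 / 4 * ((1 + θ) * (cp * bp + cn * bn) + (1 - θ) * (cp * bn + cn * bp))) / Z *
        ((1 / 4 * ((1 + θ) * (ap * (1 * bp) + an * (-1 * bn)) + (1 - θ) * (ap * (-1 * bn) + an * (1 * bp)))) / Z)) *
      (1 - ((1 / 4 * ((1 + θ) * (1 * ap * bp + -1 * an * bn) + (1 - θ) * (1 * ap * bn + -1 * an * bp))) / Z) ^ 2) =
    ((1 / 4 * ((1 + θ) * (1 * cp * bp + -1 * cn * bn) + (1 - θ) * (1 * cp * bn + -1 * cn * bp))) / Z -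
        (1 / 4 * ((1 + θ) * (cp * bp + cn * bn) + (1 - θ) * (cp * bn + cn * bp))) / Z *
        ((1 / 4 * ((1 + θ) * (1 * ap * bp + -1 * an * bn) + (1 - θ) * (1 * ap * bn + -1 * an * bp))) / Z)) *
      ((1 / 4 * ((1 + θ) * (1 * ap * (1 * bp) + -1 * an * (-1 * bn)) + (1 - θ) * (1 * ap * (-1 * bn) + -1 * an * (1 * bp)))) / Z -
        (1 / 4 * ((1 + θ) * (1 * ap * bp + -1 * an * bn) + (1 - θ) * (1 * ap * bn + -1 * an * bp))) / Z *
        ((1 / 4 * ((1 + θ) * (ap * (1 * bp) + an * (-1 * bn)) + (1 - θ) * (ap * (-1 * bn) + an * (1 * bp)))) / Z)) := by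
  field_simp
  subst hZ
  ring

variable (hc : IsCut G W₁ W₂ x y)
include hc

/-- The edges of `W₁ ∪ W₂` are those of `W₁`, those of `W₂` and the cut edge. -/
private theorem edges_cut :
    ((W₁ ∪ W₂).sym2).filter (fun e => e ∈ G.edgeSet) =
      ((W₁.sym2).filter (fun e => e ∈ G.edgeSet) ∪ (W₂.sym2).filter (fun e => e ∈ G.edgeSet)) ∪ {s(x, y)} := by
  ext e
  induction e using Sym2.ind with
  | _ a b =>
    simp only [Finset.mem_filter, Finset.mk_mem_sym2_iff, SimpleGraph.mem_edgeSet, Finset.mem_union,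
      Finset.mem_singleton]
    constructor
    · rintro ⟨⟨ha | ha, hb | hb⟩, hadj⟩
      · exact Or.inl (Or.inl ⟨⟨ha, hb⟩, hadj⟩)
      · obtain ⟨rfl, rfl⟩ := hc.only a ha b hb hadj
        exact Or.inr rfl
      · obtain ⟨rfl, rfl⟩ := hc.only b hb a ha hadj.symm
        exact Or.inr Sym2.eq_swap
      · exact Or.inl (Or.inr ⟨⟨ha, hb⟩, hadj⟩)
    · rintro ((⟨⟨ha, hb⟩, hadj⟩ | ⟨⟨ha, hb⟩, hadj⟩) | h)
      · exact ⟨⟨Or.inl ha, Or.inl hb⟩, hadj⟩
      · exact ⟨⟨Or.inr ha, Or.inr hb⟩, hadj⟩
      · rcases Sym2.eq_iff.mp h with ⟨rfl, rfl⟩ | ⟨rfl, rfl⟩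
        · exact ⟨⟨Or.inl hc.mem₁, Or.inr hc.mem₂⟩, hc.adj⟩
        · exact ⟨⟨Or.inr hc.mem₂, Or.inl hc.mem₁⟩, hc.adj.symm⟩

/-- Factorisation of the Ising weight along an edge cut. -/
theorem isingWeight_cut (θ : ℝ) (σ : V → Bool) :
    isingWeight G θ (W₁ ∪ W₂) σ = 2 * isingWeight G θ W₁ σ * isingWeight G θ W₂ σ * ef θ (σ x) (σ y) := by
  have hd : Disjoint ((W₁.sym2).filter (fun e => e ∈ G.edgeSet)) ((W₂.sym2).filter (fun e => e ∈ G.edgeSet)) := by
    rw [Finset.disjoint_left]
    intro e
    induction e using Sym2.ind with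
    | _ a b =>
      simp only [Finset.mem_filter, Finset.mk_mem_sym2_iff, SimpleGraph.mem_edgeSet]
      rintro ⟨⟨ha, _⟩, _⟩ ⟨⟨ha', _⟩, _⟩
      exact (Finset.disjoint_left.mp hc.disj ha) ha'
  have hd' : Disjoint (((W₁.sym2).filter (fun e => e ∈ G.edgeSet)) ∪ ((W₂.sym2).filter (fun e => e ∈ G.edgeSet)))
      {s(x, y)} := by
    rw [Finset.disjoint_singleton_right]
    simp only [Finset.mem_union, Finset.mem_filter, Finset.mk_mem_sym2_iff, not_or, not_and]
    constructor
    · intro h
      exact absurd hc.mem₂ (Finset.disjoint_left.mp hc.disj h.2)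
    · intro h
      exact absurd h.1 (Finset.disjoint_left.mp hc.disj hc.mem₁)
  have key : ∀ (f : Sym2 V → ℝ),
      ∏ e ∈ (W₁ ∪ W₂).sym2 with e ∈ G.edgeSet, f e =
        (∏ e ∈ W₁.sym2 with e ∈ G.edgeSet, f e) * (∏ e ∈ W₂.sym2 with e ∈ G.edgeSet, f e) * f s(x, y) := by
    intro f
    rw [edges_cut hc, Finset.prod_union hd', Finset.prod_union hd, Finset.prod_singleton]
  have hf : (if (Sym2.map σ s(x, y)).IsDiag then (1 + θ) / 2 else (1 - θ) / 2) = ef θ (σ x) (σ y) := by
    cases hσx : σ x <;> cases hσy : σ y <;> simp [ef, spin, hσx, hσy] <;> ring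
  unfold isingWeight
  have := key (fun e => if (Sym2.map σ e).IsDiag then (1 + θ) / 2 else (1 - θ) / 2)
  convert congrArg (fun t => (1 / 2 : ℝ) * t) this using 1
  simp only [hf]
  ring

/-- The tilted weight along a cut. -/
theorem wt_cut (θ : ℝ) (g : V → Bool → ℝ) (σ : V → Bool) :
    wt G θ (W₁ ∪ W₂) g σ = 2 * wt G θ W₁ g σ * wt G θ W₂ g σ * ef θ (σ x) (σ y) := by
  unfold wt
  rw [isingWeight_cut hc, Finset.prod_union hc.disj]
  ring

/-- Factorisation of sums along an edge cut. -/
theorem cut_sum (θ : ℝ) (g : V → Bool → ℝ) {F₁ F₂ : (V → Bool) → ℝ} (h₁ : DepOn W₁ F₁) (h₂ : DepOn W₂ F₂) :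
    sumW (W₁ ∪ W₂) (fun σ => wt G θ (W₁ ∪ W₂) g σ * (F₁ σ * F₂ σ)) =
      (1 / 2) * ∑ s : Bool, ∑ s' : Bool, ZrF G θ W₁ g x s F₁ * ef θ s s' * ZrF G θ W₂ g y s' F₂ := by
  -- the two factors attached to root spins
  have hA : ∀ s : Bool, DepOn W₁ (fun σ => wt G θ W₁ g σ * F₁ σ * (if σ x = s then (1:ℝ) else 0)) := by
    intro s σ σ' h
    simp only []
    rw [wt_depOn θ W₁ g σ σ' h, h₁ σ σ' h, h x hc.mem₁]
  have hB : ∀ s : Bool, DepOn W₂ (fun σ => wt G θ W₂ g σ * F₂ σ * (if σ y = s then (1:ℝ) else 0)) := by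
    intro s σ σ' h
    simp only []
    rw [wt_depOn θ W₂ g σ σ' h, h₂ σ σ' h, h y hc.mem₂]
  have hterm : ∀ s s' : Bool,
      ZrF G θ W₁ g x s F₁ * ef θ s s' * ZrF G θ W₂ g y s' F₂ =
        4 * ef θ s s' * sumW (W₁ ∪ W₂) (fun σ =>
          (wt G θ W₁ g σ * F₁ σ * (if σ x = s then (1:ℝ) else 0)) *
            (wt G θ W₂ g σ * F₂ σ * (if σ y = s' then (1:ℝ) else 0))) := by
    intro s s'
    rw [sumW_union hc.disj (hA s) (hB s')]
    unfold ZrF
    ring
  have hpoint : ∀ σ : V → Bool, wt G θ (W₁ ∪ W₂) g σ * (F₁ σ * F₂ σ) =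
      (1 / 2) * ∑ s : Bool, ∑ s' : Bool, (4 * ef θ s s') *
        ((wt G θ W₁ g σ * F₁ σ * (if σ x = s then (1:ℝ) else 0)) *
          (wt G θ W₂ g σ * F₂ σ * (if σ y = s' then (1:ℝ) else 0))) := by
    intro σ
    rw [wt_cut hc]
    simp only [Fintype.sum_bool]
    cases hσx : σ x <;> cases hσy : σ y <;> simp <;> ring
  rw [sumW_congr hpoint, sumW_mul_left]
  congr 1
  simp only [Fintype.sum_bool, hterm]
  simp only [sumW_add, sumW_mul_left]

/-- Sums along a cut, in the variables of the two sides. -/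
private theorem cut_sum_bool (θ : ℝ) (g : V → Bool → ℝ) {F₁ F₂ : (V → Bool) → ℝ} (h₁ : DepOn W₁ F₁) (h₂ : DepOn W₂ F₂) :
    sumW (W₁ ∪ W₂) (fun σ => wt G θ (W₁ ∪ W₂) g σ * (F₁ σ * F₂ σ)) =
      (1 / 4) * (
        (1 + θ) * (ZrF G θ W₁ g x true F₁ * ZrF G θ W₂ g y true F₂ + ZrF G θ W₁ g x false F₁ * ZrF G θ W₂ g y false F₂) +
        (1 - θ) * (ZrF G θ W₁ g x true F₁ * ZrF G θ W₂ g y false F₂ + ZrF G θ W₁ g x false F₁ * ZrF G θ W₂ g y true F₂)) := by
  rw [cut_sum hc θ g h₁ h₂]
  simp only [Fintype.sum_bool, ef, spin]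
  simp
  ring

private theorem cut_Z (θ : ℝ) (g : V → Bool → ℝ) :
    Zg G θ (W₁ ∪ W₂) g = 1 / 4 * ((1 + θ) * (Zr G θ W₁ g x true * Zr G θ W₂ g y true + Zr G θ W₁ g x false * Zr G θ W₂ g y false) +
      (1 - θ) * (Zr G θ W₁ g x true * Zr G θ W₂ g y false + Zr G θ W₁ g x false * Zr G θ W₂ g y true)) := by
  have := cut_sum_bool hc θ g (depOn_const W₁) (depOn_const W₂)
  simp only [mul_one] at this
  exact this

private theorem cut_F₁ (θ : ℝ) (g : V → Bool → ℝ) {F : (V → Bool) → ℝ} (hF : DepOn W₁ F) :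
    sumW (W₁ ∪ W₂) (fun σ => wt G θ (W₁ ∪ W₂) g σ * F σ) = 1 / 4 * ((1 + θ) * (ZrF G θ W₁ g x true F * Zr G θ W₂ g y true + ZrF G θ W₁ g x false F * Zr G θ W₂ g y false) +
      (1 - θ) * (ZrF G θ W₁ g x true F * Zr G θ W₂ g y false + ZrF G θ W₁ g x false F * Zr G θ W₂ g y true)) := by
  have := cut_sum_bool hc θ g hF (depOn_const W₂)
  simp only [mul_one] at this
  exact this

private theorem cut_F₂ (θ : ℝ) (g : V → Bool → ℝ) {F : (V → Bool) → ℝ} (hF : DepOn W₂ F) :
    sumW (W₁ ∪ W₂) (fun σ => wt G θ (W₁ ∪ W₂) g σ * F σ) = 1 / 4 * ((1 + θ) * (Zr G θ W₁ g x true * ZrF G θ W₂ g y true F + Zr G θ W₁ g x false * ZrF G θ W₂ g y false F) +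
      (1 - θ) * (Zr G θ W₁ g x true * ZrF G θ W₂ g y false F + Zr G θ W₁ g x false * ZrF G θ W₂ g y true F)) := by
  have := cut_sum_bool hc θ g (depOn_const W₁) hF
  simp only [one_mul] at this
  exact this

/-- Means and correlation of the two endpoints of a cut edge, from the cavity fields of the two sides. -/
theorem cut_means (hθ : Adm θ) (hg : PosG g) :
    mv G θ (W₁ ∪ W₂) g x = (tr G θ W₁ g x + θ * tr G θ W₂ g y) / (1 + θ * tr G θ W₁ g x * tr G θ W₂ g y) ∧
    mv G θ (W₁ ∪ W₂) g y = (tr G θ W₂ g y + θ * tr G θ W₁ g x) / (1 + θ * tr G θ W₁ g x * tr G θ W₂ g y) ∧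
    Ex G θ (W₁ ∪ W₂) g (fun σ => spin (σ x) * spin (σ y)) =
      (θ + tr G θ W₁ g x * tr G θ W₂ g y) / (1 + θ * tr G θ W₁ g x * tr G θ W₂ g y) := by
  have h1 : |θ| < 1 := by
    rw [abs_of_nonneg hθ.nonneg]; exact hθ.lt_one
  have hap := Zr_pos (G := G) h1 hg hc.mem₁ true
  have han := Zr_pos (G := G) h1 hg hc.mem₁ false
  have hbp := Zr_pos (G := G) h1 hg hc.mem₂ true
  have hbn := Zr_pos (G := G) h1 hg hc.mem₂ false
  have hX := cut_F₁ hc θ g (depOn_spin hc.mem₁)
  have hY := cut_F₂ hc θ g (depOn_spin hc.mem₂)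
  have hXY := cut_sum_bool hc θ g (depOn_spin hc.mem₁) (depOn_spin hc.mem₂)
  simp only [ZrF_spin, spin_true, spin_false] at hX hY hXY
  unfold mv Ex tr
  rw [hX, hY, hXY, cut_Z hc]
  exact alg_means hap han hbp hbn hθ.nonneg hθ.lt_one

/-- The cavity field of the `y`-side in terms of the two means. -/
theorem cav_mv (hθ : Adm θ) (hg : PosG g) :
    cav θ (mv G θ (W₁ ∪ W₂) g x) (mv G θ (W₁ ∪ W₂) g y) = tr G θ W₂ g y := by
  obtain ⟨hx, hy, _⟩ := cut_means hc hθ hg
  rw [hx, hy]
  exact cav_forward hθ (abs_tr_lt hθ hg hc.mem₁).le (abs_tr_lt hθ hg hc.mem₂).le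

/-- The covariance of a cut edge. -/
theorem cv_edge (hθ : Adm θ) (hg : PosG g) :
    cv G θ (W₁ ∪ W₂) g x y =
      (1 - mv G θ (W₁ ∪ W₂) g x ^ 2) * rr θ (mv G θ (W₁ ∪ W₂) g x) (mv G θ (W₁ ∪ W₂) g y) := by
  obtain ⟨hx, hy, hxy⟩ := cut_means hc hθ hg
  unfold cv
  rw [hx, hy, hxy]
  exact cov_eq_rr hθ (abs_tr_lt hθ hg hc.mem₁).le (abs_tr_lt hθ hg hc.mem₂).le

/-- The Markov property across a cut edge. -/
theorem cv_markov (hθ : Adm θ) (hg : PosG g) (hv : v ∈ W₁) :
    cv G θ (W₁ ∪ W₂) g v y * (1 - mv G θ (W₁ ∪ W₂) g x ^ 2) =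
      cv G θ (W₁ ∪ W₂) g v x * cv G θ (W₁ ∪ W₂) g x y := by
  have h1 : |θ| < 1 := by
    rw [abs_of_nonneg hθ.nonneg]; exact hθ.lt_one
  have hZ0 : Zg G θ (W₁ ∪ W₂) g ≠ 0 := (Zg_pos h1 hg).ne'
  have hX := cut_F₁ hc θ g (depOn_spin hc.mem₁)
  have hY := cut_F₂ hc θ g (depOn_spin hc.mem₂)
  have hV := cut_F₁ hc θ g (depOn_spin hv)
  have hXY := cut_sum_bool hc θ g (depOn_spin hc.mem₁) (depOn_spin hc.mem₂)
  have hVY := cut_sum_bool hc θ g (depOn_spin hv) (depOn_spin hc.mem₂)
  have hdep : DepOn W₁ (fun σ => spin (σ x) * spin (σ v)) := by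
    intro σ σ' h
    simp only [h x hc.mem₁, h v hv]
  have hXV := cut_F₁ hc θ g hdep
  have hswap : ∀ F : (V → Bool) → ℝ, True := fun _ => trivial
  simp only [ZrF_spin_mul, ZrF_spin, spin_true, spin_false] at hX hY hXY hVY hXV
  have hcomm : (fun σ : V → Bool => spin (σ v) * spin (σ x)) = (fun σ => spin (σ x) * spin (σ v)) := by
    funext σ; ring
  unfold cv mv Ex
  rw [hcomm, hX, hY, hV, hXY, hVY, hXV]
  have hZ := cut_Z hc θ g
  rw [hZ] at hZ0 ⊢
  exact alg_markov hZ0 rfl

end cut

section singleton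

theorem isingWeight_singleton (θ : ℝ) (o : V) (σ : V → Bool) : isingWeight G θ {o} σ = 1 / 2 := by
  classical
  unfold isingWeight
  rw [Finset.filter_false_of_mem]
  · simp
  · intro e he
    rw [Finset.sym2_singleton, Finset.mem_singleton] at he
    subst he
    simp

end singleton

section tree

variable {q : ℕ} [G.LocallyFinite] (hG : RegTree G q)
include hG

/-- The two sides of an edge in a set. -/
theorem isCut_filter (hxy : G.Adj x y) (hx : x ∈ W) (hy : y ∈ W) :
    IsCut G (W.filter (fun p => G.dist x p < G.dist y p)) (W.filter (fun p => G.dist y p < G.dist x p)) x y := by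
  have hd : G.dist x y = 1 := SimpleGraph.dist_eq_one_iff_adj.mpr hxy
  have hd' : G.dist y x = 1 := SimpleGraph.dist_eq_one_iff_adj.mpr hxy.symm
  refine ⟨?_, ?_, ?_, hxy, ?_⟩
  · rw [Finset.disjoint_left]
    intro p hp hp'
    have h1 := (Finset.mem_filter.mp hp).2
    have h2 := (Finset.mem_filter.mp hp').2
    omega
  · refine Finset.mem_filter.mpr ⟨hx, ?_⟩
    rw [SimpleGraph.dist_self, hd']
    omega
  · refine Finset.mem_filter.mpr ⟨hy, ?_⟩
    rw [SimpleGraph.dist_self, hd]
    omega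
  · intro p hp p' hp' hadj
    exact side_edge hG hxy hadj (Finset.mem_filter.mp hp).2 (Finset.mem_filter.mp hp').2

theorem filter_union_filter (hxy : G.Adj x y) (W : Finset V) :
    W.filter (fun p => G.dist x p < G.dist y p) ∪ W.filter (fun p => G.dist y p < G.dist x p) = W := by
  ext p
  simp only [Finset.mem_union, Finset.mem_filter]
  constructor
  · rintro (h | h) <;> exact h.1
  · intro hp
    rcases dist_adj_cases hG hxy p with h | h
    · exact Or.inr ⟨hp, by omega⟩
    · exact Or.inl ⟨hp, by omega⟩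

/-- **Path formula for the covariance.** -/
theorem cv_path (hθ : Adm θ) (hg : PosG g) (hu : Star G W u) (hv : v ∈ W) :
    cv G θ W g v u =
      (1 - mv G θ W g v ^ 2) * pathProd G (fun a b => rr θ (mv G θ W g a) (mv G θ W g b)) v u := by
  have hθ1 : |θ| < 1 := by
    rw [abs_of_nonneg hθ.nonneg]
    exact hθ.lt_one
  suffices H : ∀ n : ℕ, ∀ v ∈ W, G.dist v u = n → cv G θ W g v u =
      (1 - mv G θ W g v ^ 2) * pathProd G (fun a b => rr θ (mv G θ W g a) (mv G θ W g b)) v u from
    H _ v hv rfl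
  intro n
  induction n using Nat.strong_induction_on with
  | _ n ih =>
    intro v hv hn
    by_cases h : v = u
    · subst h
      rw [pathProd_self hG, mul_one]
      exact cv_self hθ1 hg v
    · set w := nxt G v u with hwdef
      have hw : G.Adj v w := nxt_adj hG h
      have hd : G.dist w u + 1 = G.dist v u := dist_nxt hG h
      have hwW : w ∈ W := hu.2 v hv h
      have hc := isCut_filter hG hw.symm hwW hv
      have hU := filter_union_filter hG hw.symm W
      have huW₁ : u ∈ W.filter (fun p => G.dist w p < G.dist v p) :=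
        Finset.mem_filter.mpr ⟨hu.1, by omega⟩
      have M := cv_markov hc hθ hg huW₁
      rw [hU] at M
      have hc' := isCut_filter hG hw hv hwW
      have hU' := filter_union_filter hG hw W
      have E := cv_edge hc' hθ hg
      rw [hU'] at E
      have IH := ih (G.dist w u) (by omega) w hwW rfl
      rw [pathProd_cons hG _ h, ← hwdef]
      have hpos : 0 < 1 - mv G θ W g w ^ 2 := by
        have := abs_mv_lt hθ1 hg hwW (G := G)
        have h2 : mv G θ W g w ^ 2 < 1 := by
          rw [← sq_abs]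
          have h0 := abs_nonneg (mv G θ W g w)
          nlinarith
        linarith
      have h1 : cv G θ W g v u * (1 - mv G θ W g w ^ 2) =
          (cv G θ W g w u) * (cv G θ W g v w) := by
        have e1 := cv_comm (G := G) (θ := θ) (W := W) (g := g) u v
        have e2 := cv_comm (G := G) (θ := θ) (W := W) (g := g) u w
        have e3 := cv_comm (G := G) (θ := θ) (W := W) (g := g) w v
        rw [e1, e2, e3] at M
        exact M
      apply mul_right_cancel₀ hpos.ne'
      rw [h1, IH, E]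
      ring

/-- A leaf of `W` outside `S`. -/
private theorem exists_leaf {S : Finset V} {o : V} (hSW : S ⊆ W) (hS : Star G S o)
    (hne : (W \ S).Nonempty) :
    ∃ v ∈ W, v ∉ S ∧ ∀ p ∈ W, p ≠ o → nxt G p o ≠ v := by
  obtain ⟨v, hv, hmax⟩ := Finset.exists_max_image (W \ S) (fun p => G.dist p o) hne
  have hv' := Finset.mem_sdiff.mp hv
  refine ⟨v, hv'.1, hv'.2, ?_⟩
  intro p hp hpo heq
  by_cases hpS : p ∈ S
  · exact hv'.2 (heq ▸ hS.2 p hpS hpo)
  · have h1 := hmax p (Finset.mem_sdiff.mpr ⟨hp, hpS⟩)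
    have h2 : G.dist (nxt G p o) o + 1 = G.dist p o := dist_nxt hG hpo
    rw [heq] at h2
    omega

/-- **Marginal consistency.** `S ⊆ W` both star-shaped around `o ∈ S`; the vertex functions are one on `W \ S`. -/
theorem sum_marginal {S : Finset V} {o : V} (hSW : S ⊆ W) (hW : Star G W o) (hS : Star G S o)
    (hθ : |θ| < 1) (hg1 : ∀ v ∈ W, v ∉ S → ∀ s, g v s = 1) {F : (V → Bool) → ℝ} (hF : DepOn S F) :
    sumW W (fun σ => wt G θ W g σ * F σ) = sumW S (fun σ => wt G θ S g σ * F σ) := by
  induction hn : (W \ S).card generalizing W with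
  | zero =>
    have h : W ⊆ S := by
      rw [Finset.card_eq_zero, Finset.sdiff_eq_empty_iff_subset] at hn
      exact hn
    rw [Finset.Subset.antisymm h hSW]
  | succ n ih =>
    have hne : (W \ S).Nonempty := by
      rw [← Finset.card_pos]
      omega
    obtain ⟨v, hvW, hvS, hleaf⟩ := exists_leaf hG hSW hS hne
    have hoS : o ∈ S := hS.1
    have hvo : v ≠ o := fun h => hvS (h ▸ hoS)
    set W' := W.erase v with hW'
    have hWins : W = insert v W' := (Finset.insert_erase hvW).symm
    have hvW' : v ∉ W' := Finset.notMem_erase v W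
    set w := nxt G v o with hwdef
    have hadj : G.Adj w v := (nxt_adj hG hvo).symm
    have hwW' : w ∈ W' := Finset.mem_erase.mpr ⟨hadj.ne, hW.2 v hvW hvo⟩
    have hSW' : S ⊆ W' := fun p hp =>
      Finset.mem_erase.mpr ⟨fun h => hvS (h ▸ hp), hSW hp⟩
    have hW'star : Star G W' o := by
      refine ⟨hSW' hoS, ?_⟩
      intro p hp hpo
      have hpW := (Finset.mem_erase.mp hp).2
      exact Finset.mem_erase.mpr ⟨hleaf p hpW hpo, hW.2 p hpW hpo⟩
    have hcut : IsCut G W' {v} w v := by
      refine ⟨Finset.disjoint_singleton_right.mpr hvW', hwW', Finset.mem_singleton_self v, hadj, ?_⟩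
      intro p hp p' hp' hpp'
      have hp'v : p' = v := Finset.mem_singleton.mp hp'
      subst hp'v
      refine ⟨?_, rfl⟩
      by_contra hne'
      have hpW := (Finset.mem_erase.mp hp).2
      have hd := dist_of_ne_nxt hG hpp'.symm hne'
      have hpo : p ≠ o := by
        rintro rfl
        rw [SimpleGraph.dist_self] at hd
        omega
      have := eq_nxt_of hG hpp' (u := o) (by omega)
      exact hleaf p hpW hpo this.symm
    have hweight : ∀ τ : V → Bool, isingWeight G θ W τ = isingWeight G θ W' τ * ef θ (τ w) (τ v) := by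
      intro τ
      have h := isingWeight_cut hcut θ τ
      rw [isingWeight_singleton] at h
      have hU : W' ∪ {v} = W := by
        rw [hWins]
        ext p
        simp
      rw [hU] at h
      rw [h]
      ring
    have hstep : sumW W (fun σ => wt G θ W g σ * F σ) = sumW W' (fun σ => wt G θ W' g σ * F σ) := by
      have hgv : ∀ s, g v s = 1 := hg1 v hvW hvS
      have hval : ∀ (σ : V → Bool) (b : Bool),
          wt G θ W g (Function.update σ v b) * F (Function.update σ v b) =
            (wt G θ W' g σ * F σ) * ef θ (σ w) b := by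
        intro σ b
        have hw_ne : w ≠ v := hadj.ne
        have h1 : isingWeight G θ W' (Function.update σ v b) = isingWeight G θ W' σ := by
          apply isingWeight_depOn
          intro p hp
          rw [Function.update_of_ne]
          exact fun h => hvW' (h ▸ hp)
        have h2 : F (Function.update σ v b) = F σ := by
          apply hF
          intro p hp
          rw [Function.update_of_ne]
          exact fun h => hvS (h ▸ hp)
        have h3 : ∏ p ∈ W, g p (Function.update σ v b p) = ∏ p ∈ W', g p (σ p) := by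
          conv_lhs => rw [hWins]
          rw [Finset.prod_insert hvW', hgv, one_mul]
          apply Finset.prod_congr rfl
          intro p hp
          rw [Function.update_of_ne]
          exact fun h => hvW' (h ▸ hp)
        unfold wt
        rw [hweight, h1, h2, h3, Function.update_of_ne hw_ne, Function.update_self]
        ring
      conv_lhs => rw [hWins]
      rw [sumW_insert hvW', ← hWins, ← sumW_add]
      apply sumW_congr
      intro σ
      rw [hval, hval, ← mul_add, ef_sum, mul_one]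
    rw [hstep]
    refine ih hSW' hW'star (fun p hp hpS s => hg1 p (Finset.mem_erase.mp hp).2 hpS s) ?_
    have h1 : W' \ S = (W \ S).erase v := by
      ext p
      simp only [hW', Finset.mem_sdiff, Finset.mem_erase]
      tauto
    rw [h1, Finset.card_erase_of_mem (Finset.mem_sdiff.mpr ⟨hvW, hvS⟩), hn]
    rfl

/-- The spin pattern on a connected set. -/
theorem pattern_prob {S : Finset V} {o : V} (hSW : S ⊆ W) (hW : Star G W o) (hS : Star G S o) (hθ : |θ| < 1)
    (η : V → Bool) :
    sumW W (fun σ => isingWeight G θ W σ * (if ∀ v ∈ S, σ v = η v then 1 else 0)) = isingWeight G θ S η := by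
  have hF : DepOn S (fun σ : V → Bool => (if ∀ v ∈ S, σ v = η v then (1 : ℝ) else 0)) := by
    intro σ σ' h
    have : (∀ v ∈ S, σ v = η v) ↔ (∀ v ∈ S, σ' v = η v) := by
      constructor
      · intro h' v hv
        rw [← h v hv]
        exact h' v hv
      · intro h' v hv
        rw [h v hv]
        exact h' v hv
    simp only [this]
  have h := sum_marginal (g := fun _ _ => 1) hG hSW hW hS hθ (fun _ _ _ _ => rfl) hF
  have hwt : ∀ (T : Finset V) (σ : V → Bool), wt G θ T (fun _ _ => 1) σ = isingWeight G θ T σ := by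
    intro T σ
    simp [wt]
  simp only [hwt] at h
  rw [h]
  exact sumW_indicator η (isingWeight_depOn θ S)

/-- Total mass one. -/
theorem Zg_one (hθ : |θ| < 1) {o : V} (hW : Star G W o) : Zg G θ W (fun _ _ => 1) = 1 := by
  have hS : Star G {o} o := by
    refine ⟨Finset.mem_singleton_self o, ?_⟩
    intro v hv hne
    exact absurd (Finset.mem_singleton.mp hv) hne
  have hsub : ({o} : Finset V) ⊆ W := Finset.singleton_subset_iff.mpr hW.1
  have h := sum_marginal (g := fun _ _ => 1) (F := fun _ => 1) hG hsub hW hS hθ (fun _ _ _ _ => rfl)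
    (fun _ _ _ => rfl)
  simp only [mul_one] at h
  unfold Zg
  rw [h]
  have hins : ({o} : Finset V) = insert o ∅ := rfl
  have hval : ∀ σ : V → Bool, wt G θ {o} (fun _ _ => 1) σ = 1 / 2 := by
    intro σ
    simp [wt, isingWeight_singleton]
  rw [hins, sumW_insert (Finset.notMem_empty o), sumW_empty, sumW_empty, ← hins, hval, hval]
  norm_num

/-- Marginal of one spin. -/
theorem marginal_one (hθ : |θ| < 1) {o : V} (hW : Star G W o) (s : Bool) :
    sumW W (fun σ => isingWeight G θ W σ * (if σ o = s then 1 else 0)) = 1 / 2 := by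
  have hS : Star G {o} o := by
    refine ⟨Finset.mem_singleton_self o, ?_⟩
    intro v hv hne
    exact absurd (Finset.mem_singleton.mp hv) hne
  have hsub : ({o} : Finset V) ⊆ W := Finset.singleton_subset_iff.mpr hW.1
  have h := pattern_prob hG hsub hW hS hθ (fun _ => s)
  rw [isingWeight_singleton] at h
  rw [← h]
  apply sumW_congr
  intro σ
  simp

end tree

/-! ### The recursion on subtrees -/

/-- The rooted partition function of the subtree of depth `n` below `b`, by recursion. -/
noncomputable def Zt (G : SimpleGraph V) [G.LocallyFinite] (θ : ℝ) (g : V → Bool → ℝ) : ℕ → V → V → Bool → ℝ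
  | 0, _, b, s => g b s
  | n + 1, a, b, s => g b s * ∏ d ∈ kids G a b, ∑ s' : Bool, ef θ s s' * Zt G θ g n b d s'

/-- The cavity field of a subtree. -/
noncomputable def Tt (G : SimpleGraph V) [G.LocallyFinite] (θ : ℝ) (g : V → Bool → ℝ) (n : ℕ) (a b : V) : ℝ :=
  (Zt G θ g n a b true - Zt G θ g n a b false) / (Zt G θ g n a b true + Zt G θ g n a b false)

section rootedAux

/-- The rooted partition function of a point. -/
theorem Zr_singleton (θ : ℝ) (g : V → Bool → ℝ) (b : V) (s : Bool) : Zr G θ {b} g b s = g b s := by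
  have hins : ({b} : Finset V) = insert b ∅ := rfl
  have hval : ∀ (σ : V → Bool), wt G θ {b} g σ = (1 / 2) * g b (σ b) := by
    intro σ
    simp [wt, isingWeight_singleton]
  unfold Zr ZrF
  rw [hins, sumW_insert (Finset.notMem_empty b), sumW_empty, sumW_empty, ← hins, hval, hval]
  cases s <;> simp

/-- Splitting a rooted sum along a cut edge. -/
theorem Zr_cut (hc : IsCut G W₁ W₂ x y) (θ : ℝ) (g : V → Bool → ℝ) (s : Bool) :
    Zr G θ (W₁ ∪ W₂) g x s = Zr G θ W₁ g x s * ∑ s' : Bool, ef θ s s' * Zr G θ W₂ g y s' := by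
  have hF₁ : DepOn W₁ (fun σ : V → Bool => (if σ x = s then (1 : ℝ) else 0)) := by
    intro σ σ' h
    simp only [h x hc.mem₁]
  have hF₂ : DepOn W₂ (fun _ : V → Bool => (1 : ℝ)) := fun _ _ _ => rfl
  have h := cut_sum hc θ g hF₁ hF₂
  have h1 : ZrF G θ W₁ g x s (fun σ : V → Bool => (if σ x = s then (1 : ℝ) else 0)) = Zr G θ W₁ g x s := by
    unfold Zr ZrF
    congr 1
    apply sumW_congr
    intro σ
    by_cases hs : σ x = s <;> simp [hs]
  have h2 : ZrF G θ W₁ g x (!s) (fun σ : V → Bool => (if σ x = s then (1 : ℝ) else 0)) = 0 := by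
    unfold ZrF
    have : ∀ σ : V → Bool, wt G θ W₁ g σ * (if σ x = s then (1 : ℝ) else 0) * (if σ x = (!s) then 1 else 0) = 0 := by
      intro σ
      by_cases hs : σ x = s
      · have : σ x ≠ (!s) := by
          rw [hs]
          cases s <;> simp
        simp [this]
      · simp [hs]
    rw [show (fun σ : V → Bool => wt G θ W₁ g σ * (if σ x = s then (1 : ℝ) else 0) * (if σ x = (!s) then 1 else 0)) =
      fun σ => (0 : ℝ) * (0 : ℝ) from funext (fun σ => by rw [this σ]; ring)]
    have h0 := sumW_mul_left (W := W₁) (F := fun _ => (0 : ℝ)) (0 : ℝ)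
    simp only [zero_mul] at h0 ⊢
    rw [h0]
    ring
  have h3 : Zr G θ (W₁ ∪ W₂) g x s = 2 * sumW (W₁ ∪ W₂) (fun σ => wt G θ (W₁ ∪ W₂) g σ *
      ((if σ x = s then (1 : ℝ) else 0) * 1)) := by
    unfold Zr ZrF
    congr 1
    apply sumW_congr
    intro σ
    ring
  rw [h3, h]
  have hZ : ∀ s', ZrF G θ W₂ g y s' (fun _ => (1 : ℝ)) = Zr G θ W₂ g y s' := fun _ => rfl
  simp only [hZ]
  cases s
  · simp only [Fintype.sum_bool]
    simp only [Bool.not_false] at h2
    rw [h1, h2]
    ring
  · simp only [Fintype.sum_bool]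
    simp only [Bool.not_true] at h2
    rw [h1, h2]
    ring

/-- The partition function from the two rooted ones. -/
theorem Zg_eq_Zr (θ : ℝ) (g : V → Bool → ℝ) (W : Finset V) (b : V) :
    Zg G θ W g = (Zr G θ W g b true + Zr G θ W g b false) / 2 := by
  unfold Zg Zr ZrF
  have : 2 * sumW W (fun σ => wt G θ W g σ * 1 * (if σ b = true then 1 else 0)) +
      2 * sumW W (fun σ => wt G θ W g σ * 1 * (if σ b = false then 1 else 0)) =
      2 * sumW W (wt G θ W g) := by
    rw [← mul_add, ← sumW_add]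
    congr 1
    apply sumW_congr
    intro σ
    cases σ b <;> simp
  rw [this]
  ring

private theorem mem_kids [G.LocallyFinite] {a b d : V} (h : d ∈ kids G a b) : G.Adj b d ∧ d ≠ a := by
  unfold kids at h
  have h' := Finset.mem_erase.mp h
  exact ⟨(SimpleGraph.mem_neighborFinset G b d).mp h'.2, h'.1⟩

end rootedAux

section rec

variable {q : ℕ} [G.LocallyFinite] (hG : RegTree G q)
include hG

private theorem Zr_kids {a b : V} (hab : G.Adj a b) (θ : ℝ) (g : V → Bool → ℝ) (n : ℕ)
    (ih : ∀ d ∈ kids G a b, ∀ s', Zr G θ (subT G n b d) g d s' = Zt G θ g n b d s')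
    (K : Finset V) (hK : K ⊆ kids G a b) (s : Bool) :
    Zr G θ (insert b (K.biUnion (fun d => subT G n b d))) g b s =
      g b s * ∏ d ∈ K, ∑ s' : Bool, ef θ s s' * Zt G θ g n b d s' := by
  induction K using Finset.induction_on with
  | empty =>
    simp only [Finset.biUnion_empty, Finset.prod_empty, mul_one]
    exact Zr_singleton θ g b s
  | insert d₀ K' hd₀ IH =>
    have hd₀k : d₀ ∈ kids G a b := hK (Finset.mem_insert_self d₀ K')
    have hK' : K' ⊆ kids G a b := fun p hp => hK (Finset.mem_insert_of_mem hp)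
    have hb0 : G.Adj b d₀ := (mem_kids hd₀k).1
    have hsplit : insert b ((insert d₀ K').biUnion (fun d => subT G n b d)) =
        insert b (K'.biUnion (fun d => subT G n b d)) ∪ subT G n b d₀ := by
      ext p
      simp only [Finset.mem_insert, Finset.mem_union, Finset.mem_biUnion]
      constructor
      · rintro (h | ⟨d, h | h, hp⟩)
        · exact Or.inl (Or.inl h)
        · subst h
          exact Or.inr hp
        · exact Or.inl (Or.inr ⟨d, h, hp⟩)
      · rintro ((h | ⟨d, h, hp⟩) | h)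
        · exact Or.inl h
        · exact Or.inr ⟨d, Or.inr h, hp⟩
        · exact Or.inr ⟨d₀, Or.inl rfl, h⟩
    have hside : ∀ p ∈ insert b (K'.biUnion (fun d => subT G n b d)), G.dist b p < G.dist d₀ p := by
      intro p hp
      rcases Finset.mem_insert.mp hp with h | h
      · subst h
        rw [SimpleGraph.dist_self, SimpleGraph.dist_eq_one_iff_adj.mpr hb0.symm]
        omega
      · obtain ⟨d, hd, hpd⟩ := Finset.mem_biUnion.mp h
        have hdk := mem_kids (hK' hd)
        have hm := (mem_subT hG hdk.1 n p).mp hpd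
        rcases dist_adj_cases hG hb0 p with h1 | h1
        · exfalso
          have e1 := eq_nxt_of hG hdk.1 (u := p) (by omega)
          have e2 := eq_nxt_of hG hb0 (u := p) (by omega)
          exact hd₀ ((e2.trans e1.symm) ▸ hd)
        · omega
    have hcut : IsCut G (insert b (K'.biUnion (fun d => subT G n b d))) (subT G n b d₀) b d₀ := by
      refine ⟨?_, Finset.mem_insert_self _ _, ?_, hb0, ?_⟩
      · rw [Finset.disjoint_left]
        intro p hp hp'
        have h1 := hside p hp
        have h2 := (mem_subT hG hb0 n p).mp hp'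
        omega
      · exact (mem_subT hG hb0 n d₀).mpr ⟨by rw [SimpleGraph.dist_self]; omega, by
          rw [SimpleGraph.dist_self, SimpleGraph.dist_eq_one_iff_adj.mpr hb0]⟩
      · intro p hp p' hp' hadj
        have h2 := (mem_subT hG hb0 n p').mp hp'
        exact side_edge hG hb0 hadj (hside p hp) (by omega)
    rw [hsplit, Zr_cut hcut, IH hK', Finset.prod_insert hd₀]
    have : ∀ s', Zr G θ (subT G n b d₀) g d₀ s' = Zt G θ g n b d₀ s' := ih d₀ hd₀k
    simp only [this]
    ring

theorem Zr_subT (hab : G.Adj a b) (hθ : |θ| < 1) (n : ℕ) (s : Bool) : Zr G θ (subT G n a b) g b s = Zt G θ g n a b s := by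
  induction n generalizing a b s with
  | zero => exact Zr_singleton θ g b s
  | succ n ih =>
    have h := Zr_kids hG hab θ g n
      (fun d hd s' => ih (mem_kids hd).1 s') (kids G a b) (Finset.Subset.refl _) s
    simpa [subT, Zt] using h

theorem tr_subT (hab : G.Adj a b) (hθ : |θ| < 1) (n : ℕ) : tr G θ (subT G n a b) g b = Tt G θ g n a b := by
  unfold tr Tt
  rw [Zr_subT hG hab hθ, Zr_subT hG hab hθ]

/-- The partition function of a subtree. -/
theorem Zg_subT (hab : G.Adj a b) (hθ : |θ| < 1) (n : ℕ) :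
    Zg G θ (subT G n a b) g = (Zt G θ g n a b true + Zt G θ g n a b false) / 2 := by
  rw [Zg_eq_Zr θ g _ b, Zr_subT hG hab hθ, Zr_subT hG hab hθ]

/-- **Cavity fields of outward edges of balls are cavity fields of subtrees.** -/
theorem cav_ball (hθ : Adm θ) (hg : PosG g) {a x y : V} (hxy : G.Adj x y) (hd : G.dist a y = G.dist a x + 1) {R : ℕ}
    (hR : G.dist a y ≤ R) :
    cav θ (mv G θ (ball G a R) g x) (mv G θ (ball G a R) g y) = Tt G θ g (R - G.dist a y) x y := by
  have hθ1 : |θ| < 1 := by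
    rw [abs_of_nonneg hθ.nonneg]
    exact hθ.lt_one
  have hxb : x ∈ ball G a R := (mem_ball hG a R x).mpr (by omega)
  have hyb : y ∈ ball G a R := (mem_ball hG a R y).mpr hR
  have hc := isCut_filter hG hxy hxb hyb
  have hU := filter_union_filter hG hxy (ball G a R)
  have h := cav_mv hc hθ hg
  rw [hU, ball_filter_side hG hxy hd hR] at h
  rw [h, tr_subT hG hxy hθ1]

end rec

/-! ### Automorphisms -/

section aut

variable (φ : G ≃g G)

theorem isingWeight_aut (θ : ℝ) (W : Finset V) (σ : V → Bool) :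
    isingWeight G θ (W.map φ.toEquiv.toEmbedding) (σ ∘ φ.symm) = isingWeight G θ W σ := by
  classical
  unfold isingWeight
  congr 1
  refine Finset.prod_nbij' (Sym2.map φ.symm) (Sym2.map φ) ?_ ?_ ?_ ?_ ?_
  · intro e he
    rw [Finset.mem_filter] at he ⊢
    induction e using Sym2.ind with
    | _ p q =>
      simp only [Finset.mk_mem_sym2_iff, Sym2.map_mk, Finset.mem_map, Equiv.coe_toEmbedding, SimpleGraph.mem_edgeSet] at he ⊢
      obtain ⟨⟨⟨p', hp', rfl⟩, ⟨q', hq', rfl⟩⟩, hadj⟩ := he
      refine ⟨⟨?_, ?_⟩, ?_⟩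
      · simpa using hp'
      · simpa using hq'
      · exact φ.symm.map_rel_iff'.mpr hadj
  · intro e he
    rw [Finset.mem_filter] at he ⊢
    induction e using Sym2.ind with
    | _ p q =>
      simp only [Finset.mk_mem_sym2_iff, Sym2.map_mk, Finset.mem_map, Equiv.coe_toEmbedding, SimpleGraph.mem_edgeSet] at he ⊢
      refine ⟨⟨⟨p, he.1.1, rfl⟩, ⟨q, he.1.2, rfl⟩⟩, φ.map_rel_iff'.mpr he.2⟩
  · intro e he
    induction e using Sym2.ind with
    | _ p q => simp
  · intro e he
    induction e using Sym2.ind with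
    | _ p q => simp
  · intro e he
    induction e using Sym2.ind with
    | _ p q => simp [Sym2.mk_isDiag_iff]

/-- Change of variables in a sum over spin assignments. -/
theorem sumW_map (W : Finset V) (F : (V → Bool) → ℝ) :
    sumW (W.map φ.toEquiv.toEmbedding) F = sumW W (fun σ => F (σ ∘ φ.symm)) := by
  classical
  unfold sumW
  refine Finset.sum_nbij' (fun A => A.map φ.symm.toEquiv.toEmbedding) (fun A => A.map φ.toEquiv.toEmbedding)
    ?_ ?_ ?_ ?_ ?_
  · intro A hA
    rw [Finset.mem_powerset] at hA ⊢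
    intro p hp
    obtain ⟨r, hr, rfl⟩ := Finset.mem_map.mp hp
    obtain ⟨t, ht, rfl⟩ := Finset.mem_map.mp (hA hr)
    simpa using ht
  · intro A hA
    rw [Finset.mem_powerset] at hA ⊢
    intro p hp
    obtain ⟨r, hr, rfl⟩ := Finset.mem_map.mp hp
    exact Finset.mem_map_of_mem _ (hA hr)
  · intro A _
    ext p
    simp only [Finset.map_map, Finset.mem_map, Function.Embedding.trans_apply]
    simp only [Equiv.coe_toEmbedding, RelIso.coe_fn_toEquiv]
    constructor
    · rintro ⟨r, hr, rfl⟩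
      simpa using hr
    · intro h
      exact ⟨p, h, by simp⟩
  · intro A _
    ext p
    simp only [Finset.map_map, Finset.mem_map, Function.Embedding.trans_apply]
    simp only [Equiv.coe_toEmbedding, RelIso.coe_fn_toEquiv]
    constructor
    · rintro ⟨r, hr, rfl⟩
      simpa using hr
    · intro h
      exact ⟨p, h, by simp⟩
  · intro A _
    congr 1
    funext u
    simp only [Function.comp]
    congr 1
    apply propext
    constructor
    · intro h
      exact Finset.mem_map.mpr ⟨u, h, rfl⟩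
    · intro h
      obtain ⟨r, hr, hre⟩ := Finset.mem_map.mp h
      have : r = u := φ.symm.injective hre
      exact this ▸ hr

theorem wt_aut (θ : ℝ) (W : Finset V) (g : V → Bool → ℝ) (σ : V → Bool) :
    wt G θ (W.map φ.toEquiv.toEmbedding) (fun u s => g (φ.symm u) s) (σ ∘ φ.symm) = wt G θ W g σ := by
  unfold wt
  rw [isingWeight_aut, Finset.prod_map]
  congr 1
  apply Finset.prod_congr rfl
  intro p _
  simp

theorem Ex_aut (θ : ℝ) (W : Finset V) (g : V → Bool → ℝ) (F : (V → Bool) → ℝ) :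
    Ex G θ (W.map φ.toEquiv.toEmbedding) (fun u s => g (φ.symm u) s) F = Ex G θ W g (fun σ => F (σ ∘ φ.symm)) := by
  unfold Ex Zg
  rw [sumW_map, sumW_map]
  simp only [wt_aut]

theorem mv_aut (θ : ℝ) (W : Finset V) (g : V → Bool → ℝ) (v : V) :
    mv G θ (W.map φ.toEquiv.toEmbedding) (fun u s => g (φ.symm u) s) (φ v) = mv G θ W g v := by
  unfold mv
  rw [Ex_aut]
  simp

theorem cv_aut (θ : ℝ) (W : Finset V) (g : V → Bool → ℝ) (v u : V) :
    cv G θ (W.map φ.toEquiv.toEmbedding) (fun u s => g (φ.symm u) s) (φ v) (φ u) = cv G θ W g v u := by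
  unfold cv
  rw [mv_aut, mv_aut, Ex_aut]
  simp

end aut

end Crest.Agent.Lib.TI
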