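import Crest.Agent.Lib.TI.Cavity

/-!
# The truncated logarithm `lhat` and the product inequality (S0241 project, module TI.Hat)

`lhat θ` is the even convex function equal to `-log (om θ t)` for `|t| ≤ 1/2`, continued linearly beyond `1/2`
(slope = derivative at `1/2`).

Suggested construction: `phi θ r = 2 m (1-θ²) / ((1-m²)(1-θ²m²))`, with `m = max (-1/2) (min r (1/2))`, is continuous
and monotone, and `lhat θ t = ∫ r in 0..t, phi θ r`; then `deriv (lhat θ) = phi θ`, so `lhat θ` is convex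
(`Monotone.convexOn_univ_of_deriv`), and `lhat θ t = - log (om θ t)` for `|t| ≤ 1/2` (same derivative, same value at `0`).
-/

set_option autoImplicit false

namespace Crest.Agent.Lib.TI

/-- Slope function. -/
noncomputable def phiHat (θ r : ℝ) : ℝ :=
  let m := max (-(1 / 2)) (min r (1 / 2))
  2 * m * (1 - θ ^ 2) / ((1 - m ^ 2) * (1 - θ ^ 2 * m ^ 2))

/-- The truncated logarithm. -/
noncomputable def lhat (θ t : ℝ) : ℝ := ∫ r in (0 : ℝ)..t, phiHat θ r

variable {θ θ' t t' : ℝ}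

namespace HatAux

/-- The clamp to `[-1/2, 1/2]`. -/
noncomputable def clamp (r : ℝ) : ℝ := max (-(1 / 2)) (min r (1 / 2))

/-- The slope as a function of the clamped variable. -/
noncomputable def psi (θ m : ℝ) : ℝ := 2 * m * (1 - θ ^ 2) / ((1 - m ^ 2) * (1 - θ ^ 2 * m ^ 2))

lemma phiHat_eq (θ r : ℝ) : phiHat θ r = psi θ (clamp r) := rfl

lemma clamp_abs_le (r : ℝ) : |clamp r| ≤ 1 / 2 := by
  unfold clamp
  rw [abs_le]
  constructor
  · exact le_max_left _ _
  · apply max_le (by norm_num) (min_le_right _ _)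

lemma clamp_of_abs_le {r : ℝ} (h : |r| ≤ 1 / 2) : clamp r = r := by
  unfold clamp
  obtain ⟨h1, h2⟩ := abs_le.1 h
  rw [min_eq_left h2, max_eq_right h1]

lemma clamp_neg (r : ℝ) : clamp (-r) = - clamp r := by
  unfold clamp
  rcases le_total r (1 / 2) with h1 | h1 <;> rcases le_total (-(1 / 2)) r with h2 | h2 <;>
    simp only [min_def, max_def] <;> split_ifs <;> linarith

lemma clamp_mono : Monotone clamp := by
  intro a b h
  unfold clamp
  exact max_le_max le_rfl (min_le_min h le_rfl)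

lemma continuous_clamp : Continuous clamp := by
  unfold clamp
  fun_prop

lemma abs_clamp_le_abs (r : ℝ) : |clamp r| ≤ |r| := by
  unfold clamp
  rcases le_total r (1 / 2) with h1 | h1 <;> rcases le_total (-(1 / 2)) r with h2 | h2
  · rw [min_eq_left h1, max_eq_right h2]
  · rw [min_eq_left h1, max_eq_left h2, abs_of_neg (by norm_num : -(1 / 2 : ℝ) < 0),
      abs_of_nonpos (by linarith)]
    linarith
  · rw [min_eq_right h1, max_eq_right (by norm_num), abs_of_pos (by norm_num : (0 : ℝ) < 1 / 2),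
      abs_of_nonneg (by linarith)]
    exact h1
  · exfalso
    linarith

lemma sq_le_quarter {m : ℝ} (h : |m| ≤ 1 / 2) : m ^ 2 ≤ 1 / 4 := by
  have := abs_le.1 h
  nlinarith [this.1, this.2]

lemma den1_pos {m : ℝ} (h : |m| ≤ 1 / 2) : 0 < 1 - m ^ 2 := by
  have := sq_le_quarter h
  linarith

lemma den2_pos (hθ : Adm θ) {m : ℝ} (h : |m| ≤ 1 / 2) : 0 < 1 - θ ^ 2 * m ^ 2 := by
  have h1 := sq_le_quarter h
  have h2 := hθ.sq_le
  nlinarith [sq_nonneg θ, sq_nonneg m]

lemma den_pos (hθ : Adm θ) {m : ℝ} (h : |m| ≤ 1 / 2) : 0 < (1 - m ^ 2) * (1 - θ ^ 2 * m ^ 2) :=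
  mul_pos (den1_pos h) (den2_pos hθ h)

lemma one_sub_pos (hθ : Adm θ) : 0 < 1 - θ ^ 2 := by
  have := hθ.sq_le
  linarith

lemma continuous_phiHat (hθ : Adm θ) : Continuous (phiHat θ) := by
  have hc := continuous_clamp
  have : phiHat θ = fun r => 2 * clamp r * (1 - θ ^ 2) /
      ((1 - clamp r ^ 2) * (1 - θ ^ 2 * clamp r ^ 2)) := rfl
  rw [this]
  refine Continuous.div (by fun_prop) (by fun_prop) ?_
  intro r
  exact (den_pos hθ (clamp_abs_le r)).ne'

lemma psi_neg (θ m : ℝ) : psi θ (-m) = - psi θ m := by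
  unfold psi
  rw [neg_sq]
  ring

lemma phiHat_neg (θ r : ℝ) : phiHat θ (-r) = - phiHat θ r := by
  rw [phiHat_eq, phiHat_eq, clamp_neg, psi_neg]

lemma psi_mono (hθ : Adm θ) {a b : ℝ} (ha : |a| ≤ 1 / 2) (hb : |b| ≤ 1 / 2) (hab : a ≤ b) :
    psi θ a ≤ psi θ b := by
  unfold psi
  rw [div_le_div_iff₀ (den_pos hθ ha) (den_pos hθ hb)]
  have h0 := one_sub_pos hθ
  have h1 := abs_le.1 ha
  have h2 := abs_le.1 hb
  have hθ2 := hθ.sq_le
  have hθ0 : 0 ≤ θ ^ 2 := sq_nonneg θ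
  have hab' : 0 ≤ b - a := by linarith
  have hX : |a * b| ≤ 1 / 4 := by
    rw [abs_mul]
    have := mul_le_mul ha hb (abs_nonneg _) (by norm_num : (0 : ℝ) ≤ 1 / 2)
    linarith
  obtain ⟨hX1, hX2⟩ := abs_le.1 hX
  have hY0 : 0 ≤ a ^ 2 + a * b + b ^ 2 := by nlinarith [sq_nonneg (a + b), sq_nonneg a, sq_nonneg b]
  have hY1 : a ^ 2 + a * b + b ^ 2 ≤ 3 / 4 := by
    have := sq_le_quarter ha
    have := sq_le_quarter hb
    linarith
  have hbr : 0 ≤ 1 + (1 + θ ^ 2) * (a * b) - θ ^ 2 * (a * b) * (a ^ 2 + a * b + b ^ 2) := by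
    have e1 : -(3 / 8) ≤ (1 + θ ^ 2) * (a * b) := by nlinarith
    have e2 : (a * b) * (a ^ 2 + a * b + b ^ 2) ≤ 3 / 16 := by nlinarith
    have e3 : θ ^ 2 * ((a * b) * (a ^ 2 + a * b + b ^ 2)) ≤ 3 / 32 := by
      have : -(3 / 16) ≤ (a * b) * (a ^ 2 + a * b + b ^ 2) := by nlinarith
      nlinarith
    nlinarith
  have key : 0 ≤ (1 - θ ^ 2) * ((b - a) *
      (1 + (1 + θ ^ 2) * (a * b) - θ ^ 2 * (a * b) * (a ^ 2 + a * b + b ^ 2))) :=
    mul_nonneg h0.le (mul_nonneg hab' hbr)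
  nlinarith [key]

lemma phiHat_mono (hθ : Adm θ) : Monotone (phiHat θ) := by
  intro a b h
  rw [phiHat_eq, phiHat_eq]
  exact psi_mono hθ (clamp_abs_le a) (clamp_abs_le b) (clamp_mono h)

lemma phiHat_zero (θ : ℝ) : phiHat θ 0 = 0 := by
  have h := phiHat_neg θ 0
  rw [neg_zero] at h
  linarith

lemma phiHat_nonneg (hθ : Adm θ) {r : ℝ} (hr : 0 ≤ r) : 0 ≤ phiHat θ r := by
  have := phiHat_mono hθ hr
  rwa [phiHat_zero] at this

lemma hasDerivAt_lhat (hθ : Adm θ) (t : ℝ) : HasDerivAt (lhat θ) (phiHat θ t) t := by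
  have hc := continuous_phiHat hθ
  exact intervalIntegral.integral_hasDerivAt_right (hc.intervalIntegrable _ _)
    (hc.stronglyMeasurableAtFilter _ _) hc.continuousAt

lemma differentiable_lhat (hθ : Adm θ) : Differentiable ℝ (lhat θ) :=
  fun t => (hasDerivAt_lhat hθ t).differentiableAt

lemma deriv_lhat (hθ : Adm θ) : deriv (lhat θ) = phiHat θ := by
  funext t
  exact (hasDerivAt_lhat hθ t).deriv

lemma abs_psi_le (hθ : Adm θ) {m : ℝ} (hm : |m| ≤ 1 / 2) : |psi θ m| ≤ 3 * |m| := by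
  unfold psi
  have h0 := one_sub_pos hθ
  have hd := den_pos hθ hm
  rw [abs_div, abs_of_pos hd, abs_mul, abs_mul, abs_of_pos h0, div_le_iff₀ hd]
  have h1 := sq_le_quarter hm
  have h2 : 1 - θ ^ 2 ≤ 1 - θ ^ 2 * m ^ 2 := by
    nlinarith [sq_nonneg θ, sq_nonneg m]
  have h3 : (3 / 4) * (1 - θ ^ 2) ≤ (1 - m ^ 2) * (1 - θ ^ 2 * m ^ 2) := by
    have : 3 / 4 ≤ 1 - m ^ 2 := by linarith
    exact mul_le_mul this h2 h0.le (by linarith)
  have h4 : 0 ≤ |m| := abs_nonneg m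
  simp only [abs_two]
  nlinarith [mul_le_mul_of_nonneg_left h3 h4]

lemma abs_phiHat_le (hθ : Adm θ) (r : ℝ) : |phiHat θ r| ≤ 3 * |r| := by
  rw [phiHat_eq]
  exact (abs_psi_le hθ (clamp_abs_le r)).trans (by
    have := abs_clamp_le_abs r
    linarith)

/-- The derivative of `- log (om θ x)`. -/
lemma hasDerivAt_neg_log_om (hθ : Adm θ) {x : ℝ} (hx : |x| ≤ 1 / 2) :
    HasDerivAt (fun y => - Real.log (om θ y)) (psi θ x) x := by
  have h1 := den1_pos hx
  have h2 := den2_pos hθ hx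
  have hnum : HasDerivAt (fun y : ℝ => 1 - y ^ 2) (-(2 * x)) x := by
    have := ((hasDerivAt_id x).pow 2).const_sub 1
    simpa using this
  have hden : HasDerivAt (fun y : ℝ => 1 - θ ^ 2 * y ^ 2) (-(θ ^ 2 * (2 * x))) x := by
    have := (((hasDerivAt_id x).pow 2).const_mul (θ ^ 2)).const_sub 1
    simpa using this
  have hom : HasDerivAt (om θ) ((-(2 * x) * (1 - θ ^ 2 * x ^ 2) -
      (1 - x ^ 2) * (-(θ ^ 2 * (2 * x)))) / (1 - θ ^ 2 * x ^ 2) ^ 2) x := by
    have := hnum.div hden h2.ne'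
    exact this
  have hompos : 0 < om θ x := div_pos h1 h2
  have h3 := (hom.log hompos.ne').neg
  refine HasDerivAt.congr_deriv h3 ?_
  unfold psi om
  have h1' := h1.ne'
  have h2' := h2.ne'
  field_simp
  ring

lemma om_pos_half (hθ : Adm θ) {x : ℝ} (hx : |x| ≤ 1 / 2) : 0 < om θ x :=
  div_pos (den1_pos hx) (den2_pos hθ hx)

/-! ### Facts about `om` on the full range -/

lemma den2_ge (hθ : Adm θ) {x : ℝ} (hx : |x| ≤ 1) : 1 - θ ^ 2 ≤ 1 - θ ^ 2 * x ^ 2 := by
  have : x ^ 2 ≤ 1 := by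
    have := abs_le.1 hx
    nlinarith [this.1, this.2]
  nlinarith [sq_nonneg θ]

lemma den2_ge_half (hθ : Adm θ) {x : ℝ} (hx : |x| ≤ 1) : 1 / 2 ≤ 1 - θ ^ 2 * x ^ 2 := by
  have := den2_ge hθ hx
  have := hθ.sq_le
  linarith

lemma om_nn (hθ : Adm θ) {x : ℝ} (hx : |x| ≤ 1) : 0 ≤ om θ x := by
  have h1 : 0 ≤ 1 - x ^ 2 := by
    have := abs_le.1 hx
    nlinarith [this.1, this.2]
  exact div_nonneg h1 (by linarith [den2_ge_half hθ hx])

lemma om_le1 (hθ : Adm θ) {x : ℝ} (hx : |x| ≤ 1) : om θ x ≤ 1 := by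
  have h2 := den2_ge_half hθ hx
  unfold om
  rw [div_le_one (by linarith)]
  have : θ ^ 2 ≤ 1 := by
    have := hθ.sq_le
    linarith
  nlinarith [sq_nonneg x]

lemma om_lip_t (hθ : Adm θ) {x y : ℝ} (hx : |x| ≤ 1) (hy : |y| ≤ 1) :
    |om θ x - om θ y| ≤ 4 * |x - y| := by
  have h1 := den2_ge_half hθ hx
  have h2 := den2_ge_half hθ hy
  have h1' := den2_ge hθ hx
  have h2' := den2_ge hθ hy
  have h0 := one_sub_pos hθ
  have e : om θ x - om θ y = (1 - θ ^ 2) * (y - x) * (y + x) /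
      ((1 - θ ^ 2 * x ^ 2) * (1 - θ ^ 2 * y ^ 2)) := by
    unfold om
    have hx0 : 1 - θ ^ 2 * x ^ 2 ≠ 0 := by linarith
    have hy0 : 1 - θ ^ 2 * y ^ 2 ≠ 0 := by linarith
    rw [div_sub_div _ _ hx0 hy0]
    congr 1
    ring
  have hd : 0 < (1 - θ ^ 2 * x ^ 2) * (1 - θ ^ 2 * y ^ 2) := mul_pos (by linarith) (by linarith)
  rw [e, abs_div, abs_of_pos hd, div_le_iff₀ hd, abs_mul, abs_mul, abs_of_pos h0]
  have hs : |y + x| ≤ 2 := by
    have := abs_add_le y x
    linarith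
  have hyx : |y - x| = |x - y| := abs_sub_comm _ _
  rw [hyx]
  have h3 : (1 - θ ^ 2) * (1 / 2) ≤ (1 - θ ^ 2 * x ^ 2) * (1 - θ ^ 2 * y ^ 2) := by
    exact mul_le_mul h1' h2 (by norm_num) (by linarith)
  have hnn := abs_nonneg (x - y)
  have : (1 - θ ^ 2) * |x - y| * |y + x| ≤ (1 - θ ^ 2) * |x - y| * 2 :=
    mul_le_mul_of_nonneg_left hs (by positivity)
  have : (1 - θ ^ 2) * 2 * |x - y| ≤ 4 * |x - y| * ((1 - θ ^ 2 * x ^ 2) * (1 - θ ^ 2 * y ^ 2)) := by
    have := mul_le_mul_of_nonneg_right h3 (by positivity : (0:ℝ) ≤ 4 * |x - y|)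
    nlinarith
  nlinarith

lemma om_lip_theta (hθ : Adm θ) (hθ' : Adm θ') {x : ℝ} (hx : |x| ≤ 1) :
    |om θ x - om θ' x| ≤ 8 * |θ - θ'| := by
  have h1 := den2_ge_half hθ hx
  have h2 := den2_ge_half hθ' hx
  have e : om θ x - om θ' x = (1 - x ^ 2) * x ^ 2 * (θ - θ') * (θ + θ') /
      ((1 - θ ^ 2 * x ^ 2) * (1 - θ' ^ 2 * x ^ 2)) := by
    unfold om
    have hx0 : 1 - θ ^ 2 * x ^ 2 ≠ 0 := by linarith
    have hy0 : 1 - θ' ^ 2 * x ^ 2 ≠ 0 := by linarith
    rw [div_sub_div _ _ hx0 hy0]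
    congr 1
    ring
  have hd : 1 / 4 ≤ (1 - θ ^ 2 * x ^ 2) * (1 - θ' ^ 2 * x ^ 2) := by
    have := mul_le_mul h1 h2 (by norm_num) (by linarith)
    linarith
  have hd' : 0 < (1 - θ ^ 2 * x ^ 2) * (1 - θ' ^ 2 * x ^ 2) := by linarith
  rw [e, abs_div, abs_of_pos hd', div_le_iff₀ hd']
  have hx2 : x ^ 2 ≤ 1 := by
    have := abs_le.1 hx
    nlinarith [this.1, this.2]
  have hb : |(1 - x ^ 2) * x ^ 2| ≤ 1 := by
    rw [abs_of_nonneg (mul_nonneg (by linarith) (sq_nonneg x))]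
    nlinarith [sq_nonneg x]
  have hs : |θ + θ'| ≤ 2 := by
    have h3 : θ < 1 := by
      nlinarith [hθ.sq_le, hθ.nonneg]
    have h4 : θ' < 1 := by
      nlinarith [hθ'.sq_le, hθ'.nonneg]
    rw [abs_of_nonneg (add_nonneg hθ.nonneg hθ'.nonneg)]
    linarith
  rw [abs_mul, abs_mul]
  have hnn := abs_nonneg (θ - θ')
  have : |(1 - x ^ 2) * x ^ 2| * |θ - θ'| * |θ + θ'| ≤ 1 * |θ - θ'| * 2 :=
    mul_le_mul (mul_le_mul_of_nonneg_right hb hnn) hs (abs_nonneg _) (by positivity)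
  nlinarith [mul_le_mul_of_nonneg_left hd (by positivity : (0:ℝ) ≤ 8 * |θ - θ'|)]

/-- The contraction constant for large fields. -/
lemma om_le_rho (hθ : Adm θ) {x : ℝ} (hx : |x| ≤ 1) (hx' : 3 / 8 ≤ |x|) :
    om θ x ≤ 110 / 119 := by
  have h2 := den2_ge_half hθ hx
  unfold om
  rw [div_le_iff₀ (by linarith)]
  have h1 : 9 / 64 ≤ x ^ 2 := by
    have : (3 / 8) ^ 2 ≤ |x| ^ 2 := pow_le_pow_left₀ (by norm_num) hx' 2
    rw [sq_abs] at this
    linarith
  have h3 := hθ.sq_le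
  nlinarith [sq_nonneg θ, mul_nonneg (sq_nonneg θ) (sq_nonneg x)]

/-- Telescoping with a uniform bound `ρ` on the factors. -/
lemma prod_diff_le {ι : Type*} [DecidableEq ι] (A : Finset ι) (u v : ι → ℝ) (ρ : ℝ) (hρ : 0 ≤ ρ)
    (hu : ∀ j ∈ A, 0 ≤ u j ∧ u j ≤ ρ) (hv : ∀ j ∈ A, 0 ≤ v j ∧ v j ≤ ρ) :
    ρ * |∏ j ∈ A, u j - ∏ j ∈ A, v j| ≤ ρ ^ A.card * ∑ j ∈ A, |u j - v j| ∧
      0 ≤ ∏ j ∈ A, v j ∧ ∏ j ∈ A, v j ≤ ρ ^ A.card := by
  induction A using Finset.induction_on with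
  | empty => simp
  | insert x A hx ih =>
    obtain ⟨i1, i2, i3⟩ := ih (fun j hj => hu j (Finset.mem_insert_of_mem hj))
      (fun j hj => hv j (Finset.mem_insert_of_mem hj))
    obtain ⟨ux0, ux1⟩ := hu x (Finset.mem_insert_self _ _)
    obtain ⟨vx0, vx1⟩ := hv x (Finset.mem_insert_self _ _)
    rw [Finset.prod_insert hx, Finset.prod_insert hx, Finset.sum_insert hx, Finset.card_insert_of_notMem hx]
    refine ⟨?_, mul_nonneg vx0 i2, ?_⟩
    · set U := ∏ j ∈ A, u j
      set V := ∏ j ∈ A, v j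
      set Sg := ∑ j ∈ A, |u j - v j|
      have hSg : 0 ≤ Sg := Finset.sum_nonneg fun _ _ => abs_nonneg _
      have e : u x * U - v x * V = u x * (U - V) + (u x - v x) * V := by ring
      have hp : 0 ≤ ρ ^ A.card := pow_nonneg hρ _
      calc ρ * |u x * U - v x * V| ≤ ρ * (|u x * (U - V)| + |(u x - v x) * V|) := by
            rw [e]
            exact mul_le_mul_of_nonneg_left (abs_add_le _ _) hρ
        _ = u x * (ρ * |U - V|) + ρ * (|u x - v x| * V) := by
            rw [abs_mul, abs_mul, abs_of_nonneg ux0, abs_of_nonneg i2]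
            ring
        _ ≤ ρ * (ρ ^ A.card * Sg) + ρ * (|u x - v x| * ρ ^ A.card) := by
            have h1 : u x * (ρ * |U - V|) ≤ ρ * (ρ ^ A.card * Sg) :=
              mul_le_mul ux1 i1 (by positivity) hρ
            have h2 : ρ * (|u x - v x| * V) ≤ ρ * (|u x - v x| * ρ ^ A.card) :=
              mul_le_mul_of_nonneg_left (mul_le_mul_of_nonneg_left i3 (abs_nonneg _)) hρ
            linarith
        _ = ρ ^ (A.card + 1) * (|u x - v x| + Sg) := by ring
    · calc v x * ∏ j ∈ A, v j ≤ ρ * ρ ^ A.card := mul_le_mul vx1 i3 i2 hρ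
        _ = ρ ^ (A.card + 1) := by ring

lemma abs_exp_sub_le {a b : ℝ} (ha : 0 ≤ a) (hb : 0 ≤ b) :
    |Real.exp (-a) - Real.exp (-b)| ≤ |a - b| := by
  wlog h : a ≤ b generalizing a b
  · rw [abs_sub_comm, abs_sub_comm a b]
    exact this hb ha (le_of_not_ge h)
  have h1 : Real.exp (-b) ≤ Real.exp (-a) := Real.exp_le_exp.2 (by linarith)
  rw [abs_of_nonneg (by linarith), abs_of_nonpos (by linarith)]
  have h2 : Real.exp (-a) ≤ 1 := Real.exp_le_one_iff.2 (by linarith)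
  have h3 : 0 < Real.exp (-a) := Real.exp_pos _
  have h4 : Real.exp (-b) = Real.exp (-a) * Real.exp (-(b - a)) := by
    rw [← Real.exp_add]
    congr 1
    ring
  have h5 : 1 - (b - a) ≤ Real.exp (-(b - a)) := by
    have := Real.add_one_le_exp (-(b - a))
    linarith
  rw [h4]
  nlinarith

/-- `a r^a` is bounded. -/
lemma card_mul_rho_pow_le (a : ℕ) : (a : ℝ) * ((110 / 119 : ℝ) ^ a) ^ 2 ≤ 6 := by
  have h0 : (0 : ℝ) < (110 / 119) ^ 2 := by norm_num
  set r : ℝ := (110 / 119) ^ 2 with hr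
  have e : ((110 / 119 : ℝ) ^ a) ^ 2 = r ^ a := by
    rw [hr, ← pow_mul, ← pow_mul, mul_comm]
  rw [e]
  have hB := one_add_mul_le_pow (a := (2061 / 12100 : ℝ)) (by norm_num) a
  have h1 : (1 + (2061 / 12100 : ℝ)) * r = 1 := by
    rw [hr]; norm_num
  have h2 : (1 + (2061 / 12100 : ℝ)) ^ a * r ^ a = 1 := by
    rw [← mul_pow, h1, one_pow]
  have hra : 0 < r ^ a := pow_pos h0 _
  have h3 : (1 + (a : ℝ) * (2061 / 12100)) * r ^ a ≤ 1 := by
    calc (1 + (a : ℝ) * (2061 / 12100)) * r ^ a ≤ (1 + (2061 / 12100 : ℝ)) ^ a * r ^ a :=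
          mul_le_mul_of_nonneg_right hB hra.le
      _ = 1 := h2
  have h4 : (a : ℝ) * r ^ a * (2061 / 12100) ≤ 1 := by nlinarith
  have h5 : ∀ w : ℝ, w * (2061 / 12100) ≤ 1 → w ≤ 6 := fun w hw => by linarith
  exact h5 _ h4

end HatAux

open HatAux

theorem lhat_neg (hθ : Adm θ) (t : ℝ) : lhat θ (-t) = lhat θ t := by
  have hc := continuous_phiHat hθ
  have h1 : ∫ r in (0 : ℝ)..t, phiHat θ (-r) = ∫ r in (-t)..(-0 : ℝ), phiHat θ r :=
    intervalIntegral.integral_comp_neg (phiHat θ)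
  have h2 : ∫ r in (0 : ℝ)..t, phiHat θ (-r) = - lhat θ t := by
    unfold lhat
    rw [← intervalIntegral.integral_neg]
    exact intervalIntegral.integral_congr fun r _ => phiHat_neg θ r
  have h3 : ∫ r in (-t)..(-0 : ℝ), phiHat θ r = - lhat θ (-t) := by
    unfold lhat
    rw [neg_zero, intervalIntegral.integral_symm]
  linarith

theorem lhat_nonneg (hθ : Adm θ) (t : ℝ) : 0 ≤ lhat θ t := by
  have key : ∀ s : ℝ, 0 ≤ s → 0 ≤ lhat θ s := by
    intro s hs
    exact intervalIntegral.integral_nonneg hs fun r hr => phiHat_nonneg hθ hr.1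
  rcases le_total 0 t with h | h
  · exact key t h
  · rw [← lhat_neg hθ]
    exact key _ (by linarith)

theorem lhat_convex (hθ : Adm θ) : ConvexOn ℝ Set.univ (lhat θ) := by
  apply Monotone.convexOn_univ_of_deriv (differentiable_lhat hθ)
  rw [deriv_lhat hθ]
  exact phiHat_mono hθ

theorem lhat_eq (hθ : Adm θ) (ht : |t| ≤ 1 / 2) : lhat θ t = - Real.log (om θ t) := by
  have hc := continuous_phiHat hθ
  have hmem : ∀ x ∈ Set.uIcc (0 : ℝ) t, |x| ≤ 1 / 2 := by
    intro x hx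
    have h1 := abs_le.1 ht
    rcases Set.mem_uIcc.1 hx with h | h
    · rw [abs_le]; constructor <;> linarith [h.1, h.2, h1.1, h1.2]
    · rw [abs_le]; constructor <;> linarith [h.1, h.2, h1.1, h1.2]
  have h : ∫ r in (0 : ℝ)..t, phiHat θ r =
      (- Real.log (om θ t)) - (- Real.log (om θ 0)) := by
    apply intervalIntegral.integral_eq_sub_of_hasDerivAt
    · intro x hx
      have hx' := hmem x hx
      have := hasDerivAt_neg_log_om hθ hx'
      rw [phiHat_eq, clamp_of_abs_le hx']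
      exact this
    · exact hc.intervalIntegrable _ _
  have h0 : om θ 0 = 1 := by simp [om]
  rw [h0, Real.log_one] at h
  unfold lhat
  rw [h]
  ring

theorem om_eq_exp (hθ : Adm θ) (ht : |t| ≤ 1 / 2) : om θ t = Real.exp (- lhat θ t) := by
  rw [lhat_eq hθ ht, neg_neg, Real.exp_log (om_pos_half hθ ht)]

theorem lhat_lip (hθ : Adm θ) (t t' : ℝ) : |lhat θ t - lhat θ t'| ≤ 3 * max |t| |t'| * |t - t'| := by
  have hc := continuous_phiHat hθ
  have e : lhat θ t - lhat θ t' = ∫ r in t'..t, phiHat θ r :=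
    intervalIntegral.integral_interval_sub_left (hc.intervalIntegrable _ _) (hc.intervalIntegrable _ _)
  rw [e]
  have := intervalIntegral.norm_integral_le_of_norm_le_const (a := t') (b := t) (f := phiHat θ)
    (C := 3 * max |t| |t'|) (by
      intro x hx
      rw [Real.norm_eq_abs]
      refine (abs_phiHat_le hθ x).trans ?_
      have hx1 : |x| ≤ max |t| |t'| := by
        rcases Set.mem_uIoc.1 hx with h | h
        · rw [abs_le]
          constructor
          · have : -|t'| ≤ t' := neg_abs_le t'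
            have h2 := le_max_right |t| |t'|
            linarith [h.1]
          · have : t ≤ |t| := le_abs_self t
            have h2 := le_max_left |t| |t'|
            linarith [h.2]
        · rw [abs_le]
          constructor
          · have : -|t| ≤ t := neg_abs_le t
            have h2 := le_max_left |t| |t'|
            linarith [h.1]
          · have : t' ≤ |t'| := le_abs_self t'
            have h2 := le_max_right |t| |t'|
            linarith [h.2]
      linarith)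
  rwa [Real.norm_eq_abs] at this

theorem continuous_lhat (hθ : Adm θ) : Continuous (lhat θ) :=
  (differentiable_lhat hθ).continuous

/-- **The product inequality**: two products of attenuation factors differ by at most the sum of the differences of
the logarithms, up to the terms where one of the fields is large. -/
theorem near_ineq : ∃ C : ℝ, 0 < C ∧ ∀ (θ : ℝ) (_ : Adm θ) (k : ℕ) (t t' : ℕ → ℝ),
    (∀ j, |t j| ≤ 1) → (∀ j, |t' j| ≤ 1) →
    (∏ j ∈ Finset.range k, om θ (t j) - ∏ j ∈ Finset.range k, om θ (t' j)) ^ 2 ≤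
      C * ((∑ j ∈ Finset.range k, (lhat θ (t j) - lhat θ (t' j))) ^ 2 +
        ∑ j ∈ Finset.range k, (if 1 / 2 < max |t j| |t' j| then (t j - t' j) ^ 2 else 0)) := by
  classical
  refine ⟨768, by norm_num, ?_⟩
  intro θ hθ k t t' ht ht'
  set I := Finset.range k with hI
  set lg : ℕ → Prop := fun j => 1 / 2 < max |t j| |t' j| with hlg
  set A := I.filter lg with hA
  set Ac := I.filter (fun j => ¬ lg j) with hAc
  set S := ∑ j ∈ I, (if lg j then (t j - t' j) ^ 2 else 0) with hS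
  set L := ∑ j ∈ I, (lhat θ (t j) - lhat θ (t' j)) with hL
  have hSA : S = ∑ j ∈ A, (t j - t' j) ^ 2 := by
    rw [hS, hA, Finset.sum_filter]
  have hS0 : 0 ≤ S := by
    rw [hSA]
    exact Finset.sum_nonneg fun _ _ => sq_nonneg _
  -- products in [0,1]
  have hP1 : ∀ w : ℕ → ℝ, (∀ j, |w j| ≤ 1) →
      0 ≤ ∏ j ∈ I, om θ (w j) ∧ ∏ j ∈ I, om θ (w j) ≤ 1 := by
    intro w hw
    exact ⟨Finset.prod_nonneg fun j _ => om_nn hθ (hw j),
      Finset.prod_le_one (fun j _ => om_nn hθ (hw j)) fun j _ => om_le1 hθ (hw j)⟩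
  by_cases hbig : 1 / 64 ≤ S
  · -- trivial case
    have h1 := hP1 t ht
    have h2 := hP1 t' ht'
    have : (∏ j ∈ I, om θ (t j) - ∏ j ∈ I, om θ (t' j)) ^ 2 ≤ 1 := by
      rw [sq_le_one_iff_abs_le_one, abs_le]
      constructor <;> linarith [h1.1, h1.2, h2.1, h2.2]
    nlinarith [sq_nonneg L]
  · rw [not_le] at hbig
    -- all large indices have both fields at least 3/8
    have hΔ : ∀ j ∈ A, |t j - t' j| < 1 / 8 := by
      intro j hj
      have h1 : (t j - t' j) ^ 2 ≤ S := by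
        rw [hSA]
        exact Finset.single_le_sum (f := fun j => (t j - t' j) ^ 2)
          (fun _ _ => sq_nonneg _) hj
      have h2 : |t j - t' j| ^ 2 < (1 / 8) ^ 2 := by
        rw [sq_abs]
        norm_num
        norm_num at hbig
        linarith
      exact lt_of_pow_lt_pow_left₀ 2 (by norm_num) h2
    have hlarge : ∀ j ∈ A, 3 / 8 ≤ |t j| ∧ 3 / 8 ≤ |t' j| := by
      intro j hj
      have hlgj : lg j := (Finset.mem_filter.1 hj).2
      have hd := hΔ j hj
      have h1 : |t j| - |t' j| ≤ |t j - t' j| := abs_sub_abs_le_abs_sub _ _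
      have h2 : |t' j| - |t j| ≤ |t j - t' j| := by
        rw [abs_sub_comm]
        exact abs_sub_abs_le_abs_sub _ _
      rcases lt_max_iff.1 hlgj with h | h
      · constructor <;> linarith
      · constructor <;> linarith
    set ρ : ℝ := 110 / 119 with hρ
    have hρ0 : 0 ≤ ρ := by rw [hρ]; norm_num
    have hu : ∀ j ∈ A, 0 ≤ om θ (t j) ∧ om θ (t j) ≤ ρ := fun j hj =>
      ⟨om_nn hθ (ht j), om_le_rho hθ (ht j) (hlarge j hj).1⟩
    have hv : ∀ j ∈ A, 0 ≤ om θ (t' j) ∧ om θ (t' j) ≤ ρ := fun j hj =>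
      ⟨om_nn hθ (ht' j), om_le_rho hθ (ht' j) (hlarge j hj).2⟩
    obtain ⟨hT1, hR'0, hR'1⟩ := prod_diff_le A (fun j => om θ (t j)) (fun j => om θ (t' j)) ρ hρ0 hu hv
    obtain ⟨-, hR0, hR1⟩ := prod_diff_le A (fun j => om θ (t' j)) (fun j => om θ (t j)) ρ hρ0 hv hu
    set R := ∏ j ∈ A, om θ (t j) with hR
    set R' := ∏ j ∈ A, om θ (t' j) with hR'
    set T := ∑ j ∈ A, |t j - t' j| with hT
    have hT0 : 0 ≤ T := Finset.sum_nonneg fun _ _ => abs_nonneg _
    have hsum4 : ∑ j ∈ A, |om θ (t j) - om θ (t' j)| ≤ 4 * T := by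
      rw [hT, Finset.mul_sum]
      exact Finset.sum_le_sum fun j _ => om_lip_t hθ (ht j) (ht' j)
    have hpow0 : 0 ≤ ρ ^ A.card := pow_nonneg hρ0 _
    have hRR : |R - R'| ≤ 5 * (ρ ^ A.card * T) := by
      have h1 : ρ * |R - R'| ≤ ρ ^ A.card * (4 * T) :=
        hT1.trans (mul_le_mul_of_nonneg_left hsum4 hpow0)
      have h2 : (110 / 119 : ℝ) * |R - R'| ≤ ρ ^ A.card * (4 * T) := h1
      have h3 : 0 ≤ ρ ^ A.card * T := mul_nonneg hpow0 hT0
      nlinarith
    -- small part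
    have hsm : ∀ j ∈ Ac, max |t j| |t' j| ≤ 1 / 2 := fun j hj => by
      have := (Finset.mem_filter.1 hj).2
      exact not_lt.1 this
    set Lc := ∑ j ∈ Ac, lhat θ (t j) with hLc
    set Lc' := ∑ j ∈ Ac, lhat θ (t' j) with hLc'
    have hLc0 : 0 ≤ Lc := Finset.sum_nonneg fun j _ => lhat_nonneg hθ _
    have hLc'0 : 0 ≤ Lc' := Finset.sum_nonneg fun j _ => lhat_nonneg hθ _
    have hP : ∏ j ∈ Ac, om θ (t j) = Real.exp (-Lc) := by
      rw [hLc, ← Finset.sum_neg_distrib, Real.exp_sum]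
      refine Finset.prod_congr rfl fun j hj => ?_
      exact om_eq_exp hθ ((le_max_left _ _).trans (hsm j hj))
    have hP' : ∏ j ∈ Ac, om θ (t' j) = Real.exp (-Lc') := by
      rw [hLc', ← Finset.sum_neg_distrib, Real.exp_sum]
      refine Finset.prod_congr rfl fun j hj => ?_
      exact om_eq_exp hθ ((le_max_right _ _).trans (hsm j hj))
    have hsplit : ∀ w : ℕ → ℝ, ∏ j ∈ I, om θ (w j) =
        (∏ j ∈ A, om θ (w j)) * ∏ j ∈ Ac, om θ (w j) := fun w =>
      (Finset.prod_filter_mul_prod_filter_not I lg _).symm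
    -- the difference of the logarithmic sums
    have hLdiff : |Lc - Lc'| ≤ |L| + 3 * T := by
      have hsplitL : L = (∑ j ∈ A, (lhat θ (t j) - lhat θ (t' j))) + (Lc - Lc') := by
        rw [hL, hLc, hLc', ← Finset.sum_sub_distrib]
        exact (Finset.sum_filter_add_sum_filter_not I lg _).symm
      have hA3 : |∑ j ∈ A, (lhat θ (t j) - lhat θ (t' j))| ≤ 3 * T := by
        refine (Finset.abs_sum_le_sum_abs _ _).trans ?_
        rw [hT, Finset.mul_sum]
        refine Finset.sum_le_sum fun j _ => ?_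
        refine (lhat_lip hθ _ _).trans ?_
        have hm : max |t j| |t' j| ≤ 1 := max_le (ht j) (ht' j)
        have hnn := abs_nonneg (t j - t' j)
        nlinarith
      have e : Lc - Lc' = L - ∑ j ∈ A, (lhat θ (t j) - lhat θ (t' j)) := by
        rw [hsplitL]; ring
      rw [e]
      refine (abs_sub _ _).trans ?_
      linarith
    have hPdiff : |Real.exp (-Lc) - Real.exp (-Lc')| ≤ |L| + 3 * T :=
      (abs_exp_sub_le hLc0 hLc'0).trans hLdiff
    have hP'1 : Real.exp (-Lc') ≤ 1 := Real.exp_le_one_iff.2 (by linarith)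
    have hP'0 : 0 ≤ Real.exp (-Lc') := (Real.exp_pos _).le
    -- assemble
    have hmain : |R * Real.exp (-Lc) - R' * Real.exp (-Lc')| ≤ |L| + 8 * (ρ ^ A.card * T) := by
      have e : R * Real.exp (-Lc) - R' * Real.exp (-Lc') =
          R * (Real.exp (-Lc) - Real.exp (-Lc')) + (R - R') * Real.exp (-Lc') := by ring
      rw [e]
      refine (abs_add_le _ _).trans ?_
      rw [abs_mul, abs_mul, abs_of_nonneg hR0, abs_of_nonneg hP'0]
      have hR1' : R ≤ ρ ^ A.card := hR1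
      have hρ1 : ρ ^ A.card ≤ 1 := pow_le_one₀ hρ0 (by rw [hρ]; norm_num)
      have h1 : R * |Real.exp (-Lc) - Real.exp (-Lc')| ≤ R * (|L| + 3 * T) :=
        mul_le_mul_of_nonneg_left hPdiff hR0
      have h2 : R * |L| ≤ |L| := by
        have := abs_nonneg L
        nlinarith
      have h3 : R * (3 * T) ≤ ρ ^ A.card * (3 * T) :=
        mul_le_mul_of_nonneg_right hR1' (by positivity)
      have h4 : |R - R'| * Real.exp (-Lc') ≤ 5 * (ρ ^ A.card * T) := by
        have : |R - R'| * Real.exp (-Lc') ≤ |R - R'| * 1 :=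
          mul_le_mul_of_nonneg_left hP'1 (abs_nonneg _)
        linarith
      nlinarith
    have hTsq : T ^ 2 ≤ A.card * S := by
      have := sq_sum_le_card_mul_sum_sq (s := A) (f := fun j => |t j - t' j|)
      simp only [sq_abs] at this
      rw [hSA]
      exact this
    have hfin : (ρ ^ A.card * T) ^ 2 ≤ 6 * S := by
      have h6 := card_mul_rho_pow_le A.card
      have e : (ρ ^ A.card * T) ^ 2 = (ρ ^ A.card) ^ 2 * T ^ 2 := by ring
      rw [e]
      calc (ρ ^ A.card) ^ 2 * T ^ 2 ≤ (ρ ^ A.card) ^ 2 * (A.card * S) :=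
            mul_le_mul_of_nonneg_left hTsq (sq_nonneg _)
        _ = ((A.card : ℝ) * (ρ ^ A.card) ^ 2) * S := by ring
        _ ≤ 6 * S := mul_le_mul_of_nonneg_right h6 hS0
    rw [hsplit t, hsplit t', hP, hP']
    set X := R * Real.exp (-Lc) - R' * Real.exp (-Lc') with hX
    set Y := ρ ^ A.card * T with hY
    have hY0 : 0 ≤ Y := mul_nonneg hpow0 hT0
    have hX2 : X ^ 2 ≤ (|L| + 8 * Y) ^ 2 := by
      rw [← sq_abs X]
      exact pow_le_pow_left₀ (abs_nonneg _) hmain 2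
    have hL2 : |L| ^ 2 = L ^ 2 := sq_abs L
    nlinarith [sq_nonneg (|L| - 8 * Y)]

/-- Changing the interaction in a product of attenuation factors. -/
theorem om_prod_lip : ∃ c : ℝ, 0 < c ∧ ∀ (θ θ' : ℝ) (_ : Adm θ) (_ : Adm θ') (k : ℕ) (t : ℕ → ℝ), (∀ j, |t j| ≤ 1) →
    |∏ j ∈ Finset.range k, om θ (t j) - ∏ j ∈ Finset.range k, om θ' (t j)| ≤ k * (c * |θ - θ'|) := by
  refine ⟨8, by norm_num, ?_⟩
  intro θ θ' hθ hθ' k t ht
  induction k with
  | zero => simp
  | succ k ih =>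
    rw [Finset.prod_range_succ, Finset.prod_range_succ]
    set U := ∏ j ∈ Finset.range k, om θ (t j)
    set V := ∏ j ∈ Finset.range k, om θ' (t j)
    have hV0 : 0 ≤ V := Finset.prod_nonneg fun j _ => om_nn hθ' (ht j)
    have hV1 : V ≤ 1 := Finset.prod_le_one (fun j _ => om_nn hθ' (ht j)) fun j _ => om_le1 hθ' (ht j)
    have e : U * om θ (t k) - V * om θ' (t k) =
        (U - V) * om θ (t k) + V * (om θ (t k) - om θ' (t k)) := by ring
    rw [e]
    refine (abs_add_le _ _).trans ?_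
    rw [abs_mul, abs_mul, abs_of_nonneg (om_nn hθ (ht k)), abs_of_nonneg hV0]
    have h1 : |U - V| * om θ (t k) ≤ |U - V| * 1 :=
      mul_le_mul_of_nonneg_left (om_le1 hθ (ht k)) (abs_nonneg _)
    have h2 : V * |om θ (t k) - om θ' (t k)| ≤ 1 * (8 * |θ - θ'|) :=
      mul_le_mul hV1 (om_lip_theta hθ hθ' (ht k)) (abs_nonneg _) (by norm_num)
    push_cast
    nlinarith

end Crest.Agent.Lib.TI
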