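import Crest.Agent.Lib.FiidPlanted

/-!
# The law of a sequential run (S0241 project, module TI.Law)

Abstract form of `FiidLaw.run_law_init`: observations `Y c` are produced in the order of a key, with channel parameter
`par` computed from the earlier observations; `Z` is the planted density. Then the law of the run is the planted law.
-/

set_option autoImplicit false

namespace Crest.Agent.Lib.TI

open MeasureTheory Set
open scoped unitInterval
open Crest.Agent.Lib.FiidChannel Crest.Agent.Lib.FiidPlanted

/-- The observation with channel parameter `s` (density `1 + s (2y - 1)`) from the uniform noise `w`. -/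
noncomputable def obs (s : ℝ) (w : I) : I := T ((3 * s + 1) / 2) w

lemma sOf_eq {s : ℝ} (hs : |s| ≤ 1 / 3) : sOf ((3 * s + 1) / 2) = s := by
  obtain ⟨h1, h2⟩ := abs_le.mp hs
  unfold sOf
  rw [clamp_of_mem (by linarith) (by linarith)]
  ring

lemma integral_comp_obs {s : ℝ} (hs : |s| ≤ 1 / 3) (g : I → ℝ) :
    ∫ w : I, g (obs s w) = ∫ y : I, g y * dens s y := by
  unfold obs
  rw [integral_comp_T, sOf_eq hs]

lemma measurable_obs : Measurable (fun p : ℝ × I => obs p.1 p.2) := by
  unfold obs
  exact measurable_T.comp (Measurable.prodMk (by fun_prop) measurable_snd)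

lemma obs_coe {s : ℝ} (hs : |s| ≤ 1 / 3) (w : I) : (obs s w : ℝ) = invCdf s w := by
  unfold obs
  rw [T_coe, sOf_eq hs]

lemma dens_pos_I {s : ℝ} (hs : |s| ≤ 1 / 3) (y : I) : 0 < dens s y := dens_pos hs y.2.1 y.2.2

section law

variable {J : Type*} [DecidableEq J] {K : Type*} [LinearOrder K]

/-- Setting of a sequential run on the finite set `S` of stages ordered by `key`. -/
structure SeqRun (S : Finset J) (key : J → K) (par : Finset J → J → (J → I) → ℝ) (Z : Finset J → (J → I) → ℝ)
    (Y : (J → I) → (J → I)) : Prop where
  key_inj : Set.InjOn key S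
  par_bd : ∀ A c y, |par A c y| ≤ 1 / 3
  par_meas : ∀ A c, Measurable (par A c)
  par_dep : ∀ A c, Dep (par A c) A
  Z_bm : ∀ A, BM (Z A)
  Z_dep : ∀ A, Dep (Z A) A
  Z_empty : ∀ y, Z ∅ y = 1
  Z_insert : ∀ A, A ⊆ S → ∀ c ∈ S, c ∉ A → ∀ y, Z (insert c A) y = Z A y * dens (par A c y) (y c)
  Y_meas : Measurable Y
  Y_fix : ∀ w, ∀ c ∈ S, Y w c = obs (par (S.filter (fun d => key d < key c)) c (Y w)) (w c)
  Y_causal : ∀ w, ∀ c ∈ S, ∀ t, ∀ d ∈ S, key d < key c → Y (Function.update w c t) d = Y w d

variable {S : Finset J} {key : J → K} {par : Finset J → J → (J → I) → ℝ} {Z : Finset J → (J → I) → ℝ}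
  {Y : (J → I) → (J → I)}

/-- Initial segments. -/
def IsInitSeg (S : Finset J) (key : J → K) (A : Finset J) : Prop :=
  A ⊆ S ∧ ∀ c ∈ A, ∀ d ∈ S, key d < key c → d ∈ A

theorem seq_law_init (h : SeqRun S key par Z Y) (A : Finset J) : IsInitSeg S key A →
    ∀ φ : (J → I) → ℝ, BM φ → Dep φ A → ∫ w, φ (Y w) ∂Lam J = ∫ y, φ y * Z A y ∂Lam J := by
  classical
  induction A using Finset.induction_on_max_value key with
  | empty =>
    intro _ φ _ hdep
    have hc : ∀ y y', φ y = φ y' := fun y y' => hdep y y' (by simp)
    simp_rw [h.Z_empty, mul_one]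
    have e1 : ∀ W, φ (Y W) = φ (fun _ => 0) := fun W => hc _ _
    have e2 : ∀ y, φ y = φ (fun _ => 0) := fun y => hc _ _
    simp_rw [e1]
    simp_rw [e2 _]
  | insert a s ha hmax ih =>
    intro hinit φ hφ hdep
    have haS : a ∈ S := hinit.1 (Finset.mem_insert_self _ _)
    have hinit' : IsInitSeg S key s := by
      refine ⟨fun c hc => hinit.1 (Finset.mem_insert_of_mem hc), fun c hc d hd hlt => ?_⟩
      have := hinit.2 c (Finset.mem_insert_of_mem hc) d hd hlt
      rcases Finset.mem_insert.mp this with rfl | h'
      · exact absurd (hmax c hc) (not_le.mpr hlt)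
      · exact h'
    have hs : S.filter (fun d => key d < key a) = s := by
      ext c
      rw [Finset.mem_filter]
      constructor
      · rintro ⟨hcS, hc⟩
        have := hinit.2 a (Finset.mem_insert_self _ _) c hcS hc
        rcases Finset.mem_insert.mp this with rfl | h'
        · exact absurd hc (lt_irrefl _)
        · exact h'
      · intro hc
        have hcS := hinit'.1 hc
        refine ⟨hcS, ?_⟩
        have hle := hmax c hc
        have hne : key c ≠ key a := by
          intro e
          have := h.key_inj hcS haS e
          rw [this] at hc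
          exact ha hc
        exact lt_of_le_of_ne hle hne
    -- the reduced test function
    set φt : (J → I) → ℝ := fun y => ∫ t : I, φ (Function.update y a (obs (par s a y) t)) with hφt
    have hφt_eq : ∀ y, φt y = ∫ t : I, φ (Function.update y a t) * dens (par s a y) t := by
      intro y
      exact integral_comp_obs (h.par_bd s a y) (fun t => φ (Function.update y a t))
    have hφt_bm : BM φt := by
      have h1 : Measurable (fun p : (J → I) × I => Function.update p.1 a (obs (par s a p.1) p.2)) := by
        have h2 : Measurable (fun p : (J → I) × I => (p.1, obs (par s a p.1) p.2)) :=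
          measurable_fst.prodMk (measurable_obs.comp
            (((h.par_meas s a).comp measurable_fst).prodMk measurable_snd))
        exact (measurable_update_pair a).comp h2
      exact (hφ.comp h1).integral_right (volume : Measure I)
    have hφt_dep : Dep φt s := by
      intro y y' hyy
      simp only [hφt]
      have hp : par s a y = par s a y' := h.par_dep s a y y' hyy
      rw [hp]
      congr 1
      funext t
      apply hdep
      intro c hc
      by_cases hca : c = a
      · subst hca; simp
      · rw [Function.update_of_ne hca, Function.update_of_ne hca]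
        exact hyy c ((Finset.mem_insert.mp hc).resolve_left hca)
    have hih := ih hinit' φt hφt_bm hφt_dep
    -- the left hand side
    have hY : ∀ W, (∫ t : I, φ (Y (Function.update W a t))) = φt (Y W) := by
      intro W
      simp only [hφt]
      congr 1
      funext t
      apply hdep
      intro c hc
      have hag : ∀ d ∈ s, Y (Function.update W a t) d = Y W d := by
        intro d hd
        have hd' : d ∈ S.filter (fun d => key d < key a) := hs ▸ hd
        rw [Finset.mem_filter] at hd'
        exact h.Y_causal W a haS t d hd'.1 hd'.2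
      by_cases hca : c = a
      · subst hca
        simp only [Function.update_self]
        rw [h.Y_fix _ c haS, hs]
        simp only [Function.update_self]
        rw [h.par_dep s c _ _ hag]
      · rw [Function.update_of_ne hca]
        exact hag c ((Finset.mem_insert.mp hc).resolve_left hca)
    have hbm : BM (fun W => φ (Y W)) := hφ.comp h.Y_meas
    rw [← integral_resample a hbm]
    simp_rw [hY]
    rw [hih]
    -- the right hand side
    have hbm2 : BM (fun y => φ y * Z (insert a s) y) := hφ.mul (h.Z_bm _)
    rw [← integral_resample a hbm2]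
    congr 1
    funext y
    rw [hφt_eq, ← integral_mul_const]
    congr 1
    funext t
    have hupd : ∀ A : Finset J, a ∉ A → Z A (Function.update y a t) = Z A y := by
      intro A hA
      exact (h.Z_dep A).update hA y t
    have hpar : par s a (Function.update y a t) = par s a y := (h.par_dep s a).update ha y t
    rw [h.Z_insert s hinit'.1 a haS ha (Function.update y a t), hupd s ha, hpar]
    simp only [Function.update_self]
    ring

/-- Consistency of the planted density: integrating out stages. -/
theorem seq_consistent (h : SeqRun S key par Z Y) {A B : Finset J} (hAB : A ⊆ B) (hB : B ⊆ S)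
    {ψ : (J → I) → ℝ} (hψ : BM ψ) (hdep : Dep ψ A) :
    ∫ y, ψ y * Z B y ∂Lam J = ∫ y, ψ y * Z A y ∂Lam J := by
  classical
  have key' : ∀ C : Finset J, Disjoint A C → A ∪ C ⊆ S →
      ∫ y, ψ y * Z (A ∪ C) y ∂Lam J = ∫ y, ψ y * Z A y ∂Lam J := by
    intro C
    induction C using Finset.induction_on with
    | empty => simp
    | insert a C ha ih =>
      intro hd hs
      rw [Finset.disjoint_insert_right] at hd
      have hsub : A ∪ C ⊆ S := fun x hx => hs (by
        rcases Finset.mem_union.mp hx with h1 | h1
        · exact Finset.mem_union_left _ h1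
        · exact Finset.mem_union_right _ (Finset.mem_insert_of_mem h1))
      have haS : a ∈ S := hs (Finset.mem_union_right _ (Finset.mem_insert_self _ _))
      have hnot : a ∉ A ∪ C := by simp [hd.1, ha]
      rw [Finset.union_insert]
      have hdep' : Dep ψ (A ∪ C) := hdep.mono Finset.subset_union_left
      have hbm2 : BM (fun y => ψ y * Z (insert a (A ∪ C)) y) := hψ.mul (h.Z_bm _)
      rw [← ih hd.2 hsub, ← integral_resample a hbm2]
      have hbm3 : BM (fun y => ψ y * Z (A ∪ C) y) := hψ.mul (h.Z_bm _)
      congr 1
      funext y
      have : ∀ t : I, ψ (Function.update y a t) * Z (insert a (A ∪ C)) (Function.update y a t) =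
          ψ y * Z (A ∪ C) y * dens (par (A ∪ C) a y) t := by
        intro t
        rw [hdep'.update hnot y t, h.Z_insert (A ∪ C) hsub a haS hnot (Function.update y a t),
          (h.Z_dep (A ∪ C)).update hnot y t, (h.par_dep (A ∪ C) a).update hnot y t]
        simp only [Function.update_self]
        ring
      simp_rw [this]
      rw [integral_const_mul, integral_dens_one, mul_one]
  have := key' (B \ A) Finset.disjoint_sdiff (by rwa [Finset.union_sdiff_of_subset hAB])
  rwa [Finset.union_sdiff_of_subset hAB] at this

/-- **The law of the run** on any set of stages. -/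
theorem seq_law (h : SeqRun S key par Z Y) {A : Finset J} (hA : A ⊆ S) {φ : (J → I) → ℝ} (hφ : BM φ)
    (hdep : Dep φ A) : ∫ w, φ (Y w) ∂Lam J = ∫ y, φ y * Z A y ∂Lam J := by
  have hinit : IsInitSeg S key S := ⟨subset_rfl, fun _ _ _ hd _ => hd⟩
  rw [seq_law_init h S hinit φ hφ (hdep.mono hA)]
  exact seq_consistent h hA subset_rfl hφ hdep

end law

end Crest.Agent.Lib.TI
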