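import Crest.Agent.Lib.TI.ConcreteExper
import Crest.Agent.Lib.TI.Seq
import Crest.Agent.Lib.TI.Cavity

/-!
# The schedule, the approximating parameters, the elementary rates (S0241 project, part of TI.Main)

Split off from `TI.Main`; see the docstring there.
-/

set_option autoImplicit false

namespace Crest.Agent.Lib.TI

open MeasureTheory Set Classical Filter Topology
open scoped unitInterval
open Crest.Agent.Lib.FiidChannel Crest.Agent.Lib.FiidPlanted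

variable {V : Type*} {G : SimpleGraph V} [G.LocallyFinite] {q : ℕ} {θ : ℝ}

/-! ### The schedule -/

/-- The schedule of strengths: `κ_ℓ² = 2^(min ℓ 0) / 9`. -/
noncomputable def kapS (ℓ : ℤ) : ℝ := (1 / 3) * Real.sqrt (1 / 2) ^ (-ℓ).toNat

section schedule

private lemma rt_pos : 0 < Real.sqrt (1 / 2) := Real.sqrt_pos.2 (by norm_num)

private lemma rt_le : Real.sqrt (1 / 2) ≤ 1 := by
  rw [show (1 : ℝ) = Real.sqrt 1 by simp]
  exact Real.sqrt_le_sqrt (by norm_num)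

private lemma rt_sq : Real.sqrt (1 / 2) ^ 2 = 1 / 2 := Real.sq_sqrt (by norm_num)

theorem sched_kapS : Sched kapS := by
  refine ⟨fun ℓ => ?_, fun ℓ => ?_⟩
  · unfold kapS
    have := rt_pos
    positivity
  · unfold kapS
    have := pow_le_one₀ (n := (-ℓ).toNat) rt_pos.le rt_le
    linarith

theorem kapS_sq (ℓ : ℤ) : kapS ℓ ^ 2 = (1 / 9) * (1 / 2) ^ (-ℓ).toNat := by
  unfold kapS
  rw [mul_pow, ← pow_mul, mul_comm _ 2, pow_mul, rt_sq]
  norm_num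

private lemma kapS_pos (ℓ : ℤ) : 0 < kapS ℓ := sched_kapS.pos ℓ

private lemma kapS_le (ℓ : ℤ) : kapS ℓ ≤ 1 / 3 := sched_kapS.le ℓ

theorem tauK_kapS_nonneg (ℓ : ℤ) : 0 ≤ tauK (kapS ℓ) := by
  unfold tauK
  have := kapS_le ℓ
  apply div_nonneg (sq_nonneg _)
  linarith

theorem tauK_kapS_le (ℓ : ℤ) : tauK (kapS ℓ) ≤ (1 / 18) * (1 / 2) ^ (-ℓ).toNat := by
  unfold tauK
  have h1 := kapS_le ℓ
  have h2 := kapS_sq ℓ
  have h3 : (0 : ℝ) < 3 * (1 - kapS ℓ) := by linarith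
  rw [div_le_iff₀ h3]
  have h4 : (0 : ℝ) ≤ (1 / 2) ^ (-ℓ).toNat := by positivity
  rw [h2]
  nlinarith

/-- Doubling of the geometric sequence. -/
private lemma half_pow_succ {ℓ : ℤ} (h : ℓ + 1 ≤ 0) :
    ((1 : ℝ) / 2) ^ (-ℓ).toNat * 2 = (1 / 2) ^ (-(ℓ + 1)).toNat := by
  have : (-ℓ).toNat = (-(ℓ + 1)).toNat + 1 := by omega
  rw [this, pow_succ]
  ring

/-- The geometric sum. -/
private lemma sum_half_le {L ℓ : ℤ} (hℓ : ℓ ≤ 0) :
    ∑ i ∈ Finset.Icc L ℓ, ((1 : ℝ) / 2) ^ (-i).toNat ≤ 2 * (1 / 2) ^ (-ℓ).toNat := by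
  by_cases hL : L ≤ ℓ
  · obtain ⟨m, rfl⟩ : ∃ m : ℕ, ℓ = L + m := ⟨(ℓ - L).toNat, by omega⟩
    induction m with
    | zero =>
      simp only [Nat.cast_zero, add_zero, Finset.Icc_self, Finset.sum_singleton]
      have : (0 : ℝ) ≤ (1 / 2) ^ (-L).toNat := by positivity
      linarith
    | succ m ih =>
      have e : Finset.Icc L (L + ((m + 1 : ℕ) : ℤ)) = insert (L + ((m + 1 : ℕ) : ℤ)) (Finset.Icc L (L + (m : ℤ))) := by
        ext i
        simp only [Finset.mem_Icc, Finset.mem_insert]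
        push_cast
        omega
      rw [e, Finset.sum_insert (by simp)]
      have h1 := ih (by push_cast at hℓ; omega) (by omega)
      have h2 := half_pow_succ (ℓ := L + (m : ℤ)) (by push_cast at hℓ; omega)
      have h3 : L + ((m + 1 : ℕ) : ℤ) = L + (m : ℤ) + 1 := by push_cast; ring
      rw [h3]
      nlinarith
  · rw [Finset.Icc_eq_empty hL]
    simp only [Finset.sum_empty]
    positivity

theorem tauP_kapS_le (L : ℤ) {ℓ : ℤ} (hℓ : ℓ ≤ 0) : tauP L kapS ℓ ≤ (9 / 32) * (1 / 2) ^ (-ℓ).toNat := by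
  unfold tauP
  have hterm : ∀ i ∈ Finset.Icc L ℓ, kapS i ^ 2 / (1 - kapS i ^ 2) ^ 2 ≤ (9 / 64) * ((1 : ℝ) / 2) ^ (-i).toNat := by
    intro i _
    have h1 := kapS_le i
    have h0 := kapS_pos i
    have h2 := kapS_sq i
    have hk2 : kapS i ^ 2 ≤ 1 / 9 := by nlinarith
    have h3 : (64 : ℝ) / 81 ≤ (1 - kapS i ^ 2) ^ 2 := by nlinarith [sq_nonneg (kapS i)]
    have h4 : (0 : ℝ) < (1 - kapS i ^ 2) ^ 2 := by linarith
    rw [div_le_iff₀ h4]
    have h5 : (0 : ℝ) ≤ (1 / 2) ^ (-i).toNat := by positivity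
    have h6 : (9 / 64) * (1 / 2) ^ (-i).toNat * (64 / 81 : ℝ) ≤ (9 / 64) * (1 / 2) ^ (-i).toNat * (1 - kapS i ^ 2) ^ 2 :=
      mul_le_mul_of_nonneg_left h3 (by positivity)
    rw [h2] at h6 ⊢
    linarith
  calc ∑ i ∈ Finset.Icc L ℓ, kapS i ^ 2 / (1 - kapS i ^ 2) ^ 2
      ≤ ∑ i ∈ Finset.Icc L ℓ, (9 / 64) * ((1 : ℝ) / 2) ^ (-i).toNat := Finset.sum_le_sum hterm
    _ = (9 / 64) * ∑ i ∈ Finset.Icc L ℓ, ((1 : ℝ) / 2) ^ (-i).toNat := by rw [Finset.mul_sum]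
    _ ≤ (9 / 64) * (2 * (1 / 2) ^ (-ℓ).toNat) := by
        apply mul_le_mul_of_nonneg_left (sum_half_le hℓ) (by norm_num)
    _ = (9 / 32) * (1 / 2) ^ (-ℓ).toNat := by ring

theorem tauM_kapS_ge {L ℓ : ℤ} (hL : L < ℓ) {x : ℝ} (hx : 0 ≤ x) : kapS (ℓ - 1) ^ 2 / 6 ≤ tauM L kapS ℓ x := by
  unfold tauM
  have hmem : ℓ - 1 ∈ Finset.Ico L ℓ := by
    simp only [Finset.mem_Ico]
    omega
  have h1 : kapS (ℓ - 1) ^ 2 / 6 ≤ ∑ i ∈ Finset.Ico L ℓ, kapS i ^ 2 / 6 :=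
    Finset.single_le_sum (f := fun i => kapS i ^ 2 / 6) (fun i _ => by positivity) hmem
  have h2 : 0 ≤ x * kapS ℓ ^ 2 / 3 := by positivity
  linarith

/-- For the late cells the information grows linearly. -/
theorem tauM_kapS_ge_nat {L : ℤ} (hL : L ≤ 0) (n : ℕ) : (n : ℝ) / 54 ≤ tauM L kapS n 0 := by
  unfold tauM
  have hsub : Finset.Ico (0 : ℤ) n ⊆ Finset.Ico L n := by
    intro i hi
    simp only [Finset.mem_Ico] at hi ⊢
    omega
  have h1 : ∑ i ∈ Finset.Ico (0 : ℤ) n, kapS i ^ 2 / 6 ≤ ∑ i ∈ Finset.Ico L n, kapS i ^ 2 / 6 :=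
    Finset.sum_le_sum_of_subset_of_nonneg hsub (fun i _ _ => by positivity)
  have h2 : ∑ i ∈ Finset.Ico (0 : ℤ) n, kapS i ^ 2 / 6 = (n : ℝ) / 54 := by
    have : ∀ i ∈ Finset.Ico (0 : ℤ) n, kapS i ^ 2 / 6 = 1 / 54 := by
      intro i hi
      simp only [Finset.mem_Ico] at hi
      have : (-i).toNat = 0 := by omega
      rw [kapS_sq, this]
      norm_num
    rw [Finset.sum_congr rfl this, Finset.sum_const]
    simp
    ring
  simp only [zero_mul, zero_div, add_zero]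
  linarith

end schedule

/-! ### The approximating parameters -/

/-- Interactions increasing to `θ`. -/
noncomputable def θsq (θ : ℝ) (n : ℕ) : ℝ := θ * (1 - 1 / ((n : ℝ) + 2))

private lemma fac_bounds (n : ℕ) : 0 < 1 - 1 / ((n : ℝ) + 2) ∧ 1 - 1 / ((n : ℝ) + 2) < 1 := by
  have h : (0 : ℝ) ≤ n := Nat.cast_nonneg n
  have h1 : 1 / ((n : ℝ) + 2) ≤ 1 / 2 := one_div_le_one_div_of_le (by norm_num) (by linarith)
  have h2 : 0 < 1 / ((n : ℝ) + 2) := by positivity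
  constructor <;> linarith

section params

variable (hθ : Adm θ)
include hθ

theorem adm_θsq (n : ℕ) : Adm (θsq θ n) := by
  obtain ⟨h0, h1⟩ := fac_bounds n
  have hsq : θsq θ n ^ 2 ≤ θ ^ 2 := by
    unfold θsq
    rw [mul_pow]
    have : (1 - 1 / ((n : ℝ) + 2)) ^ 2 ≤ 1 := pow_le_one₀ h0.le h1.le
    nlinarith [sq_nonneg θ]
  refine ⟨mul_nonneg hθ.nonneg h0.le, hsq.trans hθ.sq_le⟩

theorem sub_θsq (hqθ : (q : ℝ) * θ ^ 2 ≤ 1) (n : ℕ) : (q : ℝ) * θsq θ n ^ 2 < 1 := by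
  obtain ⟨h0, h1⟩ := fac_bounds n
  unfold θsq
  rw [mul_pow]
  set c := 1 - 1 / ((n : ℝ) + 2) with hc
  have hc2 : c ^ 2 < 1 := pow_lt_one₀ h0.le h1 (by norm_num)
  have hq0 : 0 ≤ (q : ℝ) * θ ^ 2 := by positivity
  calc (q : ℝ) * (θ ^ 2 * c ^ 2) = ((q : ℝ) * θ ^ 2) * c ^ 2 := by ring
    _ ≤ 1 * c ^ 2 := mul_le_mul_of_nonneg_right hqθ (sq_nonneg _)
    _ < 1 := by linarith

theorem θsq_mono : Monotone (θsq θ) := by
  intro a b hab
  unfold θsq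
  apply mul_le_mul_of_nonneg_left _ hθ.nonneg
  have h : (a : ℝ) ≤ b := Nat.cast_le.2 hab
  have h1 : 1 / ((b : ℝ) + 2) ≤ 1 / ((a : ℝ) + 2) :=
    one_div_le_one_div_of_le (by positivity) (by linarith)
  linarith

omit hθ in
theorem tendsto_θsq : Tendsto (θsq θ) atTop (𝓝 θ) := by
  unfold θsq
  have h : Tendsto (fun n : ℕ => 1 / ((n : ℝ) + 2)) atTop (𝓝 0) := by
    have h1 : Tendsto (fun n : ℕ => (n : ℝ) + 2) atTop atTop :=
      tendsto_atTop_add_const_right _ _ tendsto_natCast_atTop_atTop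
    have h3 := h1.inv_tendsto_atTop
    refine h3.congr (fun n => ?_)
    simp
  have h2 : Tendsto (fun n : ℕ => θ * (1 - 1 / ((n : ℝ) + 2))) atTop (𝓝 (θ * (1 - 0))) :=
    (tendsto_const_nhds.sub h).const_mul θ
  simpa using h2

end params

/-! ### The rates -/

/-- The scale of the cell. -/
noncomputable def sR (ℓ : ℤ) : ℝ := 3 * kapS (min ℓ (-21))

/-- The decay rate of the shells. -/
noncomputable def epsR (q : ℕ) (ℓ : ℤ) : ℝ := sR ℓ / (1000000 * q)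

/-- The separation of the near range and the far range. -/
noncomputable def Kr (q : ℕ) (ℓ : ℤ) : ℕ := ⌈farK (epsR q ℓ)⌉₊

/-- The size of the cavity fields. -/
noncomputable def rR (ℓ : ℤ) : ℝ := if ℓ ≤ -11 then Real.sqrt (Real.sqrt (1 / 2)) ^ (-ℓ).toNat else 1

section rates

theorem sR_sq (ℓ : ℤ) : sR ℓ ^ 2 = (1 / 2) ^ (-(min ℓ (-21))).toNat := by
  unfold sR
  rw [mul_pow, kapS_sq]
  ring

theorem sR_pos (ℓ : ℤ) : 0 < sR ℓ := by
  unfold sR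
  have := kapS_pos (min ℓ (-21))
  positivity

theorem sR_le (ℓ : ℤ) : sR ℓ ≤ 1 / 1300 := by
  have h0 := sR_pos ℓ
  have h1 := sR_sq ℓ
  have h2 : ((1 : ℝ) / 2) ^ (-(min ℓ (-21))).toNat ≤ (1 / 2) ^ 21 := by
    apply pow_le_pow_of_le_one (by norm_num) (by norm_num)
    omega
  have h3 : sR ℓ ^ 2 ≤ (1 / 1300) ^ 2 := by
    rw [h1]
    refine h2.trans ?_
    norm_num
  exact le_of_pow_le_pow_left₀ (by norm_num) (by norm_num) h3

theorem epsR_pos (hq : 2 ≤ q) (ℓ : ℤ) : 0 < epsR q ℓ := by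
  unfold epsR
  have := sR_pos ℓ
  have h : (0 : ℝ) < q := by
    have : (2 : ℝ) ≤ q := by exact_mod_cast hq
    linarith
  positivity

theorem epsR_le (hq : 2 ≤ q) (ℓ : ℤ) : epsR q ℓ ≤ 1 := by
  unfold epsR
  have h0 := sR_le ℓ
  have h : (2 : ℝ) ≤ q := by exact_mod_cast hq
  rw [div_le_one (by positivity)]
  nlinarith

theorem farK_le_Kr (q : ℕ) (ℓ : ℤ) : farK (epsR q ℓ) ≤ Kr q ℓ := Nat.le_ceil _

private lemma rtt_pos : 0 < Real.sqrt (Real.sqrt (1 / 2)) :=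
  Real.sqrt_pos.2 rt_pos

private lemma rtt_le : Real.sqrt (Real.sqrt (1 / 2)) ≤ 1 := by
  rw [show (1 : ℝ) = Real.sqrt 1 by simp]
  apply Real.sqrt_le_sqrt
  simpa using rt_le

private lemma rtt_four : Real.sqrt (Real.sqrt (1 / 2)) ^ 4 = 1 / 2 := by
  have h : Real.sqrt (Real.sqrt (1 / 2)) ^ 2 = Real.sqrt (1 / 2) := Real.sq_sqrt rt_pos.le
  calc Real.sqrt (Real.sqrt (1 / 2)) ^ 4 = (Real.sqrt (Real.sqrt (1 / 2)) ^ 2) ^ 2 := by ring
    _ = 1 / 2 := by rw [h, rt_sq]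

theorem rR_nonneg (ℓ : ℤ) : 0 ≤ rR ℓ := by
  unfold rR
  have := rtt_pos
  split_ifs <;> positivity

/-- `r` bounds the information of the cell, for the early cells. -/
theorem rR_early {L ℓ : ℤ} (hℓ : ℓ ≤ -11) : 0 < rR ℓ ∧ rR ℓ ≤ 1 / 6 ∧ tauP L kapS ℓ ≤ rR ℓ ^ 3 := by
  have hr : rR ℓ = Real.sqrt (Real.sqrt (1 / 2)) ^ (-ℓ).toNat := if_pos hℓ
  have hrpos : 0 < rR ℓ := by
    rw [hr]
    exact pow_pos rtt_pos _
  have hr4 : rR ℓ ^ 4 = (1 / 2) ^ (-ℓ).toNat := by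
    rw [hr, ← pow_mul, mul_comm, pow_mul, rtt_four]
  have hr1 : rR ℓ ≤ 1 := by
    rw [hr]
    exact pow_le_one₀ rtt_pos.le rtt_le
  refine ⟨hrpos, ?_, ?_⟩
  · have h2 : ((1 : ℝ) / 2) ^ (-ℓ).toNat ≤ (1 / 2) ^ 11 := by
      apply pow_le_pow_of_le_one (by norm_num) (by norm_num)
      omega
    have h3 : rR ℓ ^ 4 ≤ (1 / 6) ^ 4 := by
      rw [hr4]
      refine h2.trans ?_
      norm_num
    exact le_of_pow_le_pow_left₀ (by norm_num) (by norm_num) h3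
  · have h1 := tauP_kapS_le L (by omega : ℓ ≤ 0)
    rw [← hr4] at h1
    refine h1.trans ?_
    have : rR ℓ ^ 4 = rR ℓ ^ 3 * rR ℓ := by ring
    have h3 : 0 < rR ℓ ^ 3 := by positivity
    rw [this]
    nlinarith

theorem rR_late {ℓ : ℤ} (hℓ : ¬ ℓ ≤ -11) : rR ℓ = 1 := if_neg hℓ

theorem tendsto_rR : Tendsto rR atBot (𝓝 0) := by
  have h1 : Tendsto (fun ℓ : ℤ => (-ℓ).toNat) atBot atTop := by
    apply tendsto_atTop.2
    intro b
    filter_upwards [eventually_le_atBot (-(b : ℤ))] with ℓ hℓ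
    omega
  have hlt : Real.sqrt (Real.sqrt (1 / 2)) < 1 := by
    rcases lt_or_eq_of_le rtt_le with h | h
    · exact h
    · have := rtt_four
      rw [h] at this
      norm_num at this
  have h2 : Tendsto (fun ℓ : ℤ => Real.sqrt (Real.sqrt (1 / 2)) ^ (-ℓ).toNat) atBot (𝓝 0) :=
    (tendsto_pow_atTop_nhds_zero_of_lt_one rtt_pos.le hlt).comp h1
  refine h2.congr' ?_
  filter_upwards [eventually_le_atBot (-11 : ℤ)] with ℓ hℓ
  exact (if_pos hℓ).symm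

end rates

end Crest.Agent.Lib.TI
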