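import Crest.Agent.Lib.TI.Concrete

/-!
# Monotonicity for the stage experiments (S0241 project, module TI.Refine)

`blackwell` (module `Static`) needs `g' = g * h` with `g`, `h` on *disjoint* coordinates. For the stage experiments the labels
are shared: `g` and `h` both look at the label `U (v, i)` of a stage active for `g'`. So freeze the labels first:
for fixed `U` the experiment `gF … U` is a function of the observations `y` alone, `gF L₂ κ ℓ₂ x₂ U = gF L₁ κ ℓ₁ x₁ U * h`, where `h` is the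
product over the stages active for the second state and not for the first one, and `g`, `h` look at disjoint sets of stages.
Then integrate over `U`.
-/

set_option autoImplicit false

namespace Crest.Agent.Lib.TI

open MeasureTheory Set Classical
open scoped unitInterval
open Crest.Agent.Lib.FiidChannel Crest.Agent.Lib.FiidPlanted

variable {V : Type*}

/-- Vertex functions with frozen labels. -/
noncomputable def gF (L : ℤ) (κ : ℤ → ℝ) (ℓ : ℤ) (x : ℝ) (U : Stg V → I) (v : V) (s : Bool) (y : Stg V → I) : ℝ :=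
  ∏ i ∈ Finset.Icc L ℓ, (if actS ℓ x i (U (v, i)) then 1 + aY (κ i) (y (v, i)) * spin s else 1)

/-- The blocks of the frozen experiments. -/
def blF (v : V) : Set (Stg V) := {c | c.1 = v}

variable {L L₁ L₂ : ℤ} {κ : ℤ → ℝ} {ℓ ℓ₁ ℓ₂ : ℤ} {x x₁ x₂ : ℝ}

theorem gS_eq_gF (v : V) (s : Bool) (ω : JJ V → I) : gS L κ ℓ x v s ω = gF L κ ℓ x (uOf ω) v s (yOf ω) := rfl

namespace RefineAux

/-- Products over given sets of stages. -/
noncomputable def gP (κ : ℤ → ℝ) (S : V → Finset ℤ) (v : V) (s : Bool) (y : Stg V → I) : ℝ :=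
  ∏ i ∈ S v, facY (κ i) s (y (v, i))

lemma gF_eq_gP (L : ℤ) (κ : ℤ → ℝ) (ℓ : ℤ) (x : ℝ) (U : Stg V → I) :
    gF L κ ℓ x U = gP κ (fun v => (Finset.Icc L ℓ).filter (fun i => actS ℓ x i (U (v, i)))) := by
  funext v s y
  unfold gF gP facY
  rw [Finset.prod_filter]

lemma integral_coord (c : Stg V) {f : I → ℝ} (hf : BM f) : ∫ y, f (y c) ∂Lam (Stg V) = ∫ t, f t := by
  have h := integral_resample c (hf.comp (measurable_pi_apply c) : BM (fun y : Stg V → I => f (y c)))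
  rw [← h]
  simp

lemma bm_fac (κ : ℝ) (s : Bool) (c : Stg V) : BM (fun y : Stg V → I => facY κ s (y c)) :=
  (bm_facY κ s).comp (measurable_pi_apply c)

lemma bm_gP (S : V → Finset ℤ) (v : V) (s : Bool) : BM (gP (V := V) κ S v s) :=
  BM.finset_prod _ fun i _ => bm_fac _ _ _

lemma dep_gP (S : V → Finset ℤ) (v : V) (s : Bool) {B : Set (Stg V)} (hB : ∀ i ∈ S v, (v, i) ∈ B) :
    DepS (gP (V := V) κ S v s) B := by
  intro y y' hy
  unfold gP
  refine Finset.prod_congr rfl fun i hi => ?_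
  rw [hy _ (hB i hi)]

lemma mean_gP (S : V → Finset ℤ) (v : V) (s : Bool) : ∫ y, gP κ S v s y ∂Lam (Stg V) = 1 := by
  unfold gP
  rw [integral_prod_indep (S v) (f := fun i y => facY (κ i) s (y (v, i))) (b := fun i => {(v, i)})
    (fun i _ => bm_fac _ _ _) (fun i _ y y' hy => by
      simp only [hy (v, i) (by simp)])
    (fun i _ j _ hij => by
      simp [hij])]
  refine Finset.prod_eq_one fun i _ => ?_
  rw [integral_coord (v, i) (bm_facY _ _), integral_facY]

lemma facY_sigma (κ : ℝ) (s : Bool) (t : I) : facY κ s (σ t) = facY κ (!s) t := by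
  unfold facY
  rw [aY_sigma]
  cases s <;> simp [spin]

theorem exper_gP (hκ : Sched κ) {S : V → Finset ℤ} {N : ℕ} (hN : ∀ v, (S v).card ≤ N) :
    Exper blF Set.univ (gP (V := V) κ S) := by
  refine ⟨⟨(2 / 3 : ℝ) ^ N, by positivity, fun v s y => ?_⟩, fun v s => bm_gP S v s,
    fun v s => dep_gP S v s fun i _ => rfl, ?_, fun v s => mean_gP S v s, ?_⟩
  · have h1 : ∀ i ∈ S v, (2 / 3 : ℝ) ≤ facY (κ i) s (y (v, i)) := fun i _ => by
      have := facY_ge (hκ.pos i).le s (y (v, i))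
      have := hκ.le i
      linarith
    have h2 : (2 / 3 : ℝ) ^ (S v).card ≤ gP κ S v s y := by
      unfold gP
      rw [← Finset.prod_const]
      exact Finset.prod_le_prod (fun _ _ => by norm_num) h1
    exact (pow_le_pow_of_le_one (by norm_num) (by norm_num) (hN v)).trans h2
  · intro v v' hne
    rw [Set.disjoint_left]
    intro c hc hc'
    exact hne (hc.symm.trans hc')
  · intro v s y
    unfold gP
    refine Finset.prod_congr rfl fun i _ => ?_
    have : flipS Set.univ y (v, i) = σ (y (v, i)) := by simp [flipS]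
    rw [this, facY_sigma]

theorem refines_gP (hκ : Sched κ) {S S' : V → Finset ℤ} {N N' : ℕ} (hN : ∀ v, (S v).card ≤ N) (hN' : ∀ v, (S' v).card ≤ N')
    (hSS : ∀ v, S v ⊆ S' v) : Refines blF Set.univ (gP (V := V) κ S) (gP κ S') := by
  refine ⟨exper_gP hκ hN, exper_gP hκ hN', gP κ (fun v => S' v \ S v),
    exper_gP hκ (N := N') (fun v => (Finset.card_le_card Finset.sdiff_subset).trans (hN' v)), ?_, ?_, ?_⟩
  · intro v s y
    unfold gP
    rw [mul_comm]
    exact (Finset.prod_sdiff (hSS v)).symm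
  · intro v s s'
    rw [integral_mul_indep (bm_gP S v s) (bm_gP _ v s')
      (dep_gP (B := {c | c.1 = v ∧ c.2 ∈ S v}) S v s fun i hi => ⟨rfl, hi⟩)
      (dep_gP (B := {c | c.1 = v ∧ c.2 ∉ S v}) _ v s' fun i hi => ⟨rfl, (Finset.mem_sdiff.mp hi).2⟩)
      (by
        rw [Set.disjoint_left]
        intro c hc hc'
        exact hc'.2 hc.2), mean_gP, mean_gP]
    norm_num
  · intro v
    refine ⟨{c | c.1 = v ∧ c.2 ∈ S v}, {c | c.1 = v ∧ c.2 ∉ S v}, ?_,
      fun s => dep_gP S v s fun i hi => ⟨rfl, hi⟩,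
      fun s => dep_gP _ v s fun i hi => ⟨rfl, (Finset.mem_sdiff.mp hi).2⟩⟩
    rw [Set.disjoint_left]
    intro c hc hc'
    exact hc'.2 hc.2

/-- `exper_gS` without restriction on `x`. -/
theorem exper_gS_all (hκ : Sched κ) : Exper (blS (V := V)) flS (gS (V := V) L κ ℓ x) := by
  refine ⟨⟨(2 / 3 : ℝ) ^ (Finset.Icc L ℓ).card, by positivity, fun v s ω => ?_⟩, fun v s => bm_gS hκ v s, ?_, ?_,
    fun v s => ?_, ?_⟩
  · rw [gS_eq, ← Finset.prod_const]
    exact Finset.prod_le_prod (fun _ _ => by norm_num) fun i _ => stF_fac_pos hκ i v s ω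
  · intro v s ω ω' hω
    simp_rw [gS_eq]
    refine Finset.prod_congr rfl fun i _ => ?_
    exact depS_stF _ _ _ ω ω' fun j hj => hω j (stB_sub_blS _ hj)
  · intro v v' hne
    rw [Set.disjoint_left]
    rintro j ⟨i, hi⟩ ⟨i', hi'⟩
    rcases hi with rfl | rfl <;> rcases hi' with hi' | hi' <;> simp_all
  · have hm : Measurable (fun q : (Stg V → I) × (Stg V → I) => (Sum.elim q.1 q.2 : JJ V → I)) := by
      rw [measurable_pi_iff]
      rintro (c | c)
      · exact (measurable_pi_apply c).comp measurable_fst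
      · exact (measurable_pi_apply c).comp measurable_snd
    have hΦ : BM (fun q : (Stg V → I) × (Stg V → I) => gS L κ ℓ x v s (Sum.elim q.1 q.2)) :=
      (bm_gS hκ v s).comp hm
    have h1 : ∫ ω, gS L κ ℓ x v s ω ∂Lam (JJ V) = ∫ q, gS L κ ℓ x v s (Sum.elim q.1 q.2) ∂noiseP V := by
      rw [integral_noiseP hΦ.1]
      refine integral_congr_ae (Filter.Eventually.of_forall fun ω => ?_)
      have : (Sum.elim (uOf ω) (yOf ω) : JJ V → I) = ω := by
        funext j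
        cases j <;> rfl
      simp only [this]
    rw [h1]
    unfold noiseP
    rw [integral_prod _ (hΦ.integrable _)]
    have h2 : ∀ U : Stg V → I, ∫ y, gS L κ ℓ x v s (Sum.elim U y) ∂Lam (Stg V) = 1 := by
      intro U
      have h3 := (exper_gP (V := V) (κ := κ) hκ (S := fun v => (Finset.Icc L ℓ).filter (fun i => actS ℓ x i (U (v, i))))
        (N := (Finset.Icc L ℓ).card) (fun _ => Finset.card_filter_le _ _)).mean v s
      rw [← gF_eq_gP] at h3
      exact h3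
    simp only [h2]
    simp
  · intro v s ω
    simp_rw [gS_eq]
    refine Finset.prod_congr rfl fun i _ => ?_
    unfold stF
    have h1 : flipS flS ω (Sum.inl (v, i)) = ω (Sum.inl (v, i)) := by
      unfold flipS
      rw [if_neg]
      simp [flS]
    have h2 : flipS flS ω (Sum.inr (v, i)) = σ (ω (Sum.inr (v, i))) := by
      unfold flipS
      rw [if_pos]
      simp [flS]
    rw [h1, h2]
    simp only
    congr 1
    exact facY_sigma _ _ _

lemma measurable_elim : Measurable (fun q : (Stg V → I) × (Stg V → I) => (Sum.elim q.1 q.2 : JJ V → I)) := by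
  rw [measurable_pi_iff]
  rintro (c | c)
  · exact (measurable_pi_apply c).comp measurable_fst
  · exact (measurable_pi_apply c).comp measurable_snd

lemma elim_uOf_yOf (ω : JJ V → I) : (Sum.elim (uOf ω) (yOf ω) : JJ V → I) = ω := by
  funext j
  cases j <;> rfl

end RefineAux

open RefineAux

/-- The frozen experiment. -/
theorem exper_gF (hκ : Sched κ) (U : Stg V → I) : Exper blF Set.univ (gF L κ ℓ x U) := by
  rw [gF_eq_gP]
  exact exper_gP hκ (N := (Finset.Icc L ℓ).card) fun _ => Finset.card_filter_le _ _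

/-- The comparison of two states with frozen labels. -/
theorem refines_gF (hκ : Sched κ) (hL : L₂ ≤ L₁) (hℓ : ℓ₁ < ℓ₂ ∨ (ℓ₁ = ℓ₂ ∧ x₁ ≤ x₂)) (hx₁ : x₁ ≤ 1 / 2) (U : Stg V → I) :
    Refines blF Set.univ (gF L₁ κ ℓ₁ x₁ U) (gF L₂ κ ℓ₂ x₂ U) := by
  rw [gF_eq_gP, gF_eq_gP]
  refine refines_gP hκ (N := (Finset.Icc L₁ ℓ₁).card) (N' := (Finset.Icc L₂ ℓ₂).card)
    (fun _ => Finset.card_filter_le _ _) (fun _ => Finset.card_filter_le _ _) ?_
  intro v i hi
  obtain ⟨hi1, hi2⟩ := Finset.mem_filter.mp hi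
  obtain ⟨hi3, hi4⟩ := Finset.mem_Icc.mp hi1
  refine Finset.mem_filter.mpr ⟨Finset.mem_Icc.mpr ⟨hL.trans hi3, ?_⟩, ?_⟩
  · rcases hℓ with h | ⟨h, -⟩
    · omega
    · omega
  · rcases hi2 with ⟨h1, h2⟩ | ⟨h1, h2⟩
    · left
      refine ⟨?_, h2⟩
      rcases hℓ with h | ⟨h, -⟩ <;> omega
    · rcases hℓ with h | ⟨h, h'⟩
      · left
        exact ⟨by omega, lt_of_lt_of_le h2 hx₁⟩
      · right
        exact ⟨by omega, lt_of_lt_of_le h2 h'⟩

variable {G : SimpleGraph V} [G.LocallyFinite] {q : ℕ}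

namespace RefineAux

lemma Zω_bm' {J : Type*} {g : V → Bool → (J → I) → ℝ} (θ : ℝ) (hb : ∀ v s, BM (g v s)) (n : ℕ) (a b : V) (s : Bool) :
    BM (Zω G θ g n a b s) := by
  induction n generalizing a b s with
  | zero => exact hb b s
  | succ n ih =>
    have e : Zω G θ g (n + 1) a b s = fun ω => g b s ω * ∏ d ∈ kids G a b, ∑ s' : Bool, ef θ s s' * Zω G θ g n b d s' ω := rfl
    rw [e]
    refine (hb b s).mul (BM.finset_prod _ (fun d _ => BM.finset_sum _ (fun s' _ => ?_)))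
    exact (BM.const _).mul (ih (a := b) (b := d) (s := s'))

lemma rhoω_bm' {J : Type*} {g : V → Bool → (J → I) → ℝ} (θ : ℝ) (hb : ∀ v s, BM (g v s)) (n : ℕ) (a b : V) :
    BM (rhoω G θ g n a b) := by
  have h := ((Zω_bm' (G := G) θ hb n a b true).add (Zω_bm' (G := G) θ hb n a b false)).mul (BM.const (1 / 2 : ℝ))
  have e : rhoω G θ g n a b = fun ω => (Zω G θ g n a b true ω + Zω G θ g n a b false ω) * (1 / 2) := by
    funext ω
    unfold rhoω
    ring
  rw [e]
  exact h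

/-- The joint function behind `Jt_gS_eq_gF`. -/
lemma bm_joint {θ : ℝ} {n : ℕ} {a b : V} {F : (JJ V → I) → ℝ} (hκ : Sched κ) (hF : BM F) :
    BM (fun q : (Stg V → I) × (Stg V → I) =>
      rhoω G θ (gS L κ ℓ x) n a b (Sum.elim q.1 q.2) * F (Sum.elim q.1 q.2)) :=
  ((rhoω_bm' θ (fun v s => bm_gS hκ v s) n a b).mul hF).comp measurable_elim

lemma Jt_gF_eq {θ : ℝ} {n : ℕ} {a b : V} {F : (JJ V → I) → ℝ} (U : Stg V → I) :
    Jt G θ (gF L κ ℓ x U) n a b (fun y => F (Sum.elim U y)) =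
      ∫ y, rhoω G θ (gS L κ ℓ x) n a b (Sum.elim U y) * F (Sum.elim U y) ∂Lam (Stg V) := rfl

lemma integrable_Jt_gF {θ : ℝ} {n : ℕ} {a b : V} {F : (JJ V → I) → ℝ} (hκ : Sched κ) (hF : BM F) :
    Integrable (fun U => Jt G θ (gF L κ ℓ x U) n a b (fun y => F (Sum.elim U y))) (Lam (Stg V)) := by
  simp_rw [Jt_gF_eq]
  exact ((bm_joint hκ hF).integrable ((Lam (Stg V)).prod (Lam (Stg V)))).integral_prod_left

end RefineAux

/-- Integrating out the labels. -/
theorem Jt_gS_eq_gF {θ : ℝ} {n : ℕ} {a b : V} {F : (JJ V → I) → ℝ} (hκ : Sched κ) (hF : BM F) :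
    Jt G θ (gS L κ ℓ x) n a b F =
      ∫ U, Jt G θ (gF L κ ℓ x U) n a b (fun y => F (Sum.elim U y)) ∂Lam (Stg V) := by
  have hΦ := bm_joint (G := G) (θ := θ) (n := n) (a := a) (b := b) (L := L) (ℓ := ℓ) (x := x) hκ hF
  simp_rw [Jt_gF_eq]
  rw [← integral_prod _ (hΦ.integrable ((Lam (Stg V)).prod (Lam (Stg V))))]
  have h := integral_noiseP hΦ.1
  unfold noiseP at h
  rw [h]
  unfold Jt
  refine integral_congr_ae (Filter.Eventually.of_forall fun ω => ?_)
  simp only [elim_uOf_yOf]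

/-- **Monotonicity of convex functionals of the cavity fields for the stage experiments.** -/
theorem blackwell_gS (hG : RegTree G q) (hκ : Sched κ) {θ θ' : ℝ} (hθ : Adm θ) (hθ' : Adm θ') (hθθ' : θ ≤ θ')
    (hL : L₂ ≤ L₁) (hℓ : ℓ₁ < ℓ₂ ∨ (ℓ₁ = ℓ₂ ∧ x₁ ≤ x₂)) (hx₁ : x₁ ≤ 1 / 2) {n n' : ℕ} (hn : n ≤ n') {ξ : ℝ → ℝ}
    (hξ : ConvexOn ℝ (Icc (-1) 1) ξ) (hξc : ContinuousOn ξ (Icc (-1) 1)) (hξe : ∀ t, ξ (-t) = ξ t) {a b : V} (hab : G.Adj a b) :
    Jt G θ (gS L₁ κ ℓ₁ x₁) n a b (fun ω => ξ (Tω G θ (gS L₁ κ ℓ₁ x₁) n a b ω)) ≤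
      Jt G θ' (gS L₂ κ ℓ₂ x₂) n' a b (fun ω => ξ (Tω G θ' (gS L₂ κ ℓ₂ x₂) n' a b ω)) := by
  have hbm : ∀ {θ₀ : ℝ} {L₀ ℓ₀ : ℤ} {x₀ : ℝ} {n₀ : ℕ}, Adm θ₀ →
      BM (fun ω => ξ (Tω G θ₀ (gS L₀ κ ℓ₀ x₀) n₀ a b ω)) := by
    intro θ₀ L₀ ℓ₀ x₀ n₀ h0
    have hE := exper_gS_all (V := V) (L := L₀) (ℓ := ℓ₀) (x := x₀) hκ
    have hcl : Continuous (fun t => ξ (BW.clampI t)) :=
      hξc.comp_continuous BW.continuous_clampI BW.clampI_mem
    have e : (fun ω => ξ (Tω G θ₀ (gS L₀ κ ℓ₀ x₀) n₀ a b ω)) =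
        fun ω => ξ (BW.clampI (Tω G θ₀ (gS L₀ κ ℓ₀ x₀) n₀ a b ω)) := by
      funext ω
      have := abs_lt.1 (abs_Tω_lt hG h0 hE (n := n₀) hab ω)
      rw [BW.clampI_of_mem ⟨this.1.le, this.2.le⟩]
    rw [e]
    obtain ⟨C, hC⟩ := isCompact_Icc.exists_bound_of_continuousOn hξc
    refine ⟨hcl.measurable.comp (Tω_bm hG h0 hE).1, C, fun ω => ?_⟩
    simpa using hC _ (BW.clampI_mem _)
  rw [Jt_gS_eq_gF hκ (hbm hθ), Jt_gS_eq_gF hκ (hbm hθ')]
  refine integral_mono (integrable_Jt_gF hκ (hbm hθ)) (integrable_Jt_gF hκ (hbm hθ')) fun U => ?_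
  exact blackwell hG hθ hθ' hθθ' (refines_gF hκ hL hℓ hx₁ U) hn hξ hξc hξe hab

end Crest.Agent.Lib.TI
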