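import Crest.Agent.Lib.TI.Compare
import Crest.Agent.Lib.TI.Refine
import Crest.Agent.Lib.TI.MainSched

/-!
# The closure: the Cauchy property of the approximating means (S0241 project, module TI.Main)

Target `θ`, `Adm θ`, `q θ² ≤ 1`. Approximating parameters: `θsq θ n` increases to `θ`, `q (θsq θ n)² < 1`, and the runs start at the cell `-n`:
`mN n ℓ x = mInf (θsq θ n) (-n) kapS ℓ x`. Let `fn n n' ℓ x = E (mN n ℓ x - mN n' ℓ x)²` at a vertex `o`. We show `fn n n' ℓ 0 → 0` as `n, n' → ∞`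
(`cauchy_mN`).

**Rates.** `s ℓ = 2^(min ℓ (-21) / 2) = 3 kapS (min ℓ (-21))`, `ε ℓ = s ℓ / (10⁶ q)`, `K ℓ = ⌈farK (ε ℓ)⌉`, `r ℓ = ρ^(-ℓ)` for `ℓ ≤ -11`, `ρ = 2^(-1/4)`, else `r ℓ = 1`.

**Shell rate**: for `L < ℓ' = min ℓ (-21)`, `s = s ℓ`: `τp = tauP L κ ℓ' ≤ (9/32) s²`, `τm = tauM L κ ℓ' 0 ≥ s²/108`. `n₁ + 1 = ⌊1/(25 s)⌋` satisfies the conditions of `energy_lower`.
Let `γ = 1 - q θ²`. If `γ ≥ s/100`: `A = 0`, `n₁ = 0`. Else `∑_{i<n₁} (1 - γ)^i ≥ n₁ (1 - n₁ γ) ≥ 0.99 n₁`, so with `t = s²/108`, `A = (t/2) (0.99 n₁ - 1) ≥ t n₁ / 4 ≥ s / 11232`;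
`θ² ≥ 1/(2q)` so `varpi θ A ≥ (1/2) (0.29) (1/(2q)) A / 2 = 0.036 A / q`, and `q θ² (1 - varpi) ≤ 1 - (1/2) 0.036 A / q ≤ 1 - s/(10⁶ q)`.
For `m ≥ n₁`, `energy_mono_depth`; from the state `(ℓ', 0)` to the state `(ℓ, x)`, `blackwell_gS` with `ξ t = t²`.

**Cell inequality.** `compare` (with `ϑ = θ`) and `incr_inf` with `B x = C τ (Λ fn(x) + (K²+1) e^(-p/2) + (K³+√p+1) dθ² + K³ ζ(x)²)`, `Λ = K + K² min(36 r p, 1) + 1 + √p`, and `gron` on `[0, 1/2]`;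
then `fn n n' (ℓ + 1) 0 = fn n n' ℓ (1/2)` (`Act_half`). Here `ζ n n' x = g n x - g n' x`, `g n x = E lhat θ (cavM (θsq θ n) (mN n ℓ x) a b)` is monotone in `n` by `mean_mono` and bounded, so convergent for each `x`, and `∫ ζ² → 0` by dominated convergence; also `dθ → 0`.

**Closure.** With `D ℓ = limsup fn n n' ℓ 0`: `D (ℓ + 1) ≤ (D ℓ + E ℓ e^(-p/2)) exp (α ℓ + β ℓ p)`; with `τ = tauK (kapS ℓ) ≤ 2^ℓ/18`. `√p ≤ 1 + p` and `min(36 r p, 1) ≤ 36 r p` give for `ℓ ≤ ℓ₂`: `α = 2 C τ (K + 2)`, `β = 72 C τ K² r + 2 C τ` (`≤ 1/4`, summable with weights since `K² ~ n² 2^n`, `τ ~ 2^(-n)`, `r = ρ^n`);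
for `ℓ > ℓ₂`: `min ≤ 1`, `2 C τ √p ≤ 8 C² τ² + p / 8`: `α = 2 C τ (K + 1 + K²) + 8 C² τ²`, `β = 1/8`. `D ℓ ≤ 4000 r ℓ → 0` by `second_moment_inf`. `closure` gives `D ≡ 0`.
-/

set_option autoImplicit false

namespace Crest.Agent.Lib.TI

open MeasureTheory Set Classical Filter Topology
open scoped unitInterval
open Crest.Agent.Lib.FiidChannel Crest.Agent.Lib.FiidPlanted

variable {V : Type*} {G : SimpleGraph V} [G.LocallyFinite] {q : ℕ} {θ : ℝ}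

/-- The approximating means. -/
noncomputable def mN (G : SimpleGraph V) [G.LocallyFinite] (θ : ℝ) (n : ℕ) (ℓ : ℤ) (x : ℝ) (ξ : Nz V) (v : V) : ℝ :=
  mInf G (θsq θ n) (-(n : ℤ)) kapS ℓ x ξ v

/-- The squared distance of two approximating means. -/
noncomputable def fn (G : SimpleGraph V) [G.LocallyFinite] (θ : ℝ) (o : V) (n n' : ℕ) (ℓ : ℤ) (x : ℝ) : ℝ :=
  ∫ ξ, (mN G θ n ℓ x ξ o - mN G θ n' ℓ x ξ o) ^ 2 ∂noiseP V

/-- The difference of the parameters. -/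
noncomputable def dθ2 (θ : ℝ) (n n' : ℕ) : ℝ := (θsq θ n - θsq θ n') ^ 2 + (θsq θ n - θ) ^ 2 + (θsq θ n' - θ) ^ 2

/-- The means of `lhat` of the cavity fields. -/
noncomputable def gN (G : SimpleGraph V) [G.LocallyFinite] (θ : ℝ) (a b : V) (n : ℕ) (ℓ : ℤ) (x : ℝ) : ℝ :=
  ∫ ξ, lhat θ (cavM (θsq θ n) (mN G θ n ℓ x ξ) a b) ∂noiseP V

/-! ### The rates -/

section rates

/-- **The arithmetic of the shell rate**, see the file docstring. -/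
theorem shell_arith (hq : 2 ≤ q) {θ s : ℝ} (hθ : Adm θ) (hqθ : (q : ℝ) * θ ^ 2 ≤ 1) (hs0 : 0 < s) (hs : s ≤ 1 / 1300) :
    ∃ (n₁ : ℕ) (A : ℝ), 0 ≤ A ∧ ((n₁ : ℝ) + 1) * ((9 / 32) * s ^ 2) ≤ 1 ∧
      36 * (((n₁ : ℝ) + 1) * ((9 / 32) * s ^ 2)) ^ 2 ≤ (s ^ 2 / 108) / 2 ∧
      (A = 0 ∨ A ≤ (s ^ 2 / 108) / 2 * ∑ i ∈ Finset.range n₁, ((q : ℝ) * θ ^ 2) ^ i - (s ^ 2 / 108) / 2) ∧
      (q : ℝ) * θ ^ 2 * (1 - varpi θ A) ≤ 1 - s / (1000000 * q) := by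
  have hq2 : (2 : ℝ) ≤ q := by exact_mod_cast hq
  have hq0 : (0 : ℝ) < q := by linarith
  set y : ℝ := (q : ℝ) * θ ^ 2 with hy
  have hy1 : y ≤ 1 := hqθ
  have hy0 : 0 ≤ y := by positivity
  have hsq : s / (1000000 * q) ≤ s / 100 := by
    apply div_le_div_of_nonneg_left hs0.le (by norm_num)
    nlinarith
  by_cases hγ : s / 100 ≤ 1 - y
  · refine ⟨0, 0, le_rfl, ?_, ?_, Or.inl rfl, ?_⟩
    · have : s ^ 2 ≤ 1 := by nlinarith
      simp only [Nat.cast_zero, zero_add, one_mul]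
      nlinarith
    · have h1 : s ^ 2 ≤ (1 / 1300) ^ 2 := by nlinarith
      simp only [Nat.cast_zero, zero_add, one_mul]
      have h2 : 0 ≤ s ^ 2 := by positivity
      nlinarith
    · have : varpi θ 0 = 0 := by simp [varpi]
      rw [this]
      linarith
  · push Not at hγ
    -- the depth
    have hinv : (52 : ℝ) ≤ 1 / (25 * s) := by
      rw [le_div_iff₀ (by positivity)]
      linarith
    set N : ℕ := ⌊1 / (25 * s)⌋₊ with hN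
    have hN1 : (N : ℝ) ≤ 1 / (25 * s) := Nat.floor_le (by positivity)
    have hN2 : 1 / (25 * s) < (N : ℝ) + 1 := Nat.lt_floor_add_one _
    have hN52 : 52 ≤ N := by
      apply Nat.le_floor
      push_cast
      exact hinv
    obtain ⟨n₁, hn₁⟩ : ∃ n₁, N = n₁ + 1 := ⟨N - 1, by omega⟩
    have hn51 : (51 : ℝ) ≤ n₁ := by
      have : 51 ≤ n₁ := by omega
      exact_mod_cast this
    rw [hn₁] at hN1 hN2
    push_cast at hN1 hN2
    have hus : ((n₁ : ℝ) + 1) * s ≤ 1 / 25 := by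
      rw [le_div_iff₀ (by positivity)] at hN1
      nlinarith
    have hus2 : 1 / 25 < ((n₁ : ℝ) + 1 + 1) * s := by
      rw [div_lt_iff₀ (by positivity)] at hN2
      nlinarith
    have hn1s : 1 / 26 ≤ (n₁ : ℝ) * s := by nlinarith
    have hn10 : (0 : ℝ) ≤ n₁ := by positivity
    have hs2 : 0 ≤ s ^ 2 := by positivity
    -- the sum
    have hsum : 0.99 * (n₁ : ℝ) ≤ ∑ i ∈ Finset.range n₁, y ^ i := by
      have hterm : ∀ i ∈ Finset.range n₁, (0.99 : ℝ) ≤ y ^ i := by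
        intro i hi
        have hi' : (i : ℝ) ≤ n₁ := by
          exact_mod_cast (Finset.mem_range.1 hi).le
        have hb := one_add_mul_le_pow (a := y - 1) (by linarith) i
        have he : 1 + (y - 1) = y := by ring
        rw [he] at hb
        have h1 : (i : ℝ) * (1 - y) ≤ n₁ * (s / 100) := by
          apply mul_le_mul hi' hγ.le (by linarith) hn10
        have h2 : (n₁ : ℝ) * (s / 100) ≤ 1 / 2500 := by nlinarith
        nlinarith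
      have := Finset.card_nsmul_le_sum (Finset.range n₁) (fun i => y ^ i) (0.99 : ℝ) hterm
      simp only [Finset.card_range, nsmul_eq_mul] at this
      linarith
    set t : ℝ := s ^ 2 / 108 with ht
    have ht0 : 0 ≤ t := by positivity
    set A : ℝ := t / 2 * (0.99 * (n₁ : ℝ) - 1) with hA
    have hAlow : s / 11232 ≤ A := by
      have h1 : (n₁ : ℝ) / 2 ≤ 0.99 * (n₁ : ℝ) - 1 := by
        norm_num
        linarith
      have h2 : t / 2 * ((n₁ : ℝ) / 2) ≤ A := by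
        rw [hA]
        exact mul_le_mul_of_nonneg_left h1 (by positivity)
      have h3 : s / 11232 ≤ t / 2 * ((n₁ : ℝ) / 2) := by
        rw [ht]
        have : s * (1 / 26) ≤ s * ((n₁ : ℝ) * s) := mul_le_mul_of_nonneg_left hn1s hs0.le
        nlinarith
      linarith
    have hA0 : 0 ≤ A := le_trans (by positivity) hAlow
    refine ⟨n₁, A, hA0, ?_, ?_, Or.inr ?_, ?_⟩
    · nlinarith
    · -- `((n₁ + 1) * (9/32 * s²))² = (9/32)² * ((n₁+1) s)² * s²`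
      have h1 : (((n₁ : ℝ) + 1) * s) ^ 2 ≤ (1 / 25) ^ 2 := by
        apply pow_le_pow_left₀ (by positivity) hus
      have h2 : 36 * (((n₁ : ℝ) + 1) * ((9 / 32) * s ^ 2)) ^ 2 = 36 * (9 / 32) ^ 2 * (((n₁ : ℝ) + 1) * s) ^ 2 * s ^ 2 := by ring
      rw [h2]
      have h3 : 36 * (9 / 32 : ℝ) ^ 2 * (((n₁ : ℝ) + 1) * s) ^ 2 ≤ 1 / 216 := by
        nlinarith
      have h4 := mul_le_mul_of_nonneg_right h3 hs2
      rw [ht]
      linarith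
    · rw [hA]
      have := mul_le_mul_of_nonneg_left hsum (show 0 ≤ t / 2 by positivity)
      nlinarith
    · -- the attenuation
      have hy12 : 1 / 2 ≤ y := by linarith
      have hθ1 : (1 / 2 : ℝ) ≤ 1 - θ ^ 2 := by linarith [hθ.sq_le]
      have hθ2 : (0.29 : ℝ) ≤ 1 - θ := by
        have := hθ.sq_le
        have h0 := hθ.nonneg
        norm_num at this ⊢
        nlinarith
      have hθ3 : 1 / (2 * (q : ℝ)) ≤ θ ^ 2 := by
        rw [div_le_iff₀ (by positivity)]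
        nlinarith
      have hv : 0.29 * s / (8 * 11232 * q) ≤ varpi θ A := by
        have h1 : (1 / 2 : ℝ) * 0.29 ≤ (1 - θ ^ 2) * (1 - θ) :=
          mul_le_mul hθ1 hθ2 (by norm_num) (by linarith)
        have h2 : (1 / 2 : ℝ) * 0.29 * (1 / (2 * (q : ℝ))) ≤ (1 - θ ^ 2) * (1 - θ) * θ ^ 2 :=
          mul_le_mul h1 hθ3 (by positivity) (by nlinarith)
        have h3 : (1 / 2 : ℝ) * 0.29 * (1 / (2 * (q : ℝ))) * (s / 11232) ≤ (1 - θ ^ 2) * (1 - θ) * θ ^ 2 * A :=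
          mul_le_mul h2 hAlow (by positivity) (le_trans (by positivity) h2)
        have h4 : 0.29 * s / (8 * 11232 * q) = (1 / 2 : ℝ) * 0.29 * (1 / (2 * (q : ℝ))) * (s / 11232) / 2 := by
          field_simp
          ring
        rw [h4, varpi]
        linarith
      have hcomp : s / (1000000 * q) ≤ (1 / 2) * (0.29 * s / (8 * 11232 * q)) := by
        have : (1 / 2) * (0.29 * s / (8 * 11232 * q)) = (1 / 2 * 0.29 / (8 * 11232)) * (s / q) := by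
          field_simp
        rw [this]
        have h5 : s / (1000000 * q) = (1 / 1000000) * (s / q) := by
          field_simp
        rw [h5]
        apply mul_le_mul_of_nonneg_right (by norm_num) (by positivity)
      have hv0 : 0 ≤ varpi θ A := le_trans (by positivity) hv
      nlinarith

/-- `ExpBd` is monotone in the bounds. -/
theorem ExpBd.mono {J : Type*} {g : V → Bool → (J → I) → ℝ} {τp τm τp' τm' : ℝ} (h : ExpBd g τp τm) (hp : τp ≤ τp') (hm : τm' ≤ τm) :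
    ExpBd g τp' τm' := by
  refine ⟨fun v κ hκ => (h.mgf v κ hκ).trans (Real.exp_le_exp.2 ?_), fun v => hm.trans (h.info v), fun v => (h.hell v).trans (Real.exp_le_exp.2 (by linarith))⟩
  have : 0 ≤ κ ^ 2 - 1 := by nlinarith
  have := mul_le_mul_of_nonneg_right hp this
  linarith

/-- **The energy bound of the shells for the schedule.** -/
theorem shell_rate (hG : RegTree G q) (hq : 2 ≤ q) (hθ : Adm θ) (hqθ : (q : ℝ) * θ ^ 2 ≤ 1) {L ℓ : ℤ} (hL : L < min ℓ (-21))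
    {x : ℝ} (hx0 : 0 ≤ x) (hx : x ≤ 1 / 2) :
    ∃ (n₁ : ℕ) (A : ℝ), 0 ≤ A ∧
      (∀ a b, G.Adj a b → ∀ m, n₁ ≤ m → A ≤ Jt G θ (gS L kapS ℓ x) m a b (fun ω => Tω G θ (gS L kapS ℓ x) m a b ω ^ 2)) ∧
      (q : ℝ) * θ ^ 2 * (1 - varpi θ A) ≤ 1 - epsR q ℓ := by
  obtain ⟨n₁, A, hA0, h1, h2, h3, h4⟩ := shell_arith hq hθ hqθ (sR_pos ℓ) (sR_le ℓ)
  refine ⟨n₁, A, hA0, ?_, h4⟩
  intro a b hab m hm
  have hκ := sched_kapS
  have hE₀ : Exper (blS (V := V)) flS (gS (V := V) L kapS (min ℓ (-21)) 0) :=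
    exper_gS hκ le_rfl (by norm_num)
  have hE : Exper (blS (V := V)) flS (gS (V := V) L kapS ℓ x) := exper_gS hκ hx0 hx
  have hsq := sR_sq ℓ
  have hℓ21 : min ℓ (-21) ≤ -21 := min_le_right _ _
  have hs2 : 0 ≤ sR ℓ ^ 2 := by positivity
  -- the bounds on the experiment
  have hB₀ : ExpBd (gS (V := V) L kapS (min ℓ (-21)) 0) ((9 / 32) * sR ℓ ^ 2) (sR ℓ ^ 2 / 108 : ℝ) := by
    refine (expBd_gS hκ le_rfl (by norm_num) hL.le).mono ?_ ?_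
    · rw [hsq]
      exact tauP_kapS_le L (by omega)
    · have h := tauM_kapS_ge (x := 0) hL le_rfl
      rw [kapS_sq] at h
      refine le_trans (le_of_eq ?_) h
      have he : (-(min ℓ (-21) - 1)).toNat = (-(min ℓ (-21))).toNat + 1 := by omega
      rw [he, hsq, pow_succ]
      ring
  have hlow := energy_lower hG hθ hqθ hE₀ hB₀ (by positivity) (by positivity) hab h1 h2
  -- monotonicity in the depth and the state
  have hmono : Jt G θ (gS L kapS (min ℓ (-21)) 0) n₁ a b (fun ω => Tω G θ (gS L kapS (min ℓ (-21)) 0) n₁ a b ω ^ 2) ≤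
      Jt G θ (gS L kapS ℓ x) m a b (fun ω => Tω G θ (gS L kapS ℓ x) m a b ω ^ 2) := by
    refine blackwell_gS (ξ := fun t => t ^ 2) hG hκ hθ hθ le_rfl le_rfl ?_ (by norm_num) hm
      ((even_two.convexOn_pow).subset (subset_univ _) (convex_Icc _ _)) (by fun_prop) (fun t => by ring) hab
    rcases (min_le_left ℓ (-21)).lt_or_eq with h | h
    · exact Or.inl h
    · exact Or.inr ⟨h, hx0⟩
  rcases h3 with h3 | h3
  · rw [h3]
    refine integral_nonneg fun ω => ?_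
    exact mul_nonneg (MgfAux.rhoω_pos hG hθ hE hab ω).le (by positivity)
  · exact (h3.trans hlow).trans hmono

private lemma rates_u_facts : 0 < Real.sqrt (1 / 2) ∧ Real.sqrt (1 / 2) < 1 ∧ Real.sqrt (1 / 2) ^ 2 = 1 / 2 := by
  refine ⟨Real.sqrt_pos.mpr (by norm_num), ?_, Real.sq_sqrt (by norm_num)⟩
  rw [Real.sqrt_lt' (by norm_num)]; norm_num

private lemma rates_rho_facts : 0 < Real.sqrt (Real.sqrt (1 / 2)) ∧ Real.sqrt (Real.sqrt (1 / 2)) < 1 ∧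
    Real.sqrt (Real.sqrt (1 / 2)) ^ 2 = Real.sqrt (1 / 2) := by
  obtain ⟨hu0, hu1, _⟩ := rates_u_facts
  refine ⟨Real.sqrt_pos.mpr hu0, ?_, Real.sq_sqrt hu0.le⟩
  rw [Real.sqrt_lt' (by norm_num)]; nlinarith

private lemma rates_neg_log_u : 0 ≤ -Real.log (Real.sqrt (1 / 2)) ∧ -Real.log (Real.sqrt (1 / 2)) ≤ 1 := by
  obtain ⟨hu0, hu1, hu2⟩ := rates_u_facts
  have h2 : Real.log (Real.sqrt (1 / 2) ^ 2) = 2 * Real.log (Real.sqrt (1 / 2)) := by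
    rw [Real.log_pow]; norm_num
  rw [hu2] at h2
  have h3 : Real.log (1 / 2 : ℝ) = -Real.log 2 := by
    rw [one_div, Real.log_inv]
  have h4 := Real.log_two_lt_d9
  have h5 : 0 < Real.log 2 := Real.log_pos (by norm_num)
  constructor <;> linarith

/-- Arithmetic of the bound on the near range. -/
private lemma rates_far_aux {Q L N : ℝ} (hQ : 0 ≤ Q) (hL : 0 ≤ L) (hN : 1 ≤ N) :
    64 * (1 + (L + N)) * Q + 1 ≤ (64 * Q * (2 + L) + 1) * N := by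
  have h7 : (1 + (L + N)) ≤ (2 + L) * N := by nlinarith
  have h8 : 0 ≤ 64 * Q := by positivity
  have h9 := mul_le_mul_of_nonneg_left h7 h8
  have h10 : (1 : ℝ) ≤ N := hN
  linarith

/-- The bound on the near range: `K u^n ≤ c n`. -/
private lemma Kr_mul_le (hq : 2 ≤ q) {n : ℕ} (hn : 21 ≤ n) :
    (Kr q (-(n : ℤ)) : ℝ) * Real.sqrt (1 / 2) ^ n ≤
      (64 * (1000000 * q) * (2 + Real.log (1000000 * q)) + 1) * n := by
  obtain ⟨hu0, hu1, hu2⟩ := rates_u_facts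
  obtain ⟨hlogu0, hlogu⟩ := rates_neg_log_u
  set u := Real.sqrt (1 / 2) with hu
  have hq0 : (0 : ℝ) < q := by exact_mod_cast (by omega : 0 < q)
  have hQ0 : (0 : ℝ) < 1000000 * q := by positivity
  have hQ1 : (1 : ℝ) ≤ 1000000 * q := by
    have : (2 : ℝ) ≤ q := by exact_mod_cast hq
    linarith
  set L := Real.log (1000000 * (q : ℝ)) with hL
  have hL0 : 0 ≤ L := Real.log_nonneg hQ1
  have hun : 0 < u ^ n := pow_pos hu0 n
  have hmin : min (-(n : ℤ)) (-21) = -(n : ℤ) := by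
    apply min_eq_left; omega
  have hs : sR (-(n : ℤ)) = u ^ n := by
    unfold sR kapS
    rw [hmin]
    have : (-(-(n : ℤ))).toNat = n := by simp
    rw [this]; ring
  have he : epsR q (-(n : ℤ)) = u ^ n / (1000000 * q) := by
    unfold epsR; rw [hs]
  have he0 : 0 < epsR q (-(n : ℤ)) := by rw [he]; positivity
  have hinv : 1 / epsR q (-(n : ℤ)) = (1000000 * q) / u ^ n := by
    rw [he]; field_simp
  have hn0 : (0 : ℝ) ≤ n := by positivity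
  have hlog : Real.log (1 / epsR q (-(n : ℤ))) ≤ L + n := by
    rw [hinv, Real.log_div hQ0.ne' hun.ne', Real.log_pow]
    have h : (n : ℝ) * (-Real.log u) ≤ n * 1 := mul_le_mul_of_nonneg_left hlogu hn0
    linarith
  have hfar : farK (epsR q (-(n : ℤ))) * u ^ n ≤ 64 * (1 + (L + n)) * (1000000 * q) := by
    unfold farK
    rw [he]
    have : 64 * (1 + Real.log (1 / (u ^ n / (1000000 * q)))) / (u ^ n / (1000000 * q)) * u ^ n =
        64 * (1 + Real.log (1 / (u ^ n / (1000000 * q)))) * (1000000 * q) := by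
      field_simp
    rw [this]
    rw [he] at hlog
    have h6 : 0 ≤ (1000000 * (q : ℝ)) := hQ0.le
    have : 64 * (1 + Real.log (1 / (u ^ n / (1000000 * q)))) ≤ 64 * (1 + (L + n)) := by linarith
    exact mul_le_mul_of_nonneg_right this h6
  have hun1 : u ^ n ≤ 1 := pow_le_one₀ hu0.le hu1.le
  have hfar0 : 0 ≤ farK (epsR q (-(n : ℤ))) := by
    unfold farK
    have : 0 ≤ Real.log (1 / epsR q (-(n : ℤ))) := by
      apply Real.log_nonneg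
      rw [hinv, le_div_iff₀ hun]
      linarith
    positivity
  have hceil : (Kr q (-(n : ℤ)) : ℝ) ≤ farK (epsR q (-(n : ℤ))) + 1 := by
    unfold Kr
    exact (Nat.ceil_lt_add_one hfar0).le
  have hn1 : (1 : ℝ) ≤ n := by
    have : 1 ≤ n := by omega
    exact_mod_cast this
  calc (Kr q (-(n : ℤ)) : ℝ) * u ^ n ≤ (farK (epsR q (-(n : ℤ))) + 1) * u ^ n :=
        mul_le_mul_of_nonneg_right hceil hun.le
    _ = farK (epsR q (-(n : ℤ))) * u ^ n + u ^ n := by ring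
    _ ≤ 64 * (1 + (L + n)) * (1000000 * q) + 1 := by linarith
    _ ≤ (64 * (1000000 * q) * (2 + L) + 1) * n := rates_far_aux hQ0.le hL0 hn1

/-- The inequality of the rates, early cells. -/
private lemma rates_early {C τ K r p : ℝ} (hC : 0 ≤ C) (hτ : 0 ≤ τ) (hK : 0 ≤ K) (hr : 0 ≤ r) (hp : 1 ≤ p) :
    2 * (C * τ * (K + K ^ 2 * min (36 * r * p) 1 + 1 + Real.sqrt p)) ≤
      2 * C * τ * (K + 2) + (72 * C * τ * K ^ 2 * r + 2 * C * τ) * p := by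
  have hp0 : 0 ≤ p := by linarith
  have hsqrt : Real.sqrt p ≤ p := by
    rw [Real.sqrt_le_left hp0]
    nlinarith
  have h4 : min (36 * r * p) 1 ≤ 36 * r * p := min_le_left _ _
  have h5 : K ^ 2 * min (36 * r * p) 1 ≤ K ^ 2 * (36 * r * p) :=
    mul_le_mul_of_nonneg_left h4 (by positivity)
  have h6 : K + K ^ 2 * min (36 * r * p) 1 + 1 + Real.sqrt p ≤ K + K ^ 2 * (36 * r * p) + 1 + p := by linarith
  have h7 : 0 ≤ 2 * (C * τ) := by positivity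
  have h8 := mul_le_mul_of_nonneg_left h6 h7
  have h9 : 2 * (C * τ) * (K + K ^ 2 * (36 * r * p) + 1 + p) ≤ 2 * C * τ * (K + 2) + (72 * C * τ * K ^ 2 * r + 2 * C * τ) * p := by
    have e : 2 * C * τ * (K + 2) + (72 * C * τ * K ^ 2 * r + 2 * C * τ) * p - 2 * (C * τ) * (K + K ^ 2 * (36 * r * p) + 1 + p) = 2 * (C * τ) := by ring
    have : 0 ≤ 2 * (C * τ) := h7
    linarith
  calc _ = 2 * (C * τ) * (K + K ^ 2 * min (36 * r * p) 1 + 1 + Real.sqrt p) := by ring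
    _ ≤ _ := h8.trans h9

/-- The inequality of the rates, late cells. -/
private lemma rates_late {C τ K r p : ℝ} (hC : 0 ≤ C) (hτ : 0 ≤ τ) (hK : 0 ≤ K) (hp : 1 ≤ p) :
    2 * (C * τ * (K + K ^ 2 * min (36 * r * p) 1 + 1 + Real.sqrt p)) ≤
      (2 * C * τ * (K + 1 + K ^ 2) + 8 * C ^ 2 * τ ^ 2) + 1 / 8 * p := by
  have hp0 : 0 ≤ p := by linarith
  have h4 : min (36 * r * p) 1 ≤ 1 := min_le_right _ _
  have h5 : K ^ 2 * min (36 * r * p) 1 ≤ K ^ 2 := by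
    have := mul_le_mul_of_nonneg_left h4 (by positivity : 0 ≤ K ^ 2)
    linarith
  have h6 : K + K ^ 2 * min (36 * r * p) 1 + 1 + Real.sqrt p ≤ K + K ^ 2 + 1 + Real.sqrt p := by linarith
  have h7 : 0 ≤ 2 * (C * τ) := by positivity
  have h8 := mul_le_mul_of_nonneg_left h6 h7
  have hsq : Real.sqrt p ^ 2 = p := Real.sq_sqrt hp0
  have h9 : 16 * (C * τ) * Real.sqrt p ≤ 64 * (C * τ) ^ 2 + Real.sqrt p ^ 2 := by
    have := sq_nonneg (8 * (C * τ) - Real.sqrt p)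
    have e : (8 * (C * τ) - Real.sqrt p) ^ 2 = 64 * (C * τ) ^ 2 + Real.sqrt p ^ 2 - 16 * (C * τ) * Real.sqrt p := by ring
    linarith
  rw [hsq] at h9
  have e1 : 2 * (C * τ) * (K + K ^ 2 + 1 + Real.sqrt p) = 2 * C * τ * (K + 1 + K ^ 2) + (16 * (C * τ) * Real.sqrt p) / 8 := by ring
  have e2 : 8 * C ^ 2 * τ ^ 2 = 64 * (C * τ) ^ 2 / 8 := by ring
  calc _ = 2 * (C * τ) * (K + K ^ 2 * min (36 * r * p) 1 + 1 + Real.sqrt p) := by ring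
    _ ≤ 2 * (C * τ) * (K + K ^ 2 + 1 + Real.sqrt p) := h8
    _ ≤ _ := by rw [e1, e2]; linarith

/-- The majorant of the weights for `β`. `x = ρ^n`, `N = n`. -/
private lemma rates_maj {C τ K r x N c : ℝ} (hC : 0 < C) (hτ : 0 ≤ τ) (hK : 0 ≤ K) (hx0 : 0 < x) (hx1 : x ≤ 1) (hN : 1 ≤ N) (hc : 0 ≤ c)
    (hτle : τ ≤ (1 / 18) * (x ^ 2) ^ 2) (hKu : K * x ^ 2 ≤ c * N) (hr : r = x) :
    (72 * C * τ * K ^ 2 * r + 2 * C * τ) * (1 + N + Real.log (1 + C * τ * (K ^ 2 + 1))) ≤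
      (4 * C * c ^ 2 + C / 9) * (2 + C / 18 * (c ^ 2 + 1)) * (N ^ 4 * x) := by
  rw [hr]
  have hN0 : 0 ≤ N := by linarith
  have hN2 : (1 : ℝ) ≤ N ^ 2 := one_le_pow₀ hN
  have hNN : N ≤ N ^ 2 := by nlinarith
  -- τ K²
  have h1 : τ * K ^ 2 ≤ (1 / 18) * (c * N) ^ 2 := by
    have h5 : (K * x ^ 2) ^ 2 ≤ (c * N) ^ 2 :=
      pow_le_pow_left₀ (by positivity) hKu 2
    calc τ * K ^ 2 ≤ ((1 / 18) * (x ^ 2) ^ 2) * K ^ 2 := mul_le_mul_of_nonneg_right hτle (by positivity)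
      _ = (1 / 18) * (K * x ^ 2) ^ 2 := by ring
      _ ≤ _ := by linarith
  have hx4 : (x ^ 2) ^ 2 ≤ x := by
    have h : x ^ 3 ≤ 1 := pow_le_one₀ hx0.le hx1
    have e : (x ^ 2) ^ 2 = x * x ^ 3 := by ring
    rw [e]
    have := mul_le_mul_of_nonneg_left h hx0.le
    linarith
  have hx4' : (x ^ 2) ^ 2 ≤ 1 := hx4.trans hx1
  have hb : 72 * C * τ * K ^ 2 * x + 2 * C * τ ≤ (4 * C * c ^ 2 + C / 9) * (N ^ 2 * x) := by
    have h5 : 72 * C * x * (τ * K ^ 2) ≤ 72 * C * x * ((1 / 18) * (c * N) ^ 2) :=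
      mul_le_mul_of_nonneg_left h1 (by positivity)
    have h6 : τ ≤ (1 / 18) * x := by linarith
    have h7 : 2 * C * τ ≤ 2 * C * ((1 / 18) * x) := mul_le_mul_of_nonneg_left h6 (by positivity)
    have h8 : x ≤ N ^ 2 * x := by
      have := mul_le_mul_of_nonneg_right hN2 hx0.le
      linarith
    have h9 : C / 9 * x ≤ C / 9 * (N ^ 2 * x) := mul_le_mul_of_nonneg_left h8 (by positivity)
    have e1 : 72 * C * τ * K ^ 2 * x = 72 * C * x * (τ * K ^ 2) := by ring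
    have e2 : 72 * C * x * ((1 / 18) * (c * N) ^ 2) = 4 * C * c ^ 2 * (N ^ 2 * x) := by ring
    have e3 : (4 * C * c ^ 2 + C / 9) * (N ^ 2 * x) = 4 * C * c ^ 2 * (N ^ 2 * x) + C / 9 * (N ^ 2 * x) := by ring
    have e4 : 2 * C * ((1 / 18) * x) = C / 9 * x := by ring
    rw [e1, e3]
    rw [e2] at h5
    rw [e4] at h7
    linarith
  set E := C * τ * (K ^ 2 + 1) with hE
  have hE0 : 0 ≤ E := by positivity
  have hEle : E ≤ C / 18 * (c ^ 2 + 1) * N ^ 2 := by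
    have e : E = C * (τ * K ^ 2) + C * τ := by rw [hE]; ring
    have h5 : τ ≤ 1 / 18 := by linarith
    have h7 : C * (τ * K ^ 2) ≤ C * ((1 / 18) * (c * N) ^ 2) := mul_le_mul_of_nonneg_left h1 hC.le
    have h8 : C * τ ≤ C * (1 / 18) := mul_le_mul_of_nonneg_left h5 hC.le
    have h10 : C * (1 / 18) ≤ C * (1 / 18) * N ^ 2 := by
      have h : 0 ≤ C * (1 / 18) := by positivity
      have := mul_le_mul_of_nonneg_left hN2 h
      linarith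
    have h11 : C / 18 * (c ^ 2 + 1) * N ^ 2 = C * ((1 / 18) * (c * N) ^ 2) + C * (1 / 18) * N ^ 2 := by ring
    rw [h11, e]; linarith
  have hlog : Real.log (1 + E) ≤ E := by
    have := Real.log_le_sub_one_of_pos (by linarith : 0 < 1 + E)
    linarith
  have hlog0 : 0 ≤ Real.log (1 + E) := Real.log_nonneg (by linarith)
  have hw : 1 + N + Real.log (1 + E) ≤ (2 + C / 18 * (c ^ 2 + 1)) * N ^ 2 := by
    have e : (2 + C / 18 * (c ^ 2 + 1)) * N ^ 2 = 2 * N ^ 2 + C / 18 * (c ^ 2 + 1) * N ^ 2 := by ring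
    rw [e]; linarith
  have hw0 : 0 ≤ 1 + N + Real.log (1 + E) := by positivity
  calc _ ≤ ((4 * C * c ^ 2 + C / 9) * (N ^ 2 * x)) * ((2 + C / 18 * (c ^ 2 + 1)) * N ^ 2) :=
        mul_le_mul hb hw hw0 (by positivity)
    _ = _ := by ring

/-- The majorant of `α`, early cells. `x = u^n`. -/
private lemma rates_maj_alpha {C τ K x N c : ℝ} (hC : 0 < C) (hτ : 0 ≤ τ) (hK : 0 ≤ K) (hx0 : 0 < x) (hx1 : x ≤ 1) (hN : 1 ≤ N) (hc : 0 ≤ c)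
    (hτle : τ ≤ (1 / 18) * x ^ 2) (hKu : K * x ≤ c * N) :
    2 * C * τ * (K + 2) ≤ (C / 9 * (c + 2)) * (N ^ 1 * x) := by
  have h6 : τ * (K + 2) ≤ ((1 / 18) * x ^ 2) * (K + 2) :=
    mul_le_mul_of_nonneg_right hτle (by positivity)
  have h7 : (1 / 18) * x ^ 2 * (K + 2) = (1 / 18) * x * (K * x + 2 * x) := by ring
  have h8 : K * x + 2 * x ≤ (c + 2) * N := by
    have e : (c + 2) * N = c * N + 2 * N := by ring
    rw [e]; linarith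
  have h9 : (1 / 18) * x * (K * x + 2 * x) ≤ (1 / 18) * x * ((c + 2) * N) :=
    mul_le_mul_of_nonneg_left h8 (by positivity)
  have h10 : τ * (K + 2) ≤ (1 / 18) * x * ((c + 2) * N) := by linarith
  have h11 := mul_le_mul_of_nonneg_left h10 (by positivity : 0 ≤ 2 * C)
  calc _ = 2 * C * (τ * (K + 2)) := by ring
    _ ≤ _ := h11
    _ = _ := by ring

/-- The rates in the closure. -/
theorem rates_exist (hq : 2 ≤ q) {C : ℝ} (hC : 0 < C) :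
    ∃ α β E : ℤ → ℝ, (∀ ℓ, 0 ≤ α ℓ) ∧ (∀ ℓ, 0 ≤ β ℓ) ∧ (∀ ℓ, 0 ≤ E ℓ) ∧ (∀ ℓ, β ℓ ≤ 1 / 4) ∧
      (∀ ℓ (p : ℝ), 1 ≤ p →
        2 * (C * tauK (kapS ℓ) * ((Kr q ℓ : ℝ) + (Kr q ℓ : ℝ) ^ 2 * min (36 * rR ℓ * p) 1 + 1 + Real.sqrt p)) ≤ α ℓ + β ℓ * p) ∧
      (∀ ℓ, C * tauK (kapS ℓ) * ((Kr q ℓ : ℝ) ^ 2 + 1) ≤ E ℓ) ∧
      Summable (fun n : ℕ => α (-(n : ℤ))) ∧
      Summable (fun n : ℕ => β (-(n : ℤ)) * (1 + n + Real.log (1 + E (-(n : ℤ))))) := by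
  obtain ⟨hu0, hu1, hu2⟩ := rates_u_facts
  obtain ⟨hρ0, hρ1, hρ2⟩ := rates_rho_facts
  set u := Real.sqrt (1 / 2) with hu
  set ρ := Real.sqrt u with hρ
  -- abbreviations
  set τ : ℤ → ℝ := fun ℓ => tauK (kapS ℓ) with hτ
  set K : ℤ → ℝ := fun ℓ => (Kr q ℓ : ℝ) with hK
  have hτ0 : ∀ ℓ, 0 ≤ τ ℓ := fun ℓ => tauK_kapS_nonneg ℓ
  have hK0 : ∀ ℓ, 0 ≤ K ℓ := fun ℓ => Nat.cast_nonneg _
  have hr0 : ∀ ℓ, 0 ≤ rR ℓ := by
    intro ℓ
    unfold rR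
    split_ifs
    · exact pow_nonneg hρ0.le _
    · norm_num
  set c : ℝ := 64 * (1000000 * q) * (2 + Real.log (1000000 * q)) + 1 with hc
  have hc0 : 0 ≤ c := by
    have hQ1 : (1 : ℝ) ≤ 1000000 * q := by
      have : (2 : ℝ) ≤ q := by exact_mod_cast hq
      linarith
    have := Real.log_nonneg hQ1
    rw [hc]; positivity
  -- basic bounds for n ≥ 21
  have hτle : ∀ n : ℕ, τ (-(n : ℤ)) ≤ (1 / 18) * (u ^ n) ^ 2 := by
    intro n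
    have := tauK_kapS_le (-(n : ℤ))
    have h2 : (-(-(n : ℤ))).toNat = n := by simp
    rw [h2] at this
    have h3 : (u ^ n) ^ 2 = (1 / 2 : ℝ) ^ n := by
      rw [← pow_mul, mul_comm, pow_mul, hu2]
    rw [h3]; exact this
  have hKu : ∀ n : ℕ, 21 ≤ n → K (-(n : ℤ)) * u ^ n ≤ c * n := fun n hn => Kr_mul_le hq hn
  have hrn : ∀ n : ℕ, 21 ≤ n → rR (-(n : ℤ)) = ρ ^ n := by
    intro n hn
    unfold rR
    rw [if_pos (by omega)]
    have h2 : (-(-(n : ℤ))).toNat = n := by simp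
    rw [h2]
  have hun_pos : ∀ n : ℕ, 0 < u ^ n := fun n => pow_pos hu0 n
  have hρn_pos : ∀ n : ℕ, 0 < ρ ^ n := fun n => pow_pos hρ0 n
  have huρ : ∀ n : ℕ, u ^ n = (ρ ^ n) ^ 2 := by
    intro n
    rw [← pow_mul, mul_comm, pow_mul, hρ2]
  have hρn_le : ∀ n : ℕ, ρ ^ n ≤ 1 := fun n => pow_le_one₀ hρ0.le hρ1.le
  have hun_le : ∀ n : ℕ, u ^ n ≤ 1 := fun n => pow_le_one₀ hu0.le hu1.le
  have hn1 : ∀ n : ℕ, 21 ≤ n → (1 : ℝ) ≤ n := by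
    intro n hn
    have : 1 ≤ n := by omega
    exact_mod_cast this
  -- majorant of β·weight
  set B : ℝ := (4 * C * c ^ 2 + C / 9) * (2 + C / 18 * (c ^ 2 + 1)) with hB
  have hmaj : ∀ n : ℕ, 21 ≤ n → (72 * C * τ (-(n : ℤ)) * K (-(n : ℤ)) ^ 2 * rR (-(n : ℤ)) + 2 * C * τ (-(n : ℤ))) *
      (1 + n + Real.log (1 + C * τ (-(n : ℤ)) * (K (-(n : ℤ)) ^ 2 + 1))) ≤ B * ((n : ℝ) ^ 4 * ρ ^ n) := by
    intro n hn
    have h1 := hτle n
    have h2 := hKu n hn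
    rw [huρ n] at h1 h2
    exact rates_maj hC (hτ0 _) (hK0 _) (hρn_pos n) (hρn_le n) (hn1 n hn) hc0 h1 h2 (hrn n hn)
  have hsumρ : Summable (fun n : ℕ => B * ((n : ℝ) ^ 4 * ρ ^ n)) :=
    (summable_pow_mul_geometric_of_norm_lt_one (R := ℝ) 4 (by rw [Real.norm_of_nonneg hρ0.le]; exact hρ1)).mul_left B
  have htend := hsumρ.tendsto_atTop_zero
  obtain ⟨n₁, hn₁⟩ : ∃ n₁ : ℕ, ∀ n, n₁ ≤ n → B * ((n : ℝ) ^ 4 * ρ ^ n) ≤ 1 / 4 := by
    have := (htend.eventually (gt_mem_nhds (by norm_num : (0 : ℝ) < 1 / 4)))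
    obtain ⟨n₁, h⟩ := eventually_atTop.mp this
    exact ⟨n₁, fun n hn => (h n hn).le⟩
  set n₂ : ℕ := max n₁ 21 with hn₂
  have hn₂21 : 21 ≤ n₂ := le_max_right _ _
  have hbE_le : ∀ n, n₂ ≤ n → 72 * C * τ (-(n : ℤ)) * K (-(n : ℤ)) ^ 2 * rR (-(n : ℤ)) + 2 * C * τ (-(n : ℤ)) ≤ 1 / 4 := by
    intro n hn
    have h21 : 21 ≤ n := hn₂21.trans hn
    have h1 := hmaj n h21
    have h2 := hn₁ n ((le_max_left _ _).trans hn)
    have hτ' := hτ0 (-(n : ℤ))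
    have hr' := hr0 (-(n : ℤ))
    have h3 : 0 ≤ C * τ (-(n : ℤ)) * (K (-(n : ℤ)) ^ 2 + 1) := by positivity
    have h4 : 0 ≤ Real.log (1 + C * τ (-(n : ℤ)) * (K (-(n : ℤ)) ^ 2 + 1)) := Real.log_nonneg (by linarith)
    have h6 : 0 ≤ 72 * C * τ (-(n : ℤ)) * K (-(n : ℤ)) ^ 2 * rR (-(n : ℤ)) + 2 * C * τ (-(n : ℤ)) := by positivity
    have h7 : (1 : ℝ) ≤ 1 + n + Real.log (1 + C * τ (-(n : ℤ)) * (K (-(n : ℤ)) ^ 2 + 1)) := by
      have : (0 : ℝ) ≤ n := by positivity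
      linarith
    have h5 := le_mul_of_one_le_right h6 h7
    linarith
  refine ⟨fun ℓ => if ℓ ≤ -(n₂ : ℤ) then 2 * C * τ ℓ * (K ℓ + 2) else 2 * C * τ ℓ * (K ℓ + 1 + K ℓ ^ 2) + 8 * C ^ 2 * τ ℓ ^ 2,
    fun ℓ => if ℓ ≤ -(n₂ : ℤ) then 72 * C * τ ℓ * K ℓ ^ 2 * rR ℓ + 2 * C * τ ℓ else 1 / 8,
    fun ℓ => C * τ ℓ * (K ℓ ^ 2 + 1), ?_, ?_, ?_, ?_, ?_, ?_, ?_, ?_⟩
  · intro ℓ
    have h1 := hτ0 ℓ
    have h2 := hK0 ℓ
    dsimp only
    split_ifs <;> positivity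
  · intro ℓ
    have h1 := hτ0 ℓ
    have h2 := hr0 ℓ
    dsimp only
    split_ifs <;> positivity
  · intro ℓ
    have h1 := hτ0 ℓ
    dsimp only
    positivity
  · intro ℓ
    dsimp only
    split_ifs with h
    · obtain ⟨n, hn⟩ : ∃ n : ℕ, ℓ = -(n : ℤ) := ⟨(-ℓ).toNat, by omega⟩
      subst hn
      exact hbE_le n (by omega)
    · norm_num
  · intro ℓ p hp
    dsimp only
    split_ifs with h
    · exact rates_early hC.le (hτ0 ℓ) (hK0 ℓ) (hr0 ℓ) hp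
    · exact rates_late hC.le (hτ0 ℓ) (hK0 ℓ) hp
  · intro ℓ
    exact le_rfl
  · -- summability of α
    have hsum : Summable (fun n : ℕ => (C / 9 * (c + 2)) * ((n : ℝ) ^ 1 * u ^ n)) :=
      (summable_pow_mul_geometric_of_norm_lt_one (R := ℝ) 1 (by rw [Real.norm_of_nonneg hu0.le]; exact hu1)).mul_left _
    refine Summable.of_norm_bounded_eventually_nat hsum ?_
    filter_upwards [eventually_ge_atTop n₂] with n hn
    have h21 : 21 ≤ n := hn₂21.trans hn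
    have hif : (-(n : ℤ)) ≤ -(n₂ : ℤ) := by omega
    rw [if_pos hif]
    have h3 := hτ0 (-(n : ℤ))
    have h4 := hK0 (-(n : ℤ))
    rw [Real.norm_of_nonneg (by positivity)]
    exact rates_maj_alpha hC h3 h4 (hun_pos n) (hun_le n) (hn1 n h21) hc0 (hτle n) (hKu n h21)
  · refine Summable.of_norm_bounded_eventually_nat hsumρ ?_
    filter_upwards [eventually_ge_atTop n₂] with n hn
    have h21 : 21 ≤ n := hn₂21.trans hn
    have hif : (-(n : ℤ)) ≤ -(n₂ : ℤ) := by omega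
    rw [if_pos hif]
    have hτ' := hτ0 (-(n : ℤ))
    have hr' := hr0 (-(n : ℤ))
    have h3 : 0 ≤ C * τ (-(n : ℤ)) * (K (-(n : ℤ)) ^ 2 + 1) := by positivity
    have h4 : 0 ≤ Real.log (1 + C * τ (-(n : ℤ)) * (K (-(n : ℤ)) ^ 2 + 1)) := Real.log_nonneg (by linarith)
    have h5 : 0 ≤ 72 * C * τ (-(n : ℤ)) * K (-(n : ℤ)) ^ 2 * rR (-(n : ℤ)) + 2 * C * τ (-(n : ℤ)) := by positivity
    have h6 : 0 ≤ 1 + (n : ℝ) + Real.log (1 + C * τ (-(n : ℤ)) * (K (-(n : ℤ)) ^ 2 + 1)) := by positivity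
    rw [Real.norm_of_nonneg (mul_nonneg h5 h6)]
    exact hmaj n h21

end rates

/-! ### The hypotheses of the comparison theorem -/

section hyps

variable (hG : RegTree G q) (hq : 2 ≤ q)
include hG hq

/-- A slice of the joint measurability of `mInf`, for a generic schedule. -/
lemma measurable_mInf_slice {θ : ℝ} {κ : ℤ → ℝ} (hκ : Sched κ) (L ℓ : ℤ) (x : ℝ) (v : V) :
    Measurable (fun ξ : Nz V => mInf G θ L κ ℓ x ξ v) := by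
  have h := measurable_mInf (θ := θ) (L := L) (κ := κ) (ℓ := ℓ) hG hq hκ v
  have h' : Measurable (fun ξ : Nz V => ((x, ξ) : ℝ × Nz V)) := measurable_const.prodMk measurable_id
  have h2 := Measurable.comp h h'
  exact h2

theorem pairP_mInf {θ₁ θ₂ : ℝ} (hθ₁ : Adm θ₁) (hθ₂ : Adm θ₂) (hsub₁ : (q : ℝ) * θ₁ ^ 2 < 1) (hsub₂ : (q : ℝ) * θ₂ ^ 2 < 1)
    (L₁ L₂ ℓ : ℤ) (x : ℝ) : PairP G q θ₁ θ₂ (mInf G θ₁ L₁ kapS ℓ x) (mInf G θ₂ L₂ kapS ℓ x) := by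
  have hκ := sched_kapS
  refine ⟨hθ₁, hθ₂, hsub₁.le, hsub₂.le, ?_, ?_, ?_, ?_, ?_, ?_⟩
  · exact fun ξ v => abs_mInf_le hG hq hκ hθ₁ ξ v
  · exact fun ξ v => abs_mInf_le hG hq hκ hθ₂ ξ v
  · exact fun v => measurable_mInf_slice hG hq hκ L₁ ℓ x v
  · exact fun v => measurable_mInf_slice hG hq hκ L₂ ℓ x v
  · exact fun g ξ v => mInf_aut hG hq hκ g ξ v
  · exact fun g ξ v => mInf_aut hG hq hκ g ξ v

theorem pathVar_mInf {θ₁ θ₂ ϑ : ℝ} (hθ₁ : Adm θ₁) (hθ₂ : Adm θ₂) (hsub₁ : (q : ℝ) * θ₁ ^ 2 < 1) (hsub₂ : (q : ℝ) * θ₂ ^ 2 < 1)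
    (hϑ : Adm ϑ) {L₁ L₂ ℓ : ℤ} (hL₁ : L₁ ≤ ℓ) (hL₂ : L₂ ≤ ℓ) {x : ℝ} (hx0 : 0 ≤ x) (hx : x ≤ 1 / 2) :
    PathVar G θ₁ θ₂ ϑ (mInf G θ₁ L₁ kapS ℓ x) (mInf G θ₂ L₂ kapS ℓ x) := by
  intro a₀ b₀ hab₀ v u
  exact path_var hG hq sched_kapS hθ₁ hθ₂ hsub₁ hsub₂ hL₁ hL₂ hϑ hx0 hx hab₀ v u

/-- Tails of the cavity fields: from `tail_cav_inf` for `ℓ ≤ -11`, trivial for `ℓ > -11` as `36 r p > 1`. -/
theorem tailHyp_mInf (hθ : Adm θ) (hsub : (q : ℝ) * θ ^ 2 < 1) {L ℓ : ℤ} (hL : L ≤ ℓ) {x : ℝ} (hx0 : 0 ≤ x) (hx : x ≤ 1 / 2) :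
    TailHyp G θ (rR ℓ) (mInf G θ L kapS ℓ x) := by
  intro a b hab p hp
  by_cases hℓ : ℓ ≤ -11
  · obtain ⟨hr0, hr, hτ⟩ := rR_early (L := L) hℓ
    exact tail_cav_inf hG hq sched_kapS hθ hsub hL hx0 hx hr0 hr hτ hab hp
  · have hr1 : rR ℓ = 1 := rR_late hℓ
    have hzero : ∀ ξ : Nz V, (if 36 * rR ℓ * p < cavM θ (mInf G θ L kapS ℓ x ξ) a b ^ 2 then (1:ℝ) else 0) = 0 := by
      intro ξ
      have hc : |cavM θ (mInf G θ L kapS ℓ x ξ) a b| ≤ 1 :=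
        abs_cav_le hθ (abs_mInf_le hG hq sched_kapS hθ ξ a) (abs_mInf_le hG hq sched_kapS hθ ξ b)
      have hc2 : cavM θ (mInf G θ L kapS ℓ x ξ) a b ^ 2 ≤ 1 := by
        have := sq_le_one_iff_abs_le_one (cavM θ (mInf G θ L kapS ℓ x ξ) a b)
        exact this.2 hc
      rw [if_neg]
      rw [hr1]
      intro hlt
      linarith
    simp only [hzero, integral_zero]
    positivity

/-- Tails of the shells: from `tail_shell_inf` and `shell_rate`. -/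
theorem shellHyp_mInf (hθ : Adm θ) (hsub : (q : ℝ) * θ ^ 2 < 1) {L ℓ : ℤ} (hL : L < min ℓ (-21)) {x : ℝ} (hx0 : 0 ≤ x) (hx : x ≤ 1 / 2) :
    ShellHyp G θ (epsR q ℓ) (mInf G θ L kapS ℓ x) := by
  intro a b hab l s hs
  obtain ⟨n₁, A, hA0, hA, hAε⟩ := shell_rate hG hq hθ hsub.le hL hx0 hx
  have hLℓ : L ≤ ℓ := by
    have := lt_of_lt_of_le hL (min_le_left ℓ (-21))
    exact this.le
  exact tail_shell_inf hG hq sched_kapS hθ hsub hLℓ hx0 hx (epsR_pos hq ℓ) (epsR_le hq ℓ) hA0 hA hAε hab hs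

end hyps

/-! ### The cell inequality -/

section cell

variable (hG : RegTree G q) (hq : 2 ≤ q) (hθ : Adm θ) (hqθ : (q : ℝ) * θ ^ 2 ≤ 1)
include hG hq hθ hqθ

private lemma abs_mN_le (n : ℕ) (ℓ : ℤ) (x : ℝ) (ξ : Nz V) (v : V) : |mN G θ n ℓ x ξ v| ≤ 1 :=
  abs_mInf_le hG hq sched_kapS (adm_θsq hθ n) ξ v

omit hq hθ hqθ hG in
private lemma measurable_mN_joint (hG : RegTree G q) (hq : 2 ≤ q) (n : ℕ) (ℓ : ℤ) (v : V) :
    Measurable (fun p : ℝ × Nz V => mN G θ n ℓ p.1 p.2 v) :=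
  measurable_mInf hG hq sched_kapS v

omit hq hθ hqθ hG in
private lemma measurable_mN_slice (hG : RegTree G q) (hq : 2 ≤ q) (n : ℕ) (ℓ : ℤ) (x : ℝ) (v : V) : Measurable (fun ξ : Nz V => mN G θ n ℓ x ξ v) :=
  (measurable_mN_joint hG hq n ℓ v).comp (f := fun ξ : Nz V => (x, ξ)) (measurable_const.prodMk measurable_id)

theorem fn_nonneg (o : V) (n n' : ℕ) (ℓ : ℤ) (x : ℝ) : 0 ≤ fn G θ o n n' ℓ x :=
  integral_nonneg (fun _ => sq_nonneg _)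

theorem fn_le_four (o : V) (n n' : ℕ) (ℓ : ℤ) (x : ℝ) : fn G θ o n n' ℓ x ≤ 4 := by
  have h : ‖fn G θ o n n' ℓ x‖ ≤ 4 * (noiseP V).real Set.univ := by
    refine norm_integral_le_of_norm_le_const (Eventually.of_forall fun ξ => ?_)
    have h1 := abs_le.mp (abs_mN_le hG hq hθ hqθ n ℓ x ξ o)
    have h2 := abs_le.mp (abs_mN_le hG hq hθ hqθ n' ℓ x ξ o)
    rw [Real.norm_eq_abs, abs_of_nonneg (sq_nonneg _)]
    nlinarith [h1.1, h1.2, h2.1, h2.2]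
  simp only [probReal_univ, mul_one] at h
  exact (le_abs_self _).trans h

theorem measurable_fn (o : V) (n n' : ℕ) (ℓ : ℤ) : Measurable (fn G θ o n n' ℓ) := by
  have hm : Measurable (fun p : ℝ × Nz V => (mN G θ n ℓ p.1 p.2 o - mN G θ n' ℓ p.1 p.2 o) ^ 2) :=
    ((measurable_mN_joint hG hq n ℓ o).sub (measurable_mN_joint hG hq n' ℓ o)).pow_const 2
  exact (hm.stronglyMeasurable.integral_prod_right' (ν := noiseP V)).measurable

private lemma measurable_lhatCav (n : ℕ) (ℓ : ℤ) (a b : V) :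
    Measurable (fun p : ℝ × Nz V => lhat θ (cavM (θsq θ n) (mN G θ n ℓ p.1 p.2) a b)) := by
  have hc : Measurable (fun p : ℝ × Nz V => cav (θsq θ n) (mN G θ n ℓ p.1 p.2 a) (mN G θ n ℓ p.1 p.2 b)) :=
    (measurable_cav (θsq θ n)).comp ((measurable_mN_joint hG hq n ℓ a).prodMk (measurable_mN_joint hG hq n ℓ b))
  exact (continuous_lhat hθ).measurable.comp hc

theorem measurable_gN (a b : V) (n : ℕ) (ℓ : ℤ) : Measurable (gN G θ a b n ℓ) :=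
  ((measurable_lhatCav hG hq hθ hqθ n ℓ a b).stronglyMeasurable.integral_prod_right' (ν := noiseP V)).measurable

omit hq hθ hqθ hG in
/-- The end of a cell is the start of the next one, for the ball means. -/
private lemma mSt_half (W : Finset V) (θ' : ℝ) {L ℓ : ℤ} (hL : L ≤ ℓ) (κ : ℤ → ℝ) (U w : Stg V → I) (v : V) :
    mSt G θ' W L κ ℓ (1 / 2) U w v = mSt G θ' W L κ (ℓ + 1) 0 U w v := by
  unfold mSt gSt
  rw [Act_half W L U hL]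

omit hq hθ hqθ hG in
private lemma mN_half (n : ℕ) {ℓ : ℤ} (hn : -(n : ℤ) ≤ ℓ) (ξ : Nz V) (v : V) :
    mN G θ n ℓ (1 / 2) ξ v = mN G θ n (ℓ + 1) 0 ξ v := by
  unfold mN mInf mB
  simp only [mSt_half _ _ hn]

/-- The end of a cell is the start of the next one. -/
theorem fn_half (o : V) {n n' : ℕ} {ℓ : ℤ} (hn : -(n : ℤ) ≤ ℓ) (hn' : -(n' : ℤ) ≤ ℓ) :
    fn G θ o n n' ℓ (1 / 2) = fn G θ o n n' (ℓ + 1) 0 := by
  unfold fn
  simp only [mN_half n hn, mN_half n' hn']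

omit hG hq hθ hqθ [G.LocallyFinite] in
private lemma abs_lhat_cav_le (hθ : Adm θ) (θ' : ℝ) (hθ' : Adm θ') {m : V → ℝ} (hm : ∀ v, |m v| ≤ 1) (a b : V) :
    |lhat θ (cavM θ' m a b)| ≤ 3 := by
  have h1 : |cavM θ' m a b| ≤ 1 := abs_cav_le hθ' (hm a) (hm b)
  have h2 := lhat_lip hθ (cavM θ' m a b) 0
  have h3 : lhat θ 0 = 0 := by simp [lhat]
  rw [h3, sub_zero, sub_zero] at h2
  have h4 : max |cavM θ' m a b| |0| = |cavM θ' m a b| := max_eq_left (by simp)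
  rw [h4] at h2
  have h5 := abs_nonneg (cavM θ' m a b)
  nlinarith

/-- The means of `lhat` of the cavity fields are bounded. -/
theorem abs_gN_le (a b : V) (n : ℕ) (ℓ : ℤ) (x : ℝ) : |gN G θ a b n ℓ x| ≤ 3 := by
  have h : ‖gN G θ a b n ℓ x‖ ≤ 3 * (noiseP V).real Set.univ := by
    refine norm_integral_le_of_norm_le_const (Eventually.of_forall fun ξ => ?_)
    rw [Real.norm_eq_abs]
    exact abs_lhat_cav_le hθ _ (adm_θsq hθ n) (fun v => abs_mN_le hG hq hθ hqθ n ℓ x ξ v) a b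
  simpa using h

/-- The means of `lhat` of the cavity fields increase with `n`: `mean_mono`. -/
theorem gN_mono (a b : V) (hab : G.Adj a b) {n n' : ℕ} (hnn' : n ≤ n') {ℓ : ℤ} (hn : -(n : ℤ) ≤ ℓ) {x : ℝ} (hx0 : 0 ≤ x) (hx : x ≤ 1 / 2) :
    gN G θ a b n ℓ x ≤ gN G θ a b n' ℓ x := by
  refine mean_mono hG hq sched_kapS (adm_θsq hθ n) (adm_θsq hθ n') (θsq_mono hθ hnn') (sub_θsq hθ hqθ n) (sub_θsq hθ hqθ n') (by
    have : (n : ℤ) ≤ n' := by exact_mod_cast hnn'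
    linarith) hn hx0 hx (ξf := lhat θ) ?_ ?_ (lhat_neg hθ) hab
  · exact (lhat_convex hθ).subset (Set.subset_univ _) (convex_Icc _ _)
  · exact (continuous_lhat hθ).continuousOn

private lemma gN_tendsto (a b : V) (hab : G.Adj a b) (ℓ : ℤ) {x : ℝ} (hx0 : 0 ≤ x) (hx : x ≤ 1 / 2) :
    ∃ y, Tendsto (fun n => gN G θ a b n ℓ x) atTop (𝓝 y) := by
  set N₀ : ℕ := (-ℓ).toNat with hN₀
  have hN : ∀ n : ℕ, -((n + N₀ : ℕ) : ℤ) ≤ ℓ := by
    intro n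
    have : -ℓ ≤ (N₀ : ℤ) := Int.self_le_toNat _
    push_cast
    omega
  have hmono : Monotone (fun n => gN G θ a b (n + N₀) ℓ x) := by
    intro n n' h
    exact gN_mono hG hq hθ hqθ a b hab (by omega) (hN n) hx0 hx
  have hbdd : BddAbove (Set.range (fun n => gN G θ a b (n + N₀) ℓ x)) :=
    ⟨3, by rintro _ ⟨n, rfl⟩; exact (le_abs_self _).trans (abs_gN_le hG hq hθ hqθ a b _ ℓ x)⟩
  exact ⟨_, (tendsto_add_atTop_iff_nat N₀).mp (tendsto_atTop_ciSup hmono hbdd)⟩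

omit hG hq hθ hqθ in
private lemma tendsto_fst_nat : Tendsto (Prod.fst : ℕ × ℕ → ℕ) atTop atTop := by
  rw [← prod_atTop_atTop_eq]; exact tendsto_fst

omit hG hq hθ hqθ in
private lemma tendsto_snd_nat : Tendsto (Prod.snd : ℕ × ℕ → ℕ) atTop atTop := by
  rw [← prod_atTop_atTop_eq]; exact tendsto_snd

/-- So the squared differences of these means tend to zero in the mean: monotone bounded sequences converge, dominated convergence. -/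
theorem zeta_tendsto (a b : V) (hab : G.Adj a b) (ℓ : ℤ) :
    Tendsto (fun r : ℕ × ℕ => ∫ x in (0 : ℝ)..(1 / 2), (gN G θ a b r.1 ℓ x - gN G θ a b r.2 ℓ x) ^ 2) atTop (𝓝 0) := by
  suffices h : Tendsto (fun r : ℕ × ℕ => ∫ x in (0 : ℝ)..(1 / 2), (gN G θ a b r.1 ℓ x - gN G θ a b r.2 ℓ x) ^ 2) atTop
      (𝓝 (∫ x in (0 : ℝ)..(1 / 2), (0 : ℝ))) by simpa using h
  refine intervalIntegral.tendsto_integral_filter_of_dominated_convergence (E := ℝ) (l := (atTop : Filter (ℕ × ℕ))) (fun _ => (36 : ℝ)) ?_ ?_ ?_ ?_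
  · refine Eventually.of_forall fun r => ?_
    exact (((measurable_gN hG hq hθ hqθ a b r.1 ℓ).sub (measurable_gN hG hq hθ hqθ a b r.2 ℓ)).pow_const 2).aestronglyMeasurable
  · refine Eventually.of_forall fun r => Eventually.of_forall fun x _ => ?_
    have h1 := abs_le.mp (abs_gN_le hG hq hθ hqθ a b r.1 ℓ x)
    have h2 := abs_le.mp (abs_gN_le hG hq hθ hqθ a b r.2 ℓ x)
    rw [Real.norm_eq_abs, abs_of_nonneg (sq_nonneg _)]
    nlinarith [h1.1, h1.2, h2.1, h2.2]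
  · exact intervalIntegrable_const
  · refine Eventually.of_forall fun x hx => ?_
    rw [uIoc_of_le (by norm_num)] at hx
    obtain ⟨y, hy⟩ := gN_tendsto hG hq hθ hqθ a b hab ℓ hx.1.le hx.2
    have h1 : Tendsto (fun r : ℕ × ℕ => gN G θ a b r.1 ℓ x) atTop (𝓝 y) := hy.comp tendsto_fst_nat
    have h2 : Tendsto (fun r : ℕ × ℕ => gN G θ a b r.2 ℓ x) atTop (𝓝 y) := hy.comp tendsto_snd_nat
    have h3 := (h1.sub h2).pow 2
    simpa using h3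

theorem dθ2_tendsto : Tendsto (fun r : ℕ × ℕ => dθ2 θ r.1 r.2) atTop (𝓝 0) := by
  have h1 : Tendsto (fun r : ℕ × ℕ => θsq θ r.1) atTop (𝓝 θ) := tendsto_θsq.comp tendsto_fst_nat
  have h2 : Tendsto (fun r : ℕ × ℕ => θsq θ r.2) atTop (𝓝 θ) := tendsto_θsq.comp tendsto_snd_nat
  have h3 := (((h1.sub h2).pow 2).add ((h1.sub (tendsto_const_nhds (x := θ))).pow 2)).add ((h2.sub (tendsto_const_nhds (x := θ))).pow 2)
  simpa [dθ2] using h3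

/-- **The cell inequality.** `C` is the constant of `compare`. -/
theorem cell_ineq (C : ℝ) (hC : 0 < C) (hcomp : ∀ (θ₁ θ₂ ϑ r ε κ₀ p : ℝ) (m₁ m₂ : Nz V → V → ℝ) (K K' : ℕ) (_ : PairP G q θ₁ θ₂ m₁ m₂) (_ : Adm ϑ)
      (_ : PathVar G θ₁ θ₂ ϑ m₁ m₂) (_ : 0 ≤ r) (_ : TailHyp G θ₁ r m₁) (_ : TailHyp G θ₂ r m₂)
      (_ : 0 < ε) (_ : ε ≤ 1) (_ : ShellHyp G θ₁ ε m₁) (_ : ShellHyp G θ₂ ε m₂) (_ : farK ε ≤ K)
      (_ : 0 ≤ κ₀) (_ : κ₀ ≤ 1 / 3) (_ : 1 ≤ p) (o a b : V) (_ : G.Adj a b),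
      ∑ k ∈ Finset.range K', ∑ u ∈ sphere G o k, ∫ ξ, incI G κ₀ θ₁ θ₂ (m₁ ξ) (m₂ ξ) o u ∂noiseP V ≤
        C * tauK κ₀ * (((K : ℝ) + K ^ 2 * min (36 * r * p) 1 + 1 + Real.sqrt p) * (∫ ξ, (m₁ ξ o - m₂ ξ o) ^ 2 ∂noiseP V) +
          ((K : ℝ) ^ 2 + 1) * Real.exp (-p / 2) +
          ((K : ℝ) ^ 3 + Real.sqrt p + 1) * ((θ₁ - θ₂) ^ 2 + (θ₁ - ϑ) ^ 2 + (θ₂ - ϑ) ^ 2) +
          (K : ℝ) ^ 3 * (∫ ξ, (lhat ϑ (cavM θ₁ (m₁ ξ) a b) - lhat ϑ (cavM θ₂ (m₂ ξ) a b)) ∂noiseP V) ^ 2))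
    (o a b : V) (hab : G.Adj a b) (ℓ : ℤ) {p : ℝ} (hp : 1 ≤ p) {n n' : ℕ} (hn : (21 : ℤ) < n ∧ -(n : ℤ) < ℓ) (hn' : (21 : ℤ) < n' ∧ -(n' : ℤ) < ℓ) :
    fn G θ o n n' (ℓ + 1) 0 ≤
      (fn G θ o n n' ℓ 0 + C * tauK (kapS ℓ) * ((Kr q ℓ : ℝ) ^ 2 + 1) * Real.exp (-p / 2) +
        (2 * (C * tauK (kapS ℓ) * ((Kr q ℓ : ℝ) ^ 3 + Real.sqrt p + 1)) * dθ2 θ n n' * (1 / 2) +
          2 * (C * tauK (kapS ℓ) * (Kr q ℓ : ℝ) ^ 3) * ∫ x in (0 : ℝ)..(1 / 2), (gN G θ a b n ℓ x - gN G θ a b n' ℓ x) ^ 2)) *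
      Real.exp (2 * (C * tauK (kapS ℓ) * ((Kr q ℓ : ℝ) + (Kr q ℓ : ℝ) ^ 2 * min (36 * rR ℓ * p) 1 + 1 + Real.sqrt p))) := by
  -- the parameters
  have hθ₁ : Adm (θsq θ n) := adm_θsq hθ n
  have hθ₂ : Adm (θsq θ n') := adm_θsq hθ n'
  have hsub₁ := sub_θsq (q := q) hθ hqθ n
  have hsub₂ := sub_θsq (q := q) hθ hqθ n'
  have hL₁ : -(n : ℤ) ≤ ℓ := hn.2.le
  have hL₂ : -(n' : ℤ) ≤ ℓ := hn'.2.le
  have hL₁' : -(n : ℤ) < min ℓ (-21) := lt_min hn.2 (by omega)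
  have hL₂' : -(n' : ℤ) < min ℓ (-21) := lt_min hn'.2 (by omega)
  have hτ := tauK_kapS_nonneg ℓ
  set τ := tauK (kapS ℓ) with hτdef
  set K : ℕ := Kr q ℓ with hK
  set Λ : ℝ := (K : ℝ) + (K : ℝ) ^ 2 * min (36 * rR ℓ * p) 1 + 1 + Real.sqrt p with hΛ
  have hΛ0 : 0 ≤ Λ := by
    have h1 : 0 ≤ min (36 * rR ℓ * p) 1 := le_min (by have := rR_nonneg ℓ; positivity) (by norm_num)
    have h2 := Real.sqrt_nonneg p
    positivity
  set f : ℝ → ℝ := fn G θ o n n' ℓ with hf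
  set ζ2 : ℝ → ℝ := fun x => (gN G θ a b n ℓ x - gN G θ a b n' ℓ x) ^ 2 with hζ2
  set d2 : ℝ := dθ2 θ n n' with hd2
  have hfm : Measurable f := measurable_fn hG hq hθ hqθ o n n' ℓ
  have hζm : Measurable ζ2 :=
    ((measurable_gN hG hq hθ hqθ a b n ℓ).sub (measurable_gN hG hq hθ hqθ a b n' ℓ)).pow_const 2
  have hf0 : ∀ x, 0 ≤ f x := fn_nonneg hG hq hθ hqθ o n n' ℓ
  have hf4 : ∀ x, f x ≤ 4 := fn_le_four hG hq hθ hqθ o n n' ℓ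
  have hζ0 : ∀ x, 0 ≤ ζ2 x := fun x => sq_nonneg _
  have hζ36 : ∀ x, ζ2 x ≤ 36 := fun x => by
    have h1 := abs_le.mp (abs_gN_le hG hq hθ hqθ a b n ℓ x)
    have h2 := abs_le.mp (abs_gN_le hG hq hθ hqθ a b n' ℓ x)
    simp only [hζ2]
    nlinarith [h1.1, h1.2, h2.1, h2.2]
  have hbdd_int : ∀ (h : ℝ → ℝ), Measurable h → (∀ x, 0 ≤ h x) → (∀ x, h x ≤ 36) → ∀ a' b', IntervalIntegrable h volume a' b' := by
    intro h hm h0 h1 a' b'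
    refine (intervalIntegrable_const (c := (36 : ℝ))).mono_fun hm.aestronglyMeasurable ?_
    refine Eventually.of_forall fun x => ?_
    simp only [Real.norm_eq_abs, abs_of_nonneg (h0 x)]
    rw [abs_of_nonneg (by norm_num : (0 : ℝ) ≤ 36)]
    exact h1 x
  have hfint : ∀ a' b', IntervalIntegrable f volume a' b' :=
    hbdd_int f hfm hf0 (fun x => (hf4 x).trans (by norm_num))
  have hζint : ∀ a' b', IntervalIntegrable ζ2 volume a' b' := hbdd_int ζ2 hζm hζ0 hζ36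
  -- the bound
  set B : ℝ → ℝ := fun x => C * τ * (Λ * f x + ((K : ℝ) ^ 2 + 1) * Real.exp (-p / 2) + ((K : ℝ) ^ 3 + Real.sqrt p + 1) * d2 + (K : ℝ) ^ 3 * ζ2 x) with hB
  have hBint : ∀ a' b', IntervalIntegrable B volume a' b' := by
    intro a' b'
    have h1 := (hfint a' b').const_mul Λ
    have h2 := (hζint a' b').const_mul ((K : ℝ) ^ 3)
    have h3 := ((h1.add (intervalIntegrable_const (c := ((K : ℝ) ^ 2 + 1) * Real.exp (-p / 2)))).add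
      (intervalIntegrable_const (c := ((K : ℝ) ^ 3 + Real.sqrt p + 1) * d2))).add h2
    exact h3.const_mul (C * τ)
  have key : ∀ x ∈ Icc (0 : ℝ) (1 / 2), ∀ K' : ℕ, ∑ k ∈ Finset.range K', ∑ u ∈ sphere G o k,
      ∫ ξ, incI G (kapS ℓ) (θsq θ n) (θsq θ n') (mInf G (θsq θ n) (-(n : ℤ)) kapS ℓ x ξ) (mInf G (θsq θ n') (-(n' : ℤ)) kapS ℓ x ξ) o u ∂noiseP V ≤ B x := by
    intro x hx K'
    have h := hcomp (θsq θ n) (θsq θ n') θ (rR ℓ) (epsR q ℓ) (kapS ℓ) p (mInf G (θsq θ n) (-(n : ℤ)) kapS ℓ x) (mInf G (θsq θ n') (-(n' : ℤ)) kapS ℓ x) K K'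
      (pairP_mInf hG hq hθ₁ hθ₂ hsub₁ hsub₂ _ _ ℓ x) hθ
      (pathVar_mInf hG hq hθ₁ hθ₂ hsub₁ hsub₂ hθ hL₁ hL₂ hx.1 hx.2) (rR_nonneg ℓ)
      (tailHyp_mInf hG hq hθ₁ hsub₁ hL₁ hx.1 hx.2) (tailHyp_mInf hG hq hθ₂ hsub₂ hL₂ hx.1 hx.2)
      (epsR_pos hq ℓ) (epsR_le hq ℓ)
      (shellHyp_mInf hG hq hθ₁ hsub₁ hL₁' hx.1 hx.2) (shellHyp_mInf hG hq hθ₂ hsub₂ hL₂' hx.1 hx.2)
      (farK_le_Kr q ℓ) (sched_kapS.pos ℓ).le (sched_kapS.le ℓ) hp o a b hab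
    refine h.trans (le_of_eq ?_)
    have hz : (∫ ξ, (lhat θ (cavM (θsq θ n) (mInf G (θsq θ n) (-(n : ℤ)) kapS ℓ x ξ) a b) - lhat θ (cavM (θsq θ n') (mInf G (θsq θ n') (-(n' : ℤ)) kapS ℓ x ξ) a b)) ∂noiseP V) =
        gN G θ a b n ℓ x - gN G θ a b n' ℓ x := by
      have hbm : ∀ j : ℕ, BM (fun ξ : Nz V => lhat θ (cavM (θsq θ j) (mInf G (θsq θ j) (-(j : ℤ)) kapS ℓ x ξ) a b)) := fun j =>
        ⟨(measurable_lhatCav hG hq hθ hqθ j ℓ a b).comp (f := fun ξ : Nz V => (x, ξ)) (measurable_const.prodMk measurable_id), 3,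
          fun ξ => abs_lhat_cav_le hθ _ (adm_θsq hθ j) (fun v => abs_mN_le hG hq hθ hqθ j ℓ x ξ v) a b⟩
      exact integral_sub ((hbm n).integrable _) ((hbm n').integrable _)
    rw [hz]
    rfl
  -- Gronwall
  have hinc : ∀ x₁ x₂, 0 ≤ x₁ → x₁ ≤ x₂ → x₂ ≤ 1 / 2 → f x₂ - f x₁ ≤ ∫ x in x₁..x₂, 2 * B x := by
    intro x₁ x₂ h1 h2 h3
    exact incr_inf hG hq sched_kapS hθ₁ hθ₂ hsub₁ hsub₂ hL₁ hL₂ h1 h2 h3 o (hBint _ _)
      (fun x hx K' => key x ⟨h1.trans hx.1, hx.2.trans h3⟩ K')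
  set S : ℝ → ℝ := fun x => 2 * (C * τ * ((K : ℝ) ^ 3 + Real.sqrt p + 1)) * d2 + 2 * (C * τ * (K : ℝ) ^ 3) * ζ2 x with hS
  have hd20 : 0 ≤ d2 := by
    simp only [hd2, dθ2]; positivity
  have hS0 : ∀ x, 0 ≤ S x := fun x => by
    have := hζ0 x
    have h2 := Real.sqrt_nonneg p
    simp only [hS]; positivity
  have hSint : IntervalIntegrable S volume 0 (1 / 2) :=
    (intervalIntegrable_const).add ((hζint 0 (1 / 2)).const_mul _)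
  have hgr := gron (f := f) (G := fun x => 2 * B x) (S := S) (x₀ := 1 / 2) (α := 2 * (C * τ * Λ)) (β := 2 * (C * τ * ((K : ℝ) ^ 2 + 1)) * Real.exp (-p / 2))
    (by norm_num) (by positivity) (by positivity) (fun x _ => hf0 x) ⟨4, fun x _ => hf4 x⟩ ((hBint _ _).const_mul 2) hSint hS0 hinc
    (fun x _ => by
      simp only [hB, hS]
      apply le_of_eq
      ring)
  have hSval : ∫ x in (0 : ℝ)..(1 / 2), S x = 2 * (C * τ * ((K : ℝ) ^ 3 + Real.sqrt p + 1)) * d2 * (1 / 2) +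
      2 * (C * τ * (K : ℝ) ^ 3) * ∫ x in (0 : ℝ)..(1 / 2), ζ2 x := by
    simp only [hS]
    rw [intervalIntegral.integral_add intervalIntegrable_const ((hζint 0 (1 / 2)).const_mul _),
      intervalIntegral.integral_const, intervalIntegral.integral_const_mul]
    simp only [sub_zero, smul_eq_mul]
    ring
  rw [hSval] at hgr
  have hhalf : f (1 / 2) = fn G θ o n n' (ℓ + 1) 0 := fn_half hG hq hθ hqθ o hL₁ hL₂
  rw [hhalf] at hgr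
  refine hgr.trans (le_of_eq ?_)
  have e1 : 2 * (2 * (C * τ * Λ)) * (1 / 2) = 2 * (C * τ * Λ) := by ring
  rw [e1]
  ring

end cell

/-! ### The closure -/

/-- The size of the Cauchy defect at the start of a cell. -/
noncomputable def Dl (G : SimpleGraph V) [G.LocallyFinite] (θ : ℝ) (o : V) (ℓ : ℤ) : ℝ :=
  limsup (fun r : ℕ × ℕ => fn G θ o r.1 r.2 ℓ 0) atTop

section closure_aux

/-- Limsup of an inequality with an error tending to `0` (real valued, bounded). -/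
private lemma cl_limsup_le_of_ineq {ι : Type*} {l : Filter ι} [l.NeBot] {u v w : ι → ℝ} {c K : ℝ} (hK : 0 ≤ K)
    (hu0 : ∀ r, 0 ≤ u r) (hv4 : ∀ r, v r ≤ 4)
    (hw : Tendsto w l (𝓝 0)) (hineq : ∀ᶠ r in l, u r ≤ (v r + c + w r) * K) :
    limsup u l ≤ (limsup v l + c) * K := by
  have hvb : IsBoundedUnder (· ≤ ·) l v := isBoundedUnder_of ⟨4, hv4⟩
  have hub : IsCoboundedUnder (· ≤ ·) l u :=
    (isBoundedUnder_of ⟨0, fun r => hu0 r⟩ : IsBoundedUnder (· ≥ ·) l u).isCoboundedUnder_flip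
  refine le_of_forall_pos_le_add fun ε hε => ?_
  -- choose η
  set η := ε / (2 * (K + 1)) with hη
  have hη0 : 0 < η := by positivity
  have h1 : ∀ᶠ r in l, v r < limsup v l + η := eventually_lt_of_limsup_lt (by linarith) hvb
  have h2 : ∀ᶠ r in l, w r < η := hw.eventually (gt_mem_nhds hη0)
  refine limsup_le_of_le hub ?_
  filter_upwards [h1, h2, hineq] with r hr1 hr2 hr3
  refine hr3.trans ?_
  have h3 : (v r + c + w r) * K ≤ (limsup v l + η + c + η) * K := by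
    apply mul_le_mul_of_nonneg_right _ hK
    linarith
  refine h3.trans ?_
  have h4 : 2 * η * K ≤ ε := by
    have : 2 * η * K = ε * (K / (K + 1)) := by
      rw [hη]; field_simp
    rw [this]
    have h5 : K / (K + 1) ≤ 1 := by
      rw [div_le_one (by linarith)]; linarith
    nlinarith
  nlinarith

end closure_aux

section closure

variable (hG : RegTree G q) (hq : 2 ≤ q) (hθ : Adm θ) (hqθ : (q : ℝ) * θ ^ 2 ≤ 1)
include hG hq hθ hqθ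

private lemma cl_fn_bdd_above (o : V) (ℓ : ℤ) : IsBoundedUnder (· ≤ ·) atTop (fun r : ℕ × ℕ => fn G θ o r.1 r.2 ℓ 0) :=
  isBoundedUnder_of ⟨4, fun r => fn_le_four hG hq hθ hqθ o r.1 r.2 ℓ 0⟩

private lemma cl_fn_cobdd (o : V) (ℓ : ℤ) : IsCoboundedUnder (· ≤ ·) atTop (fun r : ℕ × ℕ => fn G θ o r.1 r.2 ℓ 0) :=
  (isBoundedUnder_of ⟨0, fun r => fn_nonneg hG hq hθ hqθ o r.1 r.2 ℓ 0⟩ :
    IsBoundedUnder (· ≥ ·) atTop (fun r : ℕ × ℕ => fn G θ o r.1 r.2 ℓ 0)).isCoboundedUnder_flip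

theorem Dl_nonneg (o : V) (ℓ : ℤ) : 0 ≤ Dl G θ o ℓ := by
  unfold Dl
  exact le_limsup_of_frequently_le (Frequently.of_forall fun r => fn_nonneg hG hq hθ hqθ o r.1 r.2 ℓ 0) (cl_fn_bdd_above hG hq hθ hqθ o ℓ)

/-- `Dl` is small for early cells: `second_moment_inf`. -/
theorem Dl_le (o : V) {ℓ : ℤ} (hℓ : ℓ ≤ -11) : Dl G θ o ℓ ≤ 4000 * rR ℓ := by
  unfold Dl
  refine limsup_le_of_le (cl_fn_cobdd hG hq hθ hqθ o ℓ) ?_
  have hev : ∀ᶠ r : ℕ × ℕ in atTop, (-(r.1 : ℤ) ≤ ℓ) ∧ (-(r.2 : ℤ) ≤ ℓ) := by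
    filter_upwards [eventually_ge_atTop ((-ℓ).toNat, (-ℓ).toNat)] with r hr
    have h1 := hr.1
    have h2 := hr.2
    simp only at h1 h2
    constructor <;> omega
  filter_upwards [hev] with r hr
  obtain ⟨hr0, hr6, hτ1⟩ := rR_early (L := -(r.1 : ℤ)) hℓ
  obtain ⟨_, _, hτ2⟩ := rR_early (L := -(r.2 : ℤ)) hℓ
  have h12 : (0:ℝ) ≤ 1 / 2 := by norm_num
  have hm1 := second_moment_inf hG hq sched_kapS (adm_θsq hθ r.1) (sub_θsq hθ hqθ r.1) hr.1 le_rfl h12 hr0 hr6 hτ1 o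
  have hm2 := second_moment_inf hG hq sched_kapS (adm_θsq hθ r.2) (sub_θsq hθ hqθ r.2) hr.2 le_rfl h12 hr0 hr6 hτ2 o
  -- bounded integrands
  have hP := pairP_mInf hG hq (adm_θsq hθ r.1) (adm_θsq hθ r.2) (sub_θsq hθ hqθ r.1) (sub_θsq hθ hqθ r.2) (-(r.1 : ℤ)) (-(r.2 : ℤ)) ℓ 0
  have hi1 : Integrable (fun ξ => mN G θ r.1 ℓ 0 ξ o ^ 2) (noiseP V) :=
    nr_integrable_of_bdd ((hP.meas₁ o).pow_const 2) 1 (fun ξ => by
      rw [abs_of_nonneg (sq_nonneg _)]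
      exact nr_sq_le_one_of hP (hP.bd₁ ξ o))
  have hi2 : Integrable (fun ξ => mN G θ r.2 ℓ 0 ξ o ^ 2) (noiseP V) :=
    nr_integrable_of_bdd ((hP.meas₂ o).pow_const 2) 1 (fun ξ => by
      rw [abs_of_nonneg (sq_nonneg _)]
      exact nr_sq_le_one_of hP (hP.bd₂ ξ o))
  have hle : ∀ ξ, (mN G θ r.1 ℓ 0 ξ o - mN G θ r.2 ℓ 0 ξ o) ^ 2 ≤ 2 * mN G θ r.1 ℓ 0 ξ o ^ 2 + 2 * mN G θ r.2 ℓ 0 ξ o ^ 2 := by
    intro ξ
    nlinarith [sq_nonneg (mN G θ r.1 ℓ 0 ξ o + mN G θ r.2 ℓ 0 ξ o)]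
  have h3 := integral_mono_of_nonneg (Eventually.of_forall (fun ξ => sq_nonneg (mN G θ r.1 ℓ 0 ξ o - mN G θ r.2 ℓ 0 ξ o)))
    ((hi1.const_mul 2).add (hi2.const_mul 2)) (Eventually.of_forall hle)
  have h4 : fn G θ o r.1 r.2 ℓ 0 ≤ ∫ ξ, (2 * mN G θ r.1 ℓ 0 ξ o ^ 2 + 2 * mN G θ r.2 ℓ 0 ξ o ^ 2) ∂noiseP V := h3
  rw [integral_add (hi1.const_mul 2) (hi2.const_mul 2), integral_const_mul, integral_const_mul] at h4
  have hm1' : ∫ ξ, mN G θ r.1 ℓ 0 ξ o ^ 2 ∂noiseP V ≤ 1000 * rR ℓ := hm1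
  have hm2' : ∫ ξ, mN G θ r.2 ℓ 0 ξ o ^ 2 ∂noiseP V ≤ 1000 * rR ℓ := hm2
  linarith

theorem Dl_tendsto (o : V) : Tendsto (Dl G θ o) atBot (𝓝 0) := by
  have h1 : Tendsto (fun ℓ => 4000 * rR ℓ) atBot (𝓝 0) := by
    simpa using tendsto_rR.const_mul 4000
  refine tendsto_of_tendsto_of_tendsto_of_le_of_le' tendsto_const_nhds h1 (Eventually.of_forall (Dl_nonneg hG hq hθ hqθ o)) ?_
  filter_upwards [eventually_le_atBot (-11 : ℤ)] with ℓ hℓ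
  exact Dl_le hG hq hθ hqθ o hℓ

/-- The limit of the cell inequality. -/
theorem Dl_cell {C : ℝ} (hC : 0 < C) (hcomp : ∀ (θ₁ θ₂ ϑ r ε κ₀ p : ℝ) (m₁ m₂ : Nz V → V → ℝ) (K K' : ℕ) (_ : PairP G q θ₁ θ₂ m₁ m₂) (_ : Adm ϑ)
      (_ : PathVar G θ₁ θ₂ ϑ m₁ m₂) (_ : 0 ≤ r) (_ : TailHyp G θ₁ r m₁) (_ : TailHyp G θ₂ r m₂)
      (_ : 0 < ε) (_ : ε ≤ 1) (_ : ShellHyp G θ₁ ε m₁) (_ : ShellHyp G θ₂ ε m₂) (_ : farK ε ≤ K)
      (_ : 0 ≤ κ₀) (_ : κ₀ ≤ 1 / 3) (_ : 1 ≤ p) (o a b : V) (_ : G.Adj a b),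
      ∑ k ∈ Finset.range K', ∑ u ∈ sphere G o k, ∫ ξ, incI G κ₀ θ₁ θ₂ (m₁ ξ) (m₂ ξ) o u ∂noiseP V ≤
        C * tauK κ₀ * (((K : ℝ) + K ^ 2 * min (36 * r * p) 1 + 1 + Real.sqrt p) * (∫ ξ, (m₁ ξ o - m₂ ξ o) ^ 2 ∂noiseP V) +
          ((K : ℝ) ^ 2 + 1) * Real.exp (-p / 2) +
          ((K : ℝ) ^ 3 + Real.sqrt p + 1) * ((θ₁ - θ₂) ^ 2 + (θ₁ - ϑ) ^ 2 + (θ₂ - ϑ) ^ 2) +
          (K : ℝ) ^ 3 * (∫ ξ, (lhat ϑ (cavM θ₁ (m₁ ξ) a b) - lhat ϑ (cavM θ₂ (m₂ ξ) a b)) ∂noiseP V) ^ 2))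
    (o a b : V) (hab : G.Adj a b) (ℓ : ℤ) {p : ℝ} (hp : 1 ≤ p) :
    Dl G θ o (ℓ + 1) ≤
      (Dl G θ o ℓ + C * tauK (kapS ℓ) * ((Kr q ℓ : ℝ) ^ 2 + 1) * Real.exp (-p / 2)) *
        Real.exp (2 * (C * tauK (kapS ℓ) * ((Kr q ℓ : ℝ) + (Kr q ℓ : ℝ) ^ 2 * min (36 * rR ℓ * p) 1 + 1 + Real.sqrt p))) := by
  unfold Dl
  set c₁ := C * tauK (kapS ℓ) * ((Kr q ℓ : ℝ) ^ 2 + 1) * Real.exp (-p / 2) with hc₁
  set c₂ := 2 * (C * tauK (kapS ℓ) * ((Kr q ℓ : ℝ) ^ 3 + Real.sqrt p + 1)) * (1 / 2) with hc₂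
  set c₃ := 2 * (C * tauK (kapS ℓ) * (Kr q ℓ : ℝ) ^ 3) with hc₃
  -- the error term tends to zero
  have hw : Tendsto (fun r : ℕ × ℕ => c₂ * dθ2 θ r.1 r.2 + c₃ * ∫ x in (0 : ℝ)..(1 / 2), (gN G θ a b r.1 ℓ x - gN G θ a b r.2 ℓ x) ^ 2) atTop (𝓝 0) := by
    have h1 := (dθ2_tendsto hG hq hθ hqθ).const_mul c₂
    have h2 := (zeta_tendsto hG hq hθ hqθ a b hab ℓ).const_mul c₃
    simpa using h1.add h2
  refine cl_limsup_le_of_ineq (Real.exp_nonneg _) (fun r => fn_nonneg hG hq hθ hqθ o r.1 r.2 (ℓ + 1) 0)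
    (fun r => fn_le_four hG hq hθ hqθ o r.1 r.2 ℓ 0) hw ?_
  have hev : ∀ᶠ r : ℕ × ℕ in atTop, ((21 : ℤ) < r.1 ∧ -(r.1 : ℤ) < ℓ) ∧ ((21 : ℤ) < r.2 ∧ -(r.2 : ℤ) < ℓ) := by
    filter_upwards [eventually_ge_atTop ((-ℓ).toNat + 22, (-ℓ).toNat + 22)] with r hr
    have h1 := hr.1
    have h2 := hr.2
    simp only at h1 h2
    refine ⟨⟨?_, ?_⟩, ?_, ?_⟩ <;> omega
  filter_upwards [hev] with r hr
  have h := cell_ineq hG hq hθ hqθ C hC hcomp o a b hab ℓ hp hr.1 hr.2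
  refine h.trans (le_of_eq ?_)
  congr 1
  rw [hc₁, hc₂, hc₃]
  ring

/-- **The main estimate**: `Dl` vanishes identically. -/
theorem Dl_zero (o : V) (ℓ : ℤ) : Dl G θ o ℓ = 0 := by
  obtain ⟨C, hC, hcomp⟩ := compare hG hq
  obtain ⟨α, β, E, hα, hβ, hE, hβ4, hrate, hEle, hs1, hs2⟩ := rates_exist hq hC
  have hcard : (G.neighborFinset o).Nonempty := by
    rw [← Finset.card_pos, hG.reg o]; omega
  obtain ⟨b, hb⟩ := hcard
  have hab : G.Adj o b := (SimpleGraph.mem_neighborFinset G o b).1 hb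
  refine closure (D := Dl G θ o) (Dl_nonneg hG hq hθ hqθ o) (Dl_tendsto hG hq hθ hqθ o) hα hβ hE hβ4 ?_ hs1 hs2 ℓ
  intro ℓ p hp
  refine (Dl_cell hG hq hθ hqθ hC hcomp o o b hab ℓ hp).trans ?_
  have hE0 := Real.exp_pos (-p / 2)
  have hD0 := Dl_nonneg hG hq hθ hqθ o ℓ
  have h1 : C * tauK (kapS ℓ) * ((Kr q ℓ : ℝ) ^ 2 + 1) * Real.exp (-p / 2) ≤ E ℓ * Real.exp (-p / 2) :=
    mul_le_mul_of_nonneg_right (hEle ℓ) hE0.le
  have hnn : 0 ≤ C * tauK (kapS ℓ) * ((Kr q ℓ : ℝ) ^ 2 + 1) * Real.exp (-p / 2) := by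
    have := tauK_kapS_nonneg ℓ
    positivity
  exact mul_le_mul (by linarith) (Real.exp_le_exp.2 (hrate ℓ p hp)) (Real.exp_nonneg _) (by linarith [mul_nonneg (hE ℓ) hE0.le])

/-- **The approximating means form a Cauchy sequence in L², uniformly in the vertex.** -/
theorem cauchy_mN (ℓ : ℤ) {ε : ℝ} (hε : 0 < ε) : ∃ N : ℕ, ∀ n n', N ≤ n → N ≤ n' → ∀ v,
    ∫ ξ, (mN G θ n ℓ 0 ξ v - mN G θ n' ℓ 0 ξ v) ^ 2 ∂noiseP V ≤ ε := by
  obtain ⟨o⟩ := hG.tree.connected.nonempty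
  have h0 := Dl_zero hG hq hθ hqθ o ℓ
  have h1 : ∀ᶠ r : ℕ × ℕ in atTop, fn G θ o r.1 r.2 ℓ 0 < ε := by
    refine eventually_lt_of_limsup_lt ?_ (cl_fn_bdd_above hG hq hθ hqθ o ℓ)
    have : limsup (fun r : ℕ × ℕ => fn G θ o r.1 r.2 ℓ 0) atTop = 0 := h0
    rw [this]; exact hε
  obtain ⟨⟨N₁, N₂⟩, hN⟩ := eventually_atTop.1 h1
  refine ⟨max N₁ N₂, fun n n' hn hn' v => ?_⟩
  have hge : ((N₁, N₂) : ℕ × ℕ) ≤ (n, n') := ⟨(le_max_left _ _).trans hn, (le_max_right _ _).trans hn'⟩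
  have h2 := hN (n, n') hge
  have hP := pairP_mInf hG hq (adm_θsq hθ n) (adm_θsq hθ n') (sub_θsq hθ hqθ n) (sub_θsq hθ hqθ n') (-(n : ℤ)) (-(n' : ℤ)) ℓ 0
  have h3 := delta_const hG hP v o
  have h4 : ∫ ξ, (mN G θ n ℓ 0 ξ v - mN G θ n' ℓ 0 ξ v) ^ 2 ∂noiseP V = fn G θ o n n' ℓ 0 := h3
  rw [h4]
  exact h2.le

end closure

end Crest.Agent.Lib.TI
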