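import Crest.Agent.Lib.TI.Channel
import Crest.Agent.Lib.TI.Gibbs
import Crest.Agent.Lib.FiidNoise

/-!
# The sequential run (S0241 project, module TI.Run)

Stages are `c = (v, ℓ)`, `ℓ : ℤ` the cell. Each stage has two uniform labels `U c`, `w c`. The stage takes part iff `U c < 1/2`; within a
cell stages are processed in the order of `U`. The observation at a stage is `obs (κ ℓ * m) (w c)` where `m` is the current
posterior mean at `v` under the tilted Ising measure on `W` (interaction `θ`). The run starts at cell `L`.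
-/

set_option autoImplicit false

namespace Crest.Agent.Lib.TI

open MeasureTheory Set Classical
open scoped unitInterval
open Crest.Agent.Lib.FiidChannel Crest.Agent.Lib.FiidPlanted

variable {V : Type*}

/-- Stages. -/
abbrev Stg (V : Type*) := V × ℤ

/-- The schedule of strengths. -/
structure Sched (κ : ℤ → ℝ) : Prop where
  pos : ∀ ℓ, 0 < κ ℓ
  le : ∀ ℓ, κ ℓ ≤ 1 / 3

/-- Vertex functions from the observations on a set of stages. -/
noncomputable def gA (κ : ℤ → ℝ) (A : Finset (Stg V)) (y : Stg V → I) : V → Bool → ℝ :=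
  fun v s => ∏ c ∈ A.filter (fun c => c.1 = v), (1 + aY (κ c.2) (y c) * spin s)

/-- The stages of the state `(ℓ, x)`: all stages of earlier cells with label `< 1/2`, and those of cell `ℓ` with label `< x`. -/
noncomputable def Act (W : Finset V) (L : ℤ) (U : Stg V → I) (ℓ : ℤ) (x : ℝ) : Finset (Stg V) :=
  (W ×ˢ Finset.Icc L ℓ).filter (fun c => (c.2 < ℓ ∧ (U c : ℝ) < 1 / 2) ∨ (c.2 = ℓ ∧ (U c : ℝ) < x))

variable (G : SimpleGraph V)

/-- One sweep. -/
noncomputable def stepR (θ : ℝ) (W : Finset V) (L : ℤ) (κ : ℤ → ℝ) (U w : Stg V → I) (Y : Stg V → I) : Stg V → I :=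
  fun c => obs (κ c.2 * mv G θ W (gA κ (Act W L U c.2 (U c)) Y) c.1) (w c)

/-- The run: the unique fixed point of the sweep (`runY_eq`). -/
noncomputable def runY (θ : ℝ) (W : Finset V) (L : ℤ) (κ : ℤ → ℝ) (U w : Stg V → I) : Stg V → I :=
  fun c => (stepR G θ W L κ U w)^[((c.2 - L).toNat + 1) * (W.card + 1)] (fun _ => 0) c

/-- The vertex functions at the state `(ℓ, x)`. -/
noncomputable def gSt (θ : ℝ) (W : Finset V) (L : ℤ) (κ : ℤ → ℝ) (ℓ : ℤ) (x : ℝ) (U w : Stg V → I) : V → Bool → ℝ :=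
  gA κ (Act W L U ℓ x) (runY G θ W L κ U w)

/-- The means at the state `(ℓ, x)`. -/
noncomputable def mSt (θ : ℝ) (W : Finset V) (L : ℤ) (κ : ℤ → ℝ) (ℓ : ℤ) (x : ℝ) (U w : Stg V → I) (v : V) : ℝ :=
  mv G θ W (gSt G θ W L κ ℓ x U w) v

/-- The covariances at the state `(ℓ, x)`. -/
noncomputable def cSt (θ : ℝ) (W : Finset V) (L : ℤ) (κ : ℤ → ℝ) (ℓ : ℤ) (x : ℝ) (U w : Stg V → I) (v u : V) : ℝ :=
  cv G θ W (gSt G θ W L κ ℓ x U w) v u

/-- The law of the labels. -/
noncomputable def noiseP (V : Type*) : Measure ((Stg V → I) × (Stg V → I)) := (Lam (Stg V)).prod (Lam (Stg V))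

instance (V : Type*) : IsProbabilityMeasure (noiseP V) := by
  unfold noiseP; infer_instance

variable {G}
variable {θ θ₁ θ₂ : ℝ} {W W₁ W₂ : Finset V} {L L₁ L₂ : ℤ} {κ : ℤ → ℝ} {ℓ : ℤ} {x x₁ x₂ : ℝ} {U w : Stg V → I}

section gA

theorem gA_empty (κ : ℤ → ℝ) (y : Stg V → I) : gA κ ∅ y = fun _ _ => 1 := by
  funext v s
  simp [gA]

theorem gA_pos (hκ : Sched κ) (A : Finset (Stg V)) (y : Stg V → I) : PosG (gA κ A y) := by
  intro v s
  unfold gA
  refine Finset.prod_pos fun c _ => one_add_spin_pos ?_ s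
  have h1 := abs_aY_le (hκ.pos c.2).le (y c)
  have h2 := hκ.le c.2
  linarith

theorem gA_insert {A : Finset (Stg V)} {c : Stg V} (hc : c ∉ A) (y : Stg V → I) :
    gA κ (insert c A) y = tilt (gA κ A y) c.1 (aY (κ c.2) (y c)) := by
  funext v s
  unfold gA tilt
  by_cases hv : v = c.1
  · subst hv
    rw [if_pos rfl, Finset.filter_insert, if_pos rfl, Finset.prod_insert (by simp [hc]), mul_comm]
  · rw [if_neg hv, Finset.filter_insert, if_neg (Ne.symm hv)]

theorem gA_congr {A : Finset (Stg V)} {y y' : Stg V → I} (h : ∀ c ∈ A, y c = y' c) : gA κ A y = gA κ A y' := by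
  funext v s
  unfold gA
  refine Finset.prod_congr rfl fun c hc => ?_
  rw [h c (Finset.mem_filter.mp hc).1]

theorem mem_Act {c : Stg V} :
    c ∈ Act W L U ℓ x ↔ c.1 ∈ W ∧ L ≤ c.2 ∧ c.2 ≤ ℓ ∧ ((c.2 < ℓ ∧ (U c : ℝ) < 1 / 2) ∨ (c.2 = ℓ ∧ (U c : ℝ) < x)) := by
  unfold Act
  simp only [Finset.mem_filter, Finset.mem_product, Finset.mem_Icc, and_assoc]

/-- The end of a cell is the start of the next one. -/
theorem Act_half (W : Finset V) (L : ℤ) (U : Stg V → I) {ℓ : ℤ} (hℓ : L ≤ ℓ) : Act W L U ℓ (1 / 2) = Act W L U (ℓ + 1) 0 := by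
  ext c
  rw [mem_Act, mem_Act]
  have hU0 : (0:ℝ) ≤ U c := (U c).2.1
  constructor
  · rintro ⟨h1, h2, h3, h4⟩
    refine ⟨h1, h2, by omega, Or.inl ?_⟩
    rcases h4 with ⟨h5, h6⟩ | ⟨h5, h6⟩
    · exact ⟨by omega, h6⟩
    · exact ⟨by omega, h6⟩
  · rintro ⟨h1, h2, h3, h4⟩
    rcases h4 with ⟨h5, h6⟩ | ⟨h5, h6⟩
    · refine ⟨h1, h2, by omega, ?_⟩
      by_cases h7 : c.2 = ℓ
      · exact Or.inr ⟨h7, h6⟩
      · exact Or.inl ⟨by omega, h6⟩
    · exact absurd h6 (not_lt.mpr hU0)

/-- The vertex function written without set membership: measurable in everything. -/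
theorem gA_Act_eq (W : Finset V) (L : ℤ) (κ : ℤ → ℝ) (U y : Stg V → I) (ℓ : ℤ) (x : ℝ) (v : V) (s : Bool) (hv : v ∈ W) :
    gA κ (Act W L U ℓ x) y v s =
      ∏ i ∈ Finset.Icc L ℓ, (if (i < ℓ ∧ (U (v, i) : ℝ) < 1 / 2) ∨ (i = ℓ ∧ (U (v, i) : ℝ) < x) then
        1 + aY (κ i) (y (v, i)) * spin s else 1) := by
  unfold gA
  rw [← Finset.prod_filter]
  symm
  refine Finset.prod_bij (fun i _ => (v, i)) ?_ ?_ ?_ ?_
  · intro i hi
    rw [Finset.mem_filter, Finset.mem_Icc] at hi
    rw [Finset.mem_filter, mem_Act]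
    exact ⟨⟨hv, hi.1.1, hi.1.2, hi.2⟩, rfl⟩
  · intro i _ i' _ h
    exact (Prod.ext_iff.mp h).2
  · intro c hc
    rw [Finset.mem_filter, mem_Act] at hc
    obtain ⟨⟨_, h2, h3, h4⟩, h5⟩ := hc
    obtain ⟨a, b⟩ := c
    simp only at h2 h3 h4 h5
    subst h5
    refine ⟨b, ?_, rfl⟩
    rw [Finset.mem_filter, Finset.mem_Icc]
    exact ⟨⟨h2, h3⟩, h4⟩
  · intro i _
    rfl

/-- Stages of a vertex outside `W` are not active. -/
theorem gA_Act_eq_one {v : V} (hv : v ∉ W) (s : Bool) (y : Stg V → I) : gA κ (Act W L U ℓ x) y v s = 1 := by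
  unfold gA
  rw [Finset.filter_false_of_mem, Finset.prod_empty]
  intro c hc he
  rw [mem_Act] at hc
  exact hv (he ▸ hc.1)

/-- The strict predecessors of an active stage are active. -/
theorem Act_down {c d : Stg V} (hc : c ∈ Act W L U ℓ x) (hd : d ∈ Act W L U c.2 (U c)) : d ∈ Act W L U ℓ x := by
  rw [mem_Act] at hc hd ⊢
  obtain ⟨_, _, c3, c4⟩ := hc
  obtain ⟨d1, d2, d3, d4⟩ := hd
  refine ⟨d1, d2, d3.trans c3, ?_⟩
  rcases d4 with ⟨d5, d6⟩ | ⟨d5, d6⟩
  · refine Or.inl ⟨by omega, d6⟩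
  · rcases c4 with ⟨c5, c6⟩ | ⟨c5, c6⟩
    · exact Or.inl ⟨by omega, d6.trans c6⟩
    · exact Or.inr ⟨by omega, d6.trans c6⟩

end gA

section rank

private theorem meas_section {α β γ : Type*} [MeasurableSpace α] [MeasurableSpace β] [MeasurableSpace γ] {f : α → β → γ}
    (h : Measurable (fun q : α × β => f q.1 q.2)) (a : α) : Measurable (f a) :=
  h.comp measurable_prodMk_left

/-- Rank of a stage. -/
noncomputable def rkS (W : Finset V) (L : ℤ) (U : Stg V → I) (c : Stg V) : ℕ :=
  (c.2 - L).toNat * (W.card + 1) + (W.filter (fun u => U (u, c.2) < U c)).card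

theorem rkS_lt_of_mem {c d : Stg V} (hd : d ∈ Act W L U c.2 (U c)) : rkS W L U d < rkS W L U c := by
  rw [mem_Act] at hd
  obtain ⟨d1, d2, d3, d4⟩ := hd
  unfold rkS
  rcases d4 with ⟨d5, _⟩ | ⟨d5, d6⟩
  · have h1 : (W.filter (fun u => U (u, d.2) < U d)).card ≤ W.card := Finset.card_filter_le _ _
    have h2 : (d.2 - L).toNat + 1 ≤ (c.2 - L).toNat := by omega
    have h3 : ((d.2 - L).toNat + 1) * (W.card + 1) ≤ (c.2 - L).toNat * (W.card + 1) :=
      Nat.mul_le_mul_right _ h2
    nlinarith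
  · rw [d5]
    have hlt : U d < U c := d6
    have : (W.filter (fun u => U (u, c.2) < U d)).card < (W.filter (fun u => U (u, c.2) < U c)).card := by
      apply Finset.card_lt_card
      rw [Finset.ssubset_iff_of_subset]
      · refine ⟨d.1, ?_, ?_⟩
        · rw [Finset.mem_filter]
          refine ⟨d1, ?_⟩
          rw [← d5]
          exact hlt
        · rw [Finset.mem_filter]
          rintro ⟨_, h⟩
          rw [← d5] at h
          exact lt_irrefl _ h
      · intro u hu
        simp only [Finset.mem_filter] at hu ⊢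
        exact ⟨hu.1, hu.2.trans hlt⟩
    omega

theorem rkS_lt_bound (c : Stg V) : rkS W L U c < ((c.2 - L).toNat + 1) * (W.card + 1) := by
  unfold rkS
  have h1 : (W.filter (fun u => U (u, c.2) < U c)).card ≤ W.card := Finset.card_filter_le _ _
  nlinarith

/-- The sweep at `c` only sees the predecessors of `c`. -/
theorem stepR_congr (θ : ℝ) (W : Finset V) (L : ℤ) (κ : ℤ → ℝ) (U w : Stg V → I) {Y Y' : Stg V → I} (c : Stg V)
    (h : ∀ d ∈ Act W L U c.2 (U c), Y d = Y' d) : stepR G θ W L κ U w Y c = stepR G θ W L κ U w Y' c := by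
  unfold stepR
  rw [gA_congr h]

theorem iter_stable (θ : ℝ) (W : Finset V) (L : ℤ) (κ : ℤ → ℝ) (U w : Stg V → I) (n : ℕ) :
    ∀ c, rkS W L U c < n → ∀ m, n ≤ m →
      (stepR G θ W L κ U w)^[m] (fun _ => 0) c = (stepR G θ W L κ U w)^[n] (fun _ => 0) c := by
  induction n with
  | zero => intro c hc; omega
  | succ n ih =>
    intro c hc m hm
    obtain ⟨m', rfl⟩ : ∃ m', m = m' + 1 := ⟨m - 1, by omega⟩
    rw [Function.iterate_succ_apply', Function.iterate_succ_apply']
    apply stepR_congr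
    intro d hd
    have := rkS_lt_of_mem hd
    exact ih d (by omega) m' (by omega)

theorem runY_eq_iter {c : Stg V} {n : ℕ} (hn : rkS W L U c < n) :
    runY G θ W L κ U w c = (stepR G θ W L κ U w)^[n] (fun _ => 0) c := by
  unfold runY
  rcases le_total (((c.2 - L).toNat + 1) * (W.card + 1)) n with h | h
  · exact (iter_stable θ W L κ U w _ c (rkS_lt_bound c) n h).symm
  · exact iter_stable θ W L κ U w n c hn _ h

/-- The fixed point equation (without hypotheses). -/
theorem runY_eq_aux (c : Stg V) :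
    runY G θ W L κ U w c = obs (κ c.2 * mv G θ W (gA κ (Act W L U c.2 (U c)) (runY G θ W L κ U w)) c.1) (w c) := by
  rw [runY_eq_iter (Nat.lt_succ_self (rkS W L U c)), Function.iterate_succ_apply']
  change stepR G θ W L κ U w _ c = stepR G θ W L κ U w (runY G θ W L κ U w) c
  apply stepR_congr
  intro d hd
  exact (runY_eq_iter (rkS_lt_of_mem hd)).symm

theorem measurable_gA {A : Finset (Stg V)} (v : V) (s : Bool) : Measurable (fun y : Stg V → I => gA κ A y v s) := by
  unfold gA
  refine Finset.measurable_prod _ fun c _ => ?_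
  exact (measurable_const.add (((measurable_aY _).comp (measurable_pi_apply c)).mul_const _))

theorem measurable_gA_Act_gen {Ω : Type*} [MeasurableSpace Ω] {U : Ω → Stg V → I} {Y : Ω → Stg V → I} {x : Ω → ℝ}
    (hU : Measurable U) (hY : Measurable Y) (hx : Measurable x) (ℓ : ℤ) (v : V) (s : Bool) :
    Measurable (fun ω => gA κ (Act W L (U ω) ℓ (x ω)) (Y ω) v s) := by
  by_cases hv : v ∈ W
  · simp_rw [gA_Act_eq W L κ _ _ ℓ _ v s hv]
    refine Finset.measurable_prod _ fun i _ => ?_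
    have hUi : Measurable (fun ω => ((U ω (v, i) : I) : ℝ)) :=
      measurable_subtype_coe.comp ((measurable_pi_apply (v, i)).comp hU)
    refine Measurable.ite ?_ ?_ measurable_const
    · by_cases h1 : i < ℓ
      · by_cases h2 : i = ℓ
        · omega
        · simp only [h1, h2, true_and, false_and, or_false]
          exact measurableSet_lt hUi measurable_const
      · by_cases h2 : i = ℓ
        · subst h2
          simp only [lt_irrefl, false_and, true_and, false_or]
          exact measurableSet_lt hUi hx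
        · simp only [h1, h2, false_and, or_self]
          exact MeasurableSet.const _
    · exact measurable_const.add (((measurable_aY _).comp ((measurable_pi_apply (v, i)).comp hY)).mul_const _)
  · simp_rw [gA_Act_eq_one hv s]
    exact measurable_const

theorem measurable_iter_joint (n : ℕ) :
    Measurable (fun q : (Stg V → I) × (Stg V → I) => (stepR G θ W L κ q.1 q.2)^[n] (fun _ => 0)) := by
  induction n with
  | zero => simp
  | succ n ih =>
    simp_rw [Function.iterate_succ_apply']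
    rw [measurable_pi_iff]
    intro c
    unfold stepR
    have hU : Measurable (fun q : (Stg V → I) × (Stg V → I) => q.1) := measurable_fst
    have hg : ∀ v s, Measurable (fun q : (Stg V → I) × (Stg V → I) =>
        gA κ (Act W L q.1 c.2 (q.1 c)) ((stepR G θ W L κ q.1 q.2)^[n] (fun _ => 0)) v s) := fun v s =>
      measurable_gA_Act_gen hU ih (measurable_subtype_coe.comp ((measurable_pi_apply c).comp hU)) c.2 v s
    exact measurable_obs.comp (((measurable_mv hg c.1).const_mul _).prodMk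
      ((measurable_pi_apply c).comp measurable_snd))

theorem measurable_runY_joint :
    Measurable (fun q : (Stg V → I) × (Stg V → I) => runY G θ W L κ q.1 q.2) := by
  rw [measurable_pi_iff]
  intro c
  unfold runY
  have h := measurable_iter_joint (G := G) (θ := θ) (W := W) (L := L) (κ := κ) (((c.2 - L).toNat + 1) * (W.card + 1))
  exact measurable_pi_iff.mp h c

end rank

section fix

variable (hκ : Sched κ)
include hκ

/-- **The fixed point equation.** -/
theorem runY_eq (c : Stg V) :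
    runY G θ W L κ U w c = obs (κ c.2 * mv G θ W (gA κ (Act W L U c.2 (U c)) (runY G θ W L κ U w)) c.1) (w c) :=
  runY_eq_aux c

/-- **Causality in the noise**: changing the noise at stage `e` does not change the stages before `e`. -/
theorem runY_update_w (c e : Stg V) (hc : c.1 ∈ W) (he : e.1 ∈ W) (hne : c ≠ e)
    (h : c.2 < e.2 ∨ (c.2 = e.2 ∧ U c < U e)) (hcL : L ≤ c.2) (t : I) :
    runY G θ W L κ U (Function.update w e t) c = runY G θ W L κ U w c := by
  induction hn : rkS W L U c using Nat.strong_induction_on generalizing c with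
  | _ n ih =>
    rw [runY_eq_aux, runY_eq_aux (w := w), Function.update_of_ne hne]
    have key : ∀ d ∈ Act W L U c.2 (U c),
        runY G θ W L κ U (Function.update w e t) d = runY G θ W L κ U w d := by
      intro d hd
      have hlt := rkS_lt_of_mem hd
      rw [mem_Act] at hd
      obtain ⟨d1, d2, d3, d4⟩ := hd
      have hord : d.2 < e.2 ∨ (d.2 = e.2 ∧ U d < U e) := by
        rcases d4 with ⟨d5, _⟩ | ⟨d5, d6⟩
        · rcases h with h | ⟨h, _⟩
          · exact Or.inl (d5.trans h)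
          · exact Or.inl (by omega)
        · rcases h with h | ⟨h, h'⟩
          · exact Or.inl (by omega)
          · exact Or.inr ⟨by omega, lt_trans d6 h'⟩
      have hne' : d ≠ e := by
        rintro rfl
        rcases hord with h | ⟨_, h⟩ <;> exact lt_irrefl _ h
      exact ih _ (hn ▸ hlt) d d1 hne' hord d2 rfl
    rw [gA_congr key]

/-- **Causality in the labels**: two runs with labels and noise differing only at stage `e = (u, ℓ)`, both labels at
least `x`, coincide on the stages before the state `(ℓ, x)`. -/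
theorem runY_agree {e : Stg V} (heℓ : e.2 = ℓ) {U' w' : Stg V → I} (hU : ∀ c, c ≠ e → U c = U' c)
    (hw : ∀ c, c ≠ e → w c = w' c) (h1 : x ≤ U e) (h2 : x ≤ U' e) (c : Stg V)
    (hc : c ∈ Act W L U ℓ x) : runY G θ W L κ U w c = runY G θ W L κ U' w' c := by
  induction hn : rkS W L U c using Nat.strong_induction_on generalizing c with
  | _ n ih =>
    have hce : c ≠ e := by
      rintro rfl
      rw [mem_Act] at hc
      obtain ⟨_, _, _, c4⟩ := hc
      rcases c4 with ⟨c5, _⟩ | ⟨_, c6⟩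
      · omega
      · exact absurd c6 (not_lt.mpr h1)
    rw [runY_eq_aux, runY_eq_aux (U := U') (w := w'), hw c hce, ← hU c hce]
    have hAct : Act W L U c.2 (U c) = Act W L U' c.2 (U c) := by
      ext d
      rw [mem_Act, mem_Act]
      by_cases hde : d = e
      · subst hde
        rw [mem_Act] at hc
        obtain ⟨_, _, c3, c4⟩ := hc
        have hcu : (U c : ℝ) ≤ x ∨ c.2 < ℓ := by
          rcases c4 with ⟨c5, _⟩ | ⟨_, c6⟩
          · exact Or.inr c5
          · exact Or.inl c6.le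
        constructor
        · rintro ⟨_, _, d3, d4⟩
          rcases d4 with ⟨d5, _⟩ | ⟨d5, d6⟩
          · omega
          · rcases hcu with hcu | hcu
            · exact absurd (d6.trans_le hcu) (not_lt.mpr h1)
            · omega
        · rintro ⟨_, _, d3, d4⟩
          rcases d4 with ⟨d5, _⟩ | ⟨d5, d6⟩
          · omega
          · rcases hcu with hcu | hcu
            · exact absurd (d6.trans_le hcu) (not_lt.mpr h2)
            · omega
      · rw [hU d hde]
    have key : ∀ d ∈ Act W L U c.2 (U c), runY G θ W L κ U w d = runY G θ W L κ U' w' d := by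
      intro d hd
      exact ih _ (hn ▸ rkS_lt_of_mem hd) d (Act_down hc hd) rfl
    rw [gA_congr key, hAct]

/-- The state only depends on the labels of the stages below `x`. -/
theorem Act_agree {e : Stg V} (heℓ : e.2 = ℓ) {U' : Stg V → I} (hU : ∀ c, c ≠ e → U c = U' c)
    (h1 : x ≤ U e) (h2 : x ≤ U' e) : Act W L U ℓ x = Act W L U' ℓ x := by
  ext d
  rw [mem_Act, mem_Act]
  by_cases hde : d = e
  · subst hde
    constructor
    · rintro ⟨_, _, _, d4⟩
      rcases d4 with ⟨d5, _⟩ | ⟨_, d6⟩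
      · omega
      · exact absurd d6 (not_lt.mpr h1)
    · rintro ⟨_, _, _, d4⟩
      rcases d4 with ⟨d5, _⟩ | ⟨_, d6⟩
      · omega
      · exact absurd d6 (not_lt.mpr h2)
  · rw [hU d hde]

theorem gSt_agree {e : Stg V} (heℓ : e.2 = ℓ) {U' w' : Stg V → I} (hU : ∀ c, c ≠ e → U c = U' c)
    (hw : ∀ c, c ≠ e → w c = w' c) (h1 : x ≤ U e) (h2 : x ≤ U' e) :
    gSt G θ W L κ ℓ x U w = gSt G θ W L κ ℓ x U' w' := by
  unfold gSt
  rw [← Act_agree hκ heℓ hU h1 h2]
  exact gA_congr fun c hc => runY_agree hκ heℓ hU hw h1 h2 c hc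

theorem measurable_runY_w (U : Stg V → I) : Measurable (fun w => runY G θ W L κ U w) :=
  meas_section (f := runY G θ W L κ) measurable_runY_joint U

omit hκ in
theorem measurable_gSt_joint_all (v : V) (s : Bool) :
    Measurable (fun q : ℝ × (Stg V → I) × (Stg V → I) => gSt G θ W L κ ℓ q.1 q.2.1 q.2.2 v s) := by
  unfold gSt
  exact measurable_gA_Act_gen (measurable_fst.comp measurable_snd)
    (measurable_runY_joint.comp measurable_snd) measurable_fst ℓ v s

theorem measurable_gSt_joint (v : V) (s : Bool) (hv : v ∈ W) :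
    Measurable (fun q : ℝ × (Stg V → I) × (Stg V → I) => gSt G θ W L κ ℓ q.1 q.2.1 q.2.2 v s) :=
  measurable_gSt_joint_all v s

theorem measurable_mSt_joint (v : V) :
    Measurable (fun q : ℝ × (Stg V → I) × (Stg V → I) => mSt G θ W L κ ℓ q.1 q.2.1 q.2.2 v) :=
  measurable_mv (fun v s => measurable_gSt_joint_all v s) v

theorem measurable_cSt_joint (v u : V) :
    Measurable (fun q : ℝ × (Stg V → I) × (Stg V → I) => cSt G θ W L κ ℓ q.1 q.2.1 q.2.2 v u) :=
  measurable_cv (fun v s => measurable_gSt_joint_all v s) v u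

/-- The bound on the vertex functions. -/
theorem gA_le {A B : Finset (Stg V)} (hAB : A ⊆ B) (y : Stg V → I) (v : V) (s : Bool) :
    gA κ A y v s ≤ (4 / 3 : ℝ) ^ B.card := by
  unfold gA
  have h1 : ∀ c ∈ A.filter (fun c => c.1 = v), 1 + aY (κ c.2) (y c) * spin s ≤ 4 / 3 := by
    intro c _
    have h2 := abs_aY_le (hκ.pos c.2).le (y c)
    have h3 := hκ.le c.2
    have h4 : aY (κ c.2) (y c) * spin s ≤ |aY (κ c.2) (y c) * spin s| := le_abs_self _
    rw [abs_mul, abs_spin, mul_one] at h4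
    linarith
  have h5 : ∀ c ∈ A.filter (fun c => c.1 = v), 0 ≤ 1 + aY (κ c.2) (y c) * spin s := by
    intro c _
    have h2 := abs_aY_le (hκ.pos c.2).le (y c)
    have h3 := hκ.le c.2
    exact (one_add_spin_pos (by linarith) s).le
  calc _ ≤ ∏ _c ∈ A.filter (fun c => c.1 = v), (4 / 3 : ℝ) := Finset.prod_le_prod h5 h1
    _ = (4 / 3 : ℝ) ^ (A.filter (fun c => c.1 = v)).card := by rw [Finset.prod_const]
    _ ≤ (4 / 3 : ℝ) ^ B.card := pow_le_pow_right₀ (by norm_num)
      ((Finset.card_filter_le _ _).trans (Finset.card_le_card hAB))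

/-- The bound on the partition function. -/
theorem Zg_gA_le (hθ : |θ| < 1) {A B : Finset (Stg V)} (hAB : A ⊆ B) (y : Stg V → I) :
    |Zg G θ W (gA κ A y)| ≤ ((4 / 3 : ℝ) ^ B.card) ^ W.card * sumW W (Crest.ProbabilityR.TreeIsing.isingWeight G θ W) := by
  rw [abs_of_pos (Zg_pos hθ (gA_pos hκ A y))]
  unfold Zg
  rw [← sumW_mul_left]
  refine sumW_le fun η => ?_
  unfold wt
  rw [mul_comm]
  refine mul_le_mul_of_nonneg_right ?_ (isingWeight_pos hθ W η).le
  calc ∏ v ∈ W, gA κ A y v (η v) ≤ ∏ _v ∈ W, (4 / 3 : ℝ) ^ B.card :=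
        Finset.prod_le_prod (fun v _ => (gA_pos hκ A y v _).le) (fun v _ => gA_le hκ hAB y v _)
    _ = _ := by rw [Finset.prod_const]

theorem bm_Zg_gA (hθ : |θ| < 1) (A : Finset (Stg V)) : BM (fun y => Zg G θ W (gA κ A y)) :=
  ⟨measurable_Zg (fun v s => measurable_gA v s), _, fun y => Zg_gA_le hκ hθ (subset_refl A) y⟩

/-- The predecessors of an active stage. -/
theorem filter_key_eq (hx : x ≤ 1 / 2) {c : Stg V} (hc : c ∈ Act W L U ℓ x) :
    (Act W L U ℓ x).filter (fun d => toLex (d.2, U d) < toLex (c.2, U c)) = Act W L U c.2 (U c) := by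
  ext d
  rw [Finset.mem_filter]
  have hlex : toLex (d.2, U d) < toLex (c.2, U c) ↔ d.2 < c.2 ∨ (d.2 = c.2 ∧ U d < U c) := by
    rw [Prod.Lex.toLex_lt_toLex]
  rw [hlex]
  constructor
  · rintro ⟨hd, hk⟩
    rw [mem_Act] at hd hc ⊢
    obtain ⟨d1, d2, d3, d4⟩ := hd
    refine ⟨d1, d2, ?_, ?_⟩
    · rcases hk with h | ⟨h, _⟩ <;> omega
    · rcases hk with h | ⟨h, h'⟩
      · refine Or.inl ⟨h, ?_⟩
        rcases d4 with ⟨_, h5⟩ | ⟨_, h5⟩
        · exact h5
        · exact h5.trans_le hx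
      · exact Or.inr ⟨h, h'⟩
  · intro hd
    refine ⟨Act_down hc hd, ?_⟩
    rw [mem_Act] at hd
    obtain ⟨_, _, _, d4⟩ := hd
    rcases d4 with ⟨h, _⟩ | ⟨h, h'⟩
    · exact Or.inl h
    · exact Or.inr ⟨h, h'⟩

/-- The sequential run structure, for injective labels. -/
theorem seqRun (hθ : |θ| < 1) (hZ1 : Zg G θ W (fun _ _ => 1) = 1) (hU : ∀ i, Set.InjOn (fun v => U (v, i)) W) (ℓ : ℤ) (hx : x ≤ 1 / 2) :
    SeqRun (Act W L U ℓ x) (fun c : Stg V => toLex (c.2, U c))
      (fun A c y => κ c.2 * mv G θ W (gA κ A y) c.1) (fun A y => Zg G θ W (gA κ A y)) (runY G θ W L κ U) where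
  key_inj := by
    intro c hc d hd h
    have hc' := (mem_Act.mp (Finset.mem_coe.mp hc)).1
    have hd' := (mem_Act.mp (Finset.mem_coe.mp hd)).1
    have h' := (toLex.injective h)
    have h1 : c.2 = d.2 := (Prod.ext_iff.mp h').1
    have h2 : U c = U d := (Prod.ext_iff.mp h').2
    obtain ⟨a, i⟩ := c
    obtain ⟨b, j⟩ := d
    simp only at h1 h2 hc' hd'
    subst h1
    have := hU i (Finset.mem_coe.mpr hc') (Finset.mem_coe.mpr hd') h2
    rw [this]
  par_bd := fun A c y =>
    abs_par_le (hκ.pos c.2).le (hκ.le c.2) (abs_mv_le hθ (gA_pos hκ A y) c.1)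
  par_meas := fun A c => (measurable_mv (fun v s => measurable_gA v s) c.1).const_mul _
  par_dep := fun A c y y' h => by
    show κ c.2 * mv G θ W (gA κ A y) c.1 = κ c.2 * mv G θ W (gA κ A y') c.1
    rw [gA_congr h]
  Z_bm := fun A => bm_Zg_gA hκ hθ A
  Z_dep := fun A y y' h => by
    show Zg G θ W (gA κ A y) = Zg G θ W (gA κ A y')
    rw [gA_congr h]
  Z_empty := fun y => by
    rw [gA_empty]
    exact hZ1
  Z_insert := fun A _ c hc hcA y => by
    show Zg G θ W (gA κ (insert c A) y) = Zg G θ W (gA κ A y) * dens (κ c.2 * mv G θ W (gA κ A y) c.1) (y c)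
    rw [gA_insert hcA, Zg_tilt hθ (gA_pos hκ A y) (mem_Act.mp hc).1, dens_eq]
  Y_meas := measurable_runY_w hκ U
  Y_fix := fun w c hc => by
    show runY G θ W L κ U w c = obs (κ c.2 * mv G θ W (gA κ ((Act W L U ℓ x).filter (fun d => toLex (d.2, U d) < toLex (c.2, U c))) (runY G θ W L κ U w)) c.1) (w c)
    rw [filter_key_eq hκ hx hc]
    exact runY_eq hκ c
  Y_causal := fun w c hc t d hd hk => by
    have hd' := mem_Act.mp hd
    have hc' := mem_Act.mp hc
    have hlex : d.2 < c.2 ∨ (d.2 = c.2 ∧ U d < U c) := by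
      have := Prod.Lex.toLex_lt_toLex.mp hk
      exact this
    refine runY_update_w hκ d c hd'.1 hc'.1 ?_ hlex hd'.2.1 t
    rintro rfl
    exact lt_irrefl _ hk

/-- **The law of the run for fixed labels.** -/
theorem run_law_U (hθ : |θ| < 1) (hZ1 : Zg G θ W (fun _ _ => 1) = 1) (hU : ∀ i, Set.InjOn (fun v => U (v, i)) W) (hx : x ≤ 1 / 2)
    {φ : (Stg V → I) → ℝ} (hφ : BM φ) (hdep : Dep φ (Act W L U ℓ x)) :
    ∫ w, φ (runY G θ W L κ U w) ∂Lam (Stg V) =
      ∫ y, φ y * Zg G θ W (gA κ (Act W L U ℓ x) y) ∂Lam (Stg V) :=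
  seq_law (seqRun hκ hθ hZ1 hU ℓ hx) (subset_refl _) hφ hdep

omit hκ in
/-- Almost all labels are injective on the stages of a cell. -/
theorem ae_labels_inj (W : Finset V) : ∀ᵐ U ∂(Lam (Stg V)), ∀ i : ℤ, Set.InjOn (fun v => U (v, i)) W := by
  rw [ae_all_iff]
  intro i
  filter_upwards [Crest.Agent.Lib.FiidCauchy.ae_injOn (W.map ⟨fun v => (v, i), fun a b h => (Prod.ext_iff.mp h).1⟩)]
    with U hU a ha b hb hab
  have := hU (Finset.mem_coe.mpr (Finset.mem_map_of_mem _ ha)) (Finset.mem_coe.mpr (Finset.mem_map_of_mem _ hb)) hab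
  exact (Prod.ext_iff.mp this).1

/-- **The law of the run.** -/
theorem run_law (hθ : |θ| < 1) (hZ1 : Zg G θ W (fun _ _ => 1) = 1) (hx : x ≤ 1 / 2) {φ : (Stg V → I) → (Stg V → I) → ℝ}
    (hφ : BM (fun q : (Stg V → I) × (Stg V → I) => φ q.1 q.2)) (hdep : ∀ U, Dep (φ U) (Act W L U ℓ x)) :
    ∫ q, φ q.1 (runY G θ W L κ q.1 q.2) ∂noiseP V =
      ∫ q, φ q.1 q.2 * Zg G θ W (gA κ (Act W L q.1 ℓ x) q.2) ∂noiseP V := by
  have hb1 : BM (fun q : (Stg V → I) × (Stg V → I) => φ q.1 (runY G θ W L κ q.1 q.2)) :=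
    hφ.comp (measurable_fst.prodMk measurable_runY_joint)
  have hb2 : BM (fun q : (Stg V → I) × (Stg V → I) => φ q.1 q.2 * Zg G θ W (gA κ (Act W L q.1 ℓ x) q.2)) := by
    refine hφ.mul ⟨measurable_Zg (fun v s => ?_), ((4 / 3 : ℝ) ^ (W ×ˢ Finset.Icc L ℓ).card) ^ W.card * sumW W (Crest.ProbabilityR.TreeIsing.isingWeight G θ W),
      fun q => Zg_gA_le hκ hθ (Finset.filter_subset _ _) q.2⟩
    exact measurable_gA_Act_gen measurable_fst measurable_snd measurable_const ℓ v s
  unfold noiseP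
  rw [integral_prod _ (hb1.integrable _), integral_prod _ (hb2.integrable _)]
  apply integral_congr_ae
  filter_upwards [ae_labels_inj W] with U hU
  exact run_law_U hκ hθ hZ1 hU hx (hφ.comp (measurable_const.prodMk measurable_id)) (hdep U)

end fix

section aut

/-- The action of automorphisms on labels. -/
noncomputable def actL (g : G ≃g G) (U : Stg V → I) : Stg V → I := fun c => U (g.symm c.1, c.2)

/-- The stages of the moved state. -/
theorem mem_Act_map (g : G ≃g G) {c : Stg V} :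
    c ∈ Act (W.map g.toEquiv.toEmbedding) L (actL g U) ℓ x ↔ (g.symm c.1, c.2) ∈ Act W L U ℓ x := by
  rw [mem_Act, mem_Act]
  simp only [actL]
  have : c.1 ∈ W.map g.toEquiv.toEmbedding ↔ g.symm c.1 ∈ W := by
    rw [Finset.mem_map]
    constructor
    · rintro ⟨a, ha, hac⟩
      have : a = g.symm c.1 := by
        rw [← hac]
        exact (g.symm_apply_apply a).symm
      exact this ▸ ha
    · intro h
      exact ⟨_, h, g.apply_symm_apply c.1⟩
  rw [this]

theorem gA_map (g : G ≃g G) (Y : Stg V → I) (v : V) (s : Bool) :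
    gA κ (Act (W.map g.toEquiv.toEmbedding) L (actL g U) ℓ x) (actL g Y) v s = gA κ (Act W L U ℓ x) Y (g.symm v) s := by
  unfold gA
  refine Finset.prod_bij (fun c _ => (g.symm c.1, c.2)) ?_ ?_ ?_ ?_
  · intro c hc
    rw [Finset.mem_filter, mem_Act_map] at hc
    rw [Finset.mem_filter]
    exact ⟨hc.1, by rw [hc.2]⟩
  · intro c _ d _ h
    have h1 := (Prod.ext_iff.mp h).1
    have h2 := (Prod.ext_iff.mp h).2
    exact Prod.ext (g.symm.injective h1) h2
  · intro c hc
    rw [Finset.mem_filter] at hc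
    refine ⟨(g c.1, c.2), ?_, ?_⟩
    · rw [Finset.mem_filter, mem_Act_map]
      simp only [g.symm_apply_apply]
      refine ⟨hc.1, ?_⟩
      rw [hc.2]
      exact g.apply_symm_apply v
    · simp
  · intro c _
    rfl

theorem stepR_map (g : G ≃g G) (Y : Stg V → I) (c : Stg V) :
    stepR G θ (W.map g.toEquiv.toEmbedding) L κ (actL g U) (actL g w) (actL g Y) (g c.1, c.2) =
      stepR G θ W L κ U w Y c := by
  unfold stepR
  have h1 : actL g U (g c.1, c.2) = U c := by simp [actL]
  have h2 : actL g w (g c.1, c.2) = w c := by simp [actL]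
  rw [h1, h2]
  simp only
  have h3 : gA κ (Act (W.map g.toEquiv.toEmbedding) L (actL g U) c.2 (U c)) (actL g Y) =
      fun u s => gA κ (Act W L U c.2 (U c)) Y (g.symm u) s := by
    funext u s
    exact gA_map g Y u s
  rw [h3, mv_aut]

theorem iter_map (g : G ≃g G) (n : ℕ) :
    (stepR G θ (W.map g.toEquiv.toEmbedding) L κ (actL g U) (actL g w))^[n] (fun _ => 0) =
      actL g ((stepR G θ W L κ U w)^[n] (fun _ => 0)) := by
  induction n with
  | zero => rfl
  | succ n ih =>
    rw [Function.iterate_succ_apply', Function.iterate_succ_apply', ih]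
    funext c
    obtain ⟨v, i⟩ := c
    obtain ⟨u, rfl⟩ := g.surjective v
    have := stepR_map (θ := θ) (W := W) (L := L) (κ := κ) (U := U) (w := w) g
      ((stepR G θ W L κ U w)^[n] (fun _ => 0)) (u, i)
    simp only at this
    rw [this]
    simp [actL]

variable (hκ : Sched κ)
include hκ

theorem runY_aut (g : G ≃g G) (c : Stg V) :
    runY G θ (W.map g.toEquiv.toEmbedding) L κ (actL g U) (actL g w) (g c.1, c.2) = runY G θ W L κ U w c := by
  unfold runY
  rw [iter_map, Finset.card_map]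
  simp [actL]

omit hκ in
theorem runY_aut' (g : G ≃g G) :
    runY G θ (W.map g.toEquiv.toEmbedding) L κ (actL g U) (actL g w) = actL g (runY G θ W L κ U w) := by
  funext c
  unfold runY
  rw [iter_map, Finset.card_map]
  simp [actL]

omit hκ in
theorem gSt_aut (g : G ≃g G) :
    gSt G θ (W.map g.toEquiv.toEmbedding) L κ ℓ x (actL g U) (actL g w) =
      fun u s => gSt G θ W L κ ℓ x U w (g.symm u) s := by
  funext u s
  unfold gSt
  rw [runY_aut', gA_map]

theorem mSt_aut (g : G ≃g G) (v : V) :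
    mSt G θ (W.map g.toEquiv.toEmbedding) L κ ℓ x (actL g U) (actL g w) (g v) = mSt G θ W L κ ℓ x U w v := by
  unfold mSt
  rw [gSt_aut, mv_aut]

theorem cSt_aut (g : G ≃g G) (v u : V) :
    cSt G θ (W.map g.toEquiv.toEmbedding) L κ ℓ x (actL g U) (actL g w) (g v) (g u) = cSt G θ W L κ ℓ x U w v u := by
  unfold cSt
  rw [gSt_aut, cv_aut]

omit hκ in
theorem measurable_actL (g : G ≃g G) : Measurable (actL (V := V) g) := by
  rw [measurable_pi_iff]
  intro c
  exact measurable_pi_apply _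

omit hκ in
theorem map_actL (g : G ≃g G) : (Lam (Stg V)).map (actL g) = Lam (Stg V) := by
  have := Crest.Agent.Lib.FiidNoise.map_comp_injective (J := Stg V) (J' := Stg V) (fun c => (g.symm c.1, c.2))
    (fun a b h => Prod.ext (g.symm.injective (Prod.ext_iff.mp h).1) (Prod.ext_iff.mp h).2)
  exact this

end aut

section increment

/-- `τ κ` bounds the second moment of the coefficient `s`. -/
noncomputable def tauK (κ : ℝ) : ℝ := κ ^ 2 / (3 * (1 - κ))

/-- The bound on the increment at the stage `(u, ℓ)`. -/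
noncomputable def incU (G : SimpleGraph V) (θ₁ θ₂ : ℝ) (W₁ W₂ : Finset V) (L₁ L₂ : ℤ) (κ : ℤ → ℝ) (ℓ : ℤ) (x : ℝ) (U w : Stg V → I) (v u : V) : ℝ :=
  if u ∈ W₁ then
    (if u ∈ W₂ then
      2 * tauK (κ ℓ) * (cSt G θ₁ W₁ L₁ κ ℓ x U w v u - cSt G θ₂ W₂ L₂ κ ℓ x U w v u) ^ 2 +
        32 * κ ℓ ^ 4 * cSt G θ₂ W₂ L₂ κ ℓ x U w v u ^ 2 *
          (mSt G θ₁ W₁ L₁ κ ℓ x U w u - mSt G θ₂ W₂ L₂ κ ℓ x U w u) ^ 2
     else tauK (κ ℓ) * cSt G θ₁ W₁ L₁ κ ℓ x U w v u ^ 2)
  else tauK (κ ℓ) * cSt G θ₂ W₂ L₂ κ ℓ x U w v u ^ 2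

-- `increment` and `intervalIntegrable_incU` are in `TI/RunInc.lean` (import that file).

end increment

end Crest.Agent.Lib.TI
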