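import Crest.Agent.Lib.TI.Run
import Crest.Agent.Lib.FiidCauchy

/-!
# The increment inequality (S0241 project, module TI.RunInc)

Two runs with the same labels and noise. Adding the stage `(u, ℓ)` moves the mean at `v` by `s * c`, with `s` of mean zero
given the past. Telescoping over the stages of the cell, in the order of the labels; each stage is then resampled.
-/

set_option autoImplicit false

namespace Crest.Agent.Lib.TI

open MeasureTheory Set Classical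
open scoped unitInterval
open Crest.Agent.Lib.FiidChannel Crest.Agent.Lib.FiidPlanted

variable {V : Type*} {G : SimpleGraph V}
variable {θ θ₁ θ₂ : ℝ} {W W₁ W₂ : Finset V} {L L₁ L₂ : ℤ} {κ : ℤ → ℝ} {ℓ : ℤ} {x x₁ x₂ : ℝ} {U w : Stg V → I}

/-! ### One stage -/

section window

theorem Act_eq_of_no_label {x' : ℝ} (hx : x ≤ x')
    (h : ∀ u ∈ W, ¬ (x ≤ (U (u, ℓ) : ℝ) ∧ (U (u, ℓ) : ℝ) < x')) :
    Act W L U ℓ x = Act W L U ℓ x' := by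
  ext c
  simp only [mem_Act]
  constructor
  · rintro ⟨h1, h2, h3, h4 | h4⟩
    · exact ⟨h1, h2, h3, Or.inl h4⟩
    · exact ⟨h1, h2, h3, Or.inr ⟨h4.1, h4.2.trans_le hx⟩⟩
  · rintro ⟨h1, h2, h3, h4 | ⟨h4, h5⟩⟩
    · exact ⟨h1, h2, h3, Or.inl h4⟩
    · refine ⟨h1, h2, h3, Or.inr ⟨h4, ?_⟩⟩
      obtain ⟨u, i⟩ := c
      simp only at h4 h1 h5 ⊢
      subst h4
      by_contra hlt
      exact h u h1 ⟨not_lt.mp hlt, h5⟩

theorem Act_window (hL : L ≤ ℓ) {u : V} {x' : ℝ} (hu : u ∈ W) (hτ : (U (u, ℓ) : ℝ) < x')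
    (honly : ∀ u' ∈ W, (U (u, ℓ) : ℝ) ≤ U (u', ℓ) → (U (u', ℓ) : ℝ) < x' → u' = u) :
    Act W L U ℓ x' = insert (u, ℓ) (Act W L U ℓ (U (u, ℓ))) := by
  ext c
  simp only [mem_Act, Finset.mem_insert]
  constructor
  · rintro ⟨h1, h2, h3, h4 | ⟨h4, h5⟩⟩
    · exact Or.inr ⟨h1, h2, h3, Or.inl h4⟩
    · obtain ⟨u', i⟩ := c
      simp only at h4 h1 h5 ⊢
      subst h4
      by_cases hlt : (U (u', i) : ℝ) < U (u, i)
      · exact Or.inr ⟨h1, h2, h3, Or.inr ⟨rfl, hlt⟩⟩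
      · left
        rw [honly u' h1 (not_lt.mp hlt) h5]
  · rintro (rfl | ⟨h1, h2, h3, h4 | ⟨h4, h5⟩⟩)
    · exact ⟨hu, hL, le_rfl, Or.inr ⟨rfl, hτ⟩⟩
    · exact ⟨h1, h2, h3, Or.inl h4⟩
    · exact ⟨h1, h2, h3, Or.inr ⟨h4, h5.trans hτ⟩⟩

theorem not_mem_Act_self {u : V} : (u, ℓ) ∉ Act W L U ℓ (U (u, ℓ)) := by
  simp [mem_Act]

/-- The jump of the mean at `v` of one run at the stage `(u, ℓ)`, with state `(ℓ, x)` and noise `t`. -/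
noncomputable def jmp (G : SimpleGraph V) (θ : ℝ) (W : Finset V) (L : ℤ) (κ : ℤ → ℝ) (ℓ : ℤ) (x : ℝ) (U w : Stg V → I)
    (v u : V) (t : I) : ℝ :=
  if u ∈ W then sS (κ ℓ) (mSt G θ W L κ ℓ x U w u) t * cSt G θ W L κ ℓ x U w v u else 0

theorem mSt_congr_window {x' : ℝ} (hx : x ≤ x')
    (h : ∀ u ∈ W, ¬ (x ≤ (U (u, ℓ) : ℝ) ∧ (U (u, ℓ) : ℝ) < x')) (v : V) :
    mSt G θ W L κ ℓ x U w v = mSt G θ W L κ ℓ x' U w v := by
  unfold mSt gSt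
  rw [Act_eq_of_no_label hx h]

theorem sched_le (hκ : Sched κ) (ℓ : ℤ) : |κ ℓ| ≤ 1 / 3 := by
  rw [abs_of_pos (hκ.pos ℓ)]; exact hκ.le ℓ

/-- **One stage.** -/
theorem mSt_step (hκ : Sched κ) (hθ : |θ| < 1) (hL : L ≤ ℓ) {u : V} {x' : ℝ} (hτ : (U (u, ℓ) : ℝ) < x')
    (honly : ∀ u' ∈ W, (U (u, ℓ) : ℝ) ≤ U (u', ℓ) → (U (u', ℓ) : ℝ) < x' → u' = u) (v : V) :
    mSt G θ W L κ ℓ x' U w v =
      mSt G θ W L κ ℓ (U (u, ℓ)) U w v + jmp G θ W L κ ℓ (U (u, ℓ)) U w v u (w (u, ℓ)) := by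
  by_cases hu : u ∈ W
  · have hk0 := (hκ.pos ℓ).le
    have hk1 := hκ.le ℓ
    unfold mSt gSt jmp
    simp only [hu, if_true]
    rw [Act_window hL hu hτ honly, gA_insert not_mem_Act_self]
    have ha : |aY (κ ℓ) (runY G θ W L κ U w (u, ℓ))| < 1 := by
      have := abs_aY_le hk0 (runY G θ W L κ U w (u, ℓ))
      linarith
    simp only []
    rw [mv_tilt hθ (gA_pos hκ _ _) hu ha]
    congr 1
    unfold cSt mSt gSt sS
    congr 1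
    have hrun := runY_eq (G := G) (θ := θ) (W := W) (L := L) (U := U) (w := w) hκ (u, ℓ)
    simp only [] at hrun
    rw [← hrun]
  · have h := mSt_congr_window (G := G) (θ := θ) (L := L) (κ := κ) (w := w) (W := W) (ℓ := ℓ) (U := U) hτ.le
      (x' := x') (fun u' hu' h' => hu (by rw [← honly u' hu' h'.1 h'.2]; exact hu')) v
    unfold jmp
    simp only [hu, if_false, add_zero]
    exact h.symm

end window

/-! ### The integral of a jump -/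

section jump

variable {κ₀ m m₁ m₂ : ℝ}

lemma measurable_sS_t (κ₀ m : ℝ) : Measurable (fun t : I => sS κ₀ m t) := by
  have h : Measurable (fun t : I => ((m, t) : ℝ × I)) := Measurable.prodMk measurable_const measurable_id
  exact Measurable.comp (g := fun p : ℝ × I => sS κ₀ p.1 p.2) (f := fun t : I => (m, t)) (measurable_sS κ₀) h

lemma bm_sS_t (h0 : 0 ≤ κ₀) (h1 : κ₀ ≤ 1 / 3) (hm : |m| ≤ 1) : BM (fun t : I => sS κ₀ m t) :=
  ⟨measurable_sS_t κ₀ m, 3 / 2 * κ₀, abs_sS_le h0 h1 hm⟩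

lemma bm_sq {Ω : Type*} [MeasurableSpace Ω] {φ : Ω → ℝ} (h : BM φ) : BM (fun x => φ x ^ 2) := by
  simpa only [pow_two] using h.mul h

lemma bm_sS_sq (h0 : 0 ≤ κ₀) (h1 : κ₀ ≤ 1 / 3) (hm : |m| ≤ 1) : BM (fun t : I => sS κ₀ m t ^ 2) :=
  bm_sq (bm_sS_t h0 h1 hm)

theorem integral_jump_both (h0 : 0 ≤ κ₀) (h1 : κ₀ ≤ 1 / 3) (hm₁ : |m₁| ≤ 1) (hm₂ : |m₂| ≤ 1) (c₁ c₂ D : ℝ) :
    ∫ t : I, ((D + (sS κ₀ m₁ t * c₁ - sS κ₀ m₂ t * c₂)) ^ 2 - D ^ 2) ≤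
      2 * tauK κ₀ * (c₁ - c₂) ^ 2 + 32 * κ₀ ^ 4 * c₂ ^ 2 * (m₁ - m₂) ^ 2 := by
  have hb1 := bm_sS_t h0 h1 hm₁
  have hb2 := bm_sS_t h0 h1 hm₂
  have hs1 := bm_sS_sq h0 h1 hm₁
  have hle : ∀ t : I, (D + (sS κ₀ m₁ t * c₁ - sS κ₀ m₂ t * c₂)) ^ 2 - D ^ 2 ≤
      (2 * D * c₁) * sS κ₀ m₁ t + (-(2 * D * c₂)) * sS κ₀ m₂ t + (2 * (c₁ - c₂) ^ 2) * sS κ₀ m₁ t ^ 2 +
        32 * κ₀ ^ 4 * c₂ ^ 2 * (m₁ - m₂) ^ 2 := by
    intro t
    have hd := abs_sS_sub_le h0 h1 hm₁ hm₂ t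
    set s₁ := sS κ₀ m₁ t
    set s₂ := sS κ₀ m₂ t
    have hsq : (s₁ - s₂) ^ 2 ≤ 16 * κ₀ ^ 4 * (m₁ - m₂) ^ 2 := by
      rw [← sq_abs (s₁ - s₂)]
      calc |s₁ - s₂| ^ 2 ≤ (4 * κ₀ ^ 2 * |m₁ - m₂|) ^ 2 := pow_le_pow_left₀ (abs_nonneg _) hd 2
        _ = 16 * κ₀ ^ 4 * (m₁ - m₂) ^ 2 := by rw [mul_pow, sq_abs]; ring
    have hc : c₂ ^ 2 * (s₁ - s₂) ^ 2 ≤ c₂ ^ 2 * (16 * κ₀ ^ 4 * (m₁ - m₂) ^ 2) :=
      mul_le_mul_of_nonneg_left hsq (by positivity)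
    nlinarith [sq_nonneg (s₁ * (c₁ - c₂) - (s₁ - s₂) * c₂)]
  have hint0 : Integrable (fun t : I => (D + (sS κ₀ m₁ t * c₁ - sS κ₀ m₂ t * c₂)) ^ 2 - D ^ 2) := by
    have : BM (fun t : I => D + (sS κ₀ m₁ t * c₁ - sS κ₀ m₂ t * c₂)) :=
      (BM.const D).add ((hb1.mul (BM.const c₁)).sub (hb2.mul (BM.const c₂)))
    have h2 : BM (fun t : I => (D + (sS κ₀ m₁ t * c₁ - sS κ₀ m₂ t * c₂)) ^ 2 - D ^ 2) :=
      (bm_sq this).sub (BM.const (D ^ 2))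
    exact h2.integrable _
  have hi1 : Integrable (fun t : I => (2 * D * c₁) * sS κ₀ m₁ t) := (hb1.integrable _).const_mul _
  have hi2 : Integrable (fun t : I => (-(2 * D * c₂)) * sS κ₀ m₂ t) := (hb2.integrable _).const_mul _
  have hi3 : Integrable (fun t : I => (2 * (c₁ - c₂) ^ 2) * sS κ₀ m₁ t ^ 2) := (hs1.integrable _).const_mul _
  have hi12 : Integrable (fun t : I => (2 * D * c₁) * sS κ₀ m₁ t + (-(2 * D * c₂)) * sS κ₀ m₂ t) := hi1.add hi2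
  have hi123 : Integrable (fun t : I => (2 * D * c₁) * sS κ₀ m₁ t + (-(2 * D * c₂)) * sS κ₀ m₂ t +
      (2 * (c₁ - c₂) ^ 2) * sS κ₀ m₁ t ^ 2) := hi12.add hi3
  calc _ ≤ ∫ t : I, ((2 * D * c₁) * sS κ₀ m₁ t + (-(2 * D * c₂)) * sS κ₀ m₂ t + (2 * (c₁ - c₂) ^ 2) * sS κ₀ m₁ t ^ 2 +
        32 * κ₀ ^ 4 * c₂ ^ 2 * (m₁ - m₂) ^ 2) :=
        integral_mono hint0 (hi123.add (integrable_const _)) hle
    _ = (2 * (c₁ - c₂) ^ 2) * (∫ t : I, sS κ₀ m₁ t ^ 2) + 32 * κ₀ ^ 4 * c₂ ^ 2 * (m₁ - m₂) ^ 2 := by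
        rw [integral_add hi123 (integrable_const _), integral_add hi12 hi3,
          integral_add hi1 hi2, integral_const_mul, integral_const_mul, integral_const_mul,
          integral_sS h0 h1 hm₁, integral_sS h0 h1 hm₂]
        simp
    _ ≤ (2 * (c₁ - c₂) ^ 2) * (κ₀ ^ 2 / (3 * (1 - κ₀))) + 32 * κ₀ ^ 4 * c₂ ^ 2 * (m₁ - m₂) ^ 2 := by
        have h3 : 0 ≤ 2 * (c₁ - c₂) ^ 2 := by positivity
        have := mul_le_mul_of_nonneg_left (integral_sS_sq h0 h1 hm₁) h3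
        linarith
    _ = 2 * tauK κ₀ * (c₁ - c₂) ^ 2 + 32 * κ₀ ^ 4 * c₂ ^ 2 * (m₁ - m₂) ^ 2 := by
        unfold tauK; ring

theorem integral_jump_one (h0 : 0 ≤ κ₀) (h1 : κ₀ ≤ 1 / 3) (hm : |m| ≤ 1) (c D : ℝ) :
    ∫ t : I, ((D + sS κ₀ m t * c) ^ 2 - D ^ 2) ≤ tauK κ₀ * c ^ 2 := by
  have hb1 := bm_sS_t h0 h1 hm
  have hs1 := bm_sS_sq h0 h1 hm
  have he : ∀ t : I, (D + sS κ₀ m t * c) ^ 2 - D ^ 2 = (2 * D * c) * sS κ₀ m t + c ^ 2 * sS κ₀ m t ^ 2 := by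
    intro t; ring
  simp_rw [he]
  have hi1 : Integrable (fun t : I => (2 * D * c) * sS κ₀ m t) := (hb1.integrable _).const_mul _
  have hi3 : Integrable (fun t : I => c ^ 2 * sS κ₀ m t ^ 2) := (hs1.integrable _).const_mul _
  rw [integral_add hi1 hi3, integral_const_mul, integral_const_mul, integral_sS h0 h1 hm, mul_zero, zero_add]
  have h3 : 0 ≤ c ^ 2 := by positivity
  have := mul_le_mul_of_nonneg_left (integral_sS_sq h0 h1 hm) h3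
  unfold tauK
  linarith

theorem tauK_nonneg (h1 : κ₀ ≤ 1 / 3) : 0 ≤ tauK κ₀ := by
  unfold tauK
  apply div_nonneg (by positivity)
  linarith

end jump

/-! ### Telescoping -/

section tele

/-- Difference of the means. -/
noncomputable def dD (G : SimpleGraph V) (θ₁ θ₂ : ℝ) (W₁ W₂ : Finset V) (L₁ L₂ : ℤ) (κ : ℤ → ℝ) (ℓ : ℤ) (x : ℝ) (U w : Stg V → I)
    (v : V) : ℝ :=
  mSt G θ₁ W₁ L₁ κ ℓ x U w v - mSt G θ₂ W₂ L₂ κ ℓ x U w v

/-- The jump of the squared difference. -/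
noncomputable def jJ (G : SimpleGraph V) (θ₁ θ₂ : ℝ) (W₁ W₂ : Finset V) (L₁ L₂ : ℤ) (κ : ℤ → ℝ) (ℓ : ℤ) (x : ℝ) (U w : Stg V → I)
    (v u : V) (t : I) : ℝ :=
  (dD G θ₁ θ₂ W₁ W₂ L₁ L₂ κ ℓ x U w v +
      (jmp G θ₁ W₁ L₁ κ ℓ x U w v u t - jmp G θ₂ W₂ L₂ κ ℓ x U w v u t)) ^ 2 -
    dD G θ₁ θ₂ W₁ W₂ L₁ L₂ κ ℓ x U w v ^ 2

/-- The vertices of the cell with labels in a window. -/
noncomputable def winS (W₁ W₂ : Finset V) (U : Stg V → I) (ℓ : ℤ) (x₁ x₂ : ℝ) : Finset V :=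
  (W₁ ∪ W₂).filter (fun u => x₁ ≤ (U (u, ℓ) : ℝ) ∧ (U (u, ℓ) : ℝ) < x₂)

theorem mem_winS {u : V} : u ∈ winS W₁ W₂ U ℓ x₁ x₂ ↔ u ∈ W₁ ∪ W₂ ∧ x₁ ≤ (U (u, ℓ) : ℝ) ∧ (U (u, ℓ) : ℝ) < x₂ := by
  unfold winS; rw [Finset.mem_filter]

theorem tele (hκ : Sched κ) (hθ₁ : |θ₁| < 1) (hθ₂ : |θ₂| < 1) (hL₁ : L₁ ≤ ℓ) (hL₂ : L₂ ≤ ℓ)
    (hU : Set.InjOn (fun u => U (u, ℓ)) (W₁ ∪ W₂ : Finset V)) (v : V) :
    ∀ (n : ℕ) (x₂ : ℝ), x₁ ≤ x₂ → (winS W₁ W₂ U ℓ x₁ x₂).card = n →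
      dD G θ₁ θ₂ W₁ W₂ L₁ L₂ κ ℓ x₂ U w v ^ 2 - dD G θ₁ θ₂ W₁ W₂ L₁ L₂ κ ℓ x₁ U w v ^ 2 =
        ∑ u ∈ winS W₁ W₂ U ℓ x₁ x₂, jJ G θ₁ θ₂ W₁ W₂ L₁ L₂ κ ℓ (U (u, ℓ)) U w v u (w (u, ℓ)) := by
  intro n
  induction n with
  | zero =>
    intro x₂ hx hcard
    have hemp := Finset.card_eq_zero.mp hcard
    rw [hemp, Finset.sum_empty]
    have hno : ∀ u ∈ W₁ ∪ W₂, ¬ (x₁ ≤ (U (u, ℓ) : ℝ) ∧ (U (u, ℓ) : ℝ) < x₂) := fun u hu h => by
      have : u ∈ winS W₁ W₂ U ℓ x₁ x₂ := mem_winS.mpr ⟨hu, h⟩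
      rw [hemp] at this
      simp at this
    unfold dD
    rw [mSt_congr_window hx (fun u hu => hno u (Finset.mem_union_left _ hu)) v,
      mSt_congr_window hx (fun u hu => hno u (Finset.mem_union_right _ hu)) v]
    ring
  | succ n ih =>
    intro x₂ hx hcard
    have hne : (winS W₁ W₂ U ℓ x₁ x₂).Nonempty := Finset.card_pos.mp (by omega)
    obtain ⟨u₀, hu₀, hmax⟩ := Finset.exists_max_image _ (fun u => (U (u, ℓ) : ℝ)) hne
    have hu₀' := mem_winS.mp hu₀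
    have honly : ∀ u' ∈ W₁ ∪ W₂, (U (u₀, ℓ) : ℝ) ≤ U (u', ℓ) → (U (u', ℓ) : ℝ) < x₂ → u' = u₀ := by
      intro u' hu' h1 h2
      have hin : u' ∈ winS W₁ W₂ U ℓ x₁ x₂ := mem_winS.mpr ⟨hu', hu₀'.2.1.trans h1, h2⟩
      have h3 := hmax u' hin
      have h4 : (U (u', ℓ) : ℝ) = U (u₀, ℓ) := le_antisymm h3 h1
      exact hU (by exact_mod_cast hu') (by exact_mod_cast hu₀'.1) (Subtype.ext h4)
    have hwin : winS W₁ W₂ U ℓ x₁ (U (u₀, ℓ)) = (winS W₁ W₂ U ℓ x₁ x₂).erase u₀ := by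
      ext u'
      rw [Finset.mem_erase, mem_winS, mem_winS]
      constructor
      · rintro ⟨h1, h2, h3⟩
        refine ⟨?_, h1, h2, h3.trans hu₀'.2.2⟩
        rintro rfl
        exact lt_irrefl _ h3
      · rintro ⟨h1, h2, h3, h4⟩
        refine ⟨h2, h3, lt_of_le_of_ne (hmax u' (mem_winS.mpr ⟨h2, h3, h4⟩)) ?_⟩
        intro h5
        exact h1 (honly u' h2 h5.ge h4)
    have hcard' : (winS W₁ W₂ U ℓ x₁ (U (u₀, ℓ))).card = n := by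
      rw [hwin, Finset.card_erase_of_mem hu₀, hcard]; rfl
    have hih := ih (U (u₀, ℓ)) hu₀'.2.1 hcard'
    have hstep₁ := mSt_step (G := G) (θ := θ₁) (W := W₁) (L := L₁) (κ := κ) (ℓ := ℓ) (U := U) (w := w) (u := u₀) (x' := x₂)
      hκ hθ₁ hL₁ hu₀'.2.2 (fun u' hu' => honly u' (Finset.mem_union_left _ hu')) v
    have hstep₂ := mSt_step (G := G) (θ := θ₂) (W := W₂) (L := L₂) (κ := κ) (ℓ := ℓ) (U := U) (w := w) (u := u₀) (x' := x₂)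
      hκ hθ₂ hL₂ hu₀'.2.2 (fun u' hu' => honly u' (Finset.mem_union_right _ hu')) v
    rw [← Finset.add_sum_erase _ _ hu₀, ← hwin, ← hih]
    have : dD G θ₁ θ₂ W₁ W₂ L₁ L₂ κ ℓ x₂ U w v = dD G θ₁ θ₂ W₁ W₂ L₁ L₂ κ ℓ (U (u₀, ℓ)) U w v +
        (jmp G θ₁ W₁ L₁ κ ℓ (U (u₀, ℓ)) U w v u₀ (w (u₀, ℓ)) - jmp G θ₂ W₂ L₂ κ ℓ (U (u₀, ℓ)) U w v u₀ (w (u₀, ℓ))) := by
      unfold dD
      rw [hstep₁, hstep₂]
      ring
    rw [this]
    unfold jJ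
    ring

end tele

/-! ### Bounded measurable functions of the state -/

section bm

variable {Ω : Type*} [MeasurableSpace Ω] {a : Ω → ℝ} {A B : Ω → Stg V → I} {τ : Ω → I}

theorem pos_gSt (hκ : Sched κ) : PosG (gSt G θ W L κ ℓ x U w) := gA_pos hκ _ _

theorem abs_mSt_le (hκ : Sched κ) (hθ : |θ| < 1) (v : V) : |mSt G θ W L κ ℓ x U w v| ≤ 1 :=
  abs_mv_le hθ (pos_gSt hκ) v

theorem abs_cSt_le (hκ : Sched κ) (hθ : |θ| < 1) (v u : V) : |cSt G θ W L κ ℓ x U w v u| ≤ 2 :=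
  abs_cv_le hθ (pos_gSt hκ) v u

theorem bm_mSt_comp (hκ : Sched κ) (hθ : |θ| < 1) (ha : Measurable a) (hA : Measurable A) (hB : Measurable B) (v : V) :
    BM (fun ω => mSt G θ W L κ ℓ (a ω) (A ω) (B ω) v) :=
  ⟨Measurable.comp (g := fun q : ℝ × (Stg V → I) × (Stg V → I) => mSt G θ W L κ ℓ q.1 q.2.1 q.2.2 v)
      (f := fun ω => (a ω, A ω, B ω)) (measurable_mSt_joint hκ v) (ha.prodMk (hA.prodMk hB)),
    1, fun _ => abs_mSt_le hκ hθ v⟩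

theorem bm_cSt_comp (hκ : Sched κ) (hθ : |θ| < 1) (ha : Measurable a) (hA : Measurable A) (hB : Measurable B) (v u : V) :
    BM (fun ω => cSt G θ W L κ ℓ (a ω) (A ω) (B ω) v u) :=
  ⟨Measurable.comp (g := fun q : ℝ × (Stg V → I) × (Stg V → I) => cSt G θ W L κ ℓ q.1 q.2.1 q.2.2 v u)
      (f := fun ω => (a ω, A ω, B ω)) (measurable_cSt_joint hκ v u) (ha.prodMk (hA.prodMk hB)),
    2, fun _ => abs_cSt_le hκ hθ v u⟩

theorem bm_jmp_comp (hκ : Sched κ) (hθ : |θ| < 1) (ha : Measurable a) (hA : Measurable A) (hB : Measurable B) (hτ : Measurable τ)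
    (v u : V) : BM (fun ω => jmp G θ W L κ ℓ (a ω) (A ω) (B ω) v u (τ ω)) := by
  unfold jmp
  by_cases hu : u ∈ W
  · simp only [hu, if_true]
    have hs : BM (fun ω => sS (κ ℓ) (mSt G θ W L κ ℓ (a ω) (A ω) (B ω) u) (τ ω)) := by
      refine ⟨?_, 3 / 2 * κ ℓ, fun ω => abs_sS_le (hκ.pos ℓ).le (hκ.le ℓ) (abs_mSt_le hκ hθ u) _⟩
      exact Measurable.comp (g := fun p : ℝ × I => sS (κ ℓ) p.1 p.2)
        (f := fun ω => (mSt G θ W L κ ℓ (a ω) (A ω) (B ω) u, τ ω)) (measurable_sS (κ ℓ))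
        ((bm_mSt_comp hκ hθ ha hA hB u).1.prodMk hτ)
    exact hs.mul (bm_cSt_comp hκ hθ ha hA hB v u)
  · simp only [hu, if_false]
    exact BM.const 0

theorem bm_dD_comp (hκ : Sched κ) (hθ₁ : |θ₁| < 1) (hθ₂ : |θ₂| < 1) (ha : Measurable a) (hA : Measurable A) (hB : Measurable B) (v : V) :
    BM (fun ω => dD G θ₁ θ₂ W₁ W₂ L₁ L₂ κ ℓ (a ω) (A ω) (B ω) v) :=
  (bm_mSt_comp hκ hθ₁ ha hA hB v).sub (bm_mSt_comp hκ hθ₂ ha hA hB v)

theorem bm_jJ_comp (hκ : Sched κ) (hθ₁ : |θ₁| < 1) (hθ₂ : |θ₂| < 1) (ha : Measurable a) (hA : Measurable A) (hB : Measurable B)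
    (hτ : Measurable τ) (v u : V) :
    BM (fun ω => jJ G θ₁ θ₂ W₁ W₂ L₁ L₂ κ ℓ (a ω) (A ω) (B ω) v u (τ ω)) := by
  unfold jJ
  exact (bm_sq ((bm_dD_comp hκ hθ₁ hθ₂ ha hA hB v).add
    ((bm_jmp_comp hκ hθ₁ ha hA hB hτ v u).sub (bm_jmp_comp hκ hθ₂ ha hA hB hτ v u)))).sub
    (bm_sq (bm_dD_comp hκ hθ₁ hθ₂ ha hA hB v))

theorem bm_incU_comp (hκ : Sched κ) (hθ₁ : |θ₁| < 1) (hθ₂ : |θ₂| < 1) (ha : Measurable a) (hA : Measurable A) (hB : Measurable B) (v u : V) :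
    BM (fun ω => incU G θ₁ θ₂ W₁ W₂ L₁ L₂ κ ℓ (a ω) (A ω) (B ω) v u) := by
  unfold incU
  have hc₁ := bm_cSt_comp (G := G) (θ := θ₁) (W := W₁) (L := L₁) (κ := κ) (ℓ := ℓ) hκ hθ₁ ha hA hB v u
  have hc₂ := bm_cSt_comp (G := G) (θ := θ₂) (W := W₂) (L := L₂) (κ := κ) (ℓ := ℓ) hκ hθ₂ ha hA hB v u
  have hm₁ := bm_mSt_comp (G := G) (θ := θ₁) (W := W₁) (L := L₁) (κ := κ) (ℓ := ℓ) hκ hθ₁ ha hA hB u
  have hm₂ := bm_mSt_comp (G := G) (θ := θ₂) (W := W₂) (L := L₂) (κ := κ) (ℓ := ℓ) hκ hθ₂ ha hA hB u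
  by_cases h₁ : u ∈ W₁
  · by_cases h₂ : u ∈ W₂
    · simp only [h₁, h₂, if_true]
      exact ((BM.const _).mul (bm_sq (hc₁.sub hc₂))).add
        (((BM.const _).mul (bm_sq hc₂)).mul (bm_sq (hm₁.sub hm₂)))
    · simp only [h₁, h₂, if_true, if_false]
      exact (BM.const _).mul (bm_sq hc₁)
  · simp only [h₁, if_false]
    exact (BM.const _).mul (bm_sq hc₂)

theorem incU_nonneg (hκ : Sched κ) (v u : V) : 0 ≤ incU G θ₁ θ₂ W₁ W₂ L₁ L₂ κ ℓ x U w v u := by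
  have ht := tauK_nonneg (hκ.le ℓ)
  unfold incU
  split_ifs <;> positivity

end bm

/-! ### Agreement -/

section agree

variable {e : Stg V} {U' w' : Stg V → I}

theorem mSt_agree (hκ : Sched κ) (heℓ : e.2 = ℓ) (hU : ∀ c, c ≠ e → U c = U' c) (hw : ∀ c, c ≠ e → w c = w' c)
    (h1 : x ≤ U e) (h2 : x ≤ U' e) (v : V) : mSt G θ W L κ ℓ x U w v = mSt G θ W L κ ℓ x U' w' v := by
  unfold mSt
  rw [gSt_agree hκ heℓ hU hw h1 h2]

theorem cSt_agree (hκ : Sched κ) (heℓ : e.2 = ℓ) (hU : ∀ c, c ≠ e → U c = U' c) (hw : ∀ c, c ≠ e → w c = w' c)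
    (h1 : x ≤ U e) (h2 : x ≤ U' e) (v u : V) : cSt G θ W L κ ℓ x U w v u = cSt G θ W L κ ℓ x U' w' v u := by
  unfold cSt
  rw [gSt_agree hκ heℓ hU hw h1 h2]

theorem jmp_agree (hκ : Sched κ) (heℓ : e.2 = ℓ) (hU : ∀ c, c ≠ e → U c = U' c) (hw : ∀ c, c ≠ e → w c = w' c)
    (h1 : x ≤ U e) (h2 : x ≤ U' e) (v u : V) (t : I) :
    jmp G θ W L κ ℓ x U w v u t = jmp G θ W L κ ℓ x U' w' v u t := by
  unfold jmp
  rw [mSt_agree hκ heℓ hU hw h1 h2, cSt_agree hκ heℓ hU hw h1 h2]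

theorem jJ_agree (hκ : Sched κ) (heℓ : e.2 = ℓ) (hU : ∀ c, c ≠ e → U c = U' c) (hw : ∀ c, c ≠ e → w c = w' c)
    (h1 : x ≤ U e) (h2 : x ≤ U' e) (v u : V) (t : I) :
    jJ G θ₁ θ₂ W₁ W₂ L₁ L₂ κ ℓ x U w v u t = jJ G θ₁ θ₂ W₁ W₂ L₁ L₂ κ ℓ x U' w' v u t := by
  unfold jJ dD
  rw [jmp_agree hκ heℓ hU hw h1 h2, jmp_agree hκ heℓ hU hw h1 h2,
    mSt_agree hκ heℓ hU hw h1 h2, mSt_agree hκ heℓ hU hw h1 h2]

theorem incU_agree (hκ : Sched κ) (heℓ : e.2 = ℓ) (hU : ∀ c, c ≠ e → U c = U' c) (hw : ∀ c, c ≠ e → w c = w' c)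
    (h1 : x ≤ U e) (h2 : x ≤ U' e) (v u : V) :
    incU G θ₁ θ₂ W₁ W₂ L₁ L₂ κ ℓ x U w v u = incU G θ₁ θ₂ W₁ W₂ L₁ L₂ κ ℓ x U' w' v u := by
  unfold incU
  rw [mSt_agree hκ heℓ hU hw h1 h2, mSt_agree hκ heℓ hU hw h1 h2,
    cSt_agree hκ heℓ hU hw h1 h2, cSt_agree hκ heℓ hU hw h1 h2]

/-- Integrating the jump in the noise. -/
theorem integral_jJ_le (hκ : Sched κ) (hθ₁ : |θ₁| < 1) (hθ₂ : |θ₂| < 1) (v u : V) :
    ∫ t : I, jJ G θ₁ θ₂ W₁ W₂ L₁ L₂ κ ℓ x U w v u t ≤ incU G θ₁ θ₂ W₁ W₂ L₁ L₂ κ ℓ x U w v u := by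
  have h0 := (hκ.pos ℓ).le
  have h1 := hκ.le ℓ
  set D := dD G θ₁ θ₂ W₁ W₂ L₁ L₂ κ ℓ x U w v with hD
  unfold jJ
  rw [← hD]
  unfold jmp incU
  by_cases h₁ : u ∈ W₁
  · by_cases h₂ : u ∈ W₂
    · simp only [h₁, h₂, if_true]
      exact integral_jump_both h0 h1 (abs_mSt_le hκ hθ₁ u) (abs_mSt_le hκ hθ₂ u) _ _ _
    · simp only [h₁, h₂, if_true, if_false, sub_zero]
      exact integral_jump_one h0 h1 (abs_mSt_le hκ hθ₁ u) _ _
  · by_cases h₂ : u ∈ W₂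
    · simp only [h₁, h₂, if_true, if_false, zero_sub]
      have := integral_jump_one (c := - cSt G θ₂ W₂ L₂ κ ℓ x U w v u) (D := D) h0 h1
        (abs_mSt_le (G := G) (θ := θ₂) (W := W₂) (L := L₂) (ℓ := ℓ) (x := x) (U := U) (w := w) hκ hθ₂ u)
      simp only [mul_neg, neg_sq] at this
      simpa [sub_eq_add_neg] using this
    · simp only [h₁, h₂, if_false, sub_self, add_zero]
      simp only [_root_.sub_self, integral_zero]
      exact mul_nonneg (tauK_nonneg h1) (sq_nonneg _)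

end agree

/-! ### Resampling one stage -/

section resample

lemma measurable_upd_snd (c : Stg V) :
    Measurable (fun p : ((Stg V → I) × (Stg V → I)) × I => ((p.1.1, Function.update p.1.2 c p.2) : (Stg V → I) × (Stg V → I))) :=
  measurable_fst.fst.prodMk ((measurable_update_pair c).comp (measurable_fst.snd.prodMk measurable_snd))

lemma measurable_upd_fst (c : Stg V) :
    Measurable (fun p : ((Stg V → I) × (Stg V → I)) × I => ((Function.update p.1.1 c p.2, p.1.2) : (Stg V → I) × (Stg V → I))) :=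
  ((measurable_update_pair c).comp (measurable_fst.fst.prodMk measurable_snd)).prodMk measurable_fst.snd

lemma bm_resample_snd (c : Stg V) {F : (Stg V → I) × (Stg V → I) → ℝ} (hF : BM F) :
    BM (fun q : (Stg V → I) × (Stg V → I) => ∫ t : I, F (q.1, Function.update q.2 c t)) :=
  BM.integral_right (volume : Measure I) (f := fun p : ((Stg V → I) × (Stg V → I)) × I => F (p.1.1, Function.update p.1.2 c p.2))
    (hF.comp (measurable_upd_snd c))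

lemma bm_resample_fst (c : Stg V) {F : (Stg V → I) × (Stg V → I) → ℝ} (hF : BM F) :
    BM (fun q : (Stg V → I) × (Stg V → I) => ∫ r : I, F (Function.update q.1 c r, q.2)) :=
  BM.integral_right (volume : Measure I) (f := fun p : ((Stg V → I) × (Stg V → I)) × I => F (Function.update p.1.1 c p.2, p.1.2))
    (hF.comp (measurable_upd_fst c))

theorem integral_resample_snd (c : Stg V) {F : (Stg V → I) × (Stg V → I) → ℝ} (hF : BM F) :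
    ∫ q, F q ∂noiseP V = ∫ q, (∫ t : I, F (q.1, Function.update q.2 c t)) ∂noiseP V := by
  have hG := bm_resample_snd c hF
  unfold noiseP
  rw [integral_prod _ (hF.integrable _), integral_prod _ (hG.integrable _)]
  congr 1
  funext U
  exact (integral_resample c (hF.comp (measurable_const.prodMk measurable_id))).symm

theorem integral_resample_fst (c : Stg V) {F : (Stg V → I) × (Stg V → I) → ℝ} (hF : BM F) :
    ∫ q, F q ∂noiseP V = ∫ q, (∫ r : I, F (Function.update q.1 c r, q.2)) ∂noiseP V := by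
  have hG := bm_resample_fst c hF
  unfold noiseP
  rw [integral_prod_symm _ (hF.integrable _), integral_prod_symm _ (hG.integrable _)]
  congr 1
  funext w
  exact (integral_resample c (hF.comp (measurable_id.prodMk measurable_const))).symm

/-- An integral over the labels in a window. -/
theorem integral_I_ite (hx₁ : 0 ≤ x₁) (hx : x₁ ≤ x₂) (hx₂ : x₂ ≤ 1) (f : ℝ → ℝ) :
    ∫ r : I, (if x₁ ≤ (r : ℝ) ∧ (r : ℝ) < x₂ then f r else 0) = ∫ y in x₁..x₂, f y := by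
  rw [integral_I_eq (fun y => if x₁ ≤ y ∧ y < x₂ then f y else 0),
    intervalIntegral.integral_of_le zero_le_one, intervalIntegral.integral_of_le hx]
  have hae : ∀ᵐ y ∂(volume : Measure ℝ), (if x₁ ≤ y ∧ y < x₂ then f y else 0) = (Set.Ioc x₁ x₂).indicator f y := by
    have h1 : ∀ᵐ y ∂(volume : Measure ℝ), y ≠ x₁ := by simp [ae_iff, measure_singleton]
    have h2 : ∀ᵐ y ∂(volume : Measure ℝ), y ≠ x₂ := by simp [ae_iff, measure_singleton]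
    filter_upwards [h1, h2] with y hy1 hy2
    by_cases h : x₁ ≤ y ∧ y < x₂
    · have : y ∈ Set.Ioc x₁ x₂ := ⟨lt_of_le_of_ne h.1 (Ne.symm hy1), h.2.le⟩
      rw [if_pos h, Set.indicator_of_mem this]
    · have : y ∉ Set.Ioc x₁ x₂ := fun hm => h ⟨hm.1.le, lt_of_le_of_ne hm.2 hy2⟩
      rw [if_neg h, Set.indicator_of_notMem this]
  rw [integral_congr_ae (ae_restrict_of_ae hae), setIntegral_indicator measurableSet_Ioc]
  congr 2
  ext y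
  simp only [Set.mem_inter_iff, Set.mem_Ioc]
  constructor
  · rintro ⟨_, h⟩; exact h
  · intro h
    exact ⟨⟨lt_of_le_of_lt hx₁ h.1, h.2.trans hx₂⟩, h⟩

theorem BM.intervalIntegrable {f : ℝ → ℝ} (hf : BM f) (a b : ℝ) : IntervalIntegrable f volume a b := by
  rw [intervalIntegrable_iff]
  haveI : IsFiniteMeasure ((volume : Measure ℝ).restrict (Set.uIoc a b)) := by
    unfold Set.uIoc; infer_instance
  exact hf.integrable _

lemma bm_ite {Ω : Type*} [MeasurableSpace Ω] {p : Ω → Prop} [DecidablePred p] (hp : MeasurableSet {ω | p ω}) {f : Ω → ℝ} (hf : BM f) :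
    BM (fun ω => if p ω then f ω else 0) := by
  obtain ⟨m, C, hC⟩ := hf
  refine ⟨Measurable.ite hp m measurable_const, |C|, fun ω => ?_⟩
  dsimp only
  split_ifs
  · exact (hC ω).trans (le_abs_self C)
  · simpa using abs_nonneg C

end resample

/-! ### One stage in expectation -/

section expect

variable (G θ₁ θ₂ W₁ W₂ L₁ L₂ κ ℓ) in
/-- The increment with the label of the stage `c` set to one. -/
noncomputable def inc0 (c : Stg V) (v u : V) (y : ℝ) (q : (Stg V → I) × (Stg V → I)) : ℝ :=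
  incU G θ₁ θ₂ W₁ W₂ L₁ L₂ κ ℓ y (Function.update q.1 c 1) q.2 v u

theorem bm_inc0 (hκ : Sched κ) (hθ₁ : |θ₁| < 1) (hθ₂ : |θ₂| < 1) (c : Stg V) (v u : V) :
    BM (fun p : ((Stg V → I) × (Stg V → I)) × ℝ => inc0 G θ₁ θ₂ W₁ W₂ L₁ L₂ κ ℓ c v u p.2 p.1) := by
  unfold inc0
  refine bm_incU_comp hκ hθ₁ hθ₂ (a := fun p : ((Stg V → I) × (Stg V → I)) × ℝ => p.2)
    (A := fun p => Function.update p.1.1 c 1) (B := fun p => p.1.2) measurable_snd ?_ measurable_fst.snd v u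
  exact (measurable_update_pair c).comp (measurable_fst.fst.prodMk measurable_const)

/-- Removing a stage costs at most a factor two. -/
theorem integral_inc0_le (hκ : Sched κ) (hθ₁ : |θ₁| < 1) (hθ₂ : |θ₂| < 1) {c : Stg V} (hc : c.2 = ℓ) (v u : V) {y : ℝ}
    (hy0 : 0 ≤ y) (hy : y ≤ 1 / 2) :
    ∫ q, inc0 G θ₁ θ₂ W₁ W₂ L₁ L₂ κ ℓ c v u y q ∂noiseP V ≤
      2 * ∫ q, incU G θ₁ θ₂ W₁ W₂ L₁ L₂ κ ℓ y q.1 q.2 v u ∂noiseP V := by
  have hb1 : BM (fun q : (Stg V → I) × (Stg V → I) => incU G θ₁ θ₂ W₁ W₂ L₁ L₂ κ ℓ y q.1 q.2 v u) :=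
    bm_incU_comp hκ hθ₁ hθ₂ (a := fun _ => y) measurable_const measurable_fst measurable_snd v u
  have hb0 : BM (fun q : (Stg V → I) × (Stg V → I) => inc0 G θ₁ θ₂ W₁ W₂ L₁ L₂ κ ℓ c v u y q) :=
    BM.comp (φ := fun p : ((Stg V → I) × (Stg V → I)) × ℝ => inc0 G θ₁ θ₂ W₁ W₂ L₁ L₂ κ ℓ c v u p.2 p.1)
      (f := fun q : (Stg V → I) × (Stg V → I) => (q, y)) (bm_inc0 hκ hθ₁ hθ₂ c v u) (measurable_id.prodMk measurable_const)
  have hb2 := bm_resample_fst c hb1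
  have hle : ∀ q : (Stg V → I) × (Stg V → I), (1 - y) * inc0 G θ₁ θ₂ W₁ W₂ L₁ L₂ κ ℓ c v u y q ≤
      ∫ r : I, incU G θ₁ θ₂ W₁ W₂ L₁ L₂ κ ℓ y (Function.update q.1 c r) q.2 v u := by
    intro q
    have h1 := integral_I_ite (x₁ := y) (x₂ := 1) hy0 (by linarith) le_rfl
      (fun _ => inc0 G θ₁ θ₂ W₁ W₂ L₁ L₂ κ ℓ c v u y q)
    simp only [intervalIntegral.integral_const, smul_eq_mul] at h1
    rw [← h1]
    have hm1 : Measurable (fun r : I => Function.update q.1 c r) :=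
      (measurable_update_pair c).comp (measurable_const.prodMk measurable_id)
    have hi1 : Integrable (fun r : I => incU G θ₁ θ₂ W₁ W₂ L₁ L₂ κ ℓ y (Function.update q.1 c r) q.2 v u) :=
      (bm_incU_comp hκ hθ₁ hθ₂ (a := fun _ => y) measurable_const hm1 measurable_const v u).integrable _
    have hset : MeasurableSet {r : I | y ≤ (r : ℝ) ∧ (r : ℝ) < 1} :=
      (measurableSet_le measurable_const measurable_subtype_coe).inter
        (measurableSet_lt measurable_subtype_coe measurable_const)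
    have hi0 : Integrable (fun r : I => if y ≤ (r : ℝ) ∧ (r : ℝ) < 1 then inc0 G θ₁ θ₂ W₁ W₂ L₁ L₂ κ ℓ c v u y q else 0) :=
      (bm_ite hset (BM.const _)).integrable _
    refine integral_mono hi0 hi1 (fun r => ?_)
    by_cases h : y ≤ (r : ℝ) ∧ (r : ℝ) < 1
    · simp only [h, and_self, if_true]
      unfold inc0
      refine le_of_eq (incU_agree hκ (e := c) hc (fun c' hc' => by rw [Function.update_of_ne hc', Function.update_of_ne hc'])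
        (fun _ _ => rfl) ?_ ?_ v u)
      · simp only [Function.update_self]
        show y ≤ ((1 : I) : ℝ)
        simp only [Set.Icc.coe_one]
        linarith
      · simp only [Function.update_self]; exact h.1
    · simp only [h, if_false]
      exact incU_nonneg hκ v u
  have h2 : (1 - y) * ∫ q, inc0 G θ₁ θ₂ W₁ W₂ L₁ L₂ κ ℓ c v u y q ∂noiseP V ≤
      ∫ q, incU G θ₁ θ₂ W₁ W₂ L₁ L₂ κ ℓ y q.1 q.2 v u ∂noiseP V := by
    rw [integral_resample_fst c hb1, ← integral_const_mul]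
    exact integral_mono ((hb0.integrable _).const_mul _) (hb2.integrable _) hle
  have h3 : 0 ≤ ∫ q, inc0 G θ₁ θ₂ W₁ W₂ L₁ L₂ κ ℓ c v u y q ∂noiseP V :=
    integral_nonneg (fun q => incU_nonneg hκ v u)
  nlinarith

/-- **One stage.** -/
theorem stage_bound (hκ : Sched κ) (hθ₁ : |θ₁| < 1) (hθ₂ : |θ₂| < 1) (hx₁ : 0 ≤ x₁) (hx : x₁ ≤ x₂) (hx₂ : x₂ ≤ 1 / 2) (v u : V) :
    ∫ q, (if x₁ ≤ (q.1 (u, ℓ) : ℝ) ∧ (q.1 (u, ℓ) : ℝ) < x₂ then
        jJ G θ₁ θ₂ W₁ W₂ L₁ L₂ κ ℓ (q.1 (u, ℓ)) q.1 q.2 v u (q.2 (u, ℓ)) else 0) ∂noiseP V ≤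
      ∫ y in x₁..x₂, 2 * ∫ q, incU G θ₁ θ₂ W₁ W₂ L₁ L₂ κ ℓ y q.1 q.2 v u ∂noiseP V := by
  set c : Stg V := (u, ℓ) with hc
  set Ju : (Stg V → I) × (Stg V → I) → ℝ := fun q => if x₁ ≤ (q.1 c : ℝ) ∧ (q.1 c : ℝ) < x₂ then
        jJ G θ₁ θ₂ W₁ W₂ L₁ L₂ κ ℓ (q.1 c) q.1 q.2 v u (q.2 c) else 0 with hJu
  have hx1' : (x₂ : ℝ) ≤ 1 := by linarith
  have hlab : Measurable (fun q : (Stg V → I) × (Stg V → I) => ((q.1 c : I) : ℝ)) :=
    measurable_subtype_coe.comp ((measurable_pi_apply c).comp measurable_fst)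
  have hJ : BM Ju := by
    have hset : MeasurableSet {q : (Stg V → I) × (Stg V → I) | x₁ ≤ ((q.1 c : I) : ℝ) ∧ ((q.1 c : I) : ℝ) < x₂} :=
      (measurableSet_le measurable_const hlab).inter (measurableSet_lt hlab measurable_const)
    refine bm_ite hset ?_
    exact bm_jJ_comp hκ hθ₁ hθ₂ (a := fun q : (Stg V → I) × (Stg V → I) => ((q.1 c : I) : ℝ)) hlab measurable_fst measurable_snd
      ((measurable_pi_apply c).comp measurable_snd) v u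
  have hF₁ := bm_resample_snd c hJ
  have hF₂ := bm_resample_fst c hF₁
  -- pointwise bound in the noise
  have hpt : ∀ (q : (Stg V → I) × (Stg V → I)) (r : I),
      ∫ t : I, Ju (Function.update q.1 c r, Function.update q.2 c t) ≤
        if x₁ ≤ (r : ℝ) ∧ (r : ℝ) < x₂ then inc0 G θ₁ θ₂ W₁ W₂ L₁ L₂ κ ℓ c v u (r : ℝ) q else 0 := by
    intro q r
    by_cases hr : x₁ ≤ (r : ℝ) ∧ (r : ℝ) < x₂
    · rw [if_pos hr]
      have : ∀ t : I, Ju (Function.update q.1 c r, Function.update q.2 c t) =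
          jJ G θ₁ θ₂ W₁ W₂ L₁ L₂ κ ℓ (r : ℝ) (Function.update q.1 c 1) q.2 v u t := by
        intro t
        simp only [hJu, Function.update_self, hr, and_self, if_true]
        refine jJ_agree hκ (e := c) rfl (fun c' hc' => ?_) (fun c' hc' => Function.update_of_ne hc' _ _) ?_ ?_ v u t
        · rw [Function.update_of_ne hc', Function.update_of_ne hc']
        · simp only [Function.update_self]; exact le_rfl
        · simp only [Function.update_self, Set.Icc.coe_one]; exact r.2.2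
      simp_rw [this]
      exact integral_jJ_le hκ hθ₁ hθ₂ v u
    · rw [if_neg hr]
      have : ∀ t : I, Ju (Function.update q.1 c r, Function.update q.2 c t) = 0 := by
        intro t
        simp only [hJu, Function.update_self, hr, if_false]
      simp_rw [this]
      simp
  have hb0 := bm_inc0 (G := G) (θ₁ := θ₁) (θ₂ := θ₂) (W₁ := W₁) (W₂ := W₂) (L₁ := L₁) (L₂ := L₂) (κ := κ) (ℓ := ℓ) hκ hθ₁ hθ₂ c v u
  have hb0' : BM (fun q : (Stg V → I) × (Stg V → I) =>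
      ∫ y in Set.Ioc x₁ x₂, inc0 G θ₁ θ₂ W₁ W₂ L₁ L₂ κ ℓ c v u y q) :=
    BM.integral_right ((volume : Measure ℝ).restrict (Set.Ioc x₁ x₂)) hb0
  -- integrating in the label
  have h1 : ∫ q, Ju q ∂noiseP V ≤ ∫ q, (∫ y in Set.Ioc x₁ x₂, inc0 G θ₁ θ₂ W₁ W₂ L₁ L₂ κ ℓ c v u y q) ∂noiseP V := by
    rw [integral_resample_snd c hJ, integral_resample_fst c hF₁]
    refine integral_mono (hF₂.integrable _) (hb0'.integrable _) (fun q => ?_)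
    dsimp only
    rw [← intervalIntegral.integral_of_le hx, ← integral_I_ite hx₁ hx hx1']
    have hm1 : Measurable (fun r : I => Function.update q.1 c r) :=
      (measurable_update_pair c).comp (measurable_const.prodMk measurable_id)
    have hi1 : Integrable (fun r : I => ∫ t : I, Ju (Function.update q.1 c r, Function.update q.2 c t)) :=
      (BM.comp (φ := fun q' : (Stg V → I) × (Stg V → I) => ∫ t : I, Ju (q'.1, Function.update q'.2 c t))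
        (f := fun r : I => (Function.update q.1 c r, q.2)) hF₁ (hm1.prodMk measurable_const)).integrable _
    have hset : MeasurableSet {r : I | x₁ ≤ (r : ℝ) ∧ (r : ℝ) < x₂} :=
      (measurableSet_le measurable_const measurable_subtype_coe).inter
        (measurableSet_lt measurable_subtype_coe measurable_const)
    have hi0 : Integrable (fun r : I => if x₁ ≤ (r : ℝ) ∧ (r : ℝ) < x₂ then inc0 G θ₁ θ₂ W₁ W₂ L₁ L₂ κ ℓ c v u (r : ℝ) q else 0) := by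
      refine (bm_ite hset ?_).integrable _
      exact BM.comp (φ := fun p : ((Stg V → I) × (Stg V → I)) × ℝ => inc0 G θ₁ θ₂ W₁ W₂ L₁ L₂ κ ℓ c v u p.2 p.1)
        (f := fun r : I => (q, (r : ℝ))) hb0 (measurable_const.prodMk measurable_subtype_coe)
    exact integral_mono hi1 hi0 (hpt q)
  -- Fubini
  have h2 : ∫ q, (∫ y in Set.Ioc x₁ x₂, inc0 G θ₁ θ₂ W₁ W₂ L₁ L₂ κ ℓ c v u y q) ∂noiseP V =
      ∫ y in Set.Ioc x₁ x₂, (∫ q, inc0 G θ₁ θ₂ W₁ W₂ L₁ L₂ κ ℓ c v u y q ∂noiseP V) := by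
    apply integral_integral_swap
    exact hb0.integrable _
  -- measurability in the remaining variable
  have hm0 : BM (fun y : ℝ => ∫ q, inc0 G θ₁ θ₂ W₁ W₂ L₁ L₂ κ ℓ c v u y q ∂noiseP V) :=
    BM.integral_right (noiseP V) (f := fun p : ℝ × ((Stg V → I) × (Stg V → I)) => inc0 G θ₁ θ₂ W₁ W₂ L₁ L₂ κ ℓ c v u p.1 p.2)
      (BM.comp (φ := fun p : ((Stg V → I) × (Stg V → I)) × ℝ => inc0 G θ₁ θ₂ W₁ W₂ L₁ L₂ κ ℓ c v u p.2 p.1)
        (f := fun p : ℝ × ((Stg V → I) × (Stg V → I)) => (p.2, p.1)) hb0 (measurable_snd.prodMk measurable_fst))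
  have hm1 : BM (fun y : ℝ => ∫ q, incU G θ₁ θ₂ W₁ W₂ L₁ L₂ κ ℓ y q.1 q.2 v u ∂noiseP V) :=
    BM.integral_right (noiseP V) (f := fun p : ℝ × ((Stg V → I) × (Stg V → I)) => incU G θ₁ θ₂ W₁ W₂ L₁ L₂ κ ℓ p.1 p.2.1 p.2.2 v u)
      (bm_incU_comp hκ hθ₁ hθ₂ measurable_fst measurable_snd.fst measurable_snd.snd v u)
  calc ∫ q, Ju q ∂noiseP V ≤ ∫ y in Set.Ioc x₁ x₂, (∫ q, inc0 G θ₁ θ₂ W₁ W₂ L₁ L₂ κ ℓ c v u y q ∂noiseP V) := h1.trans_eq h2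
    _ = ∫ y in x₁..x₂, (∫ q, inc0 G θ₁ θ₂ W₁ W₂ L₁ L₂ κ ℓ c v u y q ∂noiseP V) :=
        (intervalIntegral.integral_of_le hx).symm
    _ ≤ ∫ y in x₁..x₂, 2 * ∫ q, incU G θ₁ θ₂ W₁ W₂ L₁ L₂ κ ℓ y q.1 q.2 v u ∂noiseP V := by
        refine intervalIntegral.integral_mono_on hx (BM.intervalIntegrable hm0 _ _)
          (BM.intervalIntegrable ((BM.const 2).mul hm1) _ _) (fun y hy => ?_)
        exact integral_inc0_le (ℓ := ℓ) (c := c) hκ hθ₁ hθ₂ rfl v u (hx₁.trans hy.1) (hy.2.trans hx₂)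

end expect

/-! ### The increment inequality -/

section increment

/-- **The increment inequality** for two runs with the same labels. -/
theorem increment (hκ : Sched κ) (hθ₁ : |θ₁| < 1) (hθ₂ : |θ₂| < 1) (hL₁ : L₁ ≤ ℓ) (hL₂ : L₂ ≤ ℓ) (hx₁ : 0 ≤ x₁) (hx : x₁ ≤ x₂)
    (hx₂ : x₂ ≤ 1 / 2) {v : V} (_hv₁ : v ∈ W₁) (_hv₂ : v ∈ W₂) :
    (∫ q, (mSt G θ₁ W₁ L₁ κ ℓ x₂ q.1 q.2 v - mSt G θ₂ W₂ L₂ κ ℓ x₂ q.1 q.2 v) ^ 2 ∂noiseP V) -
      (∫ q, (mSt G θ₁ W₁ L₁ κ ℓ x₁ q.1 q.2 v - mSt G θ₂ W₂ L₂ κ ℓ x₁ q.1 q.2 v) ^ 2 ∂noiseP V) ≤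
    ∫ x in x₁..x₂, 2 * ∑ u ∈ W₁ ∪ W₂, ∫ q, incU G θ₁ θ₂ W₁ W₂ L₁ L₂ κ ℓ x q.1 q.2 v u ∂noiseP V := by
  have hbx : ∀ y : ℝ, BM (fun q : (Stg V → I) × (Stg V → I) =>
      (mSt G θ₁ W₁ L₁ κ ℓ y q.1 q.2 v - mSt G θ₂ W₂ L₂ κ ℓ y q.1 q.2 v) ^ 2) := fun y =>
    bm_sq (bm_dD_comp hκ hθ₁ hθ₂ (a := fun _ => y) measurable_const measurable_fst measurable_snd v)
  rw [← integral_sub ((hbx x₂).integrable _) ((hbx x₁).integrable _)]
  -- stage functions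
  let Ju : V → (Stg V → I) × (Stg V → I) → ℝ := fun u q => if x₁ ≤ (q.1 (u, ℓ) : ℝ) ∧ (q.1 (u, ℓ) : ℝ) < x₂ then
        jJ G θ₁ θ₂ W₁ W₂ L₁ L₂ κ ℓ (q.1 (u, ℓ)) q.1 q.2 v u (q.2 (u, ℓ)) else 0
  have hJ : ∀ u, BM (Ju u) := by
    intro u
    have hlab : Measurable (fun q : (Stg V → I) × (Stg V → I) => ((q.1 (u, ℓ) : I) : ℝ)) :=
      measurable_subtype_coe.comp ((measurable_pi_apply (u, ℓ)).comp measurable_fst)
    have hset : MeasurableSet {q : (Stg V → I) × (Stg V → I) | x₁ ≤ ((q.1 (u, ℓ) : I) : ℝ) ∧ ((q.1 (u, ℓ) : I) : ℝ) < x₂} :=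
      (measurableSet_le measurable_const hlab).inter (measurableSet_lt hlab measurable_const)
    refine bm_ite hset ?_
    exact bm_jJ_comp hκ hθ₁ hθ₂ (a := fun q : (Stg V → I) × (Stg V → I) => ((q.1 (u, ℓ) : I) : ℝ)) hlab measurable_fst measurable_snd
      ((measurable_pi_apply (u, ℓ)).comp measurable_snd) v u
  -- the telescoping identity almost surely
  have hinj : ∀ᵐ q ∂noiseP V, Set.InjOn (fun u => q.1 (u, ℓ)) (W₁ ∪ W₂ : Finset V) := by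
    have h := Crest.Agent.Lib.FiidCauchy.ae_injOn (ι := Stg V) ((W₁ ∪ W₂) ×ˢ ({ℓ} : Finset ℤ))
    have hfst := Measure.quasiMeasurePreserving_fst (μ := Lam (Stg V)) (ν := Lam (Stg V))
    unfold noiseP
    filter_upwards [hfst.ae h] with q hq
    intro u hu u' hu' heq
    have hu1 : (u, ℓ) ∈ (((W₁ ∪ W₂) ×ˢ ({ℓ} : Finset ℤ) : Finset (Stg V)) : Set (Stg V)) := by
      simpa using hu
    have hu2 : (u', ℓ) ∈ (((W₁ ∪ W₂) ×ˢ ({ℓ} : Finset ℤ) : Finset (Stg V)) : Set (Stg V)) := by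
      simpa using hu'
    have := hq hu1 hu2 heq
    exact (Prod.ext_iff.mp this).1
  have hae : ∀ᵐ q ∂noiseP V,
      (mSt G θ₁ W₁ L₁ κ ℓ x₂ q.1 q.2 v - mSt G θ₂ W₂ L₂ κ ℓ x₂ q.1 q.2 v) ^ 2 -
        (mSt G θ₁ W₁ L₁ κ ℓ x₁ q.1 q.2 v - mSt G θ₂ W₂ L₂ κ ℓ x₁ q.1 q.2 v) ^ 2 = ∑ u ∈ W₁ ∪ W₂, Ju u q := by
    filter_upwards [hinj] with q hq
    have h := tele (G := G) (w := q.2) hκ hθ₁ hθ₂ hL₁ hL₂ hq v _ x₂ hx rfl
    unfold dD at h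
    rw [h]
    unfold winS
    rw [Finset.sum_filter]
  rw [integral_congr_ae hae, integral_finset_sum _ (fun u _ => (hJ u).integrable _)]
  have hm1 : ∀ u, BM (fun y : ℝ => ∫ q, incU G θ₁ θ₂ W₁ W₂ L₁ L₂ κ ℓ y q.1 q.2 v u ∂noiseP V) := fun u =>
    BM.integral_right (noiseP V) (f := fun p : ℝ × ((Stg V → I) × (Stg V → I)) => incU G θ₁ θ₂ W₁ W₂ L₁ L₂ κ ℓ p.1 p.2.1 p.2.2 v u)
      (bm_incU_comp hκ hθ₁ hθ₂ measurable_fst measurable_snd.fst measurable_snd.snd v u)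
  simp_rw [Finset.mul_sum]
  rw [intervalIntegral.integral_finset_sum (fun u _ => BM.intervalIntegrable ((BM.const 2).mul (hm1 u)) _ _)]
  exact Finset.sum_le_sum (fun u _ => stage_bound hκ hθ₁ hθ₂ hx₁ hx hx₂ v u)

theorem intervalIntegrable_incU (hκ : Sched κ) (hθ₁ : |θ₁| < 1) (hθ₂ : |θ₂| < 1) (v u : V) (a b : ℝ) :
    IntervalIntegrable (fun x => ∫ q, incU G θ₁ θ₂ W₁ W₂ L₁ L₂ κ ℓ x q.1 q.2 v u ∂noiseP V) volume a b :=
  BM.intervalIntegrable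
    (BM.integral_right (noiseP V) (f := fun p : ℝ × ((Stg V → I) × (Stg V → I)) => incU G θ₁ θ₂ W₁ W₂ L₁ L₂ κ ℓ p.1 p.2.1 p.2.2 v u)
      (bm_incU_comp hκ hθ₁ hθ₂ measurable_fst measurable_snd.fst measurable_snd.snd v u)) a b

end increment

end Crest.Agent.Lib.TI
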