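import Mathlib

/-!
# Passing to the limit along an L² convergent sequence with geometric rate (S0241 project)

Purely measure theoretic lemmas used by `TI.Strict`.
-/

set_option autoImplicit false

namespace Crest.Agent.Lib.TI.TransferAux

open MeasureTheory Filter Topology
open scoped ENNReal

variable {Ω : Type*} [MeasurableSpace Ω] {P : Measure Ω} [IsProbabilityMeasure P]

/-- Geometric L² rate implies a.e. convergence. -/
theorem ae_tendsto_of_l2 {f : ℕ → Ω → ℝ} {g : Ω → ℝ} (hm : ∀ k, Measurable (f k)) (hg : Measurable g)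
    (hb : ∀ k ω, |f k ω| ≤ 1) (hgb : ∀ ω, |g ω| ≤ 1) {C Λ : ℝ} (hC : 0 < C) (hΛ : 1 < Λ) {R₀ : ℕ}
    (h : ∀ k, R₀ ≤ k → ∫ ω, (f k ω - g ω) ^ 2 ∂P ≤ C * (1 / Λ) ^ (k - R₀)) :
    ∀ᵐ ω ∂P, Tendsto (fun k => f k ω) atTop (𝓝 (g ω)) := by
  set F : ℕ → Ω → ℝ≥0∞ := fun k ω => ENNReal.ofReal ((f (k + R₀) ω - g ω) ^ 2) with hF
  have hFm : ∀ k, Measurable (F k) := fun k =>
    (((hm (k + R₀)).sub hg).pow_const 2).ennreal_ofReal
  have hρ0 : 0 < 1 / Λ := by positivity
  have hρ1 : 1 / Λ < 1 := by rw [div_lt_one (by linarith)]; exact hΛ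
  have hint : ∀ k, ∫⁻ ω, F k ω ∂P ≤ ENNReal.ofReal (C * (1 / Λ) ^ k) := by
    intro k
    have hbd : ∀ ω, |(f (k + R₀) ω - g ω) ^ 2| ≤ 4 := by
      intro ω
      have h1 := abs_le.1 (hb (k + R₀) ω)
      have h2 := abs_le.1 (hgb ω)
      rw [abs_of_nonneg (sq_nonneg _)]
      nlinarith [h1.1, h1.2, h2.1, h2.2]
    have hI : Integrable (fun ω => (f (k + R₀) ω - g ω) ^ 2) P :=
      Integrable.of_bound (((hm (k + R₀)).sub hg).pow_const 2).aestronglyMeasurable 4
        (Eventually.of_forall fun ω => by simpa using hbd ω)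
    have := ofReal_integral_eq_lintegral_ofReal hI (Eventually.of_forall fun ω => sq_nonneg _)
    rw [hF]
    simp only
    rw [← this]
    apply ENNReal.ofReal_le_ofReal
    have h2 := h (k + R₀) (by omega)
    simpa using h2
  have hsum : ∑' k, ENNReal.ofReal (C * (1 / Λ) ^ k) ≠ ∞ := by
    have hs : Summable (fun k : ℕ => C * (1 / Λ) ^ k) :=
      (summable_geometric_of_lt_one hρ0.le hρ1).mul_left C
    rw [← ENNReal.ofReal_tsum_of_nonneg (fun k => by positivity) hs]
    exact ENNReal.ofReal_ne_top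
  have hae : ∀ᵐ ω ∂P, ∑' k, F k ω < ∞ := by
    apply ae_lt_top (Measurable.ennreal_tsum hFm)
    rw [lintegral_tsum (fun k => (hFm k).aemeasurable)]
    exact ne_top_of_le_ne_top hsum (ENNReal.tsum_le_tsum hint)
  filter_upwards [hae] with ω hω
  have h0 := ENNReal.tendsto_atTop_zero_of_tsum_ne_top hω.ne
  have h1 : Tendsto (fun k => (f (k + R₀) ω - g ω) ^ 2) atTop (𝓝 0) := by
    have := ENNReal.tendsto_toReal (a := 0) (by simp) |>.comp h0
    refine (this.congr fun k => ?_).trans (by simp)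
    simp only [Function.comp, hF]
    rw [ENNReal.toReal_ofReal (sq_nonneg _)]
  have h2 : Tendsto (fun k => |f (k + R₀) ω - g ω|) atTop (𝓝 0) := by
    have := (Real.continuous_sqrt.tendsto 0).comp h1
    simp only [Real.sqrt_zero] at this
    refine this.congr fun k => ?_
    simp only [Function.comp]
    exact Real.sqrt_sq_eq_abs _
  have h3 : Tendsto (fun k => f (k + R₀) ω) atTop (𝓝 (g ω)) := by
    rw [tendsto_iff_dist_tendsto_zero]
    refine h2.congr fun k => ?_
    rw [Real.dist_eq]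
  exact (tendsto_add_atTop_iff_nat R₀).1 h3

/-- Open events: Fatou. -/
theorem indicator_le_of_ae_tendsto {Y : ℕ → Ω → ℝ} {Z : Ω → ℝ} (hY : ∀ k, Measurable (Y k))
    (hZ : Measurable Z) (hlim : ∀ᵐ ω ∂P, Tendsto (fun k => Y k ω) atTop (𝓝 (Z ω))) {c B : ℝ} (hB : 0 ≤ B) {k₀ : ℕ}
    (hbd : ∀ k, k₀ ≤ k → ∫ ω, (if c < Y k ω then (1:ℝ) else 0) ∂P ≤ B) :
    ∫ ω, (if c < Z ω then (1:ℝ) else 0) ∂P ≤ B := by
  have hset : ∀ {W : Ω → ℝ}, Measurable W → MeasurableSet {ω | c < W ω} := fun hW => measurableSet_lt measurable_const hW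
  have hmI : ∀ {W : Ω → ℝ}, Measurable W → Measurable (fun ω => if c < W ω then (1:ℝ) else 0) := fun hW =>
    Measurable.ite (hset hW) measurable_const measurable_const
  have hconv : ∀ {W : Ω → ℝ}, Measurable W →
      ∫ ω, (if c < W ω then (1:ℝ) else 0) ∂P = (∫⁻ ω, ENNReal.ofReal (if c < W ω then (1:ℝ) else 0) ∂P).toReal := by
    intro W hW
    rw [integral_eq_lintegral_of_nonneg_ae (Eventually.of_forall fun ω => by split_ifs <;> norm_num)
      (hmI hW).aestronglyMeasurable]
  rw [hconv hZ]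
  have hle : ∫⁻ ω, ENNReal.ofReal (if c < Z ω then (1:ℝ) else 0) ∂P ≤ ENNReal.ofReal B := by
    calc ∫⁻ ω, ENNReal.ofReal (if c < Z ω then (1:ℝ) else 0) ∂P
        ≤ ∫⁻ ω, liminf (fun k => ENNReal.ofReal (if c < Y k ω then (1:ℝ) else 0)) atTop ∂P := by
          apply lintegral_mono_ae
          filter_upwards [hlim] with ω hω
          by_cases hc : c < Z ω
          · have hev : ∀ᶠ k in atTop, c < Y k ω := hω.eventually (lt_mem_nhds hc)
            have : (fun k => ENNReal.ofReal (if c < Y k ω then (1:ℝ) else 0)) =ᶠ[atTop] fun _ => 1 := by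
              filter_upwards [hev] with k hk
              simp [hk]
            rw [liminf_congr this]
            simp [hc]
          · simp [hc]
      _ ≤ liminf (fun k => ∫⁻ ω, ENNReal.ofReal (if c < Y k ω then (1:ℝ) else 0) ∂P) atTop :=
          lintegral_liminf_le fun k => ((hmI (hY k))).ennreal_ofReal
      _ ≤ ENNReal.ofReal B := by
          apply liminf_le_of_frequently_le' 
          apply Eventually.frequently
          filter_upwards [eventually_ge_atTop k₀] with k hk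
          have h1 := hbd k hk
          rw [hconv (hY k)] at h1
          have hne : ∫⁻ ω, ENNReal.ofReal (if c < Y k ω then (1:ℝ) else 0) ∂P ≠ ∞ := by
            apply ne_of_lt
            calc _ ≤ ∫⁻ _, 1 ∂P := lintegral_mono fun ω => by split_ifs <;> simp
              _ < ∞ := by simp
          exact (ENNReal.le_ofReal_iff_toReal_le hne hB).2 h1
  have hne : ENNReal.ofReal B ≠ ∞ := ENNReal.ofReal_ne_top
  calc _ ≤ (ENNReal.ofReal B).toReal := ENNReal.toReal_mono hne hle
    _ = B := ENNReal.toReal_ofReal hB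

/-- Dominated convergence for bounded sequences, inequalities. -/
theorem integral_le_of_ae_tendsto {Y : ℕ → Ω → ℝ} {Z : Ω → ℝ} (hY : ∀ k, Measurable (Y k))
    (hlim : ∀ᵐ ω ∂P, Tendsto (fun k => Y k ω) atTop (𝓝 (Z ω))) {M : ℝ}
    (hM : ∀ k ω, |Y k ω| ≤ M) :
    Tendsto (fun k => ∫ ω, Y k ω ∂P) atTop (𝓝 (∫ ω, Z ω ∂P)) := by
  refine tendsto_integral_of_dominated_convergence (fun _ => M) (fun k => (hY k).aestronglyMeasurable)
    (integrable_const _) (fun k => Eventually.of_forall fun ω => by simpa using hM k ω) hlim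

end Crest.Agent.Lib.TI.TransferAux
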