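import Crest.Agent.Lib.TI.RunInc
import Crest.Agent.Lib.TI.Concrete
import Crest.Agent.Lib.TI.BSV
import Crest.Agent.Lib.TI.Hat
import Crest.Agent.Lib.TI.TransferAux

/-!
# Infinite volume for `q θ² < 1` (S0241 project, module TI.Strict)

For `q θ² < 1` the ball runs converge in L² to `mInf`. The limit is exactly equivariant. We transfer to the limit the increment inequality and the static bounds.

**Volume bound** `vol_bound`. Let `W₁ = ball c₁ R₁ ⊆ W₂ = ball c₂ R₂`, `d v = R₁ - dist c₁ v`, `f v x = E (m¹_v - m²_v)²` at the state `(ℓ, x)`.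
`increment` (with `θ₁ = θ₂`, `L₁ = L₂`): the right side is `2 ∑_{u ∈ W₂} E incU`. By `cv_path`, `rr_lip`, `rr_le`: for `u ∈ W₁` at distance `k` from `v`:
`(c¹ v u - c² v u)² ≤ C₁ θ^(2k-2) (k+1) ∑_{x ∈ geodesic} (m¹_x - m²_x)²`, (`k = 0`: `≤ 4 (m¹_v - m²_v)²`) and `c² v u ² ≤ θ^(2k)`, for `u ∈ W₂ \ W₁`, `k > d v`: `c² v u ² ≤ θ^(2k)`.
Take `1 < Λ` with `q θ² Λ < 1`, and `Φ x = max_{v ∈ W₁} Λ^(d v) f v x`. As `d x_j ≥ d v - j` along the geodesic, `Λ^(d v) f_{x_j} ≤ Λ^j Φ`. Summing over spheres, whose size is `(q+1) q^(k-1)`,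
`Λ^(d v) (f v x₂ - f v x₁) ≤ ∫_{x₁}^{x₂} (α Φ + β)` with `α, β` depending only on `q, θ, Λ`, uniformly in the sets. Then `gron` on each cell, with `Φ = 0` at the start state `(L, 0)` (`mv` with `g = 1` vanishes),
and `Φ` at `(ℓ, 1/2)` equal to `Φ` at `(ℓ + 1, 0)` by `Act_half`.
-/

set_option autoImplicit false

namespace Crest.Agent.Lib.TI

open MeasureTheory Set Classical Filter Topology
open scoped unitInterval
open Crest.Agent.Lib.FiidChannel Crest.Agent.Lib.FiidPlanted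

variable {V : Type*} {G : SimpleGraph V} [G.LocallyFinite] {q : ℕ}

/-- The noise space. -/
abbrev Nz (V : Type*) := (Stg V → I) × (Stg V → I)

/-- The action of automorphisms on the noise space. -/
noncomputable def actN (g : G ≃g G) (ξ : Nz V) : Nz V := (actL g ξ.1, actL g ξ.2)

/-- Means on a ball, as a function on the noise space. -/
noncomputable def mB (G : SimpleGraph V) [G.LocallyFinite] (θ : ℝ) (c : V) (R : ℕ) (L : ℤ) (κ : ℤ → ℝ) (ℓ : ℤ) (x : ℝ) (ξ : Nz V) (v : V) : ℝ :=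
  mSt G θ (ball G c R) L κ ℓ x ξ.1 ξ.2 v

/-- **The infinite volume means.** -/
noncomputable def mInf (G : SimpleGraph V) [G.LocallyFinite] (θ : ℝ) (L : ℤ) (κ : ℤ → ℝ) (ℓ : ℤ) (x : ℝ) (ξ : Nz V) (v : V) : ℝ :=
  limsup (fun k : ℕ => mB G θ v k L κ ℓ x ξ v) atTop

/-- The covariances in terms of the means. -/
noncomputable def xI (G : SimpleGraph V) [G.LocallyFinite] (θ : ℝ) (m : V → ℝ) (v u : V) : ℝ :=
  (1 - m v ^ 2) * pathProd G (fun a b => rr θ (m a) (m b)) v u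

/-- The increment bound in terms of the means. -/
noncomputable def incI (G : SimpleGraph V) [G.LocallyFinite] (κ₀ θ₁ θ₂ : ℝ) (m₁ m₂ : V → ℝ) (v u : V) : ℝ :=
  2 * tauK κ₀ * (xI G θ₁ m₁ v u - xI G θ₂ m₂ v u) ^ 2 + 32 * κ₀ ^ 4 * xI G θ₂ m₂ v u ^ 2 * (m₁ u - m₂ u) ^ 2

variable {θ θ₁ θ₂ ϑ : ℝ} {L L₁ L₂ : ℤ} {κ : ℤ → ℝ} {ℓ : ℤ} {x x₁ x₂ : ℝ}

section pathBd

variable (hG : RegTree G q)
include hG

/-- Size of the product of transmissions along a path. -/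
theorem abs_pathProd_le {ϑ' : ℝ} (hθ : Adm θ) (h0 : 0 ≤ ϑ') (hle : θ ≤ ϑ') {m : V → ℝ} (hm : ∀ v, |m v| ≤ 1) (v u : V) :
    |pathProd G (fun a b => rr θ (m a) (m b)) v u| ≤ ϑ' ^ G.dist v u := by
  rw [pathProd_eq_prod hG, Finset.abs_prod]
  calc ∏ j ∈ Finset.range (G.dist v u), |rr θ (m (geo G v u j)) (m (geo G v u (j + 1)))|
      ≤ ∏ _j ∈ Finset.range (G.dist v u), ϑ' := by
        apply Finset.prod_le_prod (fun _ _ => abs_nonneg _)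
        intro j _
        rw [abs_of_nonneg (rr_nonneg hθ (hm _) (hm _))]
        exact (rr_le hθ (hm _) (hm _)).trans hle
    _ = ϑ' ^ G.dist v u := by simp

end pathBd

section general

variable (hG : RegTree G q) (hκ : Sched κ)
include hG hκ

omit hG hκ in
/-- The iterates of the sweep only see the noise on `W`. -/
private theorem iterate_stepR_dep {W : Finset V} {U U' w w' : Stg V → I} (hU : ∀ c : Stg V, c.1 ∈ W → U c = U' c)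
    (hw : ∀ c : Stg V, c.1 ∈ W → w c = w' c) (n : ℕ) :
    ∀ c : Stg V, c.1 ∈ W → (stepR G θ W L κ U w)^[n] (fun _ => 0) c = (stepR G θ W L κ U' w')^[n] (fun _ => 0) c := by
  induction n with
  | zero => intro c _; rfl
  | succ n ih =>
    intro c hc
    rw [Function.iterate_succ_apply', Function.iterate_succ_apply']
    have hAct : ∀ (ℓ' : ℤ) (x' : ℝ), Act W L U ℓ' x' = Act W L U' ℓ' x' := by
      intro ℓ' x'
      ext e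
      simp only [mem_Act]
      constructor
      · rintro ⟨h1, h2, h3, h4⟩
        exact ⟨h1, h2, h3, by rwa [← hU e h1]⟩
      · rintro ⟨h1, h2, h3, h4⟩
        exact ⟨h1, h2, h3, by rwa [hU e h1]⟩
    have h : gA κ (Act W L U c.2 (U c)) ((stepR G θ W L κ U w)^[n] (fun _ => 0)) =
        gA κ (Act W L U' c.2 (U' c)) ((stepR G θ W L κ U' w')^[n] (fun _ => 0)) := by
      rw [← hU c hc, hAct]
      exact gA_congr (fun e he => ih e ((mem_Act.mp he).1))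
    simp only [stepR]
    rw [h, hw c hc]

/-- The means of a set only see the noise on that set. -/
theorem mSt_dep {W : Finset V} {U U' w w' : Stg V → I} (hU : ∀ c : Stg V, c.1 ∈ W → U c = U' c) (hw : ∀ c : Stg V, c.1 ∈ W → w c = w' c) (v : V) :
    mSt G θ W L κ ℓ x U w v = mSt G θ W L κ ℓ x U' w' v := by
  have hAct : Act W L U ℓ x = Act W L U' ℓ x := by
    ext e
    simp only [mem_Act]
    constructor
    · rintro ⟨h1, h2, h3, h4⟩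
      exact ⟨h1, h2, h3, by rwa [← hU e h1]⟩
    · rintro ⟨h1, h2, h3, h4⟩
      exact ⟨h1, h2, h3, by rwa [hU e h1]⟩
  unfold mSt gSt
  rw [hAct]
  congr 1
  apply gA_congr
  intro e he
  exact iterate_stepR_dep hU hw _ e (mem_Act.mp he).1

/-- Covariances in terms of the means, on balls. -/
theorem cSt_eq_xI (hθ : Adm θ) {c v u : V} {R : ℕ} (hv : v ∈ ball G c R) (hu : u ∈ ball G c R) (ξ : Nz V) :
    cSt G θ (ball G c R) L κ ℓ x ξ.1 ξ.2 v u = xI G θ (mB G θ c R L κ ℓ x ξ) v u := by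
  unfold cSt xI mB mSt
  exact cv_path hG hθ (gA_pos hκ _ _) (star_ball hG hu) hv

omit hκ in
/-- Size of the transmission along a path. -/
theorem abs_xI_le (hθ : Adm θ) {m : V → ℝ} (hm : ∀ v, |m v| ≤ 1) (v u : V) : |xI G θ m v u| ≤ θ ^ G.dist v u := by
  unfold xI
  rw [abs_mul]
  have h1 : |1 - m v ^ 2| ≤ 1 := by
    have := abs_le.mp (hm v)
    rw [abs_le]
    constructor <;> nlinarith [this.1, this.2]
  have h2 := abs_pathProd_le hG hθ hθ.nonneg (le_refl θ) hm v u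
  calc |1 - m v ^ 2| * |pathProd G (fun a b => rr θ (m a) (m b)) v u|
      ≤ 1 * θ ^ G.dist v u := mul_le_mul h1 h2 (abs_nonneg _) zero_le_one
    _ = θ ^ G.dist v u := one_mul _

omit hG hκ [G.LocallyFinite] in
private theorem xI_lip_aux {t c2 D S k : ℝ} (ht : 0 ≤ t) (hc : 0 ≤ c2) (hD : 0 ≤ D) (hS : 0 ≤ S) (hk : 0 ≤ k) :
    2 * (4 * S * t) + 2 * (k * t * (3 * c2 * (2 * S + k * D))) ≤ (8 + 12 * c2) * t * (k + 1) * (S + (k + 1) * D) := by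
  have e : (8 + 12 * c2) * t * (k + 1) * (S + (k + 1) * D) - (2 * (4 * S * t) + 2 * (k * t * (3 * c2 * (2 * S + k * D)))) =
      t * (8 * k * S + 8 * (k + 1) ^ 2 * D + 12 * c2 * S + (6 * k ^ 2 + 24 * k + 12) * c2 * D) := by
    ring
  have h : 0 ≤ t * (8 * k * S + 8 * (k + 1) ^ 2 * D + 12 * c2 * S + (6 * k ^ 2 + 24 * k + 12) * c2 * D) := by positivity
  linarith

omit hκ in
/-- Lipschitz dependence of the transmission on the means. -/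
theorem xI_lip : ∃ c : ℝ, 0 < c ∧ ∀ (θ θ' : ℝ) (_ : Adm θ) (_ : Adm θ') (m m' : V → ℝ) (_ : ∀ v, |m v| ≤ 1) (_ : ∀ v, |m' v| ≤ 1) (v u : V),
    (xI G θ m v u - xI G θ' m' v u) ^ 2 ≤
      c * (max θ θ') ^ (2 * G.dist v u - 2) * (G.dist v u + 1) *
        (∑ j ∈ Finset.range (G.dist v u + 1), (m (geo G v u j) - m' (geo G v u j)) ^ 2 + (G.dist v u + 1) * (θ - θ') ^ 2) := by
  obtain ⟨c', hc', H⟩ := rr_lip
  refine ⟨8 + 12 * c' ^ 2, by positivity, ?_⟩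
  intro θ θ' hθ hθ' m m' hm hm' v u
  obtain ⟨k, hk⟩ : ∃ k, k = G.dist v u := ⟨_, rfl⟩
  rw [← hk]
  obtain ⟨Θ, hΘ⟩ : ∃ Θ, Θ = max θ θ' := ⟨_, rfl⟩
  rw [← hΘ]
  have hΘ0 : 0 ≤ Θ := hΘ ▸ le_max_of_le_left hθ.nonneg
  have hΘ1 : Θ ≤ 1 := hΘ ▸ max_le hθ.lt_one.le hθ'.lt_one.le
  have hθΘ : θ ≤ Θ := hΘ ▸ le_max_left _ _
  have hθ'Θ : θ' ≤ Θ := hΘ ▸ le_max_right _ _
  -- notation
  obtain ⟨Δ, hΔ⟩ : ∃ Δ : ℕ → ℝ, Δ = fun j => m (geo G v u j) - m' (geo G v u j) := ⟨_, rfl⟩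
  have hΔj : ∀ j, m (geo G v u j) - m' (geo G v u j) = Δ j := fun j => by rw [hΔ]
  simp only [hΔj]
  obtain ⟨S, hS⟩ : ∃ S, S = ∑ j ∈ Finset.range (k + 1), Δ j ^ 2 := ⟨_, rfl⟩
  rw [← hS]
  have hS0 : 0 ≤ S := hS ▸ Finset.sum_nonneg (fun _ _ => sq_nonneg _)
  have hΔ0 : Δ 0 ^ 2 ≤ S := by
    rw [hS]
    exact Finset.single_le_sum (f := fun j => Δ j ^ 2) (fun _ _ => sq_nonneg _) (Finset.mem_range.2 (by omega))
  have hS1 : ∑ j ∈ Finset.range k, Δ j ^ 2 ≤ S := by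
    rw [hS, Finset.sum_range_succ]
    linarith [sq_nonneg (Δ k)]
  have hS2 : ∑ j ∈ Finset.range k, Δ (j + 1) ^ 2 ≤ S := by
    rw [hS, Finset.sum_range_succ']
    linarith [sq_nonneg (Δ 0)]
  obtain ⟨d, hd⟩ : ∃ d, d = θ - θ' := ⟨_, rfl⟩
  rw [← hd]
  obtain ⟨f, hf⟩ : ∃ f : V → V → ℝ, f = fun a b => rr θ (m a) (m b) := ⟨_, rfl⟩
  obtain ⟨f', hf'⟩ : ∃ f' : V → V → ℝ, f' = fun a b => rr θ' (m' a) (m' b) := ⟨_, rfl⟩
  obtain ⟨T, hT⟩ : ∃ T : ℕ → ℝ, T = fun j => f (geo G v u j) (geo G v u (j + 1)) - f' (geo G v u j) (geo G v u (j + 1)) := ⟨_, rfl⟩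
  -- each edge
  have hTj : ∀ j, T j ^ 2 ≤ 3 * c' ^ 2 * (Δ j ^ 2 + Δ (j + 1) ^ 2 + d ^ 2) := by
    intro j
    have h := H θ θ' (m (geo G v u j)) (m (geo G v u (j + 1))) (m' (geo G v u j)) (m' (geo G v u (j + 1))) hθ hθ' (hm _) (hm _) (hm' _) (hm' _)
    rw [hΔj, hΔj, ← hd] at h
    have h' : |T j| ≤ c' * (|Δ j| + |Δ (j + 1)| + |d|) := by
      rw [hT, hf, hf']
      exact h
    have h2 : T j ^ 2 ≤ (c' * (|Δ j| + |Δ (j + 1)| + |d|)) ^ 2 := by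
      rw [← sq_abs (T j)]
      exact pow_le_pow_left₀ (abs_nonneg _) h' 2
    have h3 : (|Δ j| + |Δ (j + 1)| + |d|) ^ 2 ≤ 3 * (Δ j ^ 2 + Δ (j + 1) ^ 2 + d ^ 2) := by
      have e1 := sq_abs (Δ j)
      have e2 := sq_abs (Δ (j + 1))
      have e3 := sq_abs d
      rw [← e1, ← e2, ← e3]
      nlinarith [sq_nonneg (|Δ j| - |Δ (j + 1)|), sq_nonneg (|Δ j| - |d|), sq_nonneg (|Δ (j + 1)| - |d|)]
    calc T j ^ 2 ≤ (c' * (|Δ j| + |Δ (j + 1)| + |d|)) ^ 2 := h2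
      _ = c' ^ 2 * (|Δ j| + |Δ (j + 1)| + |d|) ^ 2 := by ring
      _ ≤ c' ^ 2 * (3 * (Δ j ^ 2 + Δ (j + 1) ^ 2 + d ^ 2)) := mul_le_mul_of_nonneg_left h3 (sq_nonneg _)
      _ = _ := by ring
  have hTsum : ∑ j ∈ Finset.range k, T j ^ 2 ≤ 3 * c' ^ 2 * (2 * S + k * d ^ 2) := by
    calc ∑ j ∈ Finset.range k, T j ^ 2 ≤ ∑ j ∈ Finset.range k, 3 * c' ^ 2 * (Δ j ^ 2 + Δ (j + 1) ^ 2 + d ^ 2) :=
          Finset.sum_le_sum (fun j _ => hTj j)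
      _ = 3 * c' ^ 2 * (∑ j ∈ Finset.range k, Δ j ^ 2 + ∑ j ∈ Finset.range k, Δ (j + 1) ^ 2 + k * d ^ 2) := by
          rw [← Finset.mul_sum, Finset.sum_add_distrib, Finset.sum_add_distrib]
          simp
      _ ≤ 3 * c' ^ 2 * (2 * S + k * d ^ 2) := by
          apply mul_le_mul_of_nonneg_left _ (by positivity)
          linarith
  -- the difference of path products
  have hR : |pathProd G f v u| ≤ Θ ^ k := by
    rw [hk, hf]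
    exact abs_pathProd_le hG hθ hΘ0 hθΘ hm v u
  have hdiff : (pathProd G f v u - pathProd G f' v u) ^ 2 ≤ k * Θ ^ (2 * k - 2) * (3 * c' ^ 2 * (2 * S + k * d ^ 2)) := by
    rw [pathProd_sub hG f f' v u, ← hk]
    have hterm : ∀ j ∈ Finset.range k,
        (pathProd G f' v (geo G v u j) * (f (geo G v u j) (geo G v u (j + 1)) - f' (geo G v u j) (geo G v u (j + 1))) *
          pathProd G f (geo G v u (j + 1)) u) ^ 2 ≤ Θ ^ (2 * k - 2) * T j ^ 2 := by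
      intro j hj
      have hj' : j < k := Finset.mem_range.1 hj
      have h1 : |pathProd G f' v (geo G v u j)| ≤ Θ ^ j := by
        have := abs_pathProd_le hG hθ' hΘ0 hθ'Θ hm' v (geo G v u j)
        rwa [dist_geo_left hG v u (by omega), ← hf'] at this
      have h2 : |pathProd G f (geo G v u (j + 1)) u| ≤ Θ ^ (k - (j + 1)) := by
        have := abs_pathProd_le hG hθ hΘ0 hθΘ hm (geo G v u (j + 1)) u
        have hdr := dist_geo_right hG v u (j := j + 1) (by omega)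
        have hdr' : G.dist (geo G v u (j + 1)) u = k - (j + 1) := by omega
        rwa [hdr', ← hf] at this
      have h3 : (pathProd G f' v (geo G v u j) * pathProd G f (geo G v u (j + 1)) u) ^ 2 ≤ Θ ^ (2 * k - 2) := by
        have h4 : |pathProd G f' v (geo G v u j) * pathProd G f (geo G v u (j + 1)) u| ≤ Θ ^ j * Θ ^ (k - (j + 1)) := by
          rw [abs_mul]
          exact mul_le_mul h1 h2 (abs_nonneg _) (pow_nonneg hΘ0 _)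
        have h5 : Θ ^ j * Θ ^ (k - (j + 1)) = Θ ^ (k - 1) := by
          rw [← pow_add]
          congr 1
          omega
        rw [h5] at h4
        calc (pathProd G f' v (geo G v u j) * pathProd G f (geo G v u (j + 1)) u) ^ 2
            = |pathProd G f' v (geo G v u j) * pathProd G f (geo G v u (j + 1)) u| ^ 2 := (sq_abs _).symm
          _ ≤ (Θ ^ (k - 1)) ^ 2 := pow_le_pow_left₀ (abs_nonneg _) h4 2
          _ = Θ ^ (2 * k - 2) := by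
              rw [← pow_mul]
              congr 1
              omega
      have hTe : f (geo G v u j) (geo G v u (j + 1)) - f' (geo G v u j) (geo G v u (j + 1)) = T j := by rw [hT]
      rw [hTe]
      calc (pathProd G f' v (geo G v u j) * T j * pathProd G f (geo G v u (j + 1)) u) ^ 2
          = (pathProd G f' v (geo G v u j) * pathProd G f (geo G v u (j + 1)) u) ^ 2 * T j ^ 2 := by ring
        _ ≤ Θ ^ (2 * k - 2) * T j ^ 2 := mul_le_mul_of_nonneg_right h3 (sq_nonneg _)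
    calc _ ≤ (Finset.range k).card * ∑ j ∈ Finset.range k,
          (pathProd G f' v (geo G v u j) * (f (geo G v u j) (geo G v u (j + 1)) - f' (geo G v u j) (geo G v u (j + 1))) *
          pathProd G f (geo G v u (j + 1)) u) ^ 2 := sq_sum_le_card_mul_sum_sq
      _ ≤ k * ∑ j ∈ Finset.range k, Θ ^ (2 * k - 2) * T j ^ 2 := by
          rw [Finset.card_range]
          exact mul_le_mul_of_nonneg_left (Finset.sum_le_sum hterm) (Nat.cast_nonneg _)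
      _ = k * Θ ^ (2 * k - 2) * ∑ j ∈ Finset.range k, T j ^ 2 := by
          rw [← Finset.mul_sum]
          ring
      _ ≤ k * Θ ^ (2 * k - 2) * (3 * c' ^ 2 * (2 * S + k * d ^ 2)) :=
          mul_le_mul_of_nonneg_left hTsum (by positivity)
  -- the final bound
  have hm1 : m v - m' v = Δ 0 := by rw [hΔ]; rfl
  have hx1 := abs_le.mp (hm v)
  have hx2 := abs_le.mp (hm' v)
  have hA : (m' v ^ 2 - m v ^ 2) ^ 2 ≤ 4 * Δ 0 ^ 2 := by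
    have e : m' v ^ 2 - m v ^ 2 = -(Δ 0) * (m v + m' v) := by rw [← hm1]; ring
    rw [e, mul_pow, neg_sq]
    have : (m v + m' v) ^ 2 ≤ 4 := by nlinarith [hx1.1, hx1.2, hx2.1, hx2.2]
    nlinarith [sq_nonneg (Δ 0)]
  have hB : (1 - m' v ^ 2) ^ 2 ≤ 1 := by
    have : 0 ≤ m' v ^ 2 := sq_nonneg _
    have : m' v ^ 2 ≤ 1 := by nlinarith [hx2.1, hx2.2]
    nlinarith
  have hRsq : pathProd G f v u ^ 2 ≤ Θ ^ (2 * k - 2) := by
    calc pathProd G f v u ^ 2 = |pathProd G f v u| ^ 2 := (sq_abs _).symm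
      _ ≤ (Θ ^ k) ^ 2 := pow_le_pow_left₀ (abs_nonneg _) hR 2
      _ = Θ ^ (2 * k) := by rw [← pow_mul]; congr 1; omega
      _ ≤ Θ ^ (2 * k - 2) := pow_le_pow_of_le_one hΘ0 hΘ1 (by omega)
  have hΘe : 0 ≤ Θ ^ (2 * k - 2) := pow_nonneg hΘ0 _
  have hexp : xI G θ m v u - xI G θ' m' v u =
      (m' v ^ 2 - m v ^ 2) * pathProd G f v u + (1 - m' v ^ 2) * (pathProd G f v u - pathProd G f' v u) := by
    unfold xI
    rw [← hf, ← hf']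
    ring
  rw [hexp]
  have hk0 : (0 : ℝ) ≤ k := Nat.cast_nonneg _
  have hmain : ((m' v ^ 2 - m v ^ 2) * pathProd G f v u + (1 - m' v ^ 2) * (pathProd G f v u - pathProd G f' v u)) ^ 2 ≤
      2 * ((m' v ^ 2 - m v ^ 2) ^ 2 * pathProd G f v u ^ 2) + 2 * ((1 - m' v ^ 2) ^ 2 * (pathProd G f v u - pathProd G f' v u) ^ 2) := by
    nlinarith [sq_nonneg ((m' v ^ 2 - m v ^ 2) * pathProd G f v u - (1 - m' v ^ 2) * (pathProd G f v u - pathProd G f' v u))]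
  have h1 : (m' v ^ 2 - m v ^ 2) ^ 2 * pathProd G f v u ^ 2 ≤ 4 * S * Θ ^ (2 * k - 2) := by
    calc _ ≤ (4 * S) * Θ ^ (2 * k - 2) := mul_le_mul (by linarith) hRsq (sq_nonneg _) (by positivity)
      _ = _ := by ring
  have h2 : (1 - m' v ^ 2) ^ 2 * (pathProd G f v u - pathProd G f' v u) ^ 2 ≤ k * Θ ^ (2 * k - 2) * (3 * c' ^ 2 * (2 * S + k * d ^ 2)) := by
    calc _ ≤ 1 * (pathProd G f v u - pathProd G f' v u) ^ 2 := mul_le_mul_of_nonneg_right hB (sq_nonneg _)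
      _ = (pathProd G f v u - pathProd G f' v u) ^ 2 := one_mul _
      _ ≤ _ := hdiff
  have hfinal := xI_lip_aux hΘe (sq_nonneg c') (sq_nonneg d) hS0 hk0
  calc _ ≤ 2 * ((m' v ^ 2 - m v ^ 2) ^ 2 * pathProd G f v u ^ 2) + 2 * ((1 - m' v ^ 2) ^ 2 * (pathProd G f v u - pathProd G f' v u) ^ 2) := hmain
    _ ≤ 2 * (4 * S * Θ ^ (2 * k - 2)) + 2 * (k * Θ ^ (2 * k - 2) * (3 * c' ^ 2 * (2 * S + k * d ^ 2))) := by linarith
    _ ≤ _ := hfinal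

/-- Path reversal. -/
theorem xI_rev (hθ : Adm θ) {m : V → ℝ} (hm : ∀ v, |m v| ≤ 1) (v u : V) : xI G θ m v u = xI G θ m u v := by
  generalize hn : G.dist v u = n
  induction n generalizing v with
  | zero =>
    have : v = u := (hG.tree.connected.dist_eq_zero_iff).1 hn
    rw [this]
  | succ n ih =>
    have hne : v ≠ u := by
      rintro rfl
      simp at hn
    have hd := dist_nxt hG hne
    have hw : G.dist (nxt G v u) u = n := by omega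
    have IH := ih (nxt G v u) hw
    unfold xI at IH ⊢
    rw [pathProd_cons hG _ hne, pathProd_snoc hG _ hne.symm]
    have hr := rr_rev hθ (hm v) (hm (nxt G v u))
    calc (1 - m v ^ 2) * (rr θ (m v) (m (nxt G v u)) * pathProd G (fun a b => rr θ (m a) (m b)) (nxt G v u) u)
        = ((1 - m v ^ 2) * rr θ (m v) (m (nxt G v u))) * pathProd G (fun a b => rr θ (m a) (m b)) (nxt G v u) u := by ring
      _ = ((1 - m (nxt G v u) ^ 2) * rr θ (m (nxt G v u)) (m v)) * pathProd G (fun a b => rr θ (m a) (m b)) (nxt G v u) u := by rw [hr]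
      _ = rr θ (m (nxt G v u)) (m v) * ((1 - m (nxt G v u) ^ 2) * pathProd G (fun a b => rr θ (m a) (m b)) (nxt G v u) u) := by ring
      _ = rr θ (m (nxt G v u)) (m v) * ((1 - m u ^ 2) * pathProd G (fun a b => rr θ (m a) (m b)) u (nxt G v u)) := by rw [IH]
      _ = _ := by ring

omit hκ in
theorem xI_aut (g : G ≃g G) (m : V → ℝ) (v u : V) : xI G θ (fun v => m (g v)) v u = xI G θ m (g v) (g u) := by
  unfold xI
  rw [pathProd_aut hG g (fun a b => rr θ (m a) (m b))]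

/-- Invariance of the noise. -/
theorem integral_actN (g : G ≃g G) {F : Nz V → ℝ} (hF : Measurable F) :
    ∫ ξ, F (actN g ξ) ∂noiseP V = ∫ ξ, F ξ ∂noiseP V := by
  have hm := measurable_actL (V := V) (G := G) g
  have hmap : (noiseP V).map (actN g) = noiseP V := by
    have h1 : (actN (V := V) g) = Prod.map (actL g) (actL g) := rfl
    unfold noiseP
    rw [h1, ← Measure.map_prod_map _ _ hm hm, map_actL]
  have hmN : Measurable (actN (V := V) g) := hm.prodMap hm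
  calc ∫ ξ, F (actN g ξ) ∂noiseP V = ∫ ξ, F ξ ∂(noiseP V).map (actN g) :=
        (integral_map hmN.aemeasurable hF.aestronglyMeasurable).symm
    _ = ∫ ξ, F ξ ∂noiseP V := by rw [hmap]

end general

/-! ### Auxiliary material for `path_var` -/

namespace PathVar

/-- `L²` convergence of uniformly bounded functions gives convergence of the second moments. -/
theorem tendsto_integral_sq {Ω : Type*} [MeasurableSpace Ω] {μ : Measure Ω} [IsProbabilityMeasure μ]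
    {f : ℕ → Ω → ℝ} {g : Ω → ℝ} {M : ℝ} (hf : ∀ n, Measurable (f n)) (hfM : ∀ n x, |f n x| ≤ M)
    (hg : Measurable g) (hgM : ∀ x, |g x| ≤ M)
    (h : Tendsto (fun n => ∫ x, (f n x - g x) ^ 2 ∂μ) atTop (𝓝 0)) :
    Tendsto (fun n => ∫ x, f n x ^ 2 ∂μ) atTop (𝓝 (∫ x, g x ^ 2 ∂μ)) := by
  have hbm : ∀ {φ : Ω → ℝ}, Measurable φ → (∃ C, ∀ x, |φ x| ≤ C) → Integrable φ μ := fun hφ hC =>
    (show BM _ from ⟨hφ, hC⟩).integrable μ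
  have hfi : ∀ n, Integrable (fun x => f n x ^ 2) μ := fun n =>
    hbm ((hf n).pow_const 2) ⟨M ^ 2, fun x => by
      rw [abs_pow]; exact pow_le_pow_left₀ (abs_nonneg _) (hfM n x) 2⟩
  have hgi : Integrable (fun x => g x ^ 2) μ :=
    hbm (hg.pow_const 2) ⟨M ^ 2, fun x => by
      rw [abs_pow]; exact pow_le_pow_left₀ (abs_nonneg _) (hgM x) 2⟩
  have hdi : ∀ n, Integrable (fun x => (f n x - g x) ^ 2) μ := fun n =>
    hbm (((hf n).sub hg).pow_const 2) ⟨(2 * M) ^ 2, fun x => by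
      rw [abs_pow]
      refine pow_le_pow_left₀ (abs_nonneg _) ?_ 2
      calc |f n x - g x| ≤ |f n x| + |g x| := abs_sub _ _
        _ ≤ 2 * M := by linarith [hfM n x, hgM x]⟩
  set M' : ℝ := |M| + 1 with hM'
  have hM'pos : 0 < M' := by positivity
  have hfM' : ∀ n x, |f n x| ≤ M' := fun n x => (hfM n x).trans ((le_abs_self M).trans (by simp [hM']))
  have hgM' : ∀ x, |g x| ≤ M' := fun x => (hgM x).trans ((le_abs_self M).trans (by simp [hM']))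
  rw [Metric.tendsto_atTop]
  intro ε hε
  have hc : 0 < 2 * M' ^ 2 / (ε / 2) + 1 := by positivity
  have hev := (Metric.tendsto_atTop.1 h) (ε / 4 / (2 * M' ^ 2 / (ε / 2) + 1)) (by positivity)
  obtain ⟨N, hN⟩ := hev
  refine ⟨N, fun n hn => ?_⟩
  have h1 := hN n hn
  rw [Real.dist_eq, sub_zero] at h1
  have h2 : ∫ x, (f n x - g x) ^ 2 ∂μ < ε / 4 / (2 * M' ^ 2 / (ε / 2) + 1) :=
    (le_abs_self _).trans_lt h1
  have h3 : (2 * M' ^ 2 / (ε / 2)) * ∫ x, (f n x - g x) ^ 2 ∂μ < ε / 4 := by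
    have h0 : 0 ≤ ∫ x, (f n x - g x) ^ 2 ∂μ := integral_nonneg fun x => sq_nonneg _
    have h4 : (2 * M' ^ 2 / (ε / 2) + 1) * ∫ x, (f n x - g x) ^ 2 ∂μ < ε / 4 := by
      rwa [lt_div_iff₀ hc, mul_comm] at h2
    nlinarith
  -- pointwise bound
  have hptw : ∀ x, |f n x ^ 2 - g x ^ 2| ≤ ε / 2 + (2 * M' ^ 2 / (ε / 2)) * (f n x - g x) ^ 2 := by
    intro x
    have e : f n x ^ 2 - g x ^ 2 = (f n x - g x) * (f n x + g x) := by ring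
    set t := |f n x - g x| with ht
    have ht0 : 0 ≤ t := abs_nonneg _
    have h5 : |f n x + g x| ≤ 2 * M' := (abs_add_le _ _).trans (by linarith [hfM' n x, hgM' x])
    have h6 : |f n x ^ 2 - g x ^ 2| ≤ t * (2 * M') := by
      rw [e, abs_mul]
      exact mul_le_mul_of_nonneg_left h5 ht0
    have h7 : (f n x - g x) ^ 2 = t ^ 2 := (sq_abs _).symm
    rw [h7]
    have h8 : ε / 2 + 2 * M' ^ 2 / (ε / 2) * t ^ 2 - t * (2 * M') =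
        (2 / (ε / 2)) * (ε / 4 - M' * t) ^ 2 + ε / 4 := by
      field_simp
      ring
    have h9 : 0 ≤ (2 / (ε / 2)) * (ε / 4 - M' * t) ^ 2 := by positivity
    linarith
  have hint : |∫ x, f n x ^ 2 ∂μ - ∫ x, g x ^ 2 ∂μ| ≤
      ε / 2 + (2 * M' ^ 2 / (ε / 2)) * ∫ x, (f n x - g x) ^ 2 ∂μ := by
    rw [← integral_sub (hfi n) hgi]
    refine (abs_integral_le_integral_abs).trans ?_
    have hi : Integrable (fun x => ε / 2 + (2 * M' ^ 2 / (ε / 2)) * (f n x - g x) ^ 2) μ :=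
      (integrable_const _).add ((hdi n).const_mul _)
    refine (integral_mono ((hfi n).sub hgi).abs hi hptw).trans_eq ?_
    rw [integral_add (integrable_const _) ((hdi n).const_mul _), integral_const_mul]
    simp
  rw [Real.dist_eq]
  linarith

/-- Jensen on a probability space. -/
theorem sq_integral_le {Ω : Type*} [MeasurableSpace Ω] {μ : Measure Ω} [IsProbabilityMeasure μ]
    {h : Ω → ℝ} (hh : BM h) : (∫ x, h x ∂μ) ^ 2 ≤ ∫ x, h x ^ 2 ∂μ := by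
  have hbm2 : BM (fun x => h x ^ 2) := by
    have := hh.mul hh
    refine (show (fun x => h x ^ 2) = _ from ?_) ▸ this
    funext x; ring
  set m := ∫ y, h y ∂μ with hm
  have h0 : 0 ≤ ∫ x, (h x - m) ^ 2 ∂μ := integral_nonneg fun x => sq_nonneg _
  have e : ∀ x, (h x - m) ^ 2 = h x ^ 2 + ((-2 * m) * h x + m ^ 2) := by
    intro x; ring
  simp_rw [e] at h0
  rw [integral_add (f := fun x => h x ^ 2) (g := fun x => (-2 * m) * h x + m ^ 2) (hbm2.integrable μ)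
      (((hh.integrable μ).const_mul _).add (integrable_const _)),
    integral_add (f := fun x => (-2 * m) * h x) (g := fun _ => m ^ 2) ((hh.integrable μ).const_mul _)
      (integrable_const _), integral_const_mul, ← hm] at h0
  simp only [integral_const, probReal_univ, smul_eq_mul, one_mul] at h0
  nlinarith

/-- Expansion of the second moment of a finite sum. -/
theorem integral_sq_sum {Ω ι : Type*} [MeasurableSpace Ω] {μ : Measure Ω} [IsProbabilityMeasure μ]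
    (s : Finset ι) {X : ι → Ω → ℝ} (hX : ∀ i ∈ s, BM (X i)) (c : ι → ℝ) :
    ∫ x, (∑ i ∈ s, c i * X i x) ^ 2 ∂μ =
      ∑ i ∈ s, ∑ j ∈ s, c i * c j * ∫ x, X i x * X j x ∂μ := by
  have e : ∀ x, (∑ i ∈ s, c i * X i x) ^ 2 = ∑ i ∈ s, ∑ j ∈ s, c i * c j * (X i x * X j x) := by
    intro x
    rw [sq, Finset.sum_mul_sum]
    refine Finset.sum_congr rfl fun i _ => Finset.sum_congr rfl fun j _ => ?_
    ring
  simp_rw [e]
  rw [integral_finsetSum _ fun i hi => integrable_finsetSum _ fun j hj =>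
    (((hX i hi).mul (hX j hj)).integrable μ).const_mul _]
  refine Finset.sum_congr rfl fun i hi => ?_
  rw [integral_finsetSum _ fun j hj => (((hX i hi).mul (hX j hj)).integrable μ).const_mul _]
  refine Finset.sum_congr rfl fun j _ => ?_
  rw [integral_const_mul]

/-- Additivity for four terms. -/
theorem integral_add4 {Ω : Type*} [MeasurableSpace Ω] {μ : Measure Ω} {f₁ f₂ f₃ f₄ : Ω → ℝ}
    (i₁ : Integrable f₁ μ) (i₂ : Integrable f₂ μ) (i₃ : Integrable f₃ μ) (i₄ : Integrable f₄ μ) :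
    ∫ x, (f₁ x + f₂ x + f₃ x + f₄ x) ∂μ = ∫ x, f₁ x ∂μ + ∫ x, f₂ x ∂μ + ∫ x, f₃ x ∂μ + ∫ x, f₄ x ∂μ := by
  rw [integral_add (f := fun x => f₁ x + f₂ x + f₃ x) (g := f₄) ((i₁.add i₂).add i₃) i₄,
    integral_add (f := fun x => f₁ x + f₂ x) (g := f₃) (i₁.add i₂) i₃,
    integral_add (f := f₁) (g := f₂) i₁ i₂]

theorem measurable_cav (θ : ℝ) : Measurable (fun p : ℝ × ℝ => cav θ p.1 p.2) := by
  unfold cav cavD
  fun_prop

theorem lhat_zero (ϑ : ℝ) : lhat ϑ 0 = 0 := by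
  simp [lhat]

theorem abs_lhat_le {ϑ t : ℝ} (hϑ : Adm ϑ) (ht : |t| ≤ 1) : |lhat ϑ t| ≤ 3 := by
  have h := lhat_lip hϑ t 0
  rw [lhat_zero, sub_zero, sub_zero, abs_zero, max_eq_left (abs_nonneg t)] at h
  have h1 : 0 ≤ |t| := abs_nonneg t
  nlinarith

/-- The composition is a bounded measurable function. -/
theorem lhat_cav_bm {Ω : Type*} [MeasurableSpace Ω] {ϑ θ : ℝ} (hϑ : Adm ϑ) (hθ : Adm θ) {m₁ m₂ : Ω → ℝ}
    (h₁ : Measurable m₁) (h₂ : Measurable m₂) (hb₁ : ∀ ξ, |m₁ ξ| ≤ 1) (hb₂ : ∀ ξ, |m₂ ξ| ≤ 1) :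
    BM (fun ξ => lhat ϑ (cav θ (m₁ ξ) (m₂ ξ))) :=
  ⟨(continuous_lhat hϑ).measurable.comp ((measurable_cav θ).comp (h₁.prodMk h₂)), 3, fun ξ =>
    abs_lhat_le hϑ (abs_cav_le hθ (hb₁ ξ) (hb₂ ξ))⟩

theorem lhat_cav_diff_sq : ∃ c : ℝ, 0 < c ∧ ∀ ϑ θ x y x' y' : ℝ, Adm ϑ → Adm θ → |x| ≤ 1 → |y| ≤ 1 → |x'| ≤ 1 → |y'| ≤ 1 →
    (lhat ϑ (cav θ x y) - lhat ϑ (cav θ x' y')) ^ 2 ≤ c * ((x - x') ^ 2 + (y - y') ^ 2) := by
  obtain ⟨c, hc, h⟩ := cav_lip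
  refine ⟨18 * c ^ 2, by positivity, ?_⟩
  intro ϑ θ x y x' y' hϑ hθ hx hy hx' hy'
  have h1 := h θ θ x y x' y' hθ hθ hx hy hx' hy'
  rw [sub_self, abs_zero, add_zero] at h1
  have h2 := lhat_lip hϑ (cav θ x y) (cav θ x' y')
  have h3 := abs_cav_le hθ hx hy
  have h4 := abs_cav_le hθ hx' hy'
  have h5 : max |cav θ x y| |cav θ x' y'| ≤ 1 := max_le h3 h4
  have h6 : |lhat ϑ (cav θ x y) - lhat ϑ (cav θ x' y')| ≤ 3 * (c * (|x - x'| + |y - y'|)) := by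
    calc _ ≤ 3 * max |cav θ x y| |cav θ x' y'| * |cav θ x y - cav θ x' y'| := h2
      _ ≤ 3 * 1 * |cav θ x y - cav θ x' y'| := by
        gcongr
      _ ≤ _ := by
        rw [mul_one]
        gcongr
  have h7 : (lhat ϑ (cav θ x y) - lhat ϑ (cav θ x' y')) ^ 2 ≤ (3 * (c * (|x - x'| + |y - y'|))) ^ 2 := by
    rw [← sq_abs]
    exact pow_le_pow_left₀ (abs_nonneg _) h6 2
  refine h7.trans ?_
  have h8 : (|x - x'| + |y - y'|) ^ 2 ≤ 2 * ((x - x') ^ 2 + (y - y') ^ 2) := by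
    have e1 : |x - x'| ^ 2 = (x - x') ^ 2 := sq_abs _
    have e2 : |y - y'| ^ 2 = (y - y') ^ 2 := sq_abs _
    nlinarith [sq_nonneg (|x - x'| - |y - y'|)]
  have h9 : (3 * (c * (|x - x'| + |y - y'|))) ^ 2 = 9 * c ^ 2 * (|x - x'| + |y - y'|) ^ 2 := by ring
  rw [h9]
  have h10 : 0 ≤ 9 * c ^ 2 := by positivity
  nlinarith [mul_le_mul_of_nonneg_left h8 h10]

/-- Independence of noise on disjoint sets of vertices. -/
theorem integral_mul_noise {W₁ W₂ : Finset V} (hd : Disjoint W₁ W₂) {Φ₁ Φ₂ : Nz V → ℝ} (h₁ : BM Φ₁) (h₂ : BM Φ₂)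
    (hd₁ : ∀ ξ ξ' : Nz V, (∀ c : Stg V, c.1 ∈ W₁ → ξ.1 c = ξ'.1 c ∧ ξ.2 c = ξ'.2 c) → Φ₁ ξ = Φ₁ ξ')
    (hd₂ : ∀ ξ ξ' : Nz V, (∀ c : Stg V, c.1 ∈ W₂ → ξ.1 c = ξ'.1 c ∧ ξ.2 c = ξ'.2 c) → Φ₂ ξ = Φ₂ ξ') :
    ∫ ξ, Φ₁ ξ * Φ₂ ξ ∂noiseP V = (∫ ξ, Φ₁ ξ ∂noiseP V) * ∫ ξ, Φ₂ ξ ∂noiseP V := by
  have hm : Measurable (fun ω : JJ V → I => ((uOf ω, yOf ω) : Nz V)) := by
    refine Measurable.prodMk ?_ ?_
    · exact measurable_pi_lambda _ fun c => measurable_pi_apply _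
    · exact measurable_pi_lambda _ fun c => measurable_pi_apply _
  rw [integral_noiseP (Φ := fun ξ => Φ₁ ξ * Φ₂ ξ) (h₁.1.mul h₂.1), integral_noiseP h₁.1, integral_noiseP h₂.1]
  refine integral_mul_indep (B := {j | ∃ v ∈ W₁, j ∈ blS v}) (B' := {j | ∃ v ∈ W₂, j ∈ blS v})
    (h₁.comp hm) (h₂.comp hm) ?_ ?_ ?_
  · intro ω ω' hω
    refine hd₁ _ _ fun c hc => ⟨?_, ?_⟩
    · exact hω _ ⟨c.1, hc, c.2, Or.inl rfl⟩
    · exact hω _ ⟨c.1, hc, c.2, Or.inr rfl⟩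
  · intro ω ω' hω
    refine hd₂ _ _ fun c hc => ⟨?_, ?_⟩
    · exact hω _ ⟨c.1, hc, c.2, Or.inl rfl⟩
    · exact hω _ ⟨c.1, hc, c.2, Or.inr rfl⟩
  · rw [Set.disjoint_left]
    rintro j ⟨v, hv, i, hj⟩ ⟨v', hv', i', hj'⟩
    have hne : v ≠ v' := fun e => Finset.disjoint_left.1 hd hv (e ▸ hv')
    rcases hj with rfl | rfl <;> rcases hj' with hj' | hj' <;> simp_all

end PathVar

namespace VolB

/-- Size of spheres. -/
noncomputable def cs (q : ℕ) : ℕ → ℝ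
  | 0 => 1
  | k + 1 => ((q : ℝ) + 1) * (q : ℝ) ^ k

theorem cs_nonneg (q k : ℕ) : 0 ≤ cs q k := by
  cases k with
  | zero => simp [cs]
  | succ k => simp only [cs]; positivity

theorem card_sphere_eq (hG : RegTree G q) (v : V) (k : ℕ) : ((sphere G v k).card : ℝ) = cs q k := by
  cases k with
  | zero => simp [sphere, cs]
  | succ k =>
    rw [card_sphere hG]
    simp [cs]

theorem sum_by_dist (hG : RegTree G q) (S : Finset V) (v : V) {h : ℕ → ℝ} (h0 : ∀ k, 0 ≤ h k)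
    (hs : Summable fun k => cs q k * h k) :
    ∑ u ∈ S, h (G.dist v u) ≤ ∑' k, cs q k * h k := by
  have h1 : ∑ u ∈ S, h (G.dist v u) =
      ∑ k ∈ S.image (G.dist v), ((S.filter fun u => G.dist v u = k).card : ℝ) * h k := by
    rw [Finset.sum_comp h (G.dist v)]
    simp [nsmul_eq_mul]
  rw [h1]
  refine le_trans (Finset.sum_le_sum fun k _ => ?_)
    (hs.sum_le_tsum _ fun k _ => mul_nonneg (cs_nonneg q k) (h0 k))
  refine mul_le_mul_of_nonneg_right ?_ (h0 k)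
  rw [← card_sphere_eq hG v k]
  exact_mod_cast Finset.card_le_card fun u hu => (mem_sphere hG v k u).2 (Finset.mem_filter.1 hu).2

/-- Weight of a vertex inside the small ball. -/
noncomputable def wW (c₀ θ Λ : ℝ) (k : ℕ) : ℝ :=
  2 * (1 / 18) * c₀ * θ ^ (2 * k - 2) * (k + 1) * (k + 1) * Λ ^ k + θ ^ (2 * k) * Λ ^ k

/-- Weight of a vertex outside the small ball. -/
noncomputable def hH (θ Λ : ℝ) (k : ℕ) : ℝ := Λ ^ (k - 1) * θ ^ (2 * k)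

theorem wW_nonneg {c₀ θ Λ : ℝ} (hc : 0 ≤ c₀) (hθ : 0 ≤ θ) (hΛ : 0 ≤ Λ) (k : ℕ) : 0 ≤ wW c₀ θ Λ k := by
  unfold wW
  positivity

theorem hH_nonneg {θ Λ : ℝ} (hθ : 0 ≤ θ) (hΛ : 0 ≤ Λ) (k : ℕ) : 0 ≤ hH θ Λ k := by
  unfold hH
  positivity

theorem summable_aux {ρ : ℝ} (h0 : 0 ≤ ρ) (h1 : ρ < 1) : Summable fun k : ℕ => ((k : ℝ) + 2) ^ 2 * ρ ^ k := by
  have hr : ‖ρ‖ < 1 := by rwa [Real.norm_of_nonneg h0]
  have a0 : Summable fun k : ℕ => (k : ℝ) ^ 0 * ρ ^ k := summable_pow_mul_geometric_of_norm_lt_one 0 hr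
  have a1 : Summable fun k : ℕ => (k : ℝ) ^ 1 * ρ ^ k := summable_pow_mul_geometric_of_norm_lt_one 1 hr
  have a2 : Summable fun k : ℕ => (k : ℝ) ^ 2 * ρ ^ k := summable_pow_mul_geometric_of_norm_lt_one 2 hr
  have := (a2.add (a1.mul_left 4)).add (a0.mul_left 4)
  refine this.congr fun k => ?_
  ring

theorem summable_wW {c₀ θ Λ : ℝ} (h0 : 0 ≤ (q : ℝ) * θ ^ 2 * Λ) (h1 : (q : ℝ) * θ ^ 2 * Λ < 1) :
    Summable fun k => cs q k * wW c₀ θ Λ k := by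
  rw [← summable_nat_add_iff 1]
  set ρ := (q : ℝ) * θ ^ 2 * Λ with hρ
  have a := ((summable_aux h0 h1).mul_left (((q : ℝ) + 1) * Λ * (2 * (1 / 18) * c₀))).add
    ((summable_geometric_of_lt_one h0 h1).mul_left (((q : ℝ) + 1) * Λ * θ ^ 2))
  refine a.congr fun k => ?_
  have e : 2 * (k + 1) - 2 = 2 * k := by omega
  simp only [cs, wW, e, hρ]
  push_cast
  rw [mul_pow, mul_pow, ← pow_mul]
  have e2 : θ ^ (2 * (k + 1)) = θ ^ (2 * k) * θ ^ 2 := by rw [mul_add, pow_add]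
  rw [e2, pow_succ Λ k]
  ring

theorem summable_hH {θ Λ : ℝ} (h0 : 0 ≤ (q : ℝ) * θ ^ 2 * Λ) (h1 : (q : ℝ) * θ ^ 2 * Λ < 1) :
    Summable fun k => cs q k * hH θ Λ k := by
  rw [← summable_nat_add_iff 1]
  set ρ := (q : ℝ) * θ ^ 2 * Λ with hρ
  have a := (summable_geometric_of_lt_one h0 h1).mul_left (((q : ℝ) + 1) * θ ^ 2)
  refine a.congr fun k => ?_
  simp only [cs, hH, hρ, Nat.add_sub_cancel]
  rw [mul_pow, mul_pow, ← pow_mul]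
  have e2 : θ ^ (2 * (k + 1)) = θ ^ (2 * k) * θ ^ 2 := by rw [mul_add, pow_add]
  rw [e2]
  ring

end VolB

namespace VolB

variable {κ : ℤ → ℝ}

theorem tauK_le {k : ℝ} (h0 : 0 ≤ k) (h1 : k ≤ 1 / 3) : tauK k ≤ 1 / 18 := by
  unfold tauK
  have h2 : 0 < 3 * (1 - k) := by linarith
  rw [div_le_iff₀ h2]
  nlinarith

theorem tauK_nonneg {k : ℝ} (h1 : k ≤ 1 / 3) : 0 ≤ tauK k := by
  unfold tauK
  have h2 : 0 < 3 * (1 - k) := by linarith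
  positivity

theorem abs_mB_le (hκ : Sched κ) (hθ : Adm θ) (c : V) (R : ℕ) (L ℓ : ℤ) (x : ℝ) (ξ : Nz V) (v : V) :
    |mB G θ c R L κ ℓ x ξ v| ≤ 1 := by
  have hθ' : |θ| < 1 := by
    rw [abs_of_nonneg hθ.nonneg]
    exact hθ.lt_one
  exact abs_mv_le hθ' (gA_pos hκ _ _) v

theorem measurable_mB (hκ : Sched κ) (c : V) (R : ℕ) (L ℓ : ℤ) (x : ℝ) (v : V) :
    Measurable (fun ξ : Nz V => mB G θ c R L κ ℓ x ξ v) := by
  have h : Measurable (fun q : ℝ × (Stg V → I) × (Stg V → I) => mSt G θ (ball G c R) L κ ℓ q.1 q.2.1 q.2.2 v) :=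
    measurable_mSt_joint hκ v
  have hf : Measurable (fun ξ : Nz V => ((x, ξ) : ℝ × Nz V)) := measurable_const.prodMk measurable_id
  have h2 := h.comp hf
  exact h2

theorem bm_mB (hκ : Sched κ) (hθ : Adm θ) (c : V) (R : ℕ) (L ℓ : ℤ) (x : ℝ) (v : V) :
    BM (fun ξ : Nz V => mB G θ c R L κ ℓ x ξ v) := by
  have h1 : Measurable (fun ξ : Nz V => mB G θ c R L κ ℓ x ξ v) := measurable_mB hκ c R L ℓ x v
  have h2 : ∀ ξ : Nz V, |mB G θ c R L κ ℓ x ξ v| ≤ 1 := fun ξ => abs_mB_le hκ hθ c R L ℓ x ξ v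
  exact ⟨h1, 1, h2⟩

/-- The function whose growth is estimated. -/
noncomputable def ffV (G : SimpleGraph V) [G.LocallyFinite] (θ : ℝ) (L : ℤ) (κ : ℤ → ℝ) (c₁ : V) (R₁ : ℕ) (c₂ : V) (R₂ : ℕ)
    (ℓ : ℤ) (x : ℝ) (v : V) : ℝ :=
  ∫ ξ, (mB G θ c₁ R₁ L κ ℓ x ξ v - mB G θ c₂ R₂ L κ ℓ x ξ v) ^ 2 ∂noiseP V

theorem ffV_nonneg (c₁ : V) (R₁ : ℕ) (c₂ : V) (R₂ : ℕ) (L ℓ : ℤ) (x : ℝ) (v : V) :
    0 ≤ ffV G θ L κ c₁ R₁ c₂ R₂ ℓ x v :=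
  integral_nonneg fun _ => sq_nonneg _

theorem ffV_le (hκ : Sched κ) (hθ : Adm θ) (c₁ : V) (R₁ : ℕ) (c₂ : V) (R₂ : ℕ) (L ℓ : ℤ) (x : ℝ) (v : V) :
    ffV G θ L κ c₁ R₁ c₂ R₂ ℓ x v ≤ 4 := by
  have : ffV G θ L κ c₁ R₁ c₂ R₂ ℓ x v ≤ ∫ _ξ : Nz V, (4 : ℝ) ∂noiseP V := by
    refine integral_mono_of_nonneg (Filter.Eventually.of_forall fun _ => sq_nonneg _)
      (integrable_const _) (Filter.Eventually.of_forall fun ξ => ?_)
    have h1 := abs_le.1 (abs_mB_le (G := G) hκ hθ c₁ R₁ L ℓ x ξ v)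
    have h2 := abs_le.1 (abs_mB_le (G := G) hκ hθ c₂ R₂ L ℓ x ξ v)
    simp only []
    nlinarith [h1.1, h1.2, h2.1, h2.2]
  simpa using this

theorem measurable_ffV (hκ : Sched κ) (c₁ : V) (R₁ : ℕ) (c₂ : V) (R₂ : ℕ) (L ℓ : ℤ) (v : V) :
    Measurable (fun x => ffV G θ L κ c₁ R₁ c₂ R₂ ℓ x v) := by
  have h1 := measurable_mSt_joint (G := G) (θ := θ) (W := ball G c₁ R₁) (L := L) (ℓ := ℓ) hκ v
  have h2 := measurable_mSt_joint (G := G) (θ := θ) (W := ball G c₂ R₂) (L := L) (ℓ := ℓ) hκ v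
  have h3 : Measurable (fun q : ℝ × Nz V => (mSt G θ (ball G c₁ R₁) L κ ℓ q.1 q.2.1 q.2.2 v -
      mSt G θ (ball G c₂ R₂) L κ ℓ q.1 q.2.1 q.2.2 v) ^ 2) := (h1.sub h2).pow_const 2
  exact (h3.stronglyMeasurable.integral_prod_right' (ν := noiseP V)).measurable

/-- Bound at a vertex of the small ball. -/
theorem inc_bound_in (hG : RegTree G q) (hκ : Sched κ) (hθ : Adm θ) {c₀ Λ : ℝ} (hc₀ : 0 < c₀)
    (hlip : ∀ (θ θ' : ℝ) (_ : Adm θ) (_ : Adm θ') (m m' : V → ℝ) (_ : ∀ v, |m v| ≤ 1) (_ : ∀ v, |m' v| ≤ 1) (v u : V),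
      (xI G θ m v u - xI G θ' m' v u) ^ 2 ≤
        c₀ * (max θ θ') ^ (2 * G.dist v u - 2) * (G.dist v u + 1) *
          (∑ j ∈ Finset.range (G.dist v u + 1), (m (geo G v u j) - m' (geo G v u j)) ^ 2 + (G.dist v u + 1) * (θ - θ') ^ 2))
    (hΛ : 1 ≤ Λ) {c₁ c₂ : V} {R₁ R₂ : ℕ} (hsub : ball G c₁ R₁ ⊆ ball G c₂ R₂) {L ℓ : ℤ} (x : ℝ) {v u : V}
    (hv : v ∈ ball G c₁ R₁) (hu : u ∈ ball G c₁ R₁) {Φ : ℝ}
    (hΦ : ∀ y ∈ ball G c₁ R₁, Λ ^ (R₁ - G.dist c₁ y) * ffV G θ L κ c₁ R₁ c₂ R₂ ℓ x y ≤ Φ) :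
    Λ ^ (R₁ - G.dist c₁ v) * ∫ ξ, incU G θ θ (ball G c₁ R₁) (ball G c₂ R₂) L L κ ℓ x ξ.1 ξ.2 v u ∂noiseP V ≤
      wW c₀ θ Λ (G.dist v u) * Φ := by
  set k := G.dist v u with hk
  set W₁ := ball G c₁ R₁ with hW₁
  set W₂ := ball G c₂ R₂ with hW₂
  have hu₂ : u ∈ W₂ := hsub hu
  have hv₂ : v ∈ W₂ := hsub hv
  have hθ0 := hθ.nonneg
  have hθ1 := hθ.lt_one
  have hΛ0 : 0 < Λ := by linarith
  have hκ0 : 0 ≤ κ ℓ := (hκ.pos ℓ).le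
  have hκ1 : κ ℓ ≤ 1 / 3 := hκ.le ℓ
  -- pointwise bound
  have hpt : ∀ ξ : Nz V, incU G θ θ W₁ W₂ L L κ ℓ x ξ.1 ξ.2 v u ≤
      2 * (1 / 18) * c₀ * θ ^ (2 * k - 2) * (k + 1) *
          ∑ j ∈ Finset.range (k + 1), (mB G θ c₁ R₁ L κ ℓ x ξ (geo G v u j) - mB G θ c₂ R₂ L κ ℓ x ξ (geo G v u j)) ^ 2 +
        θ ^ (2 * k) * (mB G θ c₁ R₁ L κ ℓ x ξ u - mB G θ c₂ R₂ L κ ℓ x ξ u) ^ 2 := by
    intro ξ
    unfold incU
    rw [if_pos hu, if_pos hu₂]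
    have e1 : cSt G θ W₁ L κ ℓ x ξ.1 ξ.2 v u = xI G θ (mB G θ c₁ R₁ L κ ℓ x ξ) v u :=
      cSt_eq_xI hG hκ hθ hv hu ξ
    have e2 : cSt G θ W₂ L κ ℓ x ξ.1 ξ.2 v u = xI G θ (mB G θ c₂ R₂ L κ ℓ x ξ) v u :=
      cSt_eq_xI hG hκ hθ hv₂ hu₂ ξ
    rw [e1, e2]
    have hb1 : ∀ v, |mB G θ c₁ R₁ L κ ℓ x ξ v| ≤ 1 := fun v => abs_mB_le hκ hθ _ _ _ _ _ _ _
    have hb2 : ∀ v, |mB G θ c₂ R₂ L κ ℓ x ξ v| ≤ 1 := fun v => abs_mB_le hκ hθ _ _ _ _ _ _ _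
    have h1 := hlip θ θ hθ hθ _ _ hb1 hb2 v u
    rw [max_self, sub_self, ← hk] at h1
    simp only [ne_eq, OfNat.ofNat_ne_zero, not_false_eq_true, zero_pow, mul_zero, add_zero] at h1
    have h2 : xI G θ (mB G θ c₂ R₂ L κ ℓ x ξ) v u ^ 2 ≤ θ ^ (2 * k) := by
      have := abs_xI_le hG hθ hb2 v u
      rw [← hk] at this
      calc xI G θ (mB G θ c₂ R₂ L κ ℓ x ξ) v u ^ 2 = |xI G θ (mB G θ c₂ R₂ L κ ℓ x ξ) v u| ^ 2 := (sq_abs _).symm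
        _ ≤ (θ ^ k) ^ 2 := pow_le_pow_left₀ (abs_nonneg _) this 2
        _ = θ ^ (2 * k) := by rw [← pow_mul, mul_comm]
    have h3 : 32 * κ ℓ ^ 4 ≤ 1 := by
      have : κ ℓ ^ 4 ≤ (1 / 3) ^ 4 := pow_le_pow_left₀ hκ0 hκ1 4
      norm_num at this ⊢
      linarith
    have h4 := tauK_le hκ0 hκ1
    have h5 := tauK_nonneg hκ1
    have hsq := sq_nonneg (mB G θ c₁ R₁ L κ ℓ x ξ u - mB G θ c₂ R₂ L κ ℓ x ξ u)
    have hxi := sq_nonneg (xI G θ (mB G θ c₂ R₂ L κ ℓ x ξ) v u)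
    have hκ4 : 0 ≤ 32 * κ ℓ ^ 4 := by positivity
    have t1 : 2 * tauK (κ ℓ) * (xI G θ (mB G θ c₁ R₁ L κ ℓ x ξ) v u - xI G θ (mB G θ c₂ R₂ L κ ℓ x ξ) v u) ^ 2 ≤
        2 * (1 / 18) * (c₀ * θ ^ (2 * k - 2) * (k + 1) * ∑ j ∈ Finset.range (k + 1),
          (mB G θ c₁ R₁ L κ ℓ x ξ (geo G v u j) - mB G θ c₂ R₂ L κ ℓ x ξ (geo G v u j)) ^ 2) :=
      mul_le_mul (by linarith) h1 (sq_nonneg _) (by norm_num)
    have t2 : 32 * κ ℓ ^ 4 * xI G θ (mB G θ c₂ R₂ L κ ℓ x ξ) v u ^ 2 *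
        (mB G θ c₁ R₁ L κ ℓ x ξ u - mB G θ c₂ R₂ L κ ℓ x ξ u) ^ 2 ≤
        θ ^ (2 * k) * (mB G θ c₁ R₁ L κ ℓ x ξ u - mB G θ c₂ R₂ L κ ℓ x ξ u) ^ 2 := by
      refine mul_le_mul_of_nonneg_right ?_ hsq
      calc 32 * κ ℓ ^ 4 * xI G θ (mB G θ c₂ R₂ L κ ℓ x ξ) v u ^ 2
          ≤ 1 * θ ^ (2 * k) := mul_le_mul h3 h2 hxi (by norm_num)
        _ = θ ^ (2 * k) := one_mul _
    calc _ ≤ 2 * (1 / 18) * (c₀ * θ ^ (2 * k - 2) * (k + 1) * ∑ j ∈ Finset.range (k + 1),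
          (mB G θ c₁ R₁ L κ ℓ x ξ (geo G v u j) - mB G θ c₂ R₂ L κ ℓ x ξ (geo G v u j)) ^ 2) +
          θ ^ (2 * k) * (mB G θ c₁ R₁ L κ ℓ x ξ u - mB G θ c₂ R₂ L κ ℓ x ξ u) ^ 2 := add_le_add t1 t2
      _ = _ := by ring
  -- nonnegativity of the increment
  have hnn : ∀ ξ : Nz V, 0 ≤ incU G θ θ W₁ W₂ L L κ ℓ x ξ.1 ξ.2 v u := by
    intro ξ
    unfold incU
    rw [if_pos hu, if_pos hu₂]
    have h5 := tauK_nonneg hκ1
    positivity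
  -- integrate
  have hbmdiff : ∀ y, BM (fun ξ : Nz V => (mB G θ c₁ R₁ L κ ℓ x ξ y - mB G θ c₂ R₂ L κ ℓ x ξ y) ^ 2) := fun y => by
    have := (bm_mB (G := G) hκ hθ c₁ R₁ L ℓ x y).sub (bm_mB (G := G) hκ hθ c₂ R₂ L ℓ x y)
    simpa only [pow_two] using this.mul this
  have hint : ∫ ξ, incU G θ θ W₁ W₂ L L κ ℓ x ξ.1 ξ.2 v u ∂noiseP V ≤
      2 * (1 / 18) * c₀ * θ ^ (2 * k - 2) * (k + 1) *
          ∑ j ∈ Finset.range (k + 1), ffV G θ L κ c₁ R₁ c₂ R₂ ℓ x (geo G v u j) +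
        θ ^ (2 * k) * ffV G θ L κ c₁ R₁ c₂ R₂ ℓ x u := by
    have hi1 : ∀ j ∈ Finset.range (k + 1), Integrable (fun ξ : Nz V =>
        (mB G θ c₁ R₁ L κ ℓ x ξ (geo G v u j) - mB G θ c₂ R₂ L κ ℓ x ξ (geo G v u j)) ^ 2) (noiseP V) :=
      fun j _ => (hbmdiff _).integrable _
    have hi2 := (hbmdiff u).integrable (noiseP V)
    have e : ∫ ξ, (2 * (1 / 18) * c₀ * θ ^ (2 * k - 2) * (k + 1) *
          ∑ j ∈ Finset.range (k + 1), (mB G θ c₁ R₁ L κ ℓ x ξ (geo G v u j) - mB G θ c₂ R₂ L κ ℓ x ξ (geo G v u j)) ^ 2 +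
        θ ^ (2 * k) * (mB G θ c₁ R₁ L κ ℓ x ξ u - mB G θ c₂ R₂ L κ ℓ x ξ u) ^ 2) ∂noiseP V =
        2 * (1 / 18) * c₀ * θ ^ (2 * k - 2) * (k + 1) *
          ∑ j ∈ Finset.range (k + 1), ffV G θ L κ c₁ R₁ c₂ R₂ ℓ x (geo G v u j) +
        θ ^ (2 * k) * ffV G θ L κ c₁ R₁ c₂ R₂ ℓ x u := by
      rw [integral_add ((integrable_finsetSum _ hi1).const_mul _) (hi2.const_mul _), integral_const_mul,
        integral_const_mul, integral_finsetSum _ hi1]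
      rfl
    rw [← e]
    refine integral_mono_of_nonneg (Filter.Eventually.of_forall hnn)
      (((integrable_finsetSum _ hi1).const_mul _).add (hi2.const_mul _)) (Filter.Eventually.of_forall hpt)
  -- bounds with the weights
  have hdv : G.dist c₁ v ≤ R₁ := (mem_ball hG c₁ R₁ v).1 hv
  have hgeo : ∀ j ∈ Finset.range (k + 1), Λ ^ (R₁ - G.dist c₁ v) * ffV G θ L κ c₁ R₁ c₂ R₂ ℓ x (geo G v u j) ≤ Λ ^ k * Φ := by
    intro j hj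
    have hjk : j ≤ k := Nat.lt_succ_iff.1 (Finset.mem_range.1 hj)
    have hmem : geo G v u j ∈ W₁ := geo_mem_of_star hG (star_ball hG hu) hv hjk
    have hd1 : G.dist c₁ (geo G v u j) ≤ G.dist c₁ v + G.dist v (geo G v u j) := hG.tree.connected.dist_triangle
    rw [dist_geo_left hG v u hjk] at hd1
    have hd2 : G.dist c₁ (geo G v u j) ≤ R₁ := (mem_ball hG c₁ R₁ _).1 hmem
    have hpow : Λ ^ (R₁ - G.dist c₁ v) ≤ Λ ^ k * Λ ^ (R₁ - G.dist c₁ (geo G v u j)) := by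
      rw [← pow_add]
      exact pow_le_pow_right₀ hΛ (by omega)
    calc Λ ^ (R₁ - G.dist c₁ v) * ffV G θ L κ c₁ R₁ c₂ R₂ ℓ x (geo G v u j)
        ≤ (Λ ^ k * Λ ^ (R₁ - G.dist c₁ (geo G v u j))) * ffV G θ L κ c₁ R₁ c₂ R₂ ℓ x (geo G v u j) :=
          mul_le_mul_of_nonneg_right hpow (ffV_nonneg _ _ _ _ _ _ _ _)
      _ = Λ ^ k * (Λ ^ (R₁ - G.dist c₁ (geo G v u j)) * ffV G θ L κ c₁ R₁ c₂ R₂ ℓ x (geo G v u j)) := by ring
      _ ≤ Λ ^ k * Φ := mul_le_mul_of_nonneg_left (hΦ _ hmem) (by positivity)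
  have hu_geo : Λ ^ (R₁ - G.dist c₁ v) * ffV G θ L κ c₁ R₁ c₂ R₂ ℓ x u ≤ Λ ^ k * Φ := by
    have := hgeo k (Finset.mem_range.2 (Nat.lt_succ_self k))
    rwa [hk, geo_dist hG] at this
  have hsum : Λ ^ (R₁ - G.dist c₁ v) * ∑ j ∈ Finset.range (k + 1), ffV G θ L κ c₁ R₁ c₂ R₂ ℓ x (geo G v u j) ≤
      (k + 1) * (Λ ^ k * Φ) := by
    rw [Finset.mul_sum]
    calc _ ≤ ∑ _j ∈ Finset.range (k + 1), Λ ^ k * Φ := Finset.sum_le_sum hgeo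
      _ = _ := by simp
  have hΛd : 0 ≤ Λ ^ (R₁ - G.dist c₁ v) := by positivity
  calc Λ ^ (R₁ - G.dist c₁ v) * ∫ ξ, incU G θ θ W₁ W₂ L L κ ℓ x ξ.1 ξ.2 v u ∂noiseP V
      ≤ Λ ^ (R₁ - G.dist c₁ v) * (2 * (1 / 18) * c₀ * θ ^ (2 * k - 2) * (k + 1) *
          ∑ j ∈ Finset.range (k + 1), ffV G θ L κ c₁ R₁ c₂ R₂ ℓ x (geo G v u j) +
        θ ^ (2 * k) * ffV G θ L κ c₁ R₁ c₂ R₂ ℓ x u) := mul_le_mul_of_nonneg_left hint hΛd
    _ = 2 * (1 / 18) * c₀ * θ ^ (2 * k - 2) * (k + 1) * (Λ ^ (R₁ - G.dist c₁ v) *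
          ∑ j ∈ Finset.range (k + 1), ffV G θ L κ c₁ R₁ c₂ R₂ ℓ x (geo G v u j)) +
        θ ^ (2 * k) * (Λ ^ (R₁ - G.dist c₁ v) * ffV G θ L κ c₁ R₁ c₂ R₂ ℓ x u) := by ring
    _ ≤ 2 * (1 / 18) * c₀ * θ ^ (2 * k - 2) * (k + 1) * ((k + 1) * (Λ ^ k * Φ)) +
        θ ^ (2 * k) * (Λ ^ k * Φ) := by
        refine add_le_add (mul_le_mul_of_nonneg_left hsum (by positivity)) (mul_le_mul_of_nonneg_left hu_geo (by positivity))
    _ = wW c₀ θ Λ k * Φ := by unfold wW; ring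

/-- Bound at a vertex of the big ball outside the small ball. -/
theorem inc_bound_out (hG : RegTree G q) (hκ : Sched κ) (hθ : Adm θ) {Λ : ℝ} (hΛ : 1 ≤ Λ) {c₁ c₂ : V} {R₁ R₂ : ℕ}
    {L ℓ : ℤ} (x : ℝ) {v u : V} (hv₁ : v ∈ ball G c₁ R₁) (hu : u ∈ ball G c₂ R₂) (hv : v ∈ ball G c₂ R₂) (hu₁ : u ∉ ball G c₁ R₁) :
    Λ ^ (R₁ - G.dist c₁ v) * ∫ ξ, incU G θ θ (ball G c₁ R₁) (ball G c₂ R₂) L L κ ℓ x ξ.1 ξ.2 v u ∂noiseP V ≤
      (1 / 18) * hH θ Λ (G.dist v u) := by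
  set k := G.dist v u with hk
  have hθ0 := hθ.nonneg
  have hκ0 : 0 ≤ κ ℓ := (hκ.pos ℓ).le
  have hκ1 : κ ℓ ≤ 1 / 3 := hκ.le ℓ
  have hΛ0 : 0 < Λ := by linarith
  have hpt : ∀ ξ : Nz V, incU G θ θ (ball G c₁ R₁) (ball G c₂ R₂) L L κ ℓ x ξ.1 ξ.2 v u ≤ (1 / 18) * θ ^ (2 * k) := by
    intro ξ
    unfold incU
    rw [if_neg hu₁, cSt_eq_xI hG hκ hθ hv hu ξ]
    have hb2 : ∀ v, |mB G θ c₂ R₂ L κ ℓ x ξ v| ≤ 1 := fun v => abs_mB_le hκ hθ _ _ _ _ _ _ _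
    have h2 : xI G θ (mB G θ c₂ R₂ L κ ℓ x ξ) v u ^ 2 ≤ θ ^ (2 * k) := by
      have := abs_xI_le hG hθ hb2 v u
      rw [← hk] at this
      calc xI G θ (mB G θ c₂ R₂ L κ ℓ x ξ) v u ^ 2 = |xI G θ (mB G θ c₂ R₂ L κ ℓ x ξ) v u| ^ 2 := (sq_abs _).symm
        _ ≤ (θ ^ k) ^ 2 := pow_le_pow_left₀ (abs_nonneg _) this 2
        _ = θ ^ (2 * k) := by rw [← pow_mul, mul_comm]
    exact mul_le_mul (tauK_le hκ0 hκ1) h2 (sq_nonneg _) (by norm_num)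
  have hnn : ∀ ξ : Nz V, 0 ≤ incU G θ θ (ball G c₁ R₁) (ball G c₂ R₂) L L κ ℓ x ξ.1 ξ.2 v u := by
    intro ξ
    unfold incU
    rw [if_neg hu₁]
    have h5 := tauK_nonneg hκ1
    positivity
  have hint : ∫ ξ, incU G θ θ (ball G c₁ R₁) (ball G c₂ R₂) L L κ ℓ x ξ.1 ξ.2 v u ∂noiseP V ≤ (1 / 18) * θ ^ (2 * k) := by
    have : ∫ ξ, incU G θ θ (ball G c₁ R₁) (ball G c₂ R₂) L L κ ℓ x ξ.1 ξ.2 v u ∂noiseP V ≤
        ∫ _ξ : Nz V, (1 / 18) * θ ^ (2 * k) ∂noiseP V :=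
      integral_mono_of_nonneg (Filter.Eventually.of_forall hnn) (integrable_const _)
        (Filter.Eventually.of_forall hpt)
    simpa using this
  have hdv : G.dist c₁ v ≤ R₁ := (mem_ball hG c₁ R₁ v).1 hv₁
  have hdu : ¬ G.dist c₁ u ≤ R₁ := fun h => hu₁ ((mem_ball hG c₁ R₁ u).2 h)
  have htri : G.dist c₁ u ≤ G.dist c₁ v + G.dist v u := hG.tree.connected.dist_triangle
  have hpow : Λ ^ (R₁ - G.dist c₁ v) ≤ Λ ^ (k - 1) := pow_le_pow_right₀ hΛ (by omega)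
  calc Λ ^ (R₁ - G.dist c₁ v) * ∫ ξ, incU G θ θ (ball G c₁ R₁) (ball G c₂ R₂) L L κ ℓ x ξ.1 ξ.2 v u ∂noiseP V
      ≤ Λ ^ (k - 1) * ((1 / 18) * θ ^ (2 * k)) :=
        mul_le_mul hpow hint (integral_nonneg hnn) (by positivity)
    _ = (1 / 18) * hH θ Λ k := by unfold hH; ring

end VolB

namespace VolB

variable {κ : ℤ → ℝ}

theorem ball_nonempty (hG : RegTree G q) (c : V) (R : ℕ) : (ball G c R).Nonempty :=
  ⟨c, (mem_ball hG c R c).2 (by simp)⟩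

/-- The weighted supremum. -/
noncomputable def PhiV (G : SimpleGraph V) [G.LocallyFinite] (θ : ℝ) (L : ℤ) (κ : ℤ → ℝ) (Λ : ℝ) (c₁ : V) (R₁ : ℕ) (c₂ : V) (R₂ : ℕ)
    (hne : (ball G c₁ R₁).Nonempty) (ℓ : ℤ) (x : ℝ) : ℝ :=
  (ball G c₁ R₁).sup' hne fun y => Λ ^ (R₁ - G.dist c₁ y) * ffV G θ L κ c₁ R₁ c₂ R₂ ℓ x y

section

variable {Λ : ℝ} {c₁ c₂ : V} {R₁ R₂ : ℕ} {L ℓ : ℤ} (hne : (ball G c₁ R₁).Nonempty)

theorem le_PhiV (x : ℝ) {y : V} (hy : y ∈ ball G c₁ R₁) :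
    Λ ^ (R₁ - G.dist c₁ y) * ffV G θ L κ c₁ R₁ c₂ R₂ ℓ x y ≤ PhiV G θ L κ Λ c₁ R₁ c₂ R₂ hne ℓ x :=
  Finset.le_sup' (fun y => Λ ^ (R₁ - G.dist c₁ y) * ffV G θ L κ c₁ R₁ c₂ R₂ ℓ x y) hy

theorem PhiV_nonneg (hΛ : 0 ≤ Λ) (x : ℝ) : 0 ≤ PhiV G θ L κ Λ c₁ R₁ c₂ R₂ hne ℓ x := by
  obtain ⟨y, hy⟩ := hne
  exact (mul_nonneg (pow_nonneg hΛ _) (ffV_nonneg _ _ _ _ _ _ _ _)).trans (le_PhiV _ x hy)

theorem measurable_PhiV (hκ : Sched κ) : Measurable (PhiV G θ L κ Λ c₁ R₁ c₂ R₂ hne ℓ) := by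
  have h : Measurable ((ball G c₁ R₁).sup' hne fun y => fun x : ℝ =>
      Λ ^ (R₁ - G.dist c₁ y) * ffV G θ L κ c₁ R₁ c₂ R₂ ℓ x y) :=
    Finset.measurable_sup' hne fun y _ => (measurable_ffV hκ _ _ _ _ _ _ _).const_mul _
  convert h using 1
  funext x
  simp only [PhiV, Finset.sup'_apply]

theorem PhiV_le (hκ : Sched κ) (hθ : Adm θ) (hΛ : 1 ≤ Λ) (x : ℝ) :
    PhiV G θ L κ Λ c₁ R₁ c₂ R₂ hne ℓ x ≤ Λ ^ R₁ * 4 := by
  refine Finset.sup'_le _ _ fun y _ => ?_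
  have hΛ0 : 0 ≤ Λ := by linarith
  exact mul_le_mul (pow_le_pow_right₀ hΛ (Nat.sub_le _ _)) (ffV_le hκ hθ _ _ _ _ _ _ _ _)
    (ffV_nonneg _ _ _ _ _ _ _ _) (by positivity)

theorem intervalIntegrable_PhiV (hκ : Sched κ) (hθ : Adm θ) (hΛ : 1 ≤ Λ) (α β a b : ℝ) :
    IntervalIntegrable (fun x => α * PhiV G θ L κ Λ c₁ R₁ c₂ R₂ hne ℓ x + β) volume a b := by
  have hm : Measurable (fun x => α * PhiV G θ L κ Λ c₁ R₁ c₂ R₂ hne ℓ x + β) :=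
    ((measurable_PhiV hne hκ).const_mul _).add_const _
  rw [intervalIntegrable_iff]
  refine Measure.integrableOn_of_bounded (M := |α| * (Λ ^ R₁ * 4) + |β|) (by simp) hm.aestronglyMeasurable
    (Filter.Eventually.of_forall fun x => ?_)
  have hΛ0 : 0 ≤ Λ := by linarith
  have h1 := PhiV_nonneg (θ := θ) (L := L) (κ := κ) (c₂ := c₂) (R₂ := R₂) (ℓ := ℓ) hne hΛ0 x
  have h2 := PhiV_le (θ := θ) (L := L) (κ := κ) (c₂ := c₂) (R₂ := R₂) (ℓ := ℓ) hne hκ hθ hΛ x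
  rw [Real.norm_eq_abs]
  refine (abs_add_le _ _).trans (add_le_add ?_ le_rfl)
  rw [abs_mul, abs_of_nonneg h1]
  exact mul_le_mul_of_nonneg_left h2 (abs_nonneg _)

end

/-- The bound on the integrand of the increment inequality. -/
theorem sum_inc_bound (hG : RegTree G q) (hκ : Sched κ) (hθ : Adm θ) {c₀ Λ : ℝ} (hc₀ : 0 < c₀)
    (hlip : ∀ (θ θ' : ℝ) (_ : Adm θ) (_ : Adm θ') (m m' : V → ℝ) (_ : ∀ v, |m v| ≤ 1) (_ : ∀ v, |m' v| ≤ 1) (v u : V),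
      (xI G θ m v u - xI G θ' m' v u) ^ 2 ≤
        c₀ * (max θ θ') ^ (2 * G.dist v u - 2) * (G.dist v u + 1) *
          (∑ j ∈ Finset.range (G.dist v u + 1), (m (geo G v u j) - m' (geo G v u j)) ^ 2 + (G.dist v u + 1) * (θ - θ') ^ 2))
    (hΛ : 1 ≤ Λ) (hρ : (q : ℝ) * θ ^ 2 * Λ < 1) {c₁ c₂ : V} {R₁ R₂ : ℕ} (hsub : ball G c₁ R₁ ⊆ ball G c₂ R₂) {L ℓ : ℤ} (x : ℝ) {v : V}
    (hv : v ∈ ball G c₁ R₁) (hne : (ball G c₁ R₁).Nonempty) :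
    Λ ^ (R₁ - G.dist c₁ v) * (2 * ∑ u ∈ ball G c₁ R₁ ∪ ball G c₂ R₂,
        ∫ ξ : Nz V, incU G θ θ (ball G c₁ R₁) (ball G c₂ R₂) L L κ ℓ x ξ.1 ξ.2 v u ∂noiseP V) ≤
      (2 * ∑' k, cs q k * wW c₀ θ Λ k) * PhiV G θ L κ Λ c₁ R₁ c₂ R₂ hne ℓ x +
        2 * (1 / 18) * ∑' k, cs q k * hH θ Λ k := by
  have hθ0 := hθ.nonneg
  have hΛ0 : 0 ≤ Λ := by linarith
  have hρ0 : 0 ≤ (q : ℝ) * θ ^ 2 * Λ := by positivity
  have hΦ0 := PhiV_nonneg (θ := θ) (L := L) (κ := κ) (c₂ := c₂) (R₂ := R₂) (ℓ := ℓ) hne hΛ0 x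
  rw [Finset.union_eq_right.2 hsub, ← Finset.sum_sdiff hsub]
  set S₁ := ∑ u ∈ ball G c₁ R₁, ∫ ξ : Nz V, incU G θ θ (ball G c₁ R₁) (ball G c₂ R₂) L L κ ℓ x ξ.1 ξ.2 v u ∂noiseP V with hS₁
  set S₂ := ∑ u ∈ ball G c₂ R₂ \ ball G c₁ R₁, ∫ ξ : Nz V, incU G θ θ (ball G c₁ R₁) (ball G c₂ R₂) L L κ ℓ x ξ.1 ξ.2 v u ∂noiseP V with hS₂
  have h1 : Λ ^ (R₁ - G.dist c₁ v) * S₁ ≤ (∑' k, cs q k * wW c₀ θ Λ k) * PhiV G θ L κ Λ c₁ R₁ c₂ R₂ hne ℓ x := by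
    rw [hS₁, Finset.mul_sum]
    refine le_trans (Finset.sum_le_sum fun u hu => inc_bound_in hG hκ hθ hc₀ hlip hΛ hsub x hv hu
      (fun y hy => le_PhiV hne x hy)) ?_
    rw [← Finset.sum_mul]
    refine mul_le_mul_of_nonneg_right (sum_by_dist hG _ v (fun k => wW_nonneg hc₀.le hθ0 hΛ0 k)
      (summable_wW hρ0 hρ)) hΦ0
  have h2 : Λ ^ (R₁ - G.dist c₁ v) * S₂ ≤ (1 / 18) * ∑' k, cs q k * hH θ Λ k := by
    rw [hS₂, Finset.mul_sum]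
    have h2' : ∀ u ∈ ball G c₂ R₂ \ ball G c₁ R₁, Λ ^ (R₁ - G.dist c₁ v) *
        ∫ ξ : Nz V, incU G θ θ (ball G c₁ R₁) (ball G c₂ R₂) L L κ ℓ x ξ.1 ξ.2 v u ∂noiseP V ≤
          (1 / 18) * hH θ Λ (G.dist v u) := fun u hu => by
      have hu' := Finset.mem_sdiff.1 hu
      exact inc_bound_out hG hκ hθ hΛ x hv hu'.1 (hsub hv) hu'.2
    refine le_trans (Finset.sum_le_sum h2') ?_
    rw [← Finset.mul_sum]
    exact mul_le_mul_of_nonneg_left (sum_by_dist hG _ v (fun k => hH_nonneg hθ0 hΛ0 k)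
      (summable_hH hρ0 hρ)) (by norm_num)
  nlinarith [h1, h2]

/-- The increment inequality with weights. -/
theorem inc_ineq (hG : RegTree G q) (hκ : Sched κ) (hθ : Adm θ) {c₀ Λ : ℝ} (hc₀ : 0 < c₀)
    (hlip : ∀ (θ θ' : ℝ) (_ : Adm θ) (_ : Adm θ') (m m' : V → ℝ) (_ : ∀ v, |m v| ≤ 1) (_ : ∀ v, |m' v| ≤ 1) (v u : V),
      (xI G θ m v u - xI G θ' m' v u) ^ 2 ≤
        c₀ * (max θ θ') ^ (2 * G.dist v u - 2) * (G.dist v u + 1) *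
          (∑ j ∈ Finset.range (G.dist v u + 1), (m (geo G v u j) - m' (geo G v u j)) ^ 2 + (G.dist v u + 1) * (θ - θ') ^ 2))
    (hΛ : 1 ≤ Λ) (hρ : (q : ℝ) * θ ^ 2 * Λ < 1) {c₁ c₂ : V} {R₁ R₂ : ℕ} (hsub : ball G c₁ R₁ ⊆ ball G c₂ R₂) {L ℓ : ℤ}
    (hL : L ≤ ℓ) {x₁ x₂ : ℝ} (hx₁ : 0 ≤ x₁) (hx : x₁ ≤ x₂) (hx₂ : x₂ ≤ 1 / 2) (hne : (ball G c₁ R₁).Nonempty) :
    PhiV G θ L κ Λ c₁ R₁ c₂ R₂ hne ℓ x₂ - PhiV G θ L κ Λ c₁ R₁ c₂ R₂ hne ℓ x₁ ≤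
      ∫ x in x₁..x₂, ((2 * ∑' k, cs q k * wW c₀ θ Λ k) * PhiV G θ L κ Λ c₁ R₁ c₂ R₂ hne ℓ x +
        2 * (1 / 18) * ∑' k, cs q k * hH θ Λ k) := by
  have hθ' : |θ| < 1 := by
    rw [abs_of_nonneg hθ.nonneg]
    exact hθ.lt_one
  have hΛ0 : 0 ≤ Λ := by linarith
  obtain ⟨v, hv, hvmax⟩ := Finset.exists_mem_eq_sup' hne
    (fun y => Λ ^ (R₁ - G.dist c₁ y) * ffV G θ L κ c₁ R₁ c₂ R₂ ℓ x₂ y)
  have hvmax' : PhiV G θ L κ Λ c₁ R₁ c₂ R₂ hne ℓ x₂ =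
      Λ ^ (R₁ - G.dist c₁ v) * ffV G θ L κ c₁ R₁ c₂ R₂ ℓ x₂ v := hvmax
  have h1 := le_PhiV (θ := θ) (L := L) (κ := κ) (Λ := Λ) (c₂ := c₂) (R₂ := R₂) (ℓ := ℓ) hne x₁ hv
  have hinc : ffV G θ L κ c₁ R₁ c₂ R₂ ℓ x₂ v - ffV G θ L κ c₁ R₁ c₂ R₂ ℓ x₁ v ≤
      ∫ x in x₁..x₂, 2 * ∑ u ∈ ball G c₁ R₁ ∪ ball G c₂ R₂,
        ∫ ξ : Nz V, incU G θ θ (ball G c₁ R₁) (ball G c₂ R₂) L L κ ℓ x ξ.1 ξ.2 v u ∂noiseP V :=
    increment hκ hθ' hθ' hL hL hx₁ hx hx₂ hv (hsub hv)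
  have hII : IntervalIntegrable (fun x => 2 * ∑ u ∈ ball G c₁ R₁ ∪ ball G c₂ R₂,
      ∫ ξ : Nz V, incU G θ θ (ball G c₁ R₁) (ball G c₂ R₂) L L κ ℓ x ξ.1 ξ.2 v u ∂noiseP V) volume x₁ x₂ := by
    have := (IntervalIntegrable.sum (ball G c₁ R₁ ∪ ball G c₂ R₂) (μ := volume) (a := x₁) (b := x₂)
      (f := fun u x => ∫ ξ : Nz V, incU G θ θ (ball G c₁ R₁) (ball G c₂ R₂) L L κ ℓ x ξ.1 ξ.2 v u ∂noiseP V)
      (fun u _ => intervalIntegrable_incU hκ hθ' hθ' v u x₁ x₂)).const_mul 2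
    refine this.congr fun x _ => ?_
    simp [Finset.sum_apply]
  have hmono : ∫ x in x₁..x₂, Λ ^ (R₁ - G.dist c₁ v) * (2 * ∑ u ∈ ball G c₁ R₁ ∪ ball G c₂ R₂,
        ∫ ξ : Nz V, incU G θ θ (ball G c₁ R₁) (ball G c₂ R₂) L L κ ℓ x ξ.1 ξ.2 v u ∂noiseP V) ≤
      ∫ x in x₁..x₂, ((2 * ∑' k, cs q k * wW c₀ θ Λ k) * PhiV G θ L κ Λ c₁ R₁ c₂ R₂ hne ℓ x +
        2 * (1 / 18) * ∑' k, cs q k * hH θ Λ k) :=
    intervalIntegral.integral_mono_on hx (hII.const_mul _)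
      (intervalIntegrable_PhiV hne hκ hθ hΛ _ _ _ _)
      fun x _ => sum_inc_bound hG hκ hθ hc₀ hlip hΛ hρ hsub x hv hne
  rw [intervalIntegral.integral_const_mul] at hmono
  have hp : 0 ≤ Λ ^ (R₁ - G.dist c₁ v) := by positivity
  have h2 := mul_le_mul_of_nonneg_left hinc hp
  rw [hvmax']
  nlinarith [h1, h2, hmono]

/-- The starting point. -/
theorem mB_start {c : V} {R : ℕ} (L : ℤ) (ξ : Nz V) {v : V} (hv : v ∈ ball G c R) :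
    mB G θ c R L κ L 0 ξ v = 0 := by
  unfold mB mSt gSt
  have h : Act (ball G c R) L ξ.1 L 0 = ∅ := by
    refine Finset.eq_empty_of_forall_notMem fun e he => ?_
    rcases mem_Act.1 he with ⟨-, h1, -, h2 | h2⟩
    · exact absurd h2.1 (not_lt.2 h1)
    · exact absurd h2.2 (not_lt.2 (ξ.1 e).2.1)
  rw [h, gA_empty]
  exact mv_one hv

theorem mB_half {c : V} {R : ℕ} {L ℓ : ℤ} (hℓ : L ≤ ℓ) (ξ : Nz V) (v : V) :
    mB G θ c R L κ ℓ (1 / 2) ξ v = mB G θ c R L κ (ℓ + 1) 0 ξ v := by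
  unfold mB mSt gSt
  rw [Act_half _ _ _ hℓ]

theorem le_mul_inv_pow {Λ D f : ℝ} {d : ℕ} (hΛ : 0 < Λ) (h : Λ ^ d * f ≤ D) (_hD : 0 ≤ D) :
    f ≤ (D + 1) * (1 / Λ) ^ d := by
  have hp := pow_pos hΛ d
  have e : (1 / Λ) ^ d = 1 / Λ ^ d := by simp
  rw [e, mul_one_div, le_div_iff₀ hp]
  linarith [mul_comm f (Λ ^ d)]

/-- The constants across the cells. -/
noncomputable def DD (β K : ℝ) : ℕ → ℝ
  | 0 => (β / 2) * K
  | n + 1 => (DD β K n + β / 2) * K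

theorem DD_nonneg {β K : ℝ} (hβ : 0 ≤ β) (hK : 0 ≤ K) (n : ℕ) : 0 ≤ DD β K n := by
  induction n with
  | zero => simp only [DD]; positivity
  | succ n ih => simp only [DD]; positivity

/-- The bound across the cells. -/
theorem PhiV_cells (hG : RegTree G q) (hκ : Sched κ) (hθ : Adm θ) {c₀ Λ : ℝ} (hc₀ : 0 < c₀)
    (hlip : ∀ (θ θ' : ℝ) (_ : Adm θ) (_ : Adm θ') (m m' : V → ℝ) (_ : ∀ v, |m v| ≤ 1) (_ : ∀ v, |m' v| ≤ 1) (v u : V),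
      (xI G θ m v u - xI G θ' m' v u) ^ 2 ≤
        c₀ * (max θ θ') ^ (2 * G.dist v u - 2) * (G.dist v u + 1) *
          (∑ j ∈ Finset.range (G.dist v u + 1), (m (geo G v u j) - m' (geo G v u j)) ^ 2 + (G.dist v u + 1) * (θ - θ') ^ 2))
    (hΛ : 1 ≤ Λ) (hρ : (q : ℝ) * θ ^ 2 * Λ < 1) {c₁ c₂ : V} {R₁ R₂ : ℕ} (hsub : ball G c₁ R₁ ⊆ ball G c₂ R₂) (L : ℤ)
    (hne : (ball G c₁ R₁).Nonempty) (n : ℕ) :
    ∀ x ∈ Icc (0 : ℝ) (1 / 2), PhiV G θ L κ Λ c₁ R₁ c₂ R₂ hne (L + n) x ≤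
      DD (2 * (1 / 18) * ∑' k, cs q k * hH θ Λ k) (Real.exp (2 * ∑' k, cs q k * wW c₀ θ Λ k)) n := by
  have hθ0 := hθ.nonneg
  have hΛ0 : 0 ≤ Λ := by linarith
  have hρ0 : 0 ≤ (q : ℝ) * θ ^ 2 * Λ := by positivity
  set α := 2 * ∑' k, cs q k * wW c₀ θ Λ k with hα
  set β := 2 * (1 / 18) * ∑' k, cs q k * hH θ Λ k with hβ
  have hα0 : 0 ≤ α := mul_nonneg (by norm_num) (tsum_nonneg fun k => mul_nonneg (cs_nonneg q k) (wW_nonneg hc₀.le hθ0 hΛ0 k))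
  have hβ0 : 0 ≤ β := mul_nonneg (by norm_num) (tsum_nonneg fun k => mul_nonneg (cs_nonneg q k) (hH_nonneg hθ0 hΛ0 k))
  -- one cell
  have cell : ∀ (ℓ : ℤ), L ≤ ℓ → ∀ x ∈ Icc (0 : ℝ) (1 / 2), PhiV G θ L κ Λ c₁ R₁ c₂ R₂ hne ℓ x ≤
      (PhiV G θ L κ Λ c₁ R₁ c₂ R₂ hne ℓ 0 + β / 2) * Real.exp α := by
    intro ℓ hℓ x hx
    have hgr := gron (f := PhiV G θ L κ Λ c₁ R₁ c₂ R₂ hne ℓ)
      (G := fun x => α * PhiV G θ L κ Λ c₁ R₁ c₂ R₂ hne ℓ x + β) (S := fun _ => 0) (x₀ := x) (α := α) (β := β) hx.1 hα0 hβ0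
      (fun y _ => PhiV_nonneg hne hΛ0 y)
      ⟨Λ ^ R₁ * 4, fun y _ => PhiV_le hne hκ hθ hΛ y⟩
      (intervalIntegrable_PhiV hne hκ hθ hΛ _ _ _ _) intervalIntegrable_const (fun _ => le_rfl)
      (fun x₁ x₂ h1 h2 h3 => inc_ineq hG hκ hθ hc₀ hlip hΛ hρ hsub hℓ h1 h2 (h3.trans hx.2) hne)
      (fun y _ => by simp)
    simp only [intervalIntegral.integral_zero, add_zero] at hgr
    refine hgr.trans ?_
    have hP := PhiV_nonneg (θ := θ) (L := L) (κ := κ) (c₂ := c₂) (R₂ := R₂) (ℓ := ℓ) hne hΛ0 0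
    have h1 : β * x ≤ β / 2 := by nlinarith [hx.2]
    have h2 : 2 * α * x ≤ α := by nlinarith [hx.2]
    exact mul_le_mul (by linarith) (Real.exp_le_exp.2 h2) (Real.exp_pos _).le (by nlinarith [hx.1])
  induction n with
  | zero =>
    intro x hx
    have h0 : PhiV G θ L κ Λ c₁ R₁ c₂ R₂ hne L 0 = 0 := by
      refine le_antisymm (Finset.sup'_le _ _ fun y hy => ?_) (PhiV_nonneg hne hΛ0 0)
      have : ffV G θ L κ c₁ R₁ c₂ R₂ L 0 y = 0 := by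
        unfold ffV
        have hz : ∀ ξ : Nz V, (mB G θ c₁ R₁ L κ L 0 ξ y - mB G θ c₂ R₂ L κ L 0 ξ y) ^ 2 = 0 := fun ξ => by
          rw [mB_start L ξ hy, mB_start L ξ (hsub hy)]
          simp
        simp only [hz, integral_zero]
      rw [this, mul_zero]
    have := cell L le_rfl x hx
    rw [h0, zero_add] at this
    simpa [DD] using this
  | succ n ih =>
    intro x hx
    have hℓ : L ≤ L + (n : ℤ) := by omega
    have hsucc : L + ((n + 1 : ℕ) : ℤ) = L + n + 1 := by push_cast; ring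
    have h := cell (L + ((n + 1 : ℕ) : ℤ)) (by omega) x hx
    refine h.trans ?_
    simp only [DD]
    refine mul_le_mul_of_nonneg_right (add_le_add ?_ le_rfl) (Real.exp_pos _).le
    have h0 : PhiV G θ L κ Λ c₁ R₁ c₂ R₂ hne (L + ((n + 1 : ℕ) : ℤ)) 0 =
        PhiV G θ L κ Λ c₁ R₁ c₂ R₂ hne (L + n) (1 / 2) := by
      unfold PhiV
      congr 1
      funext y
      congr 1
      unfold ffV
      congr 1
      funext ξ
      rw [mB_half hℓ, mB_half hℓ, hsucc]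
    rw [h0]
    exact ih _ ⟨by norm_num, le_rfl⟩

end VolB

section strict

variable (hG : RegTree G q) (hq : 2 ≤ q) (hκ : Sched κ)
include hG hq hκ

/-- **Volume bound.** -/
theorem vol_bound (hθ : Adm θ) (hsub : (q : ℝ) * θ ^ 2 < 1) (L ℓ : ℤ) (hL : L ≤ ℓ) :
    ∃ C Λ : ℝ, 0 < C ∧ 1 < Λ ∧ ∀ x ∈ Icc (0 : ℝ) (1 / 2), ∀ (c₁ c₂ v : V) (R₁ R₂ : ℕ), ball G c₁ R₁ ⊆ ball G c₂ R₂ → v ∈ ball G c₁ R₁ →
      ∫ ξ, (mB G θ c₁ R₁ L κ ℓ x ξ v - mB G θ c₂ R₂ L κ ℓ x ξ v) ^ 2 ∂noiseP V ≤ C * (1 / Λ) ^ (R₁ - G.dist c₁ v) := by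
  obtain ⟨c₀, hc₀, hlip⟩ := xI_lip (V := V) hG
  have ht0 : 0 ≤ (q : ℝ) * θ ^ 2 := by positivity
  have hΛ1 : 1 < 2 / (1 + (q : ℝ) * θ ^ 2) := by
    rw [lt_div_iff₀ (by linarith)]
    linarith
  have hΛ0 : 0 < 2 / (1 + (q : ℝ) * θ ^ 2) := by linarith
  have hρ : (q : ℝ) * θ ^ 2 * (2 / (1 + (q : ℝ) * θ ^ 2)) < 1 := by
    rw [mul_div_assoc', div_lt_one (by linarith)]
    linarith
  have hθ0 := hθ.nonneg
  have hD := VolB.DD_nonneg (β := 2 * (1 / 18) * ∑' k, VolB.cs q k * VolB.hH θ (2 / (1 + (q : ℝ) * θ ^ 2)) k)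
    (K := Real.exp (2 * ∑' k, VolB.cs q k * VolB.wW c₀ θ (2 / (1 + (q : ℝ) * θ ^ 2)) k))
    (mul_nonneg (by norm_num) (tsum_nonneg fun k => mul_nonneg (VolB.cs_nonneg q k)
      (VolB.hH_nonneg hθ0 hΛ0.le k))) (Real.exp_pos _).le ((ℓ - L).toNat)
  refine ⟨VolB.DD (2 * (1 / 18) * ∑' k, VolB.cs q k * VolB.hH θ (2 / (1 + (q : ℝ) * θ ^ 2)) k)
    (Real.exp (2 * ∑' k, VolB.cs q k * VolB.wW c₀ θ (2 / (1 + (q : ℝ) * θ ^ 2)) k)) ((ℓ - L).toNat) + 1,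
    2 / (1 + (q : ℝ) * θ ^ 2), add_pos_of_nonneg_of_pos hD one_pos, hΛ1, fun x hx c₁ c₂ v R₁ R₂ hb hv => ?_⟩
  have hne := VolB.ball_nonempty hG c₁ R₁
  have h1 := VolB.PhiV_cells hG hκ hθ hc₀ hlip hΛ1.le hρ hb L hne ((ℓ - L).toNat) x hx
  have e : L + ((ℓ - L).toNat : ℤ) = ℓ := by omega
  rw [e] at h1
  have h2 := VolB.le_PhiV (θ := θ) (L := L) (κ := κ) (Λ := 2 / (1 + (q : ℝ) * θ ^ 2)) (c₂ := c₂) (R₂ := R₂) (ℓ := ℓ) hne x hv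
  have h3 := h2.trans h1
  exact VolB.le_mul_inv_pow hΛ0 h3 hD

/-- **L² convergence to the infinite volume means.** -/
theorem mInf_l2 (hθ : Adm θ) (hsub : (q : ℝ) * θ ^ 2 < 1) (L ℓ : ℤ) (hL : L ≤ ℓ) :
    ∃ C Λ : ℝ, 0 < C ∧ 1 < Λ ∧ ∀ x ∈ Icc (0 : ℝ) (1 / 2), ∀ (c v : V) (R : ℕ), v ∈ ball G c R →
      ∫ ξ, (mB G θ c R L κ ℓ x ξ v - mInf G θ L κ ℓ x ξ v) ^ 2 ∂noiseP V ≤ C * (1 / Λ) ^ (R - G.dist c v) := by
  obtain ⟨C, Λ, hC, hΛ, hvol⟩ := vol_bound hG hq hκ hθ hsub L ℓ hL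
  have hΛ0 : 0 < Λ := by linarith
  have hr1 : (1 / Λ) < 1 := by
    rw [div_lt_one hΛ0]
    exact hΛ
  have hr0 : 0 < 1 / Λ := by positivity
  set r := Real.sqrt (1 / Λ) with hr
  have hr0' : 0 < r := Real.sqrt_pos.2 hr0
  have hr1' : r < 1 := by
    rw [hr, Real.sqrt_lt' one_pos]
    simpa using hr1
  have hrr : r ^ 2 = 1 / Λ := Real.sq_sqrt hr0.le
  have hsC : Real.sqrt C ^ 2 = C := Real.sq_sqrt hC.le
  set a : ℕ → ℝ := fun k => Real.sqrt C * r ^ k with ha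
  have ha0 : ∀ k, 0 ≤ a k := fun k => by positivity
  have hgeom := summable_geometric_of_lt_one hr0'.le hr1'
  have hasum : Summable a := hgeom.mul_left _
  have hatail : ∀ k, ∑' j, a (j + k) = Real.sqrt C * r ^ k / (1 - r) := by
    intro k
    have : ∀ j, a (j + k) = Real.sqrt C * r ^ k * r ^ j := fun j => by
      simp only [ha, pow_add]
      ring
    simp only [this]
    rw [tsum_mul_left, tsum_geometric_of_lt_one hr0'.le hr1', div_eq_mul_inv]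
  have h1r : 0 < 1 - r := by linarith
  -- centre of the ball at `v`
  have hcentre : ∀ x ∈ Icc (0 : ℝ) (1 / 2), ∀ (v : V) (k : ℕ),
      ∫ ξ, (mB G θ v k L κ ℓ x ξ v - mInf G θ L κ ℓ x ξ v) ^ 2 ∂noiseP V ≤
        C / (1 - r) ^ 2 * (1 / Λ) ^ k := by
    intro x hx v k
    have hm : ∀ k, Measurable (fun ξ : Nz V => mB G θ v k L κ ℓ x ξ v) := fun k => VolB.measurable_mB hκ _ _ _ _ _ _
    have hb : ∀ k (ξ : Nz V), |mB G θ v k L κ ℓ x ξ v| ≤ 1 := fun k ξ => VolB.abs_mB_le hκ hθ _ _ _ _ _ _ _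
    have hd : ∀ k, ∫ ξ, (mB G θ v k L κ ℓ x ξ v - mB G θ v (k + 1) L κ ℓ x ξ v) ^ 2 ∂noiseP V ≤ a k ^ 2 := by
      intro k
      have h := hvol x hx v v v k (k + 1) (ball_mono hG v (Nat.le_succ k)) ((mem_ball hG v k v).2 (by simp))
      simp only [SimpleGraph.dist_self, Nat.sub_zero] at h
      have e : a k ^ 2 = C * (1 / Λ) ^ k := by
        simp only [ha]
        rw [mul_pow, hsC, ← pow_mul, mul_comm k 2, pow_mul, hrr]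
      exact h.trans e.ge
    have hl := (l2_limit (P := noiseP V) hm hb hasum hd ha0).2 k
    refine hl.trans (le_of_eq ?_)
    rw [hatail, div_pow, mul_pow, hsC, ← pow_mul, mul_comm k 2, pow_mul, hrr]
    ring
  refine ⟨2 * C + 2 * (C / (1 - r) ^ 2), Λ, by positivity, hΛ, fun x hx c v R hv => ?_⟩
  have hdv : G.dist c v ≤ R := (mem_ball hG c R v).1 hv
  have hsubb : ball G v (R - G.dist c v) ⊆ ball G c R := ball_subset_ball hG (by omega)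
  have h1 := hvol x hx v c v (R - G.dist c v) R hsubb ((mem_ball hG _ _ v).2 (by simp))
  simp only [SimpleGraph.dist_self, Nat.sub_zero] at h1
  have h2 := hcentre x hx v (R - G.dist c v)
  set d := R - G.dist c v with hd
  have hbm1 := VolB.bm_mB (G := G) hκ hθ c R L ℓ x v
  have hbm2 := VolB.bm_mB (G := G) hκ hθ v d L ℓ x v
  have hbm3 : BM (fun ξ : Nz V => mInf G θ L κ ℓ x ξ v) :=
    ⟨measurable_limsup_seq fun k => VolB.measurable_mB hκ _ _ _ _ _ _, 1,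
      fun ξ => abs_limsup_le fun k => VolB.abs_mB_le hκ hθ _ _ _ _ _ _ _⟩
  have hsq : ∀ {f g : Nz V → ℝ}, BM f → BM g → BM (fun ξ => (f ξ - g ξ) ^ 2) := fun {f g} hf hg => by
    have := hf.sub hg
    simpa only [pow_two] using this.mul this
  have hle : ∫ ξ, (mB G θ c R L κ ℓ x ξ v - mInf G θ L κ ℓ x ξ v) ^ 2 ∂noiseP V ≤
      ∫ ξ, (2 * (mB G θ v d L κ ℓ x ξ v - mB G θ c R L κ ℓ x ξ v) ^ 2 +
        2 * (mB G θ v d L κ ℓ x ξ v - mInf G θ L κ ℓ x ξ v) ^ 2) ∂noiseP V := by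
    refine integral_mono ((hsq hbm1 hbm3).integrable _)
      ((((hsq hbm2 hbm1).integrable _).const_mul _).add (((hsq hbm2 hbm3).integrable _).const_mul _)) fun ξ => ?_
    simp only []
    nlinarith [sq_nonneg (mB G θ v d L κ ℓ x ξ v - mB G θ c R L κ ℓ x ξ v + (mB G θ v d L κ ℓ x ξ v - mInf G θ L κ ℓ x ξ v))]
  rw [integral_add (((hsq hbm2 hbm1).integrable _).const_mul _) (((hsq hbm2 hbm3).integrable _).const_mul _),
    integral_const_mul, integral_const_mul] at hle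
  have : (2 * C + 2 * (C / (1 - r) ^ 2)) * (1 / Λ) ^ d =
      2 * (C * (1 / Λ) ^ d) + 2 * (C / (1 - r) ^ 2 * (1 / Λ) ^ d) := by ring
  rw [this]
  linarith

theorem abs_mInf_le (hθ : Adm θ) (ξ : Nz V) (v : V) : |mInf G θ L κ ℓ x ξ v| ≤ 1 :=
  abs_limsup_le fun _ => VolB.abs_mB_le hκ hθ _ _ _ _ _ _ _

theorem measurable_mInf (v : V) : Measurable (fun p : ℝ × Nz V => mInf G θ L κ ℓ p.1 p.2 v) := by
  have hm : ∀ k : ℕ, Measurable (fun p : ℝ × Nz V => mB G θ v k L κ ℓ p.1 p.2 v) := fun k => by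
    have h : Measurable (fun q : ℝ × (Stg V → I) × (Stg V → I) => mSt G θ (ball G v k) L κ ℓ q.1 q.2.1 q.2.2 v) :=
      measurable_mSt_joint hκ v
    exact h
  exact measurable_limsup_seq hm

/-- **Exact equivariance.** -/
theorem mInf_aut (g : G ≃g G) (ξ : Nz V) (v : V) :
    mInf G θ L κ ℓ x (actN g ξ) (g v) = mInf G θ L κ ℓ x ξ v := by
  unfold mInf
  congr 1
  funext k
  unfold mB
  rw [ball_aut g hG v k]
  exact mSt_aut hκ g v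

end strict

/-! ### Proof of the increment inequality in infinite volume (`incr_inf`) -/

namespace IncrAux

/-- The mean of the absolute value is at most the root mean square on a probability space. -/
theorem integral_abs_le_sqrt {Ω : Type*} [MeasurableSpace Ω] {μ : Measure Ω} [IsProbabilityMeasure μ] {Z : Ω → ℝ}
    (hZ : Measurable Z) {M : ℝ} (hb : ∀ ω, |Z ω| ≤ M) :
    ∫ ω, |Z ω| ∂μ ≤ Real.sqrt (∫ ω, Z ω ^ 2 ∂μ) := by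
  have hi1 : Integrable (fun ω => |Z ω|) μ :=
    Integrable.of_bound hZ.abs.aestronglyMeasurable M (ae_of_all _ (fun ω => by simpa using hb ω))
  have hi2 : Integrable (fun ω => Z ω ^ 2) μ :=
    Integrable.of_bound (hZ.pow_const 2).aestronglyMeasurable (M ^ 2) (ae_of_all _ (fun ω => by
      have h0 : 0 ≤ M := (abs_nonneg _).trans (hb ω)
      rw [Real.norm_eq_abs, abs_pow]
      exact pow_le_pow_left₀ (abs_nonneg _) (hb ω) 2))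
  set a := ∫ ω, |Z ω| ∂μ with ha
  have h0 : 0 ≤ ∫ ω, (|Z ω| - a) ^ 2 ∂μ := integral_nonneg (fun ω => sq_nonneg _)
  have h1 : ∫ ω, (|Z ω| - a) ^ 2 ∂μ = ∫ ω, Z ω ^ 2 ∂μ - 2 * a * a + a ^ 2 := by
    have e : ∀ ω, (|Z ω| - a) ^ 2 = Z ω ^ 2 - 2 * a * |Z ω| + a ^ 2 := by
      intro ω
      rw [sub_sq, sq_abs]
      ring
    simp_rw [e]
    have hi3 : Integrable (fun ω => Z ω ^ 2 - 2 * a * |Z ω|) μ := hi2.sub (hi1.const_mul _)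
    rw [integral_add hi3 (integrable_const _), integral_sub hi2 (hi1.const_mul _),
      integral_const_mul, integral_const]
    simp [ha]
  have h2 : a ^ 2 ≤ ∫ ω, Z ω ^ 2 ∂μ := by nlinarith
  exact (le_abs_self a).trans (Real.abs_le_sqrt h2)

/-- Bounded measurable processes of means. -/
structure Proc (m : Nz V → V → ℝ) : Prop where
  bd : ∀ ξ v, |m ξ v| ≤ 1
  meas : ∀ v, Measurable (fun ξ => m ξ v)

theorem measurable_xI (hG : RegTree G q) {m : Nz V → V → ℝ} (hm : ∀ v, Measurable (fun ξ => m ξ v)) (θ : ℝ) (v u : V) :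
    Measurable (fun ξ => xI G θ (m ξ) v u) := by
  have e : (fun ξ => xI G θ (m ξ) v u) = fun ξ => (1 - m ξ v ^ 2) *
      ∏ j ∈ Finset.range (G.dist v u), rr θ (m ξ (geo G v u j)) (m ξ (geo G v u (j + 1))) := by
    funext ξ
    unfold xI
    rw [pathProd_eq_prod hG]
  rw [e]
  refine (measurable_const.sub ((hm v).pow_const 2)).mul ?_
  refine Finset.measurable_prod _ (fun j _ => ?_)
  have h2 : Measurable (fun ξ => (m ξ (geo G v u j), m ξ (geo G v u (j + 1)))) := (hm _).prodMk (hm _)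
  have h3 := (measurable_rr θ).comp h2
  exact h3

theorem measurable_incI (hG : RegTree G q) {m₁ m₂ : Nz V → V → ℝ} (hm₁ : ∀ v, Measurable (fun ξ => m₁ ξ v))
    (hm₂ : ∀ v, Measurable (fun ξ => m₂ ξ v)) (κ₀ θ₁ θ₂ : ℝ) (v u : V) :
    Measurable (fun ξ => incI G κ₀ θ₁ θ₂ (m₁ ξ) (m₂ ξ) v u) := by
  unfold incI
  have h1 := measurable_xI hG hm₁ θ₁ v u
  have h2 := measurable_xI hG hm₂ θ₂ v u
  exact (((h1.sub h2).pow_const 2).const_mul _).add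
    (((h2.pow_const 2).const_mul _).mul (((hm₁ u).sub (hm₂ u)).pow_const 2))

/-- The elementary inequality. -/
theorem diff_ineq {τ γ a b a' b' s t s' t' : ℝ} (hτ : 0 ≤ τ) (hγ : 0 ≤ γ)
    (ha : |a| ≤ 1) (hb : |b| ≤ 1) (ha' : |a'| ≤ 1) (hb' : |b'| ≤ 1)
    (hs : |s| ≤ 1) (ht : |t| ≤ 1) (hs' : |s'| ≤ 1) (ht' : |t'| ≤ 1) :
    |(2 * τ * (a - b) ^ 2 + 32 * γ * b ^ 2 * (s - t) ^ 2) - (2 * τ * (a' - b') ^ 2 + 32 * γ * b' ^ 2 * (s' - t') ^ 2)| ≤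
      (8 * τ + 256 * γ) * (|a - a'| + |b - b'| + |s - s'| + |t - t'|) := by
  have key : ∀ {p r p' r' : ℝ}, |p| ≤ 1 → |r| ≤ 1 → |p'| ≤ 1 → |r'| ≤ 1 →
      |(p - r) ^ 2 - (p' - r') ^ 2| ≤ 4 * (|p - p'| + |r - r'|) := by
    intro p r p' r' hp hr hp' hr'
    have e : (p - r) ^ 2 - (p' - r') ^ 2 = ((p - p') - (r - r')) * ((p - r) + (p' - r')) := by ring
    rw [e, abs_mul]
    have h1 : |(p - p') - (r - r')| ≤ |p - p'| + |r - r'| := abs_sub _ _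
    have h2 : |(p - r) + (p' - r')| ≤ 4 := by
      rw [abs_le] at hp hr hp' hr' ⊢
      constructor <;> linarith [hp.1, hp.2, hr.1, hr.2, hp'.1, hp'.2, hr'.1, hr'.2]
    calc _ ≤ (|p - p'| + |r - r'|) * 4 := mul_le_mul h1 h2 (abs_nonneg _) (by positivity)
      _ = _ := by ring
  have k1 := key ha hb ha' hb'
  have k2 := key hs ht hs' ht'
  have k3 : |b ^ 2 - b' ^ 2| ≤ 2 * |b - b'| := by
    have e : b ^ 2 - b' ^ 2 = (b - b') * (b + b') := by ring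
    rw [e, abs_mul]
    have h2 : |b + b'| ≤ 2 := by
      rw [abs_le] at hb hb' ⊢
      constructor <;> linarith [hb.1, hb.2, hb'.1, hb'.2]
    nlinarith [abs_nonneg (b - b')]
  have k4 : (s - t) ^ 2 ≤ 4 := by
    rw [abs_le] at hs ht
    nlinarith [hs.1, hs.2, ht.1, ht.2]
  have k5 : b' ^ 2 ≤ 1 := by
    rw [abs_le] at hb'
    nlinarith [hb'.1, hb'.2]
  have e : (2 * τ * (a - b) ^ 2 + 32 * γ * b ^ 2 * (s - t) ^ 2) - (2 * τ * (a' - b') ^ 2 + 32 * γ * b' ^ 2 * (s' - t') ^ 2) =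
      2 * τ * ((a - b) ^ 2 - (a' - b') ^ 2) + 32 * γ * ((b ^ 2 - b' ^ 2) * (s - t) ^ 2) +
        32 * γ * (b' ^ 2 * ((s - t) ^ 2 - (s' - t') ^ 2)) := by ring
  rw [e]
  have t1 : |2 * τ * ((a - b) ^ 2 - (a' - b') ^ 2)| ≤ 2 * τ * (4 * (|a - a'| + |b - b'|)) := by
    rw [abs_mul, abs_of_nonneg (by positivity : 0 ≤ 2 * τ)]
    exact mul_le_mul_of_nonneg_left k1 (by positivity)
  have t2 : |32 * γ * ((b ^ 2 - b' ^ 2) * (s - t) ^ 2)| ≤ 32 * γ * (2 * |b - b'| * 4) := by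
    rw [abs_mul, abs_of_nonneg (by positivity : 0 ≤ 32 * γ), abs_mul, abs_of_nonneg (sq_nonneg (s - t))]
    exact mul_le_mul_of_nonneg_left (mul_le_mul k3 k4 (sq_nonneg _) (by positivity)) (by positivity)
  have t3 : |32 * γ * (b' ^ 2 * ((s - t) ^ 2 - (s' - t') ^ 2))| ≤ 32 * γ * (1 * (4 * (|s - s'| + |t - t'|))) := by
    rw [abs_mul, abs_of_nonneg (by positivity : 0 ≤ 32 * γ), abs_mul, abs_of_nonneg (sq_nonneg b')]
    exact mul_le_mul_of_nonneg_left (mul_le_mul k5 k2 (abs_nonneg _) (by norm_num)) (by positivity)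
  have t4 := abs_add_three (2 * τ * ((a - b) ^ 2 - (a' - b') ^ 2)) (32 * γ * ((b ^ 2 - b' ^ 2) * (s - t) ^ 2))
    (32 * γ * (b' ^ 2 * ((s - t) ^ 2 - (s' - t') ^ 2)))
  have hA := abs_nonneg (a - a')
  have hB := abs_nonneg (b - b')
  have hS := abs_nonneg (s - s')
  have hT := abs_nonneg (t - t')
  have : 2 * τ * (4 * (|a - a'| + |b - b'|)) + 32 * γ * (2 * |b - b'| * 4) + 32 * γ * (1 * (4 * (|s - s'| + |t - t'|))) ≤
      (8 * τ + 256 * γ) * (|a - a'| + |b - b'| + |s - s'| + |t - t'|) := by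
    have h1 : 0 ≤ τ * (|s - s'| + |t - t'|) := by positivity
    have h2 : 0 ≤ γ * |a - a'| := by positivity
    have h3 : 0 ≤ γ * (|s - s'| + |t - t'|) := by positivity
    nlinarith
  linarith

/-- The tail bound: elementary inequality. -/
theorem incI_le_aux {τ γ a b s t A B : ℝ} (hτ : 0 ≤ τ) (hγ : 0 ≤ γ) (ha : a ^ 2 ≤ A) (hb : b ^ 2 ≤ B)
    (hs : |s| ≤ 1) (ht : |t| ≤ 1) :
    2 * τ * (a - b) ^ 2 + 32 * γ * b ^ 2 * (s - t) ^ 2 ≤ (4 * τ + 128 * γ) * (A + B) := by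
  have k4 : (s - t) ^ 2 ≤ 4 := by
    rw [abs_le] at hs ht
    nlinarith [hs.1, hs.2, ht.1, ht.2]
  have hA : 0 ≤ A := (sq_nonneg _).trans ha
  have hB : 0 ≤ B := (sq_nonneg _).trans hb
  have k1 : (a - b) ^ 2 ≤ 2 * (A + B) := by nlinarith [sq_nonneg (a + b)]
  have k2 : b ^ 2 * (s - t) ^ 2 ≤ B * 4 := mul_le_mul hb k4 (sq_nonneg _) hB
  have e1 : 2 * τ * (a - b) ^ 2 ≤ 2 * τ * (2 * (A + B)) := mul_le_mul_of_nonneg_left k1 (by positivity)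
  have e2 : 32 * γ * (b ^ 2 * (s - t) ^ 2) ≤ 32 * γ * (B * 4) := mul_le_mul_of_nonneg_left k2 (by positivity)
  have : 0 ≤ γ * A := by positivity
  nlinarith

theorem abs_xI_le_one (hG : RegTree G q) (hθ : Adm θ) {m : V → ℝ} (hm : ∀ v, |m v| ≤ 1) (v u : V) : |xI G θ m v u| ≤ 1 :=
  (abs_xI_le hG hθ hm v u).trans (pow_le_one₀ hθ.nonneg hθ.lt_one.le)

theorem sq_xI_le (hG : RegTree G q) (hθ : Adm θ) {m : V → ℝ} (hm : ∀ v, |m v| ≤ 1) (v u : V) :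
    xI G θ m v u ^ 2 ≤ θ ^ (2 * G.dist v u) := by
  have h := abs_xI_le hG hθ hm v u
  calc xI G θ m v u ^ 2 = |xI G θ m v u| ^ 2 := (sq_abs _).symm
    _ ≤ (θ ^ G.dist v u) ^ 2 := pow_le_pow_left₀ (abs_nonneg _) h 2
    _ = _ := by rw [← pow_mul, mul_comm]

theorem incI_le (hG : RegTree G q) (hθ₁ : Adm θ₁) (hθ₂ : Adm θ₂) {m₁ m₂ : V → ℝ} (hm₁ : ∀ v, |m₁ v| ≤ 1) (hm₂ : ∀ v, |m₂ v| ≤ 1)
    {κ₀ : ℝ} (hτ : 0 ≤ tauK κ₀) (o u : V) :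
    incI G κ₀ θ₁ θ₂ m₁ m₂ o u ≤ (4 * tauK κ₀ + 128 * κ₀ ^ 4) * (θ₁ ^ (2 * G.dist o u) + θ₂ ^ (2 * G.dist o u)) := by
  unfold incI
  exact incI_le_aux hτ (by positivity) (sq_xI_le hG hθ₁ hm₁ o u) (sq_xI_le hG hθ₂ hm₂ o u) (hm₁ u) (hm₂ u)

theorem integrable_incI (hG : RegTree G q) (hθ₁ : Adm θ₁) (hθ₂ : Adm θ₂) {m₁ m₂ : Nz V → V → ℝ} (P₁ : Proc m₁) (P₂ : Proc m₂)
    {κ₀ : ℝ} (hτ : 0 ≤ tauK κ₀) (o u : V) :
    Integrable (fun ξ => incI G κ₀ θ₁ θ₂ (m₁ ξ) (m₂ ξ) o u) (noiseP V) := by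
  refine Integrable.of_bound (measurable_incI hG P₁.meas P₂.meas _ _ _ _ _).aestronglyMeasurable
    ((4 * tauK κ₀ + 128 * κ₀ ^ 4) * (θ₁ ^ (2 * G.dist o u) + θ₂ ^ (2 * G.dist o u))) (ae_of_all _ (fun ξ => ?_))
  rw [Real.norm_eq_abs, abs_of_nonneg]
  · exact incI_le hG hθ₁ hθ₂ (P₁.bd ξ) (P₂.bd ξ) hτ o u
  · unfold incI
    have : 0 ≤ κ₀ ^ 4 := by positivity
    positivity

/-- The integral of the increment bound over a sphere is bounded by a geometric sequence. -/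
theorem sum_sphere_incI_le (hG : RegTree G q) (hq : 1 ≤ q) (hθ₁ : Adm θ₁) (hθ₂ : Adm θ₂) {m₁ m₂ : Nz V → V → ℝ} (P₁ : Proc m₁) (P₂ : Proc m₂)
    {κ₀ : ℝ} (hτ : 0 ≤ tauK κ₀) (o : V) (k : ℕ) {r : ℝ} (hr₁ : (q : ℝ) * θ₁ ^ 2 ≤ r) (hr₂ : (q : ℝ) * θ₂ ^ 2 ≤ r) :
    ∑ u ∈ sphere G o k, ∫ ξ, incI G κ₀ θ₁ θ₂ (m₁ ξ) (m₂ ξ) o u ∂noiseP V ≤ 4 * (4 * tauK κ₀ + 128 * κ₀ ^ 4) * r ^ k := by
  set C₂ := 4 * tauK κ₀ + 128 * κ₀ ^ 4 with hC₂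
  have hC₂0 : 0 ≤ C₂ := by rw [hC₂]; positivity
  have h1 : ∀ u ∈ sphere G o k, ∫ ξ, incI G κ₀ θ₁ θ₂ (m₁ ξ) (m₂ ξ) o u ∂noiseP V ≤ C₂ * (θ₁ ^ (2 * k) + θ₂ ^ (2 * k)) := by
    intro u hu
    have hd := (mem_sphere hG o k u).1 hu
    have := integral_mono (integrable_incI hG hθ₁ hθ₂ P₁ P₂ hτ o u) (integrable_const (C₂ * (θ₁ ^ (2 * k) + θ₂ ^ (2 * k))))
      (fun ξ => by
        have := incI_le hG hθ₁ hθ₂ (P₁.bd ξ) (P₂.bd ξ) hτ o u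
        rw [hd] at this
        exact this)
    simpa using this
  have hcard : ((sphere G o k).card : ℝ) ≤ 2 * (q : ℝ) ^ k := by
    have hq' : (1 : ℝ) ≤ q := by exact_mod_cast hq
    rcases k with _ | k
    · simp [sphere]
    · rw [card_sphere hG]
      push_cast
      have : (0 : ℝ) ≤ (q : ℝ) ^ k := by positivity
      rw [pow_succ]
      nlinarith
  have hr0 : 0 ≤ r := le_trans (by positivity) hr₁
  have hpow₁ : (q : ℝ) ^ k * θ₁ ^ (2 * k) ≤ r ^ k := by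
    rw [pow_mul, ← mul_pow]
    exact pow_le_pow_left₀ (by positivity) hr₁ k
  have hpow₂ : (q : ℝ) ^ k * θ₂ ^ (2 * k) ≤ r ^ k := by
    rw [pow_mul, ← mul_pow]
    exact pow_le_pow_left₀ (by positivity) hr₂ k
  have hθ0₁ : 0 ≤ θ₁ ^ (2 * k) := pow_nonneg hθ₁.nonneg _
  have hθ0₂ : 0 ≤ θ₂ ^ (2 * k) := pow_nonneg hθ₂.nonneg _
  calc ∑ u ∈ sphere G o k, ∫ ξ, incI G κ₀ θ₁ θ₂ (m₁ ξ) (m₂ ξ) o u ∂noiseP V
      ≤ ∑ u ∈ sphere G o k, C₂ * (θ₁ ^ (2 * k) + θ₂ ^ (2 * k)) := Finset.sum_le_sum h1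
    _ = ((sphere G o k).card : ℝ) * (C₂ * (θ₁ ^ (2 * k) + θ₂ ^ (2 * k))) := by
        rw [Finset.sum_const, nsmul_eq_mul]
    _ ≤ (2 * (q : ℝ) ^ k) * (C₂ * (θ₁ ^ (2 * k) + θ₂ ^ (2 * k))) :=
        mul_le_mul_of_nonneg_right hcard (by positivity)
    _ = 2 * C₂ * ((q : ℝ) ^ k * θ₁ ^ (2 * k) + (q : ℝ) ^ k * θ₂ ^ (2 * k)) := by ring
    _ ≤ 2 * C₂ * (r ^ k + r ^ k) := mul_le_mul_of_nonneg_left (add_le_add hpow₁ hpow₂) (by positivity)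
    _ = _ := by ring

/-- `L²` comparison of the transmissions. -/
theorem xI_L2 (hG : RegTree G q) : ∃ c : ℝ, 0 < c ∧ ∀ (θ : ℝ) (_ : Adm θ) (m n : Nz V → V → ℝ) (_ : Proc m) (_ : Proc n)
    (o u : V) (D : ℕ) (_ : G.dist o u ≤ D) (δ : ℝ)
    (_ : ∀ j ≤ G.dist o u, ∫ ξ, (m ξ (geo G o u j) - n ξ (geo G o u j)) ^ 2 ∂noiseP V ≤ δ),
    ∫ ξ, (xI G θ (m ξ) o u - xI G θ (n ξ) o u) ^ 2 ∂noiseP V ≤ c * (D + 1) ^ 2 * δ := by
  obtain ⟨c, hc, h⟩ := xI_lip hG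
  refine ⟨c, hc, ?_⟩
  intro θ hθ m n Pm Pn o u D hD δ hδ
  set d := G.dist o u with hd
  have hdD : (d : ℝ) + 1 ≤ D + 1 := by
    have : (d : ℝ) ≤ D := by exact_mod_cast hD
    linarith
  have hint : ∀ j, Integrable (fun ξ => (m ξ (geo G o u j) - n ξ (geo G o u j)) ^ 2) (noiseP V) := by
    intro j
    refine Integrable.of_bound (((Pm.meas _).sub (Pn.meas _)).pow_const 2).aestronglyMeasurable 4 (ae_of_all _ (fun ξ => ?_))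
    have h1 := abs_le.1 (Pm.bd ξ (geo G o u j))
    have h2 := abs_le.1 (Pn.bd ξ (geo G o u j))
    rw [Real.norm_eq_abs, abs_of_nonneg (sq_nonneg _)]
    nlinarith [h1.1, h1.2, h2.1, h2.2]
  have hpt : ∀ ξ, (xI G θ (m ξ) o u - xI G θ (n ξ) o u) ^ 2 ≤
      c * (D + 1) * ∑ j ∈ Finset.range (d + 1), (m ξ (geo G o u j) - n ξ (geo G o u j)) ^ 2 := by
    intro ξ
    have h1 := h θ θ hθ hθ (m ξ) (n ξ) (Pm.bd ξ) (Pn.bd ξ) o u
    rw [max_self, sub_self, ← hd] at h1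
    have hs : 0 ≤ ∑ j ∈ Finset.range (d + 1), (m ξ (geo G o u j) - n ξ (geo G o u j)) ^ 2 :=
      Finset.sum_nonneg (fun _ _ => sq_nonneg _)
    have hp : θ ^ (2 * d - 2) ≤ 1 := pow_le_one₀ hθ.nonneg hθ.lt_one.le
    have hp0 : 0 ≤ θ ^ (2 * d - 2) := pow_nonneg hθ.nonneg _
    have hd0 : (0 : ℝ) ≤ (d : ℝ) + 1 := by positivity
    refine h1.trans ?_
    have e : c * θ ^ (2 * d - 2) * ((d : ℝ) + 1) * (∑ j ∈ Finset.range (d + 1), (m ξ (geo G o u j) - n ξ (geo G o u j)) ^ 2 + ((d : ℝ) + 1) * 0 ^ 2) =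
        c * (θ ^ (2 * d - 2) * ((d : ℝ) + 1)) * ∑ j ∈ Finset.range (d + 1), (m ξ (geo G o u j) - n ξ (geo G o u j)) ^ 2 := by ring
    rw [e]
    have : θ ^ (2 * d - 2) * ((d : ℝ) + 1) ≤ 1 * ((D : ℝ) + 1) := mul_le_mul hp hdD hd0 (by norm_num)
    rw [one_mul] at this
    exact mul_le_mul_of_nonneg_right (mul_le_mul_of_nonneg_left this hc.le) hs
  have hsumint : Integrable (fun ξ => ∑ j ∈ Finset.range (d + 1), (m ξ (geo G o u j) - n ξ (geo G o u j)) ^ 2) (noiseP V) :=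
    integrable_finsetSum _ (fun j _ => hint j)
  have hxmeas : Measurable (fun ξ => (xI G θ (m ξ) o u - xI G θ (n ξ) o u) ^ 2) :=
    ((measurable_xI hG Pm.meas θ o u).sub (measurable_xI hG Pn.meas θ o u)).pow_const 2
  have hxint : Integrable (fun ξ => (xI G θ (m ξ) o u - xI G θ (n ξ) o u) ^ 2) (noiseP V) := by
    refine Integrable.of_bound hxmeas.aestronglyMeasurable 4 (ae_of_all _ (fun ξ => ?_))
    have h1 := abs_le.1 (abs_xI_le_one hG hθ (Pm.bd ξ) o u)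
    have h2 := abs_le.1 (abs_xI_le_one hG hθ (Pn.bd ξ) o u)
    rw [Real.norm_eq_abs, abs_of_nonneg (sq_nonneg _)]
    nlinarith [h1.1, h1.2, h2.1, h2.2]
  calc ∫ ξ, (xI G θ (m ξ) o u - xI G θ (n ξ) o u) ^ 2 ∂noiseP V
      ≤ ∫ ξ, c * (D + 1) * ∑ j ∈ Finset.range (d + 1), (m ξ (geo G o u j) - n ξ (geo G o u j)) ^ 2 ∂noiseP V :=
        integral_mono hxint (hsumint.const_mul _) hpt
    _ = c * (D + 1) * ∑ j ∈ Finset.range (d + 1), ∫ ξ, (m ξ (geo G o u j) - n ξ (geo G o u j)) ^ 2 ∂noiseP V := by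
        rw [integral_const_mul, integral_finsetSum _ (fun j _ => hint j)]
    _ ≤ c * (D + 1) * ∑ _j ∈ Finset.range (d + 1), δ := by
        refine mul_le_mul_of_nonneg_left (Finset.sum_le_sum (fun j hj => hδ j ?_)) (by positivity)
        have := Finset.mem_range.1 hj
        omega
    _ = c * (D + 1) * ((d + 1) * δ) := by
        rw [Finset.sum_const, nsmul_eq_mul, Finset.card_range]
        push_cast
        ring
    _ ≤ c * (D + 1) ^ 2 * δ := by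
        have hδ0 : 0 ≤ δ := le_trans (integral_nonneg (fun _ => sq_nonneg _)) (hδ 0 (Nat.zero_le _))
        have : ((d : ℝ) + 1) * δ ≤ ((D : ℝ) + 1) * δ := mul_le_mul_of_nonneg_right hdD hδ0
        calc c * ((D : ℝ) + 1) * (((d : ℝ) + 1) * δ) ≤ c * ((D : ℝ) + 1) * (((D : ℝ) + 1) * δ) :=
              mul_le_mul_of_nonneg_left this (by positivity)
          _ = _ := by ring

/-- `L¹` comparison of the increment bound. -/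
theorem integral_incI_sub (hG : RegTree G q) : ∃ c : ℝ, 0 < c ∧ ∀ (θ₁ θ₂ : ℝ) (_ : Adm θ₁) (_ : Adm θ₂) (m₁ m₂ n₁ n₂ : Nz V → V → ℝ)
    (_ : Proc m₁) (_ : Proc m₂) (_ : Proc n₁) (_ : Proc n₂) (κ₀ : ℝ) (_ : 0 ≤ tauK κ₀)
    (o u : V) (D : ℕ) (_ : G.dist o u ≤ D) (s : ℝ) (_ : 0 ≤ s)
    (_ : ∀ j ≤ G.dist o u, ∫ ξ, (m₁ ξ (geo G o u j) - n₁ ξ (geo G o u j)) ^ 2 ∂noiseP V ≤ s ^ 2)
    (_ : ∀ j ≤ G.dist o u, ∫ ξ, (m₂ ξ (geo G o u j) - n₂ ξ (geo G o u j)) ^ 2 ∂noiseP V ≤ s ^ 2),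
    ∫ ξ, incI G κ₀ θ₁ θ₂ (m₁ ξ) (m₂ ξ) o u ∂noiseP V ≤ ∫ ξ, incI G κ₀ θ₁ θ₂ (n₁ ξ) (n₂ ξ) o u ∂noiseP V +
      (8 * tauK κ₀ + 256 * κ₀ ^ 4) * (2 * Real.sqrt (c * (D + 1) ^ 2) + 2) * s := by
  obtain ⟨c, hc, hL2⟩ := xI_L2 (V := V) hG
  refine ⟨c, hc, ?_⟩
  intro θ₁ θ₂ hθ₁ hθ₂ m₁ m₂ n₁ n₂ Pm₁ Pm₂ Pn₁ Pn₂ κ₀ hτ o u D hD s hs h₁ h₂
  set C₀ := 8 * tauK κ₀ + 256 * κ₀ ^ 4 with hC₀
  have hC₀0 : 0 ≤ C₀ := by rw [hC₀]; positivity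
  have hcD : 0 ≤ c * ((D : ℝ) + 1) ^ 2 := by positivity
  -- the four differences
  have mA : Measurable (fun ξ => xI G θ₁ (m₁ ξ) o u - xI G θ₁ (n₁ ξ) o u) :=
    (measurable_xI hG Pm₁.meas θ₁ o u).sub (measurable_xI hG Pn₁.meas θ₁ o u)
  have mB' : Measurable (fun ξ => xI G θ₂ (m₂ ξ) o u - xI G θ₂ (n₂ ξ) o u) :=
    (measurable_xI hG Pm₂.meas θ₂ o u).sub (measurable_xI hG Pn₂.meas θ₂ o u)
  have mS : Measurable (fun ξ => m₁ ξ u - n₁ ξ u) := (Pm₁.meas u).sub (Pn₁.meas u)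
  have mT : Measurable (fun ξ => m₂ ξ u - n₂ ξ u) := (Pm₂.meas u).sub (Pn₂.meas u)
  have bA : ∀ ξ, |xI G θ₁ (m₁ ξ) o u - xI G θ₁ (n₁ ξ) o u| ≤ 2 := fun ξ => by
    have h1 := abs_le.1 (abs_xI_le_one hG hθ₁ (Pm₁.bd ξ) o u)
    have h2 := abs_le.1 (abs_xI_le_one hG hθ₁ (Pn₁.bd ξ) o u)
    rw [abs_le]; constructor <;> linarith [h1.1, h1.2, h2.1, h2.2]
  have bB : ∀ ξ, |xI G θ₂ (m₂ ξ) o u - xI G θ₂ (n₂ ξ) o u| ≤ 2 := fun ξ => by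
    have h1 := abs_le.1 (abs_xI_le_one hG hθ₂ (Pm₂.bd ξ) o u)
    have h2 := abs_le.1 (abs_xI_le_one hG hθ₂ (Pn₂.bd ξ) o u)
    rw [abs_le]; constructor <;> linarith [h1.1, h1.2, h2.1, h2.2]
  have bS : ∀ ξ, |m₁ ξ u - n₁ ξ u| ≤ 2 := fun ξ => by
    have h1 := abs_le.1 (Pm₁.bd ξ u)
    have h2 := abs_le.1 (Pn₁.bd ξ u)
    rw [abs_le]; constructor <;> linarith [h1.1, h1.2, h2.1, h2.2]
  have bT : ∀ ξ, |m₂ ξ u - n₂ ξ u| ≤ 2 := fun ξ => by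
    have h1 := abs_le.1 (Pm₂.bd ξ u)
    have h2 := abs_le.1 (Pn₂.bd ξ u)
    rw [abs_le]; constructor <;> linarith [h1.1, h1.2, h2.1, h2.2]
  have iabs : ∀ {Z : Nz V → ℝ}, Measurable Z → (∀ ξ, |Z ξ| ≤ 2) → Integrable (fun ξ => |Z ξ|) (noiseP V) := by
    intro Z hZ hb
    exact Integrable.of_bound hZ.abs.aestronglyMeasurable 2 (ae_of_all _ (fun ξ => by simpa using hb ξ))
  have iA := iabs mA bA
  have iB := iabs mB' bB
  have iS := iabs mS bS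
  have iT := iabs mT bT
  -- the estimates
  have eA : ∫ ξ, |xI G θ₁ (m₁ ξ) o u - xI G θ₁ (n₁ ξ) o u| ∂noiseP V ≤ Real.sqrt (c * (D + 1) ^ 2) * s := by
    refine (integral_abs_le_sqrt mA bA).trans ?_
    refine (Real.sqrt_le_sqrt (hL2 θ₁ hθ₁ m₁ n₁ Pm₁ Pn₁ o u D hD (s ^ 2) h₁)).trans ?_
    rw [Real.sqrt_mul hcD, Real.sqrt_sq hs]
  have eB : ∫ ξ, |xI G θ₂ (m₂ ξ) o u - xI G θ₂ (n₂ ξ) o u| ∂noiseP V ≤ Real.sqrt (c * (D + 1) ^ 2) * s := by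
    refine (integral_abs_le_sqrt mB' bB).trans ?_
    refine (Real.sqrt_le_sqrt (hL2 θ₂ hθ₂ m₂ n₂ Pm₂ Pn₂ o u D hD (s ^ 2) h₂)).trans ?_
    rw [Real.sqrt_mul hcD, Real.sqrt_sq hs]
  have eS : ∫ ξ, |m₁ ξ u - n₁ ξ u| ∂noiseP V ≤ s := by
    refine (integral_abs_le_sqrt mS bS).trans ?_
    have := h₁ (G.dist o u) le_rfl
    rw [geo_dist hG] at this
    refine (Real.sqrt_le_sqrt this).trans ?_
    rw [Real.sqrt_sq hs]
  have eT : ∫ ξ, |m₂ ξ u - n₂ ξ u| ∂noiseP V ≤ s := by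
    refine (integral_abs_le_sqrt mT bT).trans ?_
    have := h₂ (G.dist o u) le_rfl
    rw [geo_dist hG] at this
    refine (Real.sqrt_le_sqrt this).trans ?_
    rw [Real.sqrt_sq hs]
  have iall : Integrable (fun ξ => |xI G θ₁ (m₁ ξ) o u - xI G θ₁ (n₁ ξ) o u| + |xI G θ₂ (m₂ ξ) o u - xI G θ₂ (n₂ ξ) o u| +
      |m₁ ξ u - n₁ ξ u| + |m₂ ξ u - n₂ ξ u|) (noiseP V) := ((iA.add iB).add iS).add iT
  have hall : ∫ ξ, (|xI G θ₁ (m₁ ξ) o u - xI G θ₁ (n₁ ξ) o u| + |xI G θ₂ (m₂ ξ) o u - xI G θ₂ (n₂ ξ) o u| +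
      |m₁ ξ u - n₁ ξ u| + |m₂ ξ u - n₂ ξ u|) ∂noiseP V ≤ (2 * Real.sqrt (c * (D + 1) ^ 2) + 2) * s := by
    have i2 : Integrable (fun ξ => |xI G θ₁ (m₁ ξ) o u - xI G θ₁ (n₁ ξ) o u| + |xI G θ₂ (m₂ ξ) o u - xI G θ₂ (n₂ ξ) o u|) (noiseP V) :=
      iA.add iB
    have i3 : Integrable (fun ξ => |xI G θ₁ (m₁ ξ) o u - xI G θ₁ (n₁ ξ) o u| + |xI G θ₂ (m₂ ξ) o u - xI G θ₂ (n₂ ξ) o u| +
      |m₁ ξ u - n₁ ξ u|) (noiseP V) := i2.add iS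
    rw [integral_add i3 iT, integral_add i2 iS, integral_add iA iB]
    nlinarith
  have hptw : ∀ ξ, incI G κ₀ θ₁ θ₂ (m₁ ξ) (m₂ ξ) o u ≤ incI G κ₀ θ₁ θ₂ (n₁ ξ) (n₂ ξ) o u +
      C₀ * (|xI G θ₁ (m₁ ξ) o u - xI G θ₁ (n₁ ξ) o u| + |xI G θ₂ (m₂ ξ) o u - xI G θ₂ (n₂ ξ) o u| +
      |m₁ ξ u - n₁ ξ u| + |m₂ ξ u - n₂ ξ u|) := by
    intro ξ
    have := diff_ineq (γ := κ₀ ^ 4) hτ (by positivity) (abs_xI_le_one hG hθ₁ (Pm₁.bd ξ) o u) (abs_xI_le_one hG hθ₂ (Pm₂.bd ξ) o u)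
      (abs_xI_le_one hG hθ₁ (Pn₁.bd ξ) o u) (abs_xI_le_one hG hθ₂ (Pn₂.bd ξ) o u)
      (Pm₁.bd ξ u) (Pm₂.bd ξ u) (Pn₁.bd ξ u) (Pn₂.bd ξ u)
    have h2 := (abs_le.1 this).2
    unfold incI
    rw [hC₀]
    linarith
  calc ∫ ξ, incI G κ₀ θ₁ θ₂ (m₁ ξ) (m₂ ξ) o u ∂noiseP V
      ≤ ∫ ξ, (incI G κ₀ θ₁ θ₂ (n₁ ξ) (n₂ ξ) o u +
        C₀ * (|xI G θ₁ (m₁ ξ) o u - xI G θ₁ (n₁ ξ) o u| + |xI G θ₂ (m₂ ξ) o u - xI G θ₂ (n₂ ξ) o u| +
      |m₁ ξ u - n₁ ξ u| + |m₂ ξ u - n₂ ξ u|)) ∂noiseP V :=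
        integral_mono (integrable_incI hG hθ₁ hθ₂ Pm₁ Pm₂ hτ o u)
          ((integrable_incI hG hθ₁ hθ₂ Pn₁ Pn₂ hτ o u).add (iall.const_mul _)) hptw
    _ = ∫ ξ, incI G κ₀ θ₁ θ₂ (n₁ ξ) (n₂ ξ) o u ∂noiseP V +
        C₀ * ∫ ξ, (|xI G θ₁ (m₁ ξ) o u - xI G θ₁ (n₁ ξ) o u| + |xI G θ₂ (m₂ ξ) o u - xI G θ₂ (n₂ ξ) o u| +
      |m₁ ξ u - n₁ ξ u| + |m₂ ξ u - n₂ ξ u|) ∂noiseP V := by
        rw [integral_add (integrable_incI hG hθ₁ hθ₂ Pn₁ Pn₂ hτ o u) (iall.const_mul _), integral_const_mul]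
    _ ≤ ∫ ξ, incI G κ₀ θ₁ θ₂ (n₁ ξ) (n₂ ξ) o u ∂noiseP V + C₀ * ((2 * Real.sqrt (c * (D + 1) ^ 2) + 2) * s) := by
        have := mul_le_mul_of_nonneg_left hall hC₀0
        linarith
    _ = _ := by ring

/-- Comparison of the left sides. -/
theorem integral_sq_diff_le {m₁ m₂ n₁ n₂ : Nz V → V → ℝ} (Pm₁ : Proc m₁) (Pm₂ : Proc m₂) (Pn₁ : Proc n₁) (Pn₂ : Proc n₂)
    (o : V) {s : ℝ} (hs : 0 ≤ s)
    (h₁ : ∫ ξ, (m₁ ξ o - n₁ ξ o) ^ 2 ∂noiseP V ≤ s ^ 2) (h₂ : ∫ ξ, (m₂ ξ o - n₂ ξ o) ^ 2 ∂noiseP V ≤ s ^ 2) :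
    ∫ ξ, (m₁ ξ o - m₂ ξ o) ^ 2 ∂noiseP V ≤ ∫ ξ, (n₁ ξ o - n₂ ξ o) ^ 2 ∂noiseP V + 8 * s := by
  have mS : Measurable (fun ξ => m₁ ξ o - n₁ ξ o) := (Pm₁.meas o).sub (Pn₁.meas o)
  have mT : Measurable (fun ξ => m₂ ξ o - n₂ ξ o) := (Pm₂.meas o).sub (Pn₂.meas o)
  have bS : ∀ ξ, |m₁ ξ o - n₁ ξ o| ≤ 2 := fun ξ => by
    have h1 := abs_le.1 (Pm₁.bd ξ o)
    have h2 := abs_le.1 (Pn₁.bd ξ o)
    rw [abs_le]; constructor <;> linarith [h1.1, h1.2, h2.1, h2.2]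
  have bT : ∀ ξ, |m₂ ξ o - n₂ ξ o| ≤ 2 := fun ξ => by
    have h1 := abs_le.1 (Pm₂.bd ξ o)
    have h2 := abs_le.1 (Pn₂.bd ξ o)
    rw [abs_le]; constructor <;> linarith [h1.1, h1.2, h2.1, h2.2]
  have iS : Integrable (fun ξ => |m₁ ξ o - n₁ ξ o|) (noiseP V) :=
    Integrable.of_bound mS.abs.aestronglyMeasurable 2 (ae_of_all _ (fun ξ => by simpa using bS ξ))
  have iT : Integrable (fun ξ => |m₂ ξ o - n₂ ξ o|) (noiseP V) :=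
    Integrable.of_bound mT.abs.aestronglyMeasurable 2 (ae_of_all _ (fun ξ => by simpa using bT ξ))
  have eS : ∫ ξ, |m₁ ξ o - n₁ ξ o| ∂noiseP V ≤ s := by
    refine (integral_abs_le_sqrt mS bS).trans ?_
    refine (Real.sqrt_le_sqrt h₁).trans ?_
    rw [Real.sqrt_sq hs]
  have eT : ∫ ξ, |m₂ ξ o - n₂ ξ o| ∂noiseP V ≤ s := by
    refine (integral_abs_le_sqrt mT bT).trans ?_
    refine (Real.sqrt_le_sqrt h₂).trans ?_
    rw [Real.sqrt_sq hs]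
  have meas2 : ∀ {a b : Nz V → V → ℝ}, Proc a → Proc b → Integrable (fun ξ => (a ξ o - b ξ o) ^ 2) (noiseP V) := by
    intro a b Pa Pb
    refine Integrable.of_bound (((Pa.meas o).sub (Pb.meas o)).pow_const 2).aestronglyMeasurable 4 (ae_of_all _ (fun ξ => ?_))
    have h1 := abs_le.1 (Pa.bd ξ o)
    have h2 := abs_le.1 (Pb.bd ξ o)
    rw [Real.norm_eq_abs, abs_of_nonneg (sq_nonneg _)]
    nlinarith [h1.1, h1.2, h2.1, h2.2]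
  have hpt : ∀ ξ, (m₁ ξ o - m₂ ξ o) ^ 2 ≤ (n₁ ξ o - n₂ ξ o) ^ 2 + 4 * (|m₁ ξ o - n₁ ξ o| + |m₂ ξ o - n₂ ξ o|) := by
    intro ξ
    have e : (m₁ ξ o - m₂ ξ o) ^ 2 - (n₁ ξ o - n₂ ξ o) ^ 2 =
        ((m₁ ξ o - n₁ ξ o) - (m₂ ξ o - n₂ ξ o)) * ((m₁ ξ o - m₂ ξ o) + (n₁ ξ o - n₂ ξ o)) := by ring
    have h1 := abs_le.1 (Pm₁.bd ξ o)
    have h2 := abs_le.1 (Pn₁.bd ξ o)
    have h3 := abs_le.1 (Pm₂.bd ξ o)
    have h4 := abs_le.1 (Pn₂.bd ξ o)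
    have h5 : |(m₁ ξ o - m₂ ξ o) + (n₁ ξ o - n₂ ξ o)| ≤ 4 := by
      rw [abs_le]; constructor <;> linarith [h1.1, h1.2, h2.1, h2.2, h3.1, h3.2, h4.1, h4.2]
    have h6 : |(m₁ ξ o - n₁ ξ o) - (m₂ ξ o - n₂ ξ o)| ≤ |m₁ ξ o - n₁ ξ o| + |m₂ ξ o - n₂ ξ o| := abs_sub _ _
    have h7 := le_abs_self ((m₁ ξ o - m₂ ξ o) ^ 2 - (n₁ ξ o - n₂ ξ o) ^ 2)
    rw [e, abs_mul] at h7
    have h8 := mul_le_mul h6 h5 (abs_nonneg _) (add_nonneg (abs_nonneg _) (abs_nonneg _))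
    rw [e] at *
    nlinarith
  have i4 : Integrable (fun ξ => 4 * (|m₁ ξ o - n₁ ξ o| + |m₂ ξ o - n₂ ξ o|)) (noiseP V) := (iS.add iT).const_mul 4
  calc ∫ ξ, (m₁ ξ o - m₂ ξ o) ^ 2 ∂noiseP V
      ≤ ∫ ξ, ((n₁ ξ o - n₂ ξ o) ^ 2 + 4 * (|m₁ ξ o - n₁ ξ o| + |m₂ ξ o - n₂ ξ o|)) ∂noiseP V :=
        integral_mono (meas2 Pm₁ Pm₂) ((meas2 Pn₁ Pn₂).add i4) hpt
    _ = ∫ ξ, (n₁ ξ o - n₂ ξ o) ^ 2 ∂noiseP V + 4 * (∫ ξ, |m₁ ξ o - n₁ ξ o| ∂noiseP V + ∫ ξ, |m₂ ξ o - n₂ ξ o| ∂noiseP V) := by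
        rw [integral_add (meas2 Pn₁ Pn₂) i4, integral_const_mul, integral_add iS iT]
    _ ≤ _ := by linarith

theorem sum_ball_eq (hG : RegTree G q) (o : V) (R : ℕ) (f : V → ℝ) :
    ∑ u ∈ ball G o R, f u = ∑ k ∈ Finset.range (R + 1), ∑ u ∈ sphere G o k, f u := by
  rw [← Finset.sum_fiberwise_of_maps_to (s := ball G o R) (t := Finset.range (R + 1)) (g := fun u => G.dist o u) ?_ f]
  · refine Finset.sum_congr rfl (fun k hk => Finset.sum_congr ?_ (fun _ _ => rfl))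
    ext u
    have hk' := Finset.mem_range.1 hk
    simp only [Finset.mem_filter, mem_ball hG, mem_sphere hG]
    constructor
    · exact fun h => h.2
    · intro h
      exact ⟨by omega, h⟩
  · intro u hu
    rw [mem_ball hG] at hu
    exact Finset.mem_range.2 (by omega)

theorem proc_mB (hκ : Sched κ) (hθ : Adm θ) (c : V) (R : ℕ) (L : ℤ) (ℓ : ℤ) (x : ℝ) :
    Proc (fun ξ => mB G θ c R L κ ℓ x ξ) where
  bd := fun ξ v => by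
    have hθ' : |θ| < 1 := by rw [abs_of_nonneg hθ.nonneg]; exact hθ.lt_one
    exact abs_mv_le hθ' (gA_pos hκ _ _) v
  meas := fun v => by
    have h1 : Measurable (fun ξ : Nz V => (x, ξ)) := measurable_const.prodMk measurable_id
    have h2 := measurable_mSt_joint (G := G) (θ := θ) (W := ball G c R) (L := L) (ℓ := ℓ) hκ v
    have h3 := h2.comp h1
    have e : (fun ξ : Nz V => mB G θ c R L κ ℓ x ξ v) = (fun q : ℝ × (Stg V → I) × (Stg V → I) => mSt G θ (ball G c R) L κ ℓ q.1 q.2.1 q.2.2 v) ∘ (fun ξ : Nz V => (x, ξ)) := by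
      funext ξ
      simp only [Function.comp, mB]
    rw [e]
    exact h3

theorem proc_mInf (hG : RegTree G q) (hq : 2 ≤ q) (hκ : Sched κ) (hθ : Adm θ) (L : ℤ) (ℓ : ℤ) (x : ℝ) :
    Proc (fun ξ => mInf G θ L κ ℓ x ξ) where
  bd := fun ξ v => abs_mInf_le hG hq hκ hθ ξ v
  meas := fun v => by
    have h1 : Measurable (fun ξ : Nz V => (x, ξ)) := measurable_const.prodMk measurable_id
    have h2 := measurable_mInf (G := G) (θ := θ) (L := L) (ℓ := ℓ) hG hq hκ v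
    have h3 := h2.comp h1
    exact h3

theorem incU_ball (hG : RegTree G q) (hκ : Sched κ) (hθ₁ : Adm θ₁) (hθ₂ : Adm θ₂) {o u : V} {R : ℕ} (hu : u ∈ ball G o R)
    (ho : o ∈ ball G o R) (ξ : Nz V) :
    incU G θ₁ θ₂ (ball G o R) (ball G o R) L₁ L₂ κ ℓ x ξ.1 ξ.2 o u =
      incI G (κ ℓ) θ₁ θ₂ (mB G θ₁ o R L₁ κ ℓ x ξ) (mB G θ₂ o R L₂ κ ℓ x ξ) o u := by
  unfold incU incI
  rw [if_pos hu, if_pos hu, cSt_eq_xI hG hκ hθ₁ ho hu ξ, cSt_eq_xI hG hκ hθ₂ ho hu ξ]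
  rfl

end IncrAux

open IncrAux in
set_option maxHeartbeats 4000000 in
/-- **The increment inequality in infinite volume.** -/
theorem incr_inf_proof (hG : RegTree G q) (hq : 2 ≤ q) (hκ : Sched κ)
    (hθ₁ : Adm θ₁) (hθ₂ : Adm θ₂) (hsub₁ : (q : ℝ) * θ₁ ^ 2 < 1) (hsub₂ : (q : ℝ) * θ₂ ^ 2 < 1) (hL₁ : L₁ ≤ ℓ) (hL₂ : L₂ ≤ ℓ)
    (hx₁ : 0 ≤ x₁) (hx : x₁ ≤ x₂) (hx₂ : x₂ ≤ 1 / 2) (o : V) {B : ℝ → ℝ} (hB : IntervalIntegrable B volume x₁ x₂)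
    (hBle : ∀ x ∈ Icc x₁ x₂, ∀ K' : ℕ, ∑ k ∈ Finset.range K', ∑ u ∈ sphere G o k,
      ∫ ξ, incI G (κ ℓ) θ₁ θ₂ (mInf G θ₁ L₁ κ ℓ x ξ) (mInf G θ₂ L₂ κ ℓ x ξ) o u ∂noiseP V ≤ B x) :
    (∫ ξ, (mInf G θ₁ L₁ κ ℓ x₂ ξ o - mInf G θ₂ L₂ κ ℓ x₂ ξ o) ^ 2 ∂noiseP V) -
      (∫ ξ, (mInf G θ₁ L₁ κ ℓ x₁ ξ o - mInf G θ₂ L₂ κ ℓ x₁ ξ o) ^ 2 ∂noiseP V) ≤ ∫ x in x₁..x₂, 2 * B x := by
  obtain ⟨C₁, Λ₁, hC₁, hΛ₁, h₁⟩ := mInf_l2 hG hq hκ hθ₁ hsub₁ L₁ ℓ hL₁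
  obtain ⟨C₂, Λ₂, hC₂, hΛ₂, h₂⟩ := mInf_l2 hG hq hκ hθ₂ hsub₂ L₂ ℓ hL₂
  obtain ⟨c, hc, hdiff⟩ := integral_incI_sub (V := V) hG
  have hq1 : 1 ≤ q := by omega
  have hθ₁' : |θ₁| < 1 := by rw [abs_of_nonneg hθ₁.nonneg]; exact hθ₁.lt_one
  have hθ₂' : |θ₂| < 1 := by rw [abs_of_nonneg hθ₂.nonneg]; exact hθ₂.lt_one
  -- uniform rate
  obtain ⟨C, hC⟩ : ∃ C, C = max C₁ C₂ := ⟨_, rfl⟩
  obtain ⟨ρ, hρ⟩ : ∃ ρ, ρ = max (1 / Λ₁) (1 / Λ₂) := ⟨_, rfl⟩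
  have hC0 : 0 < C := by rw [hC]; exact lt_max_of_lt_left hC₁
  have hρ0 : 0 < ρ := by rw [hρ]; exact lt_max_of_lt_left (by positivity)
  have hρ1 : ρ < 1 := by
    rw [hρ]
    exact max_lt (by rw [div_lt_one (by linarith)]; exact hΛ₁) (by rw [div_lt_one (by linarith)]; exact hΛ₂)
  have hCl₁ : C₁ ≤ C := by rw [hC]; exact le_max_left _ _
  have hCl₂ : C₂ ≤ C := by rw [hC]; exact le_max_right _ _
  have hρl₁ : 1 / Λ₁ ≤ ρ := by rw [hρ]; exact le_max_left _ _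
  have hρl₂ : 1 / Λ₂ ≤ ρ := by rw [hρ]; exact le_max_right _ _
  have hpowmono : ∀ {a b : ℕ}, b ≤ a → ρ ^ a ≤ ρ ^ b := fun h => pow_le_pow_of_le_one hρ0.le hρ1.le h
  have hδ₁ : ∀ x ∈ Icc (0 : ℝ) (1 / 2), ∀ (R : ℕ) (v : V), v ∈ ball G o R →
      ∫ ξ, (mB G θ₁ o R L₁ κ ℓ x ξ v - mInf G θ₁ L₁ κ ℓ x ξ v) ^ 2 ∂noiseP V ≤ C * ρ ^ (R - G.dist o v) := by
    intro x hx' R v hv
    refine (h₁ x hx' o v R hv).trans ?_
    have : (1 / Λ₁) ^ (R - G.dist o v) ≤ ρ ^ (R - G.dist o v) :=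
      pow_le_pow_left₀ (by positivity) hρl₁ _
    exact mul_le_mul hCl₁ this (by positivity) hC0.le
  have hδ₂ : ∀ x ∈ Icc (0 : ℝ) (1 / 2), ∀ (R : ℕ) (v : V), v ∈ ball G o R →
      ∫ ξ, (mB G θ₂ o R L₂ κ ℓ x ξ v - mInf G θ₂ L₂ κ ℓ x ξ v) ^ 2 ∂noiseP V ≤ C * ρ ^ (R - G.dist o v) := by
    intro x hx' R v hv
    refine (h₂ x hx' o v R hv).trans ?_
    have : (1 / Λ₂) ^ (R - G.dist o v) ≤ ρ ^ (R - G.dist o v) :=
      pow_le_pow_left₀ (by positivity) hρl₂ _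
    exact mul_le_mul hCl₂ this (by positivity) hC0.le
  -- the geometric rate on spheres
  obtain ⟨r, hr⟩ : ∃ r, r = max ((q : ℝ) * θ₁ ^ 2) ((q : ℝ) * θ₂ ^ 2) := ⟨_, rfl⟩
  have hr0 : 0 ≤ r := by rw [hr]; exact le_max_of_le_left (by positivity)
  have hr1 : r < 1 := by rw [hr]; exact max_lt hsub₁ hsub₂
  have hrl₁ : (q : ℝ) * θ₁ ^ 2 ≤ r := by rw [hr]; exact le_max_left _ _
  have hrl₂ : (q : ℝ) * θ₂ ^ 2 ≤ r := by rw [hr]; exact le_max_right _ _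
  have hτ : 0 ≤ tauK (κ ℓ) := by
    unfold tauK
    have h1 := hκ.le ℓ
    have h2 : 0 < 1 - κ ℓ := by linarith
    positivity
  obtain ⟨C₃, hC₃⟩ : ∃ C₃, C₃ = 4 * (4 * tauK (κ ℓ) + 128 * κ ℓ ^ 4) := ⟨_, rfl⟩
  have hC₃0 : 0 ≤ C₃ := by rw [hC₃]; positivity
  obtain ⟨C₀, hC₀⟩ : ∃ C₀, C₀ = 8 * tauK (κ ℓ) + 256 * κ ℓ ^ 4 := ⟨_, rfl⟩
  have hC₀0 : 0 ≤ C₀ := by rw [hC₀]; positivity
  apply le_of_forall_pos_le_add
  intro ε hε
  -- choose the cutoff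
  obtain ⟨K, hK⟩ : ∃ K : ℕ, C₃ * (r ^ K / (1 - r)) ≤ ε / 4 := by
    have h1 : Tendsto (fun K : ℕ => C₃ * (r ^ K / (1 - r))) atTop (𝓝 (C₃ * (0 / (1 - r)))) :=
      ((tendsto_pow_atTop_nhds_zero_of_lt_one hr0 hr1).div_const _).const_mul _
    have h2 : (C₃ * (0 / (1 - r))) < ε / 4 := by simpa using (by positivity : 0 < ε / 4)
    exact ((h1.eventually (gt_mem_nhds h2)).exists).imp (fun _ h => h.le)
  obtain ⟨N, hN⟩ : ∃ N : ℝ, N = ∑ k ∈ Finset.range K, ((sphere G o k).card : ℝ) := ⟨_, rfl⟩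
  have hN0 : 0 ≤ N := by rw [hN]; exact Finset.sum_nonneg (fun _ _ => by positivity)
  obtain ⟨A₀, hA₀⟩ : ∃ A₀, A₀ = 2 * Real.sqrt (c * ((K : ℝ) + 1) ^ 2) + 2 := ⟨_, rfl⟩
  have hA₀0 : 0 ≤ A₀ := by rw [hA₀]; positivity
  obtain ⟨Y, hY⟩ : ∃ Y, Y = N * (C₀ * A₀) := ⟨_, rfl⟩
  have hY0 : 0 ≤ Y := by rw [hY]; positivity
  -- the size of the error in the near range
  obtain ⟨s, hs⟩ : ∃ s, s = min (ε / 32) (ε / (4 * (Y + 1))) := ⟨_, rfl⟩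
  have hs0 : 0 < s := by rw [hs]; exact lt_min (by positivity) (by positivity)
  have hsY : Y * s ≤ ε / 4 := by
    have h1 : s ≤ ε / (4 * (Y + 1)) := by rw [hs]; exact min_le_right _ _
    have h2 : (Y + 1) * s ≤ (Y + 1) * (ε / (4 * (Y + 1))) := mul_le_mul_of_nonneg_left h1 (by positivity)
    have h3 : (Y + 1) * (ε / (4 * (Y + 1))) = ε / 4 := by
      field_simp
    nlinarith
  have hs32 : 16 * s ≤ ε / 2 := by
    have h1 : s ≤ ε / 32 := by rw [hs]; exact min_le_left _ _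
    linarith
  obtain ⟨n₀, hn₀⟩ : ∃ n₀ : ℕ, C * ρ ^ n₀ ≤ s ^ 2 := by
    have h1 : Tendsto (fun n : ℕ => C * ρ ^ n) atTop (𝓝 (C * 0)) :=
      (tendsto_pow_atTop_nhds_zero_of_lt_one hρ0.le hρ1).const_mul _
    have h2 : (C * 0) < s ^ 2 := by simpa using (by positivity : 0 < s ^ 2)
    exact ((h1.eventually (gt_mem_nhds h2)).exists).imp (fun _ h => h.le)
  obtain ⟨R, hR⟩ : ∃ R, R = K + n₀ := ⟨_, rfl⟩
  have hoR : o ∈ ball G o R := by rw [mem_ball hG, SimpleGraph.dist_self]; exact Nat.zero_le _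
  -- the bound on the ball
  have hrate₁ : ∀ x ∈ Icc (0 : ℝ) (1 / 2), ∀ v, G.dist o v ≤ K →
      ∫ ξ, (mB G θ₁ o R L₁ κ ℓ x ξ v - mInf G θ₁ L₁ κ ℓ x ξ v) ^ 2 ∂noiseP V ≤ s ^ 2 := by
    intro x hx' v hv
    refine (hδ₁ x hx' R v ((mem_ball hG o R v).2 (by omega))).trans (le_trans ?_ hn₀)
    exact mul_le_mul_of_nonneg_left (hpowmono (by omega)) hC0.le
  have hrate₂ : ∀ x ∈ Icc (0 : ℝ) (1 / 2), ∀ v, G.dist o v ≤ K →
      ∫ ξ, (mB G θ₂ o R L₂ κ ℓ x ξ v - mInf G θ₂ L₂ κ ℓ x ξ v) ^ 2 ∂noiseP V ≤ s ^ 2 := by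
    intro x hx' v hv
    refine (hδ₂ x hx' R v ((mem_ball hG o R v).2 (by omega))).trans (le_trans ?_ hn₀)
    exact mul_le_mul_of_nonneg_left (hpowmono (by omega)) hC0.le
  -- near range and tail
  have hnear : ∀ x ∈ Icc (0 : ℝ) (1 / 2), ∀ k ∈ Finset.range K,
      ∑ u ∈ sphere G o k, ∫ ξ, incI G (κ ℓ) θ₁ θ₂ (mB G θ₁ o R L₁ κ ℓ x ξ) (mB G θ₂ o R L₂ κ ℓ x ξ) o u ∂noiseP V ≤
      ∑ u ∈ sphere G o k, ∫ ξ, incI G (κ ℓ) θ₁ θ₂ (mInf G θ₁ L₁ κ ℓ x ξ) (mInf G θ₂ L₂ κ ℓ x ξ) o u ∂noiseP V +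
        ((sphere G o k).card : ℝ) * (C₀ * A₀ * s) := by
    intro x hx' k hk
    have hk' := Finset.mem_range.1 hk
    have : ∀ u ∈ sphere G o k,
        ∫ ξ, incI G (κ ℓ) θ₁ θ₂ (mB G θ₁ o R L₁ κ ℓ x ξ) (mB G θ₂ o R L₂ κ ℓ x ξ) o u ∂noiseP V ≤
        ∫ ξ, incI G (κ ℓ) θ₁ θ₂ (mInf G θ₁ L₁ κ ℓ x ξ) (mInf G θ₂ L₂ κ ℓ x ξ) o u ∂noiseP V + C₀ * A₀ * s := by
      intro u hu
      have hd := (mem_sphere hG o k u).1 hu
      have hdK : G.dist o u ≤ K := by omega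
      rw [hC₀, hA₀]
      refine hdiff θ₁ θ₂ hθ₁ hθ₂ _ _ _ _ (proc_mB hκ hθ₁ o R L₁ ℓ x) (proc_mB hκ hθ₂ o R L₂ ℓ x)
        (proc_mInf hG hq hκ hθ₁ L₁ ℓ x) (proc_mInf hG hq hκ hθ₂ L₂ ℓ x) (κ ℓ) hτ o u K hdK s hs0.le ?_ ?_
      · intro j hj
        exact hrate₁ x hx' _ (by rw [dist_geo_left hG o u hj]; omega)
      · intro j hj
        exact hrate₂ x hx' _ (by rw [dist_geo_left hG o u hj]; omega)
    refine (Finset.sum_le_sum this).trans ?_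
    rw [Finset.sum_add_distrib, Finset.sum_const, nsmul_eq_mul]
  have hF : ∀ x ∈ Icc x₁ x₂, ∑ u ∈ ball G o R ∪ ball G o R,
      ∫ q, incU G θ₁ θ₂ (ball G o R) (ball G o R) L₁ L₂ κ ℓ x q.1 q.2 o u ∂noiseP V ≤ B x + ε / 2 := by
    intro x hxx
    have hx' : x ∈ Icc (0 : ℝ) (1 / 2) := ⟨hx₁.trans hxx.1, hxx.2.trans hx₂⟩
    rw [Finset.union_self]
    have e1 : ∀ u ∈ ball G o R, ∫ q, incU G θ₁ θ₂ (ball G o R) (ball G o R) L₁ L₂ κ ℓ x q.1 q.2 o u ∂noiseP V =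
        ∫ ξ, incI G (κ ℓ) θ₁ θ₂ (mB G θ₁ o R L₁ κ ℓ x ξ) (mB G θ₂ o R L₂ κ ℓ x ξ) o u ∂noiseP V := by
      intro u hu
      exact integral_congr_ae (ae_of_all _ (fun ξ => incU_ball hG hκ hθ₁ hθ₂ hu hoR ξ))
    rw [Finset.sum_congr rfl e1, sum_ball_eq hG o R, ← Finset.sum_range_add_sum_Ico _ (by omega : K ≤ R + 1)]
    have p1 := Finset.sum_le_sum (hnear x hx')
    rw [Finset.sum_add_distrib, ← Finset.sum_mul] at p1
    have p2 : ∑ k ∈ Finset.Ico K (R + 1), ∑ u ∈ sphere G o k, ∫ ξ, incI G (κ ℓ) θ₁ θ₂ (mB G θ₁ o R L₁ κ ℓ x ξ) (mB G θ₂ o R L₂ κ ℓ x ξ) o u ∂noiseP V ≤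
        ε / 4 := by
      calc _ ≤ ∑ k ∈ Finset.Ico K (R + 1), C₃ * r ^ k :=
            Finset.sum_le_sum (fun k _ => by
              rw [hC₃]
              exact sum_sphere_incI_le hG hq1 hθ₁ hθ₂ (proc_mB hκ hθ₁ o R L₁ ℓ x) (proc_mB hκ hθ₂ o R L₂ ℓ x) hτ o k hrl₁ hrl₂)
        _ = C₃ * ∑ k ∈ Finset.Ico K (R + 1), r ^ k := by rw [Finset.mul_sum]
        _ ≤ C₃ * (r ^ K / (1 - r)) := mul_le_mul_of_nonneg_left (geom_sum_Ico_le_of_lt_one hr0 hr1) hC₃0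
        _ ≤ _ := hK
    have p3 := hBle x hxx K
    have p4 : N * (C₀ * A₀ * s) = Y * s := by rw [hY]; ring
    rw [← hN, p4] at p1
    linarith
  -- the two sides of the inequality
  have hend₁ : ∀ x ∈ Icc (0 : ℝ) (1 / 2),
      ∫ ξ, (mB G θ₁ o R L₁ κ ℓ x ξ o - mInf G θ₁ L₁ κ ℓ x ξ o) ^ 2 ∂noiseP V ≤ s ^ 2 := fun x hx' =>
    hrate₁ x hx' o (by rw [SimpleGraph.dist_self]; exact Nat.zero_le _)
  have hend₂ : ∀ x ∈ Icc (0 : ℝ) (1 / 2),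
      ∫ ξ, (mB G θ₂ o R L₂ κ ℓ x ξ o - mInf G θ₂ L₂ κ ℓ x ξ o) ^ 2 ∂noiseP V ≤ s ^ 2 := fun x hx' =>
    hrate₂ x hx' o (by rw [SimpleGraph.dist_self]; exact Nat.zero_le _)
  have hmem₂ : x₂ ∈ Icc (0 : ℝ) (1 / 2) := ⟨hx₁.trans hx, hx₂⟩
  have hmem₁ : x₁ ∈ Icc (0 : ℝ) (1 / 2) := ⟨hx₁, hx.trans hx₂⟩
  have hsym : ∀ {a b : ℝ}, (a - b) ^ 2 = (b - a) ^ 2 := fun {a b} => by ring
  have hup : ∫ ξ, (mInf G θ₁ L₁ κ ℓ x₂ ξ o - mInf G θ₂ L₂ κ ℓ x₂ ξ o) ^ 2 ∂noiseP V ≤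
      ∫ ξ, (mB G θ₁ o R L₁ κ ℓ x₂ ξ o - mB G θ₂ o R L₂ κ ℓ x₂ ξ o) ^ 2 ∂noiseP V + 8 * s := by
    refine integral_sq_diff_le (proc_mInf hG hq hκ hθ₁ L₁ ℓ x₂) (proc_mInf hG hq hκ hθ₂ L₂ ℓ x₂)
      (proc_mB hκ hθ₁ o R L₁ ℓ x₂) (proc_mB hκ hθ₂ o R L₂ ℓ x₂) o hs0.le ?_ ?_
    · simp_rw [hsym (a := mInf G θ₁ L₁ κ ℓ x₂ _ o)]
      exact hend₁ x₂ hmem₂
    · simp_rw [hsym (a := mInf G θ₂ L₂ κ ℓ x₂ _ o)]
      exact hend₂ x₂ hmem₂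
  have hdn : ∫ ξ, (mB G θ₁ o R L₁ κ ℓ x₁ ξ o - mB G θ₂ o R L₂ κ ℓ x₁ ξ o) ^ 2 ∂noiseP V ≤
      ∫ ξ, (mInf G θ₁ L₁ κ ℓ x₁ ξ o - mInf G θ₂ L₂ κ ℓ x₁ ξ o) ^ 2 ∂noiseP V + 8 * s :=
    integral_sq_diff_le (proc_mB hκ hθ₁ o R L₁ ℓ x₁) (proc_mB hκ hθ₂ o R L₂ ℓ x₁)
      (proc_mInf hG hq hκ hθ₁ L₁ ℓ x₁) (proc_mInf hG hq hκ hθ₂ L₂ ℓ x₁) o hs0.le (hend₁ x₁ hmem₁) (hend₂ x₁ hmem₁)
  -- increment on the ball
  have hinc := increment (G := G) (W₁ := ball G o R) (W₂ := ball G o R) (L₁ := L₁) (L₂ := L₂) hκ hθ₁' hθ₂' hL₁ hL₂ hx₁ hx hx₂ hoR hoR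
  have hintF : IntervalIntegrable (fun x => 2 * ∑ u ∈ ball G o R ∪ ball G o R,
      ∫ q, incU G θ₁ θ₂ (ball G o R) (ball G o R) L₁ L₂ κ ℓ x q.1 q.2 o u ∂noiseP V) volume x₁ x₂ := by
    have h1 := IntervalIntegrable.sum (μ := volume) (a := x₁) (b := x₂) (ball G o R ∪ ball G o R)
      (f := fun u x => ∫ q, incU G θ₁ θ₂ (ball G o R) (ball G o R) L₁ L₂ κ ℓ x q.1 q.2 o u ∂noiseP V)
      (fun u _ => intervalIntegrable_incU hκ hθ₁' hθ₂' o u x₁ x₂)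
    have h2 := h1.const_mul 2
    refine h2.congr ?_
    intro x _
    simp only [Finset.sum_apply]
  have hint2B : IntervalIntegrable (fun x => 2 * B x + 2 * (ε / 2)) volume x₁ x₂ :=
    (hB.const_mul 2).add intervalIntegrable_const
  have hmono := intervalIntegral.integral_mono_on hx hintF hint2B (fun x hxx => by
    have := hF x hxx
    linarith)
  have hval : ∫ x in x₁..x₂, (2 * B x + 2 * (ε / 2)) = (∫ x in x₁..x₂, 2 * B x) + (x₂ - x₁) * (2 * (ε / 2)) := by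
    rw [intervalIntegral.integral_add (hB.const_mul 2) intervalIntegrable_const, intervalIntegral.integral_const, smul_eq_mul]
  have hlen : (x₂ - x₁) * (2 * (ε / 2)) ≤ ε / 2 := by nlinarith
  -- conclusion
  have hinc' : ∫ ξ, (mB G θ₁ o R L₁ κ ℓ x₂ ξ o - mB G θ₂ o R L₂ κ ℓ x₂ ξ o) ^ 2 ∂noiseP V -
      ∫ ξ, (mB G θ₁ o R L₁ κ ℓ x₁ ξ o - mB G θ₂ o R L₂ κ ℓ x₁ ξ o) ^ 2 ∂noiseP V ≤ ∫ x in x₁..x₂, (2 * B x + 2 * (ε / 2)) :=
    hinc.trans hmono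
  linarith


section strict

variable (hG : RegTree G q) (hq : 2 ≤ q) (hκ : Sched κ)
include hG hq hκ

/-- **The increment inequality in infinite volume.** Any bound `B` of the partial sums over spheres can be used.
Proof: `increment` on `W = ball o R` for both parameters, `cSt_eq_xI`; as `R → ∞` the left side converges by `mInf_l2`.
On the right the sum over `k < K'` converges by `mInf_l2` and `xI_lip`, and the sum over `k ≥ K'` is at most a tail of the convergent series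
`∑ (q+1) q^(k-1) (θ₁^(2k) + θ₂^(2k))` uniformly in `R`, `x`. -/
theorem incr_inf (hθ₁ : Adm θ₁) (hθ₂ : Adm θ₂) (hsub₁ : (q : ℝ) * θ₁ ^ 2 < 1) (hsub₂ : (q : ℝ) * θ₂ ^ 2 < 1) (hL₁ : L₁ ≤ ℓ) (hL₂ : L₂ ≤ ℓ)
    (hx₁ : 0 ≤ x₁) (hx : x₁ ≤ x₂) (hx₂ : x₂ ≤ 1 / 2) (o : V) {B : ℝ → ℝ} (hB : IntervalIntegrable B volume x₁ x₂)
    (hBle : ∀ x ∈ Icc x₁ x₂, ∀ K' : ℕ, ∑ k ∈ Finset.range K', ∑ u ∈ sphere G o k,
      ∫ ξ, incI G (κ ℓ) θ₁ θ₂ (mInf G θ₁ L₁ κ ℓ x ξ) (mInf G θ₂ L₂ κ ℓ x ξ) o u ∂noiseP V ≤ B x) :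
    (∫ ξ, (mInf G θ₁ L₁ κ ℓ x₂ ξ o - mInf G θ₂ L₂ κ ℓ x₂ ξ o) ^ 2 ∂noiseP V) -
      (∫ ξ, (mInf G θ₁ L₁ κ ℓ x₁ ξ o - mInf G θ₂ L₂ κ ℓ x₁ ξ o) ^ 2 ∂noiseP V) ≤ ∫ x in x₁..x₂, 2 * B x :=
  incr_inf_proof hG hq hκ hθ₁ hθ₂ hsub₁ hsub₂ hL₁ hL₂ hx₁ hx hx₂ o hB hBle

/-! ### Transfer of the static bounds -/

omit hG hq in
private theorem abs_mB_le_tr (hθ : Adm θ) (c : V) (R : ℕ) (ξ : Nz V) (v : V) : |mB G θ c R L κ ℓ x ξ v| ≤ 1 := by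
  have hθ1 : |θ| < 1 := by rw [abs_of_nonneg hθ.nonneg]; exact hθ.lt_one
  exact abs_mv_le hθ1 (gA_pos hκ _ _) v

omit hq hG in
private theorem measurable_mB_tr (c : V) (R : ℕ) (v : V) : Measurable (fun ξ : Nz V => mB G θ c R L κ ℓ x ξ v) := by
  have h := measurable_mSt_joint (G := G) (θ := θ) (W := ball G c R) (L := L) (κ := κ) (ℓ := ℓ) hκ v
  have h2 : Measurable (fun ξ : Nz V => ((x, ξ) : ℝ × Nz V)) := measurable_const.prodMk measurable_id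
  have h3 := h.comp h2
  have e : (fun ξ : Nz V => mB G θ c R L κ ℓ x ξ v) = (fun q : ℝ × (Stg V → I) × (Stg V → I) => mSt G θ (ball G c R) L κ ℓ q.1 q.2.1 q.2.2 v) ∘ (fun ξ : Nz V => ((x, ξ) : ℝ × Nz V)) := by
    funext ξ
    rfl
  rw [e]
  exact h3

private theorem measurable_mInf_x (v : V) : Measurable (fun ξ : Nz V => mInf G θ L κ ℓ x ξ v) := by
  have h := measurable_mInf hG hq hκ (θ := θ) (L := L) (ℓ := ℓ) v
  have h2 : Measurable (fun ξ : Nz V => ((x, ξ) : ℝ × Nz V)) := measurable_const.prodMk measurable_id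
  have h3 := h.comp h2
  have e : (fun ξ : Nz V => mInf G θ L κ ℓ x ξ v) = (fun p : ℝ × Nz V => mInf G θ L κ ℓ p.1 p.2 v) ∘ (fun ξ : Nz V => ((x, ξ) : ℝ × Nz V)) := by
    funext ξ
    rfl
  rw [e]
  exact h3


omit hG hq in
private theorem refines_gS {L₂ : ℤ} (hLL : L₂ ≤ L) (hL : L ≤ ℓ) (hx0 : 0 ≤ x) (hx : x ≤ 1 / 2) :
    Refines (blS (V := V)) flS (gS (V := V) L κ ℓ x) (gS (V := V) L₂ κ ℓ x) := by
  have hEg := exper_gS (V := V) (L := L) (ℓ := ℓ) hκ hx0 hx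
  have hEh := exper_gS (V := V) (L := L₂) (ℓ := L) (x := 0) hκ le_rfl (by norm_num)
  refine ⟨hEg, exper_gS (V := V) (L := L₂) (ℓ := ℓ) hκ hx0 hx, gS (V := V) L₂ κ L 0, hEh, ?_, ?_, ?_⟩
  · intro v s ω
    unfold gS
    have hsplit : Finset.Icc L₂ ℓ = Finset.Ico L₂ L ∪ Finset.Icc L ℓ := by
      ext i; simp only [Finset.mem_Icc, Finset.mem_union, Finset.mem_Ico]; omega
    have hdisj : Disjoint (Finset.Ico L₂ L) (Finset.Icc L ℓ) := by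
      rw [Finset.disjoint_left]; intro i hi hi'
      simp only [Finset.mem_Icc, Finset.mem_Ico] at hi hi'; omega
    have hsplit2 : Finset.Icc L₂ L = insert L (Finset.Ico L₂ L) := by
      ext i; simp only [Finset.mem_Icc, Finset.mem_insert, Finset.mem_Ico]; omega
    rw [hsplit, Finset.prod_union hdisj, hsplit2, Finset.prod_insert (by simp), mul_comm]
    have hL0 : ∀ u : I, ¬ actS L 0 L u := by
      intro u h
      rcases h with h | h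
      · exact lt_irrefl _ h.1
      · have : (0:ℝ) ≤ u := u.2.1
        linarith [h.2]
    rw [if_neg (hL0 _), one_mul]
    congr 1
    refine Finset.prod_congr rfl fun i hi => ?_
    have hi' := Finset.mem_Ico.1 hi
    have hiff : ∀ u : I, actS ℓ x i u ↔ actS L 0 i u := by
      intro u
      unfold actS
      constructor
      · rintro (h | h)
        · exact Or.inl ⟨hi'.2, h.2⟩
        · exfalso; omega
      · rintro (h | h)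
        · exact Or.inl ⟨by omega, h.2⟩
        · exfalso; omega
    simp only [hiff]
  · intro v s s'
    have hB : DepS (gS (V := V) L κ ℓ x v s) {j | ∃ i, L ≤ i ∧ (j = Sum.inl (v, i) ∨ j = Sum.inr (v, i))} := by
      intro ω ω' hω
      unfold gS
      refine Finset.prod_congr rfl fun i hi => ?_
      have hi' := (Finset.mem_Icc.1 hi).1
      rw [hω (Sum.inl (v, i)) ⟨i, hi', Or.inl rfl⟩, hω (Sum.inr (v, i)) ⟨i, hi', Or.inr rfl⟩]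
    have hB' : DepS (gS (V := V) L₂ κ L 0 v s') {j | ∃ i, i < L ∧ (j = Sum.inl (v, i) ∨ j = Sum.inr (v, i))} := by
      intro ω ω' hω
      unfold gS
      refine Finset.prod_congr rfl fun i hi => ?_
      have hi' := (Finset.mem_Icc.1 hi).2
      rcases hi'.lt_or_eq with h | h
      · rw [hω (Sum.inl (v, i)) ⟨i, h, Or.inl rfl⟩, hω (Sum.inr (v, i)) ⟨i, h, Or.inr rfl⟩]
      · subst h
        have hL0 : ∀ u : I, ¬ actS i 0 i u := by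
          intro u h
          rcases h with h | h
          · exact lt_irrefl _ h.1
          · have : (0:ℝ) ≤ u := u.2.1
            linarith [h.2]
        rw [if_neg (hL0 _), if_neg (hL0 _)]
    have hdisj : Disjoint {j : JJ V | ∃ i, L ≤ i ∧ (j = Sum.inl (v, i) ∨ j = Sum.inr (v, i))}
        {j : JJ V | ∃ i, i < L ∧ (j = Sum.inl (v, i) ∨ j = Sum.inr (v, i))} := by
      rw [Set.disjoint_left]
      rintro j ⟨i, hi, h⟩ ⟨i', hi', h'⟩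
      rcases h with rfl | rfl <;> rcases h' with h' | h' <;> simp only [Sum.inl.injEq, Sum.inr.injEq, reduceCtorEq, Prod.mk.injEq] at h'
      · omega
      · omega
    rw [integral_mul_indep (hEg.bm v s) (hEh.bm v s') hB hB' hdisj, hEg.mean, hEh.mean, one_mul]
  · intro v
    refine ⟨{j | ∃ i, L ≤ i ∧ (j = Sum.inl (v, i) ∨ j = Sum.inr (v, i))}, {j | ∃ i, i < L ∧ (j = Sum.inl (v, i) ∨ j = Sum.inr (v, i))}, ?_, ?_, ?_⟩
    · rw [Set.disjoint_left]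
      rintro j ⟨i, hi, h⟩ ⟨i', hi', h'⟩
      rcases h with rfl | rfl <;> rcases h' with h' | h' <;> simp only [Sum.inl.injEq, Sum.inr.injEq, reduceCtorEq, Prod.mk.injEq] at h'
      · omega
      · omega
    · intro s ω ω' hω
      unfold gS
      refine Finset.prod_congr rfl fun i hi => ?_
      have hi' := (Finset.mem_Icc.1 hi).1
      rw [hω (Sum.inl (v, i)) ⟨i, hi', Or.inl rfl⟩, hω (Sum.inr (v, i)) ⟨i, hi', Or.inr rfl⟩]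
    · intro s ω ω' hω
      unfold gS
      refine Finset.prod_congr rfl fun i hi => ?_
      have hi' := (Finset.mem_Icc.1 hi).2
      rcases hi'.lt_or_eq with h | h
      · rw [hω (Sum.inl (v, i)) ⟨i, h, Or.inl rfl⟩, hω (Sum.inr (v, i)) ⟨i, h, Or.inr rfl⟩]
      · subst h
        have hL0 : ∀ u : I, ¬ actS i 0 i u := by
          intro u h
          rcases h with h | h
          · exact lt_irrefl _ h.1
          · have : (0:ℝ) ≤ u := u.2.1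
            linarith [h.2]
        rw [if_neg (hL0 _), if_neg (hL0 _)]

/-- Almost sure convergence of the ball means. -/
private theorem mB_ae_tendsto (hθ : Adm θ) (hsub : (q : ℝ) * θ ^ 2 < 1) (hL : L ≤ ℓ) (hx0 : 0 ≤ x) (hx : x ≤ 1 / 2) (c v : V) :
    ∀ᵐ ξ ∂noiseP V, Filter.Tendsto (fun R => mB G θ c R L κ ℓ x ξ v) atTop (𝓝 (mInf G θ L κ ℓ x ξ v)) := by
  obtain ⟨C, Λ, hC, hΛ, h⟩ := mInf_l2 hG hq hκ hθ hsub L ℓ hL
  refine TransferAux.ae_tendsto_of_l2 (fun k => measurable_mB_tr hκ (c := c) (R := k) v)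
    (measurable_mInf_x hG hq hκ v) (fun k ξ => abs_mB_le_tr hκ hθ c k ξ v)
    (fun ξ => abs_mInf_le hG hq hκ hθ ξ v) hC hΛ (R₀ := G.dist c v) ?_
  intro k hk
  exact h x ⟨hx0, hx⟩ c v k ((mem_ball hG c k v).2 hk)

omit hG hq hκ in
private theorem tendsto_cav (hθ : Adm θ) {s t : ℕ → ℝ} {s₀ t₀ : ℝ} (hs : ∀ k, |s k| ≤ 1) (ht : ∀ k, |t k| ≤ 1)
    (hs₀ : |s₀| ≤ 1) (ht₀ : |t₀| ≤ 1) (h1 : Filter.Tendsto s atTop (𝓝 s₀)) (h2 : Filter.Tendsto t atTop (𝓝 t₀)) :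
    Filter.Tendsto (fun k => cav θ (s k) (t k)) atTop (𝓝 (cav θ s₀ t₀)) := by
  obtain ⟨c, hc, hl⟩ := cav_lip
  rw [tendsto_iff_dist_tendsto_zero]
  have h3 : Filter.Tendsto (fun k => c * (|s k - s₀| + |t k - t₀| + |θ - θ|)) atTop (𝓝 (c * (0 + 0 + |θ - θ|))) := by
    refine Filter.Tendsto.const_mul _ (((?_ : Filter.Tendsto _ _ _).add ?_).add tendsto_const_nhds)
    · simpa [Real.dist_eq] using (tendsto_iff_dist_tendsto_zero.1 h1)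
    · simpa [Real.dist_eq] using (tendsto_iff_dist_tendsto_zero.1 h2)
  simp only [sub_self, abs_zero, add_zero, mul_zero] at h3
  refine squeeze_zero (fun _ => dist_nonneg) (fun k => ?_) (by simpa using h3)
  rw [Real.dist_eq]
  simpa using hl θ θ _ _ _ _ hθ hθ (hs k) (ht k) hs₀ ht₀

omit hG hq hκ in
private theorem tendsto_rr (hθ : Adm θ) {s t : ℕ → ℝ} {s₀ t₀ : ℝ} (hs : ∀ k, |s k| ≤ 1) (ht : ∀ k, |t k| ≤ 1)
    (hs₀ : |s₀| ≤ 1) (ht₀ : |t₀| ≤ 1) (h1 : Filter.Tendsto s atTop (𝓝 s₀)) (h2 : Filter.Tendsto t atTop (𝓝 t₀)) :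
    Filter.Tendsto (fun k => rr θ (s k) (t k)) atTop (𝓝 (rr θ s₀ t₀)) := by
  obtain ⟨c, hc, hl⟩ := rr_lip
  rw [tendsto_iff_dist_tendsto_zero]
  have h3 : Filter.Tendsto (fun k => c * (|s k - s₀| + |t k - t₀| + |θ - θ|)) atTop (𝓝 (c * (0 + 0 + |θ - θ|))) := by
    refine Filter.Tendsto.const_mul _ (((?_ : Filter.Tendsto _ _ _).add ?_).add tendsto_const_nhds)
    · simpa [Real.dist_eq] using (tendsto_iff_dist_tendsto_zero.1 h1)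
    · simpa [Real.dist_eq] using (tendsto_iff_dist_tendsto_zero.1 h2)
  simp only [sub_self, abs_zero, add_zero, mul_zero] at h3
  refine squeeze_zero (fun _ => dist_nonneg) (fun k => ?_) (by simpa using h3)
  rw [Real.dist_eq]
  simpa using hl θ θ _ _ _ _ hθ hθ (hs k) (ht k) hs₀ ht₀

omit hG hq hκ in
private theorem measurable_cavM_of (m : Nz V → V → ℝ) {a b : V} (hma : Measurable fun ξ => m ξ a) (hmb : Measurable fun ξ => m ξ b) :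
    Measurable (fun ξ => cavM θ (m ξ) a b) := by
  have h3 := (measurable_cav θ).comp (hma.prodMk hmb)
  have e : (fun ξ => cavM θ (m ξ) a b) = (fun p : ℝ × ℝ => cav θ p.1 p.2) ∘ (fun ξ => (m ξ a, m ξ b)) := rfl
  rw [e]
  exact h3

omit hG hq hκ in
private theorem measurable_rr_of {f g : Nz V → ℝ} (hf : Measurable f) (hg : Measurable g) :
    Measurable (fun ξ => rr θ (f ξ) (g ξ)) := by
  have h3 := (measurable_rr θ).comp (hf.prodMk hg)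
  have e : (fun ξ => rr θ (f ξ) (g ξ)) = (fun p : ℝ × ℝ => rr θ p.1 p.2) ∘ (fun ξ => (f ξ, g ξ)) := rfl
  rw [e]
  exact h3

omit hq hκ in
private theorem shellM_eq_prod (m : V → ℝ) (l : ℕ) (a b : V) :
    shellM G θ m l a b = ∑ u ∈ level G l a b,
      (∏ j ∈ Finset.range (G.dist b u), rr θ (m (geo G b u j)) (m (geo G b u (j + 1)))) ^ 2 := by
  unfold shellM
  refine Finset.sum_congr rfl fun u _ => ?_
  rw [pathProd_eq_prod hG]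

omit hq hκ in
private theorem measurable_shellM_of (m : Nz V → V → ℝ) (hm : ∀ v, Measurable fun ξ => m ξ v) (l : ℕ) (a b : V) :
    Measurable (fun ξ => shellM G θ (m ξ) l a b) := by
  have e : (fun ξ => shellM G θ (m ξ) l a b) = fun ξ => ∑ u ∈ level G l a b,
      (∏ j ∈ Finset.range (G.dist b u), rr θ (m ξ (geo G b u j)) (m ξ (geo G b u (j + 1)))) ^ 2 :=
    funext fun ξ => shellM_eq_prod hG (m ξ) l a b
  rw [e]
  refine Finset.measurable_sum _ fun u _ => ?_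
  refine (Finset.measurable_prod _ fun j _ => ?_).pow_const 2
  exact measurable_rr_of (hm _) (hm _)

omit hq hκ in
private theorem tendsto_shellM (hθ : Adm θ) {m : ℕ → V → ℝ} {m₀ : V → ℝ} (hm : ∀ k v, |m k v| ≤ 1) (hm₀ : ∀ v, |m₀ v| ≤ 1)
    (l : ℕ) (a b : V) (hlim : ∀ u ∈ level G l a b, ∀ j ∈ Finset.range (G.dist b u + 1),
      Filter.Tendsto (fun k => m k (geo G b u j)) atTop (𝓝 (m₀ (geo G b u j)))) :
    Filter.Tendsto (fun k => shellM G θ (m k) l a b) atTop (𝓝 (shellM G θ m₀ l a b)) := by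
  rw [shellM_eq_prod hG m₀ l a b]
  have e : (fun k => shellM G θ (m k) l a b) = fun k => ∑ u ∈ level G l a b,
      (∏ j ∈ Finset.range (G.dist b u), rr θ (m k (geo G b u j)) (m k (geo G b u (j + 1)))) ^ 2 :=
    funext fun k => shellM_eq_prod hG (m k) l a b
  rw [e]
  refine tendsto_finsetSum _ fun u hu => ?_
  refine Filter.Tendsto.pow (tendsto_finsetProd _ fun j hj => ?_) 2
  have hj' := Finset.mem_range.1 hj
  exact tendsto_rr hθ (fun k => hm k _) (fun k => hm k _) (hm₀ _) (hm₀ _)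
    (hlim u hu j (Finset.mem_range.2 (by omega))) (hlim u hu (j + 1) (Finset.mem_range.2 (by omega)))

theorem tail_cav_inf (hθ : Adm θ) (hsub : (q : ℝ) * θ ^ 2 < 1) (hL : L ≤ ℓ) (hx0 : 0 ≤ x) (hx : x ≤ 1 / 2)
    {r : ℝ} (hr0 : 0 < r) (hr : r ≤ 1 / 6) (hτ : tauP L κ ℓ ≤ r ^ 3) {a b : V} (hab : G.Adj a b) {p : ℝ} (hp : 1 ≤ p) :
    ∫ ξ, (if 36 * r * p < cavM θ (mInf G θ L κ ℓ x ξ) a b ^ 2 then (1:ℝ) else 0) ∂noiseP V ≤ 2 * Real.exp (-p) := by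
  have hinf := abs_mInf_le hG hq hκ (L := L) (ℓ := ℓ) (x := x) hθ
  refine TransferAux.indicator_le_of_ae_tendsto (k₀ := 1)
    (Y := fun k ξ => cavM θ (mB G θ a k L κ ℓ x ξ) a b ^ 2)
    (fun k => (measurable_cavM_of (fun ξ => mB G θ a k L κ ℓ x ξ) (measurable_mB_tr hκ a k a) (measurable_mB_tr hκ a k b)).pow_const 2)
    ((measurable_cavM_of (fun ξ => mInf G θ L κ ℓ x ξ) (measurable_mInf_x hG hq hκ a) (measurable_mInf_x hG hq hκ b)).pow_const 2)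
    ?_ (by positivity) ?_
  · filter_upwards [mB_ae_tendsto hG hq hκ hθ hsub hL hx0 hx a a, mB_ae_tendsto hG hq hκ hθ hsub hL hx0 hx a b] with ξ h1 h2
    exact (tendsto_cav hθ (fun k => abs_mB_le_tr hκ hθ a k ξ a) (fun k => abs_mB_le_tr hκ hθ a k ξ b)
      (hinf ξ a) (hinf ξ b) h1 h2).pow 2
  · intro k hk
    have hd : G.dist a b = G.dist a a + 1 := by simp [SimpleGraph.dist_eq_one_iff_adj.2 hab]
    have hRb : G.dist a b ≤ k := by rw [SimpleGraph.dist_eq_one_iff_adj.2 hab]; exact hk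
    exact tail_cav hG hκ hθ hsub.le hx0 hx hL hr0 hr hτ hab hd hRb hp

theorem second_moment_inf (hθ : Adm θ) (hsub : (q : ℝ) * θ ^ 2 < 1) (hL : L ≤ ℓ) (hx0 : 0 ≤ x) (hx : x ≤ 1 / 2)
    {r : ℝ} (hr0 : 0 < r) (hr : r ≤ 1 / 6) (hτ : tauP L κ ℓ ≤ r ^ 3) (c : V) :
    ∫ ξ, mInf G θ L κ ℓ x ξ c ^ 2 ∂noiseP V ≤ 1000 * r := by
  have hinf := abs_mInf_le hG hq hκ (L := L) (ℓ := ℓ) (x := x) hθ
  have hlim : ∀ᵐ ξ ∂noiseP V, Filter.Tendsto (fun k => mB G θ c k L κ ℓ x ξ c ^ 2) atTop (𝓝 (mInf G θ L κ ℓ x ξ c ^ 2)) := by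
    filter_upwards [mB_ae_tendsto hG hq hκ hθ hsub hL hx0 hx c c] with ξ h1
    exact h1.pow 2
  have ht := TransferAux.integral_le_of_ae_tendsto (P := noiseP V) (Y := fun k ξ => mB G θ c k L κ ℓ x ξ c ^ 2)
    (fun k => (measurable_mB_tr hκ c k c).pow_const 2) hlim (M := 1) (fun k ξ => by
      rw [abs_of_nonneg (sq_nonneg _)]
      have := abs_le.1 (abs_mB_le_tr (G := G) hκ hθ (L := L) (ℓ := ℓ) (x := x) c k ξ c)
      nlinarith [this.1, this.2])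
  refine le_of_tendsto ht ?_
  filter_upwards [Filter.eventually_ge_atTop 1] with k hk
  exact second_moment_mSt hG hκ hθ hsub.le hx0 hx hL hr0 hr hτ hk

theorem tail_shell_inf (hθ : Adm θ) (hsub : (q : ℝ) * θ ^ 2 < 1) (hL : L ≤ ℓ) (hx0 : 0 ≤ x) (hx : x ≤ 1 / 2)
    {ε : ℝ} (hε0 : 0 < ε) (hε : ε ≤ 1) {n₁ : ℕ} {A : ℝ} (hA0 : 0 ≤ A)
    (hA : ∀ a' b', G.Adj a' b' → ∀ m, n₁ ≤ m → A ≤ Jt G θ (gS L κ ℓ x) m a' b' (fun ω => Tω G θ (gS L κ ℓ x) m a' b' ω ^ 2))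
    (hAε : (q : ℝ) * θ ^ 2 * (1 - varpi θ A) ≤ 1 - ε)
    {a b : V} {l : ℕ} (hab : G.Adj a b) {r : ℝ} (hr : 1 ≤ r) :
    ∫ ξ, (if wf ε r l < shellM G θ (mInf G θ L κ ℓ x ξ) l a b then (1:ℝ) else 0) ∂noiseP V ≤ Real.exp (-(r + l)) := by
  have hinf := abs_mInf_le hG hq hκ (L := L) (ℓ := ℓ) (x := x) hθ
  refine TransferAux.indicator_le_of_ae_tendsto (k₀ := 1 + l + n₁ + 1)
    (Y := fun k ξ => shellM G θ (mB G θ a k L κ ℓ x ξ) l a b)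
    (fun k => measurable_shellM_of hG (fun ξ => mB G θ a k L κ ℓ x ξ) (fun v => measurable_mB_tr hκ a k v) l a b)
    (measurable_shellM_of hG (fun ξ => mInf G θ L κ ℓ x ξ) (fun v => measurable_mInf_x hG hq hκ v) l a b)
    ?_ (Real.exp_pos _).le ?_
  · have hS : ∀ᵐ ξ ∂noiseP V, ∀ u ∈ level G l a b, ∀ j ∈ Finset.range (G.dist b u + 1),
        Filter.Tendsto (fun k => mB G θ a k L κ ℓ x ξ (geo G b u j)) atTop (𝓝 (mInf G θ L κ ℓ x ξ (geo G b u j))) := by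
      rw [Filter.eventually_all_finset]
      intro u _
      rw [Filter.eventually_all_finset]
      intro j _
      exact mB_ae_tendsto hG hq hκ hθ hsub hL hx0 hx a _
    filter_upwards [hS] with ξ h1
    exact tendsto_shellM hG hθ (fun k v => abs_mB_le_tr hκ hθ a k ξ v) (hinf ξ) l a b h1
  · intro k hk
    have hd : G.dist a b = G.dist a a + 1 := by simp [SimpleGraph.dist_eq_one_iff_adj.2 hab]
    have hRb : G.dist a b + l + n₁ + 1 ≤ k := by rw [SimpleGraph.dist_eq_one_iff_adj.2 hab]; exact hk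
    exact tail_shell hG hκ hθ hsub.le hq hx0 hx hε0 hε hA0 hA hAε hab hd hRb hr

/-- The variables of the kernel: local ball runs around the first vertex of the edge. -/
private noncomputable def ZR (G : SimpleGraph V) [G.LocallyFinite] (θ₁ θ₂ ϑ : ℝ) (L₁ L₂ : ℤ) (κ : ℤ → ℝ) (ℓ : ℤ) (x : ℝ) (R : ℕ)
    (a b : V) (ξ : Nz V) : ℝ :=
  lhat ϑ (cavM θ₁ (mB G θ₁ a R L₁ κ ℓ x ξ) a b) - lhat ϑ (cavM θ₂ (mB G θ₂ a R L₂ κ ℓ x ξ) a b)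

omit hG hq in
private theorem abs_mB_le (hθ : Adm θ) (c : V) (R : ℕ) (ξ : Nz V) (v : V) : |mB G θ c R L κ ℓ x ξ v| ≤ 1 := by
  have hθ' : |θ| < 1 := by rw [abs_of_nonneg hθ.nonneg]; exact hθ.lt_one
  exact abs_mv_le hθ' (gA_pos hκ _ _) v

omit hG hq in
private theorem measurable_mB (c : V) (R : ℕ) (v : V) : Measurable (fun ξ : Nz V => mB G θ c R L κ ℓ x ξ v) := by
  have h := measurable_mSt_joint (G := G) (θ := θ) (W := ball G c R) (L := L) (κ := κ) (ℓ := ℓ) hκ v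
  have e : (fun ξ : Nz V => mB G θ c R L κ ℓ x ξ v) =
      (fun q : ℝ × (Stg V → I) × (Stg V → I) => mSt G θ (ball G c R) L κ ℓ q.1 q.2.1 q.2.2 v) ∘
        (fun ξ : Nz V => (x, ξ)) := by
    funext ξ
    simp only [mB, Function.comp]
  rw [e]
  exact h.comp (measurable_const.prodMk measurable_id)

omit hG hq in
private theorem ZR_bm (hθ₁ : Adm θ₁) (hθ₂ : Adm θ₂) (hϑ : Adm ϑ) (R : ℕ) (a b : V) :
    BM (ZR G θ₁ θ₂ ϑ L₁ L₂ κ ℓ x R a b) :=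
  (PathVar.lhat_cav_bm hϑ hθ₁ (measurable_mB hκ a R a) (measurable_mB hκ a R b)
    (fun ξ => abs_mB_le hκ hθ₁ a R ξ a) (fun ξ => abs_mB_le hκ hθ₁ a R ξ b)).sub
  (PathVar.lhat_cav_bm hϑ hθ₂ (measurable_mB hκ a R a) (measurable_mB hκ a R b)
    (fun ξ => abs_mB_le hκ hθ₂ a R ξ a) (fun ξ => abs_mB_le hκ hθ₂ a R ξ b))

omit hq in
private theorem ZR_aut (g : G ≃g G) (R : ℕ) (a b : V) (ξ : Nz V) :
    ZR G θ₁ θ₂ ϑ L₁ L₂ κ ℓ x R (g a) (g b) (actN g ξ) = ZR G θ₁ θ₂ ϑ L₁ L₂ κ ℓ x R a b ξ := by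
  have key : ∀ (θ : ℝ) (L : ℤ) (v : V), mB G θ (g a) R L κ ℓ x (actN g ξ) (g v) = mB G θ a R L κ ℓ x ξ v := by
    intro θ L v
    simp only [mB, actN]
    rw [ball_aut g hG a R]
    exact mSt_aut hκ g v
  simp only [ZR, cavM, key]

omit hq in
private theorem ZR_dep (R : ℕ) (a b : V) (ξ ξ' : Nz V)
    (h : ∀ c : Stg V, c.1 ∈ ball G a R → ξ.1 c = ξ'.1 c ∧ ξ.2 c = ξ'.2 c) :
    ZR G θ₁ θ₂ ϑ L₁ L₂ κ ℓ x R a b ξ = ZR G θ₁ θ₂ ϑ L₁ L₂ κ ℓ x R a b ξ' := by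
  have key : ∀ (θ : ℝ) (L : ℤ) (v : V), mB G θ a R L κ ℓ x ξ v = mB G θ a R L κ ℓ x ξ' v := by
    intro θ L v
    simp only [mB]
    exact mSt_dep (G := G) (W := ball G a R) hG hκ (fun c hc => (h c hc).1) (fun c hc => (h c hc).2) v
  simp only [ZR, cavM, key]

omit hq in
private theorem ZR_mean_eq (hθ₁ : Adm θ₁) (hθ₂ : Adm θ₂) (hϑ : Adm ϑ) (R : ℕ) {a b a' b' : V} (hab : G.Adj a b) (hab' : G.Adj a' b') :
    ∫ ξ, ZR G θ₁ θ₂ ϑ L₁ L₂ κ ℓ x R a' b' ξ ∂noiseP V = ∫ ξ, ZR G θ₁ θ₂ ϑ L₁ L₂ κ ℓ x R a b ξ ∂noiseP V := by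
  obtain ⟨g, hg1, hg2⟩ := exists_aut hG (v := a) (u := b) (v' := a') (u' := b')
    (by rw [SimpleGraph.dist_eq_one_iff_adj.2 hab, SimpleGraph.dist_eq_one_iff_adj.2 hab'])
  have h := integral_actN hG hκ g (ZR_bm (G := G) (L₁ := L₁) (L₂ := L₂) (ℓ := ℓ) (x := x) hκ hθ₁ hθ₂ hϑ R a' b').1
  rw [← h, ← hg1, ← hg2]
  simp_rw [ZR_aut hG hκ g R a b]

/-- The kernel is admissible and `bsv` applies. -/
private theorem path_var_R (hθ₁ : Adm θ₁) (hθ₂ : Adm θ₂) (hϑ : Adm ϑ) (R : ℕ) {a₀ b₀ : V} (hab₀ : G.Adj a₀ b₀) (v u : V) :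
    ∫ ξ, (∑ j ∈ Finset.range (G.dist v u), (ZR G θ₁ θ₂ ϑ L₁ L₂ κ ℓ x R (geo G v u j) (geo G v u (j + 1)) ξ -
        ∫ ξ', ZR G θ₁ θ₂ ϑ L₁ L₂ κ ℓ x R a₀ b₀ ξ' ∂noiseP V)) ^ 2 ∂noiseP V ≤
      25 * G.dist v u * ∫ ξ, (ZR G θ₁ θ₂ ϑ L₁ L₂ κ ℓ x R a₀ b₀ ξ - ∫ ξ', ZR G θ₁ θ₂ ϑ L₁ L₂ κ ℓ x R a₀ b₀ ξ' ∂noiseP V) ^ 2 ∂noiseP V := by
  set ζ := ∫ ξ', ZR G θ₁ θ₂ ϑ L₁ L₂ κ ℓ x R a₀ b₀ ξ' ∂noiseP V with hζ
  set X : V × V → Nz V → ℝ := fun e ξ => ZR G θ₁ θ₂ ϑ L₁ L₂ κ ℓ x R e.1 e.2 ξ - ζ with hX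
  have hXbm : ∀ e, BM (X e) := fun e => (ZR_bm hκ hθ₁ hθ₂ hϑ R e.1 e.2).sub (BM.const ζ)
  set K : V → V → V → V → ℝ := fun a b c d => ∫ ξ, X (a, b) ξ * X (c, d) ξ ∂noiseP V with hK
  have hKinv : ∀ (g : G ≃g G) (a b c d : V), K (g a) (g b) (g c) (g d) = K a b c d := by
    intro g a b c d
    have hm : Measurable (fun ξ => X (g a, g b) ξ * X (g c, g d) ξ) := (hXbm _).1.mul (hXbm _).1
    simp only [hK]
    rw [← integral_actN hG hκ g hm]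
    simp only [hX, ZR_aut hG hκ g R]
  have hEK : EdgeKernel G K := by
    refine ⟨fun a b c d => ?_, fun s c => ?_, hKinv, ⟨2 * R + 1, fun a b c d hab hcd hr => ?_⟩⟩
    · simp only [hK, mul_comm]
    · have h := PathVar.integral_sq_sum (μ := noiseP V) s (X := X) (fun e _ => hXbm e) c
      have h0 : 0 ≤ ∫ x, (∑ i ∈ s, c i * X i x) ^ 2 ∂noiseP V := integral_nonneg fun _ => sq_nonneg _
      rw [h] at h0
      exact h0
    · have hdisj : Disjoint (ball G a R) (ball G c R) := by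
        rw [Finset.disjoint_left]
        intro w hw hw'
        have h1 := (mem_ball hG a R w).1 hw
        have h2 := (mem_ball hG c R w).1 hw'
        have h3 : G.dist a c ≤ G.dist a w + G.dist w c := hG.tree.connected.dist_triangle
        rw [SimpleGraph.dist_comm (u := w) (v := c)] at h3
        omega
      have hind := PathVar.integral_mul_noise hdisj (hXbm (a, b)) (hXbm (c, d))
        (fun ξ ξ' h => by simp only [hX, ZR_dep hG hκ R a b ξ ξ' h])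
        (fun ξ ξ' h => by simp only [hX, ZR_dep hG hκ R c d ξ ξ' h])
      simp only [hK]
      rw [hind]
      have hzero : ∫ ξ, X (a, b) ξ ∂noiseP V = 0 := by
        simp only [hX]
        rw [integral_sub ((ZR_bm hκ hθ₁ hθ₂ hϑ R a b).integrable _) (integrable_const _),
          ZR_mean_eq hG hκ hθ₁ hθ₂ hϑ R hab₀ hab]
        simp [hζ]
      rw [hzero, zero_mul]
  have hV : ∀ a b, G.Adj a b → K a b a b = K a₀ b₀ a₀ b₀ := by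
    intro a b hab
    obtain ⟨g, hg1, hg2⟩ := exists_aut hG (v := a₀) (u := b₀) (v' := a) (u' := b)
      (by rw [SimpleGraph.dist_eq_one_iff_adj.2 hab, SimpleGraph.dist_eq_one_iff_adj.2 hab₀])
    rw [← hg1, ← hg2, hKinv]
  have hb := bsv hG hq hEK hV v u
  have hexp := PathVar.integral_sq_sum (μ := noiseP V) (Finset.range (G.dist v u))
    (X := fun j => X (geo G v u j, geo G v u (j + 1))) (fun _ _ => hXbm _) (fun _ => 1)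
  simp only [one_mul] at hexp
  have hL : ∫ ξ, (∑ j ∈ Finset.range (G.dist v u), (ZR G θ₁ θ₂ ϑ L₁ L₂ κ ℓ x R (geo G v u j) (geo G v u (j + 1)) ξ - ζ)) ^ 2 ∂noiseP V =
      ∑ i ∈ Finset.range (G.dist v u), ∑ j ∈ Finset.range (G.dist v u),
        K (geo G v u i) (geo G v u (i + 1)) (geo G v u j) (geo G v u (j + 1)) := hexp
  rw [hL]
  have hR : ∫ ξ, (ZR G θ₁ θ₂ ϑ L₁ L₂ κ ℓ x R a₀ b₀ ξ - ζ) ^ 2 ∂noiseP V = K a₀ b₀ a₀ b₀ := by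
    simp only [hK, hX]
    congr 1
    funext ξ
    ring
  rw [hR]
  exact hb

/-- **Variance along geodesics of differences of convex functions of cavity fields.** From `bsv` for the kernel of the ball runs on
`ball a R`, with the mean subtracted: it vanishes for far apart edges as the noises on disjoint balls are independent (`mSt_dep`), and passes to the limit `R → ∞` by `mInf_l2`, `lhat_lip`, `cav_lip`. -/
theorem path_var (hθ₁ : Adm θ₁) (hθ₂ : Adm θ₂) (hsub₁ : (q : ℝ) * θ₁ ^ 2 < 1) (hsub₂ : (q : ℝ) * θ₂ ^ 2 < 1) (hL₁ : L₁ ≤ ℓ) (hL₂ : L₂ ≤ ℓ) (hϑ : Adm ϑ)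
    (hx0 : 0 ≤ x) (hx : x ≤ 1 / 2) {a₀ b₀ : V} (hab₀ : G.Adj a₀ b₀) (v u : V) :
    let Z : V → V → Nz V → ℝ := fun a b ξ =>
      lhat ϑ (cavM θ₁ (mInf G θ₁ L₁ κ ℓ x ξ) a b) - lhat ϑ (cavM θ₂ (mInf G θ₂ L₂ κ ℓ x ξ) a b)
    let ζ : ℝ := ∫ ξ, Z a₀ b₀ ξ ∂noiseP V
    ∫ ξ, (∑ j ∈ Finset.range (G.dist v u), (Z (geo G v u j) (geo G v u (j + 1)) ξ - ζ)) ^ 2 ∂noiseP V ≤
      25 * G.dist v u * ∫ ξ, (Z a₀ b₀ ξ - ζ) ^ 2 ∂noiseP V := by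
  intro Z ζ
  obtain ⟨C₁, Λ₁, hC₁, hΛ₁, h₁⟩ := mInf_l2 hG hq hκ hθ₁ hsub₁ L₁ ℓ hL₁
  obtain ⟨C₂, Λ₂, hC₂, hΛ₂, h₂⟩ := mInf_l2 hG hq hκ hθ₂ hsub₂ L₂ ℓ hL₂
  obtain ⟨c₀, hc₀, hlip⟩ := PathVar.lhat_cav_diff_sq
  have hxm : x ∈ Icc (0 : ℝ) (1 / 2) := ⟨hx0, hx⟩
  set ZRf : ℕ → V → V → Nz V → ℝ := fun R a b ξ => ZR G θ₁ θ₂ ϑ L₁ L₂ κ ℓ x R a b ξ with hZRf
  have hZRbm : ∀ R a b, BM (ZRf R a b) := fun R a b => ZR_bm hκ hθ₁ hθ₂ hϑ R a b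
  have hmI : ∀ (θ : ℝ) (L : ℤ) (v : V), Measurable (fun ξ : Nz V => mInf G θ L κ ℓ x ξ v) := by
    intro θ L v
    have e : (fun ξ : Nz V => mInf G θ L κ ℓ x ξ v) =
        (fun p : ℝ × Nz V => mInf G θ L κ ℓ p.1 p.2 v) ∘ (fun ξ : Nz V => (x, ξ)) := by
      funext ξ
      simp only [Function.comp]
    rw [e]
    exact (measurable_mInf hG hq hκ v).comp (measurable_const.prodMk measurable_id)
  have hZdef : ∀ a b ξ, Z a b ξ = lhat ϑ (cav θ₁ (mInf G θ₁ L₁ κ ℓ x ξ a) (mInf G θ₁ L₁ κ ℓ x ξ b)) -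
      lhat ϑ (cav θ₂ (mInf G θ₂ L₂ κ ℓ x ξ a) (mInf G θ₂ L₂ κ ℓ x ξ b)) := fun _ _ _ => rfl
  have hZbm : ∀ a b, BM (Z a b) := by
    intro a b
    exact (PathVar.lhat_cav_bm hϑ hθ₁ (hmI θ₁ L₁ a) (hmI θ₁ L₁ b)
      (fun ξ => abs_mInf_le hG hq hκ hθ₁ ξ a) (fun ξ => abs_mInf_le hG hq hκ hθ₁ ξ b)).sub
      (PathVar.lhat_cav_bm hϑ hθ₂ (hmI θ₂ L₂ a) (hmI θ₂ L₂ b)
      (fun ξ => abs_mInf_le hG hq hκ hθ₂ ξ a) (fun ξ => abs_mInf_le hG hq hκ hθ₂ ξ b))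
  have habsZR : ∀ R a b ξ, |ZRf R a b ξ| ≤ 6 := by
    intro R a b ξ
    refine (abs_sub _ _).trans ?_
    have h1 := PathVar.abs_lhat_le hϑ (abs_cav_le hθ₁ (abs_mB_le (G := G) (L := L₁) (ℓ := ℓ) (x := x) hκ hθ₁ a R ξ a) (abs_mB_le (G := G) (L := L₁) (ℓ := ℓ) (x := x) hκ hθ₁ a R ξ b))
    have h2 := PathVar.abs_lhat_le hϑ (abs_cav_le hθ₂ (abs_mB_le (G := G) (L := L₂) (ℓ := ℓ) (x := x) hκ hθ₂ a R ξ a) (abs_mB_le (G := G) (L := L₂) (ℓ := ℓ) (x := x) hκ hθ₂ a R ξ b))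
    simp only [cavM]
    linarith
  have habsZ : ∀ a b ξ, |Z a b ξ| ≤ 6 := by
    intro a b ξ
    rw [hZdef]
    refine (abs_sub _ _).trans ?_
    have h1 := PathVar.abs_lhat_le hϑ (abs_cav_le hθ₁ (abs_mInf_le (L := L₁) (ℓ := ℓ) (x := x) hG hq hκ hθ₁ ξ a) (abs_mInf_le (L := L₁) (ℓ := ℓ) (x := x) hG hq hκ hθ₁ ξ b))
    have h2 := PathVar.abs_lhat_le hϑ (abs_cav_le hθ₂ (abs_mInf_le (L := L₂) (ℓ := ℓ) (x := x) hG hq hκ hθ₂ ξ a) (abs_mInf_le (L := L₂) (ℓ := ℓ) (x := x) hG hq hκ hθ₂ ξ b))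
    linarith
  -- `L²` convergence for an edge
  have hedge : ∀ a b, G.Adj a b → Tendsto (fun R => ∫ ξ, (ZRf R a b ξ - Z a b ξ) ^ 2 ∂noiseP V) atTop (𝓝 0) := by
    intro a b hab
    have hbound : ∀ R, 1 ≤ R → ∫ ξ, (ZRf R a b ξ - Z a b ξ) ^ 2 ∂noiseP V ≤
        2 * c₀ * (C₁ * (1 / Λ₁) ^ R) + 2 * c₀ * (C₁ * (1 / Λ₁) ^ (R - 1)) +
          2 * c₀ * (C₂ * (1 / Λ₂) ^ R) + 2 * c₀ * (C₂ * (1 / Λ₂) ^ (R - 1)) := by
      intro R hR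
      have ha : a ∈ ball G a R := (mem_ball hG a R a).2 (by simp)
      have hb : b ∈ ball G a R := (mem_ball hG a R b).2 (by rw [SimpleGraph.dist_eq_one_iff_adj.2 hab]; exact hR)
      have hda : G.dist a a = 0 := by simp
      have hdb : G.dist a b = 1 := SimpleGraph.dist_eq_one_iff_adj.2 hab
      have i1a := h₁ x hxm a a R ha
      have i1b := h₁ x hxm a b R hb
      have i2a := h₂ x hxm a a R ha
      have i2b := h₂ x hxm a b R hb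
      rw [hda, Nat.sub_zero] at i1a i2a
      rw [hdb] at i1b i2b
      have hbmD : ∀ (θ : ℝ) (L : ℤ) (v : V), Adm θ → BM (fun ξ : Nz V => (mB G θ a R L κ ℓ x ξ v - mInf G θ L κ ℓ x ξ v) ^ 2) := by
        intro θ L v hθ
        have hm := ((measurable_mB (G := G) (θ := θ) (L := L) (ℓ := ℓ) (x := x) hκ a R v).sub (hmI θ L v)).pow_const 2
        refine ⟨hm, 4, fun ξ => ?_⟩
        rw [abs_pow]
        have h1 := abs_mB_le (G := G) (L := L) (ℓ := ℓ) (x := x) hκ hθ a R ξ v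
        have h2 := abs_mInf_le (L := L) (ℓ := ℓ) (x := x) hG hq hκ hθ ξ v
        have h3 : |mB G θ a R L κ ℓ x ξ v - mInf G θ L κ ℓ x ξ v| ≤ 2 := (abs_sub _ _).trans (by linarith)
        calc _ ≤ (2:ℝ) ^ 2 := pow_le_pow_left₀ (abs_nonneg _) h3 2
          _ = 4 := by norm_num
      have hptw : ∀ ξ, (ZRf R a b ξ - Z a b ξ) ^ 2 ≤
          2 * c₀ * (mB G θ₁ a R L₁ κ ℓ x ξ a - mInf G θ₁ L₁ κ ℓ x ξ a) ^ 2 +
          2 * c₀ * (mB G θ₁ a R L₁ κ ℓ x ξ b - mInf G θ₁ L₁ κ ℓ x ξ b) ^ 2 +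
          2 * c₀ * (mB G θ₂ a R L₂ κ ℓ x ξ a - mInf G θ₂ L₂ κ ℓ x ξ a) ^ 2 +
          2 * c₀ * (mB G θ₂ a R L₂ κ ℓ x ξ b - mInf G θ₂ L₂ κ ℓ x ξ b) ^ 2 := by
        intro ξ
        have l1 := hlip ϑ θ₁ _ _ _ _ hϑ hθ₁ (abs_mB_le (G := G) (L := L₁) (ℓ := ℓ) (x := x) hκ hθ₁ a R ξ a) (abs_mB_le (G := G) (L := L₁) (ℓ := ℓ) (x := x) hκ hθ₁ a R ξ b)
          (abs_mInf_le (L := L₁) (ℓ := ℓ) (x := x) hG hq hκ hθ₁ ξ a) (abs_mInf_le (L := L₁) (ℓ := ℓ) (x := x) hG hq hκ hθ₁ ξ b)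
        have l2 := hlip ϑ θ₂ _ _ _ _ hϑ hθ₂ (abs_mB_le (G := G) (L := L₂) (ℓ := ℓ) (x := x) hκ hθ₂ a R ξ a) (abs_mB_le (G := G) (L := L₂) (ℓ := ℓ) (x := x) hκ hθ₂ a R ξ b)
          (abs_mInf_le (L := L₂) (ℓ := ℓ) (x := x) hG hq hκ hθ₂ ξ a) (abs_mInf_le (L := L₂) (ℓ := ℓ) (x := x) hG hq hκ hθ₂ ξ b)
        rw [hZdef]
        simp only [hZRf, ZR, cavM]
        set A₁ := lhat ϑ (cav θ₁ (mB G θ₁ a R L₁ κ ℓ x ξ a) (mB G θ₁ a R L₁ κ ℓ x ξ b))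
        set A₂ := lhat ϑ (cav θ₂ (mB G θ₂ a R L₂ κ ℓ x ξ a) (mB G θ₂ a R L₂ κ ℓ x ξ b))
        set B₁ := lhat ϑ (cav θ₁ (mInf G θ₁ L₁ κ ℓ x ξ a) (mInf G θ₁ L₁ κ ℓ x ξ b))
        set B₂ := lhat ϑ (cav θ₂ (mInf G θ₂ L₂ κ ℓ x ξ a) (mInf G θ₂ L₂ κ ℓ x ξ b))
        nlinarith [sq_nonneg ((A₁ - B₁) + (A₂ - B₂))]
      have hLint : Integrable (fun ξ => (ZRf R a b ξ - Z a b ξ) ^ 2) (noiseP V) := by
        have h := ((hZRbm R a b).sub (hZbm a b))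
        have h2 := h.mul h
        refine (show (fun ξ => (ZRf R a b ξ - Z a b ξ) ^ 2) = _ from ?_) ▸ h2.integrable _
        funext ξ; ring
      have i1 := ((hbmD θ₁ L₁ a hθ₁).integrable (noiseP V)).const_mul (2 * c₀)
      have i2 := ((hbmD θ₁ L₁ b hθ₁).integrable (noiseP V)).const_mul (2 * c₀)
      have i3 := ((hbmD θ₂ L₂ a hθ₂).integrable (noiseP V)).const_mul (2 * c₀)
      have i4 := ((hbmD θ₂ L₂ b hθ₂).integrable (noiseP V)).const_mul (2 * c₀)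
      have i5 : Integrable (fun ξ => 2 * c₀ * (mB G θ₁ a R L₁ κ ℓ x ξ a - mInf G θ₁ L₁ κ ℓ x ξ a) ^ 2 +
          2 * c₀ * (mB G θ₁ a R L₁ κ ℓ x ξ b - mInf G θ₁ L₁ κ ℓ x ξ b) ^ 2 +
          2 * c₀ * (mB G θ₂ a R L₂ κ ℓ x ξ a - mInf G θ₂ L₂ κ ℓ x ξ a) ^ 2 +
          2 * c₀ * (mB G θ₂ a R L₂ κ ℓ x ξ b - mInf G θ₂ L₂ κ ℓ x ξ b) ^ 2) (noiseP V) :=
        ((i1.add i2).add i3).add i4
      refine (integral_mono hLint i5 hptw).trans ?_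
      rw [PathVar.integral_add4 i1 i2 i3 i4,
        integral_const_mul, integral_const_mul, integral_const_mul, integral_const_mul]
      have hc2 : 0 ≤ 2 * c₀ := by positivity
      have u1 := mul_le_mul_of_nonneg_left i1a hc2
      have u2 := mul_le_mul_of_nonneg_left i1b hc2
      have u3 := mul_le_mul_of_nonneg_left i2a hc2
      have u4 := mul_le_mul_of_nonneg_left i2b hc2
      linarith
    have hg₁ : Tendsto (fun R : ℕ => (1 / Λ₁) ^ R) atTop (𝓝 0) :=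
      tendsto_pow_atTop_nhds_zero_of_lt_one (by positivity) (by rw [div_lt_one (by linarith)]; exact hΛ₁)
    have hg₂ : Tendsto (fun R : ℕ => (1 / Λ₂) ^ R) atTop (𝓝 0) :=
      tendsto_pow_atTop_nhds_zero_of_lt_one (by positivity) (by rw [div_lt_one (by linarith)]; exact hΛ₂)
    have hg₁' : Tendsto (fun R : ℕ => (1 / Λ₁) ^ (R - 1)) atTop (𝓝 0) := hg₁.comp (tendsto_sub_atTop_nat 1)
    have hg₂' : Tendsto (fun R : ℕ => (1 / Λ₂) ^ (R - 1)) atTop (𝓝 0) := hg₂.comp (tendsto_sub_atTop_nat 1)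
    have hlim : Tendsto (fun R : ℕ => 2 * c₀ * (C₁ * (1 / Λ₁) ^ R) + 2 * c₀ * (C₁ * (1 / Λ₁) ^ (R - 1)) +
          2 * c₀ * (C₂ * (1 / Λ₂) ^ R) + 2 * c₀ * (C₂ * (1 / Λ₂) ^ (R - 1))) atTop (𝓝 0) := by
      have := (((hg₁.const_mul C₁).const_mul (2 * c₀)).add ((hg₁'.const_mul C₁).const_mul (2 * c₀))).add
        ((hg₂.const_mul C₂).const_mul (2 * c₀)) |>.add ((hg₂'.const_mul C₂).const_mul (2 * c₀))
      simpa using this
    refine squeeze_zero' (Eventually.of_forall fun R => integral_nonneg fun _ => sq_nonneg _) ?_ hlim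
    filter_upwards [eventually_ge_atTop 1] with R hR using hbound R hR
  -- convergence of the means
  set ζR : ℕ → ℝ := fun R => ∫ ξ, ZRf R a₀ b₀ ξ ∂noiseP V with hζR
  have hmean : Tendsto (fun R => (ζR R - ζ) ^ 2) atTop (𝓝 0) := by
    refine squeeze_zero (fun _ => sq_nonneg _) (fun R => ?_) (hedge a₀ b₀ hab₀)
    have e : ζR R - ζ = ∫ ξ, (ZRf R a₀ b₀ ξ - Z a₀ b₀ ξ) ∂noiseP V := by
      rw [integral_sub ((hZRbm R a₀ b₀).integrable _) ((hZbm a₀ b₀).integrable _)]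
    rw [e]
    exact PathVar.sq_integral_le ((hZRbm R a₀ b₀).sub (hZbm a₀ b₀))
  have habsζR : ∀ R, |ζR R| ≤ 6 := by
    intro R
    have := norm_integral_le_of_norm_le_const (μ := noiseP V) (f := ZRf R a₀ b₀) (C := 6)
      (Eventually.of_forall fun ξ => by simpa using habsZR R a₀ b₀ ξ)
    simpa [Measure.real] using this
  have habsζ : |ζ| ≤ 6 := by
    have := norm_integral_le_of_norm_le_const (μ := noiseP V) (f := Z a₀ b₀) (C := 6)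
      (Eventually.of_forall fun ξ => by simpa using habsZ a₀ b₀ ξ)
    simpa [Measure.real] using this
  set k := G.dist v u with hk
  -- the two sides
  have hRHS : Tendsto (fun R => ∫ ξ, (ZRf R a₀ b₀ ξ - ζR R) ^ 2 ∂noiseP V) atTop
      (𝓝 (∫ ξ, (Z a₀ b₀ ξ - ζ) ^ 2 ∂noiseP V)) := by
    refine PathVar.tendsto_integral_sq (M := 12) (fun R => ((hZRbm R a₀ b₀).1.sub measurable_const))
      (fun R ξ => (abs_sub _ _).trans (by linarith [habsZR R a₀ b₀ ξ, habsζR R]))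
      ((hZbm a₀ b₀).1.sub measurable_const)
      (fun ξ => (abs_sub _ _).trans (by linarith [habsZ a₀ b₀ ξ])) ?_
    have hlim := ((hedge a₀ b₀ hab₀).const_mul 2).add (hmean.const_mul 2)
    simp only [mul_zero, add_zero] at hlim
    refine squeeze_zero (fun _ => integral_nonneg fun _ => sq_nonneg _) (fun R => ?_) hlim
    have hi1 : Integrable (fun ξ => (ZRf R a₀ b₀ ξ - Z a₀ b₀ ξ) ^ 2) (noiseP V) := by
      have h := ((hZRbm R a₀ b₀).sub (hZbm a₀ b₀))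
      refine (show (fun ξ => (ZRf R a₀ b₀ ξ - Z a₀ b₀ ξ) ^ 2) = _ from ?_) ▸ (h.mul h).integrable _
      funext ξ; ring
    have hi2 : Integrable (fun ξ => ((ZRf R a₀ b₀ ξ - ζR R) - (Z a₀ b₀ ξ - ζ)) ^ 2) (noiseP V) := by
      have h := (((hZRbm R a₀ b₀).sub (BM.const (ζR R))).sub ((hZbm a₀ b₀).sub (BM.const ζ)))
      refine (show (fun ξ => ((ZRf R a₀ b₀ ξ - ζR R) - (Z a₀ b₀ ξ - ζ)) ^ 2) = _ from ?_) ▸ (h.mul h).integrable _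
      funext ξ; ring
    have hi3 : Integrable (fun ξ => 2 * (ZRf R a₀ b₀ ξ - Z a₀ b₀ ξ) ^ 2 + 2 * (ζR R - ζ) ^ 2) (noiseP V) :=
      (hi1.const_mul 2).add (integrable_const _)
    refine (integral_mono hi2 hi3 fun ξ => ?_).trans_eq ?_
    · have := sq_nonneg ((ZRf R a₀ b₀ ξ - Z a₀ b₀ ξ) + (ζR R - ζ))
      simp only
      nlinarith
    · rw [integral_add (hi1.const_mul 2) (integrable_const _), integral_const_mul]
      simp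
  have hLHS : Tendsto (fun R => ∫ ξ, (∑ j ∈ Finset.range k, (ZRf R (geo G v u j) (geo G v u (j + 1)) ξ - ζR R)) ^ 2 ∂noiseP V) atTop
      (𝓝 (∫ ξ, (∑ j ∈ Finset.range k, (Z (geo G v u j) (geo G v u (j + 1)) ξ - ζ)) ^ 2 ∂noiseP V)) := by
    have hbd : ∀ {F : ℕ → ℝ}, (∀ j, |F j| ≤ 12) → |∑ j ∈ Finset.range k, F j| ≤ 12 * k := by
      intro F hF
      refine (Finset.abs_sum_le_sum_abs _ _).trans ?_
      refine (Finset.sum_le_sum fun j _ => hF j).trans ?_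
      simp [mul_comm]
    refine PathVar.tendsto_integral_sq (M := 12 * k)
      (fun R => Finset.measurable_sum _ fun j _ => (hZRbm R _ _).1.sub measurable_const)
      (fun R ξ => hbd fun j => (abs_sub _ _).trans (by linarith [habsZR R (geo G v u j) (geo G v u (j + 1)) ξ, habsζR R]))
      (Finset.measurable_sum _ fun j _ => (hZbm _ _).1.sub measurable_const)
      (fun ξ => hbd fun j => (abs_sub _ _).trans (by linarith [habsZ (geo G v u j) (geo G v u (j + 1)) ξ])) ?_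
    have hlim : Tendsto (fun R => (k : ℝ) * ∑ j ∈ Finset.range k,
        (2 * ∫ ξ, (ZRf R (geo G v u j) (geo G v u (j + 1)) ξ - Z (geo G v u j) (geo G v u (j + 1)) ξ) ^ 2 ∂noiseP V + 2 * (ζR R - ζ) ^ 2)) atTop (𝓝 0) := by
      have : Tendsto (fun R => ∑ j ∈ Finset.range k,
          (2 * ∫ ξ, (ZRf R (geo G v u j) (geo G v u (j + 1)) ξ - Z (geo G v u j) (geo G v u (j + 1)) ξ) ^ 2 ∂noiseP V + 2 * (ζR R - ζ) ^ 2)) atTop (𝓝 0) := by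
        have h0 : (0 : ℝ) = ∑ j ∈ Finset.range k, ((2:ℝ) * 0 + 2 * 0) := by simp
        rw [h0]
        refine tendsto_finsetSum _ fun j hj => ?_
        exact ((hedge _ _ (geo_adj hG v u (Finset.mem_range.1 hj))).const_mul 2).add (hmean.const_mul 2)
      simpa using this.const_mul (k : ℝ)
    refine squeeze_zero (fun _ => integral_nonneg fun _ => sq_nonneg _) (fun R => ?_) hlim
    have hiE : ∀ j, Integrable (fun ξ => (ZRf R (geo G v u j) (geo G v u (j + 1)) ξ - Z (geo G v u j) (geo G v u (j + 1)) ξ) ^ 2) (noiseP V) := by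
      intro j
      have h := ((hZRbm R (geo G v u j) (geo G v u (j + 1))).sub (hZbm (geo G v u j) (geo G v u (j + 1))))
      refine (show (fun ξ => (ZRf R (geo G v u j) (geo G v u (j + 1)) ξ - Z (geo G v u j) (geo G v u (j + 1)) ξ) ^ 2) = _ from ?_) ▸ (h.mul h).integrable _
      funext ξ; ring
    have hbmS : BM (fun ξ => ∑ j ∈ Finset.range k, (ZRf R (geo G v u j) (geo G v u (j + 1)) ξ - ζR R) -
        ∑ j ∈ Finset.range k, (Z (geo G v u j) (geo G v u (j + 1)) ξ - ζ)) :=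
      (BM.finset_sum _ fun j _ => (hZRbm R _ _).sub (BM.const _)).sub
        (BM.finset_sum _ fun j _ => (hZbm _ _).sub (BM.const _))
    have hi2 : Integrable (fun ξ => (∑ j ∈ Finset.range k, (ZRf R (geo G v u j) (geo G v u (j + 1)) ξ - ζR R) -
        ∑ j ∈ Finset.range k, (Z (geo G v u j) (geo G v u (j + 1)) ξ - ζ)) ^ 2) (noiseP V) := by
      refine (show (fun ξ => (∑ j ∈ Finset.range k, (ZRf R (geo G v u j) (geo G v u (j + 1)) ξ - ζR R) -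
        ∑ j ∈ Finset.range k, (Z (geo G v u j) (geo G v u (j + 1)) ξ - ζ)) ^ 2) = _ from ?_) ▸ (hbmS.mul hbmS).integrable _
      funext ξ; ring
    have hij : ∀ j ∈ Finset.range k, Integrable (fun ξ => 2 * (ZRf R (geo G v u j) (geo G v u (j + 1)) ξ - Z (geo G v u j) (geo G v u (j + 1)) ξ) ^ 2 + 2 * (ζR R - ζ) ^ 2) (noiseP V) :=
      fun j _ => ((hiE j).const_mul 2).add (integrable_const _)
    have hi3 : Integrable (fun ξ => (k : ℝ) * ∑ j ∈ Finset.range k,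
        (2 * (ZRf R (geo G v u j) (geo G v u (j + 1)) ξ - Z (geo G v u j) (geo G v u (j + 1)) ξ) ^ 2 + 2 * (ζR R - ζ) ^ 2)) (noiseP V) :=
      (integrable_finsetSum _ hij).const_mul _
    refine (integral_mono hi2 hi3 fun ξ => ?_).trans_eq ?_
    · simp only
      rw [← Finset.sum_sub_distrib]
      have h1 := sq_sum_le_card_mul_sum_sq (s := Finset.range k) (f := fun j =>
        (ZRf R (geo G v u j) (geo G v u (j + 1)) ξ - ζR R) - (Z (geo G v u j) (geo G v u (j + 1)) ξ - ζ))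
      rw [Finset.card_range] at h1
      refine h1.trans (mul_le_mul_of_nonneg_left (Finset.sum_le_sum fun j _ => ?_) (by positivity))
      have := sq_nonneg ((ZRf R (geo G v u j) (geo G v u (j + 1)) ξ - Z (geo G v u j) (geo G v u (j + 1)) ξ) + (ζR R - ζ))
      nlinarith
    · rw [integral_const_mul, integral_finsetSum _ hij]
      congr 1
      refine Finset.sum_congr rfl fun j _ => ?_
      rw [integral_add ((hiE j).const_mul 2) (integrable_const _), integral_const_mul]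
      simp
  have hRHS' := hRHS.const_mul (25 * (k : ℝ))
  refine le_of_tendsto_of_tendsto' hLHS hRHS' fun R => ?_
  exact path_var_R hG hq hκ hθ₁ hθ₂ hϑ R hab₀ v u

/-- Means of convex functions of the cavity fields are monotone in the parameters. -/
theorem mean_mono (hθ : Adm θ) (hθ' : Adm θ₂) (hθθ' : θ ≤ θ₂) (hsub : (q : ℝ) * θ ^ 2 < 1) (hsub' : (q : ℝ) * θ₂ ^ 2 < 1) (hLL : L₂ ≤ L) (hL : L ≤ ℓ)
    (hx0 : 0 ≤ x) (hx : x ≤ 1 / 2) {ξf : ℝ → ℝ} (hξ : ConvexOn ℝ (Icc (-1) 1) ξf) (hξc : ContinuousOn ξf (Icc (-1) 1)) (hξe : ∀ t, ξf (-t) = ξf t)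
    {a b : V} (hab : G.Adj a b) :
    ∫ ξ, ξf (cavM θ (mInf G θ L κ ℓ x ξ) a b) ∂noiseP V ≤ ∫ ξ, ξf (cavM θ₂ (mInf G θ₂ L₂ κ ℓ x ξ) a b) ∂noiseP V := by
  have hL₂ : L₂ ≤ ℓ := hLL.trans hL
  -- clamp
  set Ψ : ℝ → ℝ := fun t => ξf (BW.clampI t) with hΨ
  have hΨc : Continuous Ψ := hξc.comp_continuous BW.continuous_clampI BW.clampI_mem
  obtain ⟨M, hM⟩ := (isCompact_Icc (a := (-1:ℝ)) (b := 1)).exists_bound_of_continuousOn hξc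
  have hΨb : ∀ t, |Ψ t| ≤ M := fun t => by simpa using hM _ (BW.clampI_mem t)
  have hΨBM : BM Ψ := ⟨hΨc.measurable, M, hΨb⟩
  have hΨconv : ConvexOn ℝ (Icc (-1) 1) Ψ := hξ.congr (fun t ht => by rw [hΨ]; simp only; rw [BW.clampI_of_mem ht])
  have hΨe : ∀ t, Ψ (-t) = Ψ t := fun t => by rw [hΨ]; simp only; rw [BW.clampI_neg, hξe]
  have hinf := abs_mInf_le hG hq hκ (L := L) (ℓ := ℓ) (x := x) hθ
  have hinf₂ := abs_mInf_le hG hq hκ (L := L₂) (ℓ := ℓ) (x := x) hθ'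
  -- the left and right sides with the clamped function
  have e1 : ∀ ξ, ξf (cavM θ (mInf G θ L κ ℓ x ξ) a b) = Ψ (cavM θ (mInf G θ L κ ℓ x ξ) a b) := fun ξ => by
    have hmem : cavM θ (mInf G θ L κ ℓ x ξ) a b ∈ Icc (-1:ℝ) 1 := abs_le.1 (abs_cav_le hθ (hinf ξ a) (hinf ξ b))
    rw [hΨ]; simp only
    rw [BW.clampI_of_mem hmem]
  have e2 : ∀ ξ, ξf (cavM θ₂ (mInf G θ₂ L₂ κ ℓ x ξ) a b) = Ψ (cavM θ₂ (mInf G θ₂ L₂ κ ℓ x ξ) a b) := fun ξ => by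
    have hmem : cavM θ₂ (mInf G θ₂ L₂ κ ℓ x ξ) a b ∈ Icc (-1:ℝ) 1 := abs_le.1 (abs_cav_le hθ' (hinf₂ ξ a) (hinf₂ ξ b))
    rw [hΨ]; simp only
    rw [BW.clampI_of_mem hmem]
  simp_rw [e1, e2]
  have ht1 := TransferAux.integral_le_of_ae_tendsto (P := noiseP V)
    (Y := fun k ξ => Ψ (cavM θ (mB G θ a k L κ ℓ x ξ) a b)) (Z := fun ξ => Ψ (cavM θ (mInf G θ L κ ℓ x ξ) a b))
    (fun k => hΨc.measurable.comp (measurable_cavM_of (fun ξ => mB G θ a k L κ ℓ x ξ) (measurable_mB_tr hκ a k a) (measurable_mB_tr hκ a k b)))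
    (by
      filter_upwards [mB_ae_tendsto hG hq hκ hθ hsub hL hx0 hx a a, mB_ae_tendsto hG hq hκ hθ hsub hL hx0 hx a b] with ξ h1 h2
      exact hΨc.continuousAt.tendsto.comp (tendsto_cav hθ (fun k => abs_mB_le_tr hκ hθ a k ξ a) (fun k => abs_mB_le_tr hκ hθ a k ξ b)
        (hinf ξ a) (hinf ξ b) h1 h2))
    (M := M) (fun k ξ => hΨb _)
  have ht2 := TransferAux.integral_le_of_ae_tendsto (P := noiseP V)
    (Y := fun k ξ => Ψ (cavM θ₂ (mB G θ₂ a k L₂ κ ℓ x ξ) a b)) (Z := fun ξ => Ψ (cavM θ₂ (mInf G θ₂ L₂ κ ℓ x ξ) a b))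
    (fun k => hΨc.measurable.comp (measurable_cavM_of (fun ξ => mB G θ₂ a k L₂ κ ℓ x ξ) (measurable_mB_tr hκ a k a) (measurable_mB_tr hκ a k b)))
    (by
      filter_upwards [mB_ae_tendsto hG hq hκ hθ' hsub' hL₂ hx0 hx a a, mB_ae_tendsto hG hq hκ hθ' hsub' hL₂ hx0 hx a b] with ξ h1 h2
      exact hΨc.continuousAt.tendsto.comp (tendsto_cav hθ' (fun k => abs_mB_le_tr hκ hθ' a k ξ a) (fun k => abs_mB_le_tr hκ hθ' a k ξ b)
        (hinf₂ ξ a) (hinf₂ ξ b) h1 h2))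
    (M := M) (fun k ξ => hΨb _)
  refine le_of_tendsto_of_tendsto ht1 ht2 ?_
  filter_upwards [Filter.eventually_ge_atTop 1] with k hk
  have hd : G.dist a b = G.dist a a + 1 := by simp [SimpleGraph.dist_eq_one_iff_adj.2 hab]
  have hRb : G.dist a b ≤ k := by rw [SimpleGraph.dist_eq_one_iff_adj.2 hab]; exact hk
  have l1 := law_cav hG hκ hθ hx0 hx (L := L) (ℓ := ℓ) hab hd hRb hΨBM
  have l2 := law_cav hG hκ hθ' hx0 hx (L := L₂) (ℓ := ℓ) hab hd hRb hΨBM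
  have hB := blackwell hG hθ hθ' hθθ' (refines_gS hκ hLL hL hx0 hx) (n := k - G.dist a b) (n' := k - G.dist a b) le_rfl hΨconv hΨc.continuousOn hΨe hab
  exact (l1.le.trans hB).trans l2.ge

end strict

end Crest.Agent.Lib.TI
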